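import Crest.Agent.R78.Basic

/-! # R78: contour integrals on strips, Fourier uniqueness, Plancherel (tasks `Strip`) -/

set_option autoImplicit false
set_option linter.unusedSectionVars false
open Filter Topology
open scoped InnerProductSpace

namespace Crest.Agent.R78

universe u
variable {H : Type u} [NormedAddCommGroup H] [InnerProductSpace ℂ H] [CompleteSpace H]

open MeasureTheory Complex

theorem strip_integrable_exp_abs {b : ℝ} (hb : 0 < b) :
    Integrable fun s : ℝ => Real.exp (-b * |s|) := by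
  have h1 : IntegrableOn (fun s : ℝ => Real.exp (-b * |s|)) (Set.Ioi 0) :=
    (exp_neg_integrableOn_Ioi 0 hb).congr_fun (fun s hs => by simp only [abs_of_pos (Set.mem_Ioi.1 hs)])
      measurableSet_Ioi
  have h2 : IntegrableOn (fun s : ℝ => Real.exp (-b * |s|)) (Set.Iic 0) := by
    have := (integrableOn_exp_mul_Iic hb 0)
    exact this.congr_fun (fun s hs => by simp only [abs_of_nonpos (Set.mem_Iic.1 hs)]; ring_nf) measurableSet_Iic
  rw [← integrableOn_univ, ← Set.Iic_union_Ioi (a := (0 : ℝ))]
  exact h2.union h1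

theorem strip_exp_le_cosh (x : ℝ) : Real.exp |x| ≤ 2 * Real.cosh x := by
  rw [← Real.cosh_abs, Real.cosh_eq]
  linarith [Real.exp_pos (-|x|)]

theorem strip_div_cosh_le {c θ : ℝ} (hc : 0 < c) (s : ℝ) :
    Real.exp (θ * |s|) / Real.cosh (c * s) ≤ 2 * Real.exp (-(c - θ) * |s|) := by
  rw [div_le_iff₀ (Real.cosh_pos _)]
  have h1 := strip_exp_le_cosh (c * s)
  rw [abs_mul, abs_of_pos hc] at h1
  calc Real.exp (θ * |s|) = Real.exp (-(c - θ) * |s|) * Real.exp (c * |s|) := by
        rw [← Real.exp_add]; ring_nf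
    _ ≤ Real.exp (-(c - θ) * |s|) * (2 * Real.cosh (c * s)) :=
        mul_le_mul_of_nonneg_left h1 (Real.exp_pos _).le
    _ = _ := by ring

theorem strip_integrable_real {c φ : ℝ} (hφ : |φ| < c) :
    Integrable fun s : ℝ => Real.exp (φ * s) / Real.cosh (c * s) := by
  have hc : 0 < c := (abs_nonneg _).trans_lt hφ
  refine ((strip_integrable_exp_abs (sub_pos.2 hφ)).const_mul 2).mono'
    (Continuous.aestronglyMeasurable (Continuous.div (by fun_prop) (by fun_prop)
      fun s => (Real.cosh_pos _).ne')) (Eventually.of_forall fun s => ?_)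
  rw [Real.norm_of_nonneg (div_nonneg (Real.exp_pos _).le (Real.cosh_pos _).le)]
  refine le_trans (div_le_div_of_nonneg_right (Real.exp_le_exp.2 ?_) (Real.cosh_pos _).le)
    (strip_div_cosh_le hc s)
  rw [← abs_mul]; exact le_abs_self _

theorem strip_integral_sech {c : ℝ} (hc : 0 < c) : ∫ s : ℝ, 1 / Real.cosh (c * s) = Real.pi / c := by
  have hi : Integrable fun s : ℝ => 1 / Real.cosh (c * s) := by
    simpa using strip_integrable_real (c := c) (φ := 0) (by simpa using hc)
  have hd : ∀ s : ℝ, HasDerivAt (fun s => 2 / c * Real.arctan (Real.exp (c * s)))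
      (1 / Real.cosh (c * s)) s := fun s => by
    have h1 : HasDerivAt (fun s => Real.exp (c * s)) (Real.exp (c * s) * c) s := by
      simpa using ((hasDerivAt_id s).const_mul c).exp
    refine (h1.arctan.const_mul (2 / c)).congr_deriv ?_
    rw [Real.cosh_eq, Real.exp_neg]
    have := Real.exp_pos (c * s)
    field_simp
    ring
  have h1 : Tendsto (fun s => 2 / c * Real.arctan (Real.exp (c * s))) atBot (𝓝 (2 / c * Real.arctan 0)) :=
    ((Real.continuous_arctan.tendsto 0).comp
      (Real.tendsto_exp_atBot.comp (tendsto_id.const_mul_atBot hc))).const_mul _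
  have h2 : Tendsto (fun s => 2 / c * Real.arctan (Real.exp (c * s))) atTop (𝓝 (2 / c * (Real.pi / 2))) :=
    ((tendsto_nhds_of_tendsto_nhdsWithin Real.tendsto_arctan_atTop).comp
      (Real.tendsto_exp_atTop.comp (tendsto_id.const_mul_atTop hc))).const_mul _
  rw [integral_of_hasDerivAt_of_tendsto hd hi h1 h2, Real.arctan_zero]
  ring

theorem strip_shift {E : Type*} [NormedAddCommGroup E] [NormedSpace ℂ E] [CompleteSpace E]
    {f : ℂ → E} {a b : ℝ} (hf : DifferentiableOn ℂ f {z | z.im ∈ Set.uIcc a b})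
    (ia : Integrable fun s : ℝ => f (s + a * I)) (ib : Integrable fun s : ℝ => f (s + b * I))
    {g : ℝ → ℝ} (hg : Tendsto g atTop (𝓝 0))
    (hbd : ∀ᶠ R : ℝ in atTop, ∀ y ∈ Set.uIcc a b, ‖f (R + y * I)‖ ≤ g R ∧ ‖f ((-R : ℝ) + y * I)‖ ≤ g R) :
    ∫ s : ℝ, f (s + a * I) = ∫ s : ℝ, f (s + b * I) := by
  have t1 := intervalIntegral_tendsto_integral ia tendsto_neg_atTop_atBot tendsto_id
  have t2 := intervalIntegral_tendsto_integral ib tendsto_neg_atTop_atBot tendsto_id
  have t3 : Tendsto (fun R : ℝ => (∫ x : ℝ in -R..R, f (x + a * I)) - ∫ x : ℝ in -R..R, f (x + b * I))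
      atTop (𝓝 0) := by
    refine squeeze_zero_norm' (a := fun R => g R * |b - a| + g R * |b - a|) ?_ ?_
    · filter_upwards [hbd] with R hR
      have h := integral_boundary_rect_eq_zero_of_differentiableOn f ⟨-R, a⟩ ⟨R, b⟩
        (hf.mono fun z hz => hz.2)
      simp only at h
      have e : (∫ x : ℝ in -R..R, f (x + a * I)) - ∫ x : ℝ in -R..R, f (x + b * I) =
          I • (∫ y : ℝ in a..b, f ((-R : ℝ) + y * I)) - I • (∫ y : ℝ in a..b, f (R + y * I)) := by
        rw [← sub_eq_zero, ← h]; abel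
      rw [e]
      refine (norm_sub_le _ _).trans (add_le_add ?_ ?_) <;> rw [norm_smul, norm_I, one_mul]
      · exact intervalIntegral.norm_integral_le_of_norm_le_const
          fun y hy => (hR y (Set.uIoc_subset_uIcc hy)).2
      · exact intervalIntegral.norm_integral_le_of_norm_le_const
          fun y hy => (hR y (Set.uIoc_subset_uIcc hy)).1
    · simpa using (hg.mul_const |b - a|).add (hg.mul_const |b - a|)
  exact sub_eq_zero.1 (tendsto_nhds_unique (t1.sub t2) t3)

theorem strip_norm_sinh (x y : ℝ) : |Real.sinh x| ≤ ‖sinh (x + y * I)‖ := by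
  rw [sinh_add, cosh_mul_I, sinh_mul_I, ← ofReal_sinh, ← ofReal_cosh, ← ofReal_cos, ← ofReal_sin,
    ← mul_assoc, ← ofReal_mul, ← ofReal_mul, norm_add_mul_I]
  refine Real.abs_le_sqrt ?_
  have h1 := Real.cosh_sq x
  have h2 := Real.sin_sq_add_cos_sq y
  nlinarith [sq_nonneg (Real.sin y)]

theorem strip_sinh_ne {z : ℂ} (hz : |z.im| < 1) (h0 : z ≠ 0) : sinh (Real.pi * z) ≠ 0 := by
  intro h
  have h1 : sin (Real.pi * z * I) = 0 := by rw [sin_mul_I, h, zero_mul]
  obtain ⟨k, hk⟩ := Complex.sin_eq_zero_iff.1 h1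
  have hpi : (Real.pi : ℂ) ≠ 0 := ofReal_ne_zero.2 Real.pi_ne_zero
  have h2 : z * I = k := by
    apply mul_left_cancel₀ hpi; rw [← mul_assoc, hk]; ring
  have h3 : -z.im = k := by simpa using congrArg Complex.re h2
  have h4 : |(k : ℝ)| < 1 := by rw [← h3, abs_neg]; exact hz
  have h5 : k = 0 := by
    have : |k| < 1 := by exact_mod_cast h4
    exact Int.abs_lt_one_iff.1 this
  rw [h5] at h2
  exact h0 (by simpa using h2)

theorem integrable_exp_div_cosh {φ : ℝ} (hφ : |φ| < Real.pi) :
    Integrable fun s : ℝ => ((Real.exp (φ * s) / Real.cosh (Real.pi * s) : ℝ) : ℂ) :=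
  (strip_integrable_real hφ).ofReal

theorem residue_strip {f : ℂ → ℂ} (hf : DifferentiableOn ℂ f {z | |z.im| < 1}) {C : ℝ}
    (hb : ∀ z : ℂ, |z.im| ≤ 1 / 2 → ‖f z‖ ≤ C) {φ : ℝ} (hφ : |φ| < Real.pi) :
    f 0 = ∫ s : ℝ, ((Real.exp (φ * s) / Real.cosh (Real.pi * s) : ℝ) : ℂ) *
      ((exp (I * φ / 2) * f (s + I / 2) + exp (-(I * φ / 2)) * f (s - I / 2)) / 2) := by
  have hU : IsOpen {z : ℂ | |z.im| < 1} := isOpen_lt (by fun_prop) continuous_const
  have h0 : {z : ℂ | |z.im| < 1} ∈ 𝓝 (0 : ℂ) := hU.mem_nhds (by simp)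
  have hpi := Real.pi_pos
  set F : ℂ → ℂ := fun z => exp (φ * z) * f z with hF
  set S : ℂ → ℂ := fun z => sinh (Real.pi * z) with hS
  have hFd : DifferentiableOn ℂ F {z | |z.im| < 1} := DifferentiableOn.mul (by fun_prop) hf
  have hSd : Differentiable ℂ S := by fun_prop
  set u : ℂ → ℂ := fun z => dslope F 0 z / dslope S 0 z with hu
  have hune : ∀ z : ℂ, z ≠ 0 → u z = (F z - f 0) / S z := fun z hz => by
    simp only [hu, dslope_of_ne _ hz, slope_def_field, hF, hS, mul_zero, exp_zero, one_mul, sinh_zero,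
      sub_zero]
    rw [div_div_div_cancel_right₀ hz]
  have hud : DifferentiableOn ℂ u {z | |z.im| < 1} := by
    refine ((differentiableOn_dslope h0).2 hFd).div
      ((differentiableOn_dslope h0).2 hSd.differentiableOn) fun z hz => ?_
    by_cases h : z = 0
    · have : HasDerivAt S (cosh (Real.pi * 0) * (Real.pi * 1)) 0 :=
        ((hasDerivAt_id (0 : ℂ)).const_mul (Real.pi : ℂ)).csinh
      rw [h, dslope_same, this.deriv]
      simp [Real.pi_ne_zero]
    · rw [dslope_of_ne _ h, slope_def_field]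
      simp only [hS, mul_zero, sinh_zero, sub_zero]
      exact div_ne_zero (strip_sinh_ne hz h) h
  have hc : ∀ s : ℝ, (Real.cosh (Real.pi * s) : ℂ) ≠ 0 := fun s => ofReal_ne_zero.2 (Real.cosh_pos _).ne'
  let w : ℝ → ℂ := fun s => ((Real.exp (φ * s) / Real.cosh (Real.pi * s) : ℝ) : ℂ)
  let w₀ : ℝ → ℂ := fun s => ((1 / Real.cosh (Real.pi * s) : ℝ) : ℂ)
  have ep : ∀ s : ℝ, u (s + ((1 / 2 : ℝ) : ℂ) * I) =
      -I * (w s * (exp (I * φ / 2) * f (s + I / 2)) - w₀ s * f 0) := fun s => by
    have e1 : (s + ((1 / 2 : ℝ) : ℂ) * I) = s + I / 2 := by push_cast; ring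
    rw [e1, hune _ (fun h => by simpa using congrArg Complex.im h)]
    have e2 : S (s + I / 2) = I * Real.cosh (Real.pi * s) := by
      simp only [hS]
      rw [show (Real.pi : ℂ) * (s + I / 2) = Real.pi * s + (Real.pi / 2) * I by ring, sinh_add,
        cosh_mul_I, sinh_mul_I, Complex.cos_pi_div_two, Complex.sin_pi_div_two]
      push_cast; ring
    have e3 : exp (φ * (s + I / 2)) = Real.exp (φ * s) * exp (I * φ / 2) := by
      push_cast; rw [← exp_add]; ring_nf
    have := hc s
    simp only [hF, e2, e3, w, w₀, ofReal_div, ofReal_one]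
    field_simp
    rw [I_sq]; ring
  have em : ∀ s : ℝ, u (s + ((-(1 / 2) : ℝ) : ℂ) * I) =
      I * (w s * (exp (-(I * φ / 2)) * f (s - I / 2)) - w₀ s * f 0) := fun s => by
    have e1 : (s + ((-(1 / 2) : ℝ) : ℂ) * I) = s - I / 2 := by push_cast; ring
    rw [e1, hune _ (fun h => by simpa using congrArg Complex.im h)]
    have e2 : S (s - I / 2) = -I * Real.cosh (Real.pi * s) := by
      simp only [hS]
      rw [show (Real.pi : ℂ) * (s - I / 2) = Real.pi * s - (Real.pi / 2) * I by ring, sinh_sub,
        cosh_mul_I, sinh_mul_I, Complex.cos_pi_div_two, Complex.sin_pi_div_two]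
      push_cast; ring
    have e3 : exp (φ * (s - I / 2)) = Real.exp (φ * s) * exp (-(I * φ / 2)) := by
      push_cast; rw [← exp_add]; ring_nf
    have := hc s
    simp only [hF, e2, e3, w, w₀, ofReal_div, ofReal_one]
    field_simp
    rw [I_sq]; ring
  have hw : Integrable w := integrable_exp_div_cosh hφ
  have hw₀ : Integrable w₀ := by
    have := integrable_exp_div_cosh (φ := 0) (by simpa using hpi)
    simpa only [zero_mul, Real.exp_zero] using this
  have hline : ∀ (y : ℝ), |y| ≤ 1 / 2 → ∀ c : ℂ, Integrable fun s : ℝ => w s * (c * f (s + y * I)) :=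
    fun y hy c => by
    refine hw.mul_bdd (c := ‖c‖ * C) (Continuous.aestronglyMeasurable (continuous_const.mul ?_))
      (Eventually.of_forall fun s => ?_)
    · exact hf.continuousOn.comp_continuous (by fun_prop) fun s => by simp; linarith
    · rw [norm_mul]
      exact mul_le_mul_of_nonneg_left (hb _ (by simpa using hy)) (norm_nonneg _)
  have ip : Integrable fun s : ℝ => w s * (exp (I * φ / 2) * f (s + I / 2)) := by
    have := hline (1 / 2) (by norm_num [abs_of_pos]) (exp (I * φ / 2))
    have e : ∀ s : ℝ, (s : ℂ) + ((1 / 2 : ℝ) : ℂ) * I = s + I / 2 := fun s => by push_cast; ring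
    simpa only [e] using this
  have im : Integrable fun s : ℝ => w s * (exp (-(I * φ / 2)) * f (s - I / 2)) := by
    have := hline (-(1 / 2)) (by norm_num [abs_of_pos]) (exp (-(I * φ / 2)))
    have e : ∀ s : ℝ, (s : ℂ) + ((-(1 / 2) : ℝ) : ℂ) * I = s - I / 2 := fun s => by push_cast; ring
    simpa only [e] using this
  have i0 : Integrable fun s : ℝ => w₀ s * f 0 := hw₀.mul_const _
  have hsub : ∀ y ∈ Set.uIcc (-(1 / 2) : ℝ) (1 / 2), |y| ≤ 1 / 2 := fun y hy => by
    rw [Set.uIcc_of_le (by norm_num)] at hy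
    exact abs_le.2 hy
  have hC : 0 ≤ C := (norm_nonneg _).trans (hb 0 (by simp))
  have key := strip_shift (f := u) (a := -(1 / 2)) (b := 1 / 2)
    (hud.mono fun z hz => lt_of_le_of_lt (hsub _ hz) (by norm_num))
    (by simp only [em]; exact (im.sub i0).const_mul _)
    (by simp only [ep]; exact (ip.sub i0).const_mul _)
    (g := fun R => 8 * C * Real.exp (-(Real.pi - |φ|) * R))
    (by
      have := (Real.tendsto_exp_atBot.comp
        (tendsto_id.const_mul_atTop_of_neg (r := -(Real.pi - |φ|)) (by linarith))).const_mul (8 * C)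
      simpa using this)
    (by
      filter_upwards [eventually_ge_atTop (1 : ℝ)] with R hR y hy
      have main : ∀ x : ℝ, |x| = R → ‖u (x + y * I)‖ ≤ 8 * C * Real.exp (-(Real.pi - |φ|) * R) := by
        intro x hx
        have hx0 : x ≠ 0 := by rintro rfl; simp at hx; linarith
        rw [hune _ (fun h => hx0 (by simpa using congrArg Complex.re h)), norm_div]
        have a1 : Real.exp (Real.pi * R) ≤ 4 * ‖S (x + y * I)‖ := by
          have b1 := strip_norm_sinh (Real.pi * x) (Real.pi * y)
          have b2 : S (x + y * I) = sinh (((Real.pi * x : ℝ) : ℂ) + ((Real.pi * y : ℝ) : ℂ) * I) := by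
            simp only [hS]; congr 1; push_cast; ring
          rw [Real.abs_sinh, abs_mul, abs_of_pos hpi, hx, Real.sinh_eq] at b1
          have b3 : Real.exp (-(Real.pi * R)) ≤ 1 := Real.exp_le_one_iff.2 (by nlinarith)
          have b4 : Real.pi * R + 1 ≤ Real.exp (Real.pi * R) := Real.add_one_le_exp _
          have b5 := Real.pi_gt_three
          rw [b2]; nlinarith
        have a2 : ‖F (x + y * I) - f 0‖ ≤ 2 * C * Real.exp (|φ| * R) := by
          have b1 : ‖F (x + y * I)‖ ≤ Real.exp (|φ| * R) * C := by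
            simp only [hF, norm_mul, norm_exp]
            refine mul_le_mul (Real.exp_le_exp.2 ?_) (hb _ (by simpa using hsub y hy)) (norm_nonneg _)
              (Real.exp_pos _).le
            rw [← hx, ← abs_mul]
            simpa using le_abs_self (φ * x)
          have b2 : 1 ≤ Real.exp (|φ| * R) := Real.one_le_exp (by positivity)
          have b3 := hb 0 (by simp)
          refine (norm_sub_le _ _).trans ?_
          nlinarith
        have a3 : 0 < ‖S (x + y * I)‖ := by nlinarith [Real.exp_pos (Real.pi * R)]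
        rw [div_le_iff₀ a3]
        calc _ ≤ 2 * C * Real.exp (|φ| * R) := a2
          _ = 2 * C * Real.exp (-(Real.pi - |φ|) * R) * Real.exp (Real.pi * R) := by
              rw [mul_assoc (2 * C), ← Real.exp_add]; ring_nf
          _ ≤ 2 * C * Real.exp (-(Real.pi - |φ|) * R) * (4 * ‖S (x + y * I)‖) :=
              mul_le_mul_of_nonneg_left a1 (by positivity)
          _ = _ := by ring
      exact ⟨main R (abs_of_pos (by linarith)), main (-R) (by rw [abs_neg, abs_of_pos (by linarith)])⟩)
  simp only [em, ep] at key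
  rw [integral_const_mul, integral_const_mul, integral_sub im i0, integral_sub ip i0] at key
  have e0 : ∫ s : ℝ, w₀ s * f 0 = f 0 := by
    rw [integral_mul_const]
    simp only [w₀]
    rw [integral_complex_ofReal, strip_integral_sech hpi, div_self hpi.ne']; simp
  rw [e0] at key
  have e1 : (fun s : ℝ => w s * ((exp (I * φ / 2) * f (s + I / 2) + exp (-(I * φ / 2)) * f (s - I / 2)) / 2)) =
      fun s : ℝ => (w s * (exp (I * φ / 2) * f (s + I / 2)) +
        w s * (exp (-(I * φ / 2)) * f (s - I / 2))) / 2 := by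
    funext s; ring
  change f 0 = ∫ s : ℝ, w s * _
  rw [e1, integral_div, integral_add ip im]
  have := mul_left_cancel₀ I_ne_zero (key.trans (neg_mul_comm _ _))
  linear_combination (-1 / 2 : ℂ) * this

theorem integrable_sech :
    Integrable fun s : ℝ => ((1 / Real.cosh (2 * Real.pi * s) : ℝ) : ℂ) := by
  have := strip_integrable_real (c := 2 * Real.pi) (φ := 0) (by simpa using Real.pi_pos)
  simp only [zero_mul, Real.exp_zero] at this
  exact this.ofReal

theorem integral_sech_le : ∫ s : ℝ, 1 / Real.cosh (2 * Real.pi * s) ≤ 1 := by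
  rw [strip_integral_sech (by positivity), div_le_one (by positivity)]
  linarith [Real.pi_pos]

theorem residue_strip4 {f : ℂ → ℂ} (hf : Differentiable ℂ f) {C : ℝ}
    (hb : ∀ z : ℂ, |z.im| ≤ 1 / 4 → ‖f z‖ ≤ C) :
    f 0 = ∫ s : ℝ, ((1 / Real.cosh (2 * Real.pi * s) : ℝ) : ℂ) *
      (f (s + I / 4) + f (s - I / 4)) := by
  have h := residue_strip (f := fun z => f (z / 2)) (C := C) (φ := 0)
    (Differentiable.differentiableOn (by fun_prop))
    (fun z hz => hb _ (by
      rw [div_ofNat_im, abs_div, abs_two]; linarith)) (by simpa using Real.pi_pos)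
  have h2 := Measure.integral_comp_div (fun s : ℝ => ((1 / Real.cosh (2 * Real.pi * s) : ℝ) : ℂ) *
      (f (s + I / 4) + f (s - I / 4)) / 2) 2
  rw [abs_two, real_smul] at h2
  rw [zero_div] at h
  rw [h]
  refine Eq.trans ?_ (h2.trans (by rw [integral_div, ofReal_ofNat, mul_div_cancel₀ _ two_ne_zero]))
  congr 1
  funext s
  simp only [zero_mul, Real.exp_zero, ofReal_zero, mul_zero, zero_div, neg_zero, exp_zero, one_mul]
  rw [show 2 * Real.pi * (s / 2) = Real.pi * s by ring,
    show ((s : ℂ) + I / 2) / 2 = ((s / 2 : ℝ) : ℂ) + I / 4 by push_cast; ring,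
    show ((s : ℂ) - I / 2) / 2 = ((s / 2 : ℝ) : ℂ) - I / 4 by push_cast; ring]
  ring

theorem integral_shift {E : Type*} [NormedAddCommGroup E] [NormedSpace ℂ E] [CompleteSpace E]
    {f : ℂ → E} (hf : Differentiable ℂ f) (b : ℝ) {C a : ℝ} (ha : 0 < a)
    (hb : ∀ z : ℂ, |z.im| ≤ |b| → ‖f z‖ ≤ C * Real.exp (-a * z.re ^ 2)) :
    ∫ s : ℝ, f (s + b * I) = ∫ s : ℝ, f s := by
  have hi : ∀ y : ℝ, |y| ≤ |b| → Integrable fun s : ℝ => f (s + y * I) := fun y hy =>
    ((integrable_exp_neg_mul_sq ha).const_mul C).mono'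
      (hf.continuous.comp (by fun_prop)).aestronglyMeasurable
      (Eventually.of_forall fun s => by simpa using hb (s + y * I) (by simpa using hy))
  have := strip_shift (f := f) (a := b) (b := 0) hf.differentiableOn (hi b le_rfl) (hi 0 (by simp))
    (g := fun R => C * Real.exp (-a * R ^ 2))
    (by
      have := (Real.tendsto_exp_atBot.comp ((tendsto_pow_atTop (α := ℝ) two_ne_zero).const_mul_atTop_of_neg
        (r := -a) (by linarith))).const_mul C
      simpa using this)
    (Eventually.of_forall fun R y hy => by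
      have hy' : |y| ≤ |b| := by
        simpa using Set.abs_sub_right_of_mem_uIcc hy
      exact ⟨by simpa using hb (R + y * I) (by simpa using hy'),
        by simpa using hb ((-R : ℝ) + y * I) (by simpa using hy')⟩)
  simpa using this

open scoped FourierTransform in
theorem eq_zero_of_fourier {E : Type*} [NormedAddCommGroup E] [NormedSpace ℂ E] [CompleteSpace E]
    {k : ℝ → E} (hc : Continuous k) (hi : Integrable k)
    (h : ∀ w : ℝ, ∫ s : ℝ, exp (I * w * s) • k s = 0) : k = 0 := by
  have h1 : 𝓕 k = 0 := by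
    funext w
    rw [Real.fourier_real_eq_integral_exp_smul, Pi.zero_apply, ← h (-2 * Real.pi * w)]
    congr 1
    funext s
    congr 2
    push_cast; ring
  have h2 := hc.fourierInv_fourier_eq hi (by rw [h1]; exact integrable_zero _ _ _)
  rw [h1] at h2
  rw [← h2]
  funext v
  simp [Real.fourierInv_eq]

theorem eq_zero_of_laplace {k : ℝ → ℂ} (hc : Continuous k) {C : ℝ} (hb : ∀ s, ‖k s‖ ≤ C)
    (h : ∀ φ : ℝ, |φ| < Real.pi →
      ∫ s : ℝ, ((Real.exp (φ * s) / Real.cosh (Real.pi * s) : ℝ) : ℂ) * k s = 0) : k = 0 := by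
  have hpi := Real.pi_pos
  let k' : ℝ → ℂ := fun s => ((1 / Real.cosh (Real.pi * s) : ℝ) : ℂ) * k s
  have hk' : Continuous k' := (continuous_ofReal.comp (continuous_const.div (by fun_prop)
    fun s => (Real.cosh_pos _).ne')).mul hc
  have hC : 0 ≤ C := (norm_nonneg _).trans (hb 0)
  have hnk : ∀ s, ‖k' s‖ ≤ C / Real.cosh (Real.pi * s) := fun s => by
    have := Real.cosh_pos (Real.pi * s)
    simp only [k', norm_mul, norm_real, Real.norm_of_nonneg (one_div_pos.2 this).le]
    rw [one_div, ← div_eq_inv_mul]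
    exact div_le_div_of_nonneg_right (hb s) this.le
  have hbd : ∀ (w : ℂ) (s : ℝ), |w.re| ≤ 1 → ‖exp (w * s)‖ ≤ Real.exp |s| := fun w s hw => by
    rw [norm_exp]
    refine Real.exp_le_exp.2 ?_
    have : (w * s).re = w.re * s := by simp
    rw [this]
    refine (le_abs_self _).trans ?_
    rw [abs_mul]
    exact mul_le_of_le_one_left (abs_nonneg _) hw
  have hint : Integrable fun s : ℝ => C * (2 * Real.exp (-(Real.pi - 2) * |s|)) :=
    ((strip_integrable_exp_abs (by linarith [Real.pi_gt_three])).const_mul 2).const_mul C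
  have hmain : ∀ s : ℝ, Real.exp |s| * Real.exp |s| * (C / Real.cosh (Real.pi * s)) ≤
      C * (2 * Real.exp (-(Real.pi - 2) * |s|)) := fun s => by
    rw [← Real.exp_add, ← two_mul, mul_div_left_comm]
    exact mul_le_mul_of_nonneg_left (strip_div_cosh_le hpi s) hC
  have hU : IsOpen {w : ℂ | |w.re| < 1} := isOpen_lt (by fun_prop) continuous_const
  have hI : ∀ w : ℂ, |w.re| < 1 → Integrable fun s : ℝ => exp (w * s) * k' s := fun w hw => by
    refine hint.mono' (Continuous.aestronglyMeasurable (by fun_prop)) (Eventually.of_forall fun s => ?_)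
    refine le_trans ?_ (hmain s)
    rw [norm_mul]
    refine mul_le_mul ((hbd w s hw.le).trans ?_) (hnk s) (norm_nonneg _) (by positivity)
    exact le_mul_of_one_le_left (Real.exp_pos _).le (Real.one_le_exp (abs_nonneg _))
  have hd : DifferentiableOn ℂ (fun w : ℂ => ∫ s : ℝ, exp (w * s) * k' s) {w : ℂ | |w.re| < 1} := by
    intro w hw
    refine (hasDerivAt_integral_of_dominated_loc_of_deriv_le (hU.mem_nhds hw)
      (F := fun (w : ℂ) (s : ℝ) => exp (w * s) * k' s)
      (F' := fun (w : ℂ) (s : ℝ) => exp (w * s) * s * k' s)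
      (Eventually.of_forall fun w => Continuous.aestronglyMeasurable (by fun_prop)) (hI w hw)
      (Continuous.aestronglyMeasurable (by fun_prop)) (Eventually.of_forall fun s w hw => ?_) hint
      (Eventually.of_forall fun s w _ => ?_)).2.differentiableAt.differentiableWithinAt
    · refine le_trans ?_ (hmain s)
      rw [norm_mul, norm_mul, norm_real, Real.norm_eq_abs]
      refine mul_le_mul (mul_le_mul (hbd w s (le_of_lt hw)) ?_ (abs_nonneg _) (Real.exp_pos _).le)
        (hnk s) (norm_nonneg _) (by positivity)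
      linarith [Real.add_one_le_exp |s|]
    · simpa using (((hasDerivAt_id w).mul_const (s : ℂ)).cexp).mul_const (k' s)
  have hconv : Convex ℝ {w : ℂ | |w.re| < 1} := by
    have : {w : ℂ | |w.re| < 1} = reLm ⁻¹' Set.Ioo (-1) 1 := by
      ext w; simp [abs_lt]
    rw [this]
    exact (convex_Ioo _ _).linear_preimage _
  have hz := (hd.analyticOnNhd hU).eqOn_zero_of_preconnected_of_frequently_eq_zero
    hconv.isPreconnected (z₀ := 0) (by simp) (by
      have t : Tendsto (fun n : ℕ => ((1 / ((n : ℝ) + 1) : ℝ) : ℂ)) atTop (𝓝[≠] 0) := by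
        refine tendsto_nhdsWithin_iff.2 ⟨?_, Eventually.of_forall fun n => ?_⟩
        · exact (continuous_ofReal.tendsto 0).comp tendsto_one_div_add_atTop_nhds_zero_nat
        · exact ofReal_ne_zero.2 (by positivity)
      refine t.frequently (Frequently.of_forall fun n => ?_)
      rw [← h (1 / ((n : ℝ) + 1)) (by
        rw [abs_of_pos (by positivity)]
        refine lt_of_le_of_lt ((div_le_one (by positivity)).2 (by linarith [n.cast_nonneg (α := ℝ)])) ?_
        linarith [Real.pi_gt_three])]
      congr 1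
      funext s
      simp only [k']
      push_cast; ring)
  have h0 : k' = 0 := eq_zero_of_fourier hk' (by simpa using hI 0 (by simp)) fun w => by
    simpa using hz (x := I * w) (by simp)
  funext s
  have := congrFun h0 s
  simp only [k', Pi.zero_apply, mul_eq_zero, ofReal_eq_zero] at this
  exact this.resolve_left (one_div_pos.2 (Real.cosh_pos _)).ne'

end Crest.Agent.R78
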