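import Crest.Agent.R78.TomDef
import Crest.Agent.R78.Strip

/-! # R78: analytic families (task `AF`) -/

set_option autoImplicit false
set_option linter.unusedSectionVars false
open Filter Topology
open scoped InnerProductSpace

namespace Crest.Agent.R78

universe u
variable {H : Type u} [NormedAddCommGroup H] [InnerProductSpace ℂ H] [CompleteSpace H]

open MeasureTheory Complex

variable {M : VonNeumannAlgebra H} {ξ : H}

theorem differentiable_gau (a : ℝ) (b : ℂ) : Differentiable ℂ (gau a b) := by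
  unfold gau; fun_prop

theorem gau_bd {a : ℝ} (ha : 0 < a) (b : ℂ) (c : ℝ) : ∃ K, 0 ≤ K ∧ ∀ w : ℂ, |w.im| ≤ c →
    ‖gau a b w‖ ≤ K * Real.exp (-(a / 2) * w.re ^ 2) := by
  refine ⟨Real.exp (a * c ^ 2 + |b.im| * c + b.re ^ 2 / (2 * a)), (Real.exp_pos _).le,
    fun w hw => ?_⟩
  rw [gau, norm_exp, ← Real.exp_add, Real.exp_le_exp]
  have h1 : w.im ^ 2 ≤ c ^ 2 := by rw [← sq_abs]; gcongr
  have h2 : -(b.im * w.im) ≤ |b.im| * c := by
    refine (neg_le_abs _).trans ?_
    rw [abs_mul]; gcongr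
  have h3 : b.re * w.re ≤ a / 2 * w.re ^ 2 + b.re ^ 2 / (2 * a) := by
    rw [← sub_nonneg, show a / 2 * w.re ^ 2 + b.re ^ 2 / (2 * a) - b.re * w.re =
      (a * w.re - b.re) ^ 2 / (2 * a) by field_simp; ring]
    positivity
  simp only [sq, add_re, mul_re, neg_re, ofReal_re, neg_im, ofReal_im, mul_im] at *
  nlinarith

theorem integrable_gau' {a : ℝ} (ha : 0 < a) (b z : ℂ) :
    Integrable fun s : ℝ => gau a b (s - z) := by
  obtain ⟨K, -, hK⟩ := gau_bd ha b |z.im|
  refine (((integrable_exp_neg_mul_sq (half_pos ha)).comp_sub_right z.re).const_mul K).mono'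
    ((differentiable_gau a b).continuous.comp (by fun_prop)).aestronglyMeasurable
    (.of_forall fun s => ?_)
  simpa using hK (s - z) (by simp)

theorem differentiable_gau_int {a : ℝ} (ha : 0 < a) (b : ℂ) {φ : ℝ → ℂ} (hφ : Continuous φ)
    {C : ℝ} (hC : ∀ s, ‖φ s‖ ≤ C) :
    Differentiable ℂ fun z : ℂ => ∫ s : ℝ, gau a b (s - z) * φ s := by
  intro z
  have hg := differentiable_gau a b
  have hg' : Continuous (deriv (gau a b)) := (hg.contDiff (n := 1)).continuous_deriv le_rfl
  obtain ⟨K, hK0, hK⟩ := gau_bd ha b (|z.im| + 2)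
  have hgc := hg.continuous
  have c1 : ∀ w : ℂ, Continuous fun s : ℝ => gau a b (s - w) * φ s := fun w => by fun_prop
  have c2 : Continuous fun s : ℝ => deriv (gau a b) (s - z) * (-1) * φ s := by fun_prop
  have i1 : Integrable fun s : ℝ => gau a b (s - z) * φ s :=
    (integrable_gau' ha b z).mul_bdd hφ.aestronglyMeasurable (.of_forall hC)
  have i2 : Integrable fun s : ℝ =>
      K * Real.exp (2 * a) * C * Real.exp (-(a / 4) * (s - z.re) ^ 2) :=
    ((integrable_exp_neg_mul_sq (show 0 < a / 4 by positivity)).comp_sub_right z.re).const_mul _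
  have d1 : ∀ (s : ℝ) (w : ℂ), HasDerivAt (fun w : ℂ => gau a b (s - w) * φ s)
      (deriv (gau a b) (s - w) * (-1) * φ s) w := fun s w =>
    ((hg (s - w)).hasDerivAt.comp w ((hasDerivAt_id w).const_sub (s : ℂ))).mul_const (φ s)
  refine (hasDerivAt_integral_of_dominated_loc_of_deriv_le (Metric.ball_mem_nhds z one_pos)
    (F := fun (w : ℂ) (s : ℝ) => gau a b (s - w) * φ s)
    (F' := fun (w : ℂ) (s : ℝ) => deriv (gau a b) (s - w) * (-1) * φ s)
    (.of_forall fun w => (c1 w).aestronglyMeasurable) i1 c2.aestronglyMeasurable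
    (.of_forall fun s w hw => ?_) i2 (.of_forall fun s w _ => d1 s w)).2.differentiableAt
  have h1 := norm_deriv_le_of_forall_mem_sphere_norm_le (c := s - w) one_pos hg.diffContOnCl
    (C := K * Real.exp (2 * a) * Real.exp (-(a / 4) * (s - z.re) ^ 2)) fun u hu => by
      have a1 : ‖u - (s - z)‖ ≤ 2 := by
        rw [show u - (s - z) = (u - (s - w)) - (w - z) by ring]
        refine (norm_sub_le_of_le (mem_sphere_iff_norm.1 hu).le (mem_ball_iff_norm.1 hw).le).trans
          (by norm_num)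
      have a2 := abs_le.1 ((abs_im_le_norm _).trans a1)
      have a3 := abs_le.1 ((abs_re_le_norm _).trans a1)
      simp only [sub_im, sub_re, ofReal_im, ofReal_re] at a2 a3
      refine (hK u (abs_le.2 ⟨by linarith [le_abs_self z.im], by linarith [neg_abs_le z.im]⟩)).trans ?_
      rw [mul_assoc, ← Real.exp_add]
      gcongr
      have : (s - z.re) ^ 2 ≤ 2 * u.re ^ 2 + 8 := by nlinarith [sq_nonneg (2 * u.re - (s - z.re))]
      nlinarith
  rw [norm_mul, norm_mul, norm_neg, norm_one, mul_one, mul_right_comm]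
  exact mul_le_mul (by simpa using h1) (hC s) (norm_nonneg _) (by positivity)

theorem eq_zero_of_gau {v : ℝ → H} (hv : Continuous v) {C : ℝ} (hC : ∀ s, ‖v s‖ ≤ C)
    (h : ∀ q : ℚ, ∫ s : ℝ, gau 1 (I * (q : ℝ)) s • v s = 0) : v 0 = 0 := by
  have hc : Continuous fun s : ℝ => gau 1 0 s • v s :=
    ((differentiable_gau 1 0).continuous.comp continuous_ofReal).smul hv
  have hi : Integrable fun s : ℝ => gau 1 0 s • v s := by
    have := integrable_gau' one_pos 0 0
    simp only [sub_zero] at this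
    refine (this.norm.mul_const C).mono' hc.aestronglyMeasurable (.of_forall fun s => ?_)
    rw [norm_smul]
    exact mul_le_mul_of_nonneg_left (hC s) (norm_nonneg _)
  have h1 : Continuous fun w : ℝ => ∫ s : ℝ, exp (I * w * s) • gau 1 0 s • v s := by
    refine continuous_of_dominated (fun w => (Continuous.smul (by fun_prop) hc).aestronglyMeasurable)
      (fun w => .of_forall fun s => ?_) hi.norm (.of_forall fun s => by fun_prop)
    rw [norm_smul, norm_exp]
    simp
  have h2 := Rat.denseRange_cast.equalizer h1 (continuous_const (y := 0)) (funext fun q => by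
    rw [Function.comp, Function.comp, ← h q]
    refine integral_congr_ae (.of_forall fun s => ?_)
    simp only [gau, smul_smul, ← exp_add]
    congr 2; ring)
  simpa [gau] using congrFun (eq_zero_of_fourier hc hi fun w => congrFun h2 w) 0

theorem strong_of_cyc (hc' : Cyc M.commutant ξ) {d : ℕ → Op H} (hd : ∀ k, d k ∈ M) {C : ℝ}
    (hC : ∀ k, ‖d k‖ ≤ C) (h0 : Tendsto (fun k => d k ξ) atTop (𝓝 0)) (η : H) :
    Tendsto (fun k => d k η) atTop (𝓝 0) := by
  have C0 := (norm_nonneg _).trans (hC 0)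
  rw [NormedAddGroup.tendsto_nhds_zero]
  intro ε hε
  obtain ⟨_, ⟨m, hm, rfl⟩, h1⟩ := hc'.exists_dist_lt η (show 0 < ε / 2 / (C + 1) by positivity)
  have h2 := (m.continuous.tendsto 0).comp h0
  rw [map_zero, NormedAddGroup.tendsto_nhds_zero] at h2
  filter_upwards [h2 (ε / 2) (half_pos hε)] with k hk
  have e : d k η = d k (η - m ξ) + m (d k ξ) := by
    have := congrArg (fun T : Op H => T ξ) (comm_of_mem (hd k) hm)
    simp only [mul_apply_eq_comp] at this
    rw [map_sub, this, sub_add_cancel]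
  rw [dist_eq_norm, lt_div_iff₀ (by positivity)] at h1
  have h3 := ((d k).le_opNorm (η - m ξ)).trans (mul_le_mul_of_nonneg_right (hC k) (norm_nonneg _))
  rw [e]
  refine (norm_add_le_of_le h3 hk.le).trans_lt ?_
  nlinarith [norm_nonneg (η - m ξ)]

/-- `X z = σ_z (X 0)`: an entire covariant family in `M`, bounded on horizontal strips. -/
structure AF (τ : Tomita M ξ) (X : ℂ → Op H) : Prop where
  mem : ∀ z, X z ∈ M
  diff : Differentiable ℂ X
  bd : ∀ b : ℝ, ∃ C, ∀ z : ℂ, |z.im| ≤ b → ‖X z‖ ≤ C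
  cov : ∀ (t : ℝ) (z : ℂ), τ.U t * X z * τ.U (-t) = X (z + t)

namespace AF
variable {τ : Tomita M ξ} {X Y : ℂ → Op H}

theorem add (hX : AF τ X) (hY : AF τ Y) : AF τ fun z => X z + Y z := by
  refine ⟨fun z => add_mem (hX.mem z) (hY.mem z), hX.diff.add hY.diff, fun b => ?_, fun t z => ?_⟩
  · obtain ⟨C, hC⟩ := hX.bd b
    obtain ⟨D, hD⟩ := hY.bd b
    exact ⟨C + D, fun z hz => norm_add_le_of_le (hC z hz) (hD z hz)⟩
  · rw [mul_add, add_mul, hX.cov, hY.cov]

theorem sub (hX : AF τ X) (hY : AF τ Y) : AF τ fun z => X z - Y z := by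
  refine ⟨fun z => sub_mem (hX.mem z) (hY.mem z), hX.diff.sub hY.diff, fun b => ?_, fun t z => ?_⟩
  · obtain ⟨C, hC⟩ := hX.bd b
    obtain ⟨D, hD⟩ := hY.bd b
    exact ⟨C + D, fun z hz => norm_sub_le_of_le (hC z hz) (hD z hz)⟩
  · rw [mul_sub, sub_mul, hX.cov, hY.cov]

theorem smul (hX : AF τ X) (c : ℂ) : AF τ fun z => c • X z := by
  refine ⟨fun z => vn_smul_mem c (hX.mem z), hX.diff.const_smul c, fun b => ?_, fun t z => ?_⟩
  · obtain ⟨C, hC⟩ := hX.bd b
    refine ⟨‖c‖ * C, fun z hz => ?_⟩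
    rw [norm_smul]
    exact mul_le_mul_of_nonneg_left (hC z hz) (norm_nonneg _)
  · rw [mul_smul_comm, smul_mul_assoc, hX.cov]

theorem mul (hX : AF τ X) (hY : AF τ Y) : AF τ fun z => X z * Y z := by
  refine ⟨fun z => mul_mem (hX.mem z) (hY.mem z), hX.diff.mul hY.diff, fun b => ?_, fun t z => ?_⟩
  · obtain ⟨C, hC⟩ := hX.bd b
    obtain ⟨D, hD⟩ := hY.bd b
    exact ⟨C * D, fun z hz => (norm_mul_le _ _).trans
      (mul_le_mul (hC z hz) (hD z hz) (norm_nonneg _) ((norm_nonneg _).trans (hC z hz)))⟩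
  · rw [← hX.cov, ← hY.cov]
    simp only [mul_assoc]
    rw [← mul_assoc (τ.U (-t)), τ.U_neg_mul, one_mul]

theorem shift (hX : AF τ X) (c : ℂ) : AF τ fun z => X (z + c) := by
  refine ⟨fun z => hX.mem _, hX.diff.comp (differentiable_id.add_const c), fun b => ?_,
    fun t z => ?_⟩
  · obtain ⟨C, hC⟩ := hX.bd (b + |c.im|)
    refine ⟨C, fun z hz => hC _ ?_⟩
    rw [add_im]
    exact (abs_add_le _ _).trans (by linarith)
  · rw [hX.cov, add_right_comm]

theorem star_conj (hX : AF τ X) : AF τ fun z => star (X ((starRingEnd ℂ) z)) := by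
  refine ⟨fun z => star_mem (hX.mem _), differentiable_star_conj hX.diff, fun b => ?_,
    fun t z => ?_⟩
  · obtain ⟨C, hC⟩ := hX.bd b
    refine ⟨C, fun z hz => ?_⟩
    rw [norm_star]
    exact hC _ (by simpa using hz)
  · rw [map_add, conj_ofReal, ← hX.cov, star_mul, star_mul, τ.U_star, τ.U_star, neg_neg, mul_assoc]

theorem U_apply (hX : AF τ X) (t : ℝ) (z : ℂ) : τ.U t (X z ξ) = X (z + t) ξ := by
  rw [← hX.cov, mul_apply_eq_comp, mul_apply_eq_comp, τ.U_xi]

/-- With `g = gau 1 (i w)`: by `kms`, `U_apply` and `integral_shift` (for the entire function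
`s ↦ g (s + i/2) • X (z + s) ξ`, shift by `-1/2`)
`∫ g s • U s (J (X z)* ξ) = ∫ g s • X (z + s - i/2) ξ = ∫ g s • U s (X (z - i/2) ξ)`.
Then `eq_zero_of_fourier` and evaluate at `s = 0`. -/
theorem J_star (hX : AF τ X) (z : ℂ) : τ.J (star (X z) ξ) = X (z - I / 2) ξ := by
  refine sub_eq_zero.1 ?_
  have h := eq_zero_of_gau (v := fun s => τ.U s (τ.J (star (X z) ξ) - X (z - I / 2) ξ))
    (τ.U_cont _) (fun s => (τ.norm_U_apply s _).le) fun q => by
      have i1 := fun η => SC.integrable (integrable_gau' one_pos (I * (q : ℝ)) 0) τ.SC_U η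
      simp only [sub_zero] at i1
      obtain ⟨K, hK0, hK⟩ := gau_bd one_pos (I * (q : ℝ)) 1
      obtain ⟨C, hC⟩ := hX.bd (|z.im| + 1 / 2)
      have sh := integral_shift (f := fun s => gau 1 (I * (q : ℝ)) (s + I / 2) • X (z + s) ξ)
        (((differentiable_gau _ _).comp (differentiable_id.add_const _)).smul
          ((hX.diff.comp (differentiable_id.const_add z)).clm_apply (differentiable_const _)))
        (-(1 / 2)) (C := K * (C * ‖ξ‖)) (a := 1 / 2) (by norm_num) fun w hw => by
          rw [abs_neg, abs_of_pos (show (0 : ℝ) < 1 / 2 by norm_num)] at hw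
          have a1 := hK (w + I / 2) (by
            rw [abs_le] at hw ⊢
            simp only [add_im, div_ofNat_im, I_im]
            constructor <;> linarith [hw.1, hw.2])
          have a2 := hC (z + w) (by rw [add_im]; exact (abs_add_le _ _).trans (by linarith))
          rw [norm_smul, mul_right_comm]
          refine mul_le_mul (by simpa using a1) (((X _).le_opNorm _).trans (by gcongr))
            (norm_nonneg _) (by positivity)
      simp only [map_sub, smul_sub]
      rw [integral_sub (i1 _) (i1 _), τ.kms _ (hX.mem z) 1 one_pos, sub_eq_zero]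
      simp only [hX.U_apply]
      rw [← sh]
      refine integral_congr_ae (.of_forall fun s => ?_)
      simp only
      congr 3 <;> push_cast <;> ring
  rwa [τ.U_zero] at h

end AF

theorem Tomita.SC_conj (τ : Tomita M ξ) (x : Op H) :
    SC (fun s => τ.U s * x * τ.U (-s)) ‖x‖ := by
  simpa using (τ.SC_U.mul (SC.const x)).mul (τ.SC_U.comp continuous_neg)

/-- Gaussian smoothing. -/
noncomputable def Tomita.sm (τ : Tomita M ξ) (a : ℝ) (b : ℂ) (x : Op H) (z : ℂ) : Op H :=
  sint (fun s => gau a b (s - z)) fun s => τ.U s * x * τ.U (-s)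

/-- `‖gau a b (s - z)‖ = exp (-a ((s - Re z)² - (Im z)²) + Re (b (s - z)))`. -/
theorem integrable_gau {a : ℝ} (ha : 0 < a) (b z : ℂ) : Integrable fun s : ℝ => gau a b (s - z) := by
  exact integrable_gau' ha b z

/-- `differentiable_of_weak` and differentiation under the integral; covariance by `mul_sint`,
`sint_mul`, `sint_shift`; the bound by `norm_sint_le` and translation invariance. -/
theorem Tomita.af_sm (τ : Tomita M ξ) {a : ℝ} (ha : 0 < a) (b : ℂ) {x : Op H} (hx : x ∈ M) :
    AF τ (τ.sm a b x) := by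
  have hF := τ.SC_conj x
  have hbd : ∀ c : ℝ, ∃ C, ∀ z : ℂ, |z.im| ≤ c → ‖τ.sm a b x z‖ ≤ C := by
    intro c
    obtain ⟨K, -, hK⟩ := gau_bd ha b c
    have i0 := integrable_exp_neg_mul_sq (half_pos ha)
    refine ⟨‖x‖ * (K * ∫ s : ℝ, Real.exp (-(a / 2) * s ^ 2)), fun z hz => ?_⟩
    refine (norm_sint_le (integrable_gau ha b z) hF).trans ?_
    gcongr
    rw [← integral_sub_right_eq_self (fun s : ℝ => Real.exp (-(a / 2) * s ^ 2)) z.re,
      ← integral_const_mul]
    refine integral_mono (integrable_gau ha b z).norm ((i0.comp_sub_right z.re).const_mul K)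
      fun s => ?_
    simpa using hK (s - z) (by simpa using hz)
  refine ⟨fun z => sint_mem (integrable_gau ha b z) hF fun s => τ.U_mem s x hx,
    differentiable_of_weak (fun z => ?_) fun η ζ => ?_, hbd, fun t z => ?_⟩
  · obtain ⟨C, hC⟩ := hbd (|z.im| + 1)
    refine ⟨1, one_pos, C, fun w hw => hC w ?_⟩
    have := (abs_im_le_norm (w - z)).trans (mem_ball_iff_norm.1 hw).le
    rw [sub_im] at this
    linarith [abs_sub_abs_le_abs_sub w.im z.im]
  · simp only [Tomita.sm, inner_sint (integrable_gau ha b _) hF]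
    exact differentiable_gau_int ha b (continuous_const.inner (hF.cont η))
      (C := ‖ζ‖ * (‖x‖ * ‖η‖)) fun s => (norm_inner_le_norm _ _).trans
        (mul_le_mul_of_nonneg_left (hF.norm_apply_le s η) (norm_nonneg _))
  · have hi := integrable_gau ha b z
    rw [Tomita.sm, mul_sint hi hF, sint_mul hi ((SC.const _).mul hF)]
    have e : (fun s => τ.U t * (τ.U s * x * τ.U (-s)) * τ.U (-t)) =
        fun s => τ.U (s + t) * x * τ.U (-(s + t)) := by
      funext s
      rw [add_comm s t, τ.U_add, neg_add_rev, τ.U_add]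
      simp only [mul_assoc]
    rw [e, sint_shift hi hF, Tomita.sm]
    congr 2
    funext s
    congr 1
    push_cast; ring

theorem Tomita.star_sm (τ : Tomita M ξ) {a : ℝ} (ha : 0 < a) (b : ℂ) (x : Op H) (z : ℂ) :
    star (τ.sm a b x z) = τ.sm a ((starRingEnd ℂ) b) (star x) ((starRingEnd ℂ) z) := by
  rw [Tomita.sm, star_sint (integrable_gau ha b z) (τ.SC_conj x), Tomita.sm]
  congr 1
  · funext s
    simp only [gau, ← exp_conj, map_add, map_mul, map_neg, map_pow, map_sub, conj_ofReal]
  · funext s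
    rw [star_mul, star_mul, τ.U_star, τ.U_star, neg_neg, mul_assoc]

/-- The function `s ↦ ⟪ζ, [X, U s x U (-s)] η⟫ exp (-s²)` has vanishing Fourier transform at
all points if it vanishes at the rational points (continuity of the Fourier transform); use
`eq_zero_of_fourier` and evaluate at `0`. -/
theorem Tomita.comm_of_sm (τ : Tomita M ξ) {x X : Op H}
    (h : ∀ q : ℚ, X * τ.sm 1 (I * (q : ℝ)) x 0 = τ.sm 1 (I * (q : ℝ)) x 0 * X) :
    X * x = x * X := by
  have hF := τ.SC_conj x
  have h1 := (SC.const X).mul hF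
  have h2 := hF.mul (SC.const X)
  ext η
  refine sub_eq_zero.1 ?_
  have := eq_zero_of_gau (v := fun s => (X * (τ.U s * x * τ.U (-s))) η -
      (τ.U s * x * τ.U (-s) * X) η) ((h1.cont η).sub (h2.cont η))
    (fun s => norm_sub_le_of_le (h1.norm_apply_le s η) (h2.norm_apply_le s η)) fun q => by
      have hi := integrable_gau one_pos (I * (q : ℝ)) 0
      have e := h q
      rw [Tomita.sm, mul_sint hi hF, sint_mul hi hF] at e
      have e' := congrArg (fun T : Op H => T η) e
      simp only [sint_apply hi h1, sint_apply hi h2] at e'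
      simp only [sub_zero] at e'
      have i1 := h1.integrable hi η
      have i2 := h2.integrable hi η
      simp only [sub_zero] at i1 i2
      simp only [smul_sub]
      rw [integral_sub i1 i2, e', sub_self]
  simpa only [neg_zero, τ.U_zero, one_mul, mul_one] using this

/-- A separably acting algebra is countably generated.  The set `{x ξ | x ∈ M, ‖x‖ ≤ 1}` has a
countable dense subset `{y n ξ}`; if `y n ξ → x ξ` then `y n m' ξ → x m' ξ` for `m' ∈ M'` and so
`y n → x` strongly (bounded, `cyc'`). -/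
theorem exists_gen [TopologicalSpace.SeparableSpace H] (hc' : Cyc M.commutant ξ) :
    ∃ y : ℕ → Op H, (∀ n, y n ∈ M) ∧ ∀ X, (∀ n, X * y n = y n * X) → X ∈ M.commutant := by
  obtain ⟨t, ht, tc, hd⟩ := (TopologicalSpace.IsSeparable.of_separableSpace
    ((fun x : Op H => x ξ) '' {x | x ∈ M ∧ ‖x‖ ≤ 1})).exists_countable_dense_subset
  have hne : t.Nonempty :=
    closure_nonempty_iff.1 ⟨_, hd ⟨0, ⟨zero_mem _, by simp⟩, rfl⟩⟩
  obtain ⟨f, rfl⟩ := tc.exists_eq_range hne
  choose y hy hy' using fun n => ht (Set.mem_range_self n)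
  refine ⟨y, fun n => (hy n).1, fun X hX => VonNeumannAlgebra.mem_commutant_iff.2 ?_⟩
  have key : ∀ x ∈ M, ‖x‖ ≤ 1 → x * X = X * x := by
    intro x hx hx1
    obtain ⟨u, hu, hl⟩ := mem_closure_iff_seq_limit.1 (hd ⟨x, ⟨hx, hx1⟩, rfl⟩)
    choose φ hφ using hu
    have h0 : Tendsto (fun k => (x - y (φ k)) ξ) atTop (𝓝 0) := by
      have := hl.const_sub (x ξ)
      simp only [sub_self] at this
      refine this.congr fun k => ?_
      rw [sub_apply, ← hφ k, ← hy']
    have h1 := strong_of_cyc hc' (fun k => sub_mem hx (hy (φ k)).1)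
      (fun k => norm_sub_le_of_le hx1 (hy (φ k)).2) h0
    ext η
    refine sub_eq_zero.1 (tendsto_nhds_unique tendsto_const_nhds (l := atTop) (f := fun _ : ℕ => _) ?_)
    have := (h1 (X η)).sub ((X.continuous.tendsto 0).comp (h1 η))
    rw [map_zero, sub_zero] at this
    refine this.congr fun k => ?_
    have e := congrArg (fun T : Op H => T η) (hX (φ k))
    simp only [mul_apply_eq_comp] at e
    simp only [Function.comp, sub_apply, map_sub, e,
      mul_apply_eq_comp]
    abel
  intro x hx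
  have c0 : ((‖x‖ + 1 : ℝ) : ℂ) ≠ 0 := ofReal_ne_zero.2 (by positivity)
  have := key _ (vn_smul_mem ((‖x‖ + 1 : ℝ) : ℂ)⁻¹ hx) (by
    rw [norm_smul, norm_inv, norm_real, Real.norm_of_nonneg (by positivity),
      inv_mul_le_iff₀ (by positivity)]
    linarith)
  rw [smul_mul_assoc, mul_smul_comm] at this
  exact smul_right_injective _ (inv_ne_zero c0) this

/-- Self-adjoint analytic generators: the real and imaginary parts
`(Y z + Y (conj z)*) / 2`, `(Y z - Y (conj z)*) / (2 i)` of the families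
`Y = sm 1 (i q) (y n)`, enumerated by `ℕ × ℚ × Bool` (`exists_surjective_nat`). -/
theorem Tomita.exists_af_gen [TopologicalSpace.SeparableSpace H] (τ : Tomita M ξ) :
    ∃ X : ℕ → ℂ → Op H, (∀ n, AF τ (X n)) ∧
      (∀ n z, star (X n z) = X n ((starRingEnd ℂ) z)) ∧
      ∀ Y, (∀ n, Y * X n 0 = X n 0 * Y) → Y ∈ M.commutant := by
  obtain ⟨y, hy, hy'⟩ := exists_gen τ.cyc'
  obtain ⟨e, he⟩ := exists_surjective_nat (ℕ × ℚ × Bool)
  let Y : ℕ → ℚ → ℂ → Op H := fun n q => τ.sm 1 (I * (q : ℝ)) (y n)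
  have hY : ∀ n q, AF τ (Y n q) := fun n q => τ.af_sm one_pos _ (hy n)
  let Z : ℕ × ℚ × Bool → ℂ → Op H := fun p z =>
    if p.2.2 then (1 / 2 : ℂ) • (Y p.1 p.2.1 z + star (Y p.1 p.2.1 ((starRingEnd ℂ) z)))
    else (-I / 2 : ℂ) • (Y p.1 p.2.1 z - star (Y p.1 p.2.1 ((starRingEnd ℂ) z)))
  refine ⟨fun n => Z (e n), fun n => ?_, fun n z => ?_, fun W hW => hy' W fun n => ?_⟩
  · change AF τ (Z (e n))
    generalize e n = p
    obtain ⟨m, q, _ | _⟩ := p
    · exact ((hY m q).sub (hY m q).star_conj).smul _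
    · exact ((hY m q).add (hY m q).star_conj).smul _
  · change star (Z (e n) z) = Z (e n) _
    generalize e n = p
    obtain ⟨m, q, _ | _⟩ := p
    · simp only [Z, Bool.false_eq_true, if_false, star_smul, star_sub, star_star,
        starRingEnd_self_apply]
      rw [← neg_sub, smul_neg, ← neg_smul]
      congr 1
      simp [neg_div]
    · simp only [Z, if_true, star_smul, star_add, star_star,
        starRingEnd_self_apply]
      rw [add_comm]
      congr 1
      simp
  · refine τ.comm_of_sm fun q => ?_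
    obtain ⟨n1, h1⟩ := he (n, q, true)
    obtain ⟨n2, h2⟩ := he (n, q, false)
    have a1 := hW n1
    have a2 := hW n2
    simp only [h1] at a1
    simp only [h2] at a2
    have e0 : Y n q 0 = Z (n, q, true) 0 + I • Z (n, q, false) 0 := by
      simp only [Z, if_true, Bool.false_eq_true, if_false, smul_smul]
      rw [show I * (-I / 2) = 1 / 2 by rw [mul_div_assoc', mul_neg, I_mul_I]; norm_num, ← smul_add,
        add_add_sub_cancel, ← two_smul ℂ, smul_smul]
      norm_num
    change W * Y n q 0 = Y n q 0 * W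
    rw [e0, mul_add, add_mul, mul_smul_comm, smul_mul_assoc, a1, a2]

end Crest.Agent.R78
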