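import Crest.Agent.R78.Pol

/-! # R78: aligning commuting projections (task `AlignD`) -/

set_option autoImplicit false
set_option linter.unusedSectionVars false
open Filter Topology
open scoped InnerProductSpace

namespace Crest.Agent.R78

universe u
variable {H : Type u} [NormedAddCommGroup H] [InnerProductSpace ℂ H] [CompleteSpace H]

theorem alignD_fin {ι : Type*} (γ β : ι → Op H) (P : Op H → Prop) (hγ : ∀ i, γ i * γ i = 1)
    (hβ : ∀ i, β i * β i = 1) (cγ : ∀ i j, γ i * γ j = γ j * γ i)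
    (cβ : ∀ i j, β i * β j = β j * β i) {X₀ : Op H} (h0 : P X₀)
    (hP : ∀ X i, P X → P ((2 : ℂ)⁻¹ • (X + γ i * X * β i))) (s : Finset ι) :
    ∃ X, P X ∧ ∀ i ∈ s, γ i * X = X * β i := by
  classical
  induction s using Finset.induction_on with
  | empty => exact ⟨X₀, h0, by simp⟩
  | insert i s _ ih =>
    obtain ⟨X, h1, h2⟩ := ih
    refine ⟨_, hP X i h1, fun j hj => ?_⟩
    rw [mul_smul_comm, smul_mul_assoc, mul_add, add_mul]
    congr 1
    rcases Finset.mem_insert.1 hj with rfl | hj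
    · rw [← mul_assoc, ← mul_assoc, hγ, one_mul, mul_assoc, hβ, mul_one, add_comm]
    · rw [← mul_assoc, ← mul_assoc, cγ j i, mul_assoc (γ i) (γ j), h2 j hj, mul_assoc _ (β i),
        cβ i j]
      simp only [mul_assoc]

theorem alignD_avg {ι : Type*} (γ β : ι → Op H) (P : Op H → Prop) (hγ : ∀ i, γ i * γ i = 1)
    (hβ : ∀ i, β i * β i = 1) (cγ : ∀ i j, γ i * γ j = γ j * γ i)
    (cβ : ∀ i j, β i * β j = β j * β i) {X₀ : Op H} (h0 : P X₀)
    (hP : ∀ X i, P X → P ((2 : ℂ)⁻¹ • (X + γ i * X * β i))) {r : ℝ}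
    (hr : ∀ X, P X → ‖X - 1‖ ≤ r) :
    ∃ (x : Finset ι → Op H) (X : Op H), (∀ s, P (x s)) ∧
      WLim (R121.fU ι : Filter (Finset ι)) x X ∧ ‖X - 1‖ ≤ r ∧ ∀ i, γ i * X = X * β i := by
  choose x h1 h2 using alignD_fin γ β P hγ hβ cγ cβ h0 hP
  obtain ⟨X, hX⟩ := exists_WLim (R121.fU ι) x (‖(1 : Op H)‖ + r) (Eventually.of_forall fun s =>
    (norm_le_insert' (x s) 1).trans (add_le_add le_rfl (hr _ (h1 s))))
  exact ⟨x, X, h1, hX, hX.norm_sub_le 1 (Eventually.of_forall fun s => hr _ (h1 s)),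
    fun i => hX.comm ((R121.fU_mem i).mono fun s hs => h2 s i hs)⟩

theorem alignD_half {a b : Op H} {r : ℝ} (ha : ‖a - 1‖ ≤ r) (hb : ‖b - 1‖ ≤ r) :
    ‖(2 : ℂ)⁻¹ • (a + b) - 1‖ ≤ r := by
  have e : (2 : ℂ)⁻¹ • (a + b) - 1 = (2 : ℂ)⁻¹ • ((a - 1) + (b - 1)) := by
    module
  rw [e, norm_smul, norm_inv, Complex.norm_ofNat]
  have := norm_add_le (a - 1) (b - 1)
  linarith

theorem alignD_sym_unitary {γ : Op H} (h1 : star γ = γ) (h2 : γ * γ = 1) : γ ∈ unitary (Op H) :=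
  ⟨by rw [h1, h2], by rw [h1, h2]⟩

theorem alignD_sym_sq {q : Op H} (hq : IsStarProjection q) : (1 - (q + q)) * (1 - (q + q)) = 1 := by
  have := hq.isIdempotentElem.eq
  simp only [mul_sub, sub_mul, mul_add, add_mul, this, one_mul, mul_one]
  abel

theorem alignD_sym_star {q : Op H} (hq : IsStarProjection q) :
    star (1 - (q + q)) = 1 - (q + q) := by
  rw [star_sub, star_add, star_one, hq.isSelfAdjoint.star_eq]

/-- For a finite set `s` of indices there is `X` with `‖X - 1‖ ≤ ε`, `X B* ∈ A`, commuting with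
`q i` for `i ∈ s`: induction on `s`, replacing `X` by `(X + γ X γ) / 2`, `γ = 1 - 2 q i`
(`γ X γ B* = γ (X B*) (B γ B*)`).  Weak limit along `R121.fU ι`, then the polar part `U`
(`exists_polar'`); for `a' ∈ A'`, `X (B* a' B) = a' X`, so `U B* a' = a' U B*`. -/
theorem alignD {ι : Type*} (q : ι → Op H) (hq : ∀ i, IsStarProjection (q i))
    (hc : ∀ i j, q i * q j = q j * q i) {A : VonNeumannAlgebra H} {B : Op H}
    (hB : B ∈ unitary (Op H)) {ε : ℝ} (hε : ε ≤ 1 / 2) (h : ‖B - 1‖ ≤ ε) (h1 : ∀ i, q i ∈ A)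
    (h2 : ∀ i, B * q i * star B ∈ A) :
    ∃ U ∈ unitary (Op H), ‖U - 1‖ ≤ 2 * ε ∧ (∀ i, U * q i = q i * U) ∧ U * star B ∈ A := by
  have hc' : ∀ i j, (1 - (q i + q i)) * (1 - (q j + q j)) = (1 - (q j + q j)) * (1 - (q i + q i)) :=
    fun i j => by
      simp only [mul_sub, sub_mul, mul_add, add_mul, hc i j, one_mul, mul_one]
      abel
  obtain ⟨x, X, k1, k2, k3, k4⟩ := alignD_avg (fun i => 1 - (q i + q i)) (fun i => 1 - (q i + q i))
    (fun X => ‖X - 1‖ ≤ ε ∧ X * star B ∈ A) (fun i => alignD_sym_sq (hq i))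
    (fun i => alignD_sym_sq (hq i)) hc' hc' (X₀ := B) ⟨h, by rw [hB.2]; exact one_mem A⟩
    (fun X i hX => by
      have hu := alignD_sym_unitary (alignD_sym_star (hq i)) (alignD_sym_sq (hq i))
      refine ⟨alignD_half hX.1 ?_, ?_⟩
      · have := norm_conj hu (X - 1)
        rw [alignD_sym_star (hq i), mul_sub _ X, sub_mul _ _ (1 - (q i + q i)), mul_one,
          alignD_sym_sq (hq i)] at this
        exact this.trans_le hX.1
      · rw [smul_mul_assoc, add_mul]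
        refine vn_smul_mem _ (add_mem hX.2 ?_)
        have e : (1 - (q i + q i)) * X * (1 - (q i + q i)) * star B =
            (1 - (q i + q i)) * (X * star B) *
              (1 - (B * q i * star B + B * q i * star B)) := by
          simp only [mul_sub, sub_mul, mul_add, add_mul, one_mul, mul_one, mul_assoc, un_l hB]
        rw [e]
        exact mul_mem (mul_mem (sub_mem (one_mem A) (add_mem (h1 i) (h1 i))) hX.2)
          (sub_mem (one_mem A) (add_mem (h2 i) (h2 i))))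
    (fun X hX => hX.1)
  have k5 : X * star B ∈ A := (k2.mul_right _).mem (Eventually.of_forall fun s => (k1 s).2)
  obtain ⟨w, hw, w1, -, w2, -⟩ := exists_polar' (one_mem _) hε k3
  refine ⟨w, hw, ?_, fun i => ?_, mem_of_comm fun y hy => ?_⟩
  · have := norm_sub_le_norm_sub_add_norm_sub w X 1
    linarith
  · have e := w2 _ _ (k4 i).symm (by rw [alignD_sym_star (hq i)]; exact (k4 i).symm)
    have e2 : (2 : ℂ) • (w * q i) = (2 : ℂ) • (q i * w) := by
      rw [two_smul, two_smul]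
      simpa only [mul_sub, sub_mul, mul_add, add_mul, one_mul, mul_one, sub_right_inj] using e
    exact smul_right_injective _ two_ne_zero e2
  · have e : ∀ y ∈ A.commutant, X * (star B * y * B) = y * X := fun y hy => by
      rw [← mul_assoc, ← mul_assoc, comm_of_mem k5 hy, mul_assoc, mul_assoc, hB.1, mul_one]
    have e2 := w2 _ _ (e y hy) (by
      rw [star_mul, star_mul, star_star, ← mul_assoc (star B)]; exact e _ (star_mem hy))
    rw [← mul_assoc, ← e2, mul_assoc, mul_assoc, hB.2, mul_one, mul_assoc]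

/-- A self-adjoint element close to a projection is close to a projection that commutes with
everything commuting with it: the spectrum of `y` lies in `[-ε, ε] ∪ [1-ε, 1+ε]` (resolvent of a
projection, or `‖y² - y‖ ≤ ε (1 + ε)`…); use `cfc` of a continuous function equal to `0` left of
`1/3` and `1` right of `2/3`.  (Or `exists_polar'` applied to `X = 2 y - 1`, `u = 2 z - 1`: the
polar part of a self-adjoint `X` is a symmetry: take `a = b = X`, and `w* = w` by
uniqueness…; any proof is fine.) -/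
theorem exists_proj_near {y z : Op H} (hy : IsSelfAdjoint y) (hz : IsStarProjection z) {ε : ℝ}
    (hε : ε ≤ 1 / 10) (h : ‖y - z‖ ≤ ε) :
    ∃ e, IsStarProjection e ∧ ‖e - z‖ ≤ 4 * ε ∧ ∀ X, y * X = X * y → e * X = X * e := by
  have h0 : 0 ≤ ε := (norm_nonneg _).trans h
  have hu := alignD_sym_unitary (alignD_sym_star hz) (alignD_sym_sq hz)
  have u2 := alignD_sym_sq hz
  set u : Op H := 1 - (z + z) with hu'
  set s : Op H := 1 - (y + y) with hs'
  have s1 : star s = s := by rw [hs', star_sub, star_add, star_one, hy.star_eq]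
  have s2 : ‖s - u‖ ≤ 2 * ε := by
    have e : s - u = -((y - z) + (y - z)) := by rw [hs', hu']; abel
    rw [e, norm_neg]
    have := norm_add_le (y - z) (y - z)
    linarith
  have s3 : ‖s * s - 1‖ ≤ 5 * ε := by
    have e : s * s - 1 = (s - u) * (s - u) + ((s - u) * u + u * (s - u)) := by
      rw [← u2]; noncomm_ring
    have a1 := norm_mul_le (s - u) (s - u)
    have a2 := CStarRing.norm_mul_mem_unitary (s - u) hu
    have a3 := CStarRing.norm_mem_unitary_mul (s - u) hu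
    have a4 := norm_add_le ((s - u) * u) (u * (s - u))
    have a5 := norm_add_le ((s - u) * (s - u)) ((s - u) * u + u * (s - u))
    rw [e]
    nlinarith [norm_nonneg (s - u)]
  have ha : IsSelfAdjoint (s * s) := by rw [IsSelfAdjoint, star_mul, s1]
  obtain ⟨g, k, g1, g2, g3, g4, -, g6, g7⟩ := pol_aux ha (ε := 1 / 2) (by norm_num) le_rfl
    fun t ht => by
      have h1 := norm_apply_le_norm_cfc (fun t : ℝ => t - 1) (s * s) ht
      rw [cfc_sub _ _ (s * s), cfc_id' ℝ (s * s), cfc_const_one ℝ (s * s)] at h1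
      have h2 := abs_le.1 (h1.trans s3)
      constructor <;> linarith [h2.1, h2.2]
  have c1 : g * s = s * g := (g7 s ((Commute.refl s).mul_left (Commute.refl s))).eq
  have w1 : star (s * g) = s * g := by rw [star_mul, g1, s1, c1]
  have w2 : s * g * (s * g) = 1 := by
    rw [← g4]
    nth_rewrite 1 [← c1]
    simp only [mul_assoc]
  have w3 : ‖s * g - s‖ ≤ 5 * ε := by
    have := CStarRing.norm_mem_unitary_mul (1 - k) (alignD_sym_unitary w1 w2)
    rw [mul_sub, mul_one, mul_assoc, g3, mul_one] at this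
    linarith
  refine ⟨(2 : ℂ)⁻¹ • (1 - s * g), ⟨?_, ?_⟩, ?_, fun X hX => ?_⟩
  · rw [IsIdempotentElem, smul_mul_smul_comm, mul_sub (1 - s * g), sub_mul 1 (s * g) (s * g), w2]
    simp only [one_mul, mul_one]
    module
  · rw [IsSelfAdjoint, star_smul, star_sub, w1, star_one]
    simp
  · have e : (2 : ℂ)⁻¹ • (1 - s * g) - z = -((2 : ℂ)⁻¹ • ((s * g - s) + (s - u))) := by
      rw [hu']; module
    rw [e, norm_neg, norm_smul, norm_inv, Complex.norm_ofNat]
    have := norm_add_le (s * g - s) (s - u)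
    linarith
  · have c2 : Commute s X := by
      rw [Commute, SemiconjBy, hs']
      simp only [mul_sub, sub_mul, mul_add, add_mul, hX, one_mul, mul_one]
    have c3 := c2.mul_left (g7 X (c2.mul_left c2))
    rw [smul_mul_assoc, mul_smul_comm, sub_mul, mul_sub, c3.eq, one_mul, mul_one]

theorem alignD_cube {d : Op H} {c : ℝ} (hc : 0 < c) (h : d * d * d = ((c ^ 2 : ℝ) : ℂ) • d)
    (hd : ‖d‖ < c) : d = 0 := by
  have h1 : c ^ 2 * ‖d‖ ≤ ‖d‖ * ‖d‖ * ‖d‖ := by
    have := congrArg norm h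
    rw [norm_smul, Complex.norm_real, Real.norm_of_nonneg (sq_nonneg c)] at this
    rw [← this]
    exact (norm_mul_le _ _).trans (mul_le_mul_of_nonneg_right (norm_mul_le _ _) (norm_nonneg _))
  by_contra h0
  have h2 : 0 < ‖d‖ := norm_pos_iff.2 h0
  have h3 := le_of_mul_le_mul_right h1 h2
  nlinarith

/-- Commuting projections at distance `< 1` are equal (`(e - f)³ = e - f`). -/
theorem proj_eq_of_near {e f : Op H} (he : IsStarProjection e) (hf : IsStarProjection f)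
    (hc : e * f = f * e) (h : ‖e - f‖ < 1) : e = f := by
  refine sub_eq_zero.1 (alignD_cube one_pos ?_ h)
  have e1 := he.isIdempotentElem.eq
  have e2 := hf.isIdempotentElem.eq
  have e3 : e * f * e = e * f := by rw [mul_assoc, ← hc, ← mul_assoc, e1]
  have e4 : e * f * f = e * f := by rw [mul_assoc, e2]
  simp only [mul_sub, sub_mul, ← hc, e1, e2, e3, e4]
  simp

theorem alignD_sym_eq {a b : Op H} (ha : a * a = 1) (hb : b * b = 1) (hc : a * b = b * a)
    (h : ‖a - b‖ < 2) : a = b := by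
  refine sub_eq_zero.1 (alignD_cube two_pos ?_ h)
  have e3 : a * b * a = b := by rw [mul_assoc, ← hc, ← mul_assoc, ha, one_mul]
  have e4 : a * b * b = a := by rw [mul_assoc, hb, mul_one]
  simp only [mul_sub, sub_mul, ← hc, ha, hb, e3, e4, one_mul]
  push_cast
  module

/-- Let `𝒜`, `ℬ` be sets of commuting symmetries closed under multiplication, matched by
closeness.  The match `α` is unique (`proj_eq_of_near`, distance `≤ 2 c < 2` of symmetries), hence
multiplicative (`‖γ₁ γ₂ - α γ₁ α γ₂‖ ≤ 2 c`, so `‖α (γ₁γ₂) - α γ₁ α γ₂‖ ≤ 3 c < 2`).  For finite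
`s ⊆ 𝒜` there is `X` with `γ X α γ = X` for `γ ∈ s` and `‖γ₀ X α γ₀ - 1‖ ≤ c` for all `γ₀ ∈ 𝒜`
(induction, `X ↦ (X + γ X α γ) / 2`, start with `X = 1`); weak limit and polar part. -/
theorem alignS (𝒜 ℬ : Set (Op H)) (h1 : (1 : Op H) ∈ 𝒜)
    (hA : ∀ γ ∈ 𝒜, star γ = γ ∧ γ * γ = 1) (hB : ∀ γ ∈ ℬ, star γ = γ ∧ γ * γ = 1)
    (mA : ∀ γ ∈ 𝒜, ∀ γ' ∈ 𝒜, γ * γ' ∈ 𝒜 ∧ γ * γ' = γ' * γ)
    (mB : ∀ γ ∈ ℬ, ∀ γ' ∈ ℬ, γ * γ' ∈ ℬ ∧ γ * γ' = γ' * γ) {c : ℝ} (hc : c ≤ 1 / 4)
    (h : ∀ γ ∈ 𝒜, ∃ β ∈ ℬ, ‖γ - β‖ ≤ c) :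
    ∃ u ∈ unitary (Op H), ‖u - 1‖ ≤ 4 * c ∧
      ∀ γ ∈ 𝒜, ∀ β ∈ ℬ, ‖γ - β‖ ≤ c → γ * u = u * β := by
  choose! α h2 h3 using h
  have h0 : 0 ≤ c := (norm_nonneg _).trans (h3 1 h1)
  have uA : ∀ γ ∈ 𝒜, γ ∈ unitary (Op H) := fun γ hγ => alignD_sym_unitary (hA γ hγ).1 (hA γ hγ).2
  have uB : ∀ γ ∈ ℬ, γ ∈ unitary (Op H) := fun γ hγ => alignD_sym_unitary (hB γ hγ).1 (hB γ hγ).2
  have uniq : ∀ γ ∈ 𝒜, ∀ β ∈ ℬ, ‖γ - β‖ ≤ 2 * c → α γ = β := fun γ hγ β hβ hh => by
    refine alignD_sym_eq (hB _ (h2 γ hγ)).2 (hB β hβ).2 (mB _ (h2 γ hγ) β hβ).2 ?_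
    have a1 := norm_sub_le_norm_sub_add_norm_sub (α γ) γ β
    have a2 := h3 γ hγ
    rw [norm_sub_rev] at a2
    linarith
  have hmul : ∀ γ ∈ 𝒜, ∀ γ' ∈ 𝒜, α (γ * γ') = α γ * α γ' := fun γ hγ γ' hγ' => by
    refine uniq _ (mA γ hγ γ' hγ').1 _ (mB _ (h2 γ hγ) _ (h2 γ' hγ')).1 ?_
    have a1 := norm_sub_le_norm_sub_add_norm_sub (γ * γ') (γ * α γ') (α γ * α γ')
    rw [← mul_sub, ← sub_mul, CStarRing.norm_mem_unitary_mul _ (uA γ hγ),
      CStarRing.norm_mul_mem_unitary _ (uB _ (h2 γ' hγ'))] at a1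
    linarith [h3 γ hγ, h3 γ' hγ']
  have hone : α 1 = 1 := (alignD_sym_eq (mul_one 1) (hB _ (h2 1 h1)).2 (by rw [one_mul, mul_one])
    ((h3 1 h1).trans_lt (by linarith))).symm
  obtain ⟨x, X, -, -, k3, k4⟩ := alignD_avg (ι := 𝒜) (fun γ => γ.1) (fun γ => α γ.1)
    (fun X => ∀ γ ∈ 𝒜, ‖γ * X * α γ - 1‖ ≤ c) (fun γ => (hA _ γ.2).2)
    (fun γ => (hB _ (h2 _ γ.2)).2) (fun γ γ' => (mA _ γ.2 _ γ'.2).2)
    (fun γ γ' => (mB _ (h2 _ γ.2) _ (h2 _ γ'.2)).2) (X₀ := 1)
    (fun γ hγ => by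
      rw [mul_one, ← (hA γ hγ).2, ← mul_sub, CStarRing.norm_mem_unitary_mul _ (uA γ hγ),
        norm_sub_rev]
      exact h3 γ hγ)
    (fun X γ' hX γ hγ => by
      rw [mul_smul_comm, smul_mul_assoc, mul_add, add_mul]
      refine alignD_half (hX γ hγ) ?_
      have := hX _ (mA γ hγ _ γ'.2).1
      rw [hmul γ hγ _ γ'.2, (mB _ (h2 γ hγ) _ (h2 _ γ'.2)).2] at this
      simpa only [mul_assoc] using this)
    (r := c) (fun X hX => by simpa only [hone, one_mul, mul_one] using hX 1 h1)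
  obtain ⟨w, hw, w1, -, w2, -⟩ := exists_polar' (one_mem _) (hc.trans (by norm_num)) k3
  refine ⟨w, hw, ?_, fun γ hγ β hβ hh => ?_⟩
  · have := norm_sub_le_norm_sub_add_norm_sub w X 1
    linarith
  · have e := k4 ⟨γ, hγ⟩
    simp only [uniq γ hγ β hβ (by linarith)] at e
    exact (w2 β γ e.symm (by rw [(hA γ hγ).1, (hB β hβ).1]; exact e.symm)).symm

end Crest.Agent.R78
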