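import Crest.Agent.R124.Main164

/-!
# R78: hyperreflexivity of von Neumann algebras

`dist(Y, P') ≤ 5600 sup_{a ∈ P, ‖a‖ ≤ 1} ‖[Y, a]‖`: the universal completely bounded estimate
`R124.good_one` and Paulsen's similarity theorem applied to `a ↦ [[a, t [Y,a]], [0, a]]`.
-/

set_option autoImplicit false
open scoped ComplexOrder InnerProductSpace BigOperators Matrix

namespace Crest.Agent.R78.G

open Crest.Agent.R124

universe u
variable {A : Type*} [CStarAlgebra A]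
variable {K : Type u} [NormedAddCommGroup K] [InnerProductSpace ℂ K] [CompleteSpace K]

/-- The upper triangular operator `[[a, b], [0, a]]`. -/
noncomputable def tri (a b : K →L[ℂ] K) : WithLp 2 (K × K) →L[ℂ] WithLp 2 (K × K) :=
  (WithLp.prodContinuousLinearEquiv 2 ℂ K K).symm.toContinuousLinearMap ∘L
    ((a ∘L WithLp.fstL 2 ℂ K K + b ∘L WithLp.sndL 2 ℂ K K).prod (a ∘L WithLp.sndL 2 ℂ K K))

omit [CompleteSpace K] in
theorem tri_fst (a b : K →L[ℂ] K) (v : WithLp 2 (K × K)) :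
    (tri a b v).fst = a v.fst + b v.snd := rfl

omit [CompleteSpace K] in
theorem tri_snd (a b : K →L[ℂ] K) (v : WithLp 2 (K × K)) : (tri a b v).snd = a v.snd := rfl

omit [NormedAddCommGroup K] [InnerProductSpace ℂ K] [CompleteSpace K] in
theorem prod_ext' {v w : WithLp 2 (K × K)} (h1 : v.fst = w.fst) (h2 : v.snd = w.snd) : v = w := by
  have : WithLp.ofLp v = WithLp.ofLp w := Prod.ext h1 h2
  exact (WithLp.ofLp_injective 2) this

omit [InnerProductSpace ℂ K] [CompleteSpace K] in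
theorem l2_prod_sq {ι : Type*} [Fintype ι] (v : ι → WithLp 2 (K × K)) :
    l2 v ^ 2 = l2 (fun i => (v i).fst) ^ 2 + l2 (fun i => (v i).snd) ^ 2 := by
  simp only [l2_sq, WithLp.prod_norm_sq_eq_of_L2, Finset.sum_add_distrib]

/-- The triangular homomorphism attached to the derivation `[Y, ρ ·]`. -/
noncomputable def triHom (ρ : A →⋆ₐ[ℂ] (K →L[ℂ] K)) (Y : K →L[ℂ] K) :
    A →ₐ[ℂ] (WithLp 2 (K × K) →L[ℂ] WithLp 2 (K × K)) where
  toFun a := tri (ρ a) (Y * ρ a - ρ a * Y)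
  map_one' := by
    ext1 v; refine prod_ext' ?_ ?_ <;> simp [tri_fst, tri_snd]
  map_mul' a b := by
    ext1 v; refine prod_ext' ?_ ?_ <;> simp [tri_fst, tri_snd]
    abel
  map_zero' := by
    ext1 v; refine prod_ext' ?_ ?_ <;> simp [tri_fst, tri_snd]
  map_add' a b := by
    ext1 v; refine prod_ext' ?_ ?_ <;> simp [tri_fst, tri_snd]
    abel
  commutes' c := by
    ext1 v; refine prod_ext' ?_ ?_ <;>
      simp [tri_fst, tri_snd, Algebra.algebraMap_eq_smul_one]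

theorem triHom_apply (ρ : A →⋆ₐ[ℂ] (K →L[ℂ] K)) (Y : K →L[ℂ] K) (a : A) :
    triHom ρ Y a = tri (ρ a) (Y * ρ a - ρ a * Y) := rfl

theorem triHom_cb (ρ : A →⋆ₐ[ℂ] (K →L[ℂ] K)) (Y : K →L[ℂ] K)
    (h : ∀ (ι κ : Type) [Fintype ι] [Fintype κ] (X : Matrix ι κ A),
      FormBd (fun i j => ρ (X i j)) 1 → FormBd (fun i j => Y * ρ (X i j) - ρ (X i j) * Y) 1) :
    CBbd (triHom ρ Y) 2 := by
  intro ι κ _ _ _ X hX η
  have hF1 := hX.formBd ρ
  have hF2 := h ι κ X hF1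
  have ha := hF1.l2_le zero_le_one (fun j => (η j).fst)
  have hb := hF2.l2_le zero_le_one (fun j => (η j).snd)
  have hc := hF1.l2_le zero_le_one (fun j => (η j).snd)
  have h1 : (fun i => (∑ j, triHom ρ Y (X i j) (η j)).fst) = fun i =>
      (∑ j, ρ (X i j) (η j).fst) + ∑ j, (Y * ρ (X i j) - ρ (X i j) * Y) (η j).snd := by
    funext i
    rw [← Finset.sum_add_distrib]
    exact map_sum (WithLp.fstL 2 ℂ K K) _ _
  have h2 : (fun i => (∑ j, triHom ρ Y (X i j) (η j)).snd) = fun i =>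
      ∑ j, ρ (X i j) (η j).snd := by
    funext i
    exact map_sum (WithLp.sndL 2 ℂ K K) _ _
  have h3 := l2_prod_sq (fun i => ∑ j, triHom ρ Y (X i j) (η j))
  have h4 := l2_prod_sq η
  rw [h1, h2] at h3
  have h5 := l2_add_le (fun i => ∑ j, ρ (X i j) (η j).fst)
    (fun i => ∑ j, (Y * ρ (X i j) - ρ (X i j) * Y) (η j).snd)
  have p1 := l2_nonneg (fun j => (η j).fst)
  have p2 := l2_nonneg (fun j => (η j).snd)
  have p3 := l2_nonneg (fun i => (∑ j, ρ (X i j) (η j).fst) +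
    ∑ j, (Y * ρ (X i j) - ρ (X i j) * Y) (η j).snd)
  have p4 := l2_nonneg (fun i => ∑ j, ρ (X i j) (η j).snd)
  have p5 := l2_nonneg η
  refine (pow_le_pow_iff_left₀ (l2_nonneg _) (by positivity) two_ne_zero).1 ?_
  rw [h3, mul_pow, h4]
  have q1 := pow_le_pow_left₀ p3 (h5.trans (add_le_add ha hb)) 2
  have q2 := pow_le_pow_left₀ p4 hc 2
  nlinarith [sq_nonneg (l2 (fun j => (η j).fst) - l2 (fun j => (η j).snd))]

/-- A derivation with completely bounded norm at most `1` is implemented by a contraction up to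
the constant `4`. -/
theorem hyper_of_cb (ρ : A →⋆ₐ[ℂ] (K →L[ℂ] K)) (Y : K →L[ℂ] K)
    (h : ∀ (ι κ : Type) [Fintype ι] [Fintype κ] (X : Matrix ι κ A),
      FormBd (fun i j => ρ (X i j)) 1 → FormBd (fun i j => Y * ρ (X i j) - ρ (X i j) * Y) 1) :
    ∃ Z : K →L[ℂ] K, (∀ a, Z * ρ a = ρ a * Z) ∧ ‖Y - Z‖ ≤ 4 := by
  obtain ⟨T, hT, hTn, hTπ⟩ := paulsen (triHom ρ Y) (by norm_num) (triHom_cb ρ Y h)
  let e := (WithLp.prodContinuousLinearEquiv 2 ℂ K K).symm.toContinuousLinearMap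
  let i1 : K →L[ℂ] WithLp 2 (K × K) := e ∘L ContinuousLinearMap.inl ℂ K K
  let i2 : K →L[ℂ] WithLp 2 (K × K) := e ∘L ContinuousLinearMap.inr ℂ K K
  have hin : ∀ (ξ : K) (v : WithLp 2 (K × K)), ⟪i1 ξ, v⟫_ℂ = ⟪ξ, v.fst⟫_ℂ := fun ξ v => by
    rw [WithLp.prod_inner_apply]
    simp [i1, e]
  have hn2 : ∀ ξ : K, ‖i2 ξ‖ = ‖ξ‖ := fun ξ => WithLp.norm_toLp_snd 2 K K ξ
  let T1 : K →L[ℂ] K := WithLp.fstL 2 ℂ K K ∘L T ∘L i1
  let T2 : K →L[ℂ] K := WithLp.fstL 2 ℂ K K ∘L T ∘L i2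
  have hπ1 : ∀ a ξ, triHom ρ Y a (i1 ξ) = i1 (ρ a ξ) := fun a ξ => by
    refine prod_ext' ?_ ?_ <;> simp [triHom_apply, tri_fst, tri_snd, i1, e]
  have hπ2 : ∀ a ξ, triHom ρ Y a (i2 ξ) = i1 ((Y * ρ a - ρ a * Y) ξ) + i2 (ρ a ξ) := fun a ξ => by
    refine prod_ext' ?_ ?_ <;> simp [triHom_apply, tri_fst, tri_snd, i1, i2, e]
  have hst : ∀ a v, (star (triHom ρ Y (star a)) v).fst = ρ a v.fst := fun a v => by
    refine ext_inner_left ℂ fun ξ => ?_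
    rw [← hin, ContinuousLinearMap.star_eq_adjoint, ContinuousLinearMap.adjoint_inner_right, hπ1,
      hin, map_star, ContinuousLinearMap.star_eq_adjoint, ContinuousLinearMap.adjoint_inner_left]
  have e1 : ∀ a, T1 * ρ a = ρ a * T1 := fun a => by
    ext ξ
    have := congrArg (fun S => (S (i1 ξ)).fst) (hTπ a)
    simp only [mul_apply_eq_comp, hπ1, hst] at this
    exact this
  have e2 : ∀ a, T1 * (Y * ρ a - ρ a * Y) + T2 * ρ a = ρ a * T2 := fun a => by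
    ext ξ
    have := congrArg (fun S => (S (i2 ξ)).fst) (hTπ a)
    simp only [mul_apply_eq_comp, hπ2, hst, map_add] at this
    exact this
  have hpos : ∀ ξ, ‖ξ‖ ^ 2 ≤ (⟪ξ, T1 ξ⟫_ℂ).re := fun ξ => by
    have h1 := (ContinuousLinearMap.nonneg_iff_isPositive _).1 (sub_nonneg.2 hT)
    have h2 := h1.re_inner_nonneg_right (i1 ξ)
    rw [hin] at h2
    have h3 : ((T - 1) (i1 ξ)).fst = T1 ξ - ξ := by simp [T1, i1, e]
    rw [h3, inner_sub_right, inner_self_cast] at h2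
    simpa [← Complex.ofReal_pow] using h2
  have hT1 : 1 ≤ T1 := by
    rw [← sub_nonneg, ContinuousLinearMap.nonneg_iff_isPositive]
    have hs : ∀ ξ η, ⟪T1 ξ, η⟫_ℂ = ⟪ξ, T1 η⟫_ℂ := fun ξ η => by
      have h1 := (ContinuousLinearMap.nonneg_iff_isPositive _).1 (zero_le_one.trans hT)
      have h2 := h1.isSymmetric (i1 ξ) (i1 η)
      simp only [ContinuousLinearMap.coe_coe] at h2
      rw [hin, ← inner_conj_symm, hin, inner_conj_symm] at h2
      exact h2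
    refine ⟨fun ξ η => ?_, fun ξ => ?_⟩
    · simp [inner_sub_left, inner_sub_right, hs]
    · have := hpos ξ
      rw [← hs] at this
      simp only [ContinuousLinearMap.reApplyInnerSelf, sub_apply,
        one_apply_eq_self, inner_sub_left, inner_self_cast, map_sub]
      simpa [← Complex.ofReal_pow] using this
  obtain ⟨S, S', -, -, hSS, h1, h2⟩ := exists_sqrt_inv hT1
  have hR1 : S' * S' * T1 = 1 := by
    rw [← hSS, mul_assoc, ← mul_assoc S' S, h2, one_mul, h2]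
  have hR2 : T1 * (S' * S') = 1 := by
    rw [← hSS, mul_assoc, ← mul_assoc S S', h1, one_mul, h1]
  generalize S' * S' = R at hR1 hR2
  have hRc : ∀ a, R * ρ a = ρ a * R := fun a => by
    calc R * ρ a = R * ρ a * (T1 * R) := by rw [hR2, mul_one]
      _ = R * (ρ a * T1) * R := by simp only [mul_assoc]
      _ = ρ a * R := by rw [← e1, ← mul_assoc, hR1, one_mul]
  refine ⟨Y + R * T2, fun a => ?_, ?_⟩
  · have h3 : R * (T1 * (Y * ρ a - ρ a * Y) + T2 * ρ a) = R * (ρ a * T2) := by rw [e2]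
    rw [mul_add, ← mul_assoc, hR1, one_mul, ← mul_assoc R (ρ a), hRc] at h3
    rw [add_mul, mul_add, mul_assoc, ← mul_assoc (ρ a), ← h3]
    abel
  · rw [sub_add_cancel_left, norm_neg]
    refine ContinuousLinearMap.opNorm_le_bound _ (by norm_num) fun ξ => ?_
    have h3 : T1 (R (T2 ξ)) = T2 ξ := by
      rw [← mul_apply_eq_comp T1, hR2, one_apply_eq_self]
    have h4 := hpos (R (T2 ξ))
    rw [h3] at h4
    have h5 := (Complex.re_le_norm _).trans (norm_inner_le_norm (𝕜 := ℂ) (R (T2 ξ)) (T2 ξ))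
    have h6 : ‖R (T2 ξ)‖ ≤ ‖T2 ξ‖ := by
      by_contra hc
      push Not at hc
      nlinarith [norm_nonneg (T2 ξ)]
    have h7 : ‖T2 ξ‖ ≤ ‖T (i2 ξ)‖ := WithLp.norm_fst_le (p := 2) _ (T (i2 ξ))
    have h8 := T.le_opNorm (i2 ξ)
    rw [hn2] at h8
    have h9 : ‖T‖ * ‖ξ‖ ≤ 4 * ‖ξ‖ := by
      refine mul_le_mul_of_nonneg_right (hTn.trans (by norm_num)) (norm_nonneg _)
    exact h6.trans (h7.trans (h8.trans h9))

theorem hyper_of_good (ρ : A →⋆ₐ[ℂ] (K →L[ℂ] K)) (P : VonNeumannAlgebra K)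
    (hρ : ∀ a, ρ a ∈ P) {Y : K →L[ℂ] K} {g : ℝ} (hg : 0 ≤ g)
    (hY : ∀ a ∈ P, ‖Y * a - a * Y‖ ≤ g * ‖a‖) :
    ∃ Z : K →L[ℂ] K, (∀ a, Z * ρ a = ρ a * Z) ∧ ‖Y - Z‖ ≤ 5600 * g := by
  rcases hg.eq_or_lt with rfl | hg0
  · refine ⟨Y, fun a => ?_, by simp⟩
    have := hY _ (hρ a)
    rwa [zero_mul, norm_le_zero_iff, sub_eq_zero] at this
  have hc : (0 : ℝ) < 1400 * g := by positivity
  have hY' : ∀ a ∈ P, ‖(((1400 * g)⁻¹ : ℝ) : ℂ) • Y * a - a * (((1400 * g)⁻¹ : ℝ) : ℂ) • Y‖ ≤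
      1 / 1400 * ‖a‖ := fun a ha => by
    rw [smul_mul_assoc, mul_smul_comm, ← smul_sub, norm_smul, Complex.norm_real,
      Real.norm_of_nonneg (by positivity)]
    refine (mul_le_mul_of_nonneg_left (hY a ha) (by positivity)).trans (le_of_eq ?_)
    field_simp
  have hgood := good_one P (by norm_num) hY'
  obtain ⟨Z, hZ, hn⟩ := hyper_of_cb ρ ((((1400 * g)⁻¹ : ℝ) : ℂ) • Y) fun ι κ _ _ X hX ζ η => by
    refine (hgood ι κ (fun i j => ρ (X i j)) 1 zero_le_one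
      (fun i j => ⟨hρ _, one_mul _, mul_one _⟩) hX ζ η (fun _ => rfl) (fun _ => rfl)).trans ?_
    exact le_of_eq (by ring)
  refine ⟨((1400 * g : ℝ) : ℂ) • Z, fun a => by rw [smul_mul_assoc, mul_smul_comm, hZ], ?_⟩
  have e : Y - ((1400 * g : ℝ) : ℂ) • Z =
      ((1400 * g : ℝ) : ℂ) • ((((1400 * g)⁻¹ : ℝ) : ℂ) • Y - Z) := by
    rw [smul_sub, smul_smul, ← Complex.ofReal_mul, mul_inv_cancel₀ hc.ne', Complex.ofReal_one,
      one_smul]
  rw [e, norm_smul, Complex.norm_real, Real.norm_of_nonneg hc.le]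
  nlinarith

/-- **Hyperreflexivity** for a representation of a C⋆-algebra. -/
theorem hyper_rep (ρ : A →⋆ₐ[ℂ] (K →L[ℂ] K)) {Y : K →L[ℂ] K} {g : ℝ} (hg : 0 ≤ g)
    (hY : ∀ a, ‖Y * ρ a - ρ a * Y‖ ≤ g * ‖a‖) :
    ∃ Z : K →L[ℂ] K, (∀ a, Z * ρ a = ρ a * Z) ∧ ‖Y - Z‖ ≤ 11200 * g := by
  obtain ⟨P, hP⟩ := exists_vn ρ
  have hρP : ∀ a, ρ a ∈ P := fun a => by
    have : ρ a ∈ (P : Set (K →L[ℂ] K)) := by
      rw [hP]; exact Set.subset_centralizer_centralizer ⟨a, rfl⟩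
    exact this
  obtain ⟨Z, hZ, hn⟩ := hyper_of_good ρ P hρP (g := 2 * g) (by positivity)
    fun x hx => kaplansky ρ hg hY (hP ▸ hx)
  exact ⟨Z, hZ, hn.trans (le_of_eq (by ring))⟩

/-- **Hyperreflexivity** for a norm-closed ⋆-subalgebra. -/
theorem hyper_sub (S : StarSubalgebra ℂ (K →L[ℂ] K)) (hS : IsClosed (S : Set (K →L[ℂ] K)))
    {Y : K →L[ℂ] K} {g : ℝ} (hg : 0 ≤ g) (hY : ∀ a ∈ S, ‖Y * a - a * Y‖ ≤ g * ‖a‖) :
    ∃ Z : K →L[ℂ] K, (∀ a ∈ S, Z * a = a * Z) ∧ ‖Y - Z‖ ≤ 11200 * g := by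
  have : IsClosed (S : Set (K →L[ℂ] K)) := hS
  obtain ⟨Z, hZ, hn⟩ := hyper_rep (A := S) S.subtype hg fun a => hY a a.2
  exact ⟨Z, fun a ha => hZ ⟨a, ha⟩, hn⟩

/-- **Hyperreflexivity** for a von Neumann algebra. -/
theorem hyper_vn (P : VonNeumannAlgebra K) {Y : K →L[ℂ] K} {g : ℝ} (hg : 0 ≤ g)
    (hY : ∀ a ∈ P, ‖Y * a - a * Y‖ ≤ g * ‖a‖) :
    ∃ Z ∈ P.commutant, ‖Y - Z‖ ≤ 5600 * g := by
  have : IsClosed (P.toStarSubalgebra : Set (K →L[ℂ] K)) := isClosed_vn P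
  obtain ⟨Z, hZ, hn⟩ := hyper_of_good (A := P.toStarSubalgebra) P.toStarSubalgebra.subtype P
    (fun a => a.2) hg hY
  exact ⟨Z, VonNeumannAlgebra.mem_commutant_iff.2 fun a ha => (hZ ⟨a, ha⟩).symm, hn⟩

end Crest.Agent.R78.G
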