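import Crest.Agent.R78.Pol
import Crest.Agent.R121.Main
import Crest.Agent.R78.GHyper

/-! # R78: consequences of hyperreflexivity and of `H¹(N,N) = 0` (task `Hyper`) -/

set_option autoImplicit false
set_option linter.unusedSectionVars false
open Filter Topology
open scoped InnerProductSpace

namespace Crest.Agent.R78

universe u
variable {H : Type u} [NormedAddCommGroup H] [InnerProductSpace ℂ H] [CompleteSpace H]

variable {M N : VonNeumannAlgebra H}

theorem hy_comm_le (y a : Op H) : ‖y * a - a * y‖ ≤ 2 * ‖y‖ * ‖a‖ := by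
  refine (norm_sub_le _ _).trans ?_
  have h1 := norm_mul_le y a
  have h2 := norm_mul_le a y
  linarith [mul_comm ‖a‖ ‖y‖]

/-- The block matrix `[[a, 0], [c, b]]`. -/
noncomputable def hyBl (a c b : Op H) : Op (WithLp 2 (H × H)) :=
  (WithLp.prodContinuousLinearEquiv 2 ℂ H H).symm.toContinuousLinearMap ∘L
    ((a ∘L WithLp.fstL 2 ℂ H H).prod (c ∘L WithLp.fstL 2 ℂ H H + b ∘L WithLp.sndL 2 ℂ H H))

theorem hyBl_fst (a c b : Op H) (v : WithLp 2 (H × H)) : (hyBl a c b v).fst = a v.fst := rfl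

theorem hyBl_snd (a c b : Op H) (v : WithLp 2 (H × H)) :
    (hyBl a c b v).snd = c v.fst + b v.snd := rfl

theorem hyBl_star (a b : Op H) : hyBl (star a) 0 (star b) = star (hyBl a 0 b) := by
  rw [ContinuousLinearMap.star_eq_adjoint (hyBl a 0 b), ContinuousLinearMap.eq_adjoint_iff]
  intro v w
  simp only [WithLp.prod_inner_apply, WithLp.ofLp_fst, WithLp.ofLp_snd, hyBl_fst, hyBl_snd,
    ContinuousLinearMap.star_eq_adjoint, ContinuousLinearMap.adjoint_inner_left, zero_apply,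
    zero_add]

theorem norm_hyBl_le (c : Op H) : ‖hyBl 0 c 0‖ ≤ ‖c‖ := by
  refine ContinuousLinearMap.opNorm_le_bound _ (norm_nonneg _) fun v => ?_
  have h1 := WithLp.prod_norm_sq_eq_of_L2 (hyBl 0 c 0 v)
  rw [hyBl_fst, hyBl_snd, zero_apply, zero_apply, add_zero, norm_zero] at h1
  have h2 : ‖hyBl 0 c 0 v‖ = ‖c v.fst‖ := by
    rw [← sq_eq_sq₀ (norm_nonneg _) (norm_nonneg _), h1]; ring
  rw [h2]
  exact (c.le_opNorm _).trans
    (mul_le_mul_of_nonneg_left (WithLp.norm_fst_le _ v) (norm_nonneg _))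

/-- The direct sum of two representations. -/
noncomputable def hySum {A : Type*} [CStarAlgebra A] (ρ₁ ρ₂ : A →⋆ₐ[ℂ] Op H) :
    A →⋆ₐ[ℂ] Op (WithLp 2 (H × H)) where
  toFun a := hyBl (ρ₁ a) 0 (ρ₂ a)
  map_one' := by
    ext1 v; refine G.prod_ext' ?_ ?_ <;> simp [hyBl_fst, hyBl_snd]
  map_mul' a b := by
    ext1 v; refine G.prod_ext' ?_ ?_ <;> simp [hyBl_fst, hyBl_snd]
  map_zero' := by
    ext1 v; refine G.prod_ext' ?_ ?_ <;> simp [hyBl_fst, hyBl_snd]
  map_add' a b := by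
    ext1 v; refine G.prod_ext' ?_ ?_ <;> simp [hyBl_fst, hyBl_snd]
  commutes' c := by
    ext1 v; refine G.prod_ext' ?_ ?_ <;>
      simp [hyBl_fst, hyBl_snd, Algebra.algebraMap_eq_smul_one]
  map_star' a := by
    rw [map_star, map_star, hyBl_star]

theorem hySum_apply {A : Type*} [CStarAlgebra A] (ρ₁ ρ₂ : A →⋆ₐ[ℂ] Op H) (a : A) :
    hySum ρ₁ ρ₂ a = hyBl (ρ₁ a) 0 (ρ₂ a) := rfl

/-- For `y ∈ N'`, `x ∈ M`, `n ∈ N` close to `x`: `[y, x] = [y, x - n]`; `G.hyper_vn M`. -/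
theorem near_comm {δ : ℝ} (hδ : 0 ≤ δ) (h : Near M N δ) :
    Near N.commutant M.commutant (KA * δ) := by
  intro y hy
  obtain ⟨Z, hZ, h1⟩ := G.hyper_vn M (Y := y) (g := 2 * ‖y‖ * δ) (by positivity) fun a ha => by
    obtain ⟨n, hn, h2⟩ := h a ha
    have e : y * a - a * y = y * (a - n) - (a - n) * y := by
      rw [mul_sub, sub_mul, comm_of_mem hn hy]; abel
    rw [e, mul_assoc]
    exact (hy_comm_le _ _).trans (mul_le_mul_of_nonneg_left h2 (by positivity))
  refine ⟨Z, hZ, h1.trans ?_⟩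
  have := mul_nonneg hδ (norm_nonneg y)
  unfold KA
  nlinarith

theorem Close.comm {δ : ℝ} (hδ : 0 ≤ δ) (h : Close M N δ) :
    Close M.commutant N.commutant (KA * δ) :=
  ⟨near_comm hδ h.2, near_comm hδ h.1⟩

/-- `G.hyper_rep` for `ρ` composed with the inclusion of the C*-algebra `R121.Al N`;
`[Y, ρ n] = [Y, ρ (n - m)]` and `‖ρ x‖ ≤ ‖x‖` (`NonUnitalStarAlgHom.norm_apply_le`). -/
theorem near_rep {K : Type u} [NormedAddCommGroup K] [InnerProductSpace ℂ K] [CompleteSpace K]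
    (ρ : Op H →⋆ₐ[ℂ] Op K) {δ : ℝ} (hδ : 0 ≤ δ) (h : Near N M δ) {Y : Op K}
    (hY : ∀ m ∈ M, ρ m * Y = Y * ρ m) :
    ∃ Z : Op K, (∀ n ∈ N, ρ n * Z = Z * ρ n) ∧ ‖Y - Z‖ ≤ KA * δ * ‖Y‖ := by
  obtain ⟨Z, hZ, h1⟩ := G.hyper_rep (A := R121.Al N) (ρ.comp N.toStarSubalgebra.subtype) (Y := Y)
    (g := 2 * ‖Y‖ * δ) (by positivity) fun a => by
      obtain ⟨m, hm, h2⟩ := h a a.2
      change ‖Y * ρ a - ρ a * Y‖ ≤ _ * ‖(a : Op H)‖
      have e : Y * ρ a - ρ a * Y = Y * ρ (a - m) - ρ (a - m) * Y := by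
        rw [map_sub, mul_sub, sub_mul, hY m hm]; abel
      rw [e, mul_assoc]
      exact (hy_comm_le _ _).trans (mul_le_mul_of_nonneg_left
        ((NonUnitalStarAlgHom.norm_apply_le ρ _).trans h2) (by positivity))
  refine ⟨Z, fun n hn => (hZ ⟨n, hn⟩).symm, h1.trans ?_⟩
  have := mul_nonneg hδ (norm_nonneg Y)
  unfold KA
  nlinarith

/-- Intertwiner version: apply `G.hyper_rep` to `ρ₁ ⊕ ρ₂` on `WithLp 2 (H × H)` and the operator
`(a, b) ↦ (0, Y a)`; take the `(2,1)` entry of the result. -/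
theorem hyper_two {A : Type*} [CStarAlgebra A] (ρ₁ ρ₂ : A →⋆ₐ[ℂ] Op H) {Y : Op H} {g : ℝ}
    (hg : 0 ≤ g) (hY : ∀ a, ‖Y * ρ₁ a - ρ₂ a * Y‖ ≤ g * ‖a‖) :
    ∃ Z : Op H, (∀ a, Z * ρ₁ a = ρ₂ a * Z) ∧ ‖Y - Z‖ ≤ 11200 * g := by
  obtain ⟨Z, hZ, h1⟩ := G.hyper_rep (hySum ρ₁ ρ₂) (Y := hyBl 0 Y 0) hg fun a => by
    have e : hyBl 0 Y 0 * hySum ρ₁ ρ₂ a - hySum ρ₁ ρ₂ a * hyBl 0 Y 0 =
        hyBl 0 (Y * ρ₁ a - ρ₂ a * Y) 0 := by
      ext1 v; refine G.prod_ext' ?_ ?_ <;> simp [hySum_apply, hyBl_fst, hyBl_snd]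
    rw [e]
    exact (norm_hyBl_le _).trans (hY a)
  let i1 : H →L[ℂ] WithLp 2 (H × H) :=
    (WithLp.prodContinuousLinearEquiv 2 ℂ H H).symm.toContinuousLinearMap ∘L
      ContinuousLinearMap.inl ℂ H H
  have f1 : ∀ η, (i1 η).fst = η := fun η => rfl
  have f2 : ∀ η, (i1 η).snd = 0 := fun η => rfl
  have n1 : ∀ η, ‖i1 η‖ = ‖η‖ := fun η => by
    rw [← sq_eq_sq₀ (norm_nonneg _) (norm_nonneg _), WithLp.prod_norm_sq_eq_of_L2, f1, f2,
      norm_zero]
    ring
  refine ⟨WithLp.sndL 2 ℂ H H ∘L Z ∘L i1, fun a => ?_, ?_⟩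
  · ext1 η
    have e : i1 (ρ₁ a η) = hySum ρ₁ ρ₂ a (i1 η) := by
      refine G.prod_ext' ?_ ?_ <;> simp [hySum_apply, hyBl_fst, hyBl_snd, f1, f2]
    change (Z (i1 (ρ₁ a η))).snd = ρ₂ a (Z (i1 η)).snd
    rw [e, ← mul_apply_eq_comp, hZ, mul_apply_eq_comp, hySum_apply, hyBl_snd, zero_apply,
      zero_add]
  · refine ContinuousLinearMap.opNorm_le_bound _ (by positivity) fun η => ?_
    have e : (Y - WithLp.sndL 2 ℂ H H ∘L Z ∘L i1) η = ((hyBl 0 Y 0 - Z) (i1 η)).snd := by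
      change Y η - (Z (i1 η)).snd = (hyBl 0 Y 0 (i1 η)).snd - (Z (i1 η)).snd
      rw [hyBl_snd, f1, zero_apply, add_zero]
    rw [e]
    refine (WithLp.norm_snd_le _ _).trans (((hyBl 0 Y 0 - Z).le_opNorm _).trans ?_)
    rw [n1]
    exact mul_le_mul_of_nonneg_right h1 (norm_nonneg _)

/-- `R121.cob_all` with `k = 0` for the cochain `φ [n] = n y - y n` (and `φ l = 0` for other
lengths; `dd φ [a, b] = a φ b - φ (a b) + φ a b = 0`): `G []` has norm `≤ 3 c` and
`n G - G n = n y - y n`, so `y - G` is central. -/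
theorem near_center {y : Op H} (hy : y ∈ N) {c : ℝ} (hc : 0 ≤ c)
    (h : ∀ n ∈ N, ‖n * y - y * n‖ ≤ c * ‖n‖) : ∃ z, Ctr N z ∧ ‖y - z‖ ≤ 3 * c := by
  let y' : R121.Al N := ⟨y, hy⟩
  obtain ⟨G, -, h1, h2⟩ := R121.cob_all (M := N) (k := 0)
    (φ := fun l => l.prod * y' - y' * l.prod) hc (fun l₁ l₂ hl => by
      have e1 : l₁ = [] := List.eq_nil_of_length_eq_zero (by omega)
      have e2 : l₂ = [] := List.eq_nil_of_length_eq_zero (by omega)
      subst e1 e2
      refine ⟨fun a b => ?_, fun t a => ?_⟩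
      · simp only [List.nil_append, List.prod_cons, List.prod_nil, mul_one, add_mul, mul_add]
        abel
      · simp only [List.nil_append, List.prod_cons, List.prod_nil, mul_one, smul_mul_assoc,
          mul_smul_comm, smul_sub])
    (fun l hl => by
      obtain ⟨a, rfl⟩ := List.length_eq_one_iff.1 hl
      simp only [List.prod_cons, List.prod_nil, mul_one, R121.nrm_cons, R121.nrm_nil]
      exact h a a.2)
    (fun l hl => by
      obtain ⟨a, b, rfl⟩ := List.length_eq_two.1 hl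
      simp only [R121.dd_cons, R121.pd_cons, R121.pd_single, List.prod_cons, List.prod_nil,
        mul_one]
      noncomm_ring)
  have h3 := h1 [] rfl
  refine ⟨y - (G [] : Op H), ⟨sub_mem hy (G []).2,
    VonNeumannAlgebra.mem_commutant_iff.2 fun n hn => ?_⟩, ?_⟩
  · have h4 := h2 [⟨n, hn⟩] rfl
    simp only [R121.dd_cons, R121.pd_single, List.prod_cons, List.prod_nil, mul_one] at h4
    have h5 : n * (G [] : Op H) - (G [] : Op H) * n = n * y - y * n := congrArg Subtype.val h4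
    rw [mul_sub, sub_mul, sub_eq_sub_iff_sub_eq_sub, ← h5]
  · rw [sub_sub_cancel]
    simpa using h3

/-- `‖a - b*‖ ≤ ε`, so `‖[n, a]‖ ≤ 2 ε ‖n‖`; `z` central with `‖a - z‖ ≤ 6 ε ≤ 3/10`; `w` its polar
part (`exists_polar'`, central), `‖a - w‖ ≤ 12 ε`, `a₁ = a w*`, `b₁ = w b`. -/
theorem split_comm (N : VonNeumannAlgebra H) : Split N N.commutant := by
  intro a ha b hb ua ub ε hε h
  have h0 : 0 ≤ ε := (norm_nonneg _).trans h
  have h1 : ‖a - star b‖ ≤ ε := by
    have e : a - star b = (a * b - 1) * star b := by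
      rw [sub_mul, mul_assoc, ub.2, mul_one, one_mul]
    rw [e]
    exact (norm_mul_le _ _).trans ((mul_le_mul h (norm_unitary_le (Unitary.star_mem ub))
      (norm_nonneg _) h0).trans_eq (mul_one _))
  obtain ⟨z, hz, h2⟩ := near_center ha (c := 2 * ε) (by positivity) fun n hn => by
    have e : n * a - a * n = -((a - star b) * n - n * (a - star b)) := by
      rw [mul_sub, sub_mul, comm_of_mem hn (star_mem hb)]; abel
    rw [e, norm_neg]
    exact (hy_comm_le _ _).trans (mul_le_mul_of_nonneg_right (by linarith) (norm_nonneg _))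
  obtain ⟨w, uw, h3, -, -, h4⟩ := exists_polar' (X := z) ua (ε := 3 * (2 * ε)) (by linarith)
    ((norm_sub_rev _ _).trans_le h2)
  have h5 : ‖a - w‖ ≤ 12 * ε := by
    have := norm_sub_le_norm_sub_add_norm_sub a z w
    rw [norm_sub_rev z w] at this
    linarith
  refine ⟨a * star w, mul_mem ha (star_mem (h4 _ hz.1)), w * b, mul_mem (h4 _ hz.2) hb,
    mul_mem ua (Unitary.star_mem uw), mul_mem uw ub, ?_, ?_, ?_⟩
  · rw [mul_assoc, ← mul_assoc (star w), uw.1, one_mul]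
  · have e : a * star w - 1 = (a - w) * star w := by rw [sub_mul, uw.2]
    rw [e]
    refine (norm_mul_le _ _).trans ((mul_le_mul h5 (norm_unitary_le (Unitary.star_mem uw))
      (norm_nonneg _) (by positivity)).trans (by linarith))
  · have e : w * b - 1 = (a * b - 1) - (a - w) * b := by rw [sub_mul]; abel
    rw [e]
    have h6 := (norm_mul_le (a - w) b).trans (mul_le_mul h5 (norm_unitary_le ub)
      (norm_nonneg _) (by positivity))
    exact (norm_sub_le _ _).trans (by linarith)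

/-- A functional identity between vector functionals passes from a `*`-monoid to the von Neumann
algebra it generates: `R124.weak_bicommutant` for the inclusion of the norm closure of the span
of `S` (a closed `StarSubalgebra`, e.g. `(StarAlgebra.adjoin ℂ S).topologicalClosure`), with
`ι = Fin 2` or `Bool`. -/
theorem bicomm_vec {S : Set (Op H)} (h1 : (1 : Op H) ∈ S) (hm : ∀ a ∈ S, ∀ b ∈ S, a * b ∈ S)
    (hs : ∀ a ∈ S, star a ∈ S) {α β γ δ : H} (h : ∀ m ∈ S, ⟪α, m β⟫_ℂ = ⟪γ, m δ⟫_ℂ) :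
    ∀ m ∈ (vn S).commutant, ⟪α, m β⟫_ℂ = ⟪γ, m δ⟫_ℂ := by
  intro m hm'
  let B : StarSubalgebra ℂ (Op H) := (StarAlgebra.adjoin ℂ S).topologicalClosure
  have hB : IsClosed (B : Set (Op H)) := StarSubalgebra.isClosed_topologicalClosure _
  have hSB : ∀ a ∈ S, a ∈ B := fun a ha =>
    StarSubalgebra.le_topologicalClosure _ (StarAlgebra.subset_adjoin ℂ S ha)
  have k0 : ∀ a ∈ Submonoid.closure (S ∪ star S), a ∈ S := fun a ha => by
    induction ha using Submonoid.closure_induction with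
    | mem x hx =>
      rcases hx with hx | hx
      · exact hx
      · simpa using hs _ hx
    | one => exact h1
    | mul x y _ _ hx hy => exact hm x hx y hy
  have k1 : ∀ a ∈ StarAlgebra.adjoin ℂ S, ⟪α, a β⟫_ℂ = ⟪γ, a δ⟫_ℂ := fun a ha => by
    have ha' : a ∈ Submodule.span ℂ (Submonoid.closure (S ∪ star S) : Set (Op H)) := by
      rw [← StarAlgebra.adjoin_eq_span]; exact ha
    clear ha
    induction ha' using Submodule.span_induction with
    | mem x hx => exact h x (k0 x hx)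
    | zero => simp
    | add x y _ _ hx hy => simp only [add_apply, inner_add_right, hx, hy]
    | smul t x _ hx => simp only [_root_.smul_apply, inner_smul_right, hx]
  have k2 : ∀ a ∈ B, ⟪α, a β⟫_ℂ = ⟪γ, a δ⟫_ℂ := fun a ha =>
    closure_minimal (t := {a : Op H | ⟪α, a β⟫_ℂ = ⟪γ, a δ⟫_ℂ}) k1
      (isClosed_eq (by fun_prop) (by fun_prop)) ha
  have key := R124.weak_bicommutant (A := B) B.subtype (ι := Fin 2) ![β, δ] ![α, -γ]
    (fun a => by
      simp only [Fin.sum_univ_two, Matrix.cons_val_zero, Matrix.cons_val_one, inner_neg_left]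
      exact add_neg_eq_zero.2 (k2 a a.2)) (y := m) fun t ht =>
      VonNeumannAlgebra.mem_commutant_iff.1 hm' t (mem_vn.2 fun a ha =>
        ⟨ht a ⟨⟨a, hSB a ha⟩, rfl⟩, ht (star a) ⟨⟨star a, hSB _ (hs a ha)⟩, rfl⟩⟩)
  simp only [Fin.sum_univ_two, Matrix.cons_val_zero, Matrix.cons_val_one, inner_neg_left] at key
  exact add_neg_eq_zero.1 key

end Crest.Agent.R78
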