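import Crest.Agent.R78.AlignD
import Crest.Agent.R78.Hyper

/-! # R78: aligning the centres (task `AlignZ`) -/

set_option autoImplicit false
set_option linter.unusedSectionVars false
open Filter Topology
open scoped InnerProductSpace

namespace Crest.Agent.R78

universe u
variable {H : Type u} [NormedAddCommGroup H] [InnerProductSpace ℂ H] [CompleteSpace H]

variable {M N : VonNeumannAlgebra H}

/-- The centre as a submodule. -/
noncomputable def azSub (M : VonNeumannAlgebra H) : Submodule ℂ (Op H) :=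
  M.toStarSubalgebra.toSubalgebra.toSubmodule ⊓ M.commutant.toStarSubalgebra.toSubalgebra.toSubmodule

theorem az_mem {z : Op H} : z ∈ azSub M ↔ Ctr M z := Iff.rfl

theorem az_closed : IsClosed (azSub M : Set (Op H)) :=
  (R121.isClosed_Al M).inter (R121.isClosed_Al M.commutant)

theorem az_one : Ctr M 1 := ⟨one_mem _, one_mem _⟩

theorem az_star {z : Op H} (hz : Ctr M z) : Ctr M (star z) := ⟨star_mem hz.1, star_mem hz.2⟩

theorem az_mul {z z' : Op H} (hz : Ctr M z) (hz' : Ctr M z') : Ctr M (z * z') :=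
  ⟨mul_mem hz.1 hz'.1, mul_mem hz.2 hz'.2⟩

/-- `y ∈ N` near `z`; `‖[n, y]‖ ≤ ‖[n - m, z]‖ + 2 ‖y - z‖ ‖n‖ ≤ 4 δ ‖n‖`; `near_center`; take the
real part, `exists_proj_near`. -/
theorem exists_ctr_proj {δ : ℝ} (h0 : 0 ≤ δ) (hδ : δ ≤ 1 / 1000) (h : Close M N δ) {z : Op H}
    (hz : Ctr M z) (hp : IsStarProjection z) :
    ∃ e, Ctr N e ∧ IsStarProjection e ∧ ‖e - z‖ ≤ 60 * δ := by
  have hz1 : ‖z‖ ≤ 1 := hp.norm_le
  obtain ⟨y, hy, hyz⟩ := h.1 z hz.1
  have hyz' : ‖y - z‖ ≤ δ := by
    rw [norm_sub_rev]; exact hyz.trans (mul_le_of_le_one_right h0 hz1)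
  obtain ⟨w, hw, hyw⟩ := near_center hy (c := 4 * δ) (by positivity) fun n hn => by
    obtain ⟨m, hm, hnm⟩ := h.2 n hn
    have e : n * y - y * n = ((n - m) * z - z * (n - m)) + (n * (y - z) - (y - z) * n) := by
      have := comm_of_mem hm hz.2
      simp only [sub_mul, mul_sub, this]
      abel
    have a1 := (norm_mul_le (n - m) z).trans (mul_le_mul hnm hz1 (norm_nonneg _) (by positivity))
    have a2 := (norm_mul_le z (n - m)).trans (mul_le_mul hz1 hnm (norm_nonneg _) zero_le_one)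
    have a3 := (norm_mul_le n (y - z)).trans (mul_le_mul_of_nonneg_left hyz' (norm_nonneg _))
    have a4 := (norm_mul_le (y - z) n).trans (mul_le_mul_of_nonneg_right hyz' (norm_nonneg _))
    rw [e]
    refine (norm_add_le _ _).trans ((add_le_add (norm_sub_le _ _) (norm_sub_le _ _)).trans ?_)
    linarith
  have hwz : ‖w - z‖ ≤ 13 * δ := by
    have := norm_sub_le_norm_sub_add_norm_sub w y z
    rw [norm_sub_rev w y] at this
    linarith
  have hwz' : ‖star w - z‖ ≤ 13 * δ := by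
    rw [← norm_star, star_sub, star_star, hp.isSelfAdjoint.star_eq]; exact hwz
  have hy' : Ctr N ((1 / 2 : ℂ) • (w + star w)) :=
    az_mem.1 (Submodule.smul_mem _ _ (Submodule.add_mem _ (az_mem.2 hw) (az_mem.2 (az_star hw))))
  obtain ⟨e, he, hez, hc⟩ := exists_proj_near (y := (1 / 2 : ℂ) • (w + star w))
    (by rw [IsSelfAdjoint, star_smul, star_add, star_star, add_comm]; simp) hp (ε := 13 * δ)
    (by linarith) (by
      have e : (1 / 2 : ℂ) • (w + star w) - z = (1 / 2 : ℂ) • ((w - z) + (star w - z)) := by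
        module
      have := norm_add_le (w - z) (star w - z)
      rw [e, norm_smul]
      simp only [one_div, norm_inv, Complex.norm_ofNat]
      linarith)
  refine ⟨e, ⟨mem_of_comm fun t ht => (hc t (comm_of_mem hy'.1 ht)).symm,
    VonNeumannAlgebra.mem_commutant_iff.2 fun g hg => (hc g (comm_of_mem hg hy'.2).symm).symm⟩,
    he, by linarith⟩

/-- The centre is the norm closed span of its projections: `R121.span_induction` with `p = 1` for
the von Neumann algebra `vn (M ∪ M')`, whose elements are the `z` with `Ctr M z`. -/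
theorem ctr_induction (L : Submodule ℂ (Op H)) (hL : IsClosed (L : Set (Op H)))
    (h : ∀ e, Ctr M e → IsStarProjection e → e ∈ L) {z : Op H} (hz : Ctr M z) : z ∈ L := by
  have hZ : ∀ x, x ∈ vn ((M : Set (Op H)) ∪ M.commutant) ↔ Ctr M x := by
    intro x
    rw [mem_vn]
    constructor
    · intro hx
      exact ⟨mem_of_comm fun y hy => (hx y (Or.inr hy)).1,
        VonNeumannAlgebra.mem_commutant_iff.2 fun g hg => (hx g (Or.inl hg)).1⟩
    · rintro hx a (ha | ha)
      · exact ⟨comm_of_mem ha hx.2, comm_of_mem (star_mem (show a ∈ M from ha)) hx.2⟩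
      · exact ⟨(comm_of_mem hx.1 ha).symm,
          (comm_of_mem hx.1 (star_mem (show a ∈ M.commutant from ha))).symm⟩
  have := R121.span_induction (M := vn ((M : Set (Op H)) ∪ M.commutant))
    (L.comap (vn ((M : Set (Op H)) ∪ M.commutant)).toStarSubalgebra.toSubalgebra.val.toLinearMap)
    (hL.preimage continuous_subtype_val) (p := 1) (IsStarProjection.one _)
    (fun e he _ => h e ((hZ e).1 e.2) ⟨congrArg Subtype.val he.isIdempotentElem.eq,
      congrArg Subtype.val he.isSelfAdjoint.star_eq⟩)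
    (a := ⟨z, (hZ z).2 hz⟩) (one_mul _) (mul_one _)
  exact this

/-- Central symmetries. -/
def azSym (M : VonNeumannAlgebra H) : Set (Op H) := {γ | Ctr M γ ∧ star γ = γ ∧ γ * γ = 1}

theorem az_sym_mul : ∀ γ ∈ azSym M, ∀ γ' ∈ azSym M, γ * γ' ∈ azSym M ∧ γ * γ' = γ' * γ := by
  rintro γ ⟨h1, h2, h3⟩ γ' ⟨h1', h2', h3'⟩
  have hc := comm_of_mem h1.1 h1'.2
  refine ⟨⟨az_mul h1 h1', by rw [star_mul, h2, h2', hc], ?_⟩, hc⟩
  rw [mul_assoc, ← mul_assoc γ', ← hc, mul_assoc, h3', mul_one, h3]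

theorem az_sym_of_proj {e : Op H} (he : Ctr M e) (hp : IsStarProjection e) :
    1 - (2 : ℂ) • e ∈ azSym M := by
  refine ⟨az_mem.1 (Submodule.sub_mem _ (az_mem.2 az_one) (Submodule.smul_mem _ _ (az_mem.2 he))),
    ?_, ?_⟩
  · rw [star_sub, star_smul, star_one, hp.isSelfAdjoint.star_eq]; simp
  · simp only [sub_mul, mul_sub, one_mul, mul_one, smul_mul_smul_comm, hp.isIdempotentElem.eq]
    module

theorem az_match {δ : ℝ} (h0 : 0 ≤ δ) (hδ : δ ≤ 1 / 1000) (h : Close M N δ) :
    ∀ γ ∈ azSym M, ∃ β ∈ azSym N, ‖γ - β‖ ≤ 120 * δ := by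
  rintro γ ⟨h1, h2, h3⟩
  obtain ⟨e, he, hp, hn⟩ := exists_ctr_proj h0 hδ h (z := (1 / 2 : ℂ) • (1 - γ))
    (az_mem.1 (Submodule.smul_mem _ _ (Submodule.sub_mem _ (az_mem.2 az_one) (az_mem.2 h1))))
    ⟨by
      simp only [IsIdempotentElem, smul_mul_smul_comm, sub_mul, mul_sub, one_mul, mul_one, h3]
      module, by rw [IsSelfAdjoint, star_smul, star_sub, star_one, h2]; simp⟩
  refine ⟨_, az_sym_of_proj he hp, ?_⟩
  have e1 : γ - (1 - (2 : ℂ) • e) = (2 : ℂ) • (e - (1 / 2 : ℂ) • (1 - γ)) := by module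
  rw [e1, norm_smul, Complex.norm_ofNat]
  linarith

theorem az_transfer {w : Op H} (hw : w ∈ unitary (Op H))
    (h : ∀ γ ∈ azSym M, Ctr N (star w * γ * w)) {z : Op H} (hz : Ctr M z) :
    Ctr N (star w * z * w) := by
  refine az_mem.1 (ctr_induction ((azSub N).comap (LinearMap.mulLeftRight ℂ (star w, w)))
    (az_closed.preimage (f := fun x => star w * x * w) (by fun_prop)) (fun e he hp => ?_) hz)
  have h1 := h _ (az_sym_of_proj he hp)
  have e1 : star w * e * w = (1 / 2 : ℂ) • (1 - star w * (1 - (2 : ℂ) • e) * w) := by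
    simp only [mul_sub, sub_mul, mul_one, hw.1, mul_smul_comm, smul_mul_assoc]
    module
  change star w * e * w ∈ azSub N
  rw [e1]
  exact Submodule.smul_mem _ _ (Submodule.sub_mem _ (az_mem.2 az_one) (az_mem.2 h1))

/-- `alignS` for the central symmetries `1 - 2 e` of `M` and `N` gives `w` with `γ w = w β` for
matched pairs; put `u = w*`.  Every central symmetry of either algebra has a match, so
`u z u*` is central in `N` for central projections `z` of `M` and conversely; `ctr_induction`;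
`mem_cj`, `commutant_cj`. -/
theorem exists_alignZ {δ : ℝ} (h0 : 0 ≤ δ) (hδ : δ ≤ 1 / 1000) (h : Close M N δ) :
    ∃ u ∈ unitary (Op H), ‖u - 1‖ ≤ 500 * δ ∧ ∀ z, Ctr M z ↔ Ctr (cj u N) z := by
  obtain ⟨w, hw, hw1, hw2⟩ := alignS (azSym M) (azSym N) ⟨az_one, star_one _, one_mul _⟩
    (fun _ h => h.2) (fun _ h => h.2) az_sym_mul az_sym_mul (c := 120 * δ) (by linarith)
    (az_match h0 hδ h)
  have hu := Unitary.star_mem hw
  refine ⟨star w, hu, by rw [norm_star_sub_one]; linarith, fun z => ?_⟩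
  have e : Ctr (cj (star w) N) z ↔ Ctr N (star w * z * w) := by
    rw [Ctr, commutant_cj hu, mem_cj hu, mem_cj hu, star_star]
    rfl
  rw [e]
  refine ⟨az_transfer hw fun γ hγ => ?_, fun hz => ?_⟩
  · obtain ⟨β, hβ, hn⟩ := az_match h0 hδ h γ hγ
    rw [mul_assoc, hw2 γ hγ β hβ hn, un_l hw]
    exact hβ.1
  · have := az_transfer (N := M) hu (fun β hβ => ?_) hz
    · rwa [star_star, conj_conj hw] at this
    · obtain ⟨γ, hγ, hn⟩ := az_match h0 hδ h.symm β hβ
      rw [norm_sub_rev] at hn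
      rw [star_star, ← hw2 γ hγ β hβ hn, mul_assoc, hw.2, mul_one]
      exact hγ.1

end Crest.Agent.R78
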