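import Crest.Agent.R78.Pol

/-! # R78: the Hilbert space `ℓ²(𝒥; H)` (task `Amp`) -/

set_option autoImplicit false
set_option linter.unusedSectionVars false
open Filter Topology
open scoped InnerProductSpace

namespace Crest.Agent.R78

universe u
variable {H : Type u} [NormedAddCommGroup H] [InnerProductSpace ℂ H] [CompleteSpace H]

/-- `ℓ²(𝒥; H)`. -/
abbrev L2 (𝒥 : Type) (H : Type u) [NormedAddCommGroup H] : Type u := lp (fun _ : 𝒥 => H) 2

namespace L2
variable {𝒥 𝒥' : Type}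

open Classical in
/-- Inclusion at the coordinate `i`. -/
noncomputable def ins (i : 𝒥) : H →L[ℂ] L2 𝒥 H :=
  lp.singleContinuousLinearMap ℂ (fun _ : 𝒥 => H) 2 i

/-- Evaluation at the coordinate `i`. -/
noncomputable def ev (i : 𝒥) : L2 𝒥 H →L[ℂ] H := lp.evalCLM ℂ (fun _ : 𝒥 => H) 2 i

theorem ev_ins (i : 𝒥) (η : H) : ev i (ins i η) = η := by
  classical
  exact lp.single_apply_self (E := fun _ : 𝒥 => H) 2 i η

theorem ev_ins_ne {i j : 𝒥} (h : i ≠ j) (η : H) : ev i (ins j η) = 0 := by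
  classical
  exact lp.single_apply_ne (E := fun _ : 𝒥 => H) 2 j η h

theorem inner_ins_left (i : 𝒥) (η : H) (f : L2 𝒥 H) : ⟪ins i η, f⟫_ℂ = ⟪η, ev i f⟫_ℂ := by
  classical
  exact lp.inner_single_left (G := fun _ : 𝒥 => H) i η f

theorem inner_ins_right (i : 𝒥) (η : H) (f : L2 𝒥 H) : ⟪f, ins i η⟫_ℂ = ⟪ev i f, η⟫_ℂ := by
  classical
  exact lp.inner_single_right (G := fun _ : 𝒥 => H) i η f

theorem adjoint_ins (i : 𝒥) : ContinuousLinearMap.adjoint (ins (H := H) i) = ev i := by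
  refine ((ContinuousLinearMap.eq_adjoint_iff _ _).2 fun f η => ?_).symm
  rw [inner_ins_right]

theorem norm_ins (i : 𝒥) (η : H) : ‖ins i η‖ = ‖η‖ := by
  classical
  exact lp.norm_single (E := fun _ : 𝒥 => H) (by norm_num) i η

theorem norm_ev_le (i : 𝒥) (f : L2 𝒥 H) : ‖ev i f‖ ≤ ‖f‖ := by
  exact lp.norm_apply_le_norm (by norm_num) f i

theorem hasSum_ins (f : L2 𝒥 H) : HasSum (fun i => ins i (ev i f)) f := by
  classical
  exact lp.hasSum_single (by norm_num) f

theorem par (f : L2 𝒥 H) : HasSum (fun i => ‖ev i f‖ ^ 2) (‖f‖ ^ 2) := by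
  have h := lp.hasSum_norm (by norm_num) f
  simp only [ENNReal.toReal_ofNat, Real.rpow_ofNat] at h
  exact h

theorem ext_ev {f g : L2 𝒥 H} (h : ∀ i, ev i f = ev i g) : f = g := by
  exact lp.ext (funext h)

theorem ext_ins {K : Type*} [NormedAddCommGroup K] [NormedSpace ℂ K] {X Y : L2 𝒥 H →L[ℂ] K}
    (h : ∀ i η, X (ins i η) = Y (ins i η)) : X = Y := by
  classical
  exact lp.ext_continuousLinearMap (by norm_num) fun i => ContinuousLinearMap.ext (h i)

theorem norm_sum_ins (s : Finset 𝒥) (η : 𝒥 → H) :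
    ‖∑ i ∈ s, ins i (η i)‖ ^ 2 = ∑ i ∈ s, ‖η i‖ ^ 2 := by
  classical
  have h := lp.norm_sum_single (E := fun _ : 𝒥 => H) (p := 2) (by norm_num) η s
  simp only [ENNReal.toReal_ofNat, Real.rpow_ofNat] at h
  exact h

theorem exists_wt {φ : 𝒥 → 𝒥} (hφ : Function.Injective φ) {f : 𝒥 → Op H} {C : ℝ} (hC : 0 ≤ C)
    (h : ∀ i, ‖f i‖ ≤ C) :
    ∃ D : Op (L2 𝒥 H), ‖D‖ ≤ C ∧ ∀ i η, D (ins i η) = ins (φ i) (f i η) := by
  obtain ⟨X, h1, h2⟩ := exists_colSum (fun i => (ins (φ i) ∘L f i ∘L ev i : Op (L2 𝒥 H)))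
    (fun i j hij η ζ => by
      simp only [ContinuousLinearMap.comp_apply]
      rw [inner_ins_left, ev_ins_ne (hφ.ne hij), inner_zero_right]) hC (fun s η => by
      simp only [ContinuousLinearMap.comp_apply, norm_ins]
      calc ∑ i ∈ s, ‖f i (ev i η)‖ ^ 2 ≤ ∑ i ∈ s, C ^ 2 * ‖ev i η‖ ^ 2 :=
            Finset.sum_le_sum fun i _ => by
              rw [← mul_pow]
              exact pow_le_pow_left₀ (norm_nonneg _) ((f i).le_of_opNorm_le (h i) _) 2
        _ ≤ C ^ 2 * ‖η‖ ^ 2 := by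
            rw [← Finset.mul_sum]
            exact mul_le_mul_of_nonneg_left (sum_le_hasSum s (fun _ _ => sq_nonneg _) (par η))
              (sq_nonneg _))
  refine ⟨X, h1, fun i η => (h2 _).unique ?_⟩
  have h3 := hasSum_single (f := fun j => (ins (φ j) ∘L f j ∘L ev j : Op (L2 𝒥 H)) (ins i η)) i
    fun j hj => by simp [ev_ins_ne hj]
  simpa only [ContinuousLinearMap.comp_apply, ev_ins] using h3

open Classical in
/-- Diagonal operator (junk value `0` for unbounded families). -/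
noncomputable def diag (f : 𝒥 → Op H) : Op (L2 𝒥 H) :=
  if h : ∃ D : Op (L2 𝒥 H), ∀ i η, D (ins i η) = ins i (f i η) then h.choose else 0

/-- Existence by `exists_colSum` for `A i = ins i ∘ f i ∘ ev i`. -/
theorem diag_ins {f : 𝒥 → Op H} {C : ℝ} (h : ∀ i, ‖f i‖ ≤ C) (i : 𝒥) (η : H) :
    diag f (ins i η) = ins i (f i η) := by
  obtain ⟨D, -, hD⟩ := exists_wt Function.injective_id (le_max_right C 0)
    fun i => (h i).trans (le_max_left _ _)
  have h1 : ∃ D : Op (L2 𝒥 H), ∀ i η, D (ins i η) = ins i (f i η) := ⟨D, hD⟩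
  rw [diag, dif_pos h1]
  exact h1.choose_spec i η

theorem ev_diag {f : 𝒥 → Op H} {C : ℝ} (h : ∀ i, ‖f i‖ ≤ C) (i : 𝒥) (η : L2 𝒥 H) :
    ev i (diag f η) = f i (ev i η) := by
  refine DFunLike.congr_fun (ext_ins (X := ev i ∘L diag f) (Y := f i ∘L ev i) fun j ζ => ?_) η
  simp only [ContinuousLinearMap.comp_apply, diag_ins h]
  rcases eq_or_ne i j with rfl | e
  · rw [ev_ins, ev_ins]
  · rw [ev_ins_ne e, ev_ins_ne e, map_zero]

theorem norm_diag_le {f : 𝒥 → Op H} {C : ℝ} (hC : 0 ≤ C) (h : ∀ i, ‖f i‖ ≤ C) :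
    ‖diag f‖ ≤ C := by
  obtain ⟨D, h1, hD⟩ := exists_wt Function.injective_id hC h
  rwa [ext_ins (X := diag f) (Y := D) fun i η => (diag_ins h i η).trans (hD i η).symm]

theorem star_diag {f : 𝒥 → Op H} {C : ℝ} (h : ∀ i, ‖f i‖ ≤ C) :
    star (diag f) = diag fun i => star (f i) := by
  refine ext_ins fun i η => ext_inner_left ℂ fun v => ?_
  rw [diag_ins (C := C) (fun i => by rw [norm_star]; exact h i), ContinuousLinearMap.star_eq_adjoint,
    ContinuousLinearMap.adjoint_inner_right, inner_ins_right, inner_ins_right, ev_diag h,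
    ContinuousLinearMap.star_eq_adjoint, ContinuousLinearMap.adjoint_inner_right]

theorem diag_mul {f g : 𝒥 → Op H} {C D : ℝ} (hf : ∀ i, ‖f i‖ ≤ C) (hg : ∀ i, ‖g i‖ ≤ D) :
    diag f * diag g = diag fun i => f i * g i := by
  refine ext_ins fun i η => ?_
  rw [diag_ins (C := C * D) (fun i => (norm_mul_le _ _).trans
    (mul_le_mul (hf i) (hg i) (norm_nonneg _) ((norm_nonneg _).trans (hf i)))),
    mul_apply_eq_comp, diag_ins hg, diag_ins hf, mul_apply_eq_comp]

theorem diag_one : diag (fun _ : 𝒥 => (1 : Op H)) = 1 := by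
  refine ext_ins fun i η => ?_
  rw [diag_ins (fun _ => le_rfl)]
  rfl

theorem diag_unitary {f : 𝒥 → Op H} (h : ∀ i, f i ∈ unitary (Op H)) :
    diag f ∈ unitary (Op (L2 𝒥 H)) := by
  have h1 : ∀ i, ‖f i‖ ≤ 1 := fun i => norm_unitary_le (h i)
  have h2 : ∀ i, ‖star (f i)‖ ≤ 1 := fun i => by rw [norm_star]; exact h1 i
  rw [Unitary.mem_iff, star_diag h1, diag_mul h2 h1, diag_mul h1 h2]
  simp only [Unitary.star_mul_self_of_mem (h _), Unitary.mul_star_self_of_mem (h _), diag_one,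
    and_self]

/-- Strong continuity of `diag` on bounded sets (cut the sum `∑ ‖f i (ev i η)‖²`). -/
theorem tendsto_diag {κ : Type*} {l : Filter κ} {f : κ → 𝒥 → Op H} {g : 𝒥 → Op H} {C : ℝ}
    (hf : ∀ k i, ‖f k i‖ ≤ C) (hg : ∀ i, ‖g i‖ ≤ C)
    (h : ∀ i η, Tendsto (fun k => f k i η) l (𝓝 (g i η))) (η : L2 𝒥 H) :
    Tendsto (fun k => diag (f k) η) l (𝓝 (diag g η)) := by
  have h1 : ∀ k, ‖diag (f k) η - diag g η‖ =
      √(∑' i, ‖f k i (ev i η) - g i (ev i η)‖ ^ 2) := fun k => by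
    have h2 := (par (diag (f k) η - diag g η)).tsum_eq
    simp only [map_sub, ev_diag (hf k), ev_diag hg] at h2
    rw [h2, Real.sqrt_sq (norm_nonneg _)]
  have h2 := tendsto_tsum_of_dominated_convergence (𝓕 := l)
    (f := fun k i => ‖f k i (ev i η) - g i (ev i η)‖ ^ 2) (g := fun _ => (0 : ℝ))
    ((par η).summable.mul_left ((2 * C) ^ 2))
    (fun i => by simpa using (tendsto_iff_norm_sub_tendsto_zero.1 (h i (ev i η))).pow 2)
    (Eventually.of_forall fun k i => by
      rw [Real.norm_of_nonneg (sq_nonneg _), ← mul_pow]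
      refine pow_le_pow_left₀ (norm_nonneg _) ((norm_sub_le _ _).trans ?_) 2
      linarith [(f k i).le_of_opNorm_le (hf k i) (ev i η), (g i).le_of_opNorm_le (hg i) (ev i η)])
  rw [tendsto_iff_norm_sub_tendsto_zero]
  simp only [h1]
  simpa using h2.sqrt

/-- Amplification `x ↦ 1 ⊗ x`. -/
noncomputable def lift (𝒥 : Type) : Op H →⋆ₐ[ℂ] Op (L2 𝒥 H) where
  toFun x := diag fun _ => x
  map_one' := diag_one
  map_mul' x y := (diag_mul (fun _ => le_rfl) (fun _ => le_rfl)).symm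
  map_zero' := ext_ins fun i η => by rw [diag_ins (fun _ => le_rfl)]; simp
  map_add' x y := ext_ins fun i η => by
    simp only [add_apply, diag_ins (fun _ => le_rfl), map_add]
  commutes' c := ext_ins fun i η => by
    rw [diag_ins (fun _ => le_rfl)]; simp [Algebra.algebraMap_eq_smul_one]
  map_star' x := (star_diag (fun _ => le_rfl)).symm

theorem lift_eq (x : Op H) : lift 𝒥 x = diag fun _ => x := rfl

theorem lift_ins (x : Op H) (i : 𝒥) (η : H) : lift 𝒥 x (ins i η) = ins i (x η) :=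
  diag_ins (fun _ => le_rfl) i η

theorem ev_lift (x : Op H) (i : 𝒥) (η : L2 𝒥 H) : ev i (lift 𝒥 x η) = x (ev i η) :=
  ev_diag (fun _ => le_rfl) i η

theorem norm_lift_le (x : Op H) : ‖lift 𝒥 x‖ ≤ ‖x‖ := norm_diag_le (norm_nonneg _) fun _ => le_rfl

open Classical in
/-- The isometry induced by an injection of the index set (junk value otherwise). -/
noncomputable def emb (H : Type u) [NormedAddCommGroup H] [InnerProductSpace ℂ H]
    (φ : 𝒥 → 𝒥) : Op (L2 𝒥 H) :=
  if h : ∃ D : Op (L2 𝒥 H), ∀ i η, D (ins i η) = ins (φ i) η then h.choose else 0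

/-- Existence by `exists_colSum` for `A i = ins (φ i) ∘ ev i`. -/
theorem emb_ins {φ : 𝒥 → 𝒥} (h : Function.Injective φ) (i : 𝒥) (η : H) :
    emb H φ (ins i η) = ins (φ i) η := by
  obtain ⟨D, -, hD⟩ := exists_wt h (f := fun _ => (1 : Op H)) (norm_nonneg _) fun _ => le_rfl
  have h1 : ∃ D : Op (L2 𝒥 H), ∀ i η, D (ins i η) = ins (φ i) η := ⟨D, hD⟩
  rw [emb, dif_pos h1]
  exact h1.choose_spec i η

theorem ev_star_emb {φ : 𝒥 → 𝒥} (h : Function.Injective φ) (i : 𝒥) (η : L2 𝒥 H) :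
    ev i (star (emb H φ) η) = ev (φ i) η := by
  refine ext_inner_left ℂ fun v => ?_
  rw [← inner_ins_left, ContinuousLinearMap.star_eq_adjoint,
    ContinuousLinearMap.adjoint_inner_right, emb_ins h, inner_ins_left]

theorem star_emb_ins {φ : 𝒥 → 𝒥} (h : Function.Injective φ) (i : 𝒥) (η : H) :
    star (emb H φ) (ins (φ i) η) = ins i η := by
  refine ext_ev fun j => ?_
  rw [ev_star_emb h]
  rcases eq_or_ne j i with rfl | e
  · rw [ev_ins, ev_ins]
  · rw [ev_ins_ne e, ev_ins_ne (h.ne e)]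

theorem star_emb_ins_of_notMem {φ : 𝒥 → 𝒥} (h : Function.Injective φ) {j : 𝒥}
    (hj : j ∉ Set.range φ) (η : H) : star (emb H φ) (ins j η) = 0 := by
  refine ext_ev fun i => ?_
  rw [ev_star_emb h, ev_ins_ne fun e => hj ⟨i, e⟩, map_zero]

theorem emb_unitary {φ : 𝒥 → 𝒥} (h : Function.Bijective φ) :
    emb H φ ∈ unitary (Op (L2 𝒥 H)) := by
  refine Unitary.mem_iff.2 ⟨ext_ins fun i η => ?_, ext_ins fun j η => ?_⟩
  · rw [mul_apply_eq_comp, emb_ins h.1, star_emb_ins h.1]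
    rfl
  · obtain ⟨i, rfl⟩ := h.2 j
    rw [mul_apply_eq_comp, star_emb_ins h.1, emb_ins h.1]
    rfl

theorem lift_emb {φ : 𝒥 → 𝒥} (h : Function.Injective φ) (x : Op H) :
    lift 𝒥 x * emb H φ = emb H φ * lift 𝒥 x := by
  refine ext_ins fun i η => ?_
  rw [mul_apply_eq_comp, mul_apply_eq_comp, emb_ins h, lift_ins, lift_ins,
    emb_ins h]

/-- Matrix entries of an operator commuting with `lift M'` lie in `M`. -/
theorem entry_mem {M : VonNeumannAlgebra H} {X : Op (L2 𝒥 H)}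
    (h : ∀ y ∈ M.commutant, lift 𝒥 y * X = X * lift 𝒥 y) (i j : 𝒥) :
    (ev i ∘L X ∘L ins j : Op H) ∈ M := by
  refine mem_of_comm fun y hy => ContinuousLinearMap.ext fun η => ?_
  have h1 := DFunLike.congr_fun (h y hy) (ins j η)
  simp only [mul_apply_eq_comp, ContinuousLinearMap.comp_apply, lift_ins] at h1 ⊢
  rw [← h1, ev_lift]

/-- Finite sums of `ins i η` with `η` in a countable dense set are dense. -/
theorem separable [Countable 𝒥] [TopologicalSpace.SeparableSpace H] :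
    TopologicalSpace.SeparableSpace (L2 𝒥 H) := by
  refine TopologicalSpace.isSeparable_univ_iff.1 ((TopologicalSpace.IsSeparable.span (R := ℂ)
    (TopologicalSpace.IsSeparable.iUnion fun i : 𝒥 => TopologicalSpace.isSeparable_range
      (ins (H := H) i).continuous)).closure.mono fun f _ => ?_)
  refine mem_closure_of_tendsto (hasSum_ins f) (Eventually.of_forall fun s => ?_)
  exact Submodule.sum_mem _ fun i _ => Submodule.subset_span (Set.mem_iUnion.2 ⟨i, _, rfl⟩)

end L2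

end Crest.Agent.R78
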