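import Crest.Agent.R78.AncC
import Crest.Agent.R78.Hyper

/-! # R78: simultaneous column and weighted row approximation (task `L2Lat`) -/

set_option autoImplicit false
set_option linter.unusedSectionVars false
open Filter Topology
open scoped InnerProductSpace

namespace Crest.Agent.R78

universe u
variable {H : Type u} [NormedAddCommGroup H] [InnerProductSpace ℂ H] [CompleteSpace H]

/-- `X = Anc.X lam x` commutes with `lift M'`, so does its truncation `Y`; `near_rep` gives `Z`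
commuting with `lift N'`, `‖Y - Z‖ ≤ KA δ K`; `n = coef Z`, `x - n = coef (X - Z)`; `col_le`,
`four`, `row_le`. -/
theorem exists_anc {M N : VonNeumannAlgebra H} {δ K C : ℝ} (hδ : 0 ≤ δ) (hK : 0 < K)
    (h : Near N.commutant M.commutant δ) {α : Type} [Fintype α] {lam : α → ℝ}
    (hl : ∀ a, 0 < lam a) {x : α → Op H} (hx : ∀ a, x a ∈ M) (hc : Col x C) (hr : Row lam x C) :
    ∃ n : α → Op H, (∀ a, n a ∈ N) ∧ Row lam n (K * (1 + KA * δ)) ∧
      ∀ η, ∑ a, ‖x a η - n a η‖ ^ 2 ≤ (4 * C ^ 4 / K ^ 2 + 2 * (KA * δ * K) ^ 2) * ‖η‖ ^ 2 := by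
  classical
  obtain ⟨Y, hY1, hY2, hY3⟩ := exists_trunc (Anc.X lam x) hK
  obtain ⟨Z, hZ1, hZ2⟩ := near_rep (L2.lift (α → Bool)) hδ h (Y := Y) fun m hm =>
    (hY3 _ (Anc.X_comm fun a => ⟨comm_of_mem (hx a) hm, comm_of_mem (star_mem (hx a)) hm⟩)).symm
  have hKA := KA_pos
  have hZ3 : ‖Y - Z‖ ≤ KA * δ * K := hZ2.trans (mul_le_mul_of_nonneg_left hY1 (by positivity))
  have hZ4 : ‖Z‖ ≤ K * (1 + KA * δ) := by
    have := norm_sub_le Y (Y - Z)
    rw [sub_sub_cancel] at this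
    linarith
  refine ⟨Anc.coef lam Z, Anc.coef_mem hZ1, fun η => (Anc.row_le hl Z η).trans
    (mul_le_mul_of_nonneg_right (pow_le_pow_left₀ (norm_nonneg _) hZ4 2) (sq_nonneg _)), fun η => ?_⟩
  have e : ∀ a, x a η - Anc.coef lam Z a η = Anc.coef lam (Anc.X lam x - Z) a η := fun a => by
    rw [Anc.coef_sub, Anc.coef_X hl, sub_apply]
  simp only [e]
  refine (Anc.col_le hl _ η).trans ?_
  have h1 : ∀ ω : α → Bool, ‖(Anc.X lam x - Z) (L2.ins ω η)‖ ^ 2 ≤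
      2 / K ^ 2 * ‖(star (Anc.X lam x) * Anc.X lam x) (L2.ins ω η)‖ ^ 2 + 2 * (KA * δ * K) ^ 2 * ‖η‖ ^ 2 := by
    intro ω
    have a1 := pow_le_pow_left₀ (norm_nonneg _) (hY2 (L2.ins ω η)) 2
    have a2 : ‖(Y - Z) (L2.ins ω η)‖ ≤ KA * δ * K * ‖η‖ := by
      have := (Y - Z).le_of_opNorm_le hZ3 (L2.ins ω η)
      rwa [L2.norm_ins] at this
    have a3 := pow_le_pow_left₀ (norm_nonneg _) a2 2
    have a4 : ‖(Anc.X lam x - Z) (L2.ins ω η)‖ ≤
        ‖Anc.X lam x (L2.ins ω η) - Y (L2.ins ω η)‖ + ‖(Y - Z) (L2.ins ω η)‖ := by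
      rw [sub_apply, sub_apply]
      exact norm_sub_le_norm_sub_add_norm_sub _ _ _
    have a5 := pow_le_pow_left₀ (norm_nonneg _) a4 2
    rw [div_pow] at a1
    rw [mul_pow] at a3
    have a6 := sq_nonneg (‖Anc.X lam x (L2.ins ω η) - Y (L2.ins ω η)‖ - ‖(Y - Z) (L2.ins ω η)‖)
    rw [div_mul_eq_mul_div, mul_div_assoc]
    nlinarith
  calc _ ≤ ∑ ω : α → Bool, Anc.wt lam ω *
        (2 / K ^ 2 * ‖(star (Anc.X lam x) * Anc.X lam x) (L2.ins ω η)‖ ^ 2 + 2 * (KA * δ * K) ^ 2 * ‖η‖ ^ 2) :=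
        Finset.sum_le_sum fun ω _ => mul_le_mul_of_nonneg_left (h1 ω) (Anc.wt_nonneg hl ω)
    _ = 2 / K ^ 2 * (∑ ω : α → Bool, Anc.wt lam ω * ‖(star (Anc.X lam x) * Anc.X lam x) (L2.ins ω η)‖ ^ 2) +
        (∑ ω : α → Bool, Anc.wt lam ω) * (2 * (KA * δ * K) ^ 2 * ‖η‖ ^ 2) := by
        rw [Finset.mul_sum, Finset.sum_mul, ← Finset.sum_add_distrib]
        exact Finset.sum_congr rfl fun ω _ => by ring
    _ ≤ 2 / K ^ 2 * (2 * C ^ 4 * ‖η‖ ^ 2) + 1 * (2 * (KA * δ * K) ^ 2 * ‖η‖ ^ 2) := by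
        rw [Anc.sum_wt hl]
        exact add_le_add (mul_le_mul_of_nonneg_left (Anc.four hl hc hr η) (by positivity)) le_rfl
    _ = _ := by ring

end Crest.Agent.R78
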