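import Crest.Agent.R78.Amp

/-! # R78: a qubit ancilla with a product state (task `AncC`) -/

set_option autoImplicit false
set_option linter.unusedSectionVars false
open Filter Topology
open scoped InnerProductSpace

namespace Crest.Agent.R78

universe u
variable {H : Type u} [NormedAddCommGroup H] [InnerProductSpace ℂ H] [CompleteSpace H]

/-- Column bound. -/
def Col {ι : Type*} [Fintype ι] (x : ι → Op H) (C : ℝ) : Prop :=
  ∀ η, ∑ i, ‖x i η‖ ^ 2 ≤ C ^ 2 * ‖η‖ ^ 2

/-- Weighted row bound. -/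
def Row {ι : Type*} [Fintype ι] (lam : ι → ℝ) (x : ι → Op H) (C : ℝ) : Prop :=
  ∀ η, ∑ i, lam i * ‖star (x i) η‖ ^ 2 ≤ C ^ 2 * ‖η‖ ^ 2

theorem inner_star_right {K : Type*} [NormedAddCommGroup K] [InnerProductSpace ℂ K]
    [CompleteSpace K] (T : K →L[ℂ] K) (η ζ : K) : ⟪ζ, star T η⟫_ℂ = ⟪T ζ, η⟫_ℂ := by
  rw [ContinuousLinearMap.star_eq_adjoint, ContinuousLinearMap.adjoint_inner_right]

theorem norm_sum_smul_sq {ι : Type*} [Fintype ι] (t : ι → ℝ) (y : ι → H) :
    ‖∑ d, (t d : ℂ) • y d‖ ^ 2 = ∑ d, ∑ d', t d * t d' * (⟪y d, y d'⟫_ℂ).re := by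
  rw [← inner_self_eq_norm_sq (𝕜 := ℂ), sum_inner, map_sum]
  refine Finset.sum_congr rfl fun d _ => ?_
  rw [inner_sum, map_sum]
  refine Finset.sum_congr rfl fun d' _ => ?_
  rw [inner_smul_left, inner_smul_right, Complex.conj_ofReal, ← mul_assoc, ← Complex.ofReal_mul]
  exact Complex.re_ofReal_mul _ _

theorem sum_ev_le {ι 𝒥 : Type} (s : Finset ι) (φ : ι → 𝒥) (h : Set.InjOn φ s) (f : L2 𝒥 H) :
    ∑ i ∈ s, ‖L2.ev (φ i) f‖ ^ 2 ≤ ‖f‖ ^ 2 := by
  classical
  rw [← Finset.sum_image (f := fun j => ‖L2.ev j f‖ ^ 2) h]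
  exact sum_le_hasSum _ (fun _ _ => sq_nonneg _) (L2.par f)

theorem norm_ins_add_sq {ι 𝒥 : Type} (s : Finset ι) (φ : ι → 𝒥) (h : Set.InjOn φ s) (j : 𝒥)
    (hj : ∀ i ∈ s, φ i ≠ j) (u : H) (v : ι → H) :
    ‖L2.ins j u + ∑ i ∈ s, L2.ins (φ i) (v i)‖ ^ 2 = ‖u‖ ^ 2 + ∑ i ∈ s, ‖v i‖ ^ 2 := by
  classical
  induction s using Finset.induction_on generalizing j u with
  | empty => simp [L2.norm_ins]
  | insert a s ha ih =>
    rw [norm_add_sq (𝕜 := ℂ), L2.inner_ins_left, map_sum,
      Finset.sum_eq_zero fun i hi => L2.ev_ins_ne (hj i hi).symm _, inner_zero_right, map_zero,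
      mul_zero, add_zero, L2.norm_ins, Finset.sum_insert ha, Finset.sum_insert ha,
      ih (h.mono (by simp)) _ fun i hi e => ha ?_]
    rwa [← h (Finset.mem_insert_of_mem hi) (Finset.mem_insert_self _ _) e]

namespace Anc
variable {α : Type} [Fintype α] [DecidableEq α]

/-- The product weight: bit `a` is `true` with probability `1 / (1 + lam a)`. -/
noncomputable def wt (lam : α → ℝ) (ω : α → Bool) : ℝ :=
  ∏ a, if ω a then 1 / (1 + lam a) else lam a / (1 + lam a)

/-- Switch off the bit `a`. -/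
def off (ω : α → Bool) (a : α) : α → Bool := Function.update ω a false

/-- `∑ x a ⊗ y a` where `y a = √(1 + lam a) e₀₁` at the site `a`. -/
noncomputable def X (lam : α → ℝ) (x : α → Op H) : Op (L2 (α → Bool) H) :=
  ∑ ω : α → Bool, ∑ a ∈ Finset.univ.filter (fun a => ω a = true),
    ((√(1 + lam a) : ℝ) : ℂ) • (L2.ins (off ω a) ∘L x a ∘L L2.ev ω)

/-- The coefficient `(id ⊗ φ) ((1 ⊗ y a)* Z)`. -/
noncomputable def coef (lam : α → ℝ) (Z : Op (L2 (α → Bool) H)) (a : α) : Op H :=
  ∑ ω ∈ Finset.univ.filter (fun ω : α → Bool => ω a = true),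
    ((wt lam ω * √(1 + lam a) : ℝ) : ℂ) • (L2.ev (off ω a) ∘L Z ∘L L2.ins ω)

variable {lam : α → ℝ}

theorem wt_nonneg (hl : ∀ a, 0 < lam a) (ω : α → Bool) : 0 ≤ wt lam ω := by
  refine Finset.prod_nonneg fun a _ => ?_
  have := hl a
  split_ifs <;> positivity

/-- Independence: `Finset.prod_univ_sum` / `Fintype.piFinset_univ`. -/
theorem sum_wt_prod (f : α → Bool → ℝ) : ∑ ω : α → Bool, wt lam ω * ∏ a, f a (ω a) =
    ∏ a, (1 / (1 + lam a) * f a true + lam a / (1 + lam a) * f a false) := by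
  have := Finset.prod_univ_sum (fun _ : α => (Finset.univ : Finset Bool))
    fun a b => (if b then 1 / (1 + lam a) else lam a / (1 + lam a)) * f a b
  simp only [Fintype.piFinset_univ, Fintype.sum_bool, if_true, Bool.false_eq_true, if_false,
    Finset.prod_mul_distrib] at this
  exact this.symm

theorem sum_wt (hl : ∀ a, 0 < lam a) : ∑ ω : α → Bool, wt lam ω = 1 := by
  have := sum_wt_prod (lam := lam) fun _ _ => 1
  simp only [Finset.prod_const_one, mul_one] at this
  rw [this]
  refine Finset.prod_eq_one fun a _ => ?_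
  have := hl a
  field_simp

theorem sum_wt_one (hl : ∀ a, 0 < lam a) (d : α) (f : Bool → ℝ) :
    ∑ ω : α → Bool, wt lam ω * f (ω d) =
      1 / (1 + lam d) * f true + lam d / (1 + lam d) * f false := by
  have := sum_wt_prod (lam := lam) fun a b => if a = d then f b else 1
  rw [Finset.prod_eq_single d (fun a _ h => ?_) (by simp)] at this
  · simpa using this
  · have := hl a
    simp only [if_neg h]; field_simp

theorem sum_wt_two (hl : ∀ a, 0 < lam a) {d g : α} (h : d ≠ g) (f f' : Bool → ℝ) :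
    ∑ ω : α → Bool, wt lam ω * (f (ω d) * f' (ω g)) =
      (1 / (1 + lam d) * f true + lam d / (1 + lam d) * f false) *
        (1 / (1 + lam g) * f' true + lam g / (1 + lam g) * f' false) := by
  have := sum_wt_prod (lam := lam) fun a b => if a = d then f b else if a = g then f' b else 1
  rw [Fintype.prod_eq_mul d g h fun a ha => ?_] at this
  · simp only [if_true, if_neg h.symm] at this
    rw [← this]
    refine Finset.sum_congr rfl fun ω _ => ?_
    rw [Fintype.prod_eq_mul d g h fun a ha => by rw [if_neg ha.1, if_neg ha.2]]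
    simp only [if_true, if_neg h.symm]
  · have := hl a
    simp only [if_neg ha.1, if_neg ha.2]; field_simp

theorem sum_wt_on (hl : ∀ a, 0 < lam a) (a : α) :
    ∑ ω ∈ Finset.univ.filter (fun ω : α → Bool => ω a = true), wt lam ω = 1 / (1 + lam a) := by
  have := sum_wt_one hl a fun b => if b then 1 else 0
  simpa [Finset.sum_filter] using this

/-- Detailed balance. -/
theorem wt_off (hl : ∀ a, 0 < lam a) {ω : α → Bool} {a : α} (h : ω a = true) :
    wt lam (off ω a) = lam a * wt lam ω := by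
  unfold wt
  rw [← Finset.mul_prod_erase _ _ (Finset.mem_univ a), ← Finset.mul_prod_erase _ _ (Finset.mem_univ a),
    ← mul_assoc]
  congr 1
  · simp only [off, Function.update_self, h, Bool.false_eq_true, if_false, if_true]; ring
  · exact Finset.prod_congr rfl fun b hb => by
      rw [off, Function.update_of_ne (Finset.ne_of_mem_erase hb)]

/-- Switch on the bit `a`. -/
def on (ω : α → Bool) (a : α) : α → Bool := Function.update ω a true

theorem on_off {ω : α → Bool} {a : α} (h : ω a = true) : on (off ω a) a = ω := by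
  rw [on, off, Function.update_idem, ← h, Function.update_eq_self]

theorem off_on {ω : α → Bool} {a : α} (h : ω a = false) : off (on ω a) a = ω := by
  rw [on, off, Function.update_idem, ← h, Function.update_eq_self]

theorem off_inj {ω : α → Bool} {a b : α} (h : ω a = true) (e : off ω a = off ω b) : a = b := by
  by_contra hne
  have := congrFun e a
  simp [off, hne, h] at this

theorem on_inj {ω : α → Bool} {a b : α} (h : ω a = false) (e : on ω a = on ω b) : a = b := by
  by_contra hne
  have := congrFun e a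
  simp [on, hne, h] at this

theorem sum_flip {M : Type*} [AddCommMonoid M] (F : (α → Bool) → α → M) :
    ∑ ω : α → Bool, ∑ a ∈ Finset.univ.filter (fun a => ω a = true), F ω a =
      ∑ ω : α → Bool, ∑ a ∈ Finset.univ.filter (fun a => ω a = false), F (on ω a) a := by
  simp only [Finset.sum_filter]
  rw [Finset.sum_comm, Finset.sum_comm (f := fun (ω : α → Bool) a =>
    if ω a = false then F (on ω a) a else 0)]
  refine Finset.sum_congr rfl fun a _ => ?_
  rw [← Finset.sum_filter, ← Finset.sum_filter]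
  refine Finset.sum_nbij' (fun ω => off ω a) (fun ω => on ω a) (by simp [off]) (by simp [on])
    (fun ω h => on_off (by simpa using h)) (fun ω h => off_on (by simpa using h))
    fun ω h => by rw [on_off (by simpa using h)]

theorem X_ins (x : α → Op H) (ω : α → Bool) (η : H) : X lam x (L2.ins ω η) =
    ∑ a ∈ Finset.univ.filter (fun a => ω a = true),
      ((√(1 + lam a) : ℝ) : ℂ) • L2.ins (off ω a) (x a η) := by
  simp only [X, sum_apply, smul_apply, ContinuousLinearMap.comp_apply]
  rw [Finset.sum_eq_single_of_mem ω (Finset.mem_univ _)]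
  · simp only [L2.ev_ins]
  · intro ω' _ h
    simp [L2.ev_ins_ne h]

theorem starX_ins (x : α → Op H) (ω : α → Bool) (η : H) : star (X lam x) (L2.ins ω η) =
    ∑ a ∈ Finset.univ.filter (fun a => ω a = false),
      ((√(1 + lam a) : ℝ) : ℂ) • L2.ins (on ω a) (star (x a) η) := by
  refine ext_inner_left ℂ fun f => ?_
  rw [inner_star_right, X, sum_flip]
  simp only [sum_apply, smul_apply, ContinuousLinearMap.comp_apply, sum_inner, inner_sum,
    inner_smul_left, inner_smul_right, Complex.conj_ofReal]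
  rw [Finset.sum_eq_single_of_mem ω (Finset.mem_univ _)]
  · refine Finset.sum_congr rfl fun a ha => ?_
    rw [off_on (by simpa using ha), L2.inner_ins_left, L2.ev_ins, L2.inner_ins_right,
      inner_star_right]
  · intro ω' _ h
    refine Finset.sum_eq_zero fun a ha => ?_
    rw [off_on (by simpa using ha), L2.inner_ins_left, L2.ev_ins_ne h, inner_zero_right, mul_zero]

theorem coef_apply (Z : Op (L2 (α → Bool) H)) (a : α) (η : H) : coef lam Z a η =
    ∑ ω ∈ Finset.univ.filter (fun ω : α → Bool => ω a = true),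
      ((wt lam ω * √(1 + lam a) : ℝ) : ℂ) • L2.ev (off ω a) (Z (L2.ins ω η)) := by
  simp only [coef, sum_apply, smul_apply, ContinuousLinearMap.comp_apply]

theorem cs_wt (hl : ∀ a, 0 < lam a) (a : α) (v : (α → Bool) → H) :
    ‖∑ ω ∈ Finset.univ.filter (fun ω : α → Bool => ω a = true),
      ((wt lam ω * √(1 + lam a) : ℝ) : ℂ) • v ω‖ ^ 2 ≤
    ∑ ω ∈ Finset.univ.filter (fun ω : α → Bool => ω a = true), wt lam ω * ‖v ω‖ ^ 2 := by
  have h0 := hl a
  refine (pow_le_pow_left₀ (norm_nonneg _) (norm_sum_le _ _) 2).trans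
    ((Finset.sum_sq_le_sum_mul_sum_of_sq_le_mul _ (f := fun ω => wt lam ω * (1 + lam a))
      (g := fun ω => wt lam ω * ‖v ω‖ ^ 2)
      (fun ω _ => mul_nonneg (wt_nonneg hl ω) (by positivity))
      (fun ω _ => mul_nonneg (wt_nonneg hl ω) (by positivity)) fun ω _ => le_of_eq ?_).trans_eq ?_)
  · rw [norm_smul, mul_pow, Complex.norm_real, Real.norm_eq_abs, sq_abs, mul_pow,
      Real.sq_sqrt (by positivity)]
    ring
  · rw [← Finset.sum_mul, sum_wt_on hl, one_div, inv_mul_cancel₀ (by positivity), one_mul]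

theorem coef_X (hl : ∀ a, 0 < lam a) (x : α → Op H) (a : α) : coef lam (X lam x) a = x a := by
  ext η
  have h0 := hl a
  rw [coef_apply, Finset.sum_congr rfl (g := fun ω => ((wt lam ω * (1 + lam a) : ℝ) : ℂ) • x a η),
    ← Finset.sum_smul, ← Complex.ofReal_sum, ← Finset.sum_mul, sum_wt_on hl, one_div,
    inv_mul_cancel₀ (by positivity), Complex.ofReal_one, one_smul]
  intro ω hω
  rw [X_ins, map_sum, Finset.sum_eq_single_of_mem a (by simpa using hω), map_smul, L2.ev_ins,
    smul_smul, ← Complex.ofReal_mul, mul_assoc, Real.mul_self_sqrt (by positivity)]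
  intro b hb hne
  rw [map_smul, L2.ev_ins_ne, smul_zero]
  exact fun h => hne (off_inj (by simpa using hb) h.symm)

theorem coef_sub (Z Z' : Op (L2 (α → Bool) H)) (a : α) :
    coef lam (Z - Z') a = coef lam Z a - coef lam Z' a := by
  ext η
  simp only [coef_apply, sub_apply, map_sub, smul_sub, Finset.sum_sub_distrib]

theorem coef_mem {N : VonNeumannAlgebra H} {Z : Op (L2 (α → Bool) H)}
    (h : ∀ y ∈ N.commutant, L2.lift _ y * Z = Z * L2.lift _ y) (a : α) : coef lam Z a ∈ N := by
  exact sum_mem fun ω _ => vn_smul_mem _ (L2.entry_mem h _ _)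

theorem X_comm {x : α → Op H} {y : Op H} (h : ∀ a, C2 (x a) y) :
    C2 (X lam x) (L2.lift _ y) := by
  refine ⟨L2.ext_ins fun ω η => ?_, L2.ext_ins fun ω η => ?_⟩
  · simp only [mul_apply_eq_comp, L2.lift_ins, X_ins, map_sum, map_smul]
    exact Finset.sum_congr rfl fun a _ => by
      rw [show x a (y η) = y (x a η) from congrArg (fun T : Op H => T η) (h a).1]
  · simp only [mul_apply_eq_comp, L2.lift_ins, starX_ins, map_sum, map_smul]
    exact Finset.sum_congr rfl fun a _ => by
      rw [show star (x a) (y η) = y (star (x a) η) from congrArg (fun T : Op H => T η) (h a).2]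

/-- Cauchy-Schwarz with the weights `wt ω (1 + lam a)` (total mass `1` on `ω a = true`); for fixed
`ω` the `off ω a`, `ω a = true`, are distinct, so `∑_a ‖ev (off ω a) f‖² ≤ ‖f‖²` (`L2.par`). -/
theorem col_le (hl : ∀ a, 0 < lam a) (Z : Op (L2 (α → Bool) H)) (η : H) :
    ∑ a, ‖coef lam Z a η‖ ^ 2 ≤ ∑ ω : α → Bool, wt lam ω * ‖Z (L2.ins ω η)‖ ^ 2 := by
  simp only [coef_apply]
  refine (Finset.sum_le_sum fun a _ => cs_wt hl a _).trans ?_
  simp only [Finset.sum_filter]
  rw [Finset.sum_comm]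
  refine Finset.sum_le_sum fun ω _ => ?_
  rw [← Finset.sum_filter, ← Finset.mul_sum]
  exact mul_le_mul_of_nonneg_left (sum_ev_le _ _ (fun a ha b _ h => off_inj (by simpa using ha) h) _)
    (wt_nonneg hl ω)

/-- `lam a ‖(coef Z a)* η‖² ≤ ∑_{ω a} wt (off ω a) ‖ev ω (Z* ins (off ω a) η)‖²`; reindex by
`ω' = off ω a`; for fixed `ω'` the `update ω' a true`, `ω' a = false`, are distinct. -/
theorem row_le (hl : ∀ a, 0 < lam a) (Z : Op (L2 (α → Bool) H)) : Row lam (coef lam Z) ‖Z‖ := by
  intro η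
  have e1 : ∀ a, star (coef lam Z a) η = ∑ ω ∈ Finset.univ.filter (fun ω : α → Bool => ω a = true),
      ((wt lam ω * √(1 + lam a) : ℝ) : ℂ) • L2.ev ω (star Z (L2.ins (off ω a) η)) := by
    intro a
    refine ext_inner_left ℂ fun ζ => ?_
    rw [inner_star_right, coef_apply, sum_inner, inner_sum]
    refine Finset.sum_congr rfl fun ω _ => ?_
    rw [inner_smul_left, inner_smul_right, Complex.conj_ofReal, ← L2.inner_ins_left,
      inner_star_right, L2.inner_ins_right]
  have e2 : ∀ a, lam a * ‖star (coef lam Z a) η‖ ^ 2 ≤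
      ∑ ω ∈ Finset.univ.filter (fun ω : α → Bool => ω a = true),
        wt lam (off ω a) * ‖L2.ev ω (star Z (L2.ins (off ω a) η))‖ ^ 2 := by
    intro a
    rw [e1]
    refine (mul_le_mul_of_nonneg_left (cs_wt hl a _) (hl a).le).trans_eq ?_
    rw [Finset.mul_sum]
    exact Finset.sum_congr rfl fun ω hω => by rw [wt_off hl (by simpa using hω), mul_assoc]
  refine (Finset.sum_le_sum fun a _ => e2 a).trans ?_
  simp only [Finset.sum_filter]
  rw [Finset.sum_comm]
  simp only [← Finset.sum_filter]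
  rw [sum_flip, ← one_mul (_ * _), ← sum_wt hl, Finset.sum_mul]
  refine Finset.sum_le_sum fun ω _ => ?_
  rw [Finset.sum_congr rfl fun a ha => by rw [off_on (by simpa using ha)], ← Finset.mul_sum]
  refine mul_le_mul_of_nonneg_left ((sum_ev_le _ _
    (fun a ha b _ h => on_inj (by simpa using ha) h) _).trans ?_) (wt_nonneg hl ω)
  rw [← mul_pow]
  gcongr
  exact ((star Z).le_opNorm (L2.ins ω η)).trans_eq (by rw [L2.norm_ins, norm_star Z])

/-- Fourth moment.  With `c a = √(1 + lam a)`,
`X* X (ins ω η) = ins ω (∑_{ω d} c d² (x d)* x d η) + ∑_{ω d, ¬ ω g} c d c g ins (ω - d + g) ((x g)* x d η)`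
with pairwise distinct indices.  Taking expectations (`sum_wt_prod`: `E (c d² 1_d) = 1`,
`E (c d⁴ 1_d) = 1 + lam d`, `E (c d² c d'² 1_d 1_d') = 1`, `E (c d² c g² 1_d (1 - 1_g)) = lam g`):
`‖∑ (x d)* x d η‖² + ∑_d ∑_g lam g ‖(x g)* x d η‖² ≤ 2 C⁴ ‖η‖²`; here `‖∑ (x d)* x d‖ ≤ C²` by
Cauchy-Schwarz. -/
theorem four (hl : ∀ a, 0 < lam a) {x : α → Op H} {C : ℝ} (hc : Col x C) (hr : Row lam x C)
    (η : H) : ∑ ω : α → Bool, wt lam ω * ‖(star (X lam x) * X lam x) (L2.ins ω η)‖ ^ 2 ≤
      2 * C ^ 4 * ‖η‖ ^ 2 := by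
  set y : α → α → H := fun d g => star (x g) (x d η) with hy
  set t : α → Bool → ℝ := fun d b => if b then 1 + lam d else 0 with ht
  set t' : α → Bool → ℝ := fun d b => if b then 0 else 1 + lam d with ht'
  have e1 : ∀ ω : α → Bool, ‖(star (X lam x) * X lam x) (L2.ins ω η)‖ ^ 2 =
      ∑ d, ∑ d', t d (ω d) * t d' (ω d') * (⟪y d d, y d' d'⟫_ℂ).re +
        ∑ d, ∑ g, t d (ω d) * t' g (ω g) * ‖y d g‖ ^ 2 := by
    intro ω
    have a1 : (star (X lam x) * X lam x) (L2.ins ω η) =
        L2.ins ω (∑ d, (t d (ω d) : ℂ) • y d d) +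
        ∑ p ∈ Finset.univ.filter (fun d => ω d = true) ×ˢ Finset.univ.filter (fun g => ω g = false),
          L2.ins (on (off ω p.1) p.2) (((√(1 + lam p.1) * √(1 + lam p.2) : ℝ) : ℂ) • y p.1 p.2) := by
      rw [mul_apply_eq_comp, X_ins, map_sum, map_sum, Finset.sum_product, Finset.sum_filter,
        Finset.sum_filter, ← Finset.sum_add_distrib]
      refine Finset.sum_congr rfl fun d _ => ?_
      by_cases hd : ω d = true
      · have b1 : Finset.univ.filter (fun g => off ω d g = false) =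
            insert d (Finset.univ.filter fun g => ω g = false) := by
          ext g
          by_cases h : g = d
          · simp [h, off]
          · simp [h, off]
        rw [if_pos hd, if_pos hd, map_smul, starX_ins, b1, Finset.sum_insert (by simp [hd]),
          smul_add, on_off hd, smul_smul, ← Complex.ofReal_mul,
          Real.mul_self_sqrt (by linarith [hl d]), Finset.smul_sum]
        simp only [ht, hd, if_true, map_smul, smul_smul, Complex.ofReal_mul, hy]
      · simp [hd, ht]
    rw [a1, norm_ins_add_sq, norm_sum_smul_sq, Finset.sum_product]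
    · congr 1
      rw [Finset.sum_filter]
      refine Finset.sum_congr rfl fun d _ => ?_
      by_cases hd : ω d = true
      · rw [if_pos hd, Finset.sum_filter]
        refine Finset.sum_congr rfl fun g _ => ?_
        by_cases hg : ω g = true
        · simp [hg, ht']
        · have hg' : ω g = false := by simpa using hg
          rw [if_pos hg', norm_smul, mul_pow, Complex.norm_real, Real.norm_eq_abs, sq_abs, mul_pow,
            Real.sq_sqrt (by linarith [hl d]), Real.sq_sqrt (by linarith [hl g])]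
          simp [ht, ht', hd, hg']
      · simp [hd, ht]
    · rintro ⟨d, g⟩ h1 ⟨d', g'⟩ h2 h
      simp only [Finset.coe_product, Finset.coe_filter, Finset.mem_univ, true_and, Set.mem_prod,
        Set.mem_ofPred_eq] at h1 h2 h
      have c1 := congrFun h d
      have c2 := congrFun h g
      have n1 : d ≠ g := fun e => by simp_all
      have n2 : d ≠ g' := fun e => by simp_all
      have n3 : g ≠ d' := fun e => by simp_all
      have q1 : d = d' := by
        by_contra e
        simp [on, off, n1, n2, e, h1.1] at c1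
      have q2 : g = g' := by
        by_contra e
        simp [on, off, n3, e, h1.2] at c2
      rw [q1, q2]
    · rintro ⟨d, g⟩ h1 h
      simp only [Finset.mem_product, Finset.mem_filter, Finset.mem_univ, true_and] at h1
      have := congrFun h g
      simp [on, h1.2] at this
  have e2 : ∀ d d', ∑ ω : α → Bool, wt lam ω * (t d (ω d) * t d' (ω d')) =
      1 + if d = d' then lam d else 0 := by
    intro d d'
    have := hl d
    have := hl d'
    split_ifs with h
    · subst h
      rw [sum_wt_one hl d fun b => t d b * t d b]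
      simp only [ht, if_true, Bool.false_eq_true, if_false]
      field_simp; ring
    · rw [sum_wt_two hl h]
      simp only [ht, if_true, Bool.false_eq_true, if_false]
      field_simp; ring
  have e3 : ∀ d g, ∑ ω : α → Bool, wt lam ω * (t d (ω d) * t' g (ω g)) =
      lam g - if d = g then lam d else 0 := by
    intro d g
    have := hl d
    have := hl g
    split_ifs with h
    · subst h
      rw [sum_wt_one hl d fun b => t d b * t' d b]
      simp [ht, ht']
    · rw [sum_wt_two hl h]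
      simp only [ht, ht', if_true, Bool.false_eq_true, if_false]
      field_simp; ring
  have sw : ∀ (F : (α → Bool) → α → α → ℝ) (G : α → α → ℝ),
      ∑ ω : α → Bool, wt lam ω * ∑ d, ∑ g, F ω d g * G d g =
        ∑ d, ∑ g, (∑ ω : α → Bool, wt lam ω * F ω d g) * G d g := by
    intro F G
    simp only [Finset.mul_sum, Finset.sum_mul, mul_assoc]
    rw [Finset.sum_comm]
    exact Finset.sum_congr rfl fun d _ => Finset.sum_comm
  simp only [e1, mul_add, Finset.sum_add_distrib, sw, e2, e3, add_mul, sub_mul, ite_mul, zero_mul,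
    Finset.sum_sub_distrib, Finset.sum_ite_eq, Finset.mem_univ, if_true, one_mul]
  have f1 : ∑ d, lam d * (⟪y d d, y d d⟫_ℂ).re = ∑ d, lam d * ‖y d d‖ ^ 2 :=
    Finset.sum_congr rfl fun d _ => by rw [← inner_self_eq_norm_sq (𝕜 := ℂ)]; rfl
  have f2 : ∑ d, ∑ d', (⟪y d d, y d' d'⟫_ℂ).re = ‖∑ d, y d d‖ ^ 2 := by
    simpa using (norm_sum_smul_sq (fun _ => 1) fun d => y d d).symm
  have f3 : ∑ d, ∑ g, lam g * ‖y d g‖ ^ 2 ≤ C ^ 4 * ‖η‖ ^ 2 := by
    refine (Finset.sum_le_sum fun d _ => hr (x d η)).trans ?_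
    rw [← Finset.mul_sum]
    exact (mul_le_mul_of_nonneg_left (hc η) (sq_nonneg _)).trans_eq (by ring)
  have f4 : ‖∑ d, y d d‖ ^ 2 ≤ C ^ 4 * ‖η‖ ^ 2 := by
    set v := ∑ d, y d d with hv
    have g1 : ‖v‖ ^ 2 ≤ ∑ d, ‖x d v‖ * ‖x d η‖ := by
      rw [← inner_self_eq_norm_sq (𝕜 := ℂ)]
      refine (RCLike.re_le_norm _).trans ?_
      conv_lhs => enter [1, 3]; rw [hv]
      rw [inner_sum]
      refine norm_sum_le_of_le _ fun d _ => ?_
      rw [hy, inner_star_right]
      exact norm_inner_le_norm _ _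
    have g2 := (pow_le_pow_left₀ (sq_nonneg _) g1 2).trans
      ((Finset.sum_mul_sq_le_sq_mul_sq _ _ _).trans (mul_le_mul (hc v) (hc η)
        (Finset.sum_nonneg fun _ _ => sq_nonneg _) (by positivity)))
    rcases (sq_nonneg ‖v‖).eq_or_lt with h | h
    · rw [← h]; positivity
    · exact le_of_mul_le_mul_left (a := ‖v‖ ^ 2) (by nlinarith) h
  rw [f1, f2]
  linarith

end Anc

/-- Truncation `Y = X (1 + X* X / K²)⁻¹`: with `u = X* X ≥ 0`, `Y* Y = u / (1 + u/K²)² ≤ K²` and
`(X - Y)* (X - Y) = u (u/K²)² / (1 + u/K²)² ≤ u² / K²` (functional calculus of `u`). -/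
theorem exists_trunc (X : Op H) {K : ℝ} (hK : 0 < K) :
    ∃ Y : Op H, ‖Y‖ ≤ K ∧ (∀ η, ‖X η - Y η‖ ≤ ‖(star X * X) η‖ / K) ∧
      ∀ a, C2 X a → Y * a = a * Y := by
  set c : ℝ := (K ^ 2)⁻¹ with hc
  have c0 : 0 < c := by positivity
  obtain ⟨s, hs⟩ := CStarAlgebra.isUnit_of_le (1 : Op H) (b := 1 + c • (star X * X))
    (le_add_of_nonneg_right (smul_nonneg c0.le (star_mul_self_nonneg X)))
  have cm : ∀ a : Op H, star X * X * a = a * (star X * X) → Commute a (↑s⁻¹ : Op H) := by
    intro a ha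
    refine Commute.units_inv_right ?_
    rw [hs]
    exact (Commute.one_right a).add_right ((show Commute a (star X * X) from ha.symm).smul_right c)
  have e1 : ∀ η, (↑s⁻¹ : Op H) η + c • star X (X ((↑s⁻¹ : Op H) η)) = η := by
    intro η
    have := congrArg (fun T : Op H => T η) s.mul_inv
    simp only [hs, mul_apply_eq_comp, add_apply, smul_apply] at this
    exact this
  have n1 : ‖X * (↑s⁻¹ : Op H)‖ ≤ K := by
    refine ContinuousLinearMap.opNorm_le_bound _ hK.le fun η => ?_
    rw [mul_apply_eq_comp]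
    set ζ := (↑s⁻¹ : Op H) η
    have a1 := norm_add_sq (𝕜 := ℂ) ζ (c • star X (X ζ))
    rw [e1, ← Complex.coe_smul, inner_smul_right, inner_star_right, inner_self_eq_norm_sq_to_K]
      at a1
    have a2 : RCLike.re ((c : ℂ) * ((‖X ζ‖ : ℂ) ^ 2)) = c * ‖X ζ‖ ^ 2 := by
      rw [← Complex.ofReal_pow, ← Complex.ofReal_mul]; rfl
    erw [a2] at a1
    refine abs_le_of_sq_le_sq' ?_ (by positivity) |>.2
    have a3 : c * ‖X ζ‖ ^ 2 ≤ ‖η‖ ^ 2 := by
      nlinarith [sq_nonneg ‖ζ‖, sq_nonneg ‖(c : ℂ) • star X (X ζ)‖, mul_nonneg c0.le (sq_nonneg ‖X ζ‖)]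
    rw [hc, inv_mul_le_iff₀ (by positivity)] at a3
    rwa [mul_pow]
  refine ⟨X * (↑s⁻¹ : Op H), n1, fun η => ?_, fun a ha => ?_⟩
  · have a1 : X η - (X * (↑s⁻¹ : Op H)) η = c • (X * (↑s⁻¹ : Op H)) ((star X * X) η) := by
      have := congrArg (fun T : Op H => T η) (cm _ rfl).eq
      simp only [mul_apply_eq_comp] at this ⊢
      rw [← this, sub_eq_iff_eq_add', ← X.map_smul_of_tower, ← map_add, e1]
    rw [a1, norm_smul, Real.norm_of_nonneg c0.le]
    refine (mul_le_mul_of_nonneg_left ((ContinuousLinearMap.le_opNorm _ _).trans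
      (mul_le_mul_of_nonneg_right n1 (norm_nonneg _))) c0.le).trans_eq ?_
    rw [hc]; field_simp
  · rw [mul_assoc, ← (cm a (by rw [mul_assoc, ha.1, ← mul_assoc, ha.2, mul_assoc])).eq,
      ← mul_assoc, ha.1, mul_assoc]

end Crest.Agent.R78
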