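import Crest.Agent.R78.Basic

/-! # R78: Plancherel and a Bessel inequality (task `Planch`) -/

set_option autoImplicit false
set_option linter.unusedSectionVars false
open Filter Topology
open scoped InnerProductSpace

namespace Crest.Agent.R78

universe u
variable {H : Type u} [NormedAddCommGroup H] [InnerProductSpace ℂ H] [CompleteSpace H]

open MeasureTheory Complex

/-- The Fourier transform with Mathlib's normalisation, written out. -/
noncomputable def ft (F : ℝ → H) (w : ℝ) : H := ∫ s : ℝ, exp (-(2 * Real.pi * I * w * s)) • F s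

theorem ft_eq (F : ℝ → H) : ft F = FourierTransform.fourier F := by
  funext w
  rw [Real.fourier_real_eq_integral_exp_smul, ft]
  congr 1
  funext s
  congr 2
  push_cast
  ring

theorem norm_ft_le (F : ℝ → H) (w : ℝ) : ‖ft F w‖ ≤ ∫ s, ‖F s‖ := by
  rw [ft_eq, Real.fourier_eq]
  apply (norm_integral_le_integral_norm _).trans
  simp_rw [Circle.norm_smul]
  exact le_rfl

theorem continuous_ft' {F : ℝ → H} (hi : Integrable F) : Continuous (ft F) := by
  rw [ft_eq]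
  exact VectorFourier.fourierIntegral_continuous Real.continuous_fourierChar
    (innerSL ℝ).continuous₂ hi

theorem integrable_sq_of_bdd {F : ℝ → H} (hi : Integrable F) {C : ℝ} (hb : ∀ s, ‖F s‖ ≤ C) :
    Integrable (fun s => ‖F s‖ ^ 2) := by
  refine Integrable.mono' (hi.norm.const_mul C) (hi.1.norm.pow 2) (ae_of_all _ fun s => ?_)
  rw [Real.norm_eq_abs, abs_of_nonneg (by positivity), sq]
  exact mul_le_mul_of_nonneg_right (hb s) (norm_nonneg _)

/-- Plancherel for `F` continuous and integrable with integrable Fourier transform: by inversion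
`F s = ∫ e(w s) F̂ w dw`, so `∫ ⟪F, F⟫ = ∫∫ ⟪F s, e(ws) F̂ w⟫ = ∫ ⟪F̂ w, F̂ w⟫` (Fubini).  Both
`F` and `F̂` are bounded and integrable, hence square integrable.  (`ft F = 𝓕 F` by
`Real.fourier_real_eq_integral_exp_smul` or similar.) -/
theorem plancherel {F : ℝ → H} (hc : Continuous F) (hi : Integrable F) (hi' : Integrable (ft F)) :
    Integrable (fun s => ‖F s‖ ^ 2) ∧ Integrable (fun w => ‖ft F w‖ ^ 2) ∧
      ∫ s, ‖F s‖ ^ 2 = ∫ w, ‖ft F w‖ ^ 2 := by
  have hinv : FourierTransformInv.fourierInv (FourierTransform.fourier F) = F :=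
    hc.fourierInv_fourier_eq hi (by rw [← ft_eq]; exact hi')
  have hb : ∀ s, ‖F s‖ ≤ ∫ w, ‖ft F w‖ := fun s => by
    conv_lhs => rw [← hinv, Real.fourierInv_eq_fourier_neg, ← ft_eq, ← ft_eq]
    exact norm_ft_le _ _
  refine ⟨integrable_sq_of_bdd hi hb, integrable_sq_of_bdd hi' (norm_ft_le F), ?_⟩
  have key := VectorFourier.integral_sesq_fourierIntegral_eq_neg_flip (μ := volume) (ν := volume)
    (e := Real.fourierChar) (L := innerₗ ℝ) (f := F) (g := ft F) (innerSL ℂ)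
    Real.continuous_fourierChar continuous_inner hi hi'
  have h1 : VectorFourier.fourierIntegral Real.fourierChar volume (innerₗ ℝ) F = ft F := by
    rw [ft_eq]; rfl
  have h2 : VectorFourier.fourierIntegral Real.fourierChar volume (-(innerₗ ℝ).flip) (ft F) = F := by
    conv_rhs => rw [← hinv, ← ft_eq]
    rw [flip_innerₗ]
    rfl
  rw [h1, h2] at key
  simp only [innerSL_apply_apply, inner_self_eq_norm_sq_to_K] at key
  have e1 : ∀ G : ℝ → H, ∫ s, ((‖G s‖ : ℝ) : ℂ) ^ 2 = ((∫ s, ‖G s‖ ^ 2 : ℝ) : ℂ) := fun G => by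
    rw [← integral_complex_ofReal]
    simp
  have key' : ((∫ w, ‖ft F w‖ ^ 2 : ℝ) : ℂ) = ((∫ s, ‖F s‖ ^ 2 : ℝ) : ℂ) := by
    rw [← e1, ← e1]; exact key
  exact (Complex.ofReal_injective key').symm

theorem continuous_ft {F : ℝ → H} (hi : Integrable F) : Continuous (ft F) := continuous_ft' hi

theorem geom_int_sum (S : Finset ℤ) (n : ℤ) :
    ∑ m ∈ S, (1 / 2 : ℝ) ^ (m - n).natAbs ≤ 3 := by
  have h : HasSum (fun k : ℤ => (1 / 2 : ℝ) ^ k.natAbs) (2 + 1) := by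
    apply HasSum.of_nat_of_neg_add_one
    · simpa using hasSum_geometric_two
    · have := hasSum_geometric_two.mul_left (1 / 2 : ℝ)
      have e : (fun k : ℕ => (1 / 2 : ℝ) ^ (-((k : ℤ) + 1)).natAbs) =
          fun k : ℕ => (1 / 2 : ℝ) * (1 / 2) ^ k := by
        funext k
        have : (-((k : ℤ) + 1)).natAbs = k + 1 := by omega
        rw [this, pow_succ']
      rw [e]
      simpa using this
  have h2 : HasSum ((fun k : ℤ => (1 / 2 : ℝ) ^ k.natAbs) ∘ Equiv.subRight n) (2 + 1) :=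
    (Equiv.subRight n).hasSum_iff.2 h
  have := sum_le_hasSum S (fun m _ => by simp only [Function.comp]; positivity) h2
  simp only [Function.comp, Equiv.subRight_apply] at this
  linarith

/-- The Gram entries. -/
theorem gram_bound (k : ℤ) :
    ‖∫ s : ℝ, exp (I * (2 * Real.pi * k) * s) * exp (-1 * (s : ℂ) ^ 2)‖ ≤
      2 * (1 / 2 : ℝ) ^ k.natAbs := by
  rw [fourierIntegral_gaussian (b := 1) (by simp), norm_mul]
  have hpi := Real.pi_gt_three
  have hpi4 := Real.pi_le_four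
  refine mul_le_mul ?_ ?_ (norm_nonneg _) (by norm_num)
  · have : ((Real.pi : ℂ) / 1) ^ (1 / 2 : ℂ) = ((Real.pi ^ (1 / 2 : ℝ) : ℝ) : ℂ) := by
      rw [div_one, Complex.ofReal_cpow Real.pi_pos.le]
      norm_num
    rw [this, Complex.norm_real, Real.norm_eq_abs, abs_of_nonneg (by positivity),
      ← Real.sqrt_eq_rpow, Real.sqrt_le_iff]
    constructor <;> nlinarith
  · have : -((2 * Real.pi * k : ℂ)) ^ 2 / (4 * 1) = ((-(Real.pi ^ 2 * (k : ℝ) ^ 2) : ℝ) : ℂ) := by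
      push_cast; ring
    rw [this, Complex.norm_exp_ofReal]
    have h1 : (1 / 2 : ℝ) ^ k.natAbs = Real.exp (-(Real.log 2 * k.natAbs)) := by
      rw [Real.exp_neg, mul_comm, Real.exp_nat_mul, Real.exp_log (by norm_num), one_div, inv_pow]
    rw [h1]
    apply Real.exp_le_exp.2
    have h2 : Real.log 2 ≤ 1 := by
      have := Real.log_le_sub_one_of_pos (show (0 : ℝ) < 2 by norm_num)
      linarith
    have h3 : ((k.natAbs : ℕ) : ℝ) ≤ (k : ℝ) ^ 2 := by
      have : ((k.natAbs : ℕ) : ℤ) ≤ k ^ 2 := Int.natAbs_le_self_sq k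
      have h6 : (((k.natAbs : ℕ) : ℤ) : ℝ) ≤ ((k ^ 2 : ℤ) : ℝ) := Int.cast_le.2 this
      rwa [Int.cast_natCast, Int.cast_pow] at h6
    have h4 : (0 : ℝ) ≤ k.natAbs := by positivity
    have h5 : (1 : ℝ) ≤ Real.pi ^ 2 := by nlinarith
    nlinarith [mul_le_mul h2 h3 h4 zero_le_one, sq_nonneg (k : ℝ)]

theorem integrable_gauss : Integrable (fun s : ℝ => Real.exp (-s ^ 2)) := by
  simpa using integrable_exp_neg_mul_sq (b := 1) one_pos

theorem integrable_gauss_mul {E : Type*} [NormedAddCommGroup E] [NormedSpace ℝ E] {f : ℝ → E}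
    (hc : Continuous f) {C : ℝ} (hb : ∀ s, ‖f s‖ ≤ C) :
    Integrable (fun s : ℝ => Real.exp (-s ^ 2) • f s) := by
  refine Integrable.mono' (integrable_gauss.mul_const C) (by fun_prop) (ae_of_all _ fun s => ?_)
  rw [norm_smul, Real.norm_eq_abs, abs_of_pos (Real.exp_pos _)]
  exact mul_le_mul_of_nonneg_left (hb s) (Real.exp_pos _).le

theorem norm_exp_char (a s : ℝ) : ‖exp (2 * Real.pi * I * a * s)‖ = 1 := by
  have : (2 * Real.pi * I * a * s : ℂ) = ((2 * Real.pi * a * s : ℝ) : ℂ) * I := by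
    push_cast; ring
  rw [this, Complex.norm_exp_ofReal_mul_I]

theorem conj_exp_char (a s : ℝ) :
    (starRingEnd ℂ) (exp (2 * Real.pi * I * a * s)) = exp (-(2 * Real.pi * I * a * s)) := by
  rw [← Complex.exp_conj]
  congr 1
  simp only [map_mul, Complex.conj_ofReal, Complex.conj_I, map_ofNat]
  ring

/-- The weighted `L²` norm of a trigonometric polynomial. -/
theorem trig_bound (θ : ℝ) (S : Finset ℤ) (u : ℤ → H) :
    ∫ s : ℝ, Real.exp (-s ^ 2) * ‖∑ n ∈ S, exp (2 * Real.pi * I * (θ + n : ℝ) * s) • u n‖ ^ 2 ≤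
      6 * ∑ n ∈ S, ‖u n‖ ^ 2 := by
  have hint : ∀ k : ℤ, Integrable fun s : ℝ =>
      exp (I * (2 * Real.pi * k) * s) * exp (-1 * (s : ℂ) ^ 2) := fun k => by
    have := integrable_gauss_mul (f := fun s : ℝ => exp (2 * Real.pi * I * (k : ℝ) * s))
      (by fun_prop) (C := 1) fun s => (norm_exp_char _ _).le
    refine this.congr (ae_of_all _ fun s => ?_)
    simp only [Complex.real_smul]
    push_cast
    rw [mul_comm]
    congr 2 <;> ring
  have hpt : ∀ s : ℝ, (((Real.exp (-s ^ 2) *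
      ‖∑ n ∈ S, exp (2 * Real.pi * I * (θ + n : ℝ) * s) • u n‖ ^ 2 : ℝ)) : ℂ) =
      ∑ n ∈ S, ∑ m ∈ S, (exp (I * (2 * Real.pi * ((m - n : ℤ) : ℂ)) * s) *
        exp (-1 * (s : ℂ) ^ 2)) * ⟪u n, u m⟫_ℂ := fun s => by
    have := inner_self_eq_norm_sq_to_K (𝕜 := ℂ)
      (∑ n ∈ S, exp (2 * Real.pi * I * (θ + n : ℝ) * s) • u n)
    push_cast at this ⊢
    rw [show ((‖∑ n ∈ S, exp (2 * Real.pi * I * ((θ : ℂ) + n) * s) • u n‖ : ℝ) : ℂ) ^ 2 = _ from
      this.symm, sum_inner, Finset.mul_sum]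
    refine Finset.sum_congr rfl fun n _ => ?_
    rw [inner_sum, Finset.mul_sum]
    refine Finset.sum_congr rfl fun m _ => ?_
    rw [inner_smul_left, inner_smul_right]
    have h1 := conj_exp_char (θ + n) s
    push_cast at h1
    rw [h1]
    have h2 : exp (-(2 * Real.pi * I * ((θ : ℂ) + n) * s)) *
        exp (2 * Real.pi * I * ((θ : ℂ) + m) * s) = exp (I * (2 * Real.pi * (m - n)) * s) := by
      rw [← Complex.exp_add]; congr 1; ring
    rw [← h2, neg_one_mul]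
    ring
  have hI : ((∫ s : ℝ, Real.exp (-s ^ 2) *
      ‖∑ n ∈ S, exp (2 * Real.pi * I * (θ + n : ℝ) * s) • u n‖ ^ 2 : ℝ) : ℂ) =
      ∑ n ∈ S, ∑ m ∈ S, (∫ s : ℝ, exp (I * (2 * Real.pi * ((m - n : ℤ) : ℂ)) * s) *
        exp (-1 * (s : ℂ) ^ 2)) * ⟪u n, u m⟫_ℂ := by
    rw [← integral_complex_ofReal]
    simp_rw [hpt]
    rw [integral_finsetSum _ fun n _ => integrable_finsetSum _ fun m _ =>
      (hint (m - n)).mul_const _]
    refine Finset.sum_congr rfl fun n _ => ?_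
    rw [integral_finsetSum _ fun m _ => (hint (m - n)).mul_const _]
    refine Finset.sum_congr rfl fun m _ => ?_
    rw [integral_mul_const]
  refine (le_abs_self _).trans ?_
  rw [← Real.norm_eq_abs, ← Complex.norm_real, hI]
  have hle : ∀ n m : ℤ, ‖(∫ s : ℝ, exp (I * (2 * Real.pi * ((m - n : ℤ) : ℂ)) * s) *
      exp (-1 * (s : ℂ) ^ 2)) * ⟪u n, u m⟫_ℂ‖ ≤
      (1 / 2 : ℝ) ^ (m - n).natAbs * ‖u n‖ ^ 2 + (1 / 2 : ℝ) ^ (n - m).natAbs * ‖u m‖ ^ 2 :=
    fun n m => by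
    rw [norm_mul]
    have h1 := gram_bound (m - n)
    have h2 : ‖⟪u n, u m⟫_ℂ‖ ≤ (‖u n‖ ^ 2 + ‖u m‖ ^ 2) / 2 := by
      have := norm_inner_le_norm (𝕜 := ℂ) (u n) (u m)
      nlinarith [sq_nonneg (‖u n‖ - ‖u m‖)]
    have h3 : (n - m).natAbs = (m - n).natAbs := by omega
    rw [h3]
    refine (mul_le_mul h1 h2 (norm_nonneg _) (by positivity)).trans (le_of_eq ?_)
    ring
  calc _ ≤ ∑ n ∈ S, ∑ m ∈ S, ((1 / 2 : ℝ) ^ (m - n).natAbs * ‖u n‖ ^ 2 +
        (1 / 2 : ℝ) ^ (n - m).natAbs * ‖u m‖ ^ 2) :=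
        (norm_sum_le _ _).trans (Finset.sum_le_sum fun n _ =>
          (norm_sum_le _ _).trans (Finset.sum_le_sum fun m _ => hle n m))
    _ = ∑ n ∈ S, (∑ m ∈ S, (1 / 2 : ℝ) ^ (m - n).natAbs) * ‖u n‖ ^ 2 +
        ∑ m ∈ S, (∑ n ∈ S, (1 / 2 : ℝ) ^ (n - m).natAbs) * ‖u m‖ ^ 2 := by
        simp_rw [Finset.sum_add_distrib, Finset.sum_mul]
        congr 1
        exact Finset.sum_comm
    _ ≤ ∑ n ∈ S, 3 * ‖u n‖ ^ 2 + ∑ n ∈ S, 3 * ‖u n‖ ^ 2 := by
        gcongr with n _ n _ <;> exact geom_int_sum S n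
    _ = _ := by rw [← Finset.mul_sum]; ring

/-- Bessel inequality on a lattice.  With `k s = exp (-s²/2)`, `h_n s = k s · e((θ+n) s)`,
`u_n = ft (k² G) (θ + n) = ∫ conj (h_n) (k G)`:  `S = ∑ ‖u_n‖² = ∫ ⟪∑ h_n u_n, k G⟫
≤ ‖∑ h_n u_n‖₂ ‖k G‖₂` and `‖∑ h_n u_n‖₂² = ∑ Gram_{nm} ⟪u_n, u_m⟫ ≤ 6 S` because
`|Gram_{nm}| = √π exp (-π² (n-m)²) ≤ 2 · 2^{-|n-m|}` (`fourierIntegral_gaussian` /
`integral_cexp_quadratic`), `|⟪u_n,u_m⟫| ≤ (‖u_n‖² + ‖u_m‖²)/2`. -/
theorem bessel {G : ℝ → H} (hc : Continuous G) {C : ℝ} (hb : ∀ s, ‖G s‖ ≤ C) (θ : ℝ)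
    (S : Finset ℤ) :
    ∑ n ∈ S, ‖ft (fun s => (Real.exp (-s ^ 2) : ℂ) • G s) (θ + n)‖ ^ 2 ≤
      6 * ∫ s, Real.exp (-s ^ 2) * ‖G s‖ ^ 2 := by
  set u : ℤ → H := fun n => ft (fun s => (Real.exp (-s ^ 2) : ℂ) • G s) (θ + n) with hu
  set Q : ℝ → H := fun s => ∑ n ∈ S, exp (2 * Real.pi * I * (θ + n : ℝ) * s) • u n with hQ
  have hQc : Continuous Q := by
    rw [hQ]; fun_prop
  have hQb : ∀ s, ‖Q s‖ ≤ ∑ n ∈ S, ‖u n‖ := fun s =>
    (norm_sum_le _ _).trans (Finset.sum_le_sum fun n _ => by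
      rw [norm_smul, norm_exp_char, one_mul])
  have hC : 0 ≤ C := (norm_nonneg _).trans (hb 0)
  have hGi : ∀ a : ℝ, Integrable fun s : ℝ =>
      exp (-(2 * Real.pi * I * a * s)) • ((Real.exp (-s ^ 2) : ℂ) • G s) := fun a => by
    have := integrable_gauss_mul (f := fun s : ℝ => exp (-(2 * Real.pi * I * a * s)) • G s)
      (by fun_prop) (C := C) fun s => by
        rw [norm_smul, ← conj_exp_char, Complex.norm_conj, norm_exp_char, one_mul]; exact hb s
    refine this.congr (ae_of_all _ fun s => ?_)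
    simp only []
    rw [smul_comm, Complex.coe_smul]
  -- `S = ∫ w ⟪Q, G⟫`
  have h1 : ((∑ n ∈ S, ‖u n‖ ^ 2 : ℝ) : ℂ) = ∫ s : ℝ, Real.exp (-s ^ 2) • ⟪Q s, G s⟫_ℂ := by
    have : ∀ s : ℝ, Real.exp (-s ^ 2) • ⟪Q s, G s⟫_ℂ = ∑ n ∈ S, ⟪u n,
        exp (-(2 * Real.pi * I * (θ + n : ℝ) * s)) • ((Real.exp (-s ^ 2) : ℂ) • G s)⟫_ℂ :=
      fun s => by
      rw [hQ, sum_inner, Finset.smul_sum]
      refine Finset.sum_congr rfl fun n _ => ?_
      rw [inner_smul_left, inner_smul_right, inner_smul_right, conj_exp_char, Complex.real_smul]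
      ring
    simp_rw [this]
    rw [integral_finsetSum _ fun n _ => (hGi _).const_inner _]
    push_cast
    refine Finset.sum_congr rfl fun n _ => ?_
    have h2 := integral_inner (𝕜 := ℂ) (hGi (θ + n)) (u n)
    push_cast at h2
    rw [h2]
    have h3 : ∫ s : ℝ, exp (-(2 * Real.pi * I * ((θ : ℂ) + n) * s)) •
        (exp (-(s : ℂ) ^ 2) • G s) = u n := by
      rw [hu]; simp only [ft]; push_cast; rfl
    rw [h3, inner_self_eq_norm_sq_to_K]
    rfl
  have hi1 : Integrable fun s : ℝ => Real.exp (-s ^ 2) • ⟪Q s, G s⟫_ℂ :=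
    integrable_gauss_mul (by fun_prop) (C := (∑ n ∈ S, ‖u n‖) * C) fun s =>
      (norm_inner_le_norm _ _).trans (mul_le_mul (hQb s) (hb s) (norm_nonneg _)
        ((norm_nonneg _).trans (hQb s)))
  have hi2 : Integrable fun s : ℝ => Real.exp (-s ^ 2) * ‖Q s‖ ^ 2 :=
    integrable_gauss_mul (E := ℝ) (by fun_prop) (C := (∑ n ∈ S, ‖u n‖) ^ 2) fun s => by
      rw [norm_pow, norm_norm]; exact pow_le_pow_left₀ (norm_nonneg _) (hQb s) 2
  have hi3 : Integrable fun s : ℝ => Real.exp (-s ^ 2) * ‖G s‖ ^ 2 :=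
    integrable_gauss_mul (E := ℝ) (by fun_prop) (C := C ^ 2) fun s => by
      rw [norm_pow, norm_norm]; exact pow_le_pow_left₀ (norm_nonneg _) (hb s) 2
  have h2 : ∑ n ∈ S, ‖u n‖ ^ 2 ≤ ∫ s : ℝ, ((1 / 12) * (Real.exp (-s ^ 2) * ‖Q s‖ ^ 2) +
      3 * (Real.exp (-s ^ 2) * ‖G s‖ ^ 2)) := by
    refine (le_abs_self _).trans ?_
    rw [← Real.norm_eq_abs, ← Complex.norm_real, h1]
    refine (norm_integral_le_integral_norm _).trans (integral_mono hi1.norm
      ((hi2.const_mul _).add (hi3.const_mul _)) fun s => ?_)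
    simp only []
    rw [norm_smul, Real.norm_eq_abs, abs_of_pos (Real.exp_pos _)]
    have h4 := norm_inner_le_norm (𝕜 := ℂ) (Q s) (G s)
    have h5 : ‖⟪Q s, G s⟫_ℂ‖ ≤ (1 / 12) * ‖Q s‖ ^ 2 + 3 * ‖G s‖ ^ 2 := by
      nlinarith [sq_nonneg (‖Q s‖ - 6 * ‖G s‖)]
    have := mul_le_mul_of_nonneg_left h5 (Real.exp_pos (-s ^ 2)).le
    linarith
  rw [integral_add (hi2.const_mul _) (hi3.const_mul _), integral_const_mul, integral_const_mul]
    at h2
  have h3 := trig_bound θ S u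
  change ∫ s : ℝ, Real.exp (-s ^ 2) * ‖Q s‖ ^ 2 ≤ _ at h3
  change ∑ n ∈ S, ‖u n‖ ^ 2 ≤ _
  linarith

/-- Offset averaging: `∫_{-n}^{n} Φ = ∫_0^1 ∑_{-n ≤ j < n} Φ (θ + j) dθ ≤ c`. -/
theorem integral_le_of_lattice {Φ : ℝ → ℝ} (hc : Continuous Φ) (hi : Integrable Φ) {c : ℝ}
    (h : ∀ (θ : ℝ) (S : Finset ℤ), ∑ n ∈ S, Φ (θ + n) ≤ c) : ∫ w, Φ w ≤ c := by
  have hs := hi.hasSum_intervalIntegral_comp_add_int
  refine hasSum_le_of_sum_le hs fun S => ?_
  rw [← intervalIntegral.integral_finsetSum fun n _ =>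
    (by fun_prop : Continuous fun x : ℝ => Φ (x + (n : ℤ))).intervalIntegrable _ _]
  have := intervalIntegral.integral_mono_on (μ := volume) (a := 0) (b := 1) zero_le_one
    (f := fun x => ∑ n ∈ S, Φ (x + n)) (g := fun _ => c)
    ((by fun_prop : Continuous fun x : ℝ => ∑ n ∈ S, Φ (x + n)).intervalIntegrable _ _)
    intervalIntegrable_const fun x _ => h x S
  simpa using this

end Crest.Agent.R78
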