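import Crest.Agent.R78.AF
import Crest.Agent.R78.Planch
import Crest.Agent.R78.AncC

/-! # R78: Gaussian spectral bands of the modular group (task `Band`) -/

set_option autoImplicit false
set_option linter.unusedSectionVars false
open Filter Topology
open scoped InnerProductSpace

namespace Crest.Agent.R78

universe u
variable {H : Type u} [NormedAddCommGroup H] [InnerProductSpace ℂ H] [CompleteSpace H]

open MeasureTheory Complex

/-- The weight of `band`. -/
noncomputable def bw (w s : ℝ) : ℂ := exp (-(2 * Real.pi * I * w * s)) * (Real.exp (-s ^ 2) : ℝ)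

theorem bw_eq_gau (w s : ℝ) : bw w s = gau 1 (-(2 * Real.pi * I * w)) s := by
  simp only [bw, gau, ofReal_exp, ← exp_add]
  congr 1
  push_cast
  ring

theorem norm_bw (w s : ℝ) : ‖bw w s‖ = Real.exp (-s ^ 2) := by
  rw [bw, norm_mul, exp_neg, norm_inv, norm_exp_char, inv_one, one_mul, Complex.norm_real,
    Real.norm_of_nonneg (Real.exp_pos _).le]

theorem integrable_bw (w : ℝ) : Integrable (bw w) := by
  have h := integrable_gau one_pos (-(2 * Real.pi * I * w)) 0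
  simp only [sub_zero, ← bw_eq_gau] at h
  exact h

theorem conj_bw (w s : ℝ) : (starRingEnd ℂ) (bw w s) = bw (-w) s := by
  rw [bw, bw, map_mul, conj_ofReal, ← conj_exp_char, Complex.conj_conj]
  congr 2
  push_cast
  ring

theorem bw_gau_shift (w s : ℝ) : gau 1 (-(2 * Real.pi * I * w)) (s + I / 2) =
    ((Real.exp (1 / 4 + Real.pi * w) : ℝ) : ℂ) * bw (w + 1 / (2 * Real.pi)) s := by
  have hpi : (Real.pi : ℂ) ≠ 0 := ofReal_ne_zero.2 Real.pi_ne_zero
  simp only [bw, gau, ofReal_exp, ← exp_add]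
  congr 1
  push_cast
  field_simp
  linear_combination (-4 - 16 * (Real.pi : ℂ) * w) * I_mul_I

theorem bw_integral_gauss_le : ∫ s : ℝ, Real.exp (-s ^ 2) ≤ 2 := by
  have h := integral_gaussian 1
  simp only [neg_mul, one_mul, div_one] at h
  rw [h]
  exact Real.sqrt_le_iff.2 ⟨by norm_num, by linarith [Real.pi_le_four]⟩

theorem bw_exp_half_le : Real.exp (1 / 2) ≤ 5 / 3 := by
  refine (sq_le_sq₀ (Real.exp_pos _).le (by norm_num)).1 ?_
  rw [← Real.exp_nat_mul]
  have := Real.exp_one_lt_d9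
  norm_num
  linarith

namespace Tomita
variable {M : VonNeumannAlgebra H} {ξ : H} (τ : Tomita M ξ)

/-- The part of `x` of modular energy near `2 π w`. -/
noncomputable def band (x : Op H) (w : ℝ) : Op H :=
  sint (fun s => exp (-(2 * Real.pi * I * w * s)) * (Real.exp (-s ^ 2) : ℝ))
    fun s => τ.U s * x * τ.U (-s)

theorem band_eq (x : Op H) (w : ℝ) :
    τ.band x w = sint (bw w) fun s => τ.U s * x * τ.U (-s) := rfl

theorem band_mem {x : Op H} (hx : x ∈ M) (w : ℝ) : τ.band x w ∈ M :=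
  sint_mem (integrable_bw w) (τ.SC_conj x) fun s => τ.U_mem s x hx

theorem band_mem' {y : Op H} (hy : y ∈ M.commutant) (w : ℝ) : τ.band y w ∈ M.commutant :=
  sint_mem (integrable_bw w) (τ.SC_conj y) fun s => τ.U_mem' s hy

theorem band_apply (x : Op H) (w : ℝ) (ζ : H) : τ.band x w ζ =
    ft (fun s => (Real.exp (-s ^ 2) : ℂ) • (τ.U s * x * τ.U (-s)) ζ) w := by
  rw [band_eq, sint_apply (integrable_bw w) (τ.SC_conj x), ft]
  simp only [bw, mul_smul]

theorem band_xi (x : Op H) (w : ℝ) :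
    τ.band x w ξ = ft (fun s => (Real.exp (-s ^ 2) : ℂ) • τ.U s (x ξ)) w := by
  simp only [band_apply, mul_apply_eq_comp, τ.U_xi]

/-- `∫ exp (-s²) = √π ≤ 2`. -/
theorem norm_band_le (x : Op H) (w : ℝ) : ‖τ.band x w‖ ≤ 2 * ‖x‖ := by
  refine (norm_sint_le (integrable_bw w) (τ.SC_conj x)).trans ?_
  simp only [norm_bw]
  rw [mul_comm]
  exact mul_le_mul_of_nonneg_right bw_integral_gauss_le (norm_nonneg _)

theorem jj_band (x : Op H) (w : ℝ) :
    τ.toConj.jj (τ.band x w) = τ.band (τ.toConj.jj x) (-w) := by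
  ext η
  rw [Conj.jj_apply, band_eq, band_eq, sint_apply (integrable_bw w) (τ.SC_conj x),
    sint_apply (integrable_bw (-w)) (τ.SC_conj _), ← ContinuousLinearMap.integral_comp_commSL
      (fun r x => by simp) τ.J ((τ.SC_conj x).integrable (integrable_bw w) _)]
  refine integral_congr_ae (Eventually.of_forall fun s => ?_)
  simp only [Conj.J_smul, conj_bw, mul_apply_eq_comp, Conj.jj_apply, τ.J_U]

/-- `J (band x w)* ξ = ∫ g s • U s J x* ξ = ∫ g (s + i/2) • U s x ξ` (`kms`) for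
`g = gau 1 (-2 π i w)`, and `g (s + i/2) = exp (1/4 + π w) exp (-s² - 2 π i (w + 1/(2π)) s)`.
Use `x ξ = t ξ`, apply `J` (`J t ξ = (J t J) ξ`); both sides lie in `M` and `ξ` is separating
(`Cyc.sep`). -/
theorem star_band {x t : Op H} (hx : x ∈ M) (ht : t ∈ M.commutant) (h : x ξ = t ξ) (w : ℝ) :
    star (τ.band x w) = ((Real.exp (1 / 4 + Real.pi * w) : ℝ) : ℂ) •
      τ.band (τ.toConj.jj t) (-w - 1 / (2 * Real.pi)) := by
  have h1 : star (τ.band x w) = τ.band (star x) (-w) := by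
    rw [band_eq, band_eq, star_sint (integrable_bw w) (τ.SC_conj x)]
    simp only [conj_bw, star_mul, τ.U_star, neg_neg, mul_assoc]
  have h2 : τ.J (star (τ.band x w) ξ) = ((Real.exp (1 / 4 + Real.pi * w) : ℝ) : ℂ) •
      τ.band t (w + 1 / (2 * Real.pi)) ξ := by
    rw [h1, band_eq, band_eq, sint_apply (integrable_bw _) (τ.SC_conj _),
      sint_apply (integrable_bw _) (τ.SC_conj _), ← ContinuousLinearMap.integral_comp_commSL
        (fun r x => by simp) τ.J ((τ.SC_conj _).integrable (integrable_bw _) _), ← integral_smul]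
    simp only [Conj.J_smul, conj_bw, neg_neg, mul_apply_eq_comp, τ.U_xi, τ.J_U, smul_smul,
      ← bw_gau_shift, ← h]
    simp only [bw_eq_gau]
    exact τ.kms x hx 1 one_pos _
  refine sub_eq_zero.1 (τ.cyc'.sep (sub_mem (star_mem (τ.band_mem hx w))
    (vn_smul_mem _ (τ.band_mem (τ.jj_mem' t ht) _))) ?_)
  rw [_root_.sub_apply, sub_eq_zero, _root_.smul_apply,
    show -w - 1 / (2 * Real.pi) = -(w + 1 / (2 * Real.pi)) by ring, ← jj_band, Conj.jj_apply,
    τ.J_xi, ← τ.invol (star (τ.band x w) ξ), h2, Conj.J_smul, conj_ofReal]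

/-- `star_band` for the pair `J t J ∈ M`, `J x J ∈ M'` at `-w`, conjugated by `J`. -/
theorem star_band' {x t : Op H} (hx : x ∈ M) (ht : t ∈ M.commutant) (h : x ξ = t ξ) (w : ℝ) :
    star (τ.band t w) = ((Real.exp (1 / 4 - Real.pi * w) : ℝ) : ℂ) •
      τ.band (τ.toConj.jj x) (-w + 1 / (2 * Real.pi)) := by
  have h1 := τ.star_band (τ.jj_mem' t ht) (τ.jj_mem x hx)
    (by rw [Conj.jj_apply, Conj.jj_apply, τ.J_xi, h]) (-w)
  have h2 := congrArg τ.toConj.jj h1
  rw [Conj.jj_star, jj_band, Conj.jj_jj, neg_neg, Conj.jj_smul, conj_ofReal, jj_band,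
    Conj.jj_jj] at h2
  rw [h2, show 1 / 4 + Real.pi * -w = 1 / 4 - Real.pi * w by ring,
    show -(w - 1 / (2 * Real.pi)) = -w + 1 / (2 * Real.pi) by ring]

/-- `band x w ξ = band t w ξ` has norm `≤ C exp (-π |w|)`; it is continuous (`continuous_ft`). -/
theorem integrable_band {x t : Op H} (hx : x ∈ M) (ht : t ∈ M.commutant) (h : x ξ = t ξ) :
    Integrable fun w => τ.band x w ξ := by
  have hc : Continuous fun w => τ.band x w ξ := by
    simp only [band_xi]
    refine continuous_ft ?_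
    have := integrable_gauss_mul (τ.U_cont (x ξ)) fun s => (τ.norm_U_apply s _).le
    simpa only [Complex.coe_smul] using this
  refine ((strip_integrable_exp_abs Real.pi_pos).const_mul
    (Real.exp (1 / 4) * (2 * (‖x‖ + ‖t‖)) * ‖ξ‖)).mono' hc.aestronglyMeasurable
    (Eventually.of_forall fun w => ?_)
  rcases le_total w 0 with hw | hw
  · refine ((τ.band x w).le_opNorm ξ).trans ?_
    rw [← norm_star, τ.star_band hx ht h, norm_smul, Complex.norm_real,
      Real.norm_of_nonneg (Real.exp_pos _).le, abs_of_nonpos hw, Real.exp_add,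
      show -Real.pi * -w = Real.pi * w by ring]
    have h1 := τ.norm_band_le (τ.toConj.jj t) (-w - 1 / (2 * Real.pi))
    rw [Conj.norm_jj] at h1
    calc _ ≤ Real.exp (1 / 4) * Real.exp (Real.pi * w) * (2 * (‖x‖ + ‖t‖)) * ‖ξ‖ := by
          gcongr
          linarith [norm_nonneg x]
      _ = _ := by ring
  · have e : τ.band x w ξ = τ.band t w ξ := by rw [band_xi, band_xi, h]
    rw [e]
    refine ((τ.band t w).le_opNorm ξ).trans ?_
    rw [← norm_star, τ.star_band' hx ht h, norm_smul, Complex.norm_real,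
      Real.norm_of_nonneg (Real.exp_pos _).le, abs_of_nonneg hw, sub_eq_add_neg, Real.exp_add,
      neg_mul]
    have h1 := τ.norm_band_le (τ.toConj.jj x) (-w + 1 / (2 * Real.pi))
    rw [Conj.norm_jj] at h1
    calc _ ≤ Real.exp (1 / 4) * Real.exp (-(Real.pi * w)) * (2 * (‖x‖ + ‖t‖)) * ‖ξ‖ := by
          gcongr
          linarith [norm_nonneg t]
      _ = _ := by ring

/-- `bessel` for each `i`, then sum under the integral; `6 √π ≤ 12`. -/
theorem band_col {ι : Type*} [Fintype ι] {x : ι → Op H} {C : ℝ} (hc : Col x C) (θ : ℝ)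
    (S : Finset ℤ) (ζ : H) :
    ∑ i, ∑ n ∈ S, ‖τ.band (x i) (θ + n) ζ‖ ^ 2 ≤ 12 * C ^ 2 * ‖ζ‖ ^ 2 := by
  have hi : ∀ i, Integrable fun s : ℝ =>
      Real.exp (-s ^ 2) * ‖(τ.U s * x i * τ.U (-s)) ζ‖ ^ 2 := fun i =>
    integrable_gauss_mul (((τ.SC_conj (x i)).cont ζ).norm.pow 2) (C := (‖x i‖ * ‖ζ‖) ^ 2)
      fun s => by
        rw [Real.norm_of_nonneg (by positivity)]
        exact pow_le_pow_left₀ (norm_nonneg _) ((τ.SC_conj (x i)).norm_apply_le s ζ) 2
  calc ∑ i, ∑ n ∈ S, ‖τ.band (x i) (θ + n) ζ‖ ^ 2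
      ≤ ∑ i, 6 * ∫ s, Real.exp (-s ^ 2) * ‖(τ.U s * x i * τ.U (-s)) ζ‖ ^ 2 := by
        refine Finset.sum_le_sum fun i _ => ?_
        simp only [band_apply]
        exact bessel ((τ.SC_conj (x i)).cont ζ) (fun s => (τ.SC_conj (x i)).norm_apply_le s ζ) θ S
    _ = 6 * ∫ s, ∑ i, Real.exp (-s ^ 2) * ‖(τ.U s * x i * τ.U (-s)) ζ‖ ^ 2 := by
        rw [integral_finsetSum _ fun i _ => hi i, Finset.mul_sum]
    _ ≤ 6 * ∫ s : ℝ, Real.exp (-s ^ 2) * (C ^ 2 * ‖ζ‖ ^ 2) := by
        refine mul_le_mul_of_nonneg_left (integral_mono (integrable_finsetSum _ fun i _ => hi i)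
          (integrable_gauss.mul_const _) fun s => ?_) (by norm_num)
        simp only [← Finset.mul_sum, mul_apply_eq_comp, τ.norm_U_apply]
        refine mul_le_mul_of_nonneg_left ?_ (Real.exp_pos _).le
        have := hc (τ.U (-s) ζ)
        rwa [τ.norm_U_apply] at this
    _ ≤ 6 * (2 * (C ^ 2 * ‖ζ‖ ^ 2)) := by
        rw [integral_mul_const]
        gcongr
        exact bw_integral_gauss_le
    _ = _ := by ring

theorem col_jj {ι : Type*} [Fintype ι] {x : ι → Op H} {C : ℝ} (hc : Col x C) :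
    Col (fun i => τ.toConj.jj (x i)) C := fun η => by
  have h := hc (τ.J η)
  rw [τ.toConj.norm_J] at h
  simpa only [Conj.jj_apply, Conj.norm_J] using h

/-- `star_band`, `band_col` for the lattice `-θ - 1/(2π) + (-S)`; `12 exp (1/2) ≤ 20`. -/
theorem band_row {ι : Type*} [Fintype ι] {x t : ι → Op H} (hx : ∀ i, x i ∈ M)
    (ht : ∀ i, t i ∈ M.commutant) (h : ∀ i, x i ξ = t i ξ) {C : ℝ} (hc : Col t C) (θ : ℝ)
    (S : Finset ℤ) (ζ : H) :
    ∑ i, ∑ n ∈ S, Real.exp (-(2 * Real.pi * (θ + n))) * ‖star (τ.band (x i) (θ + n)) ζ‖ ^ 2 ≤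
      20 * C ^ 2 * ‖ζ‖ ^ 2 := by
  have h1 := τ.band_col (τ.col_jj hc) (-θ - 1 / (2 * Real.pi)) (S.map (Equiv.neg ℤ).toEmbedding) ζ
  simp only [Finset.sum_map, Equiv.coe_toEmbedding, Equiv.neg_apply] at h1
  have h2 : ∀ i (n : ℤ), Real.exp (-(2 * Real.pi * (θ + n))) *
      ‖star (τ.band (x i) (θ + n)) ζ‖ ^ 2 = Real.exp (1 / 2) *
        ‖τ.band (τ.toConj.jj (t i)) (-θ - 1 / (2 * Real.pi) + ((-n : ℤ) : ℝ)) ζ‖ ^ 2 := fun i n => by
    rw [τ.star_band (hx i) (ht i) (h i), _root_.smul_apply, norm_smul, Complex.norm_real,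
      Real.norm_of_nonneg (Real.exp_pos _).le, mul_pow, ← Real.exp_nat_mul, ← mul_assoc,
      ← Real.exp_add]
    congr 5
    · push_cast; ring
    · push_cast; ring
  simp only [h2, ← Finset.mul_sum]
  calc _ ≤ 5 / 3 * (12 * C ^ 2 * ‖ζ‖ ^ 2) :=
        mul_le_mul bw_exp_half_le h1 (by positivity) (by norm_num)
    _ = _ := by ring

theorem band_row' {ι : Type*} [Fintype ι] {x t : ι → Op H} (hx : ∀ i, x i ∈ M)
    (ht : ∀ i, t i ∈ M.commutant) (h : ∀ i, x i ξ = t i ξ) {C : ℝ} (hc : Col x C) (θ : ℝ)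
    (S : Finset ℤ) (ζ : H) :
    ∑ i, ∑ n ∈ S, Real.exp (2 * Real.pi * (θ + n)) * ‖star (τ.band (t i) (θ + n)) ζ‖ ^ 2 ≤
      20 * C ^ 2 * ‖ζ‖ ^ 2 := by
  have h1 := τ.band_col (τ.col_jj hc) (-θ + 1 / (2 * Real.pi)) (S.map (Equiv.neg ℤ).toEmbedding) ζ
  simp only [Finset.sum_map, Equiv.coe_toEmbedding, Equiv.neg_apply] at h1
  have h2 : ∀ i (n : ℤ), Real.exp (2 * Real.pi * (θ + n)) *
      ‖star (τ.band (t i) (θ + n)) ζ‖ ^ 2 = Real.exp (1 / 2) *
        ‖τ.band (τ.toConj.jj (x i)) (-θ + 1 / (2 * Real.pi) + ((-n : ℤ) : ℝ)) ζ‖ ^ 2 := fun i n => by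
    rw [τ.star_band' (hx i) (ht i) (h i), _root_.smul_apply, norm_smul, Complex.norm_real,
      Real.norm_of_nonneg (Real.exp_pos _).le, mul_pow, ← Real.exp_nat_mul, ← mul_assoc,
      ← Real.exp_add]
    congr 5
    · push_cast; ring
    · push_cast; ring
  simp only [h2, ← Finset.mul_sum]
  calc _ ≤ 5 / 3 * (12 * C ^ 2 * ‖ζ‖ ^ 2) :=
        mul_le_mul bw_exp_half_le h1 (by positivity) (by norm_num)
    _ = _ := by ring

end Tomita

end Crest.Agent.R78
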