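import Crest.Agent.R121.Spec
import Crest.Agent.R121.Polar

/-!
# R78 (Kadison-Kastler, S0103): basic definitions

Everything is phrased with plain operators `Op H` and membership in a `VonNeumannAlgebra`.
-/

set_option autoImplicit false
open Filter Topology
open scoped InnerProductSpace

namespace Crest.Agent.R78

universe u

/-- Bounded operators. -/
abbrev Op (H : Type u) [NormedAddCommGroup H] [InnerProductSpace ℂ H] : Type u := H →L[ℂ] H

variable {H : Type u} [NormedAddCommGroup H] [InnerProductSpace ℂ H] [CompleteSpace H]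

/-- `x` commutes with `a` and `a*`. -/
def C2 (a x : Op H) : Prop := a * x = x * a ∧ star a * x = x * star a

/-- The commutant of `S ∪ S*` as a von Neumann algebra. -/
noncomputable def vn (S : Set (Op H)) : VonNeumannAlgebra H where
  toStarSubalgebra := StarSubalgebra.centralizer ℂ S
  centralizer_centralizer' := by simp

theorem mem_vn {S : Set (Op H)} {x : Op H} : x ∈ vn S ↔ ∀ a ∈ S, C2 a x :=
  StarSubalgebra.mem_centralizer_iff ℂ

theorem C2.star_left {a x : Op H} (h : C2 a x) : C2 (star a) x := ⟨h.2, by simpa using h.1⟩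

theorem C2.star_right {a x : Op H} (h : C2 a x) : C2 a (star x) := by
  refine ⟨?_, ?_⟩
  · have := congrArg star h.2
    simpa using this.symm
  · have := congrArg star h.1
    simpa using this.symm

theorem comm_of_mem {M : VonNeumannAlgebra H} {x y : Op H} (hx : x ∈ M) (hy : y ∈ M.commutant) :
    x * y = y * x := VonNeumannAlgebra.mem_commutant_iff.1 hy x hx

theorem mem_of_comm {M : VonNeumannAlgebra H} {x : Op H}
    (h : ∀ y ∈ M.commutant, y * x = x * y) : x ∈ M := by
  rw [← M.commutant_commutant]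
  exact VonNeumannAlgebra.mem_commutant_iff.2 h

theorem vn_smul_mem {M : VonNeumannAlgebra H} (c : ℂ) {x : Op H} (hx : x ∈ M) : c • x ∈ M :=
  M.toStarSubalgebra.smul_mem hx c

theorem subset_comm_vn {S : Set (Op H)} {a : Op H} (ha : a ∈ S) : a ∈ (vn S).commutant :=
  VonNeumannAlgebra.mem_commutant_iff.2 fun g hg => ((mem_vn.1 hg) a ha).1.symm

/-- Central elements. -/
def Ctr (M : VonNeumannAlgebra H) (x : Op H) : Prop := x ∈ M ∧ x ∈ M.commutant

/-- One-sided near inclusion. -/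
def Near (M N : VonNeumannAlgebra H) (δ : ℝ) : Prop := ∀ x ∈ M, ∃ y ∈ N, ‖x - y‖ ≤ δ * ‖x‖

/-- Two-sided near inclusion. -/
def Close (M N : VonNeumannAlgebra H) (δ : ℝ) : Prop := Near M N δ ∧ Near N M δ

theorem Near.mono {M N : VonNeumannAlgebra H} {δ δ' : ℝ} (h : Near M N δ) (hδ : δ ≤ δ') :
    Near M N δ' := fun x hx => by
  obtain ⟨y, hy, h1⟩ := h x hx
  exact ⟨y, hy, h1.trans (mul_le_mul_of_nonneg_right hδ (norm_nonneg _))⟩

theorem Close.mono {M N : VonNeumannAlgebra H} {δ δ' : ℝ} (h : Close M N δ) (hδ : δ ≤ δ') :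
    Close M N δ' := ⟨h.1.mono hδ, h.2.mono hδ⟩

theorem Close.symm {M N : VonNeumannAlgebra H} {δ : ℝ} (h : Close M N δ) : Close N M δ :=
  ⟨h.2, h.1⟩

/-- A linear lift `N → M` close to the inclusion. -/
def HasLift (M N : VonNeumannAlgebra H) (η : ℝ) : Prop :=
  ∃ Θ : Op H →ₗ[ℂ] Op H, ∀ y ∈ N, Θ y ∈ M ∧ ‖Θ y - y‖ ≤ η * ‖y‖

/-- Cyclic vector. -/
def Cyc (M : VonNeumannAlgebra H) (ξ : H) : Prop := Dense ((fun x : Op H => x ξ) '' (M : Set (Op H)))

/-- The algebra `u* N u`. -/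
noncomputable def cj (u : Op H) (N : VonNeumannAlgebra H) : VonNeumannAlgebra H :=
  vn ((fun y => star u * y * u) '' (N.commutant : Set (Op H)))

/-- The universal constant of hyperreflexivity type lemmas. -/
def KA : ℝ := 100000

theorem KA_pos : 0 < KA := by norm_num [KA]

theorem one_le_KA : 1 ≤ KA := by norm_num [KA]

/-- Weak operator limit. -/
def WLim {ι : Type*} (F : Filter ι) (x : ι → Op H) (y : Op H) : Prop :=
  ∀ ξ η : H, Tendsto (fun i => ⟪η, x i ξ⟫_ℂ) F (𝓝 ⟪η, y ξ⟫_ℂ)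

/-- Cesaro averages. -/
noncomputable def ces (f : ℕ → Op H) (n : ℕ) : Op H :=
  ((n : ℂ) + 1)⁻¹ • ∑ k ∈ Finset.range (n + 1), f k

/-- `X` is the mean of the sequence `f` along `F` (an ultrafilter finer than `atTop`). -/
def Mean (F : Filter ℕ) (f : ℕ → Op H) (X : Op H) : Prop := WLim F (ces f) X

/-- `A`, `B` split products close to `1`. -/
def Split (A B : VonNeumannAlgebra H) : Prop :=
  ∀ a ∈ A, ∀ b ∈ B, a ∈ unitary (Op H) → b ∈ unitary (Op H) → ∀ ε : ℝ, ε ≤ 1 / 20 →
    ‖a * b - 1‖ ≤ ε → ∃ a₁ ∈ A, ∃ b₁ ∈ B, a₁ ∈ unitary (Op H) ∧ b₁ ∈ unitary (Op H) ∧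
      a₁ * b₁ = a * b ∧ ‖a₁ - 1‖ ≤ 13 * ε ∧ ‖b₁ - 1‖ ≤ 13 * ε

open MeasureTheory in
open Classical in
/-- Strong integral `∫ f(s) F(s) ds` of a bounded strongly continuous operator function. -/
noncomputable def sint (f : ℝ → ℂ) (F : ℝ → Op H) : Op H :=
  if h : ∃ X : Op H, ∀ η, X η = ∫ s, f s • F s η then h.choose else 0

/-- Bounded and strongly continuous together with the adjoint. -/
structure SC (F : ℝ → Op H) (C : ℝ) : Prop where
  bd : ∀ s, ‖F s‖ ≤ C
  cont : ∀ η, Continuous fun s => F s η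
  cont' : ∀ η, Continuous fun s => star (F s) η

end Crest.Agent.R78
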