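import Crest.Agent.R78.CrossB
import Crest.Agent.R78.AF
import Crest.Agent.R78.Hyper

/-! # R78: the centraliser of the perturbed vector (task `CrossC`) -/

set_option autoImplicit false
set_option linter.unusedSectionVars false
open Filter Topology
open scoped InnerProductSpace

namespace Crest.Agent.R78

universe u
variable {H : Type u} [NormedAddCommGroup H] [InnerProductSpace ℂ H] [CompleteSpace H]

open MeasureTheory Complex

namespace Cross
variable {M N : VonNeumannAlgebra H} {ξ : H} (τ : Tomita M ξ) (h : ℝ)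

theorem crossC_eq_of_real {f g : ℂ → ℂ} (hf : Differentiable ℂ f) (hg : Differentiable ℂ g)
    (e : ∀ t : ℝ, f t = g t) : f = g := by
  refine AnalyticOnNhd.eq_of_frequently_eq (z₀ := 0)
    (fun z _ => hf.analyticAt z) (fun z _ => hg.analyticAt z) ?_
  have ht : Tendsto (fun t : ℝ => (t : ℂ)) (𝓝[≠] 0) (𝓝[≠] 0) := by
    refine tendsto_nhdsWithin_iff.2 ⟨?_, ?_⟩
    · have := (continuous_ofReal.tendsto 0).mono_left (nhdsWithin_le_nhds (s := {0}ᶜ))
      simpa using this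
    · filter_upwards [self_mem_nhdsWithin] with t ht
      simpa using ht
  exact ht.frequently (Frequently.of_forall e)

theorem crossC_ee_ee' (z w : ℂ) : ee H z * ee' τ h w = ee' τ h w * ee H z :=
  (comm_of_mem (ee'_mem τ h (N := M) w) (ee_mem τ h (N := M) z)).symm

theorem crossC_inner_star (T : Op H) (a b : H) : ⟪a, T b⟫_ℂ = ⟪star T a, b⟫_ℂ := by
  rw [ContinuousLinearMap.star_eq_adjoint, ContinuousLinearMap.adjoint_inner_left]

/-- For real `t`, `D_{t/h} y ξ̂ = y ξ̂` gives `lift (U t) y ξ̂ = ee (t/h) ee' (-t/h) y ξ̂`, so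
`⟪y ξ̂, ee b (ins 0 (Y (-t) ξ))⟫ = ⟪y ξ̂, ee (b - t/h) ee' (t/h) (ins 0 (Y 0 ξ))⟫` (`AF.U_apply`).
Both sides are entire in `t`; identity theorem
(`AnalyticOnNhd.eq_of_frequently_eq`). -/
theorem cont_eq (hh : h ≠ 0) {y : Op (L2 ℤ H)} (hy : y ∈ PP τ h) {Y : ℂ → Op H} (hY : AF τ Y)
    (b z : ℂ) : ⟪y (xh ξ), ee H b (L2.ins 0 (Y (-z) ξ))⟫_ℂ =
      ⟪y (xh ξ), ee H (b - z / h) (ee' τ h (z / h) (L2.ins 0 (Y 0 ξ)))⟫_ℂ := by
  have hD : ∀ t, DD τ h t (y (xh ξ)) = y (xh ξ) := fun t => by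
    have := congrArg (fun T : Op (L2 ℤ H) => T (xh ξ)) (((mem_PP τ h).1 hy).2 t)
    simpa only [mul_apply_eq_comp, DD_xh] using this
  refine congrFun (crossC_eq_of_real
    (f := fun z => ⟪y (xh ξ), ee H b (L2.ins 0 (Y (-z) ξ))⟫_ℂ)
    (g := fun z => ⟪y (xh ξ), ee H (b - z / h) (ee' τ h (z / h) (L2.ins 0 (Y 0 ξ)))⟫_ℂ)
    ?_ ?_ fun t => ?_) z
  · exact ((innerSL ℂ (y (xh ξ))) ∘L (ee H b) ∘L (L2.ins (0 : ℤ))).differentiable.comp
      ((hY.diff.comp differentiable_neg).clm_apply (differentiable_const ξ))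
  · have d1 : Differentiable ℂ fun z : ℂ => ee H (b - z / h) :=
      (differentiable_ee (H := H)).comp
        ((differentiable_const b).sub (differentiable_id.div_const _))
    have d2 : Differentiable ℂ fun z : ℂ => ee' τ h (z / h) :=
      (differentiable_ee' τ h).comp (differentiable_id.div_const _)
    exact (innerSL ℂ (y (xh ξ))).differentiable.comp
      (d1.clm_apply (d2.clm_apply (differentiable_const _)))
  · have e1 : L2.ins (0 : ℤ) (Y (-(t : ℂ)) ξ) = L2.lift ℤ (τ.U (-t)) (L2.ins 0 (Y 0 ξ)) := by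
      rw [L2.lift_ins, hY.U_apply, zero_add, ofReal_neg]
    have e2 : DD τ h (t / h) * (ee H b * L2.lift ℤ (τ.U (-t))) =
        ee H (b - t / h) * ee' τ h (t / h) := by
      rw [DD, div_mul_cancel₀ t hh, ofReal_div, ← ee_lift, mul_assoc (ee H _), ← ee'_lift,
        ee_lift b, mul_assoc, mul_assoc, ← mul_assoc (L2.lift ℤ _), ← map_mul, τ.U_mul_neg,
        map_one, one_mul, ← crossC_ee_ee', ← mul_assoc, ← ee_add, neg_add_eq_sub]
    have e3 := congrArg (fun T : Op (L2 ℤ H) => T (L2.ins 0 (Y 0 ξ))) e2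
    simp only [mul_apply_eq_comp] at e3
    rw [e1, ← e3, crossC_inner_star (DD τ h (t / h)), star_DD, hD]

/-- `c = i / (2 h)`, `x = X 0`, `x' = J (X (i/2))* J ∈ M'` has `x' ξ = x ξ` (`AF.J_star`) and
`x'* ξ = Y (-i) ξ` for `Y z = (X (conj z))*`.  `π x ee k ζ = ee' (c + k) lift x' ξ̂`, so the left
side is `⟪ee (2 c - k) (ins 0 (Y (-i) ξ)), y ξ̂⟫`; the right side is
`⟪ee (-k) ee' (2 c) (ins 0 (x* ξ)), y ξ̂⟫`; `cont_eq` with `z = i`, `b = 2 c - k`. -/
theorem centr_af (hh : h ≠ 0) {y : Op (L2 ℤ H)} (hy : y ∈ PP τ h) {X : ℂ → Op H} (hX : AF τ X)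
    (k : ℤ) : ⟪zeta ξ h, (y * (pi τ h (X 0) * ee H k)) (zeta ξ h)⟫_ℂ =
      ⟪zeta ξ h, (pi τ h (X 0) * ee H k * y) (zeta ξ h)⟫_ℂ := by
  have hyM := ((mem_PP τ h).1 hy).1
  have hY := hX.star_conj
  have hh' : (h : ℂ) ≠ 0 := ofReal_ne_zero.2 hh
  set c : ℂ := I / (2 * h) with hc
  have hcc : (starRingEnd ℂ) c = -c := by
    rw [hc, map_div₀, conj_I, map_mul, conj_ofReal, map_ofNat, neg_div]
  have hz : zeta ξ h = ee H c (xh ξ) := rfl
  set x' : Op H := τ.toConj.jj (star (X (I / 2))) with hx'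
  have hx'M : x' ∈ M.commutant := τ.jj_mem _ (star_mem (hX.mem _))
  have e1 : x' ξ = X 0 ξ := by
    rw [hx', Conj.jj_apply, τ.J_xi, hX.J_star, sub_self]
  have e2 : star x' ξ = star (X ((starRingEnd ℂ) (-I))) ξ := by
    have := hY.J_star (-(I / 2))
    simp only [star_star] at this
    rw [hx', ← Conj.jj_star, star_star, Conj.jj_apply, τ.J_xi]
    have a1 : (starRingEnd ℂ) (-(I / 2)) = I / 2 := by
      rw [map_neg, map_div₀, conj_I, map_ofNat, neg_div, neg_neg]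
    have a2 : -(I / 2) - I / 2 = -I := by ring
    rw [a1, a2] at this
    exact this
  have hl : L2.lift ℤ x' ∈ hatC τ h M := lift_mem_hatC τ h (normal_self τ h) hx'M
  have ap : ∀ {A B C D : Op (L2 ℤ H)}, A * B = C * D → ∀ v, A (B v) = C (D v) :=
    fun e v => congrArg (fun T : Op (L2 ℤ H) => T v) e
  have cπ : ∀ {x : Op H}, x ∈ M → ∀ w, pi τ h x (ee H w (xh ξ)) = ee' τ h w (L2.ins 0 (x ξ)) :=
    fun {x} hx w => by
      rw [← ee'_xh τ h, ← ap (comm_of_mem (ee'_mem τ h w) (pi_mem τ h hx)), pi_xh]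
  have L : ⟪zeta ξ h, (y * (pi τ h (X 0) * ee H k)) (zeta ξ h)⟫_ℂ =
      ⟪ee H (2 * c - k) (L2.ins 0 (star (X ((starRingEnd ℂ) (-I))) ξ)), y (xh ξ)⟫_ℂ := by
    have a1 : ee H k (ee H c (xh ξ)) = ee H (k + c) (xh ξ) := by rw [ee_add]; rfl
    have a2 : L2.ins (0 : ℤ) (X 0 ξ) = L2.lift ℤ x' (xh ξ) := by rw [xh, L2.lift_ins, e1]
    have a3 : ee' τ h (-(starRingEnd ℂ) (k + c)) (ee H c (xh ξ)) = ee H (2 * c - k) (xh ξ) := by
      rw [← ap (crossC_ee_ee' τ h c _), ee'_xh, ← mul_apply_eq_comp, ← ee_add,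
        map_add, hcc, map_intCast]
      congr 2; ring
    rw [hz]
    simp only [mul_apply_eq_comp]
    rw [a1, cπ (hX.mem 0), a2, ← ap (comm_of_mem (ee'_mem τ h _) hyM),
      ← ap (comm_of_mem hl hyM), crossC_inner_star (ee' τ h _), crossC_inner_star (L2.lift ℤ _),
      star_ee', a3, ← map_star, ← ap (ee_lift _ _), ← e2, xh, L2.lift_ins]
  have R : ⟪zeta ξ h, (pi τ h (X 0) * ee H k * y) (zeta ξ h)⟫_ℂ =
      ⟪ee H (2 * c - k - I / h) (ee' τ h (I / h)
        (L2.ins 0 (star (X ((starRingEnd ℂ) 0)) ξ))), y (xh ξ)⟫_ℂ := by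
    have a1 : y (ee H c (xh ξ)) = ee' τ h c (y (xh ξ)) := by
      rw [← ee'_xh τ h, ap (comm_of_mem (ee'_mem τ h _) hyM)]
    have a2 : 2 * c - k - I / h = -k := by rw [hc]; field_simp; ring
    have a3 : I / h = c + c := by rw [hc]; field_simp; ring
    rw [hz]
    simp only [mul_apply_eq_comp]
    rw [a1, crossC_inner_star (pi τ h _), crossC_inner_star (ee H k),
      crossC_inner_star (ee' τ h c), ← map_star, cπ (star_mem (hX.mem 0)), star_ee, star_ee',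
      hcc, neg_neg, map_intCast, ← ap (crossC_ee_ee' τ h _ c), a2, a3, ee'_add, map_zero]
    rfl
  rw [L, R, ← inner_conj_symm, cont_eq τ h hh hy hY (2 * c - k) I, inner_conj_symm]

/-- `⟪α, π (sint f F) β⟫ = ∫ f ⟪α, π (F s) β⟫`: both sides are `⟪α, · β⟫` of bounded operators
(`π (sint f F)` and `sint f (π ∘ F)`), which agree on the vectors `ins k η`. -/
theorem pi_sint {f : ℝ → ℂ} (hf : Integrable f) {F : ℝ → Op H} {C : ℝ} (hF : SC F C) :
    SC (fun s => pi τ h (F s)) C ∧ pi τ h (sint f F) = sint f fun s => pi τ h (F s) := by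
  have hc : ∀ {G : ℝ → Op H}, SC G C → ∀ η, Continuous fun s => pi τ h (G s) η := by
    intro G hG η
    refine (Gam τ h).continuous.comp (f := fun s => L2.lift ℤ (G s) (star (Gam τ h) η)) ?_
    refine continuous_iff_continuousAt.2 fun s => ?_
    simp only [L2.lift_eq]
    exact L2.tendsto_diag (f := fun s _ => G s) (fun k _ => hG.bd k) (fun _ => hG.bd s)
      (fun _ η => (hG.cont η).tendsto s) _
  have hS : SC (fun s => pi τ h (F s)) C := by
    refine ⟨fun s => ?_, hc hF, fun η => ?_⟩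
    · rw [pi_apply, CStarRing.norm_mul_mem_unitary _ (Unitary.star_mem (Gam_unitary τ h)),
        CStarRing.norm_mem_unitary_mul _ (Gam_unitary τ h)]
      exact (L2.norm_lift_le _).trans (hF.bd s)
    · simp only [← map_star]
      exact hc hF.star η
  refine ⟨hS, L2.ext_ins fun k η => ?_⟩
  rw [sint_apply hf hS]
  simp only [pi_ins, mul_apply_eq_comp]
  rw [sint_apply hf hF]
  have := ((L2.ins k) ∘L (τ.U (-(k * h)))).integral_comp_comm (hF.integrable hf (τ.U (k * h) η))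
  simp only [ContinuousLinearMap.comp_apply, map_smul] at this
  exact this.symm

theorem crossC_centr_gen (hh : h ≠ 0) {y : Op (L2 ℤ H)} (hy : y ∈ PP τ h) {x : Op H}
    (hx : x ∈ M) (k : ℤ) : ⟪star y (zeta ξ h), (pi τ h x * ee H k) (zeta ξ h)⟫_ℂ =
      ⟪zeta ξ h, (pi τ h x * ee H k) (y (zeta ξ h))⟫_ℂ := by
  have hF := τ.SC_conj x
  have hS := (pi_sint τ h (integrable_gau one_pos 0 0) hF).1
  have hcont : ∀ α β, Continuous fun s => ⟪α, pi τ h (τ.U s * x * τ.U (-s)) β⟫_ℂ :=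
    fun α β => continuous_const.inner (hS.cont β)
  have hbd : ∀ α β s, ‖⟪α, pi τ h (τ.U s * x * τ.U (-s)) β⟫_ℂ‖ ≤ ‖α‖ * (‖x‖ * ‖β‖) :=
    fun α β s => (norm_inner_le_norm _ _).trans
      (mul_le_mul_of_nonneg_left (hS.norm_apply_le s β) (norm_nonneg _))
  have := eq_zero_of_gau (H := ℂ)
    (v := fun s => ⟪star y (zeta ξ h), pi τ h (τ.U s * x * τ.U (-s)) (ee H k (zeta ξ h))⟫_ℂ -
      ⟪zeta ξ h, pi τ h (τ.U s * x * τ.U (-s)) (ee H k (y (zeta ξ h)))⟫_ℂ)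
    ((hcont _ _).sub (hcont _ _)) (fun s => norm_sub_le_of_le (hbd _ _ s) (hbd _ _ s)) fun q => by
      have hi := integrable_gau one_pos (I * (q : ℝ)) 0
      have e := centr_af τ h hh hy (τ.af_sm one_pos (I * (q : ℝ)) hx) k
      simp only [mul_apply_eq_comp] at e
      rw [crossC_inner_star y, Tomita.sm, (pi_sint τ h hi hF).2, inner_sint hi hS,
        inner_sint hi hS] at e
      have hint : ∀ α β, Integrable fun s : ℝ => gau 1 (I * (q : ℝ)) (s - 0) *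
          ⟪α, pi τ h (τ.U s * x * τ.U (-s)) β⟫_ℂ := fun α β =>
        hi.mul_bdd (hcont α β).aestronglyMeasurable (.of_forall (hbd α β))
      simp only [sub_zero] at e hint
      simp only [smul_eq_mul, mul_sub]
      rw [integral_sub (hint _ _) (hint _ _), e, sub_self]
  simp only [neg_zero, τ.U_zero, one_mul, mul_one] at this
  exact sub_eq_zero.1 this

/-- `centr_af` for the families `τ.sm 1 (i w) x`, `pi_sint`, `eq_zero_of_fourier` give the
identity for `m = π x ee k`, `x ∈ M`.  These form a `*`-monoid `S` (`ee_int_pi`) with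
`vn S = hatC M`; `bicomm_vec` with `α = y* ζ`, `β = ζ`, `γ = ζ`, `δ = y ζ`. -/
theorem centr (hh : h ≠ 0) {y : Op (L2 ℤ H)} (hy : y ∈ PP τ h) {m : Op (L2 ℤ H)}
    (hm : m ∈ hat τ h M) :
    ⟪zeta ξ h, (y * m) (zeta ξ h)⟫_ℂ = ⟪zeta ξ h, (m * y) (zeta ξ h)⟫_ℂ := by
  have key := bicomm_vec (S := {T | ∃ x ∈ M, ∃ k : ℤ, T = pi τ h x * ee H k})
    (α := star y (zeta ξ h)) (β := zeta ξ h) (γ := zeta ξ h) (δ := y (zeta ξ h)) ?_ ?_ ?_ ?_ m ?_
  · simp only [mul_apply_eq_comp]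
    rw [crossC_inner_star y, key]
  · exact ⟨1, one_mem _, 0, by rw [map_one, Int.cast_zero, ee_zero, one_mul]⟩
  · rintro _ ⟨x, hx, k, rfl⟩ _ ⟨x', hx', k', rfl⟩
    refine ⟨x * (τ.U (k * h) * x' * τ.U (-(k * h))), mul_mem hx (τ.U_mem _ _ hx'), k + k', ?_⟩
    rw [map_mul, Int.cast_add, ee_add, mul_assoc, ← mul_assoc (ee H k), ee_int_pi]
    simp only [mul_assoc]
  · rintro _ ⟨x, hx, k, rfl⟩
    refine ⟨τ.U (((-k : ℤ) : ℝ) * h) * star x * τ.U (-(((-k : ℤ) : ℝ) * h)),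
      τ.U_mem _ _ (star_mem hx), -k, ?_⟩
    rw [← ee_int_pi, star_mul, star_ee, map_intCast, map_star, Int.cast_neg]
  · rintro _ ⟨x, hx, k, rfl⟩
    exact crossC_centr_gen τ h hh hy hx k
  · refine VonNeumannAlgebra.mem_commutant_iff.2 fun g hg => comm_of_mem ?_ hm
    refine (mem_hatC τ h).2 ⟨fun x hx => ?_, ?_⟩
    · exact (mem_vn.1 hg _ ⟨x, hx, 0, by rw [Int.cast_zero, ee_zero, mul_one]⟩).1
    · exact mem_vn.1 hg _ ⟨1, one_mem _, 1, by rw [map_one, Int.cast_one, ee_one, one_mul]⟩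

theorem partner (hh : h ≠ 0) {e : Op (L2 ℤ H)} (he : e ∈ PP τ h) (hu : e ∈ unitary _) :
    ∃ e' ∈ (hat τ h M).commutant, e' ∈ unitary (Op (L2 ℤ H)) ∧ e' (zeta ξ h) = e (zeta ξ h) :=
  exists_partner (cyc_zeta τ h) ((mem_PP τ h).1 he).1 hu fun _ hm => centr τ h hh he hm

/-- `near_rep` for `ρ = π` gives `Z₁` commuting with `π N₂`; average `shᵏ Z₁ sh*ᵏ` (`sh_pi`,
`exists_Mean`, `Mean.fixed`). -/
theorem near_hatC {N₁ N₂ : VonNeumannAlgebra H} {δ : ℝ} (hδ : 0 ≤ δ) (hn : Near N₂ N₁ δ)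
    (hN : ∀ y ∈ N₂, τ.U h * y * τ.U (-h) ∈ N₂ ∧ τ.U (-h) * y * τ.U h ∈ N₂) :
    Near (hatC τ h N₁) (hatC τ h N₂) (KA * δ) := by
  intro Y hY
  obtain ⟨hY1, hY2⟩ := (mem_hatC τ h).1 hY
  obtain ⟨Z, hZ1, hZ2⟩ := near_rep (pi τ h) hδ hn hY1
  have hu : sh H ∈ unitary (Op (L2 ℤ H)) := sh_unitary
  set f : ℕ → Op (L2 ℤ H) := fun k => (fun T => sh H * T * star (sh H))^[k] Z with hf
  have hs : ∀ k, sh H * f k * star (sh H) = f (k + 1) := fun k => by
    simp only [hf, Function.iterate_succ_apply']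
  have h1 : ∀ k, ‖f k - Y‖ ≤ KA * δ * ‖Y‖ := by
    intro k
    induction k with
    | zero => rw [norm_sub_rev]; exact hZ2
    | succ k ih =>
      have e : f (k + 1) - Y = sh H * (f k - Y) * star (sh H) := by
        rw [← hs, mul_sub, sub_mul, hY2.1, mul_assoc Y, hu.2, mul_one]
      rw [e, CStarRing.norm_mul_mem_unitary _ (Unitary.star_mem hu),
        CStarRing.norm_mem_unitary_mul _ hu]
      exact ih
  have h2 : ∀ k, ∀ n ∈ N₂, pi τ h n * f k = f k * pi τ h n := by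
    intro k
    induction k with
    | zero => exact hZ1
    | succ k ih =>
      intro n hn
      have e1 : sh H * pi τ h (τ.U (-h) * n * τ.U h) = pi τ h n * sh H := by
        rw [sh_pi]
        congr 2
        simp only [← mul_assoc, τ.U_mul_neg, one_mul]
        rw [mul_assoc, τ.U_mul_neg, mul_one]
      have e2 : pi τ h (τ.U (-h) * n * τ.U h) * star (sh H) = star (sh H) * pi τ h n := by
        rw [← un_l hu (pi τ h (τ.U (-h) * n * τ.U h) * star (sh H)), ← mul_assoc (sh H), e1,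
          mul_assoc (pi τ h n), hu.2, mul_one]
      rw [← hs, ← mul_assoc, ← mul_assoc, ← e1, mul_assoc (sh H), ih _ (hN n hn).2,
        mul_assoc, mul_assoc, e2]
      simp only [mul_assoc]
  have h3 : ∀ k, ‖f k‖ ≤ KA * δ * ‖Y‖ + ‖Y‖ := fun k =>
    (norm_le_norm_sub_add (f k) Y).trans (by linarith [h1 k])
  obtain ⟨X, hX⟩ := exists_Mean (hyperfilter ℕ) f _ h3
  have h4 := hX.fixed Nat.hyperfilter_le_atTop h3 hs
  have h5 : sh H * X = X * sh H := by
    conv_rhs => rw [← h4]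
    rw [mul_assoc, hu.1, mul_one]
  have h6 : star (sh H) * X = X * star (sh H) := by
    conv_lhs => rw [← h4]
    rw [mul_assoc, un_l hu]
  refine ⟨X, (mem_hatC τ h).2 ⟨fun n hn => hX.comm fun k => h2 k n hn, h5, h6⟩, ?_⟩
  rw [norm_sub_rev]
  exact hX.norm_sub_le Y h1

theorem close_hat {δ : ℝ} (hδ : 0 ≤ δ) (hc : Close M N δ)
    (hN : ∀ y ∈ N, τ.U h * y * τ.U (-h) ∈ N ∧ τ.U (-h) * y * τ.U h ∈ N) :
    Close (hat τ h M) (hat τ h N) (KA * (KA * δ)) :=
  Close.comm (mul_nonneg KA_pos.le hδ)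
    ⟨near_hatC τ h hδ hc.2 hN, near_hatC τ h hδ hc.1 (normal_self τ h)⟩

end Cross

end Crest.Agent.R78
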