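import Crest.Agent.R78.FrameLem

/-! # R78: a vector cyclic for both Cuntz families (task `FrameCyc`) -/

set_option autoImplicit false
set_option linter.unusedSectionVars false
open Filter Topology
open scoped InnerProductSpace

namespace Crest.Agent.R78

universe u
variable {H : Type u} [NormedAddCommGroup H] [InnerProductSpace ℂ H] [CompleteSpace H]

variable {𝓗 : Type u} [NormedAddCommGroup 𝓗] [InnerProductSpace ℂ 𝓗] [CompleteSpace 𝓗]

namespace FrameCyc
variable {o : ℕ} (F : Frame H 𝓗 ℕ o)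

/-- the coefficients -/
noncomputable def c (n : ℕ) : ℝ := (1 / 2) ^ (n ^ 2)

theorem c_pos (n : ℕ) : 0 < c n := by unfold c; positivity

/-- one half of the vector -/
noncomputable def half (ζ : ℕ → 𝓗) : 𝓗 := ∑' n, (c n : ℂ) • F.v n (ζ n)

theorem norm_term {ζ : ℕ → 𝓗} (hζ : ∀ n, ‖ζ n‖ ≤ 1) (n : ℕ) :
    ‖(c n : ℂ) • F.v n (ζ n)‖ ≤ c n := by
  rw [norm_smul, Complex.norm_real, Real.norm_eq_abs, abs_of_pos (c_pos n)]
  refine mul_le_of_le_one_right (c_pos n).le ?_
  exact ((F.v n).le_of_opNorm_le (F.norm_v_le n) _).trans (by rw [one_mul]; exact hζ n)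

theorem summable_term {ζ : ℕ → 𝓗} (hζ : ∀ n, ‖ζ n‖ ≤ 1) :
    Summable fun n => (c n : ℂ) • F.v n (ζ n) := by
  refine Summable.of_norm_bounded summable_geometric_two fun n => (norm_term F hζ n).trans ?_
  exact pow_le_pow_of_le_one (by norm_num) (by norm_num) (Nat.le_self_pow two_ne_zero n)

theorem star_half {ζ : ℕ → 𝓗} (hζ : ∀ n, ‖ζ n‖ ≤ 1) (n : ℕ) :
    star (F.v n) (half F ζ) = (c n : ℂ) • ζ n := by
  rw [half, ContinuousLinearMap.map_tsum _ (summable_term F hζ), tsum_eq_single n]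
  · rw [map_smul, ← mul_apply_eq_comp, F.v_iso]; rfl
  · intro m hm
    rw [map_smul, ← mul_apply_eq_comp, F.v_orth n m hm.symm]; simp

theorem star_half' {ζ' : ℕ → 𝓗} (hζ : ∀ n, ‖ζ' n‖ ≤ 1)
    (h0 : ∀ n m, m ≤ n → star (F.v n) (ζ' m) = 0) (n : ℕ) :
    ‖star (F.v n) (half F.flip ζ')‖ ≤ c n * (1 / 2) ^ n * 2 := by
  rw [half, ContinuousLinearMap.map_tsum _ (summable_term F.flip hζ)]
  refine tsum_of_norm_bounded (hasSum_geometric_two.mul_left (c n * (1 / 2) ^ n)) fun m => ?_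
  rcases le_or_gt m n with hm | hm
  · rw [map_smul, ← mul_apply_eq_comp, Frame.flip_v, (F.v_v' n m).2, mul_apply_eq_comp, h0 n m hm]
    have := c_pos n
    simp only [map_zero, smul_zero, norm_zero]
    positivity
  · have h1 : ‖star (F.v n)‖ ≤ 1 := by rw [norm_star]; exact F.norm_v_le n
    refine ((star (F.v n)).le_of_opNorm_le h1 _).trans ?_
    rw [one_mul]
    refine (norm_term F.flip hζ m).trans ?_
    unfold c
    rw [← pow_add, ← pow_add]
    exact pow_le_pow_of_le_one (by norm_num) (by norm_num) (by nlinarith)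

/-- partial sums of the resolution of the identity -/
noncomputable def E (n : ℕ) (η : 𝓗) : 𝓗 := ∑ j ∈ Finset.range n, F.v j (star (F.v j) η)

theorem star_E {n m : ℕ} (h : m ≤ n) (η : 𝓗) : star (F.v n) (E F m η) = 0 := by
  rw [E, map_sum]
  refine Finset.sum_eq_zero fun j hj => ?_
  have := Finset.mem_range.1 hj
  rw [← mul_apply_eq_comp, F.v_orth n j (by omega)]; simp

/-- normalisation -/
noncomputable def nz (η : 𝓗) : 𝓗 := ((1 + ‖η‖ : ℝ) : ℂ)⁻¹ • η

theorem norm_nz (η : 𝓗) : ‖nz η‖ ≤ 1 := by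
  rw [nz, norm_smul, norm_inv, Complex.norm_real, Real.norm_eq_abs, abs_of_pos (by positivity),
    inv_mul_le_iff₀ (by positivity)]
  linarith

theorem ne_nz (η : 𝓗) : ((1 + ‖η‖ : ℝ) : ℂ) ≠ 0 := by
  rw [Complex.ofReal_ne_zero]; positivity

theorem continuous_nz : Continuous (nz : 𝓗 → 𝓗) := by
  unfold nz
  exact (Continuous.inv₀ (by fun_prop) ne_nz).smul continuous_id

/-- the sequence of vectors -/
noncomputable def z (d : ℕ → 𝓗) (n : ℕ) : 𝓗 := nz (E F n (d n.unpair.1))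

theorem cyc {d : ℕ → 𝓗} (hd : DenseRange d) (P : VonNeumannAlgebra 𝓗) (hP : ∀ j, F.v j ∈ P) :
    Cyc P (half F (z F.flip d) + half F.flip (z F d)) := by
  refine Dense.of_closure (hd.mono ?_)
  rintro _ ⟨k, rfl⟩
  have hp : Tendsto (fun i => Nat.pair k i) atTop atTop :=
    tendsto_atTop_mono (fun i => Nat.right_le_pair k i) tendsto_id
  have h1 : Tendsto (fun i => z F.flip d (Nat.pair k i)) atTop (𝓝 (nz (d k))) := by
    simp only [z, Nat.unpair_pair]
    exact (continuous_nz.tendsto _).comp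
      ((F.flip.hasSum_v (d k)).tendsto_sum_nat.comp hp)
  have h2 : Tendsto (fun n => ((c n : ℂ)⁻¹ • star (F.v n))
      (half F (z F.flip d) + half F.flip (z F d)) - z F.flip d n) atTop (𝓝 0) := by
    refine squeeze_zero_norm (a := fun n => (1 / 2 : ℝ) ^ n * 2) (fun n => ?_) ?_
    · have hc : (c n : ℂ) ≠ 0 := Complex.ofReal_ne_zero.2 (c_pos n).ne'
      rw [smul_apply, map_add, star_half F (ζ := z F.flip d) fun n => norm_nz _, smul_add, inv_smul_smul₀ hc,
        add_sub_cancel_left, norm_smul, norm_inv, Complex.norm_real, Real.norm_eq_abs,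
        abs_of_pos (c_pos n), inv_mul_le_iff₀ (c_pos n), ← mul_assoc]
      refine star_half' F (ζ' := z F d) (fun n => norm_nz _) (fun n m h => ?_) n
      rw [z, nz, map_smul, star_E F h, smul_zero]
    · simpa using (tendsto_pow_atTop_nhds_zero_of_lt_one (r := (1 / 2 : ℝ)) (by norm_num)
        (by norm_num)).mul_const 2
  have h3 := ((h2.comp hp).add h1).const_smul ((1 + ‖d k‖ : ℝ) : ℂ)
  rw [zero_add, nz, smul_inv_smul₀ (ne_nz _)] at h3
  refine mem_closure_of_tendsto h3 (Eventually.of_forall fun i => ⟨((1 + ‖d k‖ : ℝ) : ℂ) •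
    ((c (Nat.pair k i) : ℂ)⁻¹ • star (F.v (Nat.pair k i))),
    vn_smul_mem _ (vn_smul_mem _ (star_mem (hP _))), ?_⟩)
  simp only [Function.comp, sub_add_cancel, smul_apply]

end FrameCyc

/-- Let `E n = ∑_{j < n} v j (v j)*`, `E' n` likewise (they tend to `1` strongly, `hasSum_v`), and
let `θ : ℕ → 𝓗` have values in the unit ball and be such that every point of the unit ball is a
cluster point of `θ` (a dense sequence of the ball composed with `Nat.unpair`).  Put
`ζ n = E' n (θ n)`, `ζ' m = E m (θ m)`, so `(v' m)* ζ n = 0` for `n ≤ m` and `(v n)* ζ' m = 0` for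
`m ≤ n`; `c n = 4^(-n²)`, and `ξ = ∑ c n • v n (ζ n) + ∑ c m • v' m (ζ' m)`.  Then
`(v n)* ξ = c n • ζ n + ∑_{m > n} c m • v' m (v n)* ζ' m`, the tail has norm `≤ 2 c (n+1)`, and
`c (n+1) / c n → 0`.  Hence every point of the unit ball is a cluster point of
`(c n)⁻¹ • (v n)* ξ`; the same for `v'`. -/
theorem Frame.exists_bicyc [TopologicalSpace.SeparableSpace 𝓗] {o : ℕ} (F : Frame H 𝓗 ℕ o) :
    ∃ ξ : 𝓗, (∀ P : VonNeumannAlgebra 𝓗, (∀ j, F.v j ∈ P) → Cyc P ξ) ∧
      ∀ P : VonNeumannAlgebra 𝓗, (∀ j, F.v' j ∈ P) → Cyc P ξ := by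
  have hd := TopologicalSpace.denseRange_denseSeq 𝓗
  refine ⟨_, FrameCyc.cyc F hd, fun P hP => ?_⟩
  rw [add_comm]
  exact FrameCyc.cyc F.flip hd P hP

end Crest.Agent.R78
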