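import Crest.Agent.R78.FrameDef
import Crest.Agent.R78.Amp

/-! # R78: existence of frames (task `FrameEx`) -/

set_option autoImplicit false
set_option linter.unusedSectionVars false
open Filter Topology
open scoped InnerProductSpace

namespace Crest.Agent.R78

universe u
variable {H : Type u} [NormedAddCommGroup H] [InnerProductSpace ℂ H] [CompleteSpace H]

/-- Words over `A` that are eventually equal to `o`. -/
def Wd (A : Type) (o : A) : Type := {w : ℕ → A // ∃ n, ∀ m, n ≤ m → w m = o}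

/-- Choose `n` and restrict to `Fin n → A` (or map lists onto words). -/
theorem countable_Wd (A : Type) (o : A) [Countable A] : Countable (Wd A o) := by
  let f : (Σ n : ℕ, Fin n → A) → Wd A o := fun q =>
    ⟨fun m => if h : m < q.1 then q.2 ⟨m, h⟩ else o, q.1, fun m hm => dif_neg (not_lt.2 hm)⟩
  refine Function.Surjective.countable (f := f) ?_
  rintro ⟨w, n, hn⟩
  refine ⟨⟨n, fun i => w i⟩, Subtype.ext (funext fun m => ?_)⟩
  by_cases h : m < n
  · exact dif_pos h
  · exact (dif_neg h).trans (hn m (not_lt.1 h)).symm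

namespace FrameEx
open L2

variable {𝒥 A : Type}

theorem emb_mul {φ ψ : 𝒥 → 𝒥} (hφ : Function.Injective φ) (hψ : Function.Injective ψ) :
    emb H φ * emb H ψ = emb H (φ ∘ ψ) :=
  ext_ins fun i η => by
    rw [ContinuousLinearMap.mul_apply, emb_ins hψ, emb_ins hφ, emb_ins (hφ.comp hψ)]
    rfl

theorem emb_pow {φ : 𝒥 → 𝒥} (hφ : Function.Injective φ) (n : ℕ) : emb H φ ^ n = emb H φ^[n] := by
  induction n with
  | zero => exact ext_ins fun i η => by rw [emb_ins (hφ.iterate 0)]; rfl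
  | succ n ih => rw [pow_succ, ih, emb_mul (hφ.iterate n) hφ, Function.iterate_succ]

theorem star_emb_equiv (τ : 𝒥 ≃ 𝒥) : star (emb H τ) = emb H τ.symm :=
  ext_ins fun i η => by
    rw [emb_ins τ.symm.injective]
    conv_lhs => rw [← τ.apply_symm_apply i]
    exact star_emb_ins τ.injective _ η

open Classical in
/-- The projection on a set of coordinates. -/
noncomputable def pr (H : Type u) [NormedAddCommGroup H] [InnerProductSpace ℂ H] [CompleteSpace H]
    (Z : 𝒥 → Prop) : Op (L2 𝒥 H) := diag fun i => if Z i then (1 : Op H) else 0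

open Classical in
theorem pr_bd (Z : 𝒥 → Prop) (i : 𝒥) : ‖if Z i then (1 : Op H) else 0‖ ≤ 1 := by
  split_ifs
  · exact ContinuousLinearMap.norm_id_le
  · simp

theorem pr_pos {Z : 𝒥 → Prop} {i : 𝒥} (h : Z i) (η : H) : pr H Z (ins i η) = ins i η := by
  rw [pr, diag_ins (pr_bd Z), if_pos h]
  rfl

theorem pr_neg {Z : 𝒥 → Prop} {i : 𝒥} (h : ¬Z i) (η : H) : pr H Z (ins i η) = 0 := by
  rw [pr, diag_ins (pr_bd Z), if_neg h]
  simp

theorem pr_mul (Z Z' : 𝒥 → Prop) : pr H Z * pr H Z' = pr H fun i => Z i ∧ Z' i :=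
  ext_ins fun i η => by
    rw [ContinuousLinearMap.mul_apply]
    by_cases h' : Z' i
    · rw [pr_pos h']
      by_cases h : Z i
      · rw [pr_pos h, pr_pos (Z := fun i => Z i ∧ Z' i) ⟨h, h'⟩]
      · rw [pr_neg h, pr_neg (Z := fun i => Z i ∧ Z' i) fun h2 => h h2.1]
    · rw [pr_neg h', map_zero, pr_neg (Z := fun i => Z i ∧ Z' i) fun h2 => h' h2.2]

theorem pr_proj (Z : 𝒥 → Prop) : IsStarProjection (pr H Z) := by
  refine ⟨?_, ?_⟩
  · rw [IsIdempotentElem, pr_mul]
    simp only [and_self]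
  · rw [IsSelfAdjoint, pr, star_diag (pr_bd Z)]
    congr 1
    funext i
    split_ifs <;> simp

theorem pr_true : pr H (fun _ : 𝒥 => True) = 1 :=
  ext_ins fun _ η => pr_pos (Z := fun _ : 𝒥 => True) trivial η

theorem tendsto_pr {Z : ℕ → 𝒥 → Prop} {Z' : 𝒥 → Prop} (h : ∀ i, ∀ᶠ n in atTop, Z n i ↔ Z' i)
    (η : L2 𝒥 H) : Tendsto (fun n => pr H (Z n) η) atTop (𝓝 (pr H Z' η)) := by
  refine tendsto_diag (fun n => pr_bd (Z n)) (pr_bd Z') (fun i ζ => ?_) η
  refine tendsto_const_nhds.congr' ((h i).mono fun n hn => ?_)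
  beta_reduce
  by_cases h1 : Z' i
  · rw [if_pos h1, if_pos (hn.2 h1)]
  · rw [if_neg h1, if_neg (mt hn.1 h1)]

theorem emb_mul_star {φ : 𝒥 → 𝒥} (hφ : Function.Injective φ) :
    emb H φ * star (emb H φ) = pr H fun i => i ∈ Set.range φ :=
  ext_ins fun i η => by
    rw [ContinuousLinearMap.mul_apply]
    by_cases h : i ∈ Set.range φ
    · rw [pr_pos (Z := fun i => i ∈ Set.range φ) h]
      obtain ⟨j, rfl⟩ := h
      rw [star_emb_ins hφ, emb_ins hφ]
    · rw [pr_neg (Z := fun i => i ∈ Set.range φ) h, star_emb_ins_of_notMem hφ h, map_zero]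

theorem star_mul_pr {φ : 𝒥 → 𝒥} (hφ : Function.Injective φ) (Z : 𝒥 → Prop) :
    star (emb H φ) * pr H Z * emb H φ = pr H fun i => Z (φ i) :=
  ext_ins fun i η => by
    rw [ContinuousLinearMap.mul_apply, ContinuousLinearMap.mul_apply, emb_ins hφ]
    by_cases h : Z (φ i)
    · rw [pr_pos h, pr_pos (Z := fun i => Z (φ i)) h, star_emb_ins hφ]
    · rw [pr_neg h, pr_neg (Z := fun i => Z (φ i)) h, map_zero]

theorem pr_lim {φ : 𝒥 → 𝒥} (hφ : Function.Injective φ) {Z : 𝒥 → Prop}
    (h : ∀ x, ∀ᶠ n in atTop, Z (φ^[n] x)) (η : L2 𝒥 H) :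
    Tendsto (fun n : ℕ => (star (emb H φ) ^ n * pr H Z * emb H φ ^ n) η) atTop (𝓝 η) := by
  have h1 := tendsto_pr (H := H) (Z := fun n i => Z (φ^[n] i)) (Z' := fun _ => True)
    (fun i => (h i).mono fun n hn => iff_true_intro hn) η
  rw [pr_true] at h1
  refine h1.congr fun n => ?_
  rw [← star_pow, emb_pow hφ, star_mul_pr (hφ.iterate n)]

theorem pr_comm {φ : 𝒥 → 𝒥} (hφ : Function.Injective φ) {Z : 𝒥 → Prop} (hfix : ∀ x, Z x → φ x = x)
    (hinf : ∀ x, (∀ n, x ∈ Set.range φ^[n]) → Z x) {X : Op (L2 𝒥 H)} (hX : C2 (emb H φ) X) :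
    X * pr H Z = pr H Z * X := by
  have h0 : ∀ i, ∀ᶠ n in atTop, i ∈ Set.range φ^[n] ↔ Z i := by
    intro i
    by_cases hi : Z i
    · exact Eventually.of_forall fun n =>
        iff_of_true ⟨i, Function.IsFixedPt.iterate (hfix i hi) n⟩ hi
    · obtain ⟨m, hm⟩ := not_forall.1 (mt (hinf i) hi)
      refine (eventually_ge_atTop m).mono fun n hn => iff_of_false ?_ hi
      rintro ⟨j, rfl⟩
      obtain ⟨k, rfl⟩ := Nat.exists_eq_add_of_le hn
      exact hm ⟨φ^[k] j, (Function.iterate_add_apply φ m k j).symm⟩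
  have h1 : ∀ n, X * pr H (fun i => i ∈ Set.range φ^[n]) = pr H (fun i => i ∈ Set.range φ^[n]) * X := by
    intro n
    rw [← emb_mul_star (hφ.iterate n), ← emb_pow hφ, star_pow]
    exact ((Commute.pow_left hX.1 n).mul_left (Commute.pow_left hX.2 n)).symm.eq
  refine ContinuousLinearMap.ext fun η => ?_
  have h2 := (X.continuous.tendsto _).comp (tendsto_pr (H := H) h0 η)
  refine tendsto_nhds_unique h2 ((tendsto_pr (H := H) h0 (X η)).congr fun n => ?_)
  exact (congrArg (fun Y : Op (L2 𝒥 H) => Y η) (h1 n)).symm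

variable (e e' : A × 𝒥 ≃ 𝒥)

theorem inj (j : A) : Function.Injective fun i => e (j, i) :=
  fun _ _ h => (Prod.ext_iff.1 (e.injective h)).2

/-- The Cuntz family of `e`. -/
noncomputable def V (H : Type u) [NormedAddCommGroup H] [InnerProductSpace ℂ H] [CompleteSpace H]
    (j : A) : Op (L2 𝒥 H) := emb H fun i => e (j, i)

theorem V_ins (j : A) (i : 𝒥) (η : H) : V e H j (ins i η) = ins (e (j, i)) η := emb_ins (inj e j) i η

theorem sV_ins (j : A) (i : 𝒥) (η : H) : star (V e H j) (ins (e (j, i)) η) = ins i η :=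
  star_emb_ins (inj e j) i η

theorem sV_ins_ne {j k : A} (h : j ≠ k) (i : 𝒥) (η : H) : star (V e H j) (ins (e (k, i)) η) = 0 :=
  star_emb_ins_of_notMem (inj e j) (by
    rintro ⟨i', h'⟩
    exact h (Prod.ext_iff.1 (e.injective h')).1) η

theorem V_iso (j : A) : star (V e H j) * V e H j = 1 :=
  ext_ins fun i η => by rw [ContinuousLinearMap.mul_apply, V_ins, sV_ins]; rfl

theorem V_orth (i j : A) (h : i ≠ j) : star (V e H i) * V e H j = 0 :=
  ext_ins fun x η => by rw [ContinuousLinearMap.mul_apply, V_ins, sV_ins_ne e h]; rfl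

theorem V_par (η : L2 𝒥 H) : HasSum (fun j => ‖star (V e H j) η‖ ^ 2) (‖η‖ ^ 2) := by
  refine HasSum.prod_fiberwise (e.hasSum_iff.2 (par η)) fun j => ?_
  have h := par (star (V e H j) η)
  simp only [V, ev_star_emb (inj e j)] at h
  exact h

theorem V_V' (hc : ∀ i j x, e (i, e' (j, x)) = e' (j, e (i, x))) (i j : A) :
    C2 (V e H i) (V e' H j) := by
  refine ⟨ext_ins fun x η => ?_, ext_ins fun x η => ?_⟩
  · simp only [ContinuousLinearMap.mul_apply, V_ins, hc]
  · obtain ⟨⟨k, y⟩, rfl⟩ := e.surjective x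
    rw [ContinuousLinearMap.mul_apply, ContinuousLinearMap.mul_apply, V_ins, ← hc]
    by_cases h : i = k
    · subst h
      rw [sV_ins, sV_ins, V_ins]
    · rw [sV_ins_ne e h, sV_ins_ne e h, map_zero]

theorem V_pr {o : A} {Z : 𝒥 → Prop} (hfix : ∀ x, Z x → e (o, x) = x) : V e H o * pr H Z = pr H Z :=
  ext_ins fun i η => by
    rw [ContinuousLinearMap.mul_apply]
    by_cases h : Z i
    · rw [pr_pos h, V_ins, hfix i h]
    · rw [pr_neg h, map_zero]

theorem frame_of (H : Type u) [NormedAddCommGroup H] [InnerProductSpace ℂ H] [CompleteSpace H]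
    (o : A) (Z Z' : 𝒥 → Prop) (i0 : 𝒥) (hc : ∀ i j x, e (i, e' (j, x)) = e' (j, e (i, x)))
    (hZ : ∀ x, Z x ∧ Z' x ↔ x = i0)
    (hfix : ∀ x, Z x → e (o, x) = x) (hfix' : ∀ x, Z' x → e' (o, x) = x)
    (hinf : ∀ x, (∀ n, x ∈ Set.range (fun y => e (o, y))^[n]) → Z x)
    (hinf' : ∀ x, (∀ n, x ∈ Set.range (fun y => e' (o, y))^[n]) → Z' x)
    (hlim : ∀ x, ∀ᶠ n in atTop, Z ((e.symm.trans e')^[n] x))
    (hlim' : ∀ x, ∀ᶠ n in atTop, Z' ((e.symm.trans e').symm^[n] x)) :
    Nonempty (Frame H (L2 𝒥 H) A o) :=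
  ⟨{ ι := ins i0
     lift := lift 𝒥
     v := V e H
     v' := V e' H
     T := emb H (e.symm.trans e')
     p := pr H Z
     p' := pr H Z'
     𝒥 := 𝒥
     ev := ev
     adj_ι := fun η => by rw [adjoint_ins, ev_ins]
     ι_adj := fun η => by
       have h : (ins i0 ∘L ev i0 : Op (L2 𝒥 H)) = pr H Z * pr H Z' := by
         rw [pr_mul]
         refine ext_ins fun i ζ => ?_
         rw [ContinuousLinearMap.comp_apply]
         by_cases hi : i = i0
         · rw [pr_pos (Z := fun i => Z i ∧ Z' i) ((hZ i).2 hi), hi, ev_ins]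
         · rw [pr_neg (Z := fun i => Z i ∧ Z' i) (mt (hZ i).1 hi), ev_ins_ne (Ne.symm hi), map_zero]
       rw [adjoint_ins]
       exact congrArg (fun Y : Op (L2 𝒥 H) => Y η) h
     lift_ι := fun x η => lift_ins x i0 η
     v_iso := V_iso e
     v_orth := V_orth e
     v_par := V_par e
     v'_iso := V_iso e'
     v'_orth := V_orth e'
     v'_par := V_par e'
     v_v' := V_V' e e' hc
     lift_v := fun x j => lift_emb (inj e j) x
     lift_v' := fun x j => lift_emb (inj e' j) x
     T_unitary := emb_unitary (e.symm.trans e').bijective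
     T_v := fun j => ext_ins fun i η => by
       rw [ContinuousLinearMap.mul_apply, V_ins, V_ins, emb_ins (e.symm.trans e').injective,
         Equiv.trans_apply, Equiv.symm_apply_apply]
     p_proj := pr_proj Z
     p'_proj := pr_proj Z'
     p_p' := by simp only [pr_mul, and_comm]
     v_p := V_pr e hfix
     v'_p' := V_pr e' hfix'
     p_comm := fun X hX => pr_comm (inj e o) hfix hinf (hX o)
     p'_comm := fun X hX => pr_comm (inj e' o) hfix' hinf' (hX o)
     p_lim := pr_lim (e.symm.trans e').injective hlim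
     p'_lim := fun η => by
       have h := pr_lim (e.symm.trans e').symm.injective hlim' η
       rwa [← star_emb_equiv, star_star] at h
     ev_par := par
     ev_lift := fun i x η => ev_lift x i η }⟩

variable (o : A)

/-- Prepend a letter. -/
def cons : A × Wd A o ≃ Wd A o where
  toFun q := ⟨fun m => Nat.casesOn m q.1 q.2.1, by
    obtain ⟨n, hn⟩ := q.2.2
    refine ⟨n + 1, fun m hm => ?_⟩
    cases m with
    | zero => omega
    | succ m => exact hn m (by omega)⟩
  invFun w := (w.1 0, ⟨fun m => w.1 (m + 1), by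
    obtain ⟨n, hn⟩ := w.2
    exact ⟨n, fun m hm => hn _ (by omega)⟩⟩)
  left_inv _ := rfl
  right_inv w := Subtype.ext (funext fun m => by cases m <;> rfl)

/-- The trivial word. -/
def vac : Wd A o := ⟨fun _ => o, 0, fun _ _ => rfl⟩

theorem cons_vac : cons o (o, vac o) = vac o := Subtype.ext (funext fun m => by cases m <;> rfl)

/-- Prepend to the first word. -/
def e1 : A × (Wd A o × Wd A o) ≃ Wd A o × Wd A o :=
  (Equiv.prodAssoc _ _ _).symm.trans ((cons o).prodCongr (Equiv.refl _))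

/-- Prepend to the second word. -/
def e2 : A × (Wd A o × Wd A o) ≃ Wd A o × Wd A o :=
  (((Equiv.refl A).prodCongr (Equiv.prodComm _ _)).trans (e1 o)).trans (Equiv.prodComm _ _)

theorem inf_vac {𝒥 : Type} {φ : 𝒥 → 𝒥} {π : 𝒥 → Wd A o} (h : ∀ y, π (φ y) = cons o (o, π y)) (x : 𝒥)
    (hx : ∀ n, x ∈ Set.range φ^[n]) : π x = vac o := by
  have key : ∀ n y m, m < n → (π (φ^[n] y)).1 m = o := by
    intro n y
    induction n with
    | zero => exact fun m hm => absurd hm (Nat.not_lt_zero m)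
    | succ n ih =>
      intro m hm
      rw [Function.iterate_succ_apply', h]
      cases m with
      | zero => rfl
      | succ m => exact ih m (by omega)
  refine Subtype.ext (funext fun m => ?_)
  obtain ⟨y, rfl⟩ := hx (m + 1)
  exact key _ y m (Nat.lt_succ_self m)

theorem lim_vac {𝒥 : Type} {φ : 𝒥 → 𝒥} {π : 𝒥 → Wd A o} (h : ∀ y m, (π (φ y)).1 m = (π y).1 (m + 1))
    (x : 𝒥) : ∀ᶠ n in atTop, π (φ^[n] x) = vac o := by
  have key : ∀ n m, (π (φ^[n] x)).1 m = (π x).1 (m + n) := by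
    intro n
    induction n with
    | zero => exact fun m => rfl
    | succ n ih =>
      intro m
      rw [Function.iterate_succ_apply', h, ih, add_assoc, add_comm 1]
  obtain ⟨N, hN⟩ := (π x).2
  refine (eventually_ge_atTop N).mono fun n hn => Subtype.ext (funext fun m => ?_)
  rw [key]
  exact hN _ (by omega)

end FrameEx

/-- `cons j w` prepends the letter `j`; `(j, w) ↦ cons j w` is a bijection `A × Wd → Wd` with
`cons o vac = vac` for the constant word `vac`.  `v j = emb (w, u) ↦ (cons j w, u)`,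
`v' j = emb (w, u) ↦ (w, cons j u)`, `T = emb (w, u) ↦ (tail w, cons (head w) u)`,
`p = diag (if w = vac then 1 else 0)`, `ι = ins (vac, vac)`, `ev = L2.ev`.
`p_comm`: `v oⁿ (v o)*ⁿ → p` strongly (check on `ins`, the operators are contractions).
`p_lim`: `T*ⁿ p Tⁿ (ins (w, u) η) = ins (w, u) η` as soon as `tailⁿ w = vac`; then density
(`hasSum_ins`) and the uniform bound `1`.  The statements for `v'`, `p'` are symmetric
(`T* = emb (w, u) ↦ (cons (head u) w, tail u)`). -/
theorem exists_frame (H : Type u) [NormedAddCommGroup H] [InnerProductSpace ℂ H] [CompleteSpace H]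
    (A : Type) (o : A) : Nonempty (Frame H (L2 (Wd A o × Wd A o) H) A o) := by
  refine FrameEx.frame_of (FrameEx.e1 o) (FrameEx.e2 o) H o (fun x => x.1 = FrameEx.vac o)
    (fun x => x.2 = FrameEx.vac o) (FrameEx.vac o, FrameEx.vac o) (fun _ _ _ => rfl)
    (fun x => (Prod.ext_iff (x := x) (y := (FrameEx.vac o, FrameEx.vac o))).symm) ?_ ?_
    (FrameEx.inf_vac o (π := Prod.fst) fun _ => rfl) (FrameEx.inf_vac o (π := Prod.snd) fun _ => rfl)
    (FrameEx.lim_vac o (π := Prod.fst) fun _ _ => rfl) (FrameEx.lim_vac o (π := Prod.snd) fun _ _ => rfl)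
  · rintro ⟨w, u⟩ h
    obtain rfl : w = FrameEx.vac o := h
    exact Prod.ext (FrameEx.cons_vac o) rfl
  · rintro ⟨w, u⟩ h
    obtain rfl : u = FrameEx.vac o := h
    exact Prod.ext rfl (FrameEx.cons_vac o)

theorem separable_frame [TopologicalSpace.SeparableSpace H] (A : Type) (o : A) [Countable A] :
    TopologicalSpace.SeparableSpace (L2 (Wd A o × Wd A o) H) := by
  have := countable_Wd A o
  exact L2.separable

end Crest.Agent.R78
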