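import Crest.Agent.R78.FrameLem
import Crest.Agent.R78.Hyper

/-! # R78: near inclusions of amplified algebras (task `FrameNear`) -/

set_option autoImplicit false
set_option linter.unusedSectionVars false
open Filter Topology
open scoped InnerProductSpace

namespace Crest.Agent.R78

universe u
variable {H : Type u} [NormedAddCommGroup H] [InnerProductSpace ℂ H] [CompleteSpace H]

namespace Frame
variable {𝓗 : Type u} [NormedAddCommGroup 𝓗] [InnerProductSpace ℂ 𝓗] [CompleteSpace 𝓗]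
  {A : Type} {o : A} (F : Frame H 𝓗 A o) {M N : VonNeumannAlgebra H}

/-- Let `Y ∈ Mt M`.  `near_rep` gives `Z₀` commuting with `lift N'`.  Define `f 0 = Z₀`,
`f (k+1) v' j = v' j f k` (`exists_rho` for the flip).  Then `‖f k - Y‖ ≤ ‖Z₀ - Y‖` (`rowNorm` for
the flip, `Y v' j = v' j Y`), `f k` commutes with `lift N'` (`row_ext`).  A mean `Z` of `f` along an
ultrafilter finer than `atTop` (`hyperfilter ℕ`) satisfies `Z v' j = v' j Z` (`Mean.shift`) and
then `(v' j)* Z = Z (v' j)*` by `star_v_mul`. -/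
theorem near_Mt {δ : ℝ} (hδ : 0 ≤ δ) (h : Near N.commutant M.commutant δ) :
    Near (F.Mt M) (F.Mt N) (KA * δ) := by
  intro Y hY
  obtain ⟨hY1, hY2⟩ := F.mem_Mt.1 hY
  obtain ⟨Z₀, hZ1, hZ2⟩ := near_rep F.lift hδ h hY1
  choose ρ hρ using F.flip.exists_rho
  simp only [flip_v] at hρ
  let f : ℕ → Op 𝓗 := fun k => ρ^[k] Z₀
  have hf : ∀ k j, f (k + 1) * F.v' j = F.v' j * f k := fun k j => by
    simp only [f, Function.iterate_succ_apply']
    exact hρ _ j
  have h1 : ∀ k, ‖f k - Y‖ ≤ KA * δ * ‖Y‖ := fun k => by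
    induction k with
    | zero => rw [norm_sub_rev]; exact hZ2
    | succ k ih =>
      refine le_trans (F.flip.rowNorm fun j => ?_) ih
      rw [flip_v, sub_mul, mul_sub, hf, (hY2 j).1]
  have h2 : ∀ n ∈ N.commutant, ∀ k, F.lift n * f k = f k * F.lift n := fun n hn k => by
    induction k with
    | zero => exact hZ1 n hn
    | succ k ih =>
      refine F.flip.row_ext fun j => ?_
      rw [flip_v, mul_assoc, hf, ← mul_assoc, F.lift_v', mul_assoc, ih, mul_assoc, F.lift_v',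
        ← mul_assoc (f (k + 1)), hf, mul_assoc]
  have h3 : ∀ k, ‖f k‖ ≤ KA * δ * ‖Y‖ + ‖Y‖ := fun k => by
    have := norm_add_le (f k - Y) Y
    rw [sub_add_cancel] at this
    linarith [h1 k]
  obtain ⟨Z, hZ⟩ := exists_Mean (hyperfilter ℕ) f _ h3
  have hle : (hyperfilter ℕ : Filter ℕ) ≤ atTop := by
    rw [← Nat.cofinite_eq_atTop]; exact hyperfilter_le_cofinite
  have h4 : ∀ j, Z * F.v' j = F.v' j * Z := fun j => by
    have a1 := (hZ.shift hle h3 1).mul_right (F.v' j)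
    simp only [hf] at a1
    exact a1.unique (hZ.mul_left (F.v' j))
  refine ⟨Z, F.mem_Mt.2 ⟨fun n hn => hZ.comm (h2 n hn), fun j =>
    ⟨(h4 j).symm, F.flip.star_v_mul h4 j⟩⟩, ?_⟩
  rw [norm_sub_rev]
  exact hZ.norm_sub_le Y h1

theorem near_Mt' {δ : ℝ} (hδ : 0 ≤ δ) (h : Near N M δ) :
    Near (F.Mt M).commutant (F.Mt N).commutant (KA * δ) := by
  rw [← F.flip_Mt, ← F.flip_Mt]
  exact F.flip.near_Mt hδ (by simpa only [VonNeumannAlgebra.commutant_commutant] using h)

theorem close_Mt {δ : ℝ} (hδ : 0 ≤ δ) (h : Close M N δ) :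
    Close (F.Mt M) (F.Mt N) (KA ^ 2 * δ) := by
  have h0 : 0 ≤ KA * δ := mul_nonneg KA_pos.le hδ
  have e : KA ^ 2 * δ = KA * (KA * δ) := by ring
  rw [e]
  exact ⟨F.near_Mt h0 (h.comm hδ).2, F.near_Mt h0 (h.comm hδ).1⟩

end Frame

end Crest.Agent.R78
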