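import Crest.Agent.R78.RT

/-! # R78: from a linear lift to a unitary (task `Impl`) -/

set_option autoImplicit false
set_option linter.unusedSectionVars false
open Filter Topology
open scoped InnerProductSpace

namespace Crest.Agent.R78

universe u
variable {H : Type u} [NormedAddCommGroup H] [InnerProductSpace ℂ H] [CompleteSpace H]

open Crest.Agent.R121

variable {M N : VonNeumannAlgebra H}

theorem impl_sym {η : ℝ} (hl : HasLift M N η) : ∃ Ψ : Al N →ₗ[ℂ] Al M,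
    (∀ y, Ψ (star y) = star (Ψ y)) ∧ ∀ y, ‖(Ψ y : Op H) - (y : Op H)‖ ≤ η * ‖y‖ := by
  obtain ⟨Θ, hΘ⟩ := hl
  refine ⟨{ toFun := fun y => ⟨(1 / 2 : ℂ) • (Θ y + star (Θ (star (y : Op H)))),
              vn_smul_mem _ (add_mem (hΘ _ y.2).1 (star_mem (hΘ _ (star_mem y.2)).1))⟩
            map_add' := fun x y => Subtype.ext ?_
            map_smul' := fun c x => Subtype.ext ?_ }, fun y => Subtype.ext ?_, fun y => ?_⟩
  · change (1 / 2 : ℂ) • (Θ (x + y) + star (Θ (star ((x : Op H) + y)))) =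
      (1 / 2 : ℂ) • (Θ x + star (Θ (star (x : Op H)))) +
        (1 / 2 : ℂ) • (Θ y + star (Θ (star (y : Op H))))
    rw [star_add, map_add, map_add, star_add, ← smul_add]
    congr 1
    abel
  · change (1 / 2 : ℂ) • (Θ (c • (x : Op H)) + star (Θ (star (c • (x : Op H))))) =
      c • (1 / 2 : ℂ) • (Θ x + star (Θ (star (x : Op H))))
    rw [star_smul, map_smul, map_smul, star_smul, star_star, ← smul_add, smul_comm]
  · change (1 / 2 : ℂ) • (Θ (star (y : Op H)) + star (Θ (star (star (y : Op H))))) =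
      star ((1 / 2 : ℂ) • (Θ y + star (Θ (star (y : Op H)))))
    rw [star_smul, star_add, star_star, star_star, add_comm]
    congr 1
    simp
  · change ‖(1 / 2 : ℂ) • (Θ y + star (Θ (star (y : Op H)))) - (y : Op H)‖ ≤ η * ‖(y : Op H)‖
    have h1 := (hΘ _ y.2).2
    have h2 := (hΘ _ (star_mem y.2)).2
    rw [← norm_star, star_sub, star_star, norm_star] at h2
    have e : (1 / 2 : ℂ) • (Θ y + star (Θ (star (y : Op H)))) - (y : Op H) =
        (1 / 2 : ℂ) • ((Θ y - y) + (star (Θ (star (y : Op H))) - y)) := by module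
    rw [e, norm_smul]
    have h3 := norm_add_le (Θ y - y) (star (Θ (star (y : Op H))) - y)
    have h4 : ‖(1 / 2 : ℂ)‖ = 1 / 2 := by simp
    rw [h4]
    linarith

theorem impl_low {η : ℝ} {Ψ : Al N →ₗ[ℂ] Al M}
    (h : ∀ y, ‖(Ψ y : Op H) - (y : Op H)‖ ≤ η * ‖y‖) (y : Al N) : (1 - η) * ‖y‖ ≤ ‖Ψ y‖ := by
  have h1 : ‖(y : Op H)‖ ≤ ‖(Ψ y : Op H)‖ + ‖(Ψ y : Op H) - y‖ := norm_le_insert _ _
  have h2 := h y
  change (1 - η) * ‖(y : Op H)‖ ≤ ‖(Ψ y : Op H)‖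
  change _ ≤ η * ‖(y : Op H)‖ at h2
  linarith

theorem impl_up {η : ℝ} {Ψ : Al N →ₗ[ℂ] Al M}
    (h : ∀ y, ‖(Ψ y : Op H) - (y : Op H)‖ ≤ η * ‖y‖) (y : Al N) : ‖Ψ y‖ ≤ (1 + η) * ‖y‖ := by
  have h1 : ‖(Ψ y : Op H)‖ ≤ ‖(y : Op H)‖ + ‖(Ψ y : Op H) - y‖ := norm_le_insert' _ _
  have h2 := h y
  change ‖(Ψ y : Op H)‖ ≤ (1 + η) * ‖(y : Op H)‖
  change _ ≤ η * ‖(y : Op H)‖ at h2
  linarith

theorem impl_bij {η : ℝ} (h0 : 0 ≤ η) (hη : η ≤ 1 / 10000) (hn : Near M N η)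
    {Ψ : Al N →ₗ[ℂ] Al M} (h : ∀ y, ‖(Ψ y : Op H) - (y : Op H)‖ ≤ η * ‖y‖) :
    Function.Bijective Ψ := by
  let Ψc : Al N →L[ℂ] Al M := Ψ.mkContinuous (1 + η) (impl_up h)
  have hanti : AntilipschitzWith 2 Ψc := Ψc.antilipschitz_of_bound fun y => by
    have := impl_low h y
    change ‖y‖ ≤ ((2 : NNReal) : ℝ) * ‖Ψ y‖
    push_cast
    nlinarith [norm_nonneg y]
  refine ⟨hanti.injective, fun x => ?_⟩
  have hcl : IsClosed (Set.range Ψc) := hanti.isClosed_range Ψc.uniformContinuous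
  have step : ∀ x : Al M, ∃ y, ‖x - Ψ y‖ ≤ 1 / 2 * ‖x‖ := fun x => by
    obtain ⟨y, hy, h1⟩ := hn x x.2
    refine ⟨⟨y, hy⟩, ?_⟩
    have h2 : ‖(Ψ ⟨y, hy⟩ : Op H) - y‖ ≤ η * ‖y‖ := h ⟨y, hy⟩
    have h3 : ‖y‖ ≤ ‖(x : Op H)‖ + ‖(x : Op H) - y‖ := norm_le_insert _ _
    have h4 := norm_sub_le_norm_sub_add_norm_sub (x : Op H) y (Ψ ⟨y, hy⟩)
    rw [norm_sub_rev y] at h4
    change ‖(x : Op H) - (Ψ ⟨y, hy⟩ : Op H)‖ ≤ 1 / 2 * ‖(x : Op H)‖
    have h5 := norm_nonneg (x : Op H)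
    have h6 : η * ‖(x : Op H)‖ ≤ 1 / 10000 * ‖(x : Op H)‖ := mul_le_mul_of_nonneg_right hη h5
    have h7 : η * ‖y‖ ≤ 1 / 10000 * ‖y‖ := mul_le_mul_of_nonneg_right hη (norm_nonneg _)
    linarith
  have key : ∀ n : ℕ, ∃ y, ‖x - Ψ y‖ ≤ (1 / 2) ^ n * ‖x‖ := fun n => by
    induction n with
    | zero => exact ⟨0, by simp⟩
    | succ n ih =>
      obtain ⟨y, h1⟩ := ih
      obtain ⟨y', h2⟩ := step (x - Ψ y)
      refine ⟨y + y', ?_⟩
      rw [map_add, ← sub_sub, pow_succ', mul_assoc]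
      exact h2.trans (mul_le_mul_of_nonneg_left h1 (by norm_num))
  choose y hy using key
  have h2 : Tendsto (fun n => Ψ (y n)) atTop (𝓝 x) := by
    rw [tendsto_iff_norm_sub_tendsto_zero]
    refine squeeze_zero (fun _ => norm_nonneg _) (fun n => (norm_sub_rev _ _).trans_le (hy n)) ?_
    simpa using (tendsto_pow_atTop_nhds_zero_of_lt_one (r := (1 / 2 : ℝ)) (by norm_num)
      (by norm_num)).mul_const ‖x‖
  exact hcl.mem_of_tendsto h2 (Eventually.of_forall fun n => ⟨y n, rfl⟩)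

/-- Replace `Θ` by `y ↦ (Θ y + (Θ y*)*) / 2`.  As a map `Al N → Al M` it is bounded below by
`1 - η` and onto (for `x ∈ M` take `y ∈ N` near `x`: `‖x - Θ y‖ ≤ 3 η ‖x‖`; geometric series, or
closed range + `subset_of_near`-type argument, e.g.
`ContinuousLinearMap.exists_preimage_norm_le`-free: a closed proper subspace has almost orthogonal
vectors, `riesz_lemma`).  `m a b = Θ⁻¹ (Θ a Θ b)` satisfies the hypotheses of `rt` with `e = 4 η`.
`θ = Θ ∘ φ` is multiplicative and `*`-preserving, `θ 1` is an idempotent with `‖θ 1 - 1‖ < 1`. -/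
theorem exists_hom {η : ℝ} (h0 : 0 ≤ η) (hη : η ≤ 1 / 10000) (h : Near M N η)
    (hl : HasLift M N η) : ∃ θ : Al N →⋆ₐ[ℂ] Op H, ∀ y : Al N,
      θ y ∈ M ∧ ‖θ y - (y : Op H)‖ ≤ 100 * η * ‖y‖ := by
  obtain ⟨Ψ, hs, hΨ⟩ := impl_sym hl
  let e : Al N ≃ₗ[ℂ] Al M := LinearEquiv.ofBijective Ψ (impl_bij h0 hη h hΨ)
  have he : ∀ y, e y = Ψ y := fun _ => rfl
  let m : Al N →ₗ[ℂ] Al N →ₗ[ℂ] Al N := LinearMap.mk₂ ℂ (fun a b => e.symm (e a * e b))
    (fun a a' b => by rw [map_add, add_mul, map_add])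
    (fun c a b => by rw [map_smul, smul_mul_assoc, map_smul])
    (fun a b b' => by rw [map_add, mul_add, map_add])
    (fun c a b => by rw [map_smul, mul_smul_comm, map_smul])
  have hm : ∀ a b, Ψ (m a b) = Ψ a * Ψ b := fun a b => e.apply_symm_apply _
  obtain ⟨φ, h1, h2, h3⟩ := rt m
    (fun a b c => e.injective (by rw [he, he, hm, hm, hm, hm, mul_assoc]))
    (fun a b => e.injective (by rw [he, he, hs, hm, hm, hs, hs, star_mul])) (e := 4 * η)
    (by positivity) (by linarith) (fun a b => by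
      have k1 := impl_low hΨ (m a b - a * b)
      rw [map_sub, hm] at k1
      have k2 : ‖Ψ a * Ψ b - Ψ (a * b)‖ ≤ (3 * η + η ^ 2) * (‖a‖ * ‖b‖) := by
        change ‖(Ψ a : Op H) * Ψ b - Ψ (a * b)‖ ≤ _
        have e1 : (Ψ a : Op H) * Ψ b - Ψ (a * b) =
            ((Ψ a : Op H) - a) * Ψ b + (a : Op H) * (Ψ b - b) -
              ((Ψ (a * b) : Op H) - ((a * b : Al N) : Op H)) := by
          have : ((a * b : Al N) : Op H) = a * b := rfl
          rw [this]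
          noncomm_ring
        have n1 : ‖((Ψ a : Op H) - a) * Ψ b‖ ≤ η * ‖a‖ * ((1 + η) * ‖b‖) :=
          (norm_mul_le _ _).trans (mul_le_mul (hΨ a) (impl_up hΨ b) (norm_nonneg _)
            (by positivity))
        have n2 : ‖(a : Op H) * (Ψ b - b)‖ ≤ ‖a‖ * (η * ‖b‖) :=
          (norm_mul_le _ _).trans (mul_le_mul_of_nonneg_left (hΨ b) (norm_nonneg _))
        have n3 : ‖(Ψ (a * b) : Op H) - ((a * b : Al N) : Op H)‖ ≤ η * (‖a‖ * ‖b‖) :=
          (hΨ _).trans (mul_le_mul_of_nonneg_left (norm_mul_le _ _) h0)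
        rw [e1]
        refine (norm_sub_le _ _).trans ((add_le_add (norm_add_le _ _) le_rfl).trans ?_)
        nlinarith
      have k3 : 0 ≤ ‖a‖ * ‖b‖ := by positivity
      have k4 : (3 * η + η ^ 2) * (‖a‖ * ‖b‖) ≤ (1 - η) * (4 * η * ‖a‖ * ‖b‖) := by
        have : 3 * η + η ^ 2 ≤ (1 - η) * (4 * η) := by nlinarith
        calc (3 * η + η ^ 2) * (‖a‖ * ‖b‖) ≤ (1 - η) * (4 * η) * (‖a‖ * ‖b‖) :=
              mul_le_mul_of_nonneg_right this k3
          _ = _ := by ring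
      exact le_of_mul_le_mul_left ((k1.trans k2).trans k4) (by linarith))
  let f : Al N →ₗ[ℂ] Op H := M.toStarSubalgebra.subtype.toLinearMap ∘ₗ Ψ ∘ₗ (φ : Al N →ₗ[ℂ] Al N)
  have hf : ∀ y, f y = (Ψ (φ y) : Op H) := fun _ => rfl
  have fmul : ∀ a b, f (a * b) = f a * f b := fun a b => by rw [hf, hf, hf, h3, hm]; rfl
  have fnear : ∀ y : Al N, ‖f y - (y : Op H)‖ ≤ 100 * η * ‖y‖ := fun y => by
    have k1 := hΨ (φ y)
    have k2 : ‖(φ y : Op H) - (y : Op H)‖ ≤ 20 * (4 * η) * ‖y‖ := h1 y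
    have k3 : ‖φ y‖ ≤ ‖y‖ + ‖φ y - y‖ := norm_le_insert' _ _
    have k4 := norm_sub_le_norm_sub_add_norm_sub (Ψ (φ y) : Op H) (φ y) y
    have k5 := h1 y
    have k6 : η * ‖φ y‖ ≤ η * (‖y‖ + 20 * (4 * η) * ‖y‖) :=
      mul_le_mul_of_nonneg_left (by linarith) h0
    have k7 : 0 ≤ η * ‖y‖ := by positivity
    rw [hf]
    nlinarith
  have fone : f 1 = 1 := by
    have k1 : (1 - f 1) * (1 - f 1) = 1 - f 1 := by
      rw [mul_sub, mul_one, sub_mul, one_mul, ← fmul, mul_one, sub_self, sub_zero]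
    have k2 : ‖1 - f 1‖ ≤ 1 / 2 := by
      have k3 := fnear 1
      have k4 : ‖(1 : Al N)‖ ≤ 1 := norm_unitary_le (H := H) (one_mem _)
      rw [norm_sub_rev]
      change ‖f 1 - 1‖ ≤ _ at k3
      nlinarith
    have k5 := norm_mul_le (1 - f 1) (1 - f 1)
    rw [k1] at k5
    have k6 : ‖1 - f 1‖ ≤ 0 := by nlinarith [norm_nonneg (1 - f 1)]
    exact (sub_eq_zero.1 (norm_le_zero_iff.1 k6)).symm
  refine ⟨⟨AlgHom.ofLinearMap f fone fmul, fun y => ?_⟩, fun y => ⟨(Ψ (φ y)).2, fnear y⟩⟩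
  change f (star y) = star (f y)
  rw [hf, hf, h2, hs]
  rfl

/-- `hyper_two` with `Y = 1`, `ρ₁` the inclusion, `ρ₂ = θ`; polar part. -/
theorem exists_impl (θ : Al N →⋆ₐ[ℂ] Op H) {g : ℝ} (h0 : 0 ≤ g) (hg : g ≤ 1 / 30000)
    (h : ∀ y : Al N, ‖θ y - (y : Op H)‖ ≤ g * ‖y‖) :
    ∃ u ∈ unitary (Op H), ‖u - 1‖ ≤ 22400 * g ∧ ∀ y : Al N, u * (y : Op H) = θ y * u := by
  obtain ⟨Z, hZ, h1⟩ := hyper_two (A := Al N) N.toStarSubalgebra.subtype θ (Y := 1) h0 fun a => by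
    rw [one_mul, mul_one, norm_sub_rev]
    exact h a
  obtain ⟨w, hw, h2, -, h3, -⟩ := exists_polar' (X := Z) (one_mem _) (ε := 11200 * g)
    (by linarith) ((norm_sub_rev _ _).trans_le h1)
  refine ⟨w, hw, ?_, fun y => h3 _ _ (hZ y) ?_⟩
  · have := norm_sub_le_norm_sub_add_norm_sub w Z 1
    rw [norm_sub_rev Z] at this
    linarith
  · rw [← map_star]
    exact hZ (star y)

/-- `u N u* ⊆ M`; `cj u* N = u N u*` is contained in `M` and `M` is near it with a constant `< 1`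
(`close_cj`, `Near.trans`), `subset_of_near`. -/
theorem unitary_of_lift {ε : ℝ} (hε : 0 < ε) : ∃ η > 0,
    ∀ (H : Type u) [NormedAddCommGroup H] [InnerProductSpace ℂ H] [CompleteSpace H]
      (M N : VonNeumannAlgebra H), Near M N η → HasLift M N η →
      ∃ u ∈ unitary (Op H), ‖u - 1‖ < ε ∧ ∀ y : Op H, y ∈ M ↔ ∃ x ∈ N, y = u * x * star u := by
  refine ⟨min (1 / 10000000) (ε / 10000000), by positivity, fun H _ _ _ M N h hl => ?_⟩
  set η := min (1 / 10000000) (ε / 10000000) with hη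
  have h0 : 0 ≤ η := by positivity
  have h1 : η ≤ 1 / 10000000 := min_le_left _ _
  have h2 : η ≤ ε / 10000000 := min_le_right _ _
  obtain ⟨θ, hθ⟩ := exists_hom h0 (by linarith) h hl
  obtain ⟨u, hu, n1, hi⟩ := exists_impl θ (g := 100 * η) (by positivity) (by linarith)
    fun y => (hθ y).2
  have hu' := Unitary.star_mem hu
  have k1 : ∀ x ∈ N, u * x * star u ∈ M := fun x hx => by
    have := hi ⟨x, hx⟩
    change u * x = _ at this
    rw [this, mul_assoc, hu.2, mul_one]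
    exact (hθ _).1
  have k2 : ∀ x ∈ cj (star u) N, x ∈ M := fun x hx => by
    have := k1 _ ((mem_cj hu').1 hx)
    rwa [star_star, conj_conj hu] at this
  have k3 := h.trans h0 (by positivity)
    (close_cj (N := N) hu' ((norm_star_sub_one u).trans_le n1)).2
  have k4 := subset_of_near (by nlinarith) k2 k3
  refine ⟨u, hu, by linarith, fun y => ⟨fun hy => ?_, ?_⟩⟩
  · refine ⟨_, (mem_cj hu').1 (k4 y hy), ?_⟩
    rw [star_star, conj_conj hu]
  · rintro ⟨x, hx, rfl⟩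
    exact k1 x hx

end Crest.Agent.R78
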