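import Crest.Agent.R78.WL

/-! # R78: polar decomposition, spectral cuts, logarithms, column sums (task `Pol`) -/

set_option autoImplicit false
set_option linter.unusedSectionVars false
open Filter Topology
open scoped InnerProductSpace

namespace Crest.Agent.R78

universe u
variable {H : Type u} [NormedAddCommGroup H] [InnerProductSpace ℂ H] [CompleteSpace H]

theorem pol_aux {A : Type*} [CStarAlgebra A] {a : A} (ha : IsSelfAdjoint a) {ε : ℝ} (h0 : 0 ≤ ε)
    (hε : ε ≤ 1 / 2) (hs : ∀ t ∈ spectrum ℝ a, (1 - ε) ^ 2 ≤ t ∧ t ≤ (1 + ε) ^ 2) :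
    ∃ g h : A, star g = g ∧ h * g = 1 ∧ g * h = 1 ∧ g * a * g = 1 ∧ ‖1 - h‖ ≤ ε ∧
      ‖1 - h‖ ≤ ‖a - 1‖ ∧ ∀ b, Commute a b → Commute g b := by
  have hp : ∀ t ∈ spectrum ℝ a, 0 < t := fun t ht =>
    lt_of_lt_of_le (pow_pos (by linarith) 2) (hs t ht).1
  have hq : ∀ t ∈ spectrum ℝ a, √t ≠ 0 := fun t ht => (Real.sqrt_pos.2 (hp t ht)).ne'
  have c1 : ContinuousOn (fun t : ℝ => √t) (spectrum ℝ a) := Real.continuous_sqrt.continuousOn
  have c2 : ContinuousOn (fun t : ℝ => (√t)⁻¹) (spectrum ℝ a) := c1.inv₀ hq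
  have e : 1 - cfc (fun t : ℝ => √t) a = cfc (fun t : ℝ => 1 - √t) a := by
    rw [cfc_sub _ _ a continuousOn_const c1, cfc_const_one ℝ a]
  refine ⟨cfc (fun t : ℝ => (√t)⁻¹) a, cfc (fun t : ℝ => √t) a, IsSelfAdjoint.star_eq (cfc_predicate _ _), ?_, ?_,
    ?_, ?_, ?_, fun b hb => hb.cfc_real _⟩
  · rw [← cfc_mul _ _ a c1 c2, ← cfc_const_one ℝ a]
    exact cfc_congr fun t ht => mul_inv_cancel₀ (hq t ht)
  · rw [← cfc_mul _ _ a c2 c1, ← cfc_const_one ℝ a]
    exact cfc_congr fun t ht => inv_mul_cancel₀ (hq t ht)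
  · conv_lhs => enter [1, 2]; rw [← cfc_id' ℝ a]
    rw [← cfc_mul _ _ a c2 (continuousOn_id' _), ← cfc_mul _ _ a (c2.fun_mul (continuousOn_id' _)) c2,
      ← cfc_const_one ℝ a]
    refine cfc_congr fun t ht => ?_
    have := hq t ht
    have h2 := Real.mul_self_sqrt (hp t ht).le
    field_simp
    linarith
  · rw [e]
    refine norm_cfc_le h0 fun t ht => abs_le.2 ⟨?_, ?_⟩
    · have := Real.sqrt_le_iff.2 ⟨by linarith, (hs t ht).2⟩
      linarith
    · have := Real.le_sqrt_of_sq_le (hs t ht).1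
      linarith
  · rw [e]
    refine norm_cfc_le (norm_nonneg _) fun t ht => ?_
    have h1 := norm_apply_le_norm_cfc (fun t : ℝ => t - 1) a ht
    rw [cfc_sub _ _ a, cfc_id' ℝ a, cfc_const_one ℝ a] at h1
    refine le_trans ?_ h1
    have h2 : t - 1 = (1 - √t) * -(1 + √t) := by
      have := Real.mul_self_sqrt (hp t ht).le
      linarith
    rw [h2, norm_mul, norm_neg]
    refine le_mul_of_one_le_right (norm_nonneg _) ((le_add_of_nonneg_right (Real.sqrt_nonneg t)).trans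
      (le_abs_self _))

theorem re_inner_algebraMap (c : ℝ) (η : H) :
    (⟪η, algebraMap ℝ (Op H) c η⟫_ℂ).re = c * ‖η‖ ^ 2 := by
  rw [Algebra.algebraMap_eq_smul_one, ← Complex.coe_smul, _root_.smul_apply, inner_smul_right]
  simp [inner_self_eq_norm_sq_to_K, ← Complex.ofReal_pow]

/-- Polar part of an almost unitary operator.  `X` is invertible (bounded below together with its
adjoint), `|X| = cfc sqrt (X* X)` has spectrum in `[1-ε, 1+ε]`, `w = X |X|⁻¹`,
`‖w - X‖ = ‖1 - |X|‖`, and `|1 - √t| ≤ |1 - t|`.  If `X a = b X` and `X a* = b* X` then `a`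
commutes with `X* X`, hence with `cfc f (X* X)`. -/
theorem exists_polar {X : Op H} {ε : ℝ} (h0 : 0 ≤ ε) (hε : ε ≤ 1 / 2)
    (h1 : ∀ η, (1 - ε) * ‖η‖ ≤ ‖X η‖) (h2 : ∀ η, (1 - ε) * ‖η‖ ≤ ‖star X η‖)
    (h3 : ‖X‖ ≤ 1 + ε) :
    ∃ w ∈ unitary (Op H), ‖w - X‖ ≤ ε ∧ ‖w - X‖ ≤ ‖star X * X - 1‖ ∧
      ∀ a b : Op H, X * a = b * X → X * star a = star b * X → w * a = b * w := by
  have ha : IsSelfAdjoint (star X * X) := IsSelfAdjoint.star_mul_self X
  have l1 : algebraMap ℝ (Op H) ((1 - ε) ^ 2) ≤ star X * X := by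
    rw [ContinuousLinearMap.le_def, ContinuousLinearMap.isPositive_def']
    refine ⟨ha.sub (IsSelfAdjoint.algebraMap _ (IsSelfAdjoint.all _)), fun η => ?_⟩
    rw [ContinuousLinearMap.reApplyInnerSelf_apply, inner_re_symm, _root_.sub_apply, inner_sub_right,
      map_sub, RCLike.re_to_complex, RCLike.re_to_complex, re_inner_algebraMap, mul_apply_eq_comp,
      ContinuousLinearMap.star_eq_adjoint, ContinuousLinearMap.adjoint_inner_right,
      inner_self_eq_norm_sq_to_K, ← mul_pow, sub_nonneg]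
    have := pow_le_pow_left₀ (mul_nonneg (by linarith) (norm_nonneg η)) (h1 η) 2
    simpa [← Complex.ofReal_pow] using this
  obtain ⟨g, h, g1, g2, g3, g4, g5, g6, g7⟩ := pol_aux ha h0 hε fun t ht =>
    ⟨(algebraMap_le_iff_le_spectrum ha).1 l1 t ht,
      ((le_algebraMap_iff_spectrum_le ha).1 CStarAlgebra.star_mul_le_algebraMap_norm_sq t ht).trans
        (pow_le_pow_left₀ (norm_nonneg _) h3 2)⟩
  have w1 : star (X * g) * (X * g) = 1 := by
    rw [star_mul, g1, ← g4]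
    simp only [mul_assoc]
  have w2 : X * g * star (X * g) = 1 := by
    have k : star X * (X * g * star (X * g) - 1) = 0 := by
      have : h * (star (X * g) * (X * g * star (X * g) - 1)) = 0 := by
        rw [mul_sub, ← mul_assoc (star (X * g)), w1, one_mul, mul_one, sub_self, mul_zero]
      rwa [star_mul, g1, mul_assoc g, ← mul_assoc h, g2, one_mul, ← g1, ← star_mul, g1] at this
    refine sub_eq_zero.1 (ContinuousLinearMap.ext fun η => ?_)
    have := h2 ((X * g * star (X * g) - 1) η)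
    rw [← mul_apply_eq_comp, k, _root_.zero_apply, norm_zero] at this
    exact norm_le_zero_iff.1 (by nlinarith [norm_nonneg ((X * g * star (X * g) - 1) η)])
  have hw : X * g ∈ unitary (Op H) := ⟨w1, w2⟩
  have e : ‖X * g - X‖ = ‖1 - h‖ := by
    rw [← CStarRing.norm_mem_unitary_mul (1 - h) hw, mul_sub, mul_one, mul_assoc, g3, mul_one]
  refine ⟨X * g, hw, e ▸ g5, e ▸ g6, fun a b k1 k2 => ?_⟩
  have k3 : a * star X = star X * b := by simpa using congrArg star k2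
  have k4 : Commute (star X * X) a := by
    rw [Commute, SemiconjBy, mul_assoc, k1, ← mul_assoc, ← k3, mul_assoc]
  rw [mul_assoc, (g7 a k4).eq, ← mul_assoc, k1, mul_assoc]

theorem norm_unitary_le {u : Op H} (hu : u ∈ unitary (Op H)) : ‖u‖ ≤ 1 :=
  u.opNorm_le_bound zero_le_one fun η => by rw [u.norm_map_of_mem_unitary hu, one_mul]

theorem lower_of_near {X u : Op H} (hu : u ∈ unitary (Op H)) {ε : ℝ} (h : ‖X - u‖ ≤ ε) (η : H) :
    (1 - ε) * ‖η‖ ≤ ‖X η‖ := by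
  have h1 := ((X - u).le_opNorm η).trans (mul_le_mul_of_nonneg_right h (norm_nonneg η))
  have h2 : ‖u η‖ ≤ ‖X η‖ + ‖X η - u η‖ := norm_le_insert _ _
  rw [u.norm_map_of_mem_unitary hu] at h2
  rw [_root_.sub_apply] at h1
  linarith

theorem exists_polar' {X u : Op H} (hu : u ∈ unitary (Op H)) {ε : ℝ} (hε : ε ≤ 1 / 2)
    (h : ‖X - u‖ ≤ ε) :
    ∃ w ∈ unitary (Op H), ‖w - X‖ ≤ ε ∧ ‖w - X‖ ≤ ‖star X * X - 1‖ ∧
      (∀ a b : Op H, X * a = b * X → X * star a = star b * X → w * a = b * w) ∧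
      ∀ M : VonNeumannAlgebra H, X ∈ M → w ∈ M := by
  obtain ⟨w, hw, h1, h2, h3⟩ := exists_polar ((norm_nonneg _).trans h) hε (lower_of_near hu h)
    (lower_of_near (Unitary.star_mem hu) (by rwa [← star_sub, norm_star]))
    ((norm_le_insert' X u).trans (add_le_add (norm_unitary_le hu) h))
  exact ⟨w, hw, h1, h2, h3, fun M hX => mem_of_comm fun y hy =>
    (h3 y y (comm_of_mem hX hy) (comm_of_mem hX (star_mem hy))).symm⟩

theorem Near.unitary {M N : VonNeumannAlgebra H} {δ : ℝ} (h : Near M N δ) (h0 : 0 ≤ δ)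
    (hδ : δ ≤ 1 / 2) {u : Op H} (huM : u ∈ M) (hu : u ∈ unitary (Op H)) :
    ∃ w ∈ N, w ∈ unitary (Op H) ∧ ‖u - w‖ ≤ 2 * δ := by
  obtain ⟨y, hy, h1⟩ := h u huM
  have h2 : ‖u - y‖ ≤ δ := h1.trans (mul_le_of_le_one_right h0 (norm_unitary_le hu))
  obtain ⟨w, hw, h3, -, -, h4⟩ := exists_polar' hu hδ ((norm_sub_rev _ _).trans_le h2)
  refine ⟨w, h4 N hy, hw, (norm_sub_le_norm_sub_add_norm_sub u y w).trans ?_⟩
  rw [norm_sub_rev y]
  linarith

/-- The range projection of a self-adjoint operator. -/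
theorem exists_supp {x : Op H} (hx : star x = x) : ∃ e : Op H, IsStarProjection e ∧ e * x = x ∧
    x * e = x ∧ (∀ y, y * x = 0 → y * e = 0) ∧
    ∀ X, x * X = X * x → x * star X = star X * x → e * X = X * e := by
  have hm : ∀ y : Op H, y ∈ vn (∅ : Set (Op H)) := fun y => mem_vn.2 fun _ h => h.elim
  obtain ⟨e, he, h1, h2⟩ := R121.spec_supp (M := vn ∅) ⟨x, hm x⟩
  have p1 : (e : Op H) * e = e := congrArg Subtype.val he.isIdempotentElem.eq
  have p2 : star (e : Op H) = e := congrArg Subtype.val he.isSelfAdjoint.star_eq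
  have p3 : (e : Op H) * x = x := congrArg Subtype.val h1
  have p4 : ∀ y : Op H, y * x = 0 → y * e = 0 := fun y hy =>
    congrArg Subtype.val (h2 ⟨y, hm y⟩ (Subtype.ext hy))
  have k : ∀ X, x * X = X * x → X * e = e * X * e := fun X hX => by
    have := p4 ((1 - e) * X) (by rw [mul_assoc, ← hX, ← mul_assoc, sub_mul, one_mul, p3, sub_self, zero_mul])
    rwa [sub_mul, sub_mul, one_mul, sub_eq_zero] at this
  refine ⟨e, ⟨p1, p2⟩, p3, by simpa [hx, p2] using congrArg star p3, p4, fun X h h' => ?_⟩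
  have := congrArg star (k _ h')
  simp only [star_mul, star_star, p2] at this
  exact this.trans ((mul_assoc _ _ _).symm.trans (k X h).symm)

/-- Spectral projection `e = 1_{(c,∞)}(y)`: the range projection of `(y - c)₊` in the abelian von
Neumann algebra `(vn {y}).commutant` (`R121.spec_supp`, or `R124.hasRP_vn`). -/
theorem exists_cut {y : Op H} (hy : IsSelfAdjoint y) (c : ℝ) :
    ∃ e : Op H, IsStarProjection e ∧ (∀ X : Op H, y * X = X * y → e * X = X * e) ∧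
      (∀ η, e η = η → c * ‖η‖ ^ 2 ≤ (⟪η, y η⟫_ℂ).re) ∧
      (∀ η, e η = 0 → (⟪η, y η⟫_ℂ).re ≤ c * ‖η‖ ^ 2) := by
  obtain ⟨b, hb⟩ : ∃ b, b = y - algebraMap ℝ (Op H) c := ⟨_, rfl⟩
  have sb : IsSelfAdjoint b := hb ▸ hy.sub (IsSelfAdjoint.algebraMap _ (IsSelfAdjoint.all _))
  have cb : ∀ X, y * X = X * y → b⁺ * X = X * b⁺ := fun X hX =>
    (Commute.cfcₙ_real (hb ▸ Commute.sub_left hX (Algebra.commute_algebraMap_left c X)) _).eq
  obtain ⟨e, he, -, h2, h3, h4⟩ :=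
    exists_supp (IsSelfAdjoint.of_nonneg (CFC.posPart_nonneg b)).star_eq
  have e1 : ∀ η, (⟪η, y η⟫_ℂ).re = c * ‖η‖ ^ 2 + (⟪η, b⁺ η⟫_ℂ).re - (⟪η, b⁻ η⟫_ℂ).re := fun η => by
    have : y = algebraMap ℝ (Op H) c + b⁺ - b⁻ := by
      rw [add_sub_assoc, CFC.posPart_sub_negPart b, hb, add_sub_cancel]
    rw [← re_inner_algebraMap]
    conv_lhs => rw [this]
    simp only [_root_.sub_apply, _root_.add_apply, inner_sub_right, inner_add_right, Complex.sub_re,
      Complex.add_re]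
  have n1 := fun η => ((ContinuousLinearMap.nonneg_iff_isPositive _).1
    (CFC.posPart_nonneg b)).re_inner_nonneg_right η
  have n2 := fun η => ((ContinuousLinearMap.nonneg_iff_isPositive _).1
    (CFC.negPart_nonneg b)).re_inner_nonneg_right η
  simp only [RCLike.re_to_complex] at n1 n2
  refine ⟨e, he, fun X hX => h4 X (cb X hX) (cb _ ?_), fun η hη => ?_, fun η hη => ?_⟩
  · simpa [hy.star_eq] using (congrArg star hX).symm
  · have : b⁻ η = 0 := by
      rw [← hη, ← mul_apply_eq_comp, h3 _ (CFC.negPart_mul_posPart b), _root_.zero_apply]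
    rw [e1, this]
    simpa using n1 η
  · have : b⁺ η = 0 := by rw [← h2, mul_apply_eq_comp, hη, map_zero]
    rw [e1, this]
    simpa using n2 η

theorem exp_mul_congr {a b e : Op H} (hb : Commute b e) (h : a * e = b * e) :
    NormedSpace.exp a * e = NormedSpace.exp b * e := by
  have k : ∀ n : ℕ, a ^ n * e = b ^ n * e := fun n => by
    induction n with
    | zero => simp
    | succ n ih => rw [pow_succ, mul_assoc, h, hb.eq, ← mul_assoc, ih, mul_assoc, ← hb.eq,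
        ← mul_assoc, ← pow_succ]
  refine ((NormedSpace.exp_series_hasSum_exp' (𝕂 := ℂ) a).mul_right e).unique ?_
  simpa only [smul_mul_assoc, k] using (NormedSpace.exp_series_hasSum_exp' (𝕂 := ℂ) b).mul_right e

theorem exp_arccos {z : ℂ} (hz : ‖z‖ = 1) :
    Complex.exp (Complex.I * (Real.arccos z.re : ℝ)) = z + 2 * Complex.I * (max (-z.im) 0 : ℝ) ∧
    Complex.exp (-Complex.I * (Real.arccos z.re : ℝ)) = z + -2 * Complex.I * (max z.im 0 : ℝ) := by
  have h1 : z.re ^ 2 + z.im ^ 2 = 1 := by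
    have := Complex.sq_norm z
    rw [hz, Complex.normSq_apply] at this
    linarith
  have h2 := abs_le.1 ((Complex.abs_re_le_norm z).trans hz.le)
  have h3 : Real.cos (Real.arccos z.re) = z.re := Real.cos_arccos h2.1 h2.2
  have h4 : Real.sin (Real.arccos z.re) = |z.im| := by
    rw [Real.sin_arccos, show 1 - z.re ^ 2 = z.im ^ 2 by linarith, Real.sqrt_sq_eq_abs]
  refine ⟨Complex.ext ?_ ?_, Complex.ext ?_ ?_⟩
  · simp [Complex.exp_re, h3]
  · simp only [Complex.exp_im]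
    simp [h4]
    rcases le_total z.im 0 with h | h
    · rw [abs_of_nonpos h, max_eq_left (by linarith)]; ring
    · rw [abs_of_nonneg h, max_eq_right (by linarith)]; ring
  · simp [Complex.exp_re, h3]
  · simp only [Complex.exp_im]
    simp [h4]
    rcases le_total z.im 0 with h | h
    · rw [abs_of_nonpos h, max_eq_right h]; ring
    · rw [abs_of_nonneg h, max_eq_left h]; ring

/-- Logarithm of a unitary.  `c = Re u`, `s = Im u` commute, `c² + s² = 1`; `e` from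
`exists_cut` for `s` at `0`; `θ = cfc arccos c`, `A = (2 e - 1) θ`.  Then
`exp (i A) e = exp (i θ) e`, `exp (i A) (1-e) = exp (-i θ) (1-e)` (compare power series),
`exp (± i θ) = c ± i |s|` (`cos arccos`, `sin arccos t = √(1 - t²)`, `|s| = √(s²)`),
`|s| e = s e`, `|s| (1 - e) = -s (1-e)` (uniqueness of positive square roots, or: `|s| - s` and
`|s| + s` are positive with product `0`...). -/
theorem exists_log {u : Op H} (hu : u ∈ unitary (Op H)) :
    ∃ A : Op H, IsSelfAdjoint A ∧ NormedSpace.exp (Complex.I • A) = u ∧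
      ∀ X, C2 u X → A * X = X * A := by
  have hn : IsStarNormal u := isStarNormal_of_mem_unitary hu
  have sa : ∀ f : ℂ → ℝ, star (cfc (fun z => (f z : ℂ)) u) = cfc (fun z => (f z : ℂ)) u := fun f => by
    rw [← cfc_star]
    simp
  have cm : ∀ (f : ℂ → ℂ) X, C2 u X → cfc f u * X = X * cfc f u := fun f X h =>
    (Commute.cfc h.1 h.2 f).eq
  have cθ : Continuous fun z : ℂ => ((Real.arccos z.re : ℝ) : ℂ) :=
    Complex.continuous_ofReal.comp (Real.continuous_arccos.comp Complex.continuous_re)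
  have cp : Continuous fun z : ℂ => ((max z.im 0 : ℝ) : ℂ) := by fun_prop
  have cn : Continuous fun z : ℂ => ((max (-z.im) 0 : ℝ) : ℂ) := by fun_prop
  obtain ⟨e, he, -, h2, h3, h4⟩ := exists_supp (sa fun z => max z.im 0)
  have h5 : ∀ X, C2 u X → e * X = X * e := fun X h => h4 X (cm _ X h) (cm _ _ h.star_right)
  have h6 : cfc (fun z : ℂ => ((max (-z.im) 0 : ℝ) : ℂ)) u * e = 0 := h3 _ (by
    rw [← cfc_mul _ _ u cn.continuousOn cp.continuousOn, ← cfc_const_zero ℂ u]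
    refine cfc_congr fun z _ => ?_
    rcases le_total z.im 0 with h | h
    · simp [max_eq_right h]
    · simp [max_eq_right (neg_nonpos.2 h)])
  obtain ⟨θ, hθ⟩ : ∃ θ, θ = cfc (fun z : ℂ => ((Real.arccos z.re : ℝ) : ℂ)) u := ⟨_, rfl⟩
  have ex : ∀ c : ℂ, NormedSpace.exp (c • θ) =
      cfc (fun z : ℂ => Complex.exp (c * (Real.arccos z.re : ℝ))) u := fun c => by
    rw [cfc_comp' Complex.exp _ u Complex.continuous_exp.continuousOn
      (continuous_const.fun_mul cθ).continuousOn, hθ, ← cfc_const_mul _ _ u cθ.continuousOn,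
      CFC.complex_exp_eq_normedSpace_exp (cfc_predicate _ _)]
  have hs : ∀ z ∈ spectrum ℂ u, ‖z‖ = 1 := fun z hz => by
    simpa using spectrum.subset_circle_of_unitary hu hz
  have e1 : NormedSpace.exp (Complex.I • θ) * e = u * e := by
    rw [ex, cfc_congr fun z hz => (exp_arccos (hs z hz)).1, cfc_add u _ _ (continuousOn_id' _)
      (continuous_const.fun_mul cn).continuousOn, cfc_id' ℂ u, cfc_const_mul _ _ u cn.continuousOn,
      add_mul, smul_mul_assoc, h6, smul_zero, add_zero]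
  have e2 : NormedSpace.exp (-Complex.I • θ) * (1 - e) = u * (1 - e) := by
    rw [ex, cfc_congr fun z hz => (exp_arccos (hs z hz)).2, cfc_add u _ _ (continuousOn_id' _)
      (continuous_const.fun_mul cp).continuousOn, cfc_id' ℂ u, cfc_const_mul _ _ u cp.continuousOn,
      add_mul, smul_mul_assoc, mul_sub (cfc _ u), h2, mul_one, sub_self,
      smul_zero, add_zero]
  have uθ : C2 u θ := by
    have a1 : C2 u u := ⟨rfl, hn.star_comm_self.eq⟩
    exact hθ ▸ ⟨(cm _ _ a1).symm, (cm _ _ a1.star_right).symm⟩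
  have eθ : Commute θ e := (h5 θ uθ).symm
  have pe : e * e = e := he.isIdempotentElem.eq
  have sθ : star θ = θ := hθ ▸ sa _
  refine ⟨θ * (e + e - 1), ?_, ?_, fun X hX => ?_⟩
  · rw [IsSelfAdjoint, star_mul, star_sub, star_add, star_one, he.isSelfAdjoint.star_eq, sθ]
    exact (((eθ.add_right eθ).sub_right (Commute.one_right θ)).eq).symm
  · have k1 := exp_mul_congr (a := Complex.I • (θ * (e + e - 1))) (eθ.smul_left Complex.I) (by
      rw [smul_mul_assoc, smul_mul_assoc, mul_assoc, sub_mul, add_mul, pe, one_mul, add_sub_cancel_right])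
    have k2 := exp_mul_congr (a := Complex.I • (θ * (e + e - 1)))
      (((Commute.one_right θ).sub_right eθ).smul_left (-Complex.I)) (by
      rw [smul_mul_assoc, smul_mul_assoc, mul_assoc, sub_mul, add_mul, mul_sub e, pe, mul_one, sub_self,
        one_mul, add_zero, zero_sub, mul_neg, smul_neg, neg_smul])
    have := congrArg₂ (· + ·) (k1.trans e1) (k2.trans e2)
    simpa only [← mul_add, add_sub_cancel, mul_one] using this
  · have a1 : Commute θ X := hθ ▸ cm _ X hX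
    have a2 : Commute e X := h5 X hX
    exact (a1.mul_left ((a2.add_left a2).sub_left (Commute.one_left X))).eq

/-- Strong sum of operators with orthogonal ranges. -/
theorem exists_colSum {K : Type*} [NormedAddCommGroup K] [InnerProductSpace ℂ K]
    [CompleteSpace K] {ι : Type*} (A : ι → K →L[ℂ] H)
    (ho : ∀ i j, i ≠ j → ∀ η ζ, ⟪A i η, A j ζ⟫_ℂ = 0) {C : ℝ} (hC : 0 ≤ C)
    (hb : ∀ (s : Finset ι) η, ∑ i ∈ s, ‖A i η‖ ^ 2 ≤ C ^ 2 * ‖η‖ ^ 2) :
    ∃ X : K →L[ℂ] H, ‖X‖ ≤ C ∧ ∀ η, HasSum (fun i => A i η) (X η) := by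
  classical
  have py : ∀ (s : Finset ι) η, ‖∑ i ∈ s, A i η‖ ^ 2 = ∑ i ∈ s, ‖A i η‖ ^ 2 := fun s η => by
    induction s using Finset.induction_on with
    | empty => simp
    | insert i s hi ih =>
      rw [Finset.sum_insert hi, Finset.sum_insert hi, ← ih, sq, sq, sq]
      refine norm_add_sq_eq_norm_sq_add_norm_sq_of_inner_eq_zero (𝕜 := ℂ) _ _ ?_
      rw [inner_sum]
      exact Finset.sum_eq_zero fun j hj => ho i j (fun h => hi (h ▸ hj)) η η
  have sm : ∀ η, Summable fun i => A i η := fun η => by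
    have h1 : Summable fun i => ‖A i η‖ ^ 2 := summable_of_sum_le (fun _ => sq_nonneg _) (hb · η)
    rw [summable_iff_vanishing_norm] at h1 ⊢
    intro ε hε
    obtain ⟨s, hs⟩ := h1 (ε ^ 2) (by positivity)
    refine ⟨s, fun t ht => lt_of_pow_lt_pow_left₀ 2 hε.le ?_⟩
    rw [py]
    exact (le_abs_self _).trans_lt (hs t ht)
  let L : K →ₗ[ℂ] H :=
    { toFun := fun η => ∑' i, A i η
      map_add' := fun η ζ => by simp only [map_add, (sm η).tsum_add (sm ζ)]
      map_smul' := fun c η => by simp only [map_smul, (sm η).tsum_const_smul c, RingHom.id_apply] }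
  have hL : ∀ η, ‖L η‖ ≤ C * ‖η‖ := fun η =>
    le_of_tendsto' (Filter.Tendsto.norm (sm η).hasSum) fun s =>
      le_of_pow_le_pow_left₀ two_ne_zero (by positivity) (by rw [py, mul_pow]; exact hb s η)
  exact ⟨L.mkContinuous C hL, L.mkContinuous_norm_le hC hL, fun η => (sm η).hasSum⟩

/-- Extension of a linear map defined on `M ζ`. -/
theorem Cyc.extend {M : VonNeumannAlgebra H} {ζ : H} (hc : Cyc M ζ) {K : Type*}
    [NormedAddCommGroup K] [NormedSpace ℂ K] [CompleteSpace K] (f : R121.Al M →ₗ[ℂ] K) {C : ℝ}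
    (hC : 0 ≤ C) (h : ∀ m : R121.Al M, ‖f m‖ ≤ C * ‖(m : Op H) ζ‖) :
    ∃ T : H →L[ℂ] K, ‖T‖ ≤ C ∧ ∀ m : R121.Al M, T ((m : Op H) ζ) = f m := by
  let e : R121.Al M →ₗ[ℂ] H := ⟨⟨fun m => (m : Op H) ζ, fun _ _ => rfl⟩, fun _ _ => rfl⟩
  have hd : DenseRange e := Dense.mono (by rintro _ ⟨m, hm, rfl⟩; exact ⟨⟨m, hm⟩, rfl⟩) hc
  exact ⟨f.extendOfNorm e, LinearMap.opNorm_extendOfNorm_le hd hC h,
    LinearMap.extendOfNorm_eq hd ⟨C, h⟩⟩

theorem Cyc.ext_vec {M : VonNeumannAlgebra H} {ζ : H} (hc : Cyc M ζ) {v w : H}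
    (h : ∀ m ∈ M, ⟪m ζ, v⟫_ℂ = ⟪m ζ, w⟫_ℂ) : v = w :=
  ext_inner_left ℂ fun η => Dense.induction hc (P := fun η => ⟪η, v⟫_ℂ = ⟪η, w⟫_ℂ)
    (by rintro _ ⟨m, hm, rfl⟩; exact h m hm) (isClosed_eq (by fun_prop) (by fun_prop)) η

/-- Radon-Nikodym operator of a functional dominated by a cyclic vector state: the
sesquilinear form `(m₂ ζ, m₁ ζ) ↦ ψ (m₂* m₁)` is well defined and bounded on the dense subspace
`M ζ`. -/
theorem exists_rn {M : VonNeumannAlgebra H} {ζ : H} (hc : Cyc M ζ) (ψ : Op H →ₗ[ℂ] ℂ) {C : ℝ}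
    (hC : 0 ≤ C) (h : ∀ m₁ ∈ M, ∀ m₂ ∈ M, ‖ψ (star m₂ * m₁)‖ ≤ C * ‖m₁ ζ‖ * ‖m₂ ζ‖) :
    ∃ T ∈ M.commutant, ‖T‖ ≤ C ∧
      ∀ m₁ ∈ M, ∀ m₂ ∈ M, ⟪m₂ ζ, T (m₁ ζ)⟫_ℂ = ψ (star m₂ * m₁) := by
  have k : ∀ m₁ : R121.Al M, ∃ v : H, ‖v‖ ≤ C * ‖(m₁ : Op H) ζ‖ ∧
      ∀ m₂ ∈ M, ⟪m₂ ζ, v⟫_ℂ = ψ (star m₂ * m₁) := fun m₁ => by
    obtain ⟨T, h1, h2⟩ := hc.extend (K := ℂ)
      ⟨⟨fun m₂ => (starRingEnd ℂ) (ψ (star (m₂ : Op H) * m₁)), fun a b => by simp [add_mul]⟩,
        fun c a => by simp⟩ (C := C * ‖(m₁ : Op H) ζ‖) (by positivity) fun m₂ => by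
          simpa using h m₁ m₁.2 m₂ m₂.2
    refine ⟨(InnerProductSpace.toDual ℂ H).symm T, by simpa using h1, fun m₂ hm => ?_⟩
    rw [← inner_conj_symm, InnerProductSpace.toDual_symm_apply, h2 ⟨m₂, hm⟩]
    simp
  choose t t1 t2 using k
  obtain ⟨T, h1, h2⟩ := hc.extend (K := H) ⟨⟨t, fun a b => hc.ext_vec fun m hm => by
    simp [t2 _ m hm, mul_add]⟩, fun c a => hc.ext_vec fun m hm => by
    simp [t2 _ m hm]⟩ hC t1
  have h3 : ∀ m₁ ∈ M, ∀ m₂ ∈ M, ⟪m₂ ζ, T (m₁ ζ)⟫_ℂ = ψ (star m₂ * m₁) := fun m₁ a m₂ b => by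
    rw [h2 ⟨m₁, a⟩]
    exact t2 _ m₂ b
  refine ⟨T, VonNeumannAlgebra.mem_commutant_iff.2 fun g hg => hc.ext fun m₁ a =>
    hc.ext_vec fun m₂ b => ?_, h1, h3⟩
  have a1 := h3 m₁ a _ (mul_mem (star_mem hg) b)
  have a2 := h3 _ (mul_mem hg a) m₂ b
  rw [star_mul, star_star, mul_assoc, ← a2, mul_apply_eq_comp, ContinuousLinearMap.star_eq_adjoint,
    ContinuousLinearMap.adjoint_inner_left] at a1
  exact a1

/-- A unitary in the centraliser of a cyclic vector state has a partner in the commutant: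
`exists_rn` for `ψ m = ⟪ζ, m g ζ⟫` gives `g'` with `g' m ζ = m g ζ`; it is isometric
(`‖m g ζ‖ = ‖m ζ‖`), and the partner of `g*` is its inverse. -/
theorem exists_partner {M : VonNeumannAlgebra H} {ζ : H} (hc : Cyc M ζ) {g : Op H} (hgM : g ∈ M)
    (hg : g ∈ unitary (Op H)) (h : ∀ m ∈ M, ⟪ζ, (g * m) ζ⟫_ℂ = ⟪ζ, (m * g) ζ⟫_ℂ) :
    ∃ g' ∈ M.commutant, g' ∈ unitary (Op H) ∧ g' ζ = g ζ := by
  have n1 : ∀ m ∈ M, ‖m (g ζ)‖ = ‖m ζ‖ := fun m hm => by
    have := h (star g * (star m * m)) (mul_mem (star_mem hgM) (mul_mem (star_mem hm) hm))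
    rw [un_r hg] at this
    simp only [mul_apply_eq_comp, ContinuousLinearMap.star_eq_adjoint,
      ContinuousLinearMap.adjoint_inner_right, inner_self_eq_norm_sq_to_K] at this
    exact (pow_left_inj₀ (norm_nonneg _) (norm_nonneg _) two_ne_zero).1 (by exact_mod_cast this.symm)
  have n2 : ∀ m ∈ M, ‖m (star g ζ)‖ = ‖m ζ‖ := fun m hm => by
    have := n1 (m * star g) (mul_mem hm (star_mem hgM))
    rw [← mul_apply_eq_comp, mul_assoc, hg.1, mul_one] at this
    exact this.symm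
  have k : ∀ v : H, (∀ m ∈ M, ‖m v‖ = ‖m ζ‖) → ∃ T : Op H, ∀ m ∈ M, T (m ζ) = m v := fun v hv => by
    obtain ⟨T, -, h2⟩ := hc.extend (K := H) ⟨⟨fun m => (m : Op H) v, fun _ _ => rfl⟩, fun _ _ => rfl⟩
      zero_le_one fun m => by rw [one_mul]; exact (hv m m.2).le
    exact ⟨T, fun m hm => h2 ⟨m, hm⟩⟩
  obtain ⟨T, hT⟩ := k _ n1
  obtain ⟨S, hS⟩ := k _ n2
  have a1 : T * S = 1 := hc.ext fun m hm => by
    have := hT _ (mul_mem hm (star_mem hgM))
    rw [← mul_apply_eq_comp (m * star g), mul_assoc, hg.1, mul_one] at this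
    rw [mul_apply_eq_comp, hS m hm]
    exact this
  have a2 : star T * T = 1 := T.norm_map_iff_adjoint_comp_self.1 fun η =>
    Dense.induction hc (P := fun η => ‖T η‖ = ‖η‖)
      (by rintro _ ⟨m, hm, rfl⟩; exact (congrArg norm (hT m hm)).trans (n1 m hm))
      (isClosed_eq (by fun_prop) (by fun_prop)) η
  have a3 : star T = S := by rw [← mul_one (star T), ← a1, ← mul_assoc, a2, one_mul]
  refine ⟨T, VonNeumannAlgebra.mem_commutant_iff.2 fun n hn => hc.ext fun m hm => ?_,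
    ⟨a2, a3 ▸ a1⟩, hT 1 (one_mem M)⟩
  rw [mul_apply_eq_comp, hT m hm]
  exact (hT _ (mul_mem hn hm)).symm

/-- An operator with small matrix coefficients on `M ζ` is small. -/
theorem norm_le_of_cyc {M : VonNeumannAlgebra H} {ζ : H} (hc : Cyc M ζ) {X : Op H} {C : ℝ}
    (hC : 0 ≤ C) (h : ∀ m₁ ∈ M, ∀ m₂ ∈ M, ‖⟪m₂ ζ, X (m₁ ζ)⟫_ℂ‖ ≤ C * ‖m₁ ζ‖ * ‖m₂ ζ‖) :
    ‖X‖ ≤ C := by
  refine X.opNorm_le_bound hC fun ξ => Dense.induction hc (P := fun ξ => ‖X ξ‖ ≤ C * ‖ξ‖) ?_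
    (isClosed_le (by fun_prop) (by fun_prop)) ξ
  rintro _ ⟨m, hm, rfl⟩
  have h1 := Dense.induction hc (P := fun η => ‖⟪η, X (m ζ)⟫_ℂ‖ ≤ C * ‖m ζ‖ * ‖η‖)
    (by rintro _ ⟨n, hn, rfl⟩; exact h m hm n hn) (isClosed_le (by fun_prop) (by fun_prop)) (X (m ζ))
  rw [inner_self_eq_norm_sq_to_K] at h1
  simp only [Complex.coe_algebraMap, norm_pow, Complex.norm_real, norm_norm] at h1
  by_contra hc
  push Not at hc
  nlinarith [mul_nonneg hC (norm_nonneg (m ζ))]

end Crest.Agent.R78
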