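import Crest.Agent.R78.KrausDef
import Crest.Agent.R78.AF
import Crest.Agent.R78.Pol

/-! # R78: existence of Kraus families (task `Kraus`) -/

set_option autoImplicit false
set_option linter.unusedSectionVars false
open Filter Topology
open scoped InnerProductSpace

namespace Crest.Agent.R78

universe u
variable {H : Type u} [NormedAddCommGroup H] [InnerProductSpace ℂ H] [CompleteSpace H]

open MeasureTheory Complex

variable {M : VonNeumannAlgebra H} {ξ : H}

/-- `A z = X (z + i/4) X (z - i/4)` is analytic, `(A z)* = A (conj z)`, `A 0 = u* u` for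
`u = X (-i/4)`.  `K = sint sech (s ↦ U s A (-i/4) U (-s))`, `sech s = 1 / cosh (2 π s)`,
`U s A (-i/4) U (-s) = A (s - i/4)`, `K* = ∫ sech A (s + i/4)`; `residue_strip4` for
`z ↦ ⟪ζ, A z η⟫` gives `K + K* = A 0`.  `J A (s - i/4) ξ = J (A (s + i/4))* ξ = A (s - i/4) ξ` by
`AF.J_star`, and `J` commutes with the integral (`ContinuousLinearMap.integral_comp_commSL`). -/
theorem AF.exists_K {τ : Tomita M ξ} {X : ℂ → Op H} (hX : AF τ X)
    (hs : ∀ z, star (X z) = X ((starRingEnd ℂ) z)) :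
    τ.J (X (-I / 4) ξ) = X (-I / 4) ξ ∧
    ∃ K ∈ M, K + star K = star (X (-I / 4)) * X (-I / 4) ∧ τ.J (K ξ) = K ξ ∧
      ‖K‖ ≤ ‖X 0‖ * ‖X (-I / 2)‖ := by
  have c1 : (starRingEnd ℂ) (I / 4) = -I / 4 := by
    rw [map_div₀, conj_I, map_ofNat]
  have c2 : (starRingEnd ℂ) (-I / 4) = I / 4 := by
    rw [map_div₀, map_neg, conj_I, map_ofNat, neg_neg]
  refine ⟨?_, ?_⟩
  · have h := hX.J_star (I / 4)
    rw [hs, c1, show I / 4 - I / 2 = -I / 4 by ring] at h
    exact h
  set A : ℂ → Op H := fun z => X (z + I / 4) * X (z + -I / 4) with hAdef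
  have hA : AF τ A := (hX.shift _).mul (hX.shift _)
  have hAs : ∀ z, star (A z) = A ((starRingEnd ℂ) z) := fun z => by
    simp only [hAdef, star_mul, hs, map_add, c1, c2]
  have hbd : ∀ s : ℝ, ‖A (s - I / 4)‖ ≤ ‖X 0‖ * ‖X (-I / 2)‖ := fun s => by
    have h := hA.cov s (-I / 4)
    rw [show -I / 4 + (s : ℂ) = s - I / 4 by ring] at h
    rw [← h]
    have h0 : A (-I / 4) = X 0 * X (-I / 2) := by
      simp only [hAdef]
      rw [show -I / 4 + I / 4 = 0 by ring, show -I / 4 + -I / 4 = -I / 2 by ring]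
    calc ‖τ.U s * A (-I / 4) * τ.U (-s)‖ ≤ ‖τ.U s‖ * ‖A (-I / 4)‖ * ‖τ.U (-s)‖ :=
          (norm_mul_le _ _).trans (mul_le_mul_of_nonneg_right (norm_mul_le _ _) (norm_nonneg _))
      _ ≤ 1 * ‖A (-I / 4)‖ * 1 := by
          gcongr
          · exact τ.norm_U_le _
          · exact τ.norm_U_le _
      _ ≤ _ := by rw [one_mul, mul_one, h0]; exact norm_mul_le _ _
  have hSC : SC (fun s : ℝ => A (s - I / 4)) (‖X 0‖ * ‖X (-I / 2)‖) :=
    SC.of_continuous (hA.diff.continuous.comp (by fun_prop)) hbd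
  have hst : ∀ s : ℝ, star (A (s - I / 4)) = A (s + I / 4) := fun s => by
    rw [hAs, map_sub, conj_ofReal, c1]
    congr 1
    ring
  have hst' : ∀ s : ℝ, star (A (s + I / 4)) = A (s - I / 4) := fun s => by
    rw [← hst, star_star]
  have hSC' : SC (fun s : ℝ => A (s + I / 4)) (‖X 0‖ * ‖X (-I / 2)‖) := by
    simpa only [hst] using hSC.star
  set w : ℝ → ℂ := fun s => ((1 / Real.cosh (2 * Real.pi * s) : ℝ) : ℂ) with hw
  have hwi : Integrable w := integrable_sech
  refine ⟨sint w fun s : ℝ => A (s - I / 4), sint_mem hwi hSC fun s => hA.mem _, ?_, ?_, ?_⟩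
  · rw [star_sint hwi hSC]
    have e1 : (fun s => (starRingEnd ℂ) (w s)) = w := by
      funext s
      simp only [hw, conj_ofReal]
    simp only [e1, hst]
    rw [← sint_add hwi hSC hSC']
    have e2 : star (X (-I / 4)) * X (-I / 4) = A 0 := by
      simp only [hAdef, hs, c2, zero_add]
    rw [e2]
    ext η
    refine ext_inner_left ℂ fun ζ => ?_
    rw [inner_sint hwi (hSC.add hSC')]
    obtain ⟨C, hC⟩ := hA.bd (1 / 4)
    have hd : Differentiable ℂ fun z => ⟪ζ, A z η⟫_ℂ :=
      ((innerSL ℂ ζ).comp (ContinuousLinearMap.apply ℂ H η)).differentiable.comp hA.diff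
    have hr := residue_strip4 hd (C := ‖ζ‖ * (C * ‖η‖)) fun z hz =>
      (norm_inner_le_norm _ _).trans (mul_le_mul_of_nonneg_left
        (((A z).le_opNorm η).trans (mul_le_mul_of_nonneg_right (hC z hz) (norm_nonneg _)))
        (norm_nonneg _))
    rw [hr]
    refine integral_congr_ae (Eventually.of_forall fun s => ?_)
    simp only [_root_.add_apply, inner_add_right, hw]
    ring
  · rw [sint_apply hwi hSC, ← ContinuousLinearMap.integral_comp_commSL
      (fun r x => by simp) τ.J (hSC.integrable hwi ξ)]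
    refine integral_congr_ae (Eventually.of_forall fun s => ?_)
    have h := hA.J_star (s + I / 4)
    rw [hst', show (s : ℂ) + I / 4 - I / 2 = s - I / 4 by ring] at h
    simp only
    rw [τ.toConj.J_smul, h]
    simp only [hw, conj_ofReal]
  · refine (norm_sint_le hwi hSC).trans ?_
    have e : ∫ s, ‖w s‖ = ∫ s : ℝ, 1 / Real.cosh (2 * Real.pi * s) := by
      refine integral_congr_ae (Eventually.of_forall fun s => ?_)
      simp only [hw]
      rw [Complex.norm_real, Real.norm_of_nonneg (by positivity)]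
    rw [e]
    exact mul_le_of_le_one_right (by positivity) integral_sech_le

theorem Tomita.exists_af_gen2 [TopologicalSpace.SeparableSpace H] (τ : Tomita M ξ) :
    ∃ (W : ℕ → ℂ → Op H) (Z : ℕ → Op H), (∀ n, AF τ (W n)) ∧
      (∀ n z, star (W n z) = W n ((starRingEnd ℂ) z)) ∧ (∀ n, star (Z n) = Z n) ∧
      (∀ n, ∃ i j, Z n = W i (-I / 4) + I • W j (-I / 4)) ∧
      ∀ Y, (∀ n, Y * Z n = Z n * Y) → Y ∈ M.commutant := by
  obtain ⟨X, hX, hs, hg⟩ := τ.exists_af_gen
  have c1 : (starRingEnd ℂ) (I / 4) = -I / 4 := by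
    rw [map_div₀, conj_I, map_ofNat]
  have c2 : (starRingEnd ℂ) (-I / 4) = I / 4 := by
    rw [map_div₀, map_neg, conj_I, map_ofNat, neg_neg]
  let X₁ : ℕ → ℂ → Op H := fun n z => (1 / 2 : ℂ) • (X n (z + I / 4) + X n (z + -I / 4))
  let X₂ : ℕ → ℂ → Op H := fun n z => (-I / 2 : ℂ) • (X n (z + I / 4) - X n (z + -I / 4))
  refine ⟨fun m => if m % 2 = 0 then X₁ (m / 2) else X₂ (m / 2), fun n => X n 0, fun m => ?_,
    fun m z => ?_, fun n => ?_, fun n => ⟨2 * n, 2 * n + 1, ?_⟩, hg⟩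
  · beta_reduce
    split_ifs
    · exact (((hX _).shift _).add ((hX _).shift _)).smul _
    · exact (((hX _).shift _).sub ((hX _).shift _)).smul _
  · beta_reduce
    split_ifs
    · simp only [X₁, star_smul, star_add, hs, map_add, c1, c2]
      rw [add_comm (X _ _)]
      congr 1
      simp
    · simp only [X₂, star_smul, star_sub, hs, map_add, c1, c2]
      rw [← neg_sub, smul_neg, ← neg_smul]
      congr 1
      rw [RCLike.star_def, map_div₀, map_neg, conj_I, map_ofNat]
      ring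
  · simp only [hs, map_zero]
  · beta_reduce
    rw [if_pos (by omega), if_neg (by omega), show 2 * n / 2 = n by omega,
      show (2 * n + 1) / 2 = n by omega]
    simp only [X₁, X₂]
    rw [show -I / 4 + I / 4 = 0 by ring, smul_smul, show I * (-I / 2) = 1 / 2 by
      linear_combination (-1 / 2 : ℂ) * I_mul_I]
    module

/-- A closed subspace containing a cyclic vector and invariant under self-adjoint generators is
everything. -/
theorem eq_top_of_invariant (hc : Cyc M ξ) {Z : ℕ → Op H} (hs : ∀ n, star (Z n) = Z n)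
    (hg : ∀ Y, (∀ n, Y * Z n = Z n * Y) → Y ∈ M.commutant) {L : Submodule ℂ H}
    (hL : IsClosed (L : Set H)) (hξ : ξ ∈ L) (hi : ∀ n, ∀ η ∈ L, Z n η ∈ L) : L = ⊤ := by
  have : CompleteSpace L := hL.completeSpace_coe
  set P : Op H := L.starProjection with hP
  have hPs : star P = P := (isSelfAdjoint_starProjection L).star_eq
  have hPm : P ∈ M.commutant := hg P fun n => by
    have h1 : P * Z n * P = Z n * P := by
      ext η
      exact Submodule.starProjection_eq_self_iff.2 (hi n _ (L.starProjection_apply_mem η))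
    have h2 := congrArg star h1
    rw [star_mul, star_mul, star_mul, hPs, hs, ← mul_assoc] at h2
    rw [← h2, h1]
  have hsub : (fun x : Op H => x ξ) '' (M : Set (Op H)) ⊆ L := by
    rintro _ ⟨x, hx, rfl⟩
    have h1 := congrArg (fun T : Op H => T ξ) (comm_of_mem hx hPm)
    simp only [mul_apply_eq_comp] at h1
    rw [show P ξ = ξ from Submodule.starProjection_eq_self_iff.2 hξ] at h1
    simp only
    rw [h1]
    exact L.starProjection_apply_mem _
  rw [eq_top_iff]
  intro η _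
  exact closure_minimal hsub hL (hc η)

theorem two_re_inner_of_add_star {K u : Op H} (h : K + star K = star u * u) (η : H) :
    ‖u η‖ ^ 2 = 2 * (⟪η, K η⟫_ℂ).re := by
  have h1 : ⟪η, (K + star K) η⟫_ℂ = ⟪u η, u η⟫_ℂ := by
    rw [h, mul_apply_eq_comp, ContinuousLinearMap.star_eq_adjoint,
      ContinuousLinearMap.adjoint_inner_right]
  rw [_root_.add_apply, inner_add_right, ContinuousLinearMap.star_eq_adjoint,
    ContinuousLinearMap.adjoint_inner_right, ← inner_conj_symm (K η) η, add_conj,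
    inner_self_eq_norm_sq_to_K] at h1
  have h2 : ((2 * (⟪η, K η⟫_ℂ).re : ℝ) : ℂ) = ((‖u η‖ ^ 2 : ℝ) : ℂ) := by
    rw [h1]; push_cast; rfl
  exact (ofReal_injective h2).symm

/-- From `exists_af_gen`: for each `n` the families
`X₁ z = (X (z + i/4) + X (z - i/4)) / 2`, `X₂ z = (X (z + i/4) - X (z - i/4)) / (2 i)` are analytic
with `(Xⱼ z)* = Xⱼ (conj z)` and `X 0 = X₁ (-i/4) + i X₂ (-i/4)`.  Enumerate them by `ℕ`, multiply
the `n`-th one by a small positive constant so that `‖K n‖ ≤ 2⁻ⁿ / 8` and put `K = ∑ K n`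
(norm convergent, `M` is closed).  `∑ ‖u n η‖² = 2 Re ⟪η, K η⟫`.  If a closed subspace is
invariant under all `u n` it is invariant under the self-adjoint `X n 0`, so its projection
commutes with them. -/
theorem Tomita.exists_uK [TopologicalSpace.SeparableSpace H] (τ : Tomita M ξ) :
    ∃ (u : ℕ → Op H) (K : Op H), (∀ n, u n ∈ M) ∧ K ∈ M ∧ ‖K‖ ≤ 1 / 4 ∧
      (∀ n, τ.J (u n ξ) = u n ξ) ∧ τ.J (K ξ) = K ξ ∧
      (∀ η, HasSum (fun n => ‖u n η‖ ^ 2) (2 * (⟪η, K η⟫_ℂ).re)) ∧
      (∀ Y, (∀ n, Y * u n = u n * Y) → Y ∈ M.commutant) ∧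
      ∀ L : Submodule ℂ H, IsClosed (L : Set H) → ξ ∈ L → (∀ n, ∀ η ∈ L, u n η ∈ L) → L = ⊤ := by
  obtain ⟨W, Z, hW, hWs, hZs, hZ, hg⟩ := τ.exists_af_gen2
  have hc : ∀ n : ℕ, ∃ c : ℝ, 0 < c ∧
      c * ‖W n 0‖ * (c * ‖W n (-I / 2)‖) ≤ (1 / 2) ^ n / 8 := fun n => by
    set a := ‖W n 0‖ * ‖W n (-I / 2)‖ with ha
    have ha0 : 0 ≤ a := by positivity
    set δ : ℝ := (1 / 2) ^ n / 8 with hδ
    have hδ0 : 0 < δ := by positivity
    refine ⟨min 1 (δ / (a + 1)), lt_min one_pos (by positivity), ?_⟩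
    set c := min 1 (δ / (a + 1)) with hc
    have hc0 : 0 < c := lt_min one_pos (by positivity)
    have hc1 : c ≤ 1 := min_le_left _ _
    have hc2 : c * (a + 1) ≤ δ := (le_div_iff₀ (by positivity)).1 (min_le_right _ _)
    calc c * ‖W n 0‖ * (c * ‖W n (-I / 2)‖) = c * (c * a) := by rw [ha]; ring
      _ ≤ 1 * (c * (a + 1)) := by gcongr; linarith
      _ ≤ δ := by rw [one_mul]; exact hc2
  choose c hc0 hc using hc
  have hK : ∀ n, τ.J (((c n : ℂ) • W n (-I / 4)) ξ) = ((c n : ℂ) • W n (-I / 4)) ξ ∧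
      ∃ K ∈ M, K + star K = star ((c n : ℂ) • W n (-I / 4)) * ((c n : ℂ) • W n (-I / 4)) ∧
        τ.J (K ξ) = K ξ ∧ ‖K‖ ≤ ‖(c n : ℂ) • W n 0‖ * ‖(c n : ℂ) • W n (-I / 2)‖ := fun n =>
    AF.exists_K ((hW n).smul (c n)) fun z => by
      rw [star_smul, hWs, RCLike.star_def, conj_ofReal]
  choose hJ K hKm hKs hKJ hKn using hK
  have hKb : ∀ n, ‖K n‖ ≤ (1 / 2) ^ n / 8 := fun n => by
    refine (hKn n).trans ?_
    rw [norm_smul, norm_smul, Complex.norm_real, Real.norm_of_nonneg (hc0 n).le]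
    exact hc n
  have hgeo : HasSum (fun n : ℕ => (1 / 2 : ℝ) ^ n / 8) (1 / 4) := by
    have h := hasSum_geometric_two.div_const 8
    rwa [show (2 : ℝ) / 8 = 1 / 4 by norm_num] at h
  have hsum : HasSum K (∑' n, K n) :=
    (Summable.of_norm_bounded hgeo.summable hKb).hasSum
  have happ : ∀ η, HasSum (fun n => K n η) ((∑' n, K n) η) := fun η =>
    (ContinuousLinearMap.apply ℂ H η).hasSum hsum
  have hcne : ∀ n, (c n : ℂ) ≠ 0 := fun n => ofReal_ne_zero.2 (hc0 n).ne'
  refine ⟨fun n => (c n : ℂ) • W n (-I / 4), ∑' n, K n, fun n => vn_smul_mem _ ((hW n).mem _),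
    ?_, tsum_of_norm_bounded hgeo hKb, hJ, ?_, fun η => ?_, fun Y hY => ?_, fun L hL hξ hi => ?_⟩
  · refine mem_of_comm fun y hy => (hsum.mul_left y).unique ?_
    have h := hsum.mul_right y
    simpa only [fun n => comm_of_mem (hKm n) hy] using h
  · have h := τ.J.hasSum (happ ξ)
    simp only [hKJ] at h
    exact h.unique (happ ξ)
  · have h := (reCLM.hasSum ((innerSL ℂ η).hasSum (happ η))).mul_left 2
    simp only [two_re_inner_of_add_star (hKs _)]
    exact h
  · refine hg Y fun n => ?_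
    have hY' : ∀ n, Y * W n (-I / 4) = W n (-I / 4) * Y := fun n => by
      have h := hY n
      simp only [mul_smul_comm, smul_mul_assoc] at h
      exact smul_right_injective _ (hcne n) h
    obtain ⟨i, j, e⟩ := hZ n
    rw [e, mul_add, add_mul, mul_smul_comm, smul_mul_assoc, hY', hY']
  · refine eq_top_of_invariant τ.cyc hZs hg hL hξ fun n η hη => ?_
    have hi' : ∀ n, W n (-I / 4) η ∈ L := fun n => by
      have h := hi n η hη
      simp only [_root_.smul_apply] at h
      exact (L.smul_mem_iff (hcne n)).1 h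
    obtain ⟨i, j, e⟩ := hZ n
    rw [e]
    exact L.add_mem (hi' i) (L.smul_mem _ (hi' j))

/-- `k = 1 + K` with inverse `r ∈ M` (Neumann series), `a 0 = (1 - K) r = 2 r - 1`,
`a (n+1) = √2 u n r`, `b j = J (a j) J`, `k' = J k J`.  Parseval at `η = k ζ`:
`‖(1 - K) ζ‖² + 4 Re ⟪ζ, K ζ⟫ = ‖(1 + K) ζ‖²`.  `b j k ξ = J (a j) k ξ = a j k ξ`.  An operator
commuting with all `a j` commutes with `r`, `k`, `u n`.  A closed subspace invariant under `a 0` is
invariant under `r` and `k = ∑ (1 - r)ⁿ` (`‖1 - r‖ = ‖K r‖ ≤ 1/3`). -/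
theorem Tomita.exists_kraus [TopologicalSpace.SeparableSpace H] (τ : Tomita M ξ) :
    Nonempty (Kraus M ξ) := by
  obtain ⟨u, K, hu, hK, hKn, huJ, hKJ, hpar, hgen, htot⟩ := τ.exists_uK
  have hunit : IsUnit (1 + K) := by
    have h := isUnit_one_sub_of_norm_lt_one (x := -K) (by rw [norm_neg]; linarith)
    rwa [sub_neg_eq_add] at h
  obtain ⟨r, hr1, hr2⟩ : ∃ r : Op H, (1 + K) * r = 1 ∧ r * (1 + K) = 1 :=
    ⟨(hunit.unit⁻¹ : (Op H)ˣ), hunit.mul_val_inv, hunit.val_inv_mul⟩
  have hk : 1 + K ∈ M := add_mem (one_mem _) hK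
  have hcr : ∀ y : Op H, y * (1 + K) = (1 + K) * y → y * r = r * y := fun y h => by
    calc y * r = r * (1 + K) * y * r := by rw [hr2, one_mul]
      _ = r * (y * (1 + K)) * r := by rw [h, mul_assoc r]
      _ = r * y * ((1 + K) * r) := by simp only [mul_assoc]
      _ = r * y := by rw [hr1, mul_one]
  have hck : ∀ y : Op H, y * r = r * y → y * (1 + K) = (1 + K) * y := fun y h => by
    calc y * (1 + K) = (1 + K) * r * y * (1 + K) := by rw [hr1, one_mul]
      _ = (1 + K) * (y * r) * (1 + K) := by rw [h, mul_assoc (1 + K)]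
      _ = (1 + K) * y * (r * (1 + K)) := by simp only [mul_assoc]
      _ = (1 + K) * y := by rw [hr2, mul_one]
  have hrm : r ∈ M := mem_of_comm fun y hy => hcr y (comm_of_mem hk hy).symm
  have hlow : ∀ η, ‖η‖ ≤ 2 * ‖(1 + K) η‖ := fun η => by
    have h1 : ‖K η‖ ≤ 1 / 4 * ‖η‖ :=
      (K.le_opNorm η).trans (mul_le_mul_of_nonneg_right hKn (norm_nonneg _))
    have h2 : ‖η‖ ≤ ‖(1 + K) η‖ + ‖K η‖ := by
      have := norm_sub_le ((1 + K) η) (K η)
      rwa [show (1 + K) η - K η = η by simp] at this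
    have := norm_nonneg η
    linarith
  have hkr : ∀ η, (1 + K) (r η) = η := fun η => by
    rw [← mul_apply_eq_comp, hr1, one_apply_eq_self]
  have hrk : ∀ η, r ((1 + K) η) = η := fun η => by
    rw [← mul_apply_eq_comp, hr2, one_apply_eq_self]
  have hKr : K * r = 1 - r := by rw [← hr1, add_mul, one_mul]; abel
  have ha0 : (1 - K) * r = (2 : ℂ) • r - 1 := by
    rw [sub_mul, one_mul, hKr, two_smul]; abel
  have hs2 : ((√2 : ℝ) : ℂ) ≠ 0 := ofReal_ne_zero.2 (by positivity)
  let a : ℕ → Op H := fun j => Nat.casesOn j ((1 - K) * r) fun n => ((√2 : ℝ) : ℂ) • (u n * r)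
  have a0 : a 0 = (1 - K) * r := rfl
  have a1 : ∀ n, a (n + 1) = ((√2 : ℝ) : ℂ) • (u n * r) := fun _ => rfl
  have ham : ∀ j, a j ∈ M := fun j => by
    cases j with
    | zero => exact mul_mem (sub_mem (one_mem _) hK) hrm
    | succ n => exact vn_smul_mem _ (mul_mem (hu n) hrm)
  have hkn : ‖1 + K‖ ≤ 2 := by
    have h1 : ‖(1 : Op H)‖ ≤ 1 := ContinuousLinearMap.norm_id_le
    have := norm_add_le (1 : Op H) K
    linarith
  have hkJ : τ.J ((1 + K) ξ) = (1 + K) ξ := by
    rw [_root_.add_apply, map_add, one_apply_eq_self, τ.J_xi, hKJ]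
  have hapar : ∀ η, HasSum (fun j => ‖a j η‖ ^ 2) (‖η‖ ^ 2) := fun η => by
    rw [← hasSum_nat_add_iff' 1, Finset.sum_range_one]
    have h := (hpar (r η)).mul_left 2
    have e1 : ∀ n, ‖a (n + 1) η‖ ^ 2 = 2 * ‖u n (r η)‖ ^ 2 := fun n => by
      rw [a1, _root_.smul_apply, norm_smul, Complex.norm_real,
        Real.norm_of_nonneg (by positivity), mul_pow, Real.sq_sqrt (by norm_num),
        mul_apply_eq_comp]
    have e2 : ‖η‖ ^ 2 - ‖a 0 η‖ ^ 2 = 2 * (2 * (⟪r η, K (r η)⟫_ℂ).re) := by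
      have f1 : ‖η‖ ^ 2 = ‖r η + K (r η)‖ ^ 2 := by
        conv_lhs => rw [← hkr η]
        rfl
      have f2 : ‖a 0 η‖ ^ 2 = ‖r η - K (r η)‖ ^ 2 := rfl
      rw [f1, f2, @norm_add_sq ℂ, @norm_sub_sq ℂ]
      simp only [RCLike.re_to_complex]
      ring
    simp only [e1, e2]
    exact h
  have hagen : ∀ X, (∀ j, X * a j = a j * X) → X ∈ M.commutant := fun X hX => by
    have h1 : X * r = r * X := by
      have h := hX 0
      rw [a0, ha0, mul_sub, sub_mul, mul_one, one_mul, mul_smul_comm, smul_mul_assoc,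
        sub_left_inj] at h
      exact smul_right_injective _ two_ne_zero h
    refine hgen X fun n => ?_
    have h := hX (n + 1)
    rw [a1, mul_smul_comm, smul_mul_assoc] at h
    have h2 : X * (u n * r) = u n * r * X := smul_right_injective _ hs2 h
    calc X * u n = X * (u n * r) * (1 + K) := by rw [mul_assoc, mul_assoc, hr2, mul_one]
      _ = u n * (X * r) * (1 + K) := by rw [h2, h1, mul_assoc (u n)]
      _ = u n * X := by rw [mul_assoc, mul_assoc, hr2, mul_one]
  refine ⟨⟨a, fun j => τ.toConj.jj (a j), 1 + K, τ.toConj.jj (1 + K), ham,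
    fun j => τ.jj_mem _ (ham j), hk, τ.jj_mem _ hk, ?_, hkn, ?_, hlow, hapar, fun η => ?_,
    fun j => ?_, hagen, fun X hX => ?_, fun L hL hξ hi => ?_⟩⟩
  · rw [Conj.jj_apply, τ.J_xi, hkJ]
  · rw [Conj.norm_jj]; exact hkn
  · have h := hapar (τ.J η)
    rw [τ.toConj.norm_J] at h
    simpa only [Conj.jj_apply, Conj.norm_J] using h
  · rw [Conj.jj_apply, hkJ]
    cases j with
    | zero =>
      rw [a0, mul_apply_eq_comp, hrk, _root_.sub_apply, map_sub,
        one_apply_eq_self, τ.J_xi, hKJ]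
    | succ n =>
      rw [a1, _root_.smul_apply, mul_apply_eq_comp, hrk,
        τ.toConj.J_smul, huJ, conj_ofReal]
  · have h := τ.jj_mem' _ (hagen (τ.toConj.jj X) fun j => by
      have h := congrArg τ.toConj.jj (hX j)
      rwa [Conj.jj_mul, Conj.jj_mul, Conj.jj_jj] at h)
    rwa [Conj.jj_jj] at h
  · have hir : ∀ η ∈ L, r η ∈ L := fun η hη => by
      have h := L.add_mem (hi 0 η hη) hη
      rw [a0, ha0, _root_.sub_apply, one_apply_eq_self, sub_add_cancel,
        _root_.smul_apply] at h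
      exact (L.smul_mem_iff two_ne_zero).1 h
    have hn : ‖1 - r‖ < 1 := by
      rw [← hKr]
      have h1 : ‖r‖ ≤ 2 := r.opNorm_le_bound zero_le_two fun η => by
        have := hlow (r η)
        rwa [hkr] at this
      calc ‖K * r‖ ≤ ‖K‖ * ‖r‖ := norm_mul_le _ _
        _ ≤ 1 / 4 * 2 := by gcongr
        _ < 1 := by norm_num
    have hgs : ∑' n, (1 - r) ^ n = 1 + K := by
      have h := geom_series_mul_neg (1 - r) hn
      rw [sub_sub_cancel] at h
      calc ∑' n, (1 - r) ^ n = (∑' n, (1 - r) ^ n) * r * (1 + K) := by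
            rw [mul_assoc, hr2, mul_one]
        _ = 1 + K := by rw [h, one_mul]
    have hik : ∀ η ∈ L, (1 + K) η ∈ L := fun η hη => by
      have h := (ContinuousLinearMap.apply ℂ H η).hasSum
        (summable_geometric_of_norm_lt_one hn).hasSum
      rw [hgs] at h
      have hp : ∀ n : ℕ, ((1 - r) ^ n) η ∈ L := fun n => by
        induction n with
        | zero => simpa using hη
        | succ n ih =>
          rw [pow_succ', mul_apply_eq_comp, _root_.sub_apply,
            one_apply_eq_self]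
          exact L.sub_mem ih (hir _ ih)
      exact hL.mem_of_tendsto h.tendsto_sum_nat
        (Eventually.of_forall fun n => L.sum_mem fun i _ => hp i)
    refine htot L hL ?_ fun n η hη => ?_
    · have h := hir _ hξ
      rwa [hrk] at h
    · have h := hi (n + 1) _ (hik η hη)
      rw [a1, _root_.smul_apply, mul_apply_eq_comp, hrk] at h
      exact (L.smul_mem_iff hs2).1 h

end Crest.Agent.R78
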