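import Crest.Agent.R78.L2Def
import Crest.Agent.R78.Anc

/-! # R78: the lattice estimate (task `L2Lat`) -/

set_option autoImplicit false
set_option linter.unusedSectionVars false
open Filter Topology
open scoped InnerProductSpace

namespace Crest.Agent.R78

universe u
variable {H : Type u} [NormedAddCommGroup H] [InnerProductSpace ℂ H] [CompleteSpace H]

theorem l2lat_sum {ι : Type} [Fintype ι] (S : Finset ℤ) (f : ι → ℤ → ℝ) :
    ∑ a : ι × S, f a.1 a.2 = ∑ i, ∑ n ∈ S, f i n := by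
  rw [Fintype.sum_prod_type]
  exact Finset.sum_congr rfl fun i _ => Finset.sum_coe_sort S (f i)

theorem l2lat_six {d r a₁ a₂ a₃ a₄ b₁ b₂ : ℝ} (hd : 0 ≤ d)
    (h : d ≤ |r| * (a₁ + a₂) + 2 * b₁ + 2 * b₂ + |r| * (a₃ + a₄)) :
    d ^ 2 ≤ 6 * r ^ 2 * (a₁ ^ 2 + a₂ ^ 2 + a₃ ^ 2 + a₄ ^ 2) + 24 * (b₁ ^ 2 + b₂ ^ 2) := by
  have key : ∀ u₁ u₂ u₃ u₄ u₅ u₆ : ℝ, (u₁ + u₂ + u₃ + u₄ + u₅ + u₆) ^ 2 ≤
      6 * (u₁ ^ 2 + u₂ ^ 2 + u₃ ^ 2 + u₄ ^ 2 + u₅ ^ 2 + u₆ ^ 2) := by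
    intro u₁ u₂ u₃ u₄ u₅ u₆
    nlinarith [sq_nonneg (u₁ - u₂), sq_nonneg (u₁ - u₃), sq_nonneg (u₁ - u₄), sq_nonneg (u₁ - u₅),
      sq_nonneg (u₁ - u₆), sq_nonneg (u₂ - u₃), sq_nonneg (u₂ - u₄), sq_nonneg (u₂ - u₅), sq_nonneg (u₂ - u₆),
      sq_nonneg (u₃ - u₄), sq_nonneg (u₃ - u₅), sq_nonneg (u₃ - u₆), sq_nonneg (u₄ - u₅), sq_nonneg (u₄ - u₆),
      sq_nonneg (u₅ - u₆)]
  have h1 := key (|r| * a₁) (|r| * a₂) (|r| * a₃) (|r| * a₄) (2 * b₁) (2 * b₂)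
  simp only [mul_pow, sq_abs] at h1
  calc d ^ 2 ≤ (|r| * a₁ + |r| * a₂ + |r| * a₃ + |r| * a₄ + 2 * b₁ + 2 * b₂) ^ 2 :=
        pow_le_pow_left₀ hd (by linarith) 2
    _ ≤ _ := h1
    _ = _ := by ring

theorem l2lat_point {M N : VonNeumannAlgebra H} {ξ : H} (τ : Tomita M ξ) (σ : Tomita N ξ) (r E : ℝ)
    {z x t n u : Op H} (hM : Ctr M z) (hN : Ctr N z) (hz : IsStarProjection z) (hx : x ∈ M)
    (ht : t ∈ M.commutant) (hn : n ∈ N) (hu : u ∈ N.commutant) (h : x ξ = t ξ) :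
    ‖σ.U r (z (x ξ)) - τ.U r (z (x ξ))‖ ^ 2 ≤
      6 * r ^ 2 * (Real.exp (-E) * ‖star n (z ξ)‖ ^ 2 + Real.exp E * ‖star u (z ξ)‖ ^ 2 +
        Real.exp (-E) * ‖star x (z ξ)‖ ^ 2 + Real.exp E * ‖star t (z ξ)‖ ^ 2) +
      24 * (‖x (z ξ) - n (z ξ)‖ ^ 2 + ‖t (z ξ) - u (z ξ)‖ ^ 2) := by
  have hs := hz.isSelfAdjoint.star_eq
  have h1 := σ.est r E (z (x ξ)) (z * n) (mul_mem hN.1 hn) (z * u) (mul_mem hN.2 hu)
  have h2 := τ.est r E (z (x ξ)) (z * x) (mul_mem hM.1 hx) (z * t) (mul_mem hM.2 ht)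
  have c1 : z (x ξ) = x (z ξ) := by rw [← mul_apply_eq_comp, ← comm_of_mem hx hM.2, mul_apply_eq_comp]
  have c2 : z (t ξ) = t (z ξ) := by rw [← mul_apply_eq_comp, comm_of_mem hM.1 ht, mul_apply_eq_comp]
  have c3 : z (n ξ) = n (z ξ) := by rw [← mul_apply_eq_comp, ← comm_of_mem hn hN.2, mul_apply_eq_comp]
  have c4 : z (u ξ) = u (z ξ) := by rw [← mul_apply_eq_comp, comm_of_mem hN.1 hu, mul_apply_eq_comp]
  simp only [star_mul, hs, mul_apply_eq_comp] at h1 h2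
  have e1 : z (x ξ) - z (n ξ) = x (z ξ) - n (z ξ) := by rw [c1, c3]
  have e2 : z (x ξ) - z (u ξ) = t (z ξ) - u (z ξ) := by rw [h, c2, c4]
  rw [e1, e2] at h1
  rw [← h, sub_self, norm_zero, mul_zero, add_zero, add_zero] at h2
  have h3 : ‖σ.U r (z (x ξ)) - τ.U r (z (x ξ))‖ ≤
      ‖σ.U r (z (x ξ)) - Complex.exp (Complex.I * r * E) • z (x ξ)‖ +
        ‖τ.U r (z (x ξ)) - Complex.exp (Complex.I * r * E) • z (x ξ)‖ := by
    rw [norm_sub_rev (τ.U r _)]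
    exact norm_sub_le_norm_sub_add_norm_sub _ _ _
  have h4 := l2lat_six (norm_nonneg _) (h3.trans (add_le_add h1 h2))
  have e3 : Real.exp (-E / 2) ^ 2 = Real.exp (-E) := by rw [sq, ← Real.exp_add, add_halves]
  have e4 : Real.exp (E / 2) ^ 2 = Real.exp E := by rw [sq, ← Real.exp_add, add_halves]
  simpa only [mul_pow, e3, e4] using h4

/-- Index set `α = ι × S`, `x_a = band (x i) (θ + n)`, `t_a = band (t i) (θ + n)`,
`E = 2 π (θ + n)`, `x_a ξ = t_a ξ` (`band_xi`).  Columns and weighted rows (weights `exp (-E)` for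
`x_a`, `exp E` for `t_a`) are bounded by `C = 20` (`band_col`, `band_row`, `band_row'`).
`exists_anc` gives `n_a ∈ N` and (for the pair `M'`, `N'`) `u_a ∈ N'`.  For `η = z x_a ξ` use
`σ.est` with `z n_a`, `z u_a` and `τ.est` with `z x_a`, `z t_a` (no error terms), commute `z` to
the vector: `‖(V r - U r) η‖ ≤ |r| (e^{-E/2} ‖n_a* z ξ‖ + e^{E/2} ‖u_a* z ξ‖ + e^{-E/2} ‖x_a* z ξ‖
+ e^{E/2} ‖t_a* z ξ‖) + 2 ‖(x_a - n_a) z ξ‖ + 2 ‖(t_a - u_a) z ξ‖`; square (six terms) and sum.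
Choose `K` large, then `δ` and `t₀` small. -/
theorem exists_latLe {κ : ℝ} (hκ : 0 < κ) : ∃ δ > 0, ∃ t₀ > 0,
    ∀ (H : Type u) [NormedAddCommGroup H] [InnerProductSpace ℂ H] [CompleteSpace H]
      (M N : VonNeumannAlgebra H) (ξ : H) (τ : Tomita M ξ) (σ : Tomita N ξ),
      Near N.commutant M.commutant δ → Near N M δ → ∀ r, |r| ≤ t₀ → LatLe τ σ r κ := by
  have hKA := KA_pos
  set K : ℝ := max 1 (128000000 / κ) with hK
  have hK1 : 1 ≤ K := le_max_left _ _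
  have hK0 : 0 < K := by linarith
  have hK2 : 128000000 ≤ K * κ := (div_le_iff₀ hκ).1 (le_max_right _ _)
  set e : ℝ := min 1 (κ / 400) with he
  have he0 : 0 < e := lt_min one_pos (by positivity)
  have he1 : e ≤ 1 := min_le_left _ _
  have he2 : e ≤ κ / 400 := min_le_right _ _
  set t₀ : ℝ := min 1 (κ / (12 * (8 * K ^ 2 + 800))) with ht₀
  have ht0 : 0 < t₀ := lt_min one_pos (by positivity)
  have ht1 : t₀ ≤ 1 := min_le_left _ _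
  have ht2 : t₀ * (12 * (8 * K ^ 2 + 800)) ≤ κ := (le_div_iff₀ (by positivity)).1 (min_le_right _ _)
  have hδ0 : 0 < e / (KA * K) := by positivity
  have b1 : KA * (e / (KA * K)) * K = e := by field_simp
  have b2 : K * (1 + KA * (e / (KA * K))) = K + e := by field_simp
  have b3 : 4 * 20 ^ 4 / K ^ 2 + 2 * e ^ 2 ≤ κ / 100 := by
    have a1 : 4 * 20 ^ 4 / K ^ 2 ≤ κ / 200 := by
      rw [div_le_iff₀ (by positivity)]; nlinarith
    nlinarith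
  have b4 : (K + e) ^ 2 ≤ 4 * K ^ 2 := by nlinarith
  refine ⟨e / (KA * K), hδ0, t₀, ht0, ?_⟩
  intro H _ _ _ M N ξ τ σ h1 h2 r hr z hM hN hz ι _ x t hx ht hxt hcx hct θ S
  have hr2 : 6 * r ^ 2 * (8 * K ^ 2 + 800) ≤ κ / 2 := by
    have a1 : r ^ 2 ≤ t₀ := by
      rw [← sq_abs]
      nlinarith [abs_nonneg r]
    have a2 := mul_le_mul_of_nonneg_right a1 (show 0 ≤ 8 * K ^ 2 + 800 by positivity)
    linarith
  have hcol : ∀ y : ι → Op H, Col y 4 → Col (fun a : ι × S => τ.band (y a.1) (θ + (a.2 : ℤ))) 20 := by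
    intro y hy η
    rw [l2lat_sum S fun i n => ‖τ.band (y i) (θ + n) η‖ ^ 2]
    exact (τ.band_col hy θ S η).trans (mul_le_mul_of_nonneg_right (by norm_num) (sq_nonneg _))
  have hrow : Row (fun a : ι × S => Real.exp (-(2 * Real.pi * (θ + (a.2 : ℤ)))))
      (fun a : ι × S => τ.band (x a.1) (θ + (a.2 : ℤ))) 20 := by
    intro η
    rw [l2lat_sum S fun i n => Real.exp (-(2 * Real.pi * (θ + n))) * ‖star (τ.band (x i) (θ + n)) η‖ ^ 2]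
    exact (τ.band_row hx ht hxt hct θ S η).trans (mul_le_mul_of_nonneg_right (by norm_num) (sq_nonneg _))
  have hrow' : Row (fun a : ι × S => Real.exp (2 * Real.pi * (θ + (a.2 : ℤ))))
      (fun a : ι × S => τ.band (t a.1) (θ + (a.2 : ℤ))) 20 := by
    intro η
    rw [l2lat_sum S fun i n => Real.exp (2 * Real.pi * (θ + n)) * ‖star (τ.band (t i) (θ + n)) η‖ ^ 2]
    exact (τ.band_row' hx ht hxt hcx θ S η).trans (mul_le_mul_of_nonneg_right (by norm_num) (sq_nonneg _))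
  obtain ⟨n, hn1, hn2, hn3⟩ := exists_anc hδ0.le hK0 h1 (fun _ => Real.exp_pos _)
    (fun a : ι × S => τ.band_mem (hx a.1) (θ + (a.2 : ℤ))) (hcol x hcx) hrow
  obtain ⟨u, hu1, hu2, hu3⟩ := exists_anc (M := M.commutant) (N := N.commutant) hδ0.le hK0
    (by rwa [VonNeumannAlgebra.commutant_commutant, VonNeumannAlgebra.commutant_commutant])
    (fun _ => Real.exp_pos _) (fun a : ι × S => τ.band_mem' (ht a.1) (θ + (a.2 : ℤ))) (hcol t hct) hrow'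
  rw [b2] at hn2 hu2
  rw [b1] at hn3 hu3
  rw [Finset.sum_comm, ← l2lat_sum S fun i n => ‖σ.U r (z (τ.band (x i) (θ + n) ξ)) -
    τ.U r (z (τ.band (x i) (θ + n) ξ))‖ ^ 2]
  refine (Finset.sum_le_sum fun a _ => l2lat_point τ σ r (2 * Real.pi * (θ + (a.2 : ℤ))) hM hN hz
    (τ.band_mem (hx a.1) _) (τ.band_mem' (ht a.1) _) (hn1 a) (hu1 a)
    (by rw [τ.band_xi, τ.band_xi, hxt])).trans ?_
  rw [Finset.sum_add_distrib, ← Finset.mul_sum, ← Finset.mul_sum, Finset.sum_add_distrib, Finset.sum_add_distrib,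
    Finset.sum_add_distrib, Finset.sum_add_distrib]
  have hv := sq_nonneg ‖z ξ‖
  have c1 := (hn2 (z ξ)).trans (mul_le_mul_of_nonneg_right b4 hv)
  have c2 := (hu2 (z ξ)).trans (mul_le_mul_of_nonneg_right b4 hv)
  have c3 := hrow (z ξ)
  have c4 := hrow' (z ξ)
  have c5 := (hn3 (z ξ)).trans (mul_le_mul_of_nonneg_right b3 hv)
  have c6 := (hu3 (z ξ)).trans (mul_le_mul_of_nonneg_right b3 hv)
  calc _ ≤ 6 * r ^ 2 * (4 * K ^ 2 * ‖z ξ‖ ^ 2 + 4 * K ^ 2 * ‖z ξ‖ ^ 2 + 20 ^ 2 * ‖z ξ‖ ^ 2 + 20 ^ 2 * ‖z ξ‖ ^ 2) +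
        24 * (κ / 100 * ‖z ξ‖ ^ 2 + κ / 100 * ‖z ξ‖ ^ 2) :=
        add_le_add (mul_le_mul_of_nonneg_left (add_le_add (add_le_add (add_le_add c1 c2) c3) c4) (by positivity))
          (mul_le_mul_of_nonneg_left (add_le_add c5 c6) (by norm_num))
    _ = (6 * r ^ 2 * (8 * K ^ 2 + 800) + 48 * κ / 100) * ‖z ξ‖ ^ 2 := by ring
    _ ≤ _ := mul_le_mul_of_nonneg_right (by linarith) hv

end Crest.Agent.R78
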