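import Crest.Agent.R78.Hyper

/-! # R78: reduction to separable Hilbert spaces (task `LS`) -/

set_option autoImplicit false
set_option linter.unusedSectionVars false
open Filter Topology
open scoped InnerProductSpace

namespace Crest.Agent.R78

universe u
variable {H : Type u} [NormedAddCommGroup H] [InnerProductSpace ℂ H] [CompleteSpace H]

open TopologicalSpace

variable {M N : VonNeumannAlgebra H}

theorem ls_closed {α ι : Type*} [Countable ι] {S : Set α} (hS : S.Countable) (op : ι → α → α → α) :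
    ∃ Z : Set α, Z.Countable ∧ S ⊆ Z ∧ ∀ i, ∀ a ∈ Z, ∀ b ∈ Z, op i a b ∈ Z := by
  let X : ℕ → Set α := fun n => Nat.rec S (fun _ Y => Y ∪ ⋃ i, Set.image2 (op i) Y Y) n
  have hs : ∀ n, X (n + 1) = X n ∪ ⋃ i, Set.image2 (op i) (X n) (X n) := fun n => rfl
  have hc : ∀ n, (X n).Countable := fun n => by
    induction n with
    | zero => exact hS
    | succ n ih => rw [hs]; exact ih.union (Set.countable_iUnion fun i => ih.image2 ih _)
  have hm : Monotone X := monotone_nat_of_le_succ fun n => by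
    rw [hs]; exact Set.subset_union_left
  refine ⟨⋃ n, X n, Set.countable_iUnion hc, Set.subset_iUnion X 0, fun i a ha b hb => ?_⟩
  obtain ⟨n, hn⟩ := Set.mem_iUnion.1 ha
  obtain ⟨m, hm'⟩ := Set.mem_iUnion.1 hb
  refine Set.mem_iUnion.2 ⟨max n m + 1, ?_⟩
  rw [hs]
  exact Or.inr (Set.mem_iUnion.2 ⟨i, Set.mem_image2_of_mem (hm (le_max_left _ _) hn)
    (hm (le_max_right _ _) hm')⟩)

theorem ls_set {S : Set (Op H)} (hS : S.Countable) (F G : Op H → Op H) :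
    ∃ Z : Set (Op H), Z.Countable ∧ S ⊆ Z ∧ (∀ x ∈ Z, F x ∈ Z) ∧ (∀ x ∈ Z, G x ∈ Z) ∧
      ∀ P : VonNeumannAlgebra H, ∃ A : StarSubalgebra ℂ (Op H),
        (A : Set (Op H)) = closure (Z ∩ P) ∧ ∀ x ∈ A, x ∈ P := by
  obtain ⟨D, hD, hD'⟩ := TopologicalSpace.exists_countable_dense ℂ
  obtain ⟨Z, h1, h2, h3⟩ := ls_closed (hS.union (hD.image (algebraMap ℂ (Op H))))
    (![fun a b => a + b, fun a b => a * b, fun a _ => star a, fun a _ => F a, fun a _ => G a] :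
      Fin 5 → Op H → Op H → Op H)
  refine ⟨Z, h1, Set.subset_union_left.trans h2, fun x hx => h3 3 x hx x hx,
    fun x hx => h3 4 x hx x hx, fun P => ?_⟩
  have hP : closure (Z ∩ P) ⊆ P := closure_minimal Set.inter_subset_right (R121.isClosed_Al P)
  have hal : ∀ r : ℂ, algebraMap ℂ (Op H) r ∈ closure (Z ∩ P) := fun r =>
    map_mem_closure (continuous_algebraMap ℂ (Op H)) (hD' r) fun q hq =>
      ⟨h2 (Or.inr ⟨q, hq, rfl⟩), P.toStarSubalgebra.algebraMap_mem q⟩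
  exact ⟨
    { carrier := closure (Z ∩ P)
      mul_mem' := fun ha hb => map_mem_closure₂ continuous_mul ha hb fun a ha b hb =>
        ⟨h3 1 a ha.1 b hb.1, mul_mem ha.2 hb.2⟩
      add_mem' := fun ha hb => map_mem_closure₂ continuous_add ha hb fun a ha b hb =>
        ⟨h3 0 a ha.1 b hb.1, add_mem ha.2 hb.2⟩
      algebraMap_mem' := hal
      star_mem' := fun ha => map_mem_closure continuous_star ha fun a ha =>
        ⟨h3 2 a ha.1 a ha.1, star_mem ha.2⟩ }, rfl, hP⟩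

theorem ls_near {δ : ℝ} (hδ : 0 < δ) {X : Set (Op H)} {B : StarSubalgebra ℂ (Op H)}
    (h : ∀ x ∈ X, ∃ y ∈ B, ‖x - y‖ ≤ δ * ‖x‖) {a : Op H} (ha : a ∈ closure X) :
    ∃ b ∈ B, ‖a - b‖ ≤ 2 * δ * ‖a‖ := by
  rcases eq_or_ne a 0 with rfl | h0
  · exact ⟨0, zero_mem _, by simp⟩
  have hn : 0 < ‖a‖ := norm_pos_iff.2 h0
  obtain ⟨x, hx, h1⟩ := Metric.mem_closure_iff.1 ha (min (δ * ‖a‖ / 2) (‖a‖ / 2)) (by positivity)
  obtain ⟨y, hy, h2⟩ := h x hx
  rw [dist_eq_norm, lt_min_iff] at h1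
  refine ⟨y, hy, (norm_sub_le_norm_sub_add_norm_sub a x y).trans ?_⟩
  have h3 : ‖x‖ ≤ ‖a‖ + ‖a - x‖ := norm_le_insert _ _
  have h4 := mul_le_mul_of_nonneg_left (h3.trans (add_le_add_right h1.2.le _)) hδ.le
  linarith [h1.1]

/-- The closed `*`-algebra generated by a countable set is separable (the monoid generated by
`S ∪ S*` is countable, `IsSeparable.span`, `IsSeparable.closure`). -/
theorem exists_sepAlg {S : Set (Op H)} (hS : S.Countable) (hM : ∀ x ∈ S, x ∈ M) :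
    ∃ A : StarSubalgebra ℂ (Op H), IsClosed (A : Set (Op H)) ∧ IsSeparable (A : Set (Op H)) ∧
      S ⊆ A ∧ ∀ x ∈ A, x ∈ M := by
  obtain ⟨Z, h1, h2, -, -, h3⟩ := ls_set hS id id
  obtain ⟨A, h4, h5⟩ := h3 M
  refine ⟨A, h4 ▸ isClosed_closure, ⟨Z ∩ M, h1.mono Set.inter_subset_left, h4.subset⟩,
    fun x hx => h4 ▸ subset_closure ⟨h2 hx, hM x hx⟩, h5⟩

/-- Back and forth.  Choose `f : M → N`, `g : N → M` from `Close`.  Recursively choose countable
`X n ⊆ M`, `Y n ⊆ N`: `X (n+1)` contains `X n`, `g (Y n)` and a countable dense subset (inside it)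
of an algebra given by `exists_sepAlg` for `X n`; similarly `Y`.  Let `A` be the closure of
`⋃ X n` (it is the closure of an increasing union of `*`-subalgebras; or take
`A = (adjoin (⋃ X n)).topologicalClosure` and show that `⋃ X n` is dense in it).  For `a ∈ A`,
`a ≠ 0`, take `x ∈ X n` very close to `a` and `b = f x`. -/
theorem exists_sepPair {δ : ℝ} (hδ : 0 < δ) (h : Close M N δ) {S : Set (Op H)} (hS : S.Countable)
    (hN : ∀ x ∈ S, x ∈ N) : ∃ A B : StarSubalgebra ℂ (Op H), IsClosed (A : Set (Op H)) ∧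
      IsClosed (B : Set (Op H)) ∧ IsSeparable (A : Set (Op H)) ∧ IsSeparable (B : Set (Op H)) ∧
      S ⊆ B ∧ (∀ x ∈ A, x ∈ M) ∧ (∀ x ∈ B, x ∈ N) ∧
      (∀ a ∈ A, ∃ b ∈ B, ‖a - b‖ ≤ 2 * δ * ‖a‖) ∧ ∀ b ∈ B, ∃ a ∈ A, ‖b - a‖ ≤ 2 * δ * ‖b‖ := by
  choose! F hF hF' using h.1
  choose! G hG hG' using h.2
  obtain ⟨Z, h1, h2, h3, h4, h5⟩ := ls_set hS F G
  obtain ⟨A, hA, hA'⟩ := h5 M
  obtain ⟨B, hB, hB'⟩ := h5 N
  have sA : Z ∩ M ⊆ A := hA ▸ subset_closure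
  have sB : Z ∩ N ⊆ B := hB ▸ subset_closure
  exact ⟨A, B, hA ▸ isClosed_closure, hB ▸ isClosed_closure,
    ⟨Z ∩ M, h1.mono Set.inter_subset_left, hA.subset⟩,
    ⟨Z ∩ N, h1.mono Set.inter_subset_left, hB.subset⟩, fun x hx => sB ⟨h2 hx, hN x hx⟩, hA', hB',
    fun a ha => ls_near hδ (fun x hx => ⟨F x, sB ⟨h3 x hx.1, hF x hx.2⟩, hF' x hx.2⟩)
      (hA.subset ha),
    fun b hb => ls_near hδ (fun x hx => ⟨G x, sA ⟨h4 x hx.1, hG x hx.2⟩, hG' x hx.2⟩)
      (hB.subset hb)⟩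

/-- The closed span of the vectors `w v`, `w` in the monoid generated by a countable set `c` with
`𝒮 ⊆ closure c` and its adjoints. -/
theorem exists_sepSpace {𝒮 : Set (Op H)} (h : IsSeparable 𝒮) {V : Set H} (hV : V.Countable) :
    ∃ K : Submodule ℂ H, IsClosed (K : Set H) ∧ IsSeparable (K : Set H) ∧ V ⊆ K ∧
      ∀ x ∈ 𝒮, ∀ v ∈ K, x v ∈ K ∧ star x v ∈ K := by
  obtain ⟨c, hc, hc'⟩ := h
  have := hc.to_subtype
  obtain ⟨W, h1, h2, h3⟩ := ls_closed (ι := c ⊕ c) hV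
    (Sum.elim (fun x v _ => (x : Op H) v) fun x v _ => star (x : Op H) v)
  let K := (Submodule.span ℂ W).topologicalClosure
  have hK : IsClosed (K : Set H) := Submodule.isClosed_topologicalClosure _
  have inv : ∀ x : Op H, (∀ v ∈ W, x v ∈ W) → ∀ v ∈ K, x v ∈ K := fun x hx v hv => by
    refine map_mem_closure x.continuous hv fun w hw => ?_
    induction hw using Submodule.span_induction with
    | mem w hw => exact Submodule.subset_span (hx w hw)
    | zero => rw [map_zero]; exact zero_mem _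
    | add a b _ _ ha hb => rw [map_add]; exact add_mem ha hb
    | smul t a _ ha => rw [map_smul]; exact Submodule.smul_mem _ t ha
  refine ⟨K, hK, h1.isSeparable.span.closure,
    fun v hv => subset_closure (Submodule.subset_span (h2 hv)), fun x hx v hv => ?_⟩
  have hcl : IsClosed {x : Op H | x v ∈ K ∧ star x v ∈ K} :=
    (hK.preimage (f := fun x : Op H => x v) (by fun_prop)).inter
      (hK.preimage (f := fun x : Op H => star x v) (by fun_prop))
  exact closure_minimal (t := {x : Op H | x v ∈ K ∧ star x v ∈ K}) (fun x hx =>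
    ⟨inv _ (fun w hw => h3 (.inl ⟨x, hx⟩) w hw w hw) v hv,
      inv _ (fun w hw => h3 (.inr ⟨x, hx⟩) w hw w hw) v hv⟩) hcl (hc' hx)

section cmp
variable (K : Submodule ℂ H) [CompleteSpace K]

/-- Compression to `K`. -/
noncomputable def lsC : Op H →ₗ[ℂ] Op K where
  toFun x := ContinuousLinearMap.adjoint K.subtypeL ∘L x ∘L K.subtypeL
  map_add' x y := by ext1 v; simp
  map_smul' t x := by ext1 v; simp

/-- Extension by zero. -/
noncomputable def lsE : Op K →ₗ[ℂ] Op H where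
  toFun x := K.subtypeL ∘L x ∘L ContinuousLinearMap.adjoint K.subtypeL
  map_add' x y := by ext1 v; simp
  map_smul' t x := by ext1 v; simp

theorem lsC_apply (x : Op H) (v : K) :
    lsC K x v = ContinuousLinearMap.adjoint K.subtypeL (x v) := rfl

theorem lsE_apply (x : Op K) (v : H) :
    lsE K x v = x (ContinuousLinearMap.adjoint K.subtypeL v) := rfl

theorem ls_adj {w : H} (hw : w ∈ K) : ContinuousLinearMap.adjoint K.subtypeL w = ⟨w, hw⟩ := by
  refine ext_inner_left ℂ fun v => ?_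
  rw [ContinuousLinearMap.adjoint_inner_right]
  rfl

theorem lsC_coe {x : Op H} (hx : ∀ v ∈ K, x v ∈ K) (v : K) : (lsC K x v : H) = x v := by
  rw [lsC_apply, ls_adj K (hx v v.2)]

theorem ls_norm_adj (w : H) : ‖ContinuousLinearMap.adjoint K.subtypeL w‖ ≤ ‖w‖ := by
  refine (ContinuousLinearMap.le_opNorm _ _).trans (mul_le_of_le_one_left (norm_nonneg _) ?_)
  rw [LinearIsometryEquiv.norm_map]
  exact K.norm_subtypeL_le

theorem norm_lsC_le (x : Op H) : ‖lsC K x‖ ≤ ‖x‖ :=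
  ContinuousLinearMap.opNorm_le_bound _ (norm_nonneg _) fun _ =>
    (ls_norm_adj K _).trans (x.le_opNorm _)

theorem norm_lsE_le (x : Op K) : ‖lsE K x‖ ≤ ‖x‖ :=
  ContinuousLinearMap.opNorm_le_bound _ (norm_nonneg _) fun _ =>
    (x.le_opNorm _).trans (mul_le_mul_of_nonneg_left (ls_norm_adj K _) (norm_nonneg _))

theorem lsC_mul (x : Op H) {y : Op H} (hy : ∀ v ∈ K, y v ∈ K) :
    lsC K (x * y) = lsC K x * lsC K y := by
  ext1 v
  rw [mul_apply_eq_comp, lsC_apply K x, lsC_coe K hy]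
  rfl

theorem lsC_star (x : Op H) : lsC K (star x) = star (lsC K x) := by
  rw [ContinuousLinearMap.star_eq_adjoint (lsC K x), ContinuousLinearMap.eq_adjoint_iff]
  intro v w
  rw [lsC_apply, lsC_apply, ContinuousLinearMap.adjoint_inner_left,
    ContinuousLinearMap.adjoint_inner_right, ContinuousLinearMap.star_eq_adjoint,
    ContinuousLinearMap.adjoint_inner_left]
  rfl

theorem lsC_one : lsC K 1 = 1 := by
  ext1 v
  exact Subtype.ext (lsC_coe K (fun v hv => hv) v)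

/-- The restriction of a `*`-algebra to an invariant subspace. -/
noncomputable def lsRep (A : StarSubalgebra ℂ (Op H)) (hA : ∀ x ∈ A, ∀ v ∈ K, x v ∈ K) :
    A →⋆ₐ[ℂ] Op K where
  toFun a := lsC K a
  map_one' := lsC_one K
  map_mul' a b := lsC_mul K a (hA b b.2)
  map_zero' := map_zero (lsC K)
  map_add' a b := map_add (lsC K) (a : Op H) b
  commutes' r := by
    rw [Algebra.algebraMap_eq_smul_one, Algebra.algebraMap_eq_smul_one, ← lsC_one, ← map_smul]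
    rfl
  map_star' a := lsC_star K a

theorem mem_vn_lsRep {A : StarSubalgebra ℂ (Op H)} (hA : ∀ x ∈ A, ∀ v ∈ K, x v ∈ K) {Y : Op K} :
    Y ∈ vn (Set.range (lsRep K A hA)) ↔ ∀ a ∈ A, lsC K a * Y = Y * lsC K a := by
  rw [mem_vn]
  constructor
  · exact fun h a ha => (h _ ⟨⟨a, ha⟩, rfl⟩).1
  · rintro h _ ⟨a, rfl⟩
    exact ⟨h a a.2, by rw [← map_star]; exact h _ (star a).2⟩

theorem ls_near_vn {A B : StarSubalgebra ℂ (Op H)} (hA : ∀ x ∈ A, ∀ v ∈ K, x v ∈ K)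
    (hB : ∀ x ∈ B, ∀ v ∈ K, x v ∈ K) (hBc : IsClosed (B : Set (Op H))) {δ : ℝ} (hδ : 0 ≤ δ)
    (h : ∀ b ∈ B, ∃ a ∈ A, ‖b - a‖ ≤ 2 * δ * ‖b‖) :
    Near (vn (Set.range (lsRep K A hA))) (vn (Set.range (lsRep K B hB))) (KA * δ) := by
  intro Y hY
  obtain ⟨Z, hZ, h1⟩ := G.hyper_rep (A := B) (lsRep K B hB) (Y := Y) (g := 2 * ‖Y‖ * (2 * δ))
    (by positivity) fun b => by
      obtain ⟨a, ha, h2⟩ := h b b.2
      change ‖Y * lsC K b - lsC K b * Y‖ ≤ _ * ‖(b : Op H)‖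
      have e : Y * lsC K b - lsC K b * Y = Y * lsC K (b - a) - lsC K (b - a) * Y := by
        rw [map_sub, mul_sub, sub_mul, (mem_vn_lsRep K hA).1 hY a ha]; abel
      rw [e, mul_assoc]
      exact (hy_comm_le _ _).trans (mul_le_mul_of_nonneg_left
        ((norm_lsC_le K _).trans h2) (by positivity))
  refine ⟨Z, (mem_vn_lsRep K hB).2 fun b hb => (hZ ⟨b, hb⟩).symm, h1.trans ?_⟩
  have := mul_nonneg hδ (norm_nonneg Y)
  unfold KA
  nlinarith

end cmp

/-- The separable statement. -/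
def SepLift (δ η : ℝ) : Prop :=
  ∀ (K : Type u) [NormedAddCommGroup K] [InnerProductSpace ℂ K] [CompleteSpace K]
    [SeparableSpace K] (M N : VonNeumannAlgebra K), Close M N δ → HasLift M N η

/-- `A`, `B` from `exists_sepPair`, `K` from `exists_sepSpace` for `A ∪ B ∪ S'`.  Compression
`c x = K.orthogonalProjection ∘ x ∘ K.subtypeL` is a `*`-homomorphism on operators leaving `K`
invariant together with their adjoints: `ρA : A →⋆ₐ Op K`, `ρB`.  Let `A' = vn (range ρA)`,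
`B' = vn (range ρB)`.  For `Y ∈ A'`, `‖[Y, ρB b]‖ ≤ 4 δ₀ ‖Y‖ ‖b‖`, so `G.hyper_rep` gives
`Close A' B' (KA δ₀)`, and `Close.comm` gives `Close A'.commutant B'.commutant (KA² δ₀)`.  With
`Θ₀` from `core` put `Θ y = i Θ₀ (c y) i* + (1 - p) y (1 - p)`.  For `y ∈ S`:
`Θ y - y = i (Θ₀ (c y) - c y) i*`, and `Θ₀ (c y) ∈ A''` commutes with `c m' ∈ A'`. -/
theorem local_lift {δ η δ₀ : ℝ} (core : SepLift.{u} δ η) (hη : 0 ≤ η) (h0 : 0 < δ₀)
    (hδ : KA ^ 2 * δ₀ ≤ δ) (h : Close M N δ₀) (S S' : Finset (Op H)) (V : Finset H)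
    (hS : ∀ y ∈ S, y ∈ N) (hS' : ∀ m ∈ S', m ∈ M.commutant) :
    ∃ Θ : Op H →ₗ[ℂ] Op H, ∀ y ∈ S, ‖Θ y - y‖ ≤ η * ‖y‖ ∧
      ∀ m ∈ S', ∀ v ∈ V, m (Θ y v) = Θ y (m v) := by
  obtain ⟨A, B, hAc, hBc, hAs, hBs, hSB, hAM, -, hAB, hBA⟩ :=
    exists_sepPair h0 h S.countable_toSet hS
  obtain ⟨K, hKc, hKs, hVK, hK⟩ := exists_sepSpace
    ((hAs.union hBs).union S'.countable_toSet.isSeparable) V.countable_toSet
  have : CompleteSpace K := hKc.completeSpace_coe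
  have : SeparableSpace K := hKs.separableSpace
  have hA : ∀ x ∈ A, ∀ v ∈ K, x v ∈ K := fun x hx v hv => (hK x (.inl (.inl hx)) v hv).1
  have hB : ∀ x ∈ B, ∀ v ∈ K, x v ∈ K := fun x hx v hv => (hK x (.inl (.inr hx)) v hv).1
  have hm : ∀ x ∈ S', ∀ v ∈ K, x v ∈ K := fun x hx v hv => (hK x (.inr hx) v hv).1
  have hcl : Close (vn (Set.range (lsRep K A hA))) (vn (Set.range (lsRep K B hB))) (KA * δ₀) :=
    ⟨ls_near_vn K hA hB hBc h0.le hBA, ls_near_vn K hB hA hAc h0.le hAB⟩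
  obtain ⟨Θ, hΘ⟩ := core K _ _ ((hcl.comm (mul_nonneg KA_pos.le h0.le)).mono
    (le_of_eq_of_le (by ring) hδ))
  refine ⟨lsE K ∘ₗ (Θ ∘ₗ lsC K - lsC K) + LinearMap.id, fun y hy => ?_⟩
  obtain ⟨h1, h2⟩ := hΘ (lsC K y) (subset_comm_vn ⟨⟨y, hSB hy⟩, rfl⟩)
  have e : (lsE K ∘ₗ (Θ ∘ₗ lsC K - lsC K) + LinearMap.id : Op H →ₗ[ℂ] Op H) y =
      lsE K (Θ (lsC K y) - lsC K y) + y := rfl
  have e2 : ∀ (w : H) (hw : w ∈ K), (lsE K (Θ (lsC K y) - lsC K y) + y) w =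
      Θ (lsC K y) ⟨w, hw⟩ := fun w hw => by
    rw [add_apply, lsE_apply, ls_adj K hw, _root_.sub_apply, Submodule.coe_sub,
      lsC_coe K (hB y (hSB hy)), sub_add_cancel]
  rw [e]
  refine ⟨?_, fun m hm' v hv => ?_⟩
  · rw [add_sub_cancel_right]
    exact (norm_lsE_le K _).trans (h2.trans (mul_le_mul_of_nonneg_left (norm_lsC_le K y) hη))
  · have h3 : lsC K m ∈ vn (Set.range (lsRep K A hA)) := (mem_vn_lsRep K hA).2 fun a ha => by
      rw [← lsC_mul K a (hm m hm'), ← lsC_mul K m (hA a ha), comm_of_mem (hAM a ha) (hS' m hm')]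
    rw [e2 v (hVK hv), e2 _ (hm m hm' v (hVK hv)), ← lsC_coe K (hm m hm'), ← mul_apply_eq_comp,
      comm_of_mem h3 h1, mul_apply_eq_comp]
    congr 2
    exact Subtype.ext (lsC_coe K (hm m hm') _)

/-- Ultralimit (`exists_linLim` on the submodule `N`, then `LinearMap.exists_extend`) along
`R121.fU` of the type `N × M' × H` (a finite set of triples gives `S`, `S'`, `V` by projection). -/
theorem hasLift_of_sep {δ η δ₀ : ℝ} (core : SepLift.{u} δ η) (hη : 0 ≤ η) (h0 : 0 < δ₀)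
    (hδ : KA ^ 2 * δ₀ ≤ δ) (h : Close M N δ₀) : HasLift M N η := by
  classical
  let E := N.toStarSubalgebra.toSubalgebra.toSubmodule
  choose Θ hΘ using fun s : Finset (R121.Al N × R121.Al M.commutant × H) =>
    local_lift core hη h0 hδ h (s.image fun p => (p.1 : Op H)) (s.image fun p => (p.2.1 : Op H))
      (s.image fun p => p.2.2)
      (fun y hy => by obtain ⟨p, -, rfl⟩ := Finset.mem_image.1 hy; exact p.1.2)
      (fun y hy => by obtain ⟨p, -, rfl⟩ := Finset.mem_image.1 hy; exact p.2.1.2)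
  have hb : ∀ t : E, ∀ᶠ s in (R121.fU (R121.Al N × R121.Al M.commutant × H) : Filter _),
      ‖Θ s t - t‖ ≤ η * ‖(t : Op H)‖ := fun t =>
    (R121.fU_mem ((⟨t, t.2⟩, 0, 0) : R121.Al N × R121.Al M.commutant × H)).mono fun s hs =>
      (hΘ s t (Finset.mem_image.2 ⟨_, hs, rfl⟩)).1
  obtain ⟨Ψ, hΨ⟩ := exists_linLim (R121.fU (R121.Al N × R121.Al M.commutant × H))
    (fun s => Θ s ∘ₗ E.subtype) fun t => ⟨η * ‖(t : Op H)‖ + ‖(t : Op H)‖, (hb t).mono fun s hs =>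
      (norm_le_norm_sub_add _ (t : Op H)).trans (add_le_add_left hs _)⟩
  obtain ⟨Θ', hΘ'⟩ := Ψ.exists_extend
  refine ⟨Θ', fun y hy => ?_⟩
  have e : Θ' y = Ψ ⟨y, hy⟩ := by rw [← hΘ']; rfl
  rw [e]
  refine ⟨mem_of_comm fun m hm => ?_, (hΨ ⟨y, hy⟩).norm_sub_le y (hb ⟨y, hy⟩)⟩
  ext1 v
  refine ext_inner_left ℂ fun ζ => tendsto_nhds_unique (((hΨ ⟨y, hy⟩).mul_left m v ζ).congr' ?_)
    ((hΨ ⟨y, hy⟩).mul_right m v ζ)
  refine (R121.fU_mem ((⟨y, hy⟩, ⟨m, hm⟩, v) : R121.Al N × R121.Al M.commutant × H)).mono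
    fun s hs => ?_
  exact congrArg (fun w => ⟪ζ, w⟫_ℂ) ((hΘ s y (Finset.mem_image.2 ⟨_, hs, rfl⟩)).2 m
    (Finset.mem_image.2 ⟨_, hs, rfl⟩) v (Finset.mem_image.2 ⟨_, hs, rfl⟩))

end Crest.Agent.R78
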