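import Crest.Agent.R78.FrameDef
import Crest.Agent.R78.Pol

/-! # R78: basic lemmas on frames (task `FrameLem`) -/

set_option autoImplicit false
set_option linter.unusedSectionVars false
open Filter Topology
open scoped InnerProductSpace

namespace Crest.Agent.R78

universe u
variable {H : Type u} [NormedAddCommGroup H] [InnerProductSpace ℂ H] [CompleteSpace H]

namespace Frame
variable {𝓗 : Type u} [NormedAddCommGroup 𝓗] [InnerProductSpace ℂ 𝓗] [CompleteSpace 𝓗]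
  {A : Type} {o : A} (F : Frame H 𝓗 A o) {M N : VonNeumannAlgebra H} {X Y : Op 𝓗}

theorem inner_ι (η ζ : H) : ⟪F.ι η, F.ι ζ⟫_ℂ = ⟪η, ζ⟫_ℂ := by
  rw [← ContinuousLinearMap.adjoint_inner_right, F.adj_ι]

theorem norm_ι (η : H) : ‖F.ι η‖ = ‖η‖ := by
  rw [@norm_eq_sqrt_re_inner ℂ, F.inner_ι, ← @norm_eq_sqrt_re_inner ℂ]

theorem p_ι (η : H) : F.p (F.ι η) = F.ι η := by
  have h := F.ι_adj (F.ι η)
  rw [F.adj_ι] at h
  rw [h]
  exact congrArg (fun X : Op 𝓗 => X (F.p' (F.ι η))) F.p_proj.isIdempotentElem.eq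

theorem p'_ι (η : H) : F.p' (F.ι η) = F.ι η := by
  exact F.flip.p_ι η

omit F in
theorem fl_inner (X : Op 𝓗) (η ζ : 𝓗) : ⟪η, X ζ⟫_ℂ = ⟪star X η, ζ⟫_ℂ :=
  (ContinuousLinearMap.adjoint_inner_left X ζ η).symm

omit F in
theorem fl_C2_mul {a x y : Op 𝓗} (h : C2 a x) (h' : C2 a y) : C2 a (x * y) :=
  ⟨by rw [← mul_assoc, h.1, mul_assoc, h'.1, mul_assoc],
    by rw [← mul_assoc, h.2, mul_assoc, h'.2, mul_assoc]⟩

theorem adj_p (η : 𝓗) :
    ContinuousLinearMap.adjoint F.ι (F.p η) = ContinuousLinearMap.adjoint F.ι η := by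
  refine ext_inner_left ℂ fun ζ => ?_
  rw [ContinuousLinearMap.adjoint_inner_right, ContinuousLinearMap.adjoint_inner_right, fl_inner,
    F.p_proj.isSelfAdjoint.star_eq, F.p_ι]

theorem adj_lift (x : Op H) (η : 𝓗) : ContinuousLinearMap.adjoint F.ι (F.lift x η) =
    x (ContinuousLinearMap.adjoint F.ι η) := by
  refine ext_inner_left ℂ fun ζ => ?_
  rw [ContinuousLinearMap.adjoint_inner_right, fl_inner, ← map_star, F.lift_ι, fl_inner x,
    ContinuousLinearMap.adjoint_inner_right]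

theorem norm_lift_le (x : Op H) : ‖F.lift x‖ ≤ ‖x‖ := by
  exact NonUnitalStarAlgHom.norm_apply_le F.lift x

theorem lift_unitary {x : Op H} (hx : x ∈ unitary (Op H)) : F.lift x ∈ unitary (Op 𝓗) := by
  exact ⟨by rw [← map_star, ← map_mul, hx.1, map_one], by rw [← map_star, ← map_mul, hx.2, map_one]⟩

theorem lift_star_v (x : Op H) (j : A) : F.lift x * star (F.v j) = star (F.v j) * F.lift x := by
  have h := congrArg star (F.lift_v (star x) j)
  rw [star_mul, star_mul, ← map_star, star_star] at h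
  exact h.symm

theorem C2_v_lift (j : A) (x : Op H) : C2 (F.v j) (F.lift x) := by
  exact ⟨(F.lift_v x j).symm, (F.lift_star_v x j).symm⟩

theorem fl_inner_v (i j : A) (η ζ : 𝓗) :
    ⟪F.v i η, F.v j ζ⟫_ℂ = ⟪η, (star (F.v i) * F.v j) ζ⟫_ℂ :=
  (ContinuousLinearMap.adjoint_inner_right (F.v i) η (F.v j ζ)).symm

theorem fl_norm_v (j : A) (η : 𝓗) : ‖F.v j η‖ = ‖η‖ := by
  rw [@norm_eq_sqrt_re_inner ℂ, F.fl_inner_v, F.v_iso, one_apply_eq_self,
    ← @norm_eq_sqrt_re_inner ℂ]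

theorem norm_v_le (j : A) : ‖F.v j‖ ≤ 1 := by
  exact ContinuousLinearMap.opNorm_le_bound _ zero_le_one fun η => by rw [F.fl_norm_v, one_mul]

theorem cmp_lift (x : Op H) : F.cmp (F.lift x) = x := by
  ext η
  rw [cmp_apply, F.lift_ι, F.adj_ι]

theorem cmp_mul_lift (X : Op 𝓗) (x : Op H) : F.cmp (X * F.lift x) = F.cmp X * x := by
  ext η
  rw [cmp_apply, mul_apply_eq_comp, F.lift_ι]
  rfl

theorem cmp_lift_mul (X : Op 𝓗) (x : Op H) : F.cmp (F.lift x * X) = x * F.cmp X := by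
  ext η
  rw [cmp_apply, mul_apply_eq_comp, F.adj_lift]
  rfl

theorem cmp_star (X : Op 𝓗) : F.cmp (star X) = star (F.cmp X) := by
  ext η
  refine ext_inner_left ℂ fun ζ => ?_
  rw [inner_cmp, fl_inner, fl_inner (star _), star_star, star_star, ← inner_conj_symm,
    ← inner_cmp, inner_conj_symm]

theorem norm_cmp_le (X : Op 𝓗) : ‖F.cmp X‖ ≤ ‖X‖ := by
  refine ContinuousLinearMap.opNorm_le_bound _ (norm_nonneg _) fun η => ?_
  have h1 : ‖F.ι‖ ≤ 1 :=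
    ContinuousLinearMap.opNorm_le_bound _ zero_le_one fun η => by rw [F.norm_ι, one_mul]
  rw [cmp_apply, ← F.norm_ι η]
  refine (ContinuousLinearMap.le_opNorm _ _).trans ?_
  rw [LinearIsometryEquiv.norm_map]
  exact (mul_le_of_le_one_left (norm_nonneg _) h1).trans (X.le_opNorm _)

theorem cmp_mem (h : ∀ y ∈ M.commutant, F.lift y * X = X * F.lift y) : F.cmp X ∈ M := by
  exact mem_of_comm fun y hy => by rw [← cmp_lift_mul, h y hy, cmp_mul_lift]

/-- `ι* X Y ι = ι* p X Y p' ι = ι* X p p' Y ι`. -/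
theorem cmp_mul (hX : X * F.p = F.p * X) (hY : Y * F.p' = F.p' * Y) :
    F.cmp (X * Y) = F.cmp X * F.cmp Y := by
  ext η
  have h1 : ∀ ζ, X (F.p ζ) = F.p (X ζ) := fun ζ => congrArg (fun Z : Op 𝓗 => Z ζ) hX
  have h2 : ∀ ζ, Y (F.p' ζ) = F.p' (Y ζ) := fun ζ => congrArg (fun Z : Op 𝓗 => Z ζ) hY
  rw [mul_apply_eq_comp, cmp_apply, cmp_apply, cmp_apply, F.ι_adj, h1, F.adj_p, ← h2,
    F.p'_ι]
  rfl

theorem fl_col (Y : Op 𝓗) : ∃ X : Op 𝓗, ‖X‖ ≤ ‖Y‖ ∧
    ∀ η, HasSum (fun j => F.v j (Y (star (F.v j) η))) (X η) := by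
  refine exists_colSum (fun j => F.v j * Y * star (F.v j)) (fun i j hij η ζ => ?_) (norm_nonneg Y)
    fun s η => ?_
  · simp only [mul_apply_eq_comp]
    rw [F.fl_inner_v, F.v_orth i j hij, zero_apply, inner_zero_right]
  · refine le_trans ?_ (mul_le_mul_of_nonneg_left
      (sum_le_hasSum s (fun _ _ => sq_nonneg _) (F.v_par η)) (sq_nonneg ‖Y‖))
    rw [Finset.mul_sum]
    refine Finset.sum_le_sum fun j _ => ?_
    simp only [mul_apply_eq_comp]
    rw [F.fl_norm_v, ← mul_pow]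
    exact pow_le_pow_left₀ (norm_nonneg _) (Y.le_opNorm _) 2

/-- `η = ∑ v j v j* η` (Parseval and orthogonality of the ranges). -/
theorem hasSum_v (η : 𝓗) : HasSum (fun j => F.v j (star (F.v j) η)) η := by
  obtain ⟨X, -, hX⟩ := F.fl_col 1
  have h : (X : 𝓗 →ₗ[ℂ] 𝓗) = LinearMap.id := by
    refine (ext_inner_map _ _).1 fun ζ => ?_
    have h1 := (hX ζ).mapL (innerSL ℂ ζ)
    have h2 := (F.v_par ζ).mapL Complex.ofRealCLM
    simp only [innerSL_apply_apply, one_apply_eq_self, fl_inner (F.v _),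
      inner_self_eq_norm_sq_to_K] at h1
    have h3 : ⟪ζ, X ζ⟫_ℂ = ⟪ζ, ζ⟫_ℂ := by
      rw [inner_self_eq_norm_sq_to_K]
      refine h1.unique ?_
      simpa using h2
    rw [← inner_conj_symm, ← inner_conj_symm (LinearMap.id ζ)]
    exact congrArg _ h3
  have h4 := hX η
  rwa [show X η = η from LinearMap.congr_fun h η] at h4

theorem row_ext (h : ∀ j, X * F.v j = Y * F.v j) : X = Y := by
  ext η
  refine ((F.hasSum_v η).mapL X).unique ?_
  convert (F.hasSum_v η).mapL Y using 2 with j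
  exact congrArg (fun Z : Op 𝓗 => Z (star (F.v j) η)) (h j)

theorem fl_rho (Y : Op 𝓗) : ∃ X : Op 𝓗, ‖X‖ ≤ ‖Y‖ ∧ ∀ j, X * F.v j = F.v j * Y := by
  obtain ⟨X, h1, hX⟩ := F.fl_col Y
  refine ⟨X, h1, fun j => ?_⟩
  ext η
  refine (hX (F.v j η)).unique ?_
  have e : ∀ i, star (F.v i) (F.v j η) = (star (F.v i) * F.v j) η := fun _ => rfl
  convert hasSum_single (f := fun i => F.v i (Y (star (F.v i) (F.v j η)))) j fun i hi => ?_ using 1
  · rw [e, F.v_iso]; rfl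
  · rw [e, F.v_orth i j hi]; simp

/-- `X η = ∑ v j Y v j* η`, `‖X η‖² = ∑ ‖Y v j* η‖²`. -/
theorem rowNorm (h : ∀ j, X * F.v j = F.v j * Y) : ‖X‖ ≤ ‖Y‖ := by
  obtain ⟨X', h1, h2⟩ := F.fl_rho Y
  rwa [F.row_ext fun j => (h j).trans (h2 j).symm]

/-- If `X v j = v j Y` for all `j` then `v j* X = Y v j*` (`row_ext`). -/
theorem star_v_mul (h : ∀ j, X * F.v j = F.v j * Y) (j : A) :
    star (F.v j) * X = Y * star (F.v j) := by
  refine F.row_ext fun i => ?_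
  rw [mul_assoc, h, ← mul_assoc, mul_assoc Y]
  by_cases hij : j = i
  · rw [hij, F.v_iso, one_mul, mul_one]
  · rw [F.v_orth j i hij, zero_mul, mul_zero]

/-- `X = ∑ v j Y v j*` (`exists_colSum`). -/
theorem exists_rho (Y : Op 𝓗) : ∃ X : Op 𝓗, ∀ j, X * F.v j = F.v j * Y := by
  exact (F.fl_rho Y).imp fun _ h => h.2

theorem starT_v' (j : A) : star F.T * F.v' j = F.v j := by
  exact F.flip.T_v j

theorem comm_T (h : ∀ j, X * F.v j = F.v j * X) (h' : ∀ j, X * F.v' j = F.v' j * X) :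
    X * F.T = F.T * X := by
  refine F.row_ext fun j => ?_
  rw [mul_assoc, F.T_v, h', mul_assoc, h, ← mul_assoc, F.T_v]

theorem lift_T (x : Op H) : F.lift x * F.T = F.T * F.lift x := by
  exact F.comm_T (F.lift_v x) (F.lift_v' x)

theorem lift_starT (x : Op H) : F.lift x * star F.T = star F.T * F.lift x := by
  exact F.flip.lift_T x

theorem rho_v (h : ∀ j, X * F.v' j = F.v' j * X) (j : A) :
    star F.T * X * F.T * F.v j = F.v j * X := by
  rw [mul_assoc, F.T_v, mul_assoc, h, ← mul_assoc, F.starT_v']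

theorem fl_rho1 (h : ∀ j, X * F.v' j = F.v' j * X) (i : A) :
    F.v' i * (star F.T * X * F.T) = star F.T * X * F.T * F.v' i := by
  refine F.row_ext fun j => ?_
  rw [mul_assoc, F.rho_v h, mul_assoc _ (F.v' i), ← (F.v_v' j i).1, ← mul_assoc _ (F.v j) (F.v' i),
    F.rho_v h, ← mul_assoc, ← (F.v_v' j i).1, mul_assoc, mul_assoc, h]

theorem fl_rho2 (h : ∀ j, C2 (F.v' j) X) (i : A) : C2 (F.v' i) (star F.T * X * F.T) := by
  refine ⟨F.fl_rho1 (fun j => (h j).1.symm) i, ?_⟩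
  have h1 := congrArg star (F.fl_rho1 (fun j => (h j).star_right.1.symm) i)
  simp only [star_mul, star_star, mul_assoc] at h1 ⊢
  exact h1.symm

theorem fl_rho3 {y : Op H} (h : F.lift y * X = X * F.lift y) :
    F.lift y * (star F.T * X * F.T) = star F.T * X * F.T * F.lift y :=
  (((show Commute _ _ from F.lift_starT y).mul_right h).mul_right (F.lift_T y)).eq

/-- `ρ X = T* X T` satisfies `ρ X v j = v j X`, so `[ρ X, v' i] v j = v j [X, v' i] = 0`; the same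
for `X*`. -/
theorem rho_mem (h : X ∈ F.Mt M) : star F.T * X * F.T ∈ F.Mt M := by
  rw [mem_Mt] at h ⊢
  exact ⟨fun y hy => F.fl_rho3 (h.1 y hy), F.fl_rho2 h.2⟩

theorem rho_mem_Sc (h : X ∈ F.Sc) : star F.T * X * F.T ∈ F.Sc := by
  rw [mem_Sc] at h ⊢
  exact ⟨fun y => F.fl_rho3 (h.1 y), F.fl_rho2 h.2⟩

theorem lift_mem {x : Op H} (hx : x ∈ M) : F.lift x ∈ F.Mt M := by
  exact F.mem_Mt.2 ⟨fun y hy => by rw [← map_mul, ← map_mul, comm_of_mem hx hy],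
    fun j => F.flip.C2_v_lift j x⟩

theorem v_mem_Sc (j : A) : F.v j ∈ F.Sc := by
  exact F.mem_Sc.2 ⟨fun y => F.lift_v y j, fun i => F.flip.v_v' i j⟩

theorem p_mem_Sc : F.p ∈ F.Sc := by
  exact F.mem_Sc.2 ⟨fun y => F.p_comm _ fun j => F.C2_v_lift j y, fun i =>
    ⟨F.p_comm _ fun j => F.v_v' j i, F.p_comm _ fun j => (F.v_v' j i).star_right⟩⟩

theorem fl_P_succ (n : ℕ) : star F.T ^ (n + 1) * F.p * F.T ^ (n + 1) =
    star F.T * (star F.T ^ n * F.p * F.T ^ n) * F.T := by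
  rw [pow_succ', pow_succ]
  simp only [mul_assoc]

theorem P_mem_Sc (n : ℕ) : star F.T ^ n * F.p * F.T ^ n ∈ F.Sc := by
  induction n with
  | zero => simpa using F.p_mem_Sc
  | succ n ih => rw [fl_P_succ]; exact F.rho_mem_Sc ih

theorem v_star_p {j : A} (hj : j ≠ o) : star (F.v j) * F.p = 0 := by
  rw [← F.v_p, ← mul_assoc, F.v_orth j o hj, zero_mul]

theorem fl_right (𝒳 : Set (Op 𝓗)) (h1 : ∀ X ∈ 𝒳, ∀ j, X * F.v j ∈ 𝒳)
    (h0 : ∀ X ∈ 𝒳, X * F.p = 0) : ∀ X ∈ 𝒳, X = 0 := by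
  have h : ∀ n : ℕ, ∀ X ∈ 𝒳, X * (star F.T ^ n * F.p * F.T ^ n) = 0 := by
    intro n
    induction n with
    | zero => simpa using h0
    | succ n ih =>
      intro X hX
      refine F.row_ext fun j => ?_
      rw [fl_P_succ, mul_assoc, F.rho_v fun i => ((F.mem_Sc.1 (F.P_mem_Sc n)).2 i).1.symm,
        ← mul_assoc, ih _ (h1 X hX j), zero_mul]
  intro X hX
  ext η
  have h2 := (X.continuous.tendsto η).comp (F.p_lim η)
  refine tendsto_nhds_unique h2 (tendsto_const_nhds.congr fun n => ?_)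
  exact (congrArg (fun Z : Op 𝓗 => Z η) (h n X hX)).symm

theorem fl_left (𝒳 : Set (Op 𝓗)) (h1 : ∀ X ∈ 𝒳, ∀ j, star (F.v j) * X ∈ 𝒳)
    (h0 : ∀ X ∈ 𝒳, F.p * X = 0) : ∀ X ∈ 𝒳, X = 0 := by
  intro X hX
  refine star_eq_zero.1 (F.fl_right {Y | star Y ∈ 𝒳} (fun Y hY j => ?_) (fun Y hY => ?_) _
    (by simpa using hX))
  · change star _ ∈ 𝒳
    rw [star_mul]
    exact h1 _ hY j
  · rw [← star_eq_zero, star_mul, F.p_proj.isSelfAdjoint.star_eq]
    exact h0 _ hY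

theorem fl_cmp0 (h : F.cmp X = 0) : F.p * (F.p' * X * F.p') * F.p = 0 := by
  ext η
  have h1 := F.ι_adj (X (F.ι (ContinuousLinearMap.adjoint F.ι η)))
  rw [← cmp_apply, h, show F.ι (ContinuousLinearMap.adjoint F.ι η) = F.p' (F.p η) from
    F.flip.ι_adj η] at h1
  simpa using h1.symm

/-- Totality of the vectors `v_w v'_u ι η`, in the form: a set of operators closed under
`X ↦ v j* X`, `X v j`, `v' j* X`, `X v' j` all of whose members have zero compression is `{0}`.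
With `P n = T*ⁿ p Tⁿ`, `P' m = Tᵐ p' T*ᵐ`: `P (n+1) v j = v j P n` (`rho_v`), so by induction and
`row_ext` (also its adjoint form) `P' m P n X P k P' l = 0` for all members `X`; let the four
indices tend to infinity. -/
theorem tot (𝒳 : Set (Op 𝓗)) (h1 : ∀ X ∈ 𝒳, ∀ j, star (F.v j) * X ∈ 𝒳 ∧ X * F.v j ∈ 𝒳 ∧
      star (F.v' j) * X ∈ 𝒳 ∧ X * F.v' j ∈ 𝒳) (h0 : ∀ X ∈ 𝒳, F.cmp X = 0) : ∀ X ∈ 𝒳, X = 0 := by
  have c := fun j => (F.mem_Sc.1 (F.v_mem_Sc j)).2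
  have c1 : ∀ j, F.v j * F.p' = F.p' * F.v j := fun j => F.p'_comm _ (c j)
  have c2 : ∀ j, star (F.v j) * F.p' = F.p' * star (F.v j) := fun j =>
    F.p'_comm _ fun i => (c j i).star_right
  have s1 : ∀ X ∈ 𝒳, F.p * (F.p' * X * F.p') = 0 := fun X hX =>
    F.fl_right ((fun X => F.p * (F.p' * X * F.p')) '' 𝒳)
      (by
        rintro _ ⟨X, hX, rfl⟩ j
        exact ⟨_, (h1 X hX j).2.1, by simp only [mul_assoc, c1]⟩)
      (by rintro _ ⟨X, hX, rfl⟩; exact F.fl_cmp0 (h0 X hX)) _ ⟨X, hX, rfl⟩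
  have s2 : ∀ X ∈ 𝒳, F.p * (F.p' * X) = 0 := fun X hX =>
    F.flip.fl_right ((fun X => F.p * (F.p' * X)) '' 𝒳)
      (by
        rintro _ ⟨X, hX, rfl⟩ j
        exact ⟨_, (h1 X hX j).2.2.2, by simp only [mul_assoc, flip_v]⟩)
      (by rintro _ ⟨X, hX, rfl⟩; exact (mul_assoc _ _ _).trans (s1 X hX)) _ ⟨X, hX, rfl⟩
  have s3 : ∀ X ∈ 𝒳, F.p' * X = 0 := fun X hX =>
    F.fl_left ((fun X => F.p' * X) '' 𝒳)
      (by
        rintro _ ⟨X, hX, rfl⟩ j
        exact ⟨_, (h1 X hX j).1, by simp only [← mul_assoc, c2]⟩)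
      (by rintro _ ⟨X, hX, rfl⟩; exact s2 X hX) _ ⟨X, hX, rfl⟩
  exact F.flip.fl_left 𝒳 (fun X hX j => (h1 X hX j).2.2.1) s3

/-- Commutation theorem.  `→`: `lift x`, `v j`, `(v j)*` belong to `Mt M`.  `←`: let `𝒴` be the set
of operators with the property on the right and apply `tot` to
`𝒳 = {a X Y b - a Y X b}`-like set: `𝒳 = {(c* X d) (a* Y b) - (a* Y b') …}`.  Concretely: for words,
`v_w* v'_u* (X Y - Y X) v_{w'} v'_{u'} = X₁ Y₁ - Y₂ X₂` where `X₁ = v'_u* X v'_{u'} = X₂ ∈ 𝒴`,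
`Y₁ = v_w* Y v_{w'} = Y₂ ∈ Mt M`; the set `𝒳` of all
`a* c* (X Y - Y X) b d` (`a`, `b` in the monoid generated by the `v j`; `c`, `d` by the `v' j`) is
closed under the four operations, and `cmp (X₁ Y₁) = cmp X₁ * cmp Y₁` (`cmp_mul`),
`cmp (Y₁ X₁) = cmp Y₁ * cmp X₁` (`cmp_mul` for the flip) with `cmp X₁ ∈ M'`, `cmp Y₁ ∈ M`. -/
theorem mem_Mt' : X ∈ (F.Mt M).commutant ↔
    (∀ x ∈ M, F.lift x * X = X * F.lift x) ∧ ∀ j, C2 (F.v j) X := by
  have hv : ∀ j, F.v j ∈ F.Mt M := fun j => F.Sc_le (F.v_mem_Sc j) M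
  refine ⟨fun h => ⟨fun x hx => comm_of_mem (F.lift_mem hx) h,
    fun j => ⟨comm_of_mem (hv j) h, comm_of_mem (star_mem (hv j)) h⟩⟩, fun h => ?_⟩
  have hX : X ∈ F.flip.Mt M.commutant :=
    F.flip.mem_Mt.2 (by rw [VonNeumannAlgebra.commutant_commutant]; exact h)
  have hv' : ∀ j, F.v' j ∈ F.flip.Mt M.commutant := fun j =>
    F.flip.Sc_le (F.flip.v_mem_Sc j) _
  refine VonNeumannAlgebra.mem_commutant_iff.2 fun Y hY => (sub_eq_zero.1 ?_).symm
  refine F.tot {Z | ∃ X ∈ F.flip.Mt M.commutant, ∃ Y ∈ F.Mt M, Z = X * Y - Y * X} ?_ ?_ _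
    ⟨X, hX, Y, hY, rfl⟩
  · rintro _ ⟨X, hX, Y, hY, rfl⟩ j
    have a : C2 (F.v j) X := (F.flip.mem_Mt.1 hX).2 j
    have b : C2 (F.v' j) Y := (F.mem_Mt.1 hY).2 j
    refine ⟨⟨X, hX, _, mul_mem (star_mem (hv j)) hY, ?_⟩, ⟨X, hX, _, mul_mem hY (hv j), ?_⟩,
      ⟨_, mul_mem (star_mem (hv' j)) hX, Y, hY, ?_⟩, ⟨_, mul_mem hX (hv' j), Y, hY, ?_⟩⟩
    · simp only [mul_sub, ← mul_assoc, a.2]
    · simp only [sub_mul, mul_assoc, a.1]
    · simp only [mul_sub, ← mul_assoc, b.2]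
    · simp only [sub_mul, mul_assoc, b.1]
  · rintro _ ⟨X, hX, Y, hY, rfl⟩
    have a := F.p_comm X (F.flip.mem_Mt.1 hX).2
    have b := F.p'_comm Y (F.mem_Mt.1 hY).2
    rw [map_sub, F.cmp_mul a b, show F.cmp (Y * X) = _ from F.flip.cmp_mul b a, sub_eq_zero]
    exact (comm_of_mem (F.cmp_mem (F.mem_Mt.1 hY).1) (F.cmp_mem (F.flip.mem_Mt.1 hX).1)).symm

theorem flip_Mt (M : VonNeumannAlgebra H) : F.flip.Mt M.commutant = (F.Mt M).commutant := by
  ext X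
  rw [F.mem_Mt', F.flip.mem_Mt, VonNeumannAlgebra.commutant_commutant]
  rfl

theorem flip_Mt' (M : VonNeumannAlgebra H) : (F.flip.Mt M.commutant).commutant = F.Mt M := by
  rw [flip_Mt, VonNeumannAlgebra.commutant_commutant]

theorem rho_mem' (h : X ∈ (F.Mt M).commutant) : F.T * X * star F.T ∈ (F.Mt M).commutant := by
  rw [← flip_Mt] at h ⊢
  simpa using F.flip.rho_mem h

theorem lift_mem' {x : Op H} (hx : x ∈ M.commutant) : F.lift x ∈ (F.Mt M).commutant := by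
  rw [← flip_Mt]
  exact F.flip.lift_mem hx

theorem v'_mem' (M : VonNeumannAlgebra H) (j : A) : F.v' j ∈ (F.Mt M).commutant := by
  rw [← flip_Mt]
  exact F.flip.Sc_le (F.flip.v_mem_Sc j) _

theorem cmp_mem' (h : X ∈ (F.Mt M).commutant) : F.cmp X ∈ M.commutant := by
  rw [← flip_Mt] at h
  exact F.cmp_mem (F.flip.mem_Mt.1 h).1

/-- `X - lift (cmp X)` commutes with all `v j`, `v' j` and adjoints, hence with `p`, `p'`; apply
`tot` to the set of `a* c* Y b d`, or directly `Y P n P' m = 0` by induction. -/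
theorem eq_lift (h : ∀ j, C2 (F.v j) X) (h' : ∀ j, C2 (F.v' j) X) : X = F.lift (F.cmp X) := by
  refine sub_eq_zero.1 (F.tot {Z | ∃ a b : Op 𝓗, Z = a * (X - F.lift (F.cmp X)) * b ∧
    ∀ W, (∀ j, C2 (F.v j) W) → (∀ j, C2 (F.v' j) W) → a * W = W * a} ?_ ?_ _
    ⟨1, 1, by simp, by simp⟩)
  · rintro _ ⟨a, b, rfl, ha⟩ j
    refine ⟨⟨star (F.v j) * a, b, by simp only [mul_assoc], fun W h1 h2 => ?_⟩,
      ⟨a, b * F.v j, by simp only [mul_assoc], ha⟩,
      ⟨star (F.v' j) * a, b, by simp only [mul_assoc], fun W h1 h2 => ?_⟩,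
      ⟨a, b * F.v' j, by simp only [mul_assoc], ha⟩⟩
    · rw [mul_assoc, ha W h1 h2, ← mul_assoc, (h1 j).2, mul_assoc]
    · rw [mul_assoc, ha W h1 h2, ← mul_assoc, (h2 j).2, mul_assoc]
  · rintro _ ⟨a, b, rfl, ha⟩
    have c1 : ∀ j, C2 (F.v j) (X - F.lift (F.cmp X)) := fun j =>
      ⟨by rw [mul_sub, sub_mul, (h j).1, (F.C2_v_lift j _).1],
        by rw [mul_sub, sub_mul, (h j).2, (F.C2_v_lift j _).2]⟩
    have c2 : ∀ j, C2 (F.v' j) (X - F.lift (F.cmp X)) := fun j =>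
      ⟨by rw [mul_sub, sub_mul, (h' j).1, F.lift_v'],
        by rw [mul_sub, sub_mul, (h' j).2]; exact congrArg _ (F.flip.C2_v_lift j _).2⟩
    have c3 := F.p_comm _ c1
    have c4 := F.p'_comm _ c2
    have c0 : F.cmp (X - F.lift (F.cmp X)) = 0 := by rw [map_sub, cmp_lift, sub_self]
    rw [ha _ c1 c2, mul_assoc]
    generalize X - F.lift (F.cmp X) = W at c0 c3 c4
    ext η
    have d1 : ∀ ζ, W (F.p ζ) = F.p (W ζ) := fun ζ => congrArg (fun Z : Op 𝓗 => Z ζ) c3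
    have d2 : ∀ ζ, W (F.p' ζ) = F.p' (W ζ) := fun ζ => congrArg (fun Z : Op 𝓗 => Z ζ) c4
    rw [cmp_apply, mul_apply_eq_comp, ← F.adj_ι (ContinuousLinearMap.adjoint F.ι _),
      F.ι_adj, ← d2, ← d1, ← F.ι_adj, ← cmp_apply, c0]
    rfl

theorem ctr_Mt : Ctr (F.Mt M) X ↔ ∃ z, Ctr M z ∧ X = F.lift z := by
  constructor
  · rintro ⟨h1, h2⟩
    exact ⟨_, ⟨F.cmp_mem (F.mem_Mt.1 h1).1, F.cmp_mem' h2⟩,
      F.eq_lift (F.mem_Mt'.1 h2).2 (F.mem_Mt.1 h1).2⟩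
  · rintro ⟨z, hz, rfl⟩
    exact ⟨F.lift_mem hz.1, F.lift_mem' hz.2⟩

/-- A unitary normalising `M'` normalises `Mt M`. -/
theorem lift_conj_mem {u : Op H} (hu : u ∈ unitary (Op H))
    (h : ∀ y ∈ M.commutant, star u * y * u ∈ M.commutant) (hX : X ∈ F.Mt M) :
    F.lift u * X * star (F.lift u) ∈ F.Mt M := by
  rw [mem_Mt] at hX ⊢
  refine ⟨fun y hy => ?_, fun j => fl_C2_mul (fl_C2_mul (F.flip.C2_v_lift j u) (hX.2 j))
    (F.flip.C2_v_lift j u).star_right⟩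
  have h1 := conj_comm (F.lift_unitary hu) (hX.1 _ (h y hy))
  rwa [map_mul, map_mul, map_star, conj_conj (F.lift_unitary hu)] at h1

/-- `lift` is strongly continuous on bounded sets: `‖lift x η‖² = ∑ ‖x (ev i η)‖²`; cut the sum to
a finite set up to `ε`. -/
theorem tendsto_lift {κ : Type*} {l : Filter κ} {x : κ → Op H} {y : Op H} {C : ℝ}
    (hb : ∀ k, ‖x k‖ ≤ C) (h : ∀ η, Tendsto (fun k => x k η) l (𝓝 (y η))) (η : 𝓗) :
    Tendsto (fun k => F.lift (x k) η) l (𝓝 (F.lift y η)) := by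
  have h1 := tendsto_tsum_of_dominated_convergence (𝓕 := l)
    (f := fun k i => ‖x k (F.ev i η) - y (F.ev i η)‖ ^ 2) (g := fun _ => 0)
    ((F.ev_par η).summable.mul_left ((C + ‖y‖) ^ 2))
    (fun i => by simpa using (tendsto_iff_norm_sub_tendsto_zero.1 (h (F.ev i η))).pow 2)
    (Eventually.of_forall fun k i => by
      rw [Real.norm_of_nonneg (sq_nonneg _), ← mul_pow, add_mul]
      refine pow_le_pow_left₀ (norm_nonneg _) ((norm_sub_le _ _).trans (add_le_add ?_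
        (y.le_opNorm _))) 2
      exact (x k).le_of_opNorm_le (hb k) _)
  rw [tsum_zero] at h1
  have h2 : ∀ k, ∑' i, ‖x k (F.ev i η) - y (F.ev i η)‖ ^ 2 =
      ‖F.lift (x k) η - F.lift y η‖ ^ 2 := fun k => by
    rw [← (F.ev_par _).tsum_eq]
    simp only [map_sub, F.ev_lift]
  simp only [h2] at h1
  rw [tendsto_iff_norm_sub_tendsto_zero]
  simpa using h1.sqrt

theorem SC_lift {G : ℝ → Op H} {C : ℝ} (h : SC G C) : SC (fun s => F.lift (G s)) C := by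
  refine ⟨fun s => (F.norm_lift_le _).trans (h.bd s), fun η => continuous_iff_continuousAt.2
    fun s => F.tendsto_lift h.bd (fun ζ => (h.cont ζ).tendsto s) η, fun η => ?_⟩
  simp only [← map_star]
  exact continuous_iff_continuousAt.2 fun s => F.tendsto_lift (x := fun s => star (G s))
    (fun k => (norm_star _).trans_le (h.bd k)) (fun ζ => (h.cont' ζ).tendsto s) η

end Frame

end Crest.Agent.R78
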