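import Crest.Agent.R78.PhaseA
import Crest.Agent.R78.FrameLem

/-! # R78: second differences and harmonicity (task `Phase`) -/

set_option autoImplicit false
set_option linter.unusedSectionVars false
open Filter Topology
open scoped InnerProductSpace

namespace Crest.Agent.R78

universe u
variable {H : Type u} [NormedAddCommGroup H] [InnerProductSpace ℂ H] [CompleteSpace H]

/-- The conclusion of `Frame.rme`, as a hypothesis on a pair of algebras. -/
def RmeOK (M N : VonNeumannAlgebra H) (η : ℝ) : Prop :=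
  ∀ (A : Type) [Fintype A] [Nonempty A] (ζ : H) (g g' : A → Op H),
    (∀ j, g j ∈ M ∧ g j ∈ unitary (Op H)) → (∀ j, g' j ∈ M.commutant ∧ g' j ∈ unitary (Op H)) →
    (∀ j, g j ζ = g' j ζ) →
    ∃ Φ : Op H →ₗ[ℂ] Op H, ∀ t ∈ N.commutant, ‖Φ t - t‖ ≤ η * ‖t‖ ∧
      (∀ x ∈ Submonoid.closure (Set.range g), ⟪x ζ, Φ t (x ζ)⟫_ℂ = ⟪ζ, Φ t ζ⟫_ℂ) ∧
      ∑ j, star (g j) * Φ t * g j = (Fintype.card A : ℂ) • Φ t

/-- The conclusion of this file. -/
def PhaseOK (M N : VonNeumannAlgebra H) (η : ℝ) : Prop :=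
  ∀ (B : Type) [Fintype B] (ζ : H) (e e' : B → Op H),
    (∀ j, e j ∈ M ∧ e j ∈ unitary (Op H)) → (∀ j, e' j ∈ M.commutant ∧ e' j ∈ unitary (Op H)) →
    (∀ j, e j ζ = e' j ζ) →
    ∃ Φ : Op H →ₗ[ℂ] Op H, ∀ t ∈ N.commutant, ‖Φ t - t‖ ≤ η * ‖t‖ ∧
      Sec (Submonoid.closure (Set.range e)) ζ (Φ t) ∧
      ∑ j, star (e j) * Φ t * e j = (Fintype.card B : ℂ) • Φ t

variable {𝓗 : Type u} [NormedAddCommGroup 𝓗] [InnerProductSpace ℂ 𝓗] [CompleteSpace 𝓗]

theorem Sec.add {G : Submonoid (Op H)} {ζ : H} {S T : Op H} (h : Sec G ζ S) (h' : Sec G ζ T) :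
    Sec G ζ (S + T) := fun z hz x₁ h1 x₂ h2 y hy => by
  simp only [add_apply, inner_add_right]
  linear_combination h z hz x₁ h1 x₂ h2 y hy + h' z hz x₁ h1 x₂ h2 y hy

theorem Sec.smul {G : Submonoid (Op H)} {ζ : H} {T : Op H} (h : Sec G ζ T) (c : ℂ) :
    Sec G ζ (c • T) := fun z hz x₁ h1 x₂ h2 y hy => by
  simp only [smul_apply, inner_smul_right]
  linear_combination c * h z hz x₁ h1 x₂ h2 y hy

theorem ph_gen_mem {M : VonNeumannAlgebra H} {B : Type} {e : B → Op H} (he : ∀ b, e b ∈ M)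
    (j : (B ⊕ B) ⊕ Bool) (a c : Fin 2) : gen e j a c ∈ M := by
  have h0 : (0 : Op H) ∈ M := zero_mem _
  have h1 : (1 : Op H) ∈ M := one_mem _
  rcases j with (b | b) | _ | _ <;> fin_cases a <;> fin_cases c <;>
    first
    | exact h0
    | exact h1
    | exact he _
    | exact vn_smul_mem _ h1
    | exact vn_smul_mem _ (neg_mem h1)

theorem ph_gen_symm {B : Type} {e e' : B → Op H} {ζ : H} (h : ∀ b, e b ζ = e' b ζ)
    (j : (B ⊕ B) ⊕ Bool) (a c : Fin 2) : gen e j a c ζ = gen e' j c a ζ := by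
  rcases j with (b | b) | _ | _ <;> fin_cases a <;> fin_cases c <;>
    first
    | rfl
    | exact h _

namespace Frame
variable (F : Frame H 𝓗 (Fin 2) 0)

/-- `M₂(B(H))` acting on the first letter. -/
noncomputable def mat (g : Matrix (Fin 2) (Fin 2) (Op H)) : Op 𝓗 :=
  ∑ c, (∑ a, F.v a * F.lift (g a c)) * star (F.v c)

theorem ph_sum : ∑ a, F.v a * star (F.v a) = 1 := by
  ext η
  rw [sum_apply]
  exact (hasSum_fintype _).unique (F.hasSum_v η)

theorem mat_v (g : Matrix (Fin 2) (Fin 2) (Op H)) (c : Fin 2) :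
    F.mat g * F.v c = ∑ a, F.v a * F.lift (g a c) := by
  rw [mat, Finset.sum_mul, Finset.sum_eq_single c (fun b _ hb => by
    rw [mul_assoc, F.v_orth b c hb, mul_zero]) (by simp), mul_assoc, F.v_iso, mul_one]

theorem mat_one : F.mat 1 = 1 := F.row_ext fun c => by
  rw [mat_v, one_mul, Finset.sum_eq_single c (fun b _ hb => by
    rw [Matrix.one_apply_ne hb, map_zero, mul_zero]) (by simp), Matrix.one_apply_eq, map_one,
    mul_one]

theorem mat_mul (g h : Matrix (Fin 2) (Fin 2) (Op H)) : F.mat (g * h) = F.mat g * F.mat h :=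
  F.row_ext fun c => by
    rw [mul_assoc, mat_v, mat_v, Finset.mul_sum]
    simp only [← mul_assoc, mat_v, Matrix.mul_apply, map_sum, map_mul, Finset.mul_sum,
      Finset.sum_mul]
    exact Finset.sum_comm

theorem mat_star (g : Matrix (Fin 2) (Fin 2) (Op H)) : F.mat (star g) = star (F.mat g) := by
  simp only [mat, Finset.sum_mul, star_sum, star_mul, star_star, Matrix.star_apply, map_star,
    mul_assoc]
  exact Finset.sum_comm

theorem mat_unitary {g : Matrix (Fin 2) (Fin 2) (Op H)}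
    (hg : g ∈ unitary (Matrix (Fin 2) (Fin 2) (Op H))) : F.mat g ∈ unitary (Op 𝓗) :=
  ⟨by rw [← mat_star, ← mat_mul, hg.1, mat_one], by rw [← mat_star, ← mat_mul, hg.2, mat_one]⟩

theorem mat_mem {M : VonNeumannAlgebra H} {g : Matrix (Fin 2) (Fin 2) (Op H)}
    (hg : ∀ a c, g a c ∈ M) : F.mat g ∈ F.Mt M :=
  sum_mem fun c _ => mul_mem (sum_mem fun a _ => mul_mem (F.Sc_le (F.v_mem_Sc a) M)
    (F.lift_mem (hg a c))) (star_mem (F.Sc_le (F.v_mem_Sc c) M))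

theorem mat_w (g : Matrix (Fin 2) (Fin 2) (Op H)) (c d : Fin 2) :
    F.mat g * (F.v c * F.v' d) = ∑ a, F.v a * F.v' d * F.lift (g a c) := by
  rw [← mul_assoc, mat_v, Finset.sum_mul]
  simp only [mul_assoc, F.lift_v']

theorem mat_vec (g : Matrix (Fin 2) (Fin 2) (Op H)) (ζ : H) :
    F.mat g (∑ c, (F.v c * F.v' c) (F.ι ζ)) =
      ∑ i : Fin 2 × Fin 2, (F.v i.1 * F.v' i.2) (F.ι (g i.1 i.2 ζ)) := by
  rw [map_sum, Fintype.sum_prod_type, Finset.sum_comm]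
  refine Finset.sum_congr rfl fun c _ => ?_
  rw [← mul_apply_eq_comp, mat_w, sum_apply]
  exact Finset.sum_congr rfl fun a _ => by rw [mul_apply_eq_comp, F.lift_ι]

/-- matrix entries with respect to the two first letters -/
noncomputable def ent (i k : Fin 2 × Fin 2) : Op 𝓗 →ₗ[ℂ] Op H :=
  F.cmp ∘ₗ LinearMap.mulRight ℂ (F.v k.1 * F.v' k.2) ∘ₗ
    LinearMap.mulLeft ℂ (star (F.v i.1 * F.v' i.2))

theorem ent_apply (i k : Fin 2 × Fin 2) (X : Op 𝓗) :
    F.ent i k X = F.cmp (star (F.v i.1 * F.v' i.2) * X * (F.v k.1 * F.v' k.2)) := rfl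

theorem ent_near (i : Fin 2 × Fin 2) (X : Op 𝓗) (t : Op H) :
    ‖F.ent i i X - t‖ ≤ ‖X - F.lift t‖ := by
  have h1 : F.ent i i (F.lift t) = t := by
    rw [ent_apply, mul_assoc, ← mul_assoc (F.lift t), F.lift_v, mul_assoc (F.v _), F.lift_v',
      star_mul, mul_assoc, ← mul_assoc (star (F.v _)), F.v_iso, one_mul, ← mul_assoc, F.v'_iso,
      one_mul, cmp_lift]
  have h2 : ‖F.v i.1 * F.v' i.2‖ ≤ 1 :=
    (norm_mul_le _ _).trans (mul_le_one₀ (F.norm_v_le _) (norm_nonneg _) (F.flip.norm_v_le _))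
  conv_lhs => rw [← h1, ← map_sub, ent_apply]
  refine (F.norm_cmp_le _).trans ((norm_mul_le _ _).trans ((mul_le_of_le_one_right (norm_nonneg _)
    h2).trans ((norm_mul_le _ _).trans (mul_le_of_le_one_left (norm_nonneg _) ?_))))
  rwa [norm_star]

theorem ent_conj (g : Matrix (Fin 2) (Fin 2) (Op H)) (X : Op 𝓗) (a c : Fin 2) :
    F.ent (a, 0) (c, 0) (star (F.mat g) * X * F.mat g) =
      (star g * Matrix.of (fun a c => F.ent (a, 0) (c, 0) X) * g) a c := by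
  rw [ent_apply, mul_assoc, mul_assoc, mat_w, ← mul_assoc, ← mul_assoc, ← star_mul, mat_w]
  simp only [star_sum, Finset.sum_mul, Finset.mul_sum, map_sum, Matrix.mul_apply,
    Matrix.star_apply, Matrix.of_apply, ent_apply]
  refine Finset.sum_congr rfl fun d _ => Finset.sum_congr rfl fun b _ => ?_
  rw [← cmp_lift_mul, ← cmp_mul_lift, star_mul, map_star]
  simp only [mul_assoc]

end Frame

/-- `mat g = ∑ v a lift (g a b) (v b)*` is a unital `*`-homomorphism (`∑ v a (v a)* = 1`), with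
values in `Mt M` when the entries are in `M`; `mat'` is the same for the flip.
`ζ₂ = ∑ a, v a v' a ι ζ`, `mat g ζ₂ = ∑ v a v' b ι (g a b ζ)`,
`mat' g ζ₂ = ∑ v b v' a ι (g a b ζ)`; so `mat (gen e j) ζ₂ = mat' (gen e' j) ζ₂` (all `gen` are
symmetric matrices).  Apply `RmeOK` and put
`T (a,b) (c,d) = cmp ((v' b)* (v a)* Φ₂ (lift t) v c v' d)`; then
`⟪mat g ζ₂, Φ₂ (lift t) mat g ζ₂⟫ = qf T ζ g`, the image under `mat` of the generated monoid is
the generated monoid (`MonoidHom.map_mclosure` or induction), `Φ t = (T₀₀,₀₀ + T₁₀,₁₀) / 2`.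
For harmonicity apply `X ↦ (cmp ((v' 0)* (v a)* X v c v' 0))_{a c}`, which carries
`(mat g)* X mat g` to `g* S g`. -/
theorem Frame.phaseOK (F : Frame H 𝓗 (Fin 2) 0) {M N : VonNeumannAlgebra H} {η : ℝ}
    (h : RmeOK (F.Mt M) (F.Mt N) η) : PhaseOK M N η := by
  intro B _ ζ e e' he he' hee
  obtain ⟨Φ, hΦ⟩ := h ((B ⊕ B) ⊕ Bool) (∑ c, (F.v c * F.v' c) (F.ι ζ)) (fun j => F.mat (gen e j))
    (fun j => F.flip.mat (gen e' j))
    (fun j => ⟨F.mat_mem (ph_gen_mem (fun b => (he b).1) j),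
      F.mat_unitary (gen_unitary (fun b => (he b).2) j)⟩)
    (fun j => ⟨F.flip_Mt M ▸ F.flip.mat_mem (ph_gen_mem (fun b => (he' b).1) j),
      F.flip.mat_unitary (gen_unitary (fun b => (he' b).2) j)⟩)
    (fun j => by
      have h1 := F.flip.mat_vec (gen e' j) ζ
      simp only [flip_v, flip_v', flip_ι, ← (F.v_v' _ _).1] at h1
      rw [h1, F.mat_vec, ← Equiv.sum_comp (Equiv.prodComm _ _)]
      exact Finset.sum_congr rfl fun i _ => by rw [ph_gen_symm hee]; rfl)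
  refine ⟨(2 : ℂ)⁻¹ • (F.ent (0, 0) (0, 0) + F.ent (1, 0) (1, 0)) ∘ₗ Φ ∘ₗ
    F.lift.toAlgHom.toLinearMap, fun t ht => ?_⟩
  obtain ⟨h1, h2, h3⟩ := hΦ _ (F.lift_mem' ht)
  change ‖(2 : ℂ)⁻¹ • (F.ent (0, 0) (0, 0) (Φ (F.lift t)) + F.ent (1, 0) (1, 0) (Φ (F.lift t))) - t‖
    ≤ _ ∧ Sec _ _ ((2 : ℂ)⁻¹ • (F.ent (0, 0) (0, 0) (Φ (F.lift t)) +
      F.ent (1, 0) (1, 0) (Φ (F.lift t)))) ∧ ∑ j, star (e j) * ((2 : ℂ)⁻¹ •
      (F.ent (0, 0) (0, 0) (Φ (F.lift t)) + F.ent (1, 0) (1, 0) (Φ (F.lift t)))) * e j =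
      _ • (2 : ℂ)⁻¹ • (F.ent (0, 0) (0, 0) (Φ (F.lift t)) + F.ent (1, 0) (1, 0) (Φ (F.lift t)))
  generalize Φ (F.lift t) = X at h1 h2 h3
  refine ⟨?_, ?_, ?_⟩
  · have h4 : ‖F.lift t‖ = ‖t‖ := (F.norm_lift_le t).antisymm (by
      simpa only [cmp_lift] using F.norm_cmp_le (F.lift t))
    have e1 : (2 : ℂ)⁻¹ • (F.ent (0, 0) (0, 0) X + F.ent (1, 0) (1, 0) X) - t =
        (2 : ℂ)⁻¹ • ((F.ent (0, 0) (0, 0) X - t) + (F.ent (1, 0) (1, 0) X - t)) := by module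
    rw [e1, norm_smul, norm_inv, RCLike.norm_ofNat, ← h4]
    linarith [norm_add_le (F.ent (0, 0) (0, 0) X - t) (F.ent (1, 0) (1, 0) X - t),
      F.ent_near (0, 0) X t, F.ent_near (1, 0) X t]
  · obtain ⟨h4, h5⟩ := sec_of_qf e (T := fun i k => F.ent i k X) (ζ := ζ) fun g hg => by
      refine Eq.trans ?_ (h2 (F.mat g) ?_)
      · rw [F.mat_vec, map_sum, sum_inner, qf]
        refine Finset.sum_congr rfl fun i _ => ?_
        rw [inner_sum]
        refine Finset.sum_congr rfl fun k _ => ?_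
        rw [ent_apply, inner_cmp, mul_assoc, mul_apply_eq_comp, fl_inner, star_star]
        rfl
      · induction hg using Submonoid.closure_induction with
        | mem x hx =>
          obtain ⟨j, rfl⟩ := hx
          exact Submonoid.subset_closure ⟨j, rfl⟩
        | one => rw [mat_one]; exact one_mem _
        | mul x y _ _ hx hy => rw [mat_mul]; exact mul_mem hx hy
    exact (h4.add h5).smul _
  · have h4 := harm_of_gen e (Matrix.of fun a c => F.ent (a, 0) (c, 0) X) (by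
      ext1 a c
      rw [Matrix.sum_apply, Matrix.smul_apply, Matrix.of_apply, ← map_smul, ← h3, map_sum]
      exact Finset.sum_congr rfl fun j _ => (F.ent_conj _ X a c).symm)
    simp only [Matrix.of_apply] at h4
    simp only [mul_smul_comm, smul_mul_assoc]
    rw [← Finset.smul_sum, h4, smul_comm]

/-- For a finite set `s` of unitaries of `P` enumerate it by `Fin n`, take `B = Fin n ⊕ Fin n`
with the unitaries and their adjoints; the generated monoid `G` consists of unitaries of `P` and is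
`*`-closed; `harm`.  Ultralimit along `R121.fU` (`exists_linLim` on the submodule `N'`, then
`LinearMap.exists_extend`), `mod_of_unitary`. -/
theorem PhaseOK.mod {M N P : VonNeumannAlgebra H} {η : ℝ} (h : PhaseOK M N η)
    (hP : ∀ x ∈ P, x ∈ M) {ζ : H} (hp : ∀ e ∈ P, e ∈ unitary (Op H) →
      ∃ e' ∈ M.commutant, e' ∈ unitary (Op H) ∧ e' ζ = e ζ) :
    ∃ Φ : Op H →ₗ[ℂ] Op H, ∀ t ∈ N.commutant, ‖Φ t - t‖ ≤ η * ‖t‖ ∧ Mod P ζ (Φ t) := by
  have key : ∀ s : Finset {u : Op H // u ∈ P ∧ u ∈ unitary (Op H)}, ∃ Φ : Op H →ₗ[ℂ] Op H,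
      ∀ t ∈ N.commutant, ‖Φ t - t‖ ≤ η * ‖t‖ ∧ ∀ u ∈ s, ∀ x ∈ s,
        ⟪(u.1 * x.1) ζ, Φ t (u.1 ζ)⟫_ℂ = ⟪x.1 ζ, Φ t ζ⟫_ℂ := fun s => by
    let e : Fin s.card ⊕ Fin s.card → Op H :=
      Sum.elim (fun i => (s.equivFin.symm i).1.1) fun i => star (s.equivFin.symm i).1.1
    have he : ∀ j, e j ∈ P ∧ e j ∈ unitary (Op H) := by
      rintro (i | i)
      · exact (s.equivFin.symm i).1.2
      · exact ⟨star_mem (s.equivFin.symm i).1.2.1, Unitary.star_mem (s.equivFin.symm i).1.2.2⟩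
    have hs : ∀ u ∈ s, ∃ j, e j = u.1 := fun u hu =>
      ⟨.inl (s.equivFin ⟨u, hu⟩), by simp [e]⟩
    have hG : ∀ g ∈ Submonoid.closure (Set.range e), (g ∈ P ∧ g ∈ unitary (Op H)) ∧
        star g ∈ Submonoid.closure (Set.range e) := fun g hg => by
      induction hg using Submonoid.closure_induction with
      | mem x hx =>
        obtain ⟨j, rfl⟩ := hx
        refine ⟨he j, Submonoid.subset_closure ?_⟩
        rcases j with i | i
        · exact ⟨.inr i, rfl⟩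
        · exact ⟨.inl i, (star_star _).symm⟩
      | one => exact ⟨⟨one_mem _, one_mem _⟩, by rw [star_one]; exact one_mem _⟩
      | mul x y _ _ hx hy => exact ⟨⟨mul_mem hx.1.1 hy.1.1, mul_mem hx.1.2 hy.1.2⟩, by
          rw [star_mul]; exact mul_mem hy.2 hx.2⟩
    choose e' h1 h2 h3 using fun j => hp _ (he j).1 (he j).2
    obtain ⟨Φ, hΦ⟩ := h _ ζ e e' (fun j => ⟨hP _ (he j).1, (he j).2⟩) (fun j => ⟨h1 j, h2 j⟩)
      fun j => (h3 j).symm
    refine ⟨Φ, fun t ht => ⟨(hΦ t ht).1, fun u hu x hx => ?_⟩⟩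
    obtain ⟨j, hj⟩ := hs u hu
    rw [← hj]
    refine harm (fun g hg => (hG g hg).1.2) (fun g hg => (hG g hg).2) (fun g hg => ?_)
      (hΦ t ht).2.1 (fun b => Submonoid.subset_closure ⟨b, rfl⟩) (hΦ t ht).2.2 j
      (Submonoid.subset_closure (hs x hx))
    obtain ⟨g', h4, h5, h6⟩ := hp g (hG g hg).1.1 (hG g hg).1.2
    exact ⟨g', h5, fun y hy => (comm_of_mem (hP y (hG y hy).1.1) h4).symm, h6⟩
  choose Φ hΦ using key
  obtain ⟨Ψ, hΨ⟩ := exists_linLim (R121.fU _)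
    (fun s => (Φ s).domRestrict N.commutant.toStarSubalgebra.toSubalgebra.toSubmodule)
    fun t => ⟨η * ‖t.1‖ + ‖t.1‖, Eventually.of_forall fun s =>
      (norm_le_norm_sub_add _ t.1).trans (add_le_add (hΦ s t.1 t.2).1 le_rfl)⟩
  obtain ⟨Θ, hΘ⟩ := Ψ.exists_extend
  refine ⟨Θ, fun t ht => ?_⟩
  have h1 := hΨ ⟨t, ht⟩
  rw [← hΘ] at h1
  refine ⟨h1.norm_sub_le t (Eventually.of_forall fun s => (hΦ s t ht).1),
    mod_of_unitary fun u hu hu' x hx hx' => ?_⟩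
  exact tendsto_nhds_unique (h1 _ _) ((h1 _ _).congr' (((R121.fU_mem ⟨u, hu, hu'⟩).and
    (R121.fU_mem ⟨x, hx, hx'⟩)).mono fun s hs => ((hΦ s t ht).2 _ hs.1 _ hs.2).symm))

end Crest.Agent.R78
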