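import Crest.Agent.R78.FrameLem

/-! # R78: Julia dilation (task `Julia`) -/

set_option autoImplicit false
set_option linter.unusedSectionVars false
open Filter Topology
open scoped InnerProductSpace

namespace Crest.Agent.R78

universe u
variable {H : Type u} [NormedAddCommGroup H] [InnerProductSpace ℂ H] [CompleteSpace H]

theorem jl_hasSum_swap {I J : Type*} {f : I → J → ℝ} (h0 : ∀ i j, 0 ≤ f i j) {g : I → ℝ}
    {k : J → ℝ} {s : ℝ} (hg : ∀ i, HasSum (f i) (g i)) (hs : HasSum g s)
    (hk : ∀ j, HasSum (fun i => f i j) (k j)) : HasSum k s := by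
  have hsum : Summable (fun p : I × J => f p.1 p.2) := by
    rw [summable_prod_of_nonneg (fun p => h0 p.1 p.2)]
    refine ⟨fun i => (hg i).summable, ?_⟩
    have e : (fun i => ∑' j, f i j) = g := funext fun i => (hg i).tsum_eq
    simpa only [e] using hs.summable
  have h1 : HasSum g (∑' p : I × J, f p.1 p.2) := hsum.hasSum.prod_fiberwise hg
  have h2 : HasSum (fun p : J × I => f p.2 p.1) (∑' p : I × J, f p.1 p.2) :=
    (Equiv.prodComm J I).hasSum_iff.2 hsum.hasSum
  rw [← h1.unique hs]
  exact h2.prod_fiberwise hk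

theorem jl_sq {B : Type*} [Ring B] {S T : B} (hS : S * S = 0) (hT : T * T = 0)
    (hSTS : S * T * S = S) (hTST : T * S * T = T) :
    (S + T + 1 - T * S - S * T) * (S + T + 1 - T * S - S * T) = 1 := by
  have a1 : ∀ x, S * (S * x) = 0 := fun x => by rw [← mul_assoc, hS, zero_mul]
  have a2 : ∀ x, T * (T * x) = 0 := fun x => by rw [← mul_assoc, hT, zero_mul]
  have a3 : S * (T * S) = S := by rw [← mul_assoc, hSTS]
  have a4 : T * (S * T) = T := by rw [← mul_assoc, hTST]
  simp only [mul_add, add_mul, mul_sub, sub_mul, mul_one, one_mul, mul_assoc, hS, hT, a1, a2, a3,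
    a4, mul_zero]
  abel

namespace Frame
variable {𝓗 : Type u} [NormedAddCommGroup 𝓗] [InnerProductSpace ℂ 𝓗] [CompleteSpace 𝓗]
  {A : Type} {o : A} (F : Frame H 𝓗 A o)

theorem jl_col_ext {X Y : Op 𝓗} (h : ∀ j, star (F.v j) * X = star (F.v j) * Y) : X = Y := by
  apply star_injective
  refine F.row_ext fun j => ?_
  have := congrArg star (h j)
  simpa only [star_mul, star_star] using this

theorem jl_norm_v (j : A) (η : 𝓗) : ‖F.v j η‖ = ‖η‖ :=
  (F.v j).norm_map_iff_adjoint_comp_self.2 (F.v_iso j) η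

theorem jl_par (a : A → Op H) (h2 : ∀ η, HasSum (fun j => ‖a j η‖ ^ 2) (‖η‖ ^ 2)) (η : 𝓗) :
    HasSum (fun j => ‖F.lift (a j) η‖ ^ 2) (‖η‖ ^ 2) := by
  refine jl_hasSum_swap (f := fun i j => ‖a j (F.ev i η)‖ ^ 2) (fun _ _ => by positivity)
    (fun i => h2 _) (F.ev_par η) fun j => ?_
  simpa only [F.ev_lift] using F.ev_par (F.lift (a j) η)

theorem jl_exists_col (a : A → Op H) (h2 : ∀ η, HasSum (fun j => ‖a j η‖ ^ 2) (‖η‖ ^ 2)) :
    ∃ C : Op 𝓗, (∀ j, star (F.v j) * C = F.lift (a j)) ∧ star C * C = 1 := by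
  classical
  obtain ⟨C, -, hC⟩ := exists_colSum (fun j => F.v j * F.lift (a j)) (C := 1)
    (fun i j hij η ζ => by
      change ⟪F.v i (F.lift (a i) η), F.v j (F.lift (a j) ζ)⟫_ℂ = 0
      rw [← ContinuousLinearMap.adjoint_inner_right, ← ContinuousLinearMap.star_eq_adjoint,
        ← mul_apply_eq_comp, F.v_orth i j hij, zero_apply,
        inner_zero_right])
    zero_le_one (fun s η => by
      simp only [mul_apply_eq_comp, jl_norm_v, one_pow, one_mul]
      exact sum_le_hasSum s (fun _ _ => by positivity) (F.jl_par a h2 η))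
  have h1 : ∀ j, star (F.v j) * C = F.lift (a j) := fun j => by
    ext η
    have e1 := (hC η).mapL (star (F.v j))
    have e2 : HasSum (fun i => star (F.v j) ((F.v i * F.lift (a i)) η)) (F.lift (a j) η) := by
      convert hasSum_single j (fun i hi => ?_) using 1
      · rw [← mul_apply_eq_comp, ← mul_assoc, F.v_iso, one_mul]
      · rw [← mul_apply_eq_comp, ← mul_assoc, F.v_orth j i (Ne.symm hi), zero_mul,
          zero_apply]
    exact e1.unique e2
  refine ⟨C, h1, C.norm_map_iff_adjoint_comp_self.1 fun η => ?_⟩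
  have e1 := F.v_par (C η)
  simp only [← mul_apply_eq_comp, h1] at e1
  exact (sq_eq_sq₀ (norm_nonneg _) (norm_nonneg _)).1 (e1.unique (F.jl_par a h2 η))

/-- Julia operator of a Kraus column.  `C = ∑ v j lift (a j)` (`exists_colSum`; an isometry by
`ev_par` and `h2`: `∑_j ‖lift (a j) η‖² = ∑_i ∑_j ‖a j (ev i η)‖² = ‖η‖²`), `(v j)* C = lift (a j)`,
`(v o)* C = 0`.  `S = C (v o)*`, `W = S + S* + 1 - S* S - S S*` is a self-adjoint unitary with
`W v o = C`, so `W p = C p`.  Everything commuting with all `v j`, `(v j)*`, `lift (a j)`,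
`lift (a j)*` commutes with `C`, `C*`, `W`; elements of `(Mt M)'` do (`mem_Mt'`).  For `y ∈ Sc`,
`ρ = T* y T` has `ρ v j = v j y`, `(v j)* ρ = y (v j)*`, so `ρ C = C y`, `ρ S = S ρ`, and the same
for `y*`. -/
theorem exists_julia (a : A → Op H) (h0 : a o = 0)
    (h2 : ∀ η, HasSum (fun j => ‖a j η‖ ^ 2) (‖η‖ ^ 2)) :
    ∃ W : Op 𝓗, (∀ M : VonNeumannAlgebra H, (∀ j, a j ∈ M) → F.Dil M W) ∧ star W = W ∧
      ∀ j, star (F.v j) * W * F.p = F.lift (a j) * F.p := by
  obtain ⟨C, hC, hiso⟩ := F.jl_exists_col a h2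
  have hoC : star (F.v o) * C = 0 := by rw [hC, h0, map_zero]
  have hCo : star C * F.v o = 0 := by
    have := congrArg star hoC
    simpa only [star_mul, star_star, star_zero] using this
  set S := C * star (F.v o) with hS
  have hS' : star S = F.v o * star C := by rw [hS, star_mul, star_star]
  have s1 : S * S = 0 := by rw [hS, mul_assoc, ← mul_assoc _ C, hoC, zero_mul, mul_zero]
  have s2 : star S * star S = 0 := by rw [← star_mul, s1, star_zero]
  have s3 : S * star S * S = S := by
    rw [hS', hS]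
    calc C * star (F.v o) * (F.v o * star C) * (C * star (F.v o))
        = C * (star (F.v o) * F.v o) * (star C * C) * star (F.v o) := by simp only [mul_assoc]
      _ = C * star (F.v o) := by rw [F.v_iso, hiso, mul_one, mul_one]
  have s4 : star S * S * star S = star S := by
    have := congrArg star s3
    simpa only [star_mul, star_star, mul_assoc] using this
  have key : ∀ ρ y : Op 𝓗, (∀ j, star (F.v j) * ρ = y * star (F.v j)) →
      (∀ j, F.lift (a j) * y = y * F.lift (a j)) → Commute ρ S := fun ρ y h1 h3 => by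
    have e : ρ * C = C * y := F.jl_col_ext fun j => by
      rw [← mul_assoc, h1, mul_assoc, hC, ← mul_assoc, hC, h3]
    change ρ * S = S * ρ
    rw [hS, ← mul_assoc, e, mul_assoc, mul_assoc, h1]
  set W := S + star S + 1 - star S * S - S * star S with hW
  have hWs : star W = W := by
    simp only [hW, star_sub, star_add, star_mul, star_star, star_one]
    abel
  have hW2 : W * W = 1 := jl_sq s1 s2 s3 s4
  have key2 : ∀ ρ : Op 𝓗, Commute ρ S → Commute (star ρ) S → ρ * W = W * ρ := fun ρ h1 h3 => by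
    have h4 : Commute ρ (star S) := by simpa only [star_star] using h3.star_star
    exact ((((h1.add_right h4).add_right (Commute.one_right ρ)).sub_right
      (h4.mul_right h1)).sub_right (h1.mul_right h4)).eq
  have hWv : W * F.v o = C := by
    have e1 : S * F.v o = C := by rw [hS, mul_assoc, F.v_iso, mul_one]
    have e2 : star S * F.v o = 0 := by rw [hS', mul_assoc, hCo, mul_zero]
    have e3 : star S * C = F.v o := by rw [hS', mul_assoc, hiso, mul_one]
    rw [hW, sub_mul, sub_mul, add_mul, add_mul, mul_assoc (star S) S, mul_assoc S (star S), e1, e2,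
      e3, one_mul, mul_zero]
    abel
  refine ⟨W, fun M hM => ⟨mem_of_comm fun Z hZ => ?_, ?_, fun y hy => ?_⟩, hWs, fun j => ?_⟩
  · have h1 := F.mem_Mt'.1 hZ
    have h3 := F.mem_Mt'.1 (star_mem hZ)
    exact key2 Z (key Z Z (fun j => (h1.2 j).2) fun j => h1.1 _ (hM j))
      (key _ _ (fun j => (h3.2 j).2) fun j => h3.1 _ (hM j))
  · exact ⟨by rw [hWs, hW2], by rw [hWs, hW2]⟩
  · have k : ∀ y ∈ F.Sc, Commute (star F.T * y * F.T) S := fun y hy =>
      key _ y (F.star_v_mul (F.rho_v fun j => ((F.mem_Sc.1 hy).2 j).1.symm))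
        fun j => (F.mem_Sc.1 hy).1 _
    refine (key2 _ (k y hy) ?_).symm
    have := k _ (star_mem hy)
    simpa only [star_mul, star_star, mul_assoc] using this
  · rw [mul_assoc, ← F.v_p, ← mul_assoc W, hWv, ← mul_assoc, hC, F.v_p]

section
variable {F} {M : VonNeumannAlgebra H} {W W' : Op 𝓗}

/-- Induction: with `P n = T*ⁿ p Tⁿ ∈ Sc`, `S* P n S = W T* W'* P n W' T W* = W (T* P n T) W*`. -/
theorem Dil.conj_P (hW : F.Dil M W) (h' : W' ∈ (F.Mt M).commutant) (hu : W' ∈ unitary (Op 𝓗))
    (n : ℕ) : star (W' * F.T * star W) ^ n * F.p * (W' * F.T * star W) ^ n =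
      star F.T ^ n * F.p * F.T ^ n := by
  induction n with
  | zero => simp
  | succ n ih =>
    have hP := F.P_mem_Sc n
    have e1 : (star F.T ^ n * F.p * F.T ^ n) * W' = W' * (star F.T ^ n * F.p * F.T ^ n) :=
      comm_of_mem (F.Sc_le hP M) h'
    have e2 := hW.comm _ hP
    set P := star F.T ^ n * F.p * F.T ^ n with hPdef
    calc star (W' * F.T * star W) ^ (n + 1) * F.p * (W' * F.T * star W) ^ (n + 1)
        = star (W' * F.T * star W) *
          (star (W' * F.T * star W) ^ n * F.p * (W' * F.T * star W) ^ n) *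
            (W' * F.T * star W) := by
          rw [pow_succ', pow_succ]; simp only [mul_assoc]
      _ = W * star F.T * star W' * (P * W') * F.T * star W := by
          rw [ih, star_mul, star_mul, star_star]; simp only [mul_assoc]
      _ = W * star F.T * (star W' * W') * P * F.T * star W := by
          rw [e1]; simp only [mul_assoc]
      _ = W * (star F.T * P * F.T) * star W := by
          rw [hu.1, mul_one]; simp only [mul_assoc]
      _ = star F.T * P * F.T := by rw [e2, mul_assoc, hW.uni.2, mul_one]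
      _ = star F.T ^ (n + 1) * F.p * F.T ^ (n + 1) := by
          rw [pow_succ', pow_succ, hPdef]; simp only [mul_assoc]

theorem jl_star_fix {S : Op 𝓗} (hu : S ∈ unitary (Op 𝓗)) {η : 𝓗} (h : S η = η) :
    star S η = η := by
  conv_lhs => rw [← h]
  rw [← mul_apply_eq_comp, hu.1, one_apply_eq_self]

theorem jl_pow_fix {S : Op 𝓗} {η : 𝓗} (h : S η = η) (n : ℕ) : (S ^ n) η = η := by
  induction n with
  | zero => rfl
  | succ n ih => rw [pow_succ, mul_apply_eq_comp, h, ih]

theorem Dil.jl_p_fix (hW : F.Dil M W) (h' : W' ∈ (F.Mt M).commutant)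
    (hu : W' ∈ unitary (Op 𝓗)) {η : 𝓗} (h : (W' * F.T * star W) η = η) : F.p η = η := by
  have hS : W' * F.T * star W ∈ unitary (Op 𝓗) :=
    mul_mem (mul_mem hu F.T_unitary) (Unitary.star_mem hW.uni)
  have e : ∀ n : ℕ, ‖(star F.T ^ n * F.p * F.T ^ n) η - η‖ = ‖F.p η - η‖ := fun n => by
    rw [← hW.conj_P h' hu n, mul_apply_eq_comp, mul_apply_eq_comp,
      jl_pow_fix h n]
    rw [← ContinuousLinearMap.norm_map_of_mem_unitary (pow_mem (Unitary.star_mem hS) n)
      (F.p η - η), map_sub, jl_pow_fix (jl_star_fix hS h) n]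
  have t := tendsto_iff_norm_sub_tendsto_zero.1 (F.p_lim η)
  simp only [e] at t
  exact sub_eq_zero.1 (norm_eq_zero.1 (tendsto_nhds_unique tendsto_const_nhds t))

theorem Dil.jl_step (hW : F.Dil M W) {X Q : Op 𝓗} (h : ∀ j, X * (W * F.v j) = W * F.v j * X)
    (hQ : Q ∈ (F.Mt M).commutant) (h0 : X * F.p * Q = 0) : X * Q = 0 := by
  have key : ∀ n : ℕ, X * (star F.T ^ n * F.p * F.T ^ n) * Q = 0 := fun n => by
    induction n with
    | zero => simpa using h0
    | succ n ih =>
      have hP := F.P_mem_Sc n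
      have e0 : star F.T ^ (n + 1) * F.p * F.T ^ (n + 1) =
          star F.T * (star F.T ^ n * F.p * F.T ^ n) * F.T := by
        rw [pow_succ', pow_succ]; simp only [mul_assoc]
      rw [e0]
      set P := star F.T ^ n * F.p * F.T ^ n
      have e1 : X * (star F.T * P * F.T) * Q * W = 0 := F.row_ext fun j => by
        have c1 : W * F.v j * Q = Q * (W * F.v j) :=
          comm_of_mem (mul_mem hW.mem (F.Sc_le (F.v_mem_Sc j) M)) hQ
        have c2 : star F.T * P * F.T * (W * F.v j) = W * F.v j * P := by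
          rw [← mul_assoc, ← hW.comm P hP, mul_assoc,
            F.rho_v (fun j => ((F.mem_Sc.1 hP).2 j).1.symm) j, mul_assoc]
        rw [mul_assoc, mul_assoc, ← c1, ← mul_assoc, mul_assoc X, c2, ← mul_assoc X, h,
          mul_assoc _ X, mul_assoc, ih, mul_zero, zero_mul]
      have := congrArg (· * star W) e1
      simpa only [mul_assoc _ W, hW.uni.2, mul_one, zero_mul] using this
  ext η
  have t := (X.continuous.tendsto _).comp (F.p_lim (Q η))
  have e : (X ∘ fun n : ℕ => (star F.T ^ n * F.p * F.T ^ n) (Q η)) = fun _ => 0 :=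
    funext fun n => congrArg (fun Z : Op 𝓗 => Z η) (key n)
  rw [e] at t
  exact (tendsto_nhds_unique tendsto_const_nhds t).symm

/-- `‖p η‖² = ⟪η, S*ⁿ p Sⁿ η⟫ → ‖η‖²`, and the same for `p'` (flip, `S* η = η`). -/
theorem Dil.fix_mem (hW : F.Dil M W) (hW' : F.flip.Dil M.commutant W') {η : 𝓗}
    (h : (W' * F.T * star W) η = η) : F.ι (ContinuousLinearMap.adjoint F.ι η) = η := by
  have hm' : W' ∈ (F.Mt M).commutant := by rw [← F.flip_Mt]; exact hW'.mem
  have hm : W ∈ (F.flip.Mt M.commutant).commutant := by rw [F.flip_Mt']; exact hW.mem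
  have hu : W' * F.T * star W ∈ unitary (Op 𝓗) :=
    mul_mem (mul_mem hW'.uni F.T_unitary) (Unitary.star_mem hW.uni)
  have h1 := hW.jl_p_fix hm' hW'.uni h
  have h2 : F.p' η = η := hW'.jl_p_fix hm hW.uni (by
    have e : W * F.flip.T * star W' = star (W' * F.T * star W) := by
      rw [flip_T, star_mul, star_mul, star_star, mul_assoc]
    rw [e]
    exact jl_star_fix hu h)
  rw [F.ι_adj, h2, h1]

/-- `P (n+1) W v j = W v j P n`, `P' m` commutes with `W v j`; induction with `row_ext`
gives `X P n P' m = 0`. -/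
theorem Dil.eq_zero (hW : F.Dil M W) (hW' : F.flip.Dil M.commutant W') {X : Op 𝓗}
    (h : ∀ j, X * (W * F.v j) = W * F.v j * X) (h' : ∀ j, X * (W' * F.v' j) = W' * F.v' j * X)
    (h0 : ∀ η, X (F.ι η) = 0) : X = 0 := by
  have hp' : F.p' ∈ (F.Mt M).commutant := by
    rw [← F.flip_Mt]; exact F.flip.Sc_le F.flip.p_mem_Sc _
  have h1 : X * F.p' = 0 := hW.jl_step h hp' (by
    ext η
    change X (F.p (F.p' η)) = 0
    rw [← F.ι_adj, h0])
  have h2 := hW'.jl_step h' (one_mem _) (by rw [mul_one]; exact h1)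
  rwa [mul_one] at h2

/-- `S W v j = W' v' j`; `η = ∑ (W v j) (W v j)* η`. -/
theorem fix_of_eq (hW : W ∈ unitary (Op 𝓗)) (hW' : W' ∈ unitary (Op 𝓗)) {η : 𝓗}
    (h : ∀ j, star (W * F.v j) η = star (W' * F.v' j) η) : (W' * F.T * star W) η = η := by
  have e1 := (F.hasSum_v (star W η)).mapL (W' * F.T)
  have e2 := (F.flip.hasSum_v (star W' η)).mapL W'
  have e3 : W' (star W' η) = η := by
    rw [← mul_apply_eq_comp, hW'.2, one_apply_eq_self]
  rw [e3] at e2
  refine e1.unique ?_
  convert e2 using 2 with j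
  have := h j
  rw [star_mul, star_mul, mul_apply_eq_comp, mul_apply_eq_comp] at this
  rw [this, ← mul_apply_eq_comp, mul_assoc, F.T_v, mul_apply_eq_comp]
  rfl

/-- An operator commuting with both families commutes with `S` (`row_ext`). -/
theorem comm_S (hW : W ∈ unitary (Op 𝓗)) {X : Op 𝓗}
    (h : ∀ j, X * (W * F.v j) = W * F.v j * X) (h' : ∀ j, X * (W' * F.v' j) = W' * F.v' j * X) :
    X * (W' * F.T * star W) = W' * F.T * star W * X := by
  have hS : ∀ j, W' * F.T * star W * (W * F.v j) = W' * F.v' j := fun j => by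
    rw [mul_assoc, ← mul_assoc (star W), hW.1, one_mul, mul_assoc, F.T_v]
  have e : X * (W' * F.T * star W) * W = W' * F.T * star W * X * W := F.row_ext fun j => by
    rw [mul_assoc, mul_assoc, hS, h', mul_assoc _ W, mul_assoc _ X, h, ← mul_assoc _ (W * F.v j),
      hS]
  have := congrArg (· * star W) e
  simpa only [mul_assoc _ W, hW.2, mul_one] using this

end

end Frame

end Crest.Agent.R78
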