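import Crest.Agent.R78.Pol

/-! # R78: a relative version of Kazhdan's theorem on ε-representations of ℕ (task `Kaz`) -/

set_option autoImplicit false
set_option linter.unusedSectionVars false
open Filter Topology
open scoped InnerProductSpace

namespace Crest.Agent.R78

universe u
variable {H : Type u} [NormedAddCommGroup H] [InnerProductSpace ℂ H] [CompleteSpace H]

/-- `φ k ∈ U(A) U(B) S*ᵏ`. -/
def KG (A B : VonNeumannAlgebra H) (S : Op H) (k : ℕ) (g : Op H) : Prop :=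
  ∃ a ∈ A, ∃ b ∈ B, a ∈ unitary (Op H) ∧ b ∈ unitary (Op H) ∧ g = a * b * star S ^ k

section
variable {A B : VonNeumannAlgebra H} {S : Op H}

theorem kaz_conj_mem (hA : ∀ a ∈ A, star S * a * S ∈ A) {a : Op H} (ha : a ∈ A) (k : ℕ) :
    star (S ^ k) * a * S ^ k ∈ A := by
  induction k with
  | zero => simpa using ha
  | succ k ih => simpa only [pow_succ, star_mul, mul_assoc] using hA _ ih

/-- `a b S*ᵏ a' b' S*ˡ = a (S*ᵏ a' Sᵏ) b (S*ᵏ b' Sᵏ) S*ᵏ⁺ˡ`. -/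
theorem KG.mul (hAB : ∀ a ∈ A, ∀ b ∈ B, a * b = b * a) (hS : S ∈ unitary (Op H))
    (hA : ∀ a ∈ A, star S * a * S ∈ A) (hB : ∀ b ∈ B, star S * b * S ∈ B) {k l : ℕ} {g h : Op H}
    (hg : KG A B S k g) (hh : KG A B S l h) : KG A B S (k + l) (g * h) := by
  obtain ⟨a, ha, b, hb, hau, hbu, rfl⟩ := hg
  obtain ⟨a', ha', b', hb', hau', hbu', rfl⟩ := hh
  have hk : S ^ k ∈ unitary (Op H) := pow_mem hS k
  have h1 := kaz_conj_mem hA ha' k
  refine ⟨_, mul_mem ha h1, _, mul_mem hb (kaz_conj_mem hB hb' k),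
    mul_mem hau (mul_mem (mul_mem (Unitary.star_mem hk) hau') hk),
    mul_mem hbu (mul_mem (mul_mem (Unitary.star_mem hk) hbu') hk), ?_⟩
  rw [pow_add, ← star_pow, mul_assoc a (_ * _), ← mul_assoc _ b, hAB _ h1 b hb]
  simp only [mul_assoc, un_r hk]

theorem KG.unitary (hS : S ∈ unitary (Op H)) {k : ℕ} {g : Op H} (hg : KG A B S k g) :
    g ∈ unitary (Op H) := by
  obtain ⟨a, -, b, -, hau, hbu, rfl⟩ := hg
  exact mul_mem (mul_mem hau hbu) (pow_mem (Unitary.star_mem hS) k)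

theorem KG.split (hAB : ∀ a ∈ A, ∀ b ∈ B, a * b = b * a) (hS : S ∈ _root_.unitary (Op H))
    (hsp : Split A B) {k : ℕ} {g g' : Op H} (hg : KG A B S k g) (hg' : KG A B S k g') {e : ℝ}
    (he : e ≤ 1 / 20) (h : ‖g - g'‖ ≤ e) : ∃ a b : Op H, (a ∈ A ∧ a ∈ _root_.unitary (Op H)) ∧
      (b ∈ B ∧ b ∈ _root_.unitary (Op H)) ∧ ‖a - 1‖ ≤ 13 * e ∧ ‖b - 1‖ ≤ 13 * e ∧
      a * b * g' = g := by
  have hu := hg'.unitary hS
  obtain ⟨a, ha, b, hb, hau, hbu, rfl⟩ := hg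
  obtain ⟨a', ha', b', hb', hau', hbu', rfl⟩ := hg'
  have h1 : a * star a' * (b * star b') * (a' * b' * star S ^ k) = a * b * star S ^ k := by
    rw [mul_assoc a, ← hAB _ (star_mem ha') _ (mul_mem hb (star_mem hb')) |>.symm]
    simp only [mul_assoc, un_l hau', un_l hbu']
  obtain ⟨a₁, h2, b₁, h3, h4, h5, h6, h7, h8⟩ := hsp _ (mul_mem ha (star_mem ha')) _
    (mul_mem hb (star_mem hb')) (mul_mem hau (Unitary.star_mem hau'))
    (mul_mem hbu (Unitary.star_mem hbu')) e he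
    (by rwa [← CStarRing.norm_mul_mem_unitary _ hu, sub_mul, h1, one_mul])
  exact ⟨a₁, b₁, ⟨h2, h4⟩, ⟨h3, h5⟩, h7, h8, by rw [h6, h1]⟩

theorem kaz_mul_le {x y : Op H} {r s : ℝ} (hx : ‖x‖ ≤ r) (hy : ‖y‖ ≤ s) : ‖x * y‖ ≤ r * s :=
  (norm_mul_le _ _).trans (mul_le_mul hx hy (norm_nonneg _) ((norm_nonneg _).trans hx))

theorem kaz_mul_sub {x y x' y' : Op H} {r s : ℝ} (hx : ‖x - x'‖ ≤ r) (hy : ‖y - y'‖ ≤ s)
    (h1 : ‖y‖ ≤ 1) (h2 : ‖x'‖ ≤ 1) : ‖x * y - x' * y'‖ ≤ r + s := by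
  have e : x * y - x' * y' = (x - x') * y + x' * (y - y') := by noncomm_ring
  rw [e]
  linarith [norm_add_le ((x - x') * y) (x' * (y - y')), kaz_mul_le hx h1, kaz_mul_le h2 hy]

/-- the polar part of a mean of unitaries close to `1` -/
theorem kaz_polar {f : ℕ → Op H} (hf : ∀ l, f l ∈ A ∧ f l ∈ unitary (Op H)) {r : ℝ}
    (hr : r ≤ 1 / 2) (h : ∀ l, ‖f l - 1‖ ≤ r) : ∃ X w : Op H, Mean (hyperfilter ℕ) f X ∧
      (w ∈ A ∧ w ∈ unitary (Op H)) ∧ ‖w - 1‖ ≤ 2 * r ∧ ‖w - X‖ ≤ 2 * r ^ 2 := by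
  obtain ⟨X, hX⟩ := exists_Mean (hyperfilter ℕ) f 1 fun l => norm_unitary_le (hf l).2
  have h1 := hX.norm_sub_le 1 h
  obtain ⟨w, hw, h2, h3, -, h4⟩ := exists_polar' (one_mem _) hr h1
  refine ⟨X, w, hX, ⟨h4 A (hX.mem fun l => (hf l).1), hw⟩,
    by linarith [norm_sub_le_norm_sub_add_norm_sub w X 1], h3.trans ?_⟩
  have h5 : ‖X + star X - (1 + 1)‖ ≤ r * r := (hX.add hX.star).norm_sub_le _ fun l => by
    have e : f l + star (f l) - (1 + 1) = -((star (f l) - 1) * (f l - 1)) := by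
      rw [sub_mul, mul_sub, (hf l).2.1]; noncomm_ring
    rw [e, norm_neg]
    exact kaz_mul_le (by rw [norm_star_sub_one]; exact h l) (h l)
  have e : star X * X - 1 = (star X - 1) * (X - 1) + (X + star X - (1 + 1)) := by noncomm_ring
  rw [e]
  have h6 : ‖(star X - 1) * (X - 1)‖ ≤ r * r := kaz_mul_le (by rwa [norm_star_sub_one]) h1
  linarith [norm_add_le ((star X - 1) * (X - 1)) (X + star X - (1 + 1))]

/-- the averaged almost representation -/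
theorem kaz_mean {φ : ℕ → Op H} (hφ : ∀ k, φ k ∈ unitary (Op H)) {e : ℝ}
    (h : ∀ k l, ‖φ (k + l) - φ k * φ l‖ ≤ e) : ∃ ψ : ℕ → Op H,
      (∀ k, Mean (hyperfilter ℕ) (fun l => φ (k + l) * star (φ l)) (ψ k)) ∧ (∀ k, ‖ψ k‖ ≤ 1) ∧
      ∀ k m, ‖ψ (k + m) - ψ k * ψ m‖ ≤ 2 * e ^ 2 := by
  have h1 : ∀ k l, ‖φ (k + l) * star (φ l)‖ ≤ 1 := fun k l =>
    norm_unitary_le (mul_mem (hφ _) (Unitary.star_mem (hφ _)))
  have h2 : ∀ k l, ‖φ (k + l) * star (φ l) - φ k‖ ≤ e := fun k l => by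
    rw [← CStarRing.norm_mul_mem_unitary _ (hφ l), sub_mul, mul_assoc, (hφ l).1, mul_one]
    exact h k l
  choose ψ hψ using fun k => exists_Mean (hyperfilter ℕ) _ 1 (h1 k)
  refine ⟨ψ, hψ, fun k => (hψ k).norm_le (h1 k), fun k m => ?_⟩
  have h3 := (hψ k).shift Nat.hyperfilter_le_atTop (h1 k) m
  have h4 : ‖ψ (k + m) - ψ k * φ m - φ k * ψ m - -(φ k * φ m)‖ ≤ e * e :=
    (((hψ (k + m)).sub (h3.mul_right (φ m))).sub ((hψ m).mul_left (φ k))).norm_sub_le _ fun l => by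
      refine le_of_eq_of_le (congrArg _ ?_) (kaz_mul_le (h2 k (l + m)) (h2 m l))
      rw [add_comm l m, add_assoc, sub_mul, mul_sub, mul_sub, mul_assoc _ (star _) (_ * _),
        un_l (hφ _)]
      abel
  have h5 := kaz_mul_le ((hψ k).norm_sub_le _ (h2 k)) ((hψ m).norm_sub_le _ (h2 m))
  have e1 : ψ (k + m) - ψ k * ψ m = (ψ (k + m) - ψ k * φ m - φ k * ψ m - -(φ k * φ m)) -
      (ψ k - φ k) * (ψ m - φ m) := by noncomm_ring
  rw [e1]
  linarith [norm_sub_le (ψ (k + m) - ψ k * φ m - φ k * ψ m - -(φ k * φ m))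
    ((ψ k - φ k) * (ψ m - φ m))]

/-- One Newton step.  `c k l = φ (k+l) (φ l)* (φ k)* ∈ U(A) U(B)` is `e`-close to `1`, so
`c k l = a₁ b₁` with `‖a₁ - 1‖, ‖b₁ - 1‖ ≤ 13 e` (`Split`), `c k l = 1 + α + β + α β`.  Take means
over `l` along a fixed ultrafilter finer than `atTop`: `ᾱ k ∈ A`, `β̄ k ∈ B`,
`ψ k = mean_l φ (k+l) (φ l)*`, `‖ψ k - (1 + ᾱ + β̄) φ k‖ ≤ 169 e²`, `‖ψ k - φ k‖ ≤ e`.
`ψ (k+m) = mean_l X l Y l` with `X l = φ (k+m+l) (φ (m+l))*` (mean `ψ k` by `Mean.shift`),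
`Y l = φ (m+l) (φ l)*` (mean `ψ m`); expanding `(X l - φ k)(Y l - φ m)` gives
`‖ψ (k+m) - ψ k ψ m‖ ≤ 2 e²`.  As `α + α* = - α* α`, `‖ᾱ + ᾱ*‖ ≤ 169 e²` and
`‖(1+ᾱ)* (1+ᾱ) - 1‖ ≤ 338 e²`; let `a'` be the polar part of `1 + ᾱ` (`exists_polar'`), `b'`
likewise, `φ' k = a' b' φ k`, `‖φ' k - ψ k‖ ≤ 1500 e²`. -/
theorem kaz_step (hAB : ∀ a ∈ A, ∀ b ∈ B, a * b = b * a) (hS : S ∈ unitary (Op H))
    (hA : ∀ a ∈ A, star S * a * S ∈ A) (hB : ∀ b ∈ B, star S * b * S ∈ B) (hsp : Split A B)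
    {a b : ℕ → Op H} (ha : ∀ k, a k ∈ A ∧ a k ∈ unitary (Op H))
    (hb : ∀ k, b k ∈ B ∧ b k ∈ unitary (Op H)) {e : ℝ} (he : e ≤ 1 / 100000)
    (h : ∀ k l, ‖a (k + l) * b (k + l) * star S ^ (k + l) -
      a k * b k * star S ^ k * (a l * b l * star S ^ l)‖ ≤ e) :
    ∃ a' b' : ℕ → Op H, (∀ k, a' k ∈ A ∧ a' k ∈ unitary (Op H)) ∧
      (∀ k, b' k ∈ B ∧ b' k ∈ unitary (Op H)) ∧
      (∀ k, ‖a' k - a k‖ ≤ 30 * e ∧ ‖b' k - b k‖ ≤ 30 * e) ∧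
      ∀ k l, ‖a' (k + l) * b' (k + l) * star S ^ (k + l) -
        a' k * b' k * star S ^ k * (a' l * b' l * star S ^ l)‖ ≤ e / 2 := by
  have he0 : 0 ≤ e := (norm_nonneg _).trans (h 0 0)
  have hK : ∀ k, KG A B S k (a k * b k * star S ^ k) := fun k =>
    ⟨_, (ha k).1, _, (hb k).1, (ha k).2, (hb k).2, rfl⟩
  have hab : ∀ (x y : Op H) (k : ℕ), y ∈ B →
      x * a k * (y * b k) * star S ^ k = x * y * (a k * b k * star S ^ k) := fun x y k hy => by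
    rw [mul_assoc x, ← mul_assoc (a k), hAB _ (ha k).1 y hy]
    simp only [mul_assoc]
  generalize hφ : (fun k => a k * b k * star S ^ k) = φ
  have hφ' : ∀ k, a k * b k * star S ^ k = φ k := congrFun hφ
  simp only [hφ'] at h hK hab
  have hu : ∀ k, φ k ∈ unitary (Op H) := fun k => (hK k).unitary hS
  choose a₁ b₁ h1 h2 h3 h4 h5 using fun k l =>
    (hK (k + l)).split hAB hS hsp ((hK k).mul hAB hS hA hB (hK l)) (by linarith) (h k l)
  choose X u hX hu1 hu2 hu3 using fun k => kaz_polar (h1 k) (by linarith) (h3 k)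
  choose Y v hY hv1 hv2 hv3 using fun k => kaz_polar (h2 k) (by linarith) (h4 k)
  obtain ⟨ψ, hψ, hψ1, hψ2⟩ := kaz_mean hu h
  have h6 : ∀ k, ‖u k * v k * φ k - ψ k‖ ≤ 1521 * e ^ 2 := fun k => by
    have h7 : ‖ψ k - (X k + Y k) * φ k - -φ k‖ ≤ 13 * e * (13 * e) * 1 :=
      ((hψ k).sub (((hX k).add (hY k)).mul_right (φ k))).norm_sub_le _ fun l => by
        refine le_of_eq_of_le (congrArg _ ?_)
          (kaz_mul_le (kaz_mul_le (h3 k l) (h4 k l)) (norm_unitary_le (hu k)))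
        rw [← h5 k l, mul_assoc, mul_assoc (φ k), (hu l).2]
        noncomm_ring
    have h8 := kaz_mul_le (kaz_mul_le (hu2 k) (hv2 k)) (norm_unitary_le (hu k))
    have h9 := kaz_mul_le (hu3 k) (norm_unitary_le (hu k))
    have h10 := kaz_mul_le (hv3 k) (norm_unitary_le (hu k))
    have e1 : u k * v k * φ k - ψ k = (u k - 1) * (v k - 1) * φ k + (u k - X k) * φ k +
        ((v k - Y k) * φ k - (ψ k - (X k + Y k) * φ k - -φ k)) := by noncomm_ring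
    rw [e1]
    refine (norm_add_le _ _).trans ((add_le_add (norm_add_le _ _) (norm_sub_le _ _)).trans ?_)
    linarith
  have h7 : ∀ k, ‖u k * v k * φ k‖ ≤ 1 := fun k =>
    norm_unitary_le (mul_mem (mul_mem (hu1 k).2 (hv1 k).2) (hu k))
  refine ⟨fun k => u k * a k, fun k => v k * b k,
    fun k => ⟨mul_mem (hu1 k).1 (ha k).1, mul_mem (hu1 k).2 (ha k).2⟩,
    fun k => ⟨mul_mem (hv1 k).1 (hb k).1, mul_mem (hv1 k).2 (hb k).2⟩, fun k => ⟨?_, ?_⟩,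
    fun k l => ?_⟩
  · rw [← sub_one_mul]
    linarith [kaz_mul_le (hu2 k) (norm_unitary_le (ha k).2)]
  · rw [← sub_one_mul]
    linarith [kaz_mul_le (hv2 k) (norm_unitary_le (hb k).2)]
  · simp only [hab _ _ _ (hv1 _).1]
    have h8 := kaz_mul_sub (h6 k) (h6 l) (h7 l) (hψ1 k)
    rw [norm_sub_rev] at h8
    have h9 := norm_sub_le_norm_sub_add_norm_sub (u (k + l) * v (k + l) * φ (k + l)) (ψ (k + l))
      (u k * v k * φ k * (u l * v l * φ l))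
    have h10 := norm_sub_le_norm_sub_add_norm_sub (ψ (k + l)) (ψ k * ψ l)
      (u k * v k * φ k * (u l * v l * φ l))
    nlinarith [h6 (k + l), hψ2 k l]

theorem kaz_lim {x : ℕ → Op H} (hx : ∀ n, x n ∈ A ∧ x n ∈ unitary (Op H)) {C : ℝ}
    (h : ∀ n, ‖x (n + 1) - x n‖ ≤ C / 2 / 2 ^ n) : ∃ y, (y ∈ A ∧ y ∈ unitary (Op H)) ∧
      Tendsto x atTop (𝓝 y) ∧ ‖y - x 0‖ ≤ C := by
  have h1 : ∀ n, dist (x n) (x (n + 1)) ≤ C / 2 / 2 ^ n := fun n => by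
    rw [dist_comm, dist_eq_norm]; exact h n
  obtain ⟨y, hy⟩ := cauchySeq_tendsto_of_complete (cauchySeq_of_le_geometric_two h1)
  refine ⟨y, ⟨(WLim.of_tendsto hy).mem (Eventually.of_forall fun n => (hx n).1),
    isClosed_unitary.mem_of_tendsto hy (Eventually.of_forall fun n => (hx n).2)⟩, hy, ?_⟩
  rw [← dist_eq_norm, dist_comm]
  exact dist_le_of_le_geometric_two_of_tendsto₀ h1 hy

theorem kaz_iter (hAB : ∀ a ∈ A, ∀ b ∈ B, a * b = b * a) (hS : S ∈ unitary (Op H))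
    (hA : ∀ a ∈ A, star S * a * S ∈ A) (hB : ∀ b ∈ B, star S * b * S ∈ B) (hsp : Split A B)
    {a b : ℕ → Op H} (ha : ∀ k, a k ∈ A ∧ a k ∈ unitary (Op H))
    (hb : ∀ k, b k ∈ B ∧ b k ∈ unitary (Op H)) {e : ℝ} (he : e ≤ 1 / 100000)
    (h : ∀ k l, ‖a (k + l) * b (k + l) * star S ^ (k + l) -
      a k * b k * star S ^ k * (a l * b l * star S ^ l)‖ ≤ e) :
    ∃ a' b' : ℕ → Op H, (∀ k, a' k ∈ A ∧ a' k ∈ unitary (Op H)) ∧
      (∀ k, b' k ∈ B ∧ b' k ∈ unitary (Op H)) ∧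
      (∀ k, ‖a' k - a k‖ ≤ 60 * e ∧ ‖b' k - b k‖ ≤ 60 * e) ∧
      ∀ k l, a' (k + l) * b' (k + l) * star S ^ (k + l) =
        a' k * b' k * star S ^ k * (a' l * b' l * star S ^ l) := by
  have he0 : 0 ≤ e := (norm_nonneg _).trans (h 0 0)
  let P : ℕ → (ℕ → Op H) × (ℕ → Op H) → Prop := fun n p =>
    (∀ k, p.1 k ∈ A ∧ p.1 k ∈ unitary (Op H)) ∧ (∀ k, p.2 k ∈ B ∧ p.2 k ∈ unitary (Op H)) ∧
      ∀ k l, ‖p.1 (k + l) * p.2 (k + l) * star S ^ (k + l) -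
        p.1 k * p.2 k * star S ^ k * (p.1 l * p.2 l * star S ^ l)‖ ≤ e / 2 ^ n
  have hstep : ∀ n (p : {p // P n p}), ∃ q : {q // P (n + 1) q}, ∀ k,
      ‖q.1.1 k - p.1.1 k‖ ≤ 60 * e / 2 / 2 ^ n ∧ ‖q.1.2 k - p.1.2 k‖ ≤ 60 * e / 2 / 2 ^ n := by
    rintro n ⟨p, h1, h2, h3⟩
    obtain ⟨a', b', h4, h5, h6, h7⟩ := kaz_step hAB hS hA hB hsp h1 h2
      ((div_le_self he0 (one_le_pow₀ one_le_two)).trans he) h3
    refine ⟨⟨(a', b'), h4, h5, fun k l => (h7 k l).trans_eq (by ring)⟩, fun k => ?_⟩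
    exact ⟨(h6 k).1.trans_eq (by ring), (h6 k).2.trans_eq (by ring)⟩
  choose f hf using hstep
  let s : ∀ n, {p // P n p} := fun n =>
    Nat.rec (motive := fun n => {p // P n p}) ⟨(a, b), ha, hb, by simpa using h⟩ f n
  choose a' h1 h2 h3 using fun k =>
    kaz_lim (x := fun n => (s n).1.1 k) (fun n => (s n).2.1 k) fun n => (hf n (s n) k).1
  choose b' h4 h5 h6 using fun k =>
    kaz_lim (x := fun n => (s n).1.2 k) (fun n => (s n).2.2.1 k) fun n => (hf n (s n) k).2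
  refine ⟨a', b', h1, h4, fun k => ⟨h3 k, h6 k⟩, fun k l => ?_⟩
  have h7 := fun k => ((h2 k).mul (h5 k)).mul_const (star S ^ k)
  have h8 : Tendsto (fun n : ℕ => e / 2 ^ n) atTop (𝓝 0) :=
    tendsto_const_nhds.div_atTop (tendsto_pow_atTop_atTop_of_one_lt one_lt_two)
  exact sub_eq_zero.1 (norm_le_zero_iff.1 (le_of_tendsto_of_tendsto'
    ((h7 (k + l)).sub ((h7 k).mul (h7 l))).norm h8 fun n => (s n).2.2.2 k l))

end

/-- Iterate `kaz_step` starting from `e = 3 δ`; the `a`, `b` are Cauchy in norm, the limits are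
unitaries of the closed sets `A`, `B`; the limit `φ` is multiplicative, `φ 0 = 1`,
`φ k = Gᵏ`, `‖Gᵏ - Yᵏ‖ ≤ δ + 120 · 3 δ`.  `X = mean_k Gᵏ (Yᵏ)*` satisfies `G X Y* = X`
(`Mean.fixed`); `W` is its polar part.  `Gᵏ (Yᵏ)* = (a k b k) (Yᵏ Sᵏ)*`. -/
theorem kaz {A B : VonNeumannAlgebra H} {S Y : Op H} (hAB : ∀ a ∈ A, ∀ b ∈ B, a * b = b * a)
    (hS : S ∈ unitary (Op H)) (hY : Y ∈ unitary (Op H)) (hA : ∀ a ∈ A, star S * a * S ∈ A)
    (hB : ∀ b ∈ B, star S * b * S ∈ B) (hsp : Split A B) {δ : ℝ} (hδ : δ ≤ 1 / 1000000)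
    (h : ∀ k : ℕ, ∃ a ∈ A, ∃ b ∈ B, a ∈ unitary (Op H) ∧ b ∈ unitary (Op H) ∧
      ‖Y ^ k * S ^ k - a * b‖ ≤ δ) :
    ∃ a ∈ A, ∃ b ∈ B, ∃ W : Op H, a ∈ unitary (Op H) ∧ b ∈ unitary (Op H) ∧
      W ∈ unitary (Op H) ∧ ‖W - 1‖ ≤ 1000 * δ ∧
      (∀ k : ℕ, ‖(a * b * star S) ^ k - Y ^ k‖ ≤ 1000 * δ) ∧ W * Y = a * b * star S * W ∧
      ∀ Z ∈ A.commutant, Z ∈ B.commutant → (∀ k : ℕ, Z * (Y ^ k * S ^ k) = Y ^ k * S ^ k * Z) →
        W * Z = Z * W := by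
  choose a ha b hb hau hbu h using h
  have hδ0 : 0 ≤ δ := (norm_nonneg _).trans (h 0)
  have hSk : ∀ k, star S ^ k ∈ unitary (Op H) := fun k => pow_mem (Unitary.star_mem hS) k
  have h1 : ∀ k, ‖a k * b k * star S ^ k - Y ^ k‖ ≤ δ := fun k => by
    rw [← CStarRing.norm_mul_mem_unitary _ (pow_mem hS k), sub_mul, mul_assoc, ← star_pow,
      (pow_mem hS k).1, mul_one, norm_sub_rev]
    exact h k
  obtain ⟨a', b', h2, h3, h4, h5⟩ := kaz_iter hAB hS hA hB hsp (fun k => ⟨ha k, hau k⟩)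
    (fun k => ⟨hb k, hbu k⟩) (e := 3 * δ) (by linarith) fun k l => by
      have h2 := kaz_mul_sub (h1 k) (h1 l)
        (norm_unitary_le (mul_mem (mul_mem (hau l) (hbu l)) (hSk l)))
        (norm_unitary_le (pow_mem hY k))
      rw [norm_sub_rev, ← pow_add] at h2
      linarith [h1 (k + l), norm_sub_le_norm_sub_add_norm_sub
        (a (k + l) * b (k + l) * star S ^ (k + l)) (Y ^ (k + l))
        (a k * b k * star S ^ k * (a l * b l * star S ^ l))]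
  have hu : ∀ k, a' k * b' k * star S ^ k ∈ unitary (Op H) := fun k =>
    mul_mem (mul_mem (h2 k).2 (h3 k).2) (hSk k)
  have h6 : ∀ k, (a' 1 * b' 1 * star S) ^ k = a' k * b' k * star S ^ k := fun k => by
    induction k with
    | zero =>
      have := congrArg (star (a' 0 * b' 0 * star S ^ 0) * ·) (h5 0 0)
      simp only [un_l (hu 0), add_zero, (hu 0).1] at this
      rw [← this, pow_zero]
    | succ k ih => rw [h5, pow_succ, ih, pow_one]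
  have hG : a' 1 * b' 1 * star S ∈ unitary (Op H) := by simpa only [pow_one] using hu 1
  have h7 : ∀ k, ‖(a' 1 * b' 1 * star S) ^ k - Y ^ k‖ ≤ 361 * δ := fun k => by
    have h7 := kaz_mul_le (kaz_mul_sub (h4 k).1 (h4 k).2 (norm_unitary_le (h3 k).2)
      (norm_unitary_le (hau k))) (norm_unitary_le (hSk k))
    rw [sub_mul] at h7
    rw [h6]
    linarith [h1 k, norm_sub_le_norm_sub_add_norm_sub (a' k * b' k * star S ^ k)
      (a k * b k * star S ^ k) (Y ^ k)]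
  refine ⟨_, (h2 1).1, _, (h3 1).1, ?_⟩
  generalize a' 1 * b' 1 * star S = G at h6 hG h7
  have h8 : ∀ k, ‖G ^ k * star (Y ^ k)‖ ≤ 1 := fun k =>
    norm_unitary_le (mul_mem (pow_mem hG k) (Unitary.star_mem (pow_mem hY k)))
  obtain ⟨X, hX⟩ := exists_Mean (hyperfilter ℕ) _ 1 h8
  have h9 : ‖X - 1‖ ≤ 361 * δ := hX.norm_sub_le 1 fun k => by
    rw [← CStarRing.norm_mul_mem_unitary _ (pow_mem hY k), sub_mul, mul_assoc,
      (pow_mem hY k).1, mul_one, one_mul]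
    exact h7 k
  have h10 : G * X * star Y = X := hX.fixed Nat.hyperfilter_le_atTop h8 fun k => by
    simp only [pow_succ', star_mul, mul_assoc]
  obtain ⟨W, hW, h11, -, h12, -⟩ := exists_polar' (one_mem _) (by linarith) h9
  refine ⟨W, (h2 1).2, (h3 1).2, hW, by linarith [norm_sub_le_norm_sub_add_norm_sub W X 1],
    fun k => by linarith [h7 k], h12 _ _ ?_ ?_, fun Z hZA hZB hZ => ?_⟩
  · conv_lhs => rw [← h10, mul_assoc, hY.1, mul_one]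
  · conv_rhs => rw [← h10, mul_assoc, un_l hG]
  have h13 : ∀ Z ∈ A.commutant, Z ∈ B.commutant →
      (∀ k, Z * star (Y ^ k * S ^ k) = star (Y ^ k * S ^ k) * Z) → X * Z = Z * X :=
    fun Z hZA hZB hZ => (hX.comm fun k => by
      rw [h6, ← star_pow, mul_assoc _ (star _), ← star_mul, mul_assoc _ _ Z, ← hZ, ← mul_assoc,
        ← mul_assoc, ← comm_of_mem (h2 k).1 hZA, mul_assoc _ Z, ← comm_of_mem (h3 k).1 hZB]
      simp only [mul_assoc]).symm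
  refine h12 _ _ (h13 Z hZA hZB fun k => ?_) (h13 _ (star_mem hZA) (star_mem hZB) fun k => ?_)
  · have hu := mul_mem (pow_mem hY k) (pow_mem hS k)
    rw [← un_l hu (Z * _), ← mul_assoc _ Z, ← hZ, mul_assoc Z, hu.2, mul_one]
  · rw [← star_mul, ← hZ, star_mul]

/-- One-sided version: `B = vn Set.univ` (its elements commute with everything, so lie in `A`;
`Split` holds with `a₁ = a b`, `b₁ = 1`). -/
theorem kaz_one {A : VonNeumannAlgebra H} {S Y : Op H} (hS : S ∈ unitary (Op H))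
    (hY : Y ∈ unitary (Op H)) (hA : ∀ a ∈ A, star S * a * S ∈ A) {δ : ℝ} (hδ : δ ≤ 1 / 1000000)
    (h : ∀ k : ℕ, ∃ a ∈ A, a ∈ unitary (Op H) ∧ ‖Y ^ k * S ^ k - a‖ ≤ δ) :
    ∃ a ∈ A, ∃ W : Op H, a ∈ unitary (Op H) ∧ W ∈ unitary (Op H) ∧ ‖W - 1‖ ≤ 1000 * δ ∧
      (∀ k : ℕ, ‖(a * star S) ^ k - Y ^ k‖ ≤ 1000 * δ) ∧ W * Y = a * star S * W ∧
      ∀ Z ∈ A.commutant, (∀ k : ℕ, Z * (Y ^ k * S ^ k) = Y ^ k * S ^ k * Z) → W * Z = Z * W := by
  have hc : ∀ b ∈ vn (Set.univ : Set (Op H)), ∀ x, x * b = b * x := fun b hb x =>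
    (mem_vn.1 hb x trivial).1
  have hm : ∀ b ∈ vn (Set.univ : Set (Op H)), b ∈ A := fun b hb =>
    mem_of_comm fun y _ => hc b hb y
  obtain ⟨a, ha, b, hb, W, hau, hbu, hW, h1, h2, h3, h4⟩ := kaz (B := vn Set.univ)
    (fun a _ b hb => hc b hb a) hS hY hA
    (fun b hb => by rwa [hc b hb, mul_assoc, hS.1, mul_one])
    (fun a ha b hb hau hbu ε _ h => ⟨_, mul_mem ha (hm b hb), 1, one_mem _, mul_mem hau hbu,
      one_mem _, mul_one _, by linarith [norm_nonneg (a * b - 1)], by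
        rw [sub_self, norm_zero]; linarith [norm_nonneg (a * b - 1)]⟩) hδ fun k => by
      obtain ⟨a, ha, hau, h⟩ := h k
      exact ⟨a, ha, 1, one_mem _, hau, one_mem _, by rwa [mul_one]⟩
  exact ⟨_, mul_mem ha (hm b hb), W, mul_mem hau hbu, hW, h1, h2, h3,
    fun Z hZ => h4 Z hZ (subset_comm_vn trivial)⟩

end Crest.Agent.R78
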