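import Crest.Agent.R78.FrameLem
import Crest.Agent.R78.Kaz

/-! # R78: placement of Cuntz families (task `Place`) -/

set_option autoImplicit false
set_option linter.unusedSectionVars false
open Filter Topology
open scoped InnerProductSpace

namespace Crest.Agent.R78

universe u
variable {H : Type u} [NormedAddCommGroup H] [InnerProductSpace ℂ H] [CompleteSpace H]

theorem pl_conj_mul {B : Op H} (hB : B ∈ unitary (Op H)) (X Y : Op H) :
    B * X * star B * (B * Y * star B) = B * (X * Y) * star B := by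
  calc B * X * star B * (B * Y * star B) = B * X * (star B * B) * Y * star B := by
        simp only [mul_assoc]
    _ = _ := by rw [hB.1, mul_one, mul_assoc B]

theorem pl_conj_pow {B : Op H} (hB : B ∈ unitary (Op H)) (X : Op H) (k : ℕ) :
    (B * X * star B) ^ k = B * X ^ k * star B := by
  induction k with
  | zero => rw [pow_zero, pow_zero, mul_one, hB.2]
  | succ k ih => rw [pow_succ, ih, pl_conj_mul hB, pow_succ]

theorem pl_conj_near {B y : Op H} (hB : B ∈ unitary (Op H)) (hy : y ∈ unitary (Op H)) :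
    ‖B * y * star B - y‖ ≤ 2 * ‖B - 1‖ := by
  have e : B * y * star B - y = ((B - 1) * y - y * (B - 1)) * star B := by
    rw [sub_mul B, mul_sub y, one_mul, mul_one, sub_sub_sub_cancel_right, sub_mul, mul_assoc y,
      hB.2, mul_one]
  rw [e, CStarRing.norm_mul_mem_unitary _ (Unitary.star_mem hB)]
  refine (norm_sub_le _ _).trans ?_
  rw [CStarRing.norm_mul_mem_unitary _ hy, CStarRing.norm_mem_unitary_mul _ hy]
  linarith

theorem pl_eq_conj {B X Y : Op H} (hB : B ∈ unitary (Op H)) (h : B * X = Y * B) :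
    Y = B * X * star B := by
  rw [h, mul_assoc, hB.2, mul_one]

namespace Frame
variable {𝓗 : Type u} [NormedAddCommGroup 𝓗] [InnerProductSpace ℂ 𝓗] [CompleteSpace 𝓗]
  {A : Type} {o : A} (F : Frame H 𝓗 A o)

variable {M N : VonNeumannAlgebra H} {W W' : Op 𝓗}

/-- `y (k+1) = W (T* (y k) T)`. -/
theorem pow_mem (hW : W ∈ F.Mt M) (k : ℕ) : (W * star F.T) ^ k * F.T ^ k ∈ F.Mt M := by
  induction k with
  | zero => simp
  | succ k ih =>
    have := mul_mem hW (F.rho_mem ih)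
    rwa [pow_succ', pow_succ, show W * star F.T * (W * star F.T) ^ k * (F.T ^ k * F.T) =
      W * (star F.T * ((W * star F.T) ^ k * F.T ^ k) * F.T) by simp only [mul_assoc]]

theorem pow_mem' (hW : W' ∈ (F.Mt M).commutant) (k : ℕ) :
    (W' * F.T) ^ k * star F.T ^ k ∈ (F.Mt M).commutant := by
  induction k with
  | zero => simp
  | succ k ih =>
    have := mul_mem hW (F.rho_mem' ih)
    rwa [pow_succ', pow_succ, show W' * F.T * (W' * F.T) ^ k * (star F.T ^ k * star F.T) =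
      W' * (F.T * ((W' * F.T) ^ k * star F.T ^ k) * star F.T) by simp only [mul_assoc]]

/-- Both sides satisfy `y (k+1) = W' T (y k) T*` because `W` commutes with `y k ∈ (Mt M)'`. -/
theorem pow_cancel (hW : W ∈ F.Mt M) (hu : W ∈ unitary (Op 𝓗)) (hW' : W' ∈ (F.Mt M).commutant)
    (k : ℕ) : (W' * F.T * star W) ^ k * (W * star F.T) ^ k = (W' * F.T) ^ k * star F.T ^ k := by
  induction k with
  | zero => simp
  | succ k ih =>
    have h1 := comm_of_mem hW (F.pow_mem' hW' k)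
    rw [pow_succ', pow_succ, pow_succ', pow_succ]
    calc W' * F.T * star W * (W' * F.T * star W) ^ k * ((W * star F.T) ^ k * (W * star F.T))
        = W' * F.T * star W * (((W' * F.T * star W) ^ k * (W * star F.T) ^ k) * W) * star F.T := by
          simp only [mul_assoc]
      _ = W' * F.T * (star W * W) * ((W' * F.T) ^ k * star F.T ^ k) * star F.T := by
          rw [ih, ← h1]
          simp only [mul_assoc]
      _ = _ := by
          rw [hu.1, mul_one]
          simp only [mul_assoc]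

/-- Step 1: `kaz_one` with `A = Mt N`, `S = T`, `Y = W T*` (`pow_mem`, `Near.unitary`) gives `R`,
`B₁`, `G = R T*`, `B₁ Y = G B₁`; `B₁` commutes with `v' j`, `(v' j)*` and the common centre, so
`B₁ W v j = B₁ Y v' j = R v j B₁`.  Step 2: `kaz_one` with `A = (Mt N)'`, `S = G`,
`Y₂ = B₁ (W' T W*) B₁*`; `G* y G = T y T*` for `y ∈ (Mt N)'`;
`Y₂ᵏ Gᵏ = B₁ (W' T)ᵏ T*ᵏ B₁*` (`pow_cancel`, `Gᵏ = B₁ Yᵏ B₁*`).  It gives `R'`, `B₂` with
`B₂ Y₂ = R' G* B₂`, `B₂` commutes with `r j = R v j = B₁ W v j B₁* ∈ Mt N`.  `B = B₂ B₁`: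
`B W' v' j = B₂ Y₂ r j B₁ = R' G* r j B = R' v' j B`.  Finally
`(R' G*)ᵏ Gᵏ = (R' T)ᵏ T*ᵏ` (`pow_cancel` for `N`). -/
theorem exists_placed {δ : ℝ} (h0 : 0 ≤ δ) (hδ : δ ≤ 1 / 10 ^ 11)
    (h1 : Near (F.Mt M) (F.Mt N) δ) (h2 : Near (F.Mt M).commutant (F.Mt N).commutant δ)
    (hW : W ∈ F.Mt M) (hu : W ∈ unitary (Op 𝓗)) (hW' : W' ∈ (F.Mt M).commutant)
    (hu' : W' ∈ unitary (Op 𝓗)) : ∃ B R R', F.Placed M N W W' (10 ^ 7 * δ) B R R' := by
  have hT := F.T_unitary
  have hT' := Unitary.star_mem hT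
  have hY : W * star F.T ∈ unitary (Op 𝓗) := mul_mem hu hT'
  obtain ⟨R, hR, B₁, hRu, hB₁, n1, q1, i1, c1⟩ := kaz_one (A := F.Mt N) hT hY
    (fun a ha => F.rho_mem ha) (δ := 2 * δ) (by linarith) fun k => by
      obtain ⟨w, hw, hwu, h⟩ := h1.unitary h0 (by linarith) (F.pow_mem hW k)
        (mul_mem (_root_.pow_mem hY k) (_root_.pow_mem hT k))
      exact ⟨w, hw, hwu, h⟩
  have c1' : ∀ Z ∈ (F.Mt N).commutant, Z ∈ (F.Mt M).commutant → B₁ * Z = Z * B₁ :=
    fun Z hZ hZ' => c1 Z hZ fun k => (comm_of_mem (F.pow_mem hW k) hZ').symm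
  have bv : ∀ j, B₁ * (W * F.v j) = R * F.v j * B₁ := fun j => by
    rw [← F.starT_v', ← mul_assoc W, ← mul_assoc, i1, mul_assoc, c1' _ (F.v'_mem' N j) (F.v'_mem' M j)]
    simp only [mul_assoc]
  have hG : R * star F.T ∈ unitary (Op 𝓗) := mul_mem hRu hT'
  have hX : W' * F.T * star W ∈ unitary (Op 𝓗) := mul_mem (mul_mem hu' hT) (Unitary.star_mem hu)
  have hY2 : B₁ * (W' * F.T * star W) * star B₁ ∈ unitary (Op 𝓗) :=
    mul_mem (mul_mem hB₁ hX) (Unitary.star_mem hB₁)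
  have hy : ∀ k : ℕ, (W' * F.T) ^ k * star F.T ^ k ∈ unitary (Op 𝓗) := fun k =>
    mul_mem (_root_.pow_mem (mul_mem hu' hT) k) (_root_.pow_mem hT' k)
  have e1 : ∀ k : ℕ, (B₁ * (W' * F.T * star W) * star B₁) ^ k * (R * star F.T) ^ k =
      B₁ * ((W' * F.T) ^ k * star F.T ^ k) * star B₁ := fun k => by
    rw [pl_eq_conj hB₁ i1, pl_conj_pow hB₁, pl_conj_pow hB₁, pl_conj_mul hB₁, F.pow_cancel hW hu hW']
  have n2 : ∀ k : ℕ, ‖B₁ * ((W' * F.T) ^ k * star F.T ^ k) * star B₁ -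
      (W' * F.T) ^ k * star F.T ^ k‖ ≤ 4000 * δ := fun k => by
    linarith [pl_conj_near hB₁ (hy k)]
  have sG : star (R * star F.T) = F.T * star R := by rw [star_mul, star_star]
  obtain ⟨R', hR', B₂, hRu', hB₂, n3, q2, i2, c2⟩ := kaz_one (A := (F.Mt N).commutant) hG hY2
    (fun a ha => by
      have e : star (R * star F.T) * a * (R * star F.T) = F.T * a * star F.T := by
        rw [sG, ← mul_assoc, mul_assoc _ a, ← comm_of_mem hR ha, mul_assoc F.T, ← mul_assoc (star R),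
          hRu.1, one_mul]
      rw [e]
      exact F.rho_mem' ha) (δ := 4002 * δ) (by linarith) fun k => by
      obtain ⟨w, hw, hwu, h⟩ := h2.unitary h0 (by linarith) (F.pow_mem' hW' k) (hy k)
      refine ⟨w, hw, hwu, ?_⟩
      rw [e1]
      linarith [norm_sub_le_norm_sub_add_norm_sub
        (B₁ * ((W' * F.T) ^ k * star F.T ^ k) * star B₁) ((W' * F.T) ^ k * star F.T ^ k) w, n2 k]
  have c2' : ∀ Z ∈ F.Mt N, ∀ Z' ∈ F.Mt M, B₁ * Z' = Z * B₁ → B₂ * Z = Z * B₂ :=
    fun Z hZ Z' hZ' h => c2 Z (by rwa [VonNeumannAlgebra.commutant_commutant]) fun k => by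
      rw [e1, pl_eq_conj hB₁ h, pl_conj_mul hB₁, pl_conj_mul hB₁,
        comm_of_mem hZ' (F.pow_mem' hW' k)]
  have bv2 : ∀ j, B₂ * (R * F.v j) = R * F.v j * B₂ := fun j =>
    c2' _ (mul_mem hR (F.Sc_le (F.v_mem_Sc j) N)) _ (mul_mem hW (F.Sc_le (F.v_mem_Sc j) M)) (bv j)
  refine ⟨B₂ * B₁, R, R', mul_mem hB₂ hB₁, ?_, hR, hRu, hR', hRu', fun j => ?_, fun j => ?_,
    fun k => (q1 k).trans (by linarith), fun k => ?_, fun z hz hz' => ?_⟩
  · have e : B₂ * B₁ - 1 = (B₂ - 1) * B₁ + (B₁ - 1) := by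
      rw [sub_mul, one_mul, sub_add_sub_cancel]
    rw [e]
    refine (norm_add_le _ _).trans ?_
    rw [CStarRing.norm_mul_mem_unitary _ hB₁]
    linarith
  · rw [mul_assoc, bv, ← mul_assoc, bv2, mul_assoc]
  · calc B₂ * B₁ * (W' * F.v' j)
        = B₂ * B₁ * (W' * F.T * (star W * ((star B₁ * B₁) * W)) * F.v j) := by
          rw [hB₁.1, one_mul, hu.1, mul_one, mul_assoc W', F.T_v]
      _ = B₂ * (B₁ * (W' * F.T * star W) * star B₁) * (B₁ * (W * F.v j)) := by
          simp only [mul_assoc]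
      _ = R' * (F.T * star R) * (B₂ * (R * F.v j)) * B₁ := by
          rw [i2, bv, sG]
          simp only [mul_assoc]
      _ = R' * (F.T * (star R * R) * F.v j) * (B₂ * B₁) := by
          rw [bv2]
          simp only [mul_assoc]
      _ = _ := by rw [hRu.1, mul_one, F.T_v]
  · rw [← CStarRing.norm_mul_mem_unitary _ (_root_.pow_mem hT' k), sub_mul, ← F.pow_cancel hR hRu hR']
    have a1 := q2 k
    rw [← CStarRing.norm_mul_mem_unitary _ (_root_.pow_mem hG k), sub_mul, e1, sG, ← mul_assoc R'] at a1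
    linarith [norm_sub_le_norm_sub_add_norm_sub ((R' * F.T * star R) ^ k * (R * star F.T) ^ k)
      (B₁ * ((W' * F.T) ^ k * star F.T ^ k) * star B₁) ((W' * F.T) ^ k * star F.T ^ k), n2 k]
  · have a1 := c1' _ (F.lift_mem' hz'.2) (F.lift_mem' hz.2)
    rw [mul_assoc, a1, ← mul_assoc, c2' _ (F.lift_mem hz'.1) _ (F.lift_mem hz.1) a1, mul_assoc]

end Frame

end Crest.Agent.R78
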