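import Crest.Agent.R78.RmeA
import Crest.Agent.R78.Julia
import Crest.Agent.R78.Place
import Crest.Agent.R78.AlignD

/-! # R78: invariant linear perturbation (task `RmeB`) -/

set_option autoImplicit false
set_option linter.unusedSectionVars false
open Filter Topology
open scoped InnerProductSpace

namespace Crest.Agent.R78

universe u
variable {H : Type u} [NormedAddCommGroup H] [InnerProductSpace ℂ H] [CompleteSpace H]

section
variable {𝓗 : Type u} [NormedAddCommGroup 𝓗] [InnerProductSpace ℂ 𝓗] [CompleteSpace 𝓗]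
  {A : Type} [Fintype A] [Nonempty A]

omit [Nonempty A] in
theorem Frame.rb_diag {o : A} (F : Frame H 𝓗 A o) (h : A → Op H) :
    ∃ D : Op 𝓗, (∀ j, D * F.v j = F.v j * F.lift (h j)) ∧
      (∀ j, star D * F.v j = F.v j * F.lift (star (h j))) ∧
      ∀ M : VonNeumannAlgebra H, (∀ j, h j ∈ M) → D ∈ F.Mt M := by
  have key : ∀ (h : A → Op H) (j : A),
      (∑ i, F.v i * F.lift (h i) * star (F.v i)) * F.v j = F.v j * F.lift (h j) := fun h j => by
    rw [Finset.sum_mul, Finset.sum_eq_single j]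
    · rw [mul_assoc, F.v_iso, mul_one]
    · intro i _ hi
      rw [mul_assoc, F.v_orth i j hi, mul_zero]
    · simp
  refine ⟨∑ i, F.v i * F.lift (h i) * star (F.v i), key h, fun j => ?_, fun M hM => ?_⟩
  · rw [← key (fun i => star (h i)) j, star_sum]
    simp only [star_mul, star_star, map_star, mul_assoc]
  · have hv : ∀ j, F.v j ∈ F.Mt M := fun j => F.Sc_le (F.v_mem_Sc j) M
    exact sum_mem fun i _ => mul_mem (mul_mem (hv i) (F.lift_mem (hM i))) (star_mem (hv i))

theorem rb_c_sq : (((√(Fintype.card A))⁻¹ : ℝ)) ^ 2 * Fintype.card A = 1 := by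
  have : (0 : ℝ) < Fintype.card A := Nat.cast_pos.2 Fintype.card_pos
  rw [inv_pow, Real.sq_sqrt this.le, inv_mul_cancel₀ this.ne']

omit [Fintype A] [Nonempty A] in
theorem qw_cons (s : A → Op H) (j : A) (w : List A) :
    qw s (j :: w) = s j * qw s w * star (s j) := by
  simp only [qw, sw_cons, star_mul, mul_assoc]

omit [Fintype A] [Nonempty A] in
theorem sw_mem {s : A → Op H} {Q : VonNeumannAlgebra H} (h : ∀ j, s j ∈ Q) (w : List A) :
    sw s w ∈ Q := by
  induction w with
  | nil => exact one_mem _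
  | cons j w ih => rw [sw_cons]; exact mul_mem (h j) ih

omit [Fintype A] [Nonempty A] in
theorem qw_mem {s : A → Op H} {Q : VonNeumannAlgebra H} (h : ∀ j, s j ∈ Q) (w : List A) :
    qw s w ∈ Q := mul_mem (sw_mem h w) (star_mem (sw_mem h w))

omit [Nonempty A] in
theorem Cuntz.sum_eq_one {s : A → Op H} (h : Cuntz s) : ∑ j, s j * star (s j) = 1 := by
  refine sub_eq_zero.1 (h.ext _ fun j => ?_)
  rw [sub_mul, one_mul, Finset.sum_mul, Finset.sum_eq_single j, mul_assoc, h.iso, mul_one, sub_self]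
  · intro i _ hi
    rw [mul_assoc, h.orth i j hi, mul_zero]
  · simp

/-- `O` = Julia operator of the scalar column `a (some j) = (√n)⁻¹ • 1`, `a none = 0`,
`n = card A`; it lies in `Sc` (`Dil` for `M = vn Set.univ`, whose commutant is everything).
`D = ∑_j v j lift (ĝ j)* (v j)*` with `ĝ none = 1` is a unitary of `Mt M` (`∑ v j (v j)* = 1` by
`row_ext`) commuting with `T* y T` for `y ∈ Sc`; `W = O D`, `W v j = O v j lift (ĝ j)*`.
`qw (j :: w) = O v j (qw w) (v j)* O* ∈ Sc` by induction. -/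
theorem Frame.exists_rmeDil (F : Frame H 𝓗 (Option A) none) {M : VonNeumannAlgebra H}
    {g : A → Op H} (hg : ∀ j, g j ∈ M ∧ g j ∈ unitary (Op H)) :
    ∃ W, F.Dil M W ∧ (∀ w, qw (fun j => W * F.v j) w ∈ F.Sc) ∧
      star (W * F.v none) * F.p = 0 ∧ ∀ j, star (W * F.v (some j)) * F.p =
        (((√(Fintype.card A))⁻¹ : ℝ) : ℂ) • (F.lift (g j) * F.p) := by
  set c : ℂ := (((√(Fintype.card A))⁻¹ : ℝ) : ℂ) with hc
  obtain ⟨O, hO, hOs, hOv⟩ := F.exists_julia (fun j => j.elim 0 fun _ => c • (1 : Op H)) rfl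
    fun η => by
      have e : ∑ j : Option A, ‖(j.elim 0 fun _ => c • (1 : Op H) : Op H) η‖ ^ 2 = ‖η‖ ^ 2 := by
        rw [Fintype.sum_option]
        simp only [Option.elim_none, Option.elim_some, zero_apply, norm_zero, smul_apply,
          one_apply_eq_self, norm_smul, Finset.sum_const, Finset.card_univ, nsmul_eq_mul, hc,
          Complex.norm_real, Real.norm_eq_abs, mul_pow, sq_abs]
        rw [← mul_assoc, mul_comm (Fintype.card A : ℝ), rb_c_sq]
        simp
      rw [← e]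
      exact hasSum_fintype _
  have hOM : ∀ M : VonNeumannAlgebra H, F.Dil M O := fun M => hO M fun j => by
    cases j with
    | none => exact zero_mem _
    | some j => exact vn_smul_mem _ (one_mem _)
  have hOS : O ∈ F.Sc := by
    have := F.mem_Mt.1 (hOM (vn Set.univ)).mem
    exact F.mem_Sc.2 ⟨fun y => this.1 y (subset_comm_vn (Set.mem_univ y)), this.2⟩
  let G : Option A → Op H := fun j => j.elim 1 g
  have hG : ∀ j, G j ∈ M ∧ G j ∈ unitary (Op H) := fun j => by
    cases j with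
    | none => exact ⟨one_mem _, one_mem _⟩
    | some j => exact hg j
  obtain ⟨D, d1, d2, d3⟩ := F.rb_diag fun j => star (G j)
  simp only [star_star] at d2
  have hD : D ∈ unitary (Op 𝓗) := by
    refine ⟨F.row_ext fun j => ?_, F.row_ext fun j => ?_⟩
    · rw [mul_assoc, d1, ← mul_assoc, d2, mul_assoc, ← map_mul, (hG j).2.2, map_one, mul_one,
        one_mul]
    · rw [mul_assoc, d2, ← mul_assoc, d1, mul_assoc, ← map_mul, (hG j).2.1, map_one, mul_one,
        one_mul]
  have hs : ∀ j, O * D * F.v j = O * F.v j * F.lift (star (G j)) := fun j => by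
    rw [mul_assoc, d1, mul_assoc]
  have hp : ∀ j, star (O * D * F.v j) * F.p =
      F.lift (G j) * (F.lift (j.elim 0 fun _ => c • (1 : Op H)) * F.p) := fun j => by
    rw [hs, ← hOv, star_mul, star_mul, hOs, ← map_star, star_star]
    simp only [mul_assoc]
  refine ⟨O * D, ⟨mul_mem (hOM M).mem (d3 M fun j => star_mem (hG j).1),
    mul_mem (hOM M).uni hD, fun y hy => ?_⟩, fun w => ?_, ?_, fun j => ?_⟩
  · have h1 : D * (star F.T * y * F.T) = star F.T * y * F.T * D := F.row_ext fun j => by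
      have r := F.rho_v (fun j => ((F.mem_Sc.1 hy).2 j).1.symm) j
      rw [mul_assoc D, r, ← mul_assoc D, d1, mul_assoc _ D, d1, ← mul_assoc _ (F.v j), r,
        mul_assoc, mul_assoc, (F.mem_Sc.1 hy).1]
    rw [mul_assoc O, h1, ← mul_assoc O, (hOM M).comm y hy, mul_assoc _ O]
  · induction w with
    | nil => simp [qw]
    | cons j w ih =>
      have hv := F.v_mem_Sc j
      have e : O * F.v j * F.lift (star (G j)) * qw (fun j => O * D * F.v j) w *
          star (O * F.v j * F.lift (star (G j))) =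
          O * F.v j * qw (fun j => O * D * F.v j) w * star (O * F.v j) := by
        rw [mul_assoc _ (F.lift _), (F.mem_Sc.1 ih).1, star_mul _ (F.lift _), ← map_star, star_star]
        simp only [mul_assoc]
        rw [← mul_assoc (F.lift _), ← map_mul, (hG j).2.1, map_one, one_mul]
      rw [qw_cons, hs, e]
      exact mul_mem (mul_mem (mul_mem hOS hv) ih) (star_mem (mul_mem hOS hv))
  · rw [hp]; simp
  · rw [hp]
    simp only [Option.elim_some, map_smul, map_one, smul_mul_assoc, one_mul, mul_smul_comm, G]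

omit [Fintype A] [Nonempty A] in
theorem Frame.cuntz {o : A} (F : Frame H 𝓗 A o) {W : Op 𝓗} (hW : W ∈ unitary (Op 𝓗)) :
    Cuntz fun j => W * F.v j := by
  refine ⟨fun j => ?_, fun i j hij => ?_, fun X hX => ?_⟩
  · rw [star_mul, mul_assoc, un_l hW, F.v_iso]
  · rw [star_mul, mul_assoc, un_l hW, F.v_orth i j hij]
  · have h : X * W = 0 := F.row_ext fun j => by rw [mul_assoc, hX, zero_mul]
    rw [← mul_one X, ← hW.2, ← mul_assoc, h, zero_mul]

/-- `W`, `W'` from `exists_rmeDil` (for `F`, `F.flip`), `s j = W v j`, `s' j = W' v' j`,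
`S = W' T W*` fixes `Ξ = ι ζ` (`fix_of_eq`).  `B`, `R`, `R'` from `exists_placed`,
`Q₀ = cj B (Mt N) ∋ s j`, `Q₀' = cj B (Mt N)' ∋ s' j`.  `alignD` for the families `qw s` (in `Mt N`)
and `qw s'` (in `(Mt N)'`) gives `U`, `U'`; `Φ t = cmp (U'* lift t U')`.  `rme_core` with
`Dil.conj_P`, `p_lim`, `P_mem_Sc`.  For a word `w` in the letters `some j`,
`(s_w)* p = cˡ lift (g_{w_l} ⋯ g_{w_1}) p`, `c = (√n)⁻¹`, so `p q_w p = c²ˡ p` and
`⟪Ξ, q_w b Ξ⟫ = ⟪s_w* Ξ, b s_w* Ξ⟫ = c²ˡ ⟪x ζ, Φ t x ζ⟫` (`Submonoid.exists_list_of_mem_closure`,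
reverse the list).  Harmonicity: `b = ∑_j s j b (s j)*`, compress. -/
theorem Frame.rme (F : Frame H 𝓗 (Option A) none) {M N : VonNeumannAlgebra H} {δ : ℝ}
    (h0 : 0 ≤ δ) (hδ : δ ≤ 1 / 10 ^ 11) (h1 : Near (F.Mt M) (F.Mt N) δ)
    (h2 : Near (F.Mt M).commutant (F.Mt N).commutant δ) {ζ : H} {g g' : A → Op H}
    (hg : ∀ j, g j ∈ M ∧ g j ∈ unitary (Op H))
    (hg' : ∀ j, g' j ∈ M.commutant ∧ g' j ∈ unitary (Op H)) (e : ∀ j, g j ζ = g' j ζ) :
    ∃ Φ : Op H →ₗ[ℂ] Op H, ∀ t ∈ N.commutant, ‖Φ t - t‖ ≤ 4 * 10 ^ 7 * δ * ‖t‖ ∧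
      (∀ x ∈ Submonoid.closure (Set.range g), ⟪x ζ, Φ t (x ζ)⟫_ℂ = ⟪ζ, Φ t ζ⟫_ℂ) ∧
      ∑ j, star (g j) * Φ t * g j = (Fintype.card A : ℂ) • Φ t := by
  obtain ⟨W, hW, q1, n1, g1⟩ := F.exists_rmeDil hg
  obtain ⟨W', hW', q2, n2, g2⟩ := F.flip.exists_rmeDil hg'
  simp only [flip_v, flip_p, flip_lift] at q2 n2 g2
  have hW'm : W' ∈ (F.Mt M).commutant := by rw [← F.flip_Mt]; exact hW'.mem
  set c : ℂ := (((√(Fintype.card A))⁻¹ : ℝ) : ℂ) with hc
  have hcs : (starRingEnd ℂ) c = c := Complex.conj_ofReal _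
  have hcc : c * c * Fintype.card A = 1 := by
    rw [hc, ← sq]; exact_mod_cast rb_c_sq (A := A)
  have hc0 : c ≠ 0 := by rintro h; simp [h] at hcc
  have hs : Cuntz fun j => W * F.v j := F.cuntz hW.uni
  have hs' : Cuntz fun j => W' * F.v' j := F.flip.cuntz hW'.uni
  have sM : ∀ j, W * F.v j ∈ F.Mt M := fun j => mul_mem hW.mem (F.Sc_le (F.v_mem_Sc j) M)
  have sM' : ∀ j, W' * F.v' j ∈ (F.Mt M).commutant := fun j => mul_mem hW'm (F.v'_mem' M j)
  have a0 : ∀ η, star (W * F.v none) (F.ι η) = 0 := fun η => by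
    rw [← F.p_ι, ← mul_apply_eq_comp, n1, zero_apply]
  have a1 : ∀ j η, star (W * F.v (some j)) (F.ι η) = c • F.ι (g j η) := fun j η => by
    rw [← F.p_ι, ← mul_apply_eq_comp, g1, smul_apply, mul_apply_eq_comp, F.p_ι, F.lift_ι]
  have hfix : (W' * F.T * star W) (F.ι ζ) = F.ι ζ := F.fix_of_eq hW.uni hW'.uni fun j => by
    cases j with
    | none => rw [a0, ← F.p'_ι, ← mul_apply_eq_comp, n2, zero_apply]
    | some j =>
      rw [a1, e, ← F.p'_ι ζ, ← mul_apply_eq_comp, g2, smul_apply, mul_apply_eq_comp, F.p'_ι,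
        F.lift_ι]
  obtain ⟨B, R, R', pl⟩ := F.exists_placed h0 hδ h1 h2 hW.mem hW.uni hW'm hW'.uni
  have hB := pl.B_uni
  have sQ : ∀ j, W * F.v j ∈ cj B (F.Mt N) := fun j => by
    rw [mem_cj hB, ← pl_eq_conj hB (pl.B_v j)]
    exact mul_mem pl.R_mem (F.Sc_le (F.v_mem_Sc j) N)
  have sQ' : ∀ j, W' * F.v' j ∈ cj B (F.Mt N).commutant := fun j => by
    rw [mem_cj hB, ← pl_eq_conj hB (pl.B_v' j)]
    exact mul_mem pl.R'_mem (F.v'_mem' N j)
  have hε : 10 ^ 7 * δ ≤ 1 / 2 := by linarith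
  obtain ⟨U, hU, -, u1, u2⟩ := alignD (qw fun j => W * F.v j) hs.qw_proj hs.qw_comm
    (A := F.Mt N) hB hε pl.B_near (fun w => F.Sc_le (q1 w) N)
    fun w => (mem_cj hB).1 (qw_mem sQ w)
  obtain ⟨U', hU', nU', u1', u2'⟩ := alignD (qw fun j => W' * F.v' j) hs'.qw_proj hs'.qw_comm
    (A := (F.Mt N).commutant) hB hε pl.B_near
    (fun w => by rw [← F.flip_Mt]; exact F.flip.Sc_le (q2 w) _)
    fun w => (mem_cj hB).1 (qw_mem sQ' w)
  have words : ∀ x ∈ Submonoid.closure (Set.range g), x ∈ unitary (Op H) ∧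
      ∃ (w : List (Option A)) (κ : ℂ), κ ≠ 0 ∧ (starRingEnd ℂ) κ = κ ∧
        star (sw (fun j => W * F.v j) w) * F.p = κ • (F.lift x * F.p) := fun x hx => by
    induction hx using Submonoid.closure_induction_right with
    | one => exact ⟨one_mem _, [], 1, one_ne_zero, map_one _, by simp⟩
    | mul_right x _ y hy ih =>
      obtain ⟨j, rfl⟩ := hy
      obtain ⟨hx, w, κ, k0, k1, k2⟩ := ih
      refine ⟨mul_mem hx (hg j).2, some j :: w, c * κ, mul_ne_zero hc0 k0,
        by rw [map_mul, hcs, k1], ?_⟩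
      have cp : F.lift (g j) * F.p = F.p * F.lift (g j) := F.p_comm _ fun i => F.C2_v_lift i _
      rw [sw_cons, star_mul, mul_assoc, g1, cp, mul_smul_comm, ← mul_assoc, k2, smul_mul_assoc,
        smul_smul, mul_assoc, ← cp, map_mul, mul_assoc]
  refine ⟨F.cmp ∘ₗ LinearMap.mulLeftRight ℂ (star U', U') ∘ₗ F.lift.toAlgHom.toLinearMap,
    fun t ht => ?_⟩
  have eΦ : (F.cmp ∘ₗ LinearMap.mulLeftRight ℂ (star U', U') ∘ₗ F.lift.toAlgHom.toLinearMap) t =
      F.cmp (star U' * F.lift t * U') := rfl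
  rw [eΦ]
  have hb : star U' * F.lift t * U' ∈ (cj B (F.Mt N)).commutant := by
    rw [commutant_cj hB, mem_cj hB]
    have := mul_mem (mul_mem (star_mem u2') (F.lift_mem' ht)) u2'
    simpa only [star_mul, star_star, mul_assoc] using this
  have hbq : ∀ u, star U' * F.lift t * U' * qw (fun j => W' * F.v' j) u =
      qw (fun j => W' * F.v' j) u * (star U' * F.lift t * U') := fun u => by
    have c1 : Commute U' (qw (fun j => W' * F.v' j) u) := u1' u
    have c2 : Commute (F.lift t) (qw (fun j => W' * F.v' j) u) := (F.flip.mem_Sc.1 (q2 u)).1 t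
    have c3 : Commute (star U') (qw (fun j => W' * F.v' j) u) := by
      have := c1.star_star
      rwa [(hs'.qw_proj u).isSelfAdjoint.star_eq] at this
    exact ((c3.mul_left c2).mul_left c1).eq
  refine ⟨?_, fun x hx => ?_, ?_⟩
  · nth_rewrite 2 [← F.cmp_lift t]
    rw [← map_sub]
    refine (F.norm_cmp_le _).trans ?_
    rw [norm_sub_rev]
    refine (norm_sub_conj' hU' nU' _).trans ?_
    have := mul_le_mul_of_nonneg_left (F.norm_lift_le t)
      (show 0 ≤ 2 * (2 * (10 ^ 7 * δ)) by positivity)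
    linarith
  all_goals generalize star U' * F.lift t * U' = b at hb hbq
  · obtain ⟨hxu, w, κ, k0, k1, k2⟩ := words x hx
    have hw : F.p * qw (fun j => W * F.v j) w * F.p = (κ * κ) • F.p := by
      have ps := F.p_proj.isSelfAdjoint.star_eq
      calc F.p * qw (fun j => W * F.v j) w * F.p
          = star (star (sw (fun j => W * F.v j) w) * F.p) *
              (star (sw (fun j => W * F.v j) w) * F.p) := by
            simp only [qw, star_mul, star_star, ps, mul_assoc]
        _ = _ := by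
            rw [k2, star_smul, smul_mul_smul_comm, Complex.star_def, k1, star_mul, ps, mul_assoc,
              un_l (F.lift_unitary hxu), F.p_proj.isIdempotentElem.eq]
    have key := rme_core hs hs' (fun i j => ⟨comm_of_mem (sM i) (sM' j),
        comm_of_mem (star_mem (sM i)) (sM' j)⟩)
      (mul_mem (mul_mem hW'.uni F.T_unitary) (Unitary.star_mem hW.uni))
      (fun j => by rw [mul_assoc, un_l hW.uni, mul_assoc, F.T_v]) F.p_proj
      (fun j => ⟨(comm_of_mem (F.Sc_le F.p_mem_Sc M) (sM' j)).symm,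
        (comm_of_mem (F.Sc_le F.p_mem_Sc M) (star_mem (sM' j))).symm⟩)
      (fun η => by simpa only [hW.conj_P hW'm hW'.uni] using F.p_lim η) hfix sQ
      (fun j => by rw [commutant_cj hB]; exact sQ' j) hU u1
      (fun m => by
        rw [hW.conj_P hW'm hW'.uni, mem_cj hB]
        have := mul_mem (mul_mem (star_mem u2) (F.Sc_le (F.P_mem_Sc m) N)) u2
        simpa only [star_mul, star_star, mul_assoc] using this) hb hbq hw
    have k3 : star (sw (fun j => W * F.v j) w) (F.ι ζ) = κ • F.ι (x ζ) := by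
      rw [← F.p_ι, ← mul_apply_eq_comp, k2, smul_apply, mul_apply_eq_comp, F.p_ι, F.lift_ι]
    rw [qw, mul_assoc, comm_of_mem (star_mem (sw_mem sQ w)) hb, mul_apply_eq_comp,
      mul_apply_eq_comp, fl_inner, k3, map_smul, inner_smul_left, inner_smul_right, k1,
      ← mul_assoc] at key
    rw [inner_cmp, inner_cmp]
    exact mul_left_cancel₀ (mul_ne_zero k0 k0) key
  · have e1 : b = ∑ j, W * F.v j * b * star (W * F.v j) := by
      nth_rewrite 1 [← one_mul b]
      rw [← hs.sum_eq_one, Finset.sum_mul]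
      refine Finset.sum_congr rfl fun j _ => ?_
      rw [mul_assoc, comm_of_mem (star_mem (sQ j)) hb, ← mul_assoc]
    have e2 : F.cmp b = (c * c) • ∑ j, star (g j) * F.cmp b * g j := by
      ext η
      refine ext_inner_left ℂ fun θ => ?_
      nth_rewrite 1 [e1]
      rw [inner_cmp, smul_apply, sum_apply, sum_apply, inner_smul_right, inner_sum, inner_sum,
        Fintype.sum_option, Finset.mul_sum]
      simp only [mul_apply_eq_comp (W * F.v _ * b), mul_apply_eq_comp (W * F.v _) b, a0, map_zero,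
        inner_zero_right, zero_add]
      refine Finset.sum_congr rfl fun j _ => ?_
      rw [fl_inner, a1, a1, map_smul, inner_smul_left, inner_smul_right, hcs, mul_apply_eq_comp,
        mul_apply_eq_comp, fl_inner (star (g j)), star_star, inner_cmp, mul_assoc]
    nth_rewrite 2 [e2]
    rw [smul_smul, mul_comm, hcc, one_smul]

end

end Crest.Agent.R78
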