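import Crest.Agent.R78.TomDef

/-! # R78: Kraus families: definition (complete) -/

set_option autoImplicit false
set_option linter.unusedSectionVars false
open Filter Topology
open scoped InnerProductSpace

namespace Crest.Agent.R78

universe u
variable {H : Type u} [NormedAddCommGroup H] [InnerProductSpace ℂ H] [CompleteSpace H]

/-- Two Kraus families `a j ∈ M`, `b j ∈ M'` agreeing on the vector `k ξ = k' ξ`. -/
structure Kraus (M : VonNeumannAlgebra H) (ξ : H) where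
  a : ℕ → Op H
  b : ℕ → Op H
  k : Op H
  k' : Op H
  a_mem : ∀ j, a j ∈ M
  b_mem : ∀ j, b j ∈ M.commutant
  k_mem : k ∈ M
  k'_mem : k' ∈ M.commutant
  k_eq : k ξ = k' ξ
  norm_k : ‖k‖ ≤ 2
  norm_k' : ‖k'‖ ≤ 2
  k_low : ∀ η, ‖η‖ ≤ 2 * ‖k η‖
  a_par : ∀ η, HasSum (fun j => ‖a j η‖ ^ 2) (‖η‖ ^ 2)
  b_par : ∀ η, HasSum (fun j => ‖b j η‖ ^ 2) (‖η‖ ^ 2)
  ab : ∀ j, a j (k ξ) = b j (k ξ)
  a_gen : ∀ X, (∀ j, X * a j = a j * X) → X ∈ M.commutant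
  b_gen : ∀ X, (∀ j, X * b j = b j * X) → X ∈ M
  tot : ∀ L : Submodule ℂ H, IsClosed (L : Set H) → k ξ ∈ L → (∀ j, ∀ η ∈ L, a j η ∈ L) → L = ⊤

end Crest.Agent.R78
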