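import Crest.Agent.R78.Julia
import Crest.Agent.R78.KrausDef

/-! # R78: simple pairs (task `Simple`) -/

set_option autoImplicit false
set_option linter.unusedSectionVars false
open Filter Topology
open scoped InnerProductSpace

namespace Crest.Agent.R78

universe u
variable {H : Type u} [NormedAddCommGroup H] [InnerProductSpace ℂ H] [CompleteSpace H]

variable {𝓗 : Type u} [NormedAddCommGroup 𝓗] [InnerProductSpace ℂ 𝓗] [CompleteSpace 𝓗]

theorem sp_par {a : ℕ → Op H} (h : ∀ η, HasSum (fun j => ‖a j η‖ ^ 2) (‖η‖ ^ 2)) (η : H) :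
    HasSum (fun j : Option ℕ => ‖(j.elim 0 a : Op H) η‖ ^ 2) (‖η‖ ^ 2) := by
  refine ((Option.some_injective ℕ).hasSum_iff fun j hj => ?_).1 (h η)
  cases j with
  | none => simp
  | some j => exact absurd ⟨j, rfl⟩ hj

theorem sp_star_ι {A : Type} {o : A} (F : Frame H 𝓗 A o) {W : Op 𝓗} {a : A → Op H}
    (hs : star W = W) (h : ∀ j, star (F.v j) * W * F.p = F.lift (a j) * F.p) (j : A) (η : H) :
    star (W * F.v j) (F.ι η) = F.ι (a j η) := by
  have := congrArg (fun Z : Op 𝓗 => Z (F.ι η)) (h j)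
  simp only [mul_apply_eq_comp, F.p_ι, F.lift_ι] at this
  rw [star_mul, hs, mul_apply_eq_comp, this]

/-- `W`, `W'` = Julia operators of `a`, `b` extended by `0` at `none` (for `F` and `F.flip`;
`hasSum` over `Option ℕ`: `Function.Injective.hasSum_iff`).  `s j = W v j`,
`(s j)* ι η = ι (a j η)`, `(s' j)* ι η = ι (b j η)`; `fix_of_eq` with `ab`.
Simplicity: if `X` commutes with everything then `X Ξ` is fixed by `S` (`comm_S`), so lies in the
range of `ι` (`fix_mem`).  `L = {η | X ι η ∈ range ι}` (closed: `ι ι* X ι η = X ι η`) contains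
`k ξ` and is invariant under `a j` (`X ι a j η = (s j)* X ι η`), so `L = ⊤` by `tot`.  Hence
`X ι = ι z`, `z = cmp X`, `z a j = a j z`, `z b j = b j z`, so `z` is central; `Dil.eq_zero` for
`X - lift z` (`lift z` commutes with `W ∈ Mt M` as `z ∈ M'`, with `W'` as `z ∈ M`). -/
theorem Frame.exists_pair (F : Frame H 𝓗 (Option ℕ) none) {M : VonNeumannAlgebra H} {ξ : H}
    (κ : Kraus M ξ) : ∃ W W', F.Pair M (κ.k ξ) W W' := by
  obtain ⟨W, hD, hs, hv⟩ := F.exists_julia (fun j => j.elim 0 κ.a) rfl (sp_par κ.a_par)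
  obtain ⟨W', hD', hs', hv'⟩ := F.flip.exists_julia (fun j => j.elim 0 κ.b) rfl (sp_par κ.b_par)
  have hW : F.Dil M W := hD M fun j => by
    cases j with
    | none => exact zero_mem _
    | some j => exact κ.a_mem j
  have hW' : F.flip.Dil M.commutant W' := hD' M.commutant fun j => by
    cases j with
    | none => exact zero_mem _
    | some j => exact κ.b_mem j
  have hm' : W' ∈ (F.Mt M).commutant := by rw [← F.flip_Mt]; exact hW'.mem
  have ha : ∀ j η, star (W * F.v j) (F.ι η) = F.ι ((j.elim 0 κ.a : Op H) η) :=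
    sp_star_ι F hs hv
  have hb : ∀ j η, star (W' * F.v' j) (F.ι η) = F.ι ((j.elim 0 κ.b : Op H) η) :=
    sp_star_ι F.flip hs' hv'
  have hfix : (W' * F.T * star W) (F.ι (κ.k ξ)) = F.ι (κ.k ξ) :=
    Frame.fix_of_eq hW.uni hW'.uni fun j => by
      rw [ha, hb]
      cases j with
      | none => rfl
      | some j => exact congrArg F.ι (κ.ab j)
  refine ⟨W, W', hW.mem, hW.uni, hm', hW'.uni, hfix, fun X h h' => ?_⟩
  have hXa : ∀ j η, X (F.ι (κ.a j η)) = star (W * F.v (some j)) (X (F.ι η)) := fun j η => by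
    have := congrArg (fun Z : Op 𝓗 => Z (F.ι η)) (h (some j)).2
    simp only [mul_apply_eq_comp, ha] at this
    exact this.symm
  have hXb : ∀ j η, X (F.ι (κ.b j η)) = star (W' * F.v' (some j)) (X (F.ι η)) := fun j η => by
    have := congrArg (fun Z : Op 𝓗 => Z (F.ι η)) (h' (some j)).2
    simp only [mul_apply_eq_comp, hb] at this
    exact this.symm
  let D : H →L[ℂ] 𝓗 := F.ι ∘L F.cmp X - X ∘L F.ι
  have hDm : ∀ η, η ∈ (D : H →ₗ[ℂ] 𝓗).ker ↔ F.ι (F.cmp X η) = X (F.ι η) := fun η => by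
    rw [LinearMap.mem_ker]
    exact sub_eq_zero
  have htop : (D : H →ₗ[ℂ] 𝓗).ker = ⊤ := by
    refine κ.tot _ D.isClosed_ker ((hDm _).2 ?_) fun j η hη => (hDm _).2 ?_
    · refine hW.fix_mem hW' ?_
      have := congrArg (fun Z : Op 𝓗 => Z (F.ι (κ.k ξ)))
        (Frame.comm_S hW.uni (fun j => (h j).1.symm) fun j => (h' j).1.symm)
      simp only [mul_apply_eq_comp (X), hfix] at this
      exact this.symm
    · have e : X (F.ι (κ.a j η)) = F.ι (κ.a j (F.cmp X η)) := by
        rw [hXa, ← (hDm η).1 hη, ha]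
        rfl
      rw [F.cmp_apply, e, F.adj_ι]
  have hall : ∀ η, F.ι (F.cmp X η) = X (F.ι η) := fun η =>
    (hDm η).1 (by rw [htop]; exact Submodule.mem_top)
  have hinj : Function.Injective F.ι := fun η ζ e => by
    rw [← F.adj_ι η, e, F.adj_ι]
  have hz' : F.cmp X ∈ M.commutant := κ.a_gen _ fun j => by
    ext η
    apply hinj
    rw [mul_apply_eq_comp, mul_apply_eq_comp, hall, hXa, ← hall, ha]
    rfl
  have hz : F.cmp X ∈ M := κ.b_gen _ fun j => by
    ext η
    apply hinj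
    rw [mul_apply_eq_comp, mul_apply_eq_comp, hall, hXb, ← hall, hb]
    rfl
  refine ⟨F.cmp X, ⟨hz, hz'⟩, sub_eq_zero.1 (hW.eq_zero hW' (fun j => ?_) (fun j => ?_)
    fun η => ?_)⟩
  · rw [sub_mul, mul_sub, (h j).1,
      comm_of_mem (mul_mem hW.mem (F.Sc_le (F.v_mem_Sc j) M)) (F.lift_mem' hz')]
  · rw [sub_mul, mul_sub, (h' j).1,
      comm_of_mem (F.lift_mem hz) (mul_mem hm' (F.v'_mem' M j))]
  · rw [ContinuousLinearMap.sub_apply, F.lift_ι, hall, sub_self]

end Crest.Agent.R78
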