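import Crest.Agent.R78.StarC
import Crest.Agent.R78.Place

/-! # R78: self-improvement (task `StarD`) -/

set_option autoImplicit false
set_option linter.unusedSectionVars false
open Filter Topology
open scoped InnerProductSpace

namespace Crest.Agent.R78

universe u
variable {H : Type u} [NormedAddCommGroup H] [InnerProductSpace ℂ H] [CompleteSpace H]

section
variable {𝓗 : Type u} [NormedAddCommGroup 𝓗] [InnerProductSpace ℂ 𝓗] [CompleteSpace 𝓗]
  {A : Type} {o : A}

theorem Frame.sd_succ (F : Frame H 𝓗 A o) (a : Op 𝓗) (k : ℕ) :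
    star F.T ^ (k + 1) * a * F.T ^ (k + 1) = star F.T * (star F.T ^ k * a * F.T ^ k) * F.T := by
  rw [pow_succ', pow_succ]
  simp only [mul_assoc]

theorem Frame.sd_mem (F : Frame H 𝓗 A o) {N : VonNeumannAlgebra H} {a : Op 𝓗} (ha : a ∈ F.Mt N)
    (k : ℕ) : star F.T ^ k * a * F.T ^ k ∈ F.Mt N := by
  induction k with
  | zero => simpa using ha
  | succ k ih => rw [F.sd_succ]; exact F.rho_mem ih

theorem Frame.sd_near (F : Frame H 𝓗 A o) {N : VonNeumannAlgebra H} {a a' : Op 𝓗} {u v : Op H}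
    (ha : a ∈ F.Mt N) (ha' : a' ∈ (F.Mt N).commutant) {θ : ℝ}
    (h : ‖a * a' * F.lift v - F.lift u‖ ≤ θ) (k : ℕ) :
    ‖star F.T ^ k * a * F.T ^ k * a' * F.lift v - F.lift u‖ ≤ θ := by
  induction k with
  | zero => simpa using h
  | succ k ih =>
    refine (F.rowNorm fun j => ?_).trans ih
    have h1 := F.rho_v (fun j => ((F.mem_Mt.1 (F.sd_mem ha k)).2 j).1.symm) j
    have h2 := ((F.mem_Mt'.1 ha').2 j).1
    rw [F.sd_succ, sub_mul, mul_sub, F.lift_v, mul_assoc _ (F.lift v), F.lift_v, mul_assoc _ a',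
      ← mul_assoc a', ← h2, mul_assoc (F.v j), ← mul_assoc _ (F.v j), h1]
    simp only [mul_assoc]

theorem sd_conj_near {D D' U y : Op 𝓗} (hD' : D' ∈ unitary (Op 𝓗)) (hU : U ∈ unitary (Op 𝓗))
    (hy : y ∈ unitary (Op 𝓗)) {θ : ℝ} (h : ‖D - U‖ ≤ θ) (h' : ‖D' - U‖ ≤ θ) :
    ‖D * y * star D' - U * y * star U‖ ≤ 2 * θ := by
  have e : D * y * star D' - U * y * star U = (D - U) * (y * star D') + U * y * star (D' - U) := by
    rw [star_sub]; noncomm_ring
  rw [e]
  refine (norm_add_le _ _).trans ?_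
  rw [CStarRing.norm_mul_mem_unitary _ (mul_mem hy (Unitary.star_mem hD')),
    CStarRing.norm_mem_unitary_mul _ (mul_mem hU hy), norm_star]
  linarith

/-- Uniqueness of placements, one side.  `a ∈ Mt N`, `a' ∈ (Mt N)'`, `V`, `U` unitaries commuting
with `v j`, `v' j` (hence `T`), `V` normalising.  `D k = (T*ᵏ a Tᵏ) a' V` satisfies
`‖D k - U‖ ≤ θ` by induction with `rowNorm` (`(D (k+1) - U) v j = v j (D k - U)`).  Put
`R₂ = a (V R₀ V*) (T* a* T)`, so `R₂ T* = a V (R₀ T*) V* a*`, `R₂ v j = a (V R₀ V* v j) a*`.  With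
`y = (R₀ T*)ᵏ Tᵏ ∈ Mt N`: `(R₂ T*)ᵏ = D 0 y (D k)* T*ᵏ`, which is `2 θ`-close to
`U y U* T*ᵏ = U (R₀ T*)ᵏ U*`.  So `f k = (R₁ T*)ᵏ ((R₂ T*)ᵏ)*` is `(2 θ + 2 ε)`-close to `1`;
`exists_intw`, `Mean.norm_sub_le`, `exists_polar'`; the result is `w a`. -/
theorem Frame.impr_side (F : Frame H 𝓗 A o) {N : VonNeumannAlgebra H} {a a' R₀ R₁ W : Op 𝓗}
    {u v : Op H} (hu : u ∈ unitary (Op H)) (hv : v ∈ unitary (Op H))
    (ha : a ∈ F.Mt N) (hau : a ∈ unitary (Op 𝓗)) (ha' : a' ∈ (F.Mt N).commutant)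
    (hau' : a' ∈ unitary (Op 𝓗)) (h0 : R₀ ∈ F.Mt N) (h0u : R₀ ∈ unitary (Op 𝓗))
    (h1 : R₁ ∈ F.Mt N) (h1u : R₁ ∈ unitary (Op 𝓗))
    (hN : ∀ X ∈ F.Mt N, F.lift v * X * star (F.lift v) ∈ F.Mt N) {θ ε : ℝ}
    (hs : 2 * θ + 2 * ε ≤ 1 / 2) (h : ‖a * a' * F.lift v - F.lift u‖ ≤ θ)
    (p0 : ∀ k : ℕ, ‖(R₀ * star F.T) ^ k - (W * star F.T) ^ k‖ ≤ ε)
    (p1 : ∀ k : ℕ, ‖(R₁ * star F.T) ^ k - (F.lift u * W * star (F.lift u) * star F.T) ^ k‖ ≤ ε) :
    ∃ b ∈ F.Mt N, b ∈ unitary (Op 𝓗) ∧ ∀ j,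
      b * (F.lift v * R₀ * star (F.lift v) * F.v j) = R₁ * F.v j * b ∧
      b * star (F.lift v * R₀ * star (F.lift v) * F.v j) = star (R₁ * F.v j) * b := by
  have hT := F.T_unitary
  have hT' := Unitary.star_mem hT
  have hU := F.lift_unitary hu
  have hV := F.lift_unitary hv
  have cU : Commute (star (F.lift u)) (star F.T) := by rw [← map_star]; exact F.lift_starT _
  have cV : Commute (star (F.lift v)) (star F.T) := by rw [← map_star]; exact F.lift_starT _
  set U := F.lift u with hUdef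
  set V := F.lift v with hVdef
  set R₂ := a * (V * R₀ * star V) * (star F.T * star a * F.T) with hR₂
  have m2 : R₂ ∈ F.Mt N := mul_mem (mul_mem ha (hN _ h0)) (F.rho_mem (star_mem ha))
  have u2 : R₂ ∈ unitary (Op 𝓗) :=
    mul_mem (mul_mem hau (mul_mem (mul_mem hV h0u) (Unitary.star_mem hV)))
      (mul_mem (mul_mem hT' (Unitary.star_mem hau)) hT)
  have e1 : R₂ * star F.T = a * V * (R₀ * star F.T) * star (a * V) := by
    rw [hR₂, star_mul]
    simp only [mul_assoc, hT.2, mul_one]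
    rw [← mul_assoc (star V), cV.eq, mul_assoc]
  have e2 : ∀ j, R₂ * F.v j = a * (V * R₀ * star V * F.v j) * star a := fun j => by
    rw [hR₂, mul_assoc, F.rho_v (fun j => ((F.mem_Mt.1 (star_mem ha)).2 j).1.symm) j]
    simp only [mul_assoc]
  have key : ∀ k : ℕ, ‖(R₂ * star F.T) ^ k - (R₁ * star F.T) ^ k‖ ≤ 2 * θ + 2 * ε := fun k => by
    have hTk : F.T ^ k * star F.T ^ k = 1 := by
      rw [← star_pow]; exact (_root_.pow_mem hT k).2
    set y := (R₀ * star F.T) ^ k * F.T ^ k with hy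
    have ym : y ∈ F.Mt N := F.pow_mem h0 k
    have yu : y ∈ unitary (Op 𝓗) :=
      mul_mem (_root_.pow_mem (mul_mem h0u hT') k) (_root_.pow_mem hT k)
    have ey : (R₀ * star F.T) ^ k = y * star F.T ^ k := by rw [hy, mul_assoc, hTk, mul_one]
    have hD : star F.T ^ k * a * F.T ^ k * a' * V ∈ unitary (Op 𝓗) :=
      mul_mem (mul_mem (mul_mem (mul_mem (_root_.pow_mem hT' k) hau) (_root_.pow_mem hT k)) hau') hV
    have n1 := sd_conj_near hD hU yu h (F.sd_near ha ha' h k)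
    have e3 : a * a' * V * y * star (star F.T ^ k * a * F.T ^ k * a' * V) * star F.T ^ k
        = (R₂ * star F.T) ^ k := by
      have c1 := comm_of_mem (hN _ ym) ha'
      rw [e1, pl_conj_pow (mul_mem hau hV), ey]
      simp only [star_mul, star_pow, star_star]
      calc a * a' * V * y * (star V * (star a' * (star F.T ^ k * (star a * F.T ^ k)))) * star F.T ^ k
          = a * (a' * (V * y * star V)) * star a' * star F.T ^ k * star a *
              (F.T ^ k * star F.T ^ k) := by simp only [mul_assoc]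
        _ = a * (V * y) * (star V * star F.T ^ k) * star a := by
          rw [hTk, mul_one, ← c1]
          simp only [mul_assoc, un_r hau']
        _ = _ := by
          rw [(cV.pow_right k).eq]
          simp only [mul_assoc]
    have e4 : U * y * star U * star F.T ^ k = U * (R₀ * star F.T) ^ k * star U := by
      rw [ey, mul_assoc _ (star U), (cU.pow_right k).eq]
      simp only [mul_assoc]
    have e5 : (U * W * star U * star F.T) ^ k = U * (W * star F.T) ^ k * star U := by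
      rw [← pl_conj_pow hU, mul_assoc _ (star U), cU.eq]
      simp only [mul_assoc]
    rw [← CStarRing.norm_mul_mem_unitary _ (_root_.pow_mem hT' k), sub_mul, e3, e4] at n1
    have n2 : ‖U * (R₀ * star F.T) ^ k * star U - U * (W * star F.T) ^ k * star U‖ ≤ ε := by
      rw [← sub_mul, ← mul_sub, CStarRing.norm_mul_mem_unitary _ (Unitary.star_mem hU),
        CStarRing.norm_mem_unitary_mul _ hU]
      exact p0 k
    have n3 := p1 k
    rw [e5, norm_sub_rev] at n3
    linarith [norm_sub_le_norm_sub_add_norm_sub ((R₂ * star F.T) ^ k)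
      (U * (R₀ * star F.T) ^ k * star U) ((R₁ * star F.T) ^ k),
      norm_sub_le_norm_sub_add_norm_sub (U * (R₀ * star F.T) ^ k * star U)
      (U * (W * star F.T) ^ k * star U) ((R₁ * star F.T) ^ k)]
  obtain ⟨a₁, m₁, hm, -, hi⟩ := F.exists_intw h1 h1u m2 u2 (hyperfilter ℕ)
    (by rw [← Nat.cofinite_eq_atTop]; exact hyperfilter_le_cofinite)
  have n : ‖a₁ - 1‖ ≤ 2 * θ + 2 * ε := hm.norm_sub_le 1 fun k => by
    have hk := _root_.pow_mem (mul_mem u2 hT') k
    rw [← hk.2, ← sub_mul, CStarRing.norm_mul_mem_unitary _ (Unitary.star_mem hk), norm_sub_rev]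
    exact key k
  obtain ⟨w, hw, -, -, h3, h4⟩ := exists_polar' (one_mem _) hs n
  refine ⟨w * a, mul_mem (h4 _ m₁) ha, mul_mem hw hau, fun j => ⟨?_, ?_⟩⟩
  · have := h3 _ _ (hi j).1 (hi j).2
    rw [← mul_assoc _ w, ← this, e2]
    simp only [mul_assoc, hau.1, mul_one]
  · have := h3 _ _ (hi j).2 (by simpa only [star_star] using (hi j).1)
    rw [← mul_assoc _ w, ← this, e2, star_mul (a * _), star_mul a, star_star]
    simp only [mul_assoc, hau.1, mul_one]

end

namespace Ctx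
variable {𝓗 : Type u} [NormedAddCommGroup 𝓗] [InnerProductSpace ℂ 𝓗] [CompleteSpace 𝓗]
  {A : Type} {o : A} (c : Ctx H 𝓗 A o)

/-- `impr_side` for `F` and for `F.flip` with `R₀ = R 0`, `R₁ = R t`, then `rel_core` with `s = 0`,
`e = 1`. -/
theorem impr {t θ : ℝ} (hθ : θ ≤ 1 / 10) (h : c.Rel t 1 θ) : c.Rel t 1 (2 * c.ε) := by
  obtain ⟨a, ha, a', ha', h1, h1', hn⟩ := h
  have un : ∀ {a : Op 𝓗}, c.PI 1 a ↔ a ∈ unitary (Op 𝓗) := by
    intro a
    rw [PI, map_one]
    rfl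
  have hs : 2 * θ + 2 * c.ε ≤ 1 / 2 := by linarith [c.hε]
  rw [map_one, one_mul] at hn
  have P0 := c.pl 0
  have Pt := c.pl t
  simp only [neg_zero, c.τ.U_zero, map_one, one_mul, mul_one] at P0
  rw [← c.τ.U_star, map_star] at Pt
  obtain ⟨b, hb, hbu, hi⟩ := c.F.impr_side (c.τ.U_unitary t) (c.σ.U_unitary t) ha (un.1 h1) ha'
    (un.1 h1') P0.R_mem P0.R_uni Pt.R_mem Pt.R_uni
    (fun X hX => by have := c.V_mem t hX; rwa [← c.star_V] at this) hs hn P0.pow Pt.pow
  obtain ⟨b', hb', hbu', hi'⟩ := c.F.flip.impr_side (N := c.N.commutant) (a := a') (a' := a)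
    (R₀ := c.R' 0) (R₁ := c.R' t) (W := c.W') (c.τ.U_unitary t) (c.σ.U_unitary t)
    (by rwa [c.F.flip_Mt]) (un.1 h1') (by rwa [c.F.flip_Mt']) (un.1 h1)
    (by rw [c.F.flip_Mt]; exact P0.R'_mem) P0.R'_uni (by rw [c.F.flip_Mt]; exact Pt.R'_mem)
    Pt.R'_uni
    (fun X hX => by
      rw [c.F.flip_Mt] at hX ⊢
      have := c.V_mem' t hX
      rwa [← c.star_V] at this) hs
    (by rw [← comm_of_mem ha ha']; exact hn)
    (by simpa only [Frame.flip_T, star_star] using P0.pow')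
    (by simpa only [Frame.flip_T, Frame.flip_lift, star_star] using Pt.pow')
  rw [c.F.flip_Mt] at hb'
  refine c.rel_core (s := 0) ⟨⟨one_mem _, one_mem _⟩, IsStarProjection.one _⟩ hb hb' (un.2 hbu)
    (un.2 hbu') (fun j => ?_) fun j => ?_
  · have := hi j
    simp only [r, neg_zero, c.V_zero, one_mul, mul_one, zero_add, ← c.star_V t]
    exact this
  · have := hi' j
    simp only [r', neg_zero, c.V_zero, one_mul, mul_one, zero_add, ← c.star_V t]
    exact this

theorem rel_nat {t : ℝ} (h : c.Rel t 1 (2 * c.ε)) (k : ℕ) : c.Rel (k * t) 1 (2 * c.ε) := by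
  have h0 := c.ε_nonneg
  have h1 := c.hε
  induction k with
  | zero => simpa using c.impr (by norm_num) c.rel_zero
  | succ k ih =>
    have := c.impr (by linarith) (c.rel_add ih h)
    rwa [Nat.cast_succ, add_mul, one_mul]

end Ctx

end Crest.Agent.R78
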