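import Crest.Agent.R78.Tom1Aux

/-! # R78: construction of the Rieffel-van Daele operators (task `Tom1`) -/

set_option autoImplicit false
set_option linter.unusedSectionVars false
open Filter Topology
open scoped InnerProductSpace

namespace Crest.Agent.R78

universe u
variable {H : Type u} [NormedAddCommGroup H] [InnerProductSpace ℂ H] [CompleteSpace H]

open Crest.Agent.R109 Crest.Agent.R121 Complex

theorem t1_dense {M : VonNeumannAlgebra H} {ξ : H} (hc : Cyc M ξ) :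
    Dense (Set.range fun m : Al M => ap m ξ) :=
  hc.mono (by rintro _ ⟨x, hx, rfl⟩; exact ⟨⟨x, hx⟩, rfl⟩)

theorem t1_sa {M : VonNeumannAlgebra H} {k : Al M} :
    IsSelfAdjoint k ↔ IsSelfAdjoint (k : Op H) :=
  ⟨fun h => congrArg Subtype.val h, fun h => Subtype.ext h⟩

theorem t1_mem {M : VonNeumannAlgebra H} (ξ : H) {x : Op H} (hx : x ∈ M) (hs : IsSelfAdjoint x) :
    x ξ ∈ saCl M ξ := mem_saCl (k := ⟨x, hx⟩) (t1_sa.2 hs)

theorem t1_parts {M : VonNeumannAlgebra H} {x : Op H} (hx : x ∈ M) :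
    ∃ a ∈ M, ∃ b ∈ M, IsSelfAdjoint a ∧ IsSelfAdjoint b ∧ x = a + I • b := by
  obtain ⟨a, b, ha, hb, h⟩ := rvd_parts (M := M) ⟨x, hx⟩
  exact ⟨a, a.2, b, b.2, t1_sa.1 ha, t1_sa.1 hb, congrArg Subtype.val h⟩

theorem t1_star_apply {a b : Op H} (ha : IsSelfAdjoint a) (hb : IsSelfAdjoint b) (ξ : H) :
    star (a + I • b) ξ = a ξ - I • b ξ := by
  rw [star_add, star_smul, ha.star_eq, hb.star_eq, Complex.star_def, conj_I, neg_smul,
    ← sub_eq_add_neg]
  rfl

theorem t1_ctr_parts {M : VonNeumannAlgebra H} {z : Op H} (hz : Ctr M z) :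
    ∃ a b, Ctr M a ∧ Ctr M b ∧ IsSelfAdjoint a ∧ IsSelfAdjoint b ∧ z = a + I • b := by
  refine ⟨realPart z, imaginaryPart z, ?_, ?_, (realPart z).2, (imaginaryPart z).2,
    (realPart_add_I_smul_imaginaryPart z).symm⟩
  · rw [realPart_apply_coe, ← Complex.coe_smul]
    exact ⟨vn_smul_mem _ (add_mem hz.1 (star_mem hz.1)),
      vn_smul_mem _ (add_mem hz.2 (star_mem hz.2))⟩
  · rw [imaginaryPart_apply_coe, ← Complex.coe_smul]
    exact ⟨vn_smul_mem _ (vn_smul_mem _ (sub_mem hz.1 (star_mem hz.1))),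
      vn_smul_mem _ (vn_smul_mem _ (sub_mem hz.2 (star_mem hz.2)))⟩

/-- Construction.  `K = R109.saCl M ξ`, `K' = R109.saCl M.commutant ξ`.  `P` = real orthogonal
projection on `K` (`R109.RSub.exists_proj`; it is additive, real homogeneous, contractive, `Re`-
symmetric, idempotent), `Q η = i P (-i η)` the one on `i K`.  `R = P + Q` is complex linear
(`R (i η) = P (i η) + i P η = i (Q η + P η)` as `Q η = - i P (i η)` also), `Re`-symmetric hence
self-adjoint, `0 ≤ R ≤ 2` (`Re ⟪η, R η⟫ = ‖P η‖² + ‖Q η‖²`).  `D = P - Q` is conjugate linear,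
`Re`-symmetric (so `⟪a, D b⟫ = ⟪b, D a⟫`), `D² = R (2 - R) = T²` (`P² = P`, `Q² = Q`:
`(P - Q)² = P + Q - PQ - QP = 2 R - R²`), `D R = (2 - R) D`, so `D` commutes with `T²`, hence
with `T` (e.g. `‖·‖`-limit of real polynomials in `T²`; or apply `jj_fc` afterwards).
`D` is injective: `D η = 0` gives `P η = Q η ∈ K ∩ i K = 0` and then `η ⊥ K + i K ⊇ M ξ`.
(`K ∩ i K = 0`: `⟪k, y ξ⟫` is real for `k ∈ K`, `y ∈ M'` self-adjoint, `R109.im_inner_saCl`; for
`k ∈ K ∩ i K` it is also imaginary; `ξ` is cyclic for `M'`.)  `‖T η‖² = Re ⟪η, T² η⟫ = ‖D η‖²`, so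
`T` is injective with dense range and `J (T η) := D η` extends to a conjugate linear isometry
(`LinearMap.extendOfNorm`-type lemma, or define through the real structure / by limits;
`⟪D a, D b⟫ = ⟪b, D D a⟫`-type identity gives `inner`).  `J J T T η = J D T η = J T D η = D D η`.
`J T = T J` on `range T`.  For `k ∈ K`: `T J k = D k = k - Q k = (2 - R) k`; extend to
`x = a + i b`.  For `y ∈ M'` self-adjoint `y ξ ⊥ i K` so `Q y ξ = 0`, `D y ξ = R y ξ = P y ξ`.
`R_real'`: `R109.rvd` gives `y ξ - x ξ = i κ`, `κ ∈ K`, so `Q (x ξ) = - i κ` (as `Q y ξ = 0`) and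
`(2 - R) x ξ = x ξ - Q x ξ = y ξ`.  `R_ctr`: for self-adjoint central `z`, `z K ⊆ K` and `z` is
`Re`-symmetric so `P z = z P`; decompose a general central element in real and imaginary part. -/
theorem exists_RvD {M : VonNeumannAlgebra H} {ξ : H} (hc : Cyc M ξ) (hc' : Cyc M.commutant ξ) :
    Nonempty (RvD M ξ) := by
  obtain ⟨P, h⟩ : ∃ P, RP (saCl M ξ) P := exists_RP (rsub_saS M ξ)
  have hQ : ∀ v ∈ saCl M.commutant ξ, P (I • v) = 0 := fun v hv =>
    h.eq h.sub.zero fun w hw => by rw [sub_zero, rvd_re_I, im_inner_saCl hw hv, neg_zero]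
  have hD : ∀ η, h.Dop η = 0 → η = 0 := fun η h0 => by
    have h1 : P η = -(I • P (I • η)) := eq_neg_of_add_eq_zero_left h0
    have h2 : I • P η = P (I • η) := by rw [h1, smul_neg, t1_II, neg_neg]
    have h3 : P η = 0 := rvd_zero_of_cyc (t1_dense hc') fun s hs => by
      refine Complex.ext ?_ (im_inner_saCl (h.mem η) (mem_saCl hs))
      have := im_inner_saCl (h2 ▸ h.mem (I • η)) (mem_saCl hs)
      rw [inner_smul_left, conj_I] at this
      simpa using this
    have h4 : P (I • η) = 0 := by rw [← h2, h3, smul_zero]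
    refine rvd_zero_of_cyc (t1_dense hc) fun k hk => Complex.ext ?_ ?_
    · simpa [h3] using h.orth η _ (mem_saCl hk)
    · have := h.orth (I • η) _ (mem_saCl hk)
      rwa [h4, sub_zero, t1_re_I_left] at this
  obtain ⟨c, hJ, hJT, hJR⟩ := h.exists_J hD
  have hDK : ∀ v ∈ saCl M ξ, h.Dop v = (2 - h.Rop) v := fun v hv => by
    rw [RP.two_sub_apply, RP.Rop_apply, RP.Dop_apply, h.of_mem hv]; abel
  have hDK' : ∀ v ∈ saCl M.commutant ξ, h.Dop v = h.Rop v := fun v hv => by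
    rw [RP.Rop_apply, RP.Dop_apply, hQ v hv, smul_zero, add_zero, sub_zero]
  have hctr : ∀ z, Ctr M z → IsSelfAdjoint z → z * h.Rop = h.Rop * z := fun z hz hs => by
    have h1 : ∀ w ∈ saCl M ξ, z w ∈ saCl M ξ := fun w hw => by
      refine map_mem_closure z.continuous hw ?_
      rintro _ ⟨k, hk, rfl⟩
      refine ⟨⟨z, hz.1⟩ * k, t1_sa.2 ?_, rfl⟩
      change IsSelfAdjoint (z * (k : Op H))
      rw [IsSelfAdjoint, star_mul, hs.star_eq, (t1_sa.1 hk).star_eq]
      exact comm_of_mem k.2 hz.2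
    have h2 : ∀ η, P (z η) = z (P η) := fun η => h.eq (h1 _ (h.mem η)) fun w hw => by
      have e : ⟪z (η - P η), w⟫_ℂ = ⟪η - P η, z w⟫_ℂ :=
        ContinuousLinearMap.isSelfAdjoint_iff_isSymmetric.1 hs _ _
      rw [← map_sub, e]
      exact h.orth η _ (h1 w hw)
    ext η
    rw [mul_apply_eq_comp, mul_apply_eq_comp, RP.Rop_apply, RP.Rop_apply, map_sub, map_smul,
      ← map_smul z I η, h2, h2]
  refine ⟨{ c with
    R := h.Rop, T := h.Top, cyc := hc, cyc' := hc', R_sa := h.Rop_sa, spec := h.Rop_spec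
    T_eq := rfl, T_inj := fun η h0 => hD η (norm_eq_zero.1 (by rw [h.norm_D, h0, norm_zero]))
    J_R := hJR, J_T := hJT, TJ := fun x hx => ?_, TJ' := fun y hy => ?_
    R_real := fun x hx y hy hxs hys h1 => ?_, R_real' := fun x hx y hy hxs hys h1 => ?_
    R_ctr := fun z hz => ?_ }⟩
  · obtain ⟨a, ha, b, hb, ha', hb', rfl⟩ := t1_parts hx
    rw [← hJT, hJ, t1_star_apply ha' hb', map_sub, map_smulₛₗ, hDK _ (t1_mem ξ ha ha'),
      hDK _ (t1_mem ξ hb hb'), add_apply, smul_apply, map_add, map_smul, conj_I, neg_smul,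
      sub_neg_eq_add]
  · obtain ⟨a, ha, b, hb, ha', hb', rfl⟩ := t1_parts hy
    rw [← hJT, hJ, t1_star_apply ha' hb', map_sub, map_smulₛₗ, hDK' _ (t1_mem ξ ha ha'),
      hDK' _ (t1_mem ξ hb hb'), add_apply, smul_apply, map_add, map_smul, conj_I, neg_smul,
      sub_neg_eq_add]
  · rw [RP.Rop_apply, hQ _ (t1_mem ξ hy hys), smul_zero, sub_zero]
    refine h.eq (t1_mem ξ hx hxs) fun w hw => ?_
    have h2 : (⟪x ξ - y ξ, w⟫_ℂ).re = 0 :=
      re_saCl (M := M) (fun k hk => h1 k k.2 (t1_sa.1 hk)) hw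
    rw [← neg_sub (x ξ) (y ξ), inner_neg_left, neg_re, h2, neg_zero]
  · obtain ⟨κ, hκ, e⟩ := rvd (t1_dense hc) (η := y ξ - x ξ) fun s hs => h1 s s.2 (t1_sa.1 hs)
    have e' : x ξ = y ξ - I • κ := by rw [← e]; abel
    have h2 : P (I • x ξ) = κ := by
      rw [e', smul_sub, t1_II, map_sub, hQ _ (t1_mem ξ hy hys), map_neg, h.of_mem hκ, zero_sub,
        neg_neg]
    rw [RP.two_sub_apply, RP.Rop_apply, h.of_mem (t1_mem ξ hx hxs), h2, ← e]
    abel
  · obtain ⟨a, b, ha, hb, ha', hb', rfl⟩ := t1_ctr_parts hz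
    rw [add_mul, mul_add, smul_mul_assoc, mul_smul_comm, hctr a ha ha', hctr b hb hb']

end Crest.Agent.R78
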