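import Crest.Agent.R78.Tom3
import Crest.Agent.R78.Tom1

/-! # R78: KMS identity, spectral estimate, existence of modular data (task `Tom4`) -/

set_option autoImplicit false
set_option linter.unusedSectionVars false
open Filter Topology
open scoped InnerProductSpace

namespace Crest.Agent.R78

universe u
variable {H : Type u} [NormedAddCommGroup H] [InnerProductSpace ℂ H] [CompleteSpace H]

open MeasureTheory Complex

theorem t4_gau_shift (a : ℝ) (c z : ℂ) :
    gau a c (z + I / 2) = exp (-(a : ℂ) * z ^ 2 + (c - a * I) * z + (a / 4 + c * I / 2)) := by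
  unfold gau
  congr 1
  linear_combination (-(a : ℂ) / 4) * I_sq

theorem t4_integrable_gau {a : ℝ} (ha : 0 < a) (c : ℂ) : Integrable fun s : ℝ => gau a c s := by
  have := integrable_cexp_quadratic (b := (a : ℂ)) (by simpa using ha) c 0
  simpa only [gau, add_zero] using this

theorem t4_integrable_gau' {a : ℝ} (ha : 0 < a) (c : ℂ) :
    Integrable fun s : ℝ => gau a c (s + I / 2) := by
  simp only [t4_gau_shift]
  exact integrable_cexp_quadratic (b := (a : ℂ)) (by simpa using ha) _ _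

theorem t4_integral_gau {a : ℝ} (ha : 0 < a) (c : ℂ) :
    ∫ s : ℝ, gau a c (s + I / 2) = ∫ s : ℝ, gau a c s := by
  have h1 := integral_cexp_quadratic (b := -(a : ℂ)) (by simpa using ha) c 0
  have h2 := integral_cexp_quadratic (b := -(a : ℂ)) (by simpa using ha) (c - a * I)
    (a / 4 + c * I / 2)
  simp only [t4_gau_shift]
  rw [h2]
  simp only [gau]
  simp only [add_zero] at h1
  rw [h1]
  congr 2
  have ha' : (a : ℂ) ≠ 0 := ofReal_ne_zero.2 ha.ne'
  field_simp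
  linear_combination (2 * (a : ℂ) ^ 2) * I_sq

theorem t4_lg {r : ℝ} (h0 : 0 < r) (h2 : r < 2) :
    √(r * (2 - r)) = r * Real.exp (lg r / 2) ∧
      2 - r = r * (Real.exp (lg r / 2) * Real.exp (lg r / 2)) := by
  have h3 : Real.exp (lg r / 2) * Real.exp (lg r / 2) = (2 - r) / r := by
    rw [← Real.exp_add, add_halves, lg, Real.exp_log (div_pos (by linarith) h0)]
  have h4 : 2 - r = r * (Real.exp (lg r / 2) * Real.exp (lg r / 2)) := by
    rw [h3]; field_simp
  refine ⟨?_, h4⟩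
  rw [Real.sqrt_eq_iff_mul_self_eq (mul_nonneg h0.le (by linarith)) (by positivity)]
  linear_combination r * h4

theorem t4_kms_scalar {a : ℝ} (ha : 0 < a) (b : ℂ) {r : ℝ} (hr : r ∈ Set.Icc (0 : ℝ) 2) :
    ∫ s : ℝ, gau a b s * (fT s r * (2 - (r : ℂ))) =
      ∫ s : ℝ, gau a b (s + I / 2) * (fT s r * ((√(r * (2 - r)) : ℝ) : ℂ)) := by
  rcases hr.1.eq_or_lt with h0 | h0
  · simp [← h0, fT]
  rcases hr.2.eq_or_lt with h2 | h2
  · simp [h2, fT]
  obtain ⟨e1, e2⟩ := t4_lg h0 h2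
  have e2' : (2 - (r : ℂ)) = r * (exp (lg r / 2) * exp (lg r / 2)) := by
    exact_mod_cast e2
  have e1' : ((√(r * (2 - r)) : ℝ) : ℂ) = r * exp (lg r / 2) := by
    rw [e1]; push_cast; rfl
  have k1 : ∀ s : ℝ, gau a b s * (fT s r * (2 - (r : ℂ))) =
      (r * exp (lg r / 2) * (2 - (r : ℂ))) * gau a (b + I * lg r) s := fun s => by
    have : gau a (b + I * lg r) s = gau a b s * exp (I * s * lg r) := by
      unfold gau; rw [← Complex.exp_add]; congr 1; ring
    rw [this, fT, e1']; ring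
  have k2 : ∀ s : ℝ, gau a b (s + I / 2) * (fT s r * ((√(r * (2 - r)) : ℝ) : ℂ)) =
      (r * exp (lg r / 2) * (2 - (r : ℂ))) * gau a (b + I * lg r) (s + I / 2) := fun s => by
    have : gau a (b + I * lg r) (s + I / 2) * exp (lg r / 2) =
        gau a b (s + I / 2) * exp (I * s * lg r) := by
      unfold gau; rw [← Complex.exp_add, ← Complex.exp_add]; congr 1
      linear_combination ((lg r : ℂ) / 2) * I_sq
    rw [fT, e1', e2']
    linear_combination (-(r : ℂ) ^ 2 * exp (lg r / 2) ^ 2) * this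
  simp only [k1, k2, integral_const_mul, t4_integral_gau ha]

theorem t4_norm_fT (s r : ℝ) : ‖fT s r‖ = √(r * (2 - r)) := by
  have : I * s * lg r = ((s * lg r : ℝ) : ℂ) * I := by push_cast; ring
  rw [fT, norm_mul, this, norm_exp_ofReal_mul_I, one_mul, Complex.norm_real,
    Real.norm_of_nonneg (Real.sqrt_nonneg _)]

theorem t4_sqrt_le (r : ℝ) : √(r * (2 - r)) ≤ 1 :=
  Real.sqrt_le_one.2 (by nlinarith [sq_nonneg (r - 1)])

theorem t4_cont_fT (s : ℝ) : ContinuousOn (fT s) (Set.Icc 0 2) :=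
  continuousOn_fT.comp (f := fun r : ℝ => (s, r)) (by fun_prop) fun r hr => ⟨trivial, hr⟩

theorem t4_abs_le {x : ℝ} (hx : 0 ≤ x) : x ≤ Real.exp (x / 2) := by
  have h1 := Real.add_one_le_exp (x / 4)
  have h2 : Real.exp (x / 2) = Real.exp (x / 4) * Real.exp (x / 4) := by
    rw [← Real.exp_add]; congr 1; ring
  rw [h2]
  nlinarith [sq_nonneg (x / 4 - 1)]

theorem t4_exp_ineq (L E : ℝ) : |L - E| * (Real.exp (L / 2) * Real.exp (E / 2)) ≤
    Real.exp (L / 2) * Real.exp (L / 2) + Real.exp (E / 2) * Real.exp (E / 2) := by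
  have hp := Real.exp_pos (L / 2)
  have hq := Real.exp_pos (E / 2)
  rcases le_total E L with h | h
  · have h1 := t4_abs_le (sub_nonneg.2 h)
    have h2 : Real.exp ((L - E) / 2) * Real.exp (E / 2) = Real.exp (L / 2) := by
      rw [← Real.exp_add]; congr 1; ring
    rw [abs_of_nonneg (sub_nonneg.2 h)]
    have h3 := mul_le_mul_of_nonneg_right h1 (mul_pos hp hq).le
    nlinarith [mul_pos hq hq]
  · have h1 := t4_abs_le (sub_nonneg.2 h)
    have h2 : Real.exp ((E - L) / 2) * Real.exp (L / 2) = Real.exp (E / 2) := by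
      rw [← Real.exp_add]; congr 1; ring
    rw [abs_sub_comm, abs_of_nonneg (sub_nonneg.2 h)]
    have h3 := mul_le_mul_of_nonneg_right h1 (mul_pos hp hq).le
    nlinarith [mul_pos hp hp]

/-- The weight `1 / ((2 - r) + e^E r)`. -/
noncomputable def t4w (E r : ℝ) : ℝ := ((2 - r) + Real.exp E * r)⁻¹

theorem t4_den_pos (E : ℝ) {r : ℝ} (hr : r ∈ Set.Icc (0 : ℝ) 2) :
    0 < (2 - r) + Real.exp E * r := by
  have := Real.exp_pos E
  rcases hr.1.eq_or_lt with h0 | h0
  · rw [← h0]; norm_num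
  · have := mul_pos this h0
    linarith [hr.2]

theorem t4w_cont (E : ℝ) : ContinuousOn (fun r => ((t4w E r : ℝ) : ℂ)) (Set.Icc 0 2) :=
  continuous_ofReal.comp_continuousOn
    (ContinuousOn.inv₀ (by fun_prop) fun _ hr => (t4_den_pos E hr).ne')

theorem t4_psi_le (t E : ℝ) {r : ℝ} (hr : r ∈ Set.Icc (0 : ℝ) 2) :
    ‖(fT t r - exp (I * t * E) * ((√(r * (2 - r)) : ℝ) : ℂ)) * (t4w E r : ℂ)‖ ≤
      |t| * Real.exp (-E / 2) := by
  rcases hr.1.eq_or_lt with h0 | h0
  · simp only [← h0, fT]; simp; positivity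
  rcases hr.2.eq_or_lt with h2 | h2
  · simp only [h2, fT]; simp; positivity
  obtain ⟨e1, e2⟩ := t4_lg h0 h2
  have hd := t4_den_pos E hr
  have h1 : ‖exp (I * t * lg r) - exp (I * t * E)‖ ≤ |t| * |lg r - E| := by
    have e : exp (I * t * lg r) - exp (I * t * E) =
        exp (((t * E : ℝ) : ℂ) * I) * (exp (I * ((t * (lg r - E) : ℝ) : ℂ)) - 1) := by
      rw [mul_sub, ← Complex.exp_add, mul_one]
      congr 2 <;> (push_cast; ring)
    rw [e, norm_mul, norm_exp_ofReal_mul_I, one_mul, ← abs_mul, ← Real.norm_eq_abs]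
    exact Real.norm_exp_I_mul_ofReal_sub_one_le
  rw [fT, ← sub_mul, norm_mul, norm_mul, Complex.norm_real, Complex.norm_real,
    Real.norm_of_nonneg (Real.sqrt_nonneg _), t4w, Real.norm_of_nonneg (inv_pos.2 hd).le,
    ← div_eq_mul_inv, div_le_iff₀ hd]
  refine (mul_le_mul_of_nonneg_right h1 (Real.sqrt_nonneg _)).trans ?_
  rw [mul_assoc, mul_assoc]
  refine mul_le_mul_of_nonneg_left ?_ (abs_nonneg _)
  have h3 := t4_exp_ineq (lg r) E
  have h4 : Real.exp E = Real.exp (E / 2) * Real.exp (E / 2) := by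
    rw [← Real.exp_add, add_halves]
  have h5 : Real.exp (-E / 2) * Real.exp (E / 2) = 1 := by
    rw [← Real.exp_add, ← Real.exp_zero]; congr 1; ring
  rw [e1, h4]
  have h6 := mul_le_mul_of_nonneg_left h3 (mul_pos h0 (Real.exp_pos (-E / 2))).le
  generalize Real.exp (lg r / 2) = p at *
  generalize Real.exp (E / 2) = q at *
  generalize Real.exp (-E / 2) = q' at *
  calc |lg r - E| * (r * p) = r * q' * (|lg r - E| * (p * q)) := by
        linear_combination (-(|lg r - E| * (r * p))) * h5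
    _ ≤ _ := h6
    _ = _ := by linear_combination (-q') * e2

namespace RvD
variable {M : VonNeumannAlgebra H} {ξ : H} (d : RvD M ξ) {U : ℝ → Op H}

theorem t4_sq_cont : ContinuousOn (fun r : ℝ => ((√(r * (2 - r)) : ℝ) : ℂ)) (Set.Icc 0 2) := by
  fun_prop

theorem t4_T_fc (f : ℝ → ℂ) : d.T * fc d.R f = fc d.R f * d.T := by
  refine fc_comm d.R_sa ?_ f
  rw [d.T_fc]
  exact (fc_comm d.R_sa rfl _).symm

theorem t4_TU (hU : d.Grp U) (s : ℝ) : d.T * U s = fc d.R (fT s) := by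
  rw [← hU.UT]
  refine hU.U_comm s _ ?_
  rw [d.T_fc]
  exact (fc_comm d.R_sa rfl _).symm

theorem t4_norm_U (hU : d.Grp U) (s : ℝ) (η : H) : ‖U s η‖ = ‖η‖ :=
  ContinuousLinearMap.norm_map_of_mem_unitary
    ⟨by rw [hU.U_star, ← hU.U_add, neg_add_cancel, hU.U_zero],
      by rw [hU.U_star, ← hU.U_add, add_neg_cancel, hU.U_zero]⟩ η

theorem t4_SC (hU : d.Grp U) : SC U 1 :=
  ⟨fun s => ContinuousLinearMap.opNorm_le_bound _ zero_le_one fun η => by
      rw [d.t4_norm_U hU, one_mul], hU.U_cont, fun η => by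
    simp only [hU.U_star]
    exact (hU.U_cont η).comp continuous_neg⟩

theorem t4_int (hU : d.Grp U) {g : ℝ → ℂ} (hg : Integrable g) (hgc : Continuous g) {v w : H}
    {f : ℝ → ℂ} (hf : ContinuousOn f (Set.Icc 0 2)) (hb : ∀ r ∈ Set.Icc (0 : ℝ) 2, ‖f r‖ ≤ 2)
    (h : d.T v = fc d.R f w) :
    d.T (d.T (∫ s : ℝ, g s • U s v)) = fc d.R (fun r => ∫ s : ℝ, g s * (fT s r * f r)) w := by
  rw [← integral_fc d.R_sa d.spec (F := fun s r => g s * (fT s r * f r)) (b := fun s => ‖g s‖ * 2)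
    (((hgc.comp continuous_fst).continuousOn).mul (continuousOn_fT.mul
      (hf.comp continuousOn_snd fun p hp => hp.2))) (hg.norm.mul_const 2) (fun s r hr => by
        rw [norm_mul, norm_mul, t4_norm_fT]
        refine mul_le_mul_of_nonneg_left ?_ (norm_nonneg _)
        exact (mul_le_mul (t4_sqrt_le r) (hb r hr) (norm_nonneg _) zero_le_one).trans_eq
          (one_mul _)),
    ← mul_apply_eq_comp, ← ContinuousLinearMap.integral_comp_comm _ ((d.t4_SC hU).integrable hg v)]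
  congr 1
  funext s
  rw [fc_smul d.R_sa d.spec ((t4_cont_fT s).fun_mul hf), fc_mul d.R_sa d.spec (t4_cont_fT s) hf,
    map_smul, _root_.smul_apply, mul_apply_eq_comp, mul_apply_eq_comp, ← h,
    ← mul_apply_eq_comp d.T (U s), d.t4_TU hU, ← mul_apply_eq_comp d.T, d.t4_T_fc,
    mul_apply_eq_comp]

end RvD

namespace RvD
variable {M : VonNeumannAlgebra H} {ξ : H} (d : RvD M ξ) {U : ℝ → Op H}

/-- Apply the injective operator `T T` (it commutes with `U s` and with the integrals):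
`T T U s J x* ξ = fT s (R) (2 - R) x ξ`, `T T U s x ξ = fT s (R) T x ξ`.  By `integral_fc` it is
enough to show for `0 ≤ r ≤ 2`
`∫ g s fT s r (2 - r) = ∫ g (s + i/2) fT s r √(r (2-r))`; for `0 < r < 2` this is
`integral_shift` for the entire function `z ↦ g z exp (i z lg r)` and
`exp (lg r / 2) = √((2-r)/r)`. -/
theorem kms (hU : d.Grp U) {x : Op H} (hx : x ∈ M) {a : ℝ} (ha : 0 < a) (b : ℂ) :
    ∫ s : ℝ, gau a b s • U s (d.J (star x ξ)) = ∫ s : ℝ, gau a b (s + I / 2) • U s (x ξ) := by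
  have h1 := d.t4_int hU (t4_integrable_gau ha b) (by unfold gau; fun_prop)
    (v := d.J (star x ξ)) (w := x ξ) (f := fun r => 2 - (r : ℂ)) (by fun_prop) (fun r hr => by
      rw [show (2 - (r : ℂ)) = ((2 - r : ℝ) : ℂ) by push_cast; rfl, Complex.norm_real,
        Real.norm_of_nonneg (by linarith [hr.2])]
      linarith [hr.1]) (by rw [fc_two_sub d.R_sa, d.TJ x hx])
  have h2 := d.t4_int hU (t4_integrable_gau' ha b) (by unfold gau; fun_prop)
    (v := x ξ) (w := x ξ) t4_sq_cont (fun r _ => by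
      rw [Complex.norm_real, Real.norm_of_nonneg (Real.sqrt_nonneg _)]
      linarith [t4_sqrt_le r]) (by rw [← d.T_fc])
  rw [fc_congr d.R_sa d.spec (fun r hr => t4_kms_scalar ha b hr), ← h2, ← sub_eq_zero,
    ← map_sub, ← map_sub] at h1
  exact sub_eq_zero.1 (d.T_inj _ (d.T_inj _ h1))

/-- Let `χ : ℝ → [0,1]` be continuous, `0` on `(-∞, -1/2]`, `1` on `[1/2, ∞)`, and
`χ₊ r = χ (lg r - E)` for `0 < r < 2`, `χ₊ 0 = 1`, `χ₊ 2 = 0` (continuous on `[0,2]`; e.g.
`χ₊ r = max 0 (min 1 ((r₂ - r) / (r₂ - r₁)))` where `lg r₁ = E + 1/2`, `lg r₂ = E - 1/2`,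
`r = 2 / (1 + exp (lg r))`, any such function will do), `χ₋ = 1 - χ₊`, `D = U t - exp (i t E)`.
`D η = D χ₊(R) (η - n ξ) + D χ₋(R) (η - y ξ) + D χ₊(R) n ξ + D χ₋(R) y ξ`, and
`D χ₊(R) n ξ = ψ₊(R) J n* ξ` with `ψ₊ = (e^{i t lg} - e^{i t E}) χ₊ √(r/(2-r))` (apply the
injective `T`, use `TJ`), `|ψ₊| ≤ |t| |x| e^{-x/2} e^{-E/2} ≤ |t| e^{-E/2}` for
`x = lg r - E ≥ -1/2`; symmetrically `ψ₋ = (…) χ₋ √((2-r)/r)` with `TJ'`. -/
theorem est (hU : d.Grp U) (t E : ℝ) (η : H) {n y : Op H} (hn : n ∈ M) (hy : y ∈ M.commutant) :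
    ‖U t η - exp (I * t * E) • η‖ ≤
      |t| * (Real.exp (-E / 2) * ‖star n ξ‖ + Real.exp (E / 2) * ‖star y ξ‖) +
        2 * ‖η - n ξ‖ + 2 * ‖η - y ξ‖ := by
  set e : ℂ := exp (I * t * E) with he
  set W : Op H := fc d.R fun r => ((t4w E r : ℝ) : ℂ) with hW
  set D : Op H := U t - e • (1 : Op H) with hD
  set l : ℂ := ((Real.exp E : ℝ) : ℂ) with hl
  have hw := t4w_cont E
  have hDa : ∀ v, D v = U t v - e • v := fun v => rfl
  have hDn : ∀ v, ‖D v‖ ≤ 2 * ‖v‖ := fun v => by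
    have h1 : ‖e‖ = 1 := by
      rw [he, show I * t * E = ((t * E : ℝ) : ℂ) * I by push_cast; ring, norm_exp_ofReal_mul_I]
    rw [hDa]
    refine (norm_sub_le _ _).trans ?_
    rw [d.t4_norm_U hU, norm_smul, h1]
    linarith
  have c2 : ContinuousOn (fun r : ℝ => 2 - (r : ℂ)) (Set.Icc 0 2) := by fun_prop
  have c1 : ContinuousOn (fun r : ℝ => (r : ℂ)) (Set.Icc 0 2) := by fun_prop
  have hP : W * (2 - d.R) = fc d.R fun r => ((t4w E r : ℝ) : ℂ) * (2 - (r : ℂ)) := by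
    rw [fc_mul d.R_sa d.spec hw c2, fc_two_sub d.R_sa]
  have hQ : l • (W * d.R) = fc d.R fun r => l * (((t4w E r : ℝ) : ℂ) * (r : ℂ)) := by
    rw [fc_smul d.R_sa d.spec (hw.fun_mul c1), fc_mul d.R_sa d.spec hw c1, fc_id d.R_sa]
  have hsum : W * (2 - d.R) + l • (W * d.R) = 1 := by
    rw [hP, hQ, ← fc_add d.R_sa d.spec (hw.fun_mul c2)
        (continuousOn_const.fun_mul (hw.fun_mul c1)),
      fc_congr d.R_sa d.spec (g := fun _ => 1), fc_const d.R_sa, one_smul]
    intro r hr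
    have h := mul_inv_cancel₀ (t4_den_pos E hr).ne'
    have h' : ((2 - (r : ℂ)) + l * r) * ((t4w E r : ℝ) : ℂ) = 1 := by
      rw [hl, t4w]; exact_mod_cast h
    linear_combination h'
  have hPn : ‖W * (2 - d.R)‖ ≤ 1 := by
    rw [hP]
    refine norm_fc_le d.R_sa d.spec zero_le_one fun r hr => ?_
    have hd := t4_den_pos E hr
    rw [show ((t4w E r : ℝ) : ℂ) * (2 - (r : ℂ)) = ((t4w E r * (2 - r) : ℝ) : ℂ) by push_cast; rfl,
      Complex.norm_real, t4w, Real.norm_of_nonneg (mul_nonneg (inv_pos.2 hd).le (by linarith [hr.2])),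
      ← div_eq_inv_mul, div_le_one hd]
    have := mul_nonneg (Real.exp_pos E).le hr.1
    linarith
  have hQn : ‖l • (W * d.R)‖ ≤ 1 := by
    rw [hQ]
    refine norm_fc_le d.R_sa d.spec zero_le_one fun r hr => ?_
    have hd := t4_den_pos E hr
    rw [show l * (((t4w E r : ℝ) : ℂ) * (r : ℂ)) = ((t4w E r * (Real.exp E * r) : ℝ) : ℂ) by
        rw [hl]; push_cast; ring,
      Complex.norm_real, t4w, Real.norm_of_nonneg
        (mul_nonneg (inv_pos.2 hd).le (mul_nonneg (Real.exp_pos E).le hr.1)),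
      ← div_eq_inv_mul, div_le_one hd]
    linarith [hr.2]
  have hΨ : ‖D * (W * d.T)‖ ≤ |t| * Real.exp (-E / 2) := by
    have h1 : D * d.T = fc d.R fun r => fT t r - e * ((√(r * (2 - r)) : ℝ) : ℂ) := by
      rw [fc_sub d.R_sa d.spec (t4_cont_fT t) (continuousOn_const.fun_mul t4_sq_cont),
        fc_smul d.R_sa d.spec t4_sq_cont, ← d.T_fc, ← hU.UT, hD, sub_mul, smul_mul_assoc, one_mul]
    rw [hW, ← d.t4_T_fc, ← mul_assoc, h1, ← fc_mul d.R_sa d.spec
      ((t4_cont_fT t).fun_sub (continuousOn_const.fun_mul t4_sq_cont)) hw]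
    exact norm_fc_le d.R_sa d.spec (by positivity) fun r hr => t4_psi_le t E hr
  have hη : η = (W * (2 - d.R)) (η - n ξ) + (l • (W * d.R)) (η - y ξ) +
      (W * d.T) (d.J (star n ξ)) + l • (W * d.T) (d.J (star y ξ)) := by
    have h1 := congrArg (fun X : Op H => X η) hsum
    simp only [add_apply, one_apply_eq_self] at h1
    rw [map_sub, map_sub, mul_apply_eq_comp W d.T, mul_apply_eq_comp W d.T, d.TJ n hn,
      d.TJ' y hy, ← mul_apply_eq_comp W, ← mul_apply_eq_comp W, ← _root_.smul_apply (W * d.R)]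
    rw [← sub_eq_zero] at h1 ⊢
    rw [← neg_eq_zero, ← h1]
    abel
  have hDη : D η = D ((W * (2 - d.R)) (η - n ξ)) + D ((l • (W * d.R)) (η - y ξ)) +
      (D * (W * d.T)) (d.J (star n ξ)) + l • (D * (W * d.T)) (d.J (star y ξ)) := by
    rw [mul_apply_eq_comp D, mul_apply_eq_comp D, ← map_smul, ← map_add, ← map_add, ← map_add,
      ← hη]
  have n1 : ‖D ((W * (2 - d.R)) (η - n ξ))‖ ≤ 2 * ‖η - n ξ‖ :=
    (hDn _).trans (mul_le_mul_of_nonneg_left (((W * (2 - d.R)).le_opNorm _).trans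
      (mul_le_of_le_one_left (norm_nonneg _) hPn)) zero_le_two)
  have n2 : ‖D ((l • (W * d.R)) (η - y ξ))‖ ≤ 2 * ‖η - y ξ‖ :=
    (hDn _).trans (mul_le_mul_of_nonneg_left (((l • (W * d.R)).le_opNorm _).trans
      (mul_le_of_le_one_left (norm_nonneg _) hQn)) zero_le_two)
  have n3 : ∀ v, ‖(D * (W * d.T)) (d.J v)‖ ≤ |t| * Real.exp (-E / 2) * ‖v‖ := fun v => by
    refine ((D * (W * d.T)).le_opNorm _).trans ?_
    rw [d.toConj.norm_J]
    exact mul_le_mul_of_nonneg_right hΨ (norm_nonneg _)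
  have n4 : ‖l • (D * (W * d.T)) (d.J (star y ξ))‖ ≤ |t| * (Real.exp (E / 2) * ‖star y ξ‖) := by
    rw [norm_smul, hl, Complex.norm_real, Real.norm_of_nonneg (Real.exp_pos E).le]
    refine (mul_le_mul_of_nonneg_left (n3 _) (Real.exp_pos E).le).trans_eq ?_
    have : Real.exp E * Real.exp (-E / 2) = Real.exp (E / 2) := by
      rw [← Real.exp_add]; congr 1; ring
    rw [← this]; ring
  rw [← hDa, hDη]
  refine (norm_add_le _ _).trans ?_
  have n5 := norm_add_le (D ((W * (2 - d.R)) (η - n ξ)) + D ((l • (W * d.R)) (η - y ξ)))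
    ((D * (W * d.T)) (d.J (star n ξ)))
  have n6 := norm_add_le (D ((W * (2 - d.R)) (η - n ξ))) (D ((l • (W * d.R)) (η - y ξ)))
  have n7 := n3 (star n ξ)
  linarith

end RvD

theorem exists_tomita {M : VonNeumannAlgebra H} {ξ : H} (hc : Cyc M ξ)
    (hc' : Cyc M.commutant ξ) : Nonempty (Tomita M ξ) := by
  obtain ⟨d⟩ := exists_RvD hc hc'
  obtain ⟨U, hU⟩ := d.exists_grp
  exact ⟨{ d.toConj with
    U := U, cyc := hc, cyc' := hc', U_zero := hU.U_zero, U_add := hU.U_add, U_star := hU.U_star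
    U_cont := hU.U_cont, U_xi := hU.U_xi, U_mem := fun s x hx => d.U_mem hU s hx
    U_ctr := fun s z hz => hU.U_comm s z (d.R_ctr z hz), J_xi := d.J_xi, J_U := hU.J_U
    jj_mem := fun x hx => d.jj_mem hx, jj_mem' := fun y hy => d.jj_mem' hy
    kms := fun x hx a ha b => d.kms hU hx ha b
    est := fun t E η n hn y hy => d.est hU t E η hn hy }⟩

end Crest.Agent.R78
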