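import Crest.Agent.R78.StarB
import Crest.Agent.R78.StarD
import Crest.Agent.R78.L2Lat
import Crest.Agent.R78.Simple
import Crest.Agent.R78.Kraus
import Crest.Agent.R78.Tom4
import Crest.Agent.R78.FrameEx
import Crest.Agent.R78.FrameCyc
import Crest.Agent.R78.FrameNear
import Crest.Agent.R78.AlignZ
import Crest.Agent.R78.RmeB
import Crest.Agent.R78.Phase
import Crest.Agent.R78.CrossC
import Crest.Agent.R78.LS
import Crest.Agent.R78.Impl

/-! # R78: assembly -/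

set_option autoImplicit false
set_option linter.unusedSectionVars false
open Filter Topology
open scoped InnerProductSpace

namespace Crest.Agent.R78

universe u
variable {H : Type u} [NormedAddCommGroup H] [InnerProductSpace ℂ H] [CompleteSpace H]

open TopologicalSpace

theorem Tomita.U_pow {M : VonNeumannAlgebra H} {ξ : H} (τ : Tomita M ξ) (h : ℝ) (k : ℕ) :
    τ.U h ^ k = τ.U (k * h) := by
  induction k with
  | zero => simp [τ.U_zero]
  | succ k ih => rw [pow_succ, ih, ← τ.U_add, Nat.cast_succ, add_mul, one_mul]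

theorem exists_norm {ε : ℝ} (hε : 0 < ε) : ∃ δ > 0, ∃ t₀ > 0,
    ∀ (H : Type u) [NormedAddCommGroup H] [InnerProductSpace ℂ H] [CompleteSpace H]
      [SeparableSpace H] (M N : VonNeumannAlgebra H) (ξ : H) (τ : Tomita M ξ),
      Cyc N ξ → Cyc N.commutant ξ → Close M N δ → (∀ z, Ctr M z ↔ Ctr N z) → ∀ h, |h| ≤ t₀ →
      ∃ B ∈ unitary (Op H), ‖B - 1‖ ≤ ε ∧ ∀ y ∈ cj B N,
        τ.U h * y * τ.U (-h) ∈ cj B N ∧ τ.U (-h) * y * τ.U h ∈ cj B N := by
  obtain ⟨δ₁, hδ₁, t₀, ht₀, hL⟩ := exists_latLe.{u} (κ := 1 / 1000) (by norm_num)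
  have hK := KA_pos
  have hK1 := one_le_KA
  set e : ℝ := min (ε / 6000) (1 / 10 ^ 7) with he
  have he0 : 0 < e := lt_min (by positivity) (by positivity)
  have he1 : e ≤ ε / 6000 := min_le_left _ _
  have he2 : e ≤ 1 / 10 ^ 7 := min_le_right _ _
  set δ : ℝ := min (δ₁ / KA) (e / 10 ^ 7 / KA ^ 2) with hδ
  have hδ0 : 0 < δ := lt_min (by positivity) (by positivity)
  have hd1 : KA * δ ≤ δ₁ := by
    rw [mul_comm, ← le_div_iff₀ hK]; exact min_le_left _ _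
  have hd2 : KA ^ 2 * δ ≤ e / 10 ^ 7 := by
    rw [mul_comm, ← le_div_iff₀ (by positivity)]; exact min_le_right _ _
  have hd3 : δ ≤ KA * δ := by nlinarith
  have hd4 : KA * δ ≤ KA ^ 2 * δ := by nlinarith
  refine ⟨δ, hδ0, t₀, ht₀, fun H _ _ _ _ M N ξ τ hc hc' hMN hctr h hh => ?_⟩
  obtain ⟨σ⟩ := exists_tomita hc hc'
  obtain ⟨κ⟩ := τ.exists_kraus
  obtain ⟨F⟩ := exists_frame H (Option ℕ) none
  obtain ⟨W, W', hp⟩ := F.exists_pair κ
  have hpl : ∀ s : ℝ, ∃ B R R', F.Placed M N (F.lift (τ.U s) * W * F.lift (τ.U (-s)))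
      (F.lift (τ.U s) * W' * F.lift (τ.U (-s))) e B R R' := fun s => by
    have hu := F.lift_unitary (τ.U_unitary s)
    have hu' := F.lift_unitary (τ.U_unitary (-s))
    have hs : F.lift (τ.U (-s)) = star (F.lift (τ.U s)) := by rw [← map_star, τ.U_star]
    have := F.exists_placed (δ := e / 10 ^ 7) (by positivity) (by linarith)
      ((F.close_Mt hδ0.le hMN).1.mono hd2) ((F.near_Mt' hδ0.le hMN.2).mono (hd4.trans hd2))
      (W := F.lift (τ.U s) * W * F.lift (τ.U (-s))) (W' := F.lift (τ.U s) * W' * F.lift (τ.U (-s)))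
      (by
        rw [hs]
        refine F.lift_conj_mem (τ.U_unitary s) (fun y hy => ?_) hp.mem
        simpa only [τ.U_star, neg_neg] using τ.U_mem' (-s) hy)
      (mul_mem (mul_mem hu hp.uni) hu')
      (by
        have hm := hp.mem'
        rw [hs, ← F.flip_Mt] at *
        refine F.flip.lift_conj_mem (τ.U_unitary s) (fun y hy => ?_) hm
        rw [VonNeumannAlgebra.commutant_commutant] at hy ⊢
        simpa only [τ.U_star, neg_neg] using τ.U_mem (-s) y hy)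
      (mul_mem (mul_mem hu hp.uni') hu')
    rwa [mul_div_cancel₀ _ (by positivity)] at this
  choose B R R' hB using hpl
  let c : Ctx H _ (Option ℕ) none :=
    ⟨M, N, ξ, τ, σ, hctr, F, κ, W, W', hp, e, by linarith, B, R, R', hB⟩
  have hl : L2Le c.τ c.σ h (1 / 1000) :=
    (hL H M N ξ τ σ ((near_comm hδ0.le hMN.1).mono hd1) (hMN.2.mono (hd3.trans hd1)) h hh).l2Le
  have hr : c.Rel h 1 (2 * c.ε) := c.exh (by positivity) fun z hz h0 => c.mass hl hz h0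
  obtain ⟨a, ha, b, hb, w, hau, hbu, hw, hw1, -, hwY, -⟩ := kaz (A := N) (B := N.commutant)
    (S := σ.U (-h)) (Y := τ.U h) (fun a ha b hb => comm_of_mem ha hb) (σ.U_unitary _)
    (τ.U_unitary _) (fun a ha => by simpa only [σ.U_star, neg_neg] using σ.U_mem h a ha)
    (fun b hb => by simpa only [σ.U_star, neg_neg] using σ.U_mem' h hb) (split_comm N)
    (δ := 6 * e) (by linarith) fun k => by
      obtain ⟨a, ha, b, hb, h1, h2, h3⟩ := c.descent (θ := 2 * e) (by linarith) (c.rel_nat hr k)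
      refine ⟨a, ha, b, hb, h1, h2, ?_⟩
      rw [τ.U_pow, σ.U_pow, mul_neg]
      exact h3.trans (by linarith)
  rw [σ.U_star, neg_neg] at hwY
  refine ⟨w, hw, by linarith, fun y hy => ?_⟩
  rw [mem_cj hw] at hy
  have hG : a * b * σ.U h ∈ unitary (Op H) := mul_mem (mul_mem hau hbu) (σ.U_unitary h)
  have e1 : τ.U (-h) * star w = star w * star (a * b * σ.U h) := by
    rw [← τ.U_star, ← star_mul, hwY, star_mul]
  have e2 : w * τ.U (-h) = star (a * b * σ.U h) * w := by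
    calc w * τ.U (-h) = star (a * b * σ.U h) * (a * b * σ.U h * w) * τ.U (-h) := by
          rw [← mul_assoc, hG.1, one_mul]
      _ = _ := by rw [← hwY, mul_assoc, mul_assoc w, τ.U_mul_neg, mul_one]
  have e3 : τ.U h * star w = star w * (a * b * σ.U h) := by
    have := congrArg star e2
    rwa [star_mul, τ.U_star, neg_neg, star_mul, star_star] at this
  constructor
  · rw [mem_cj hw]
    have : w * (τ.U h * y * τ.U (-h)) * star w =
        a * (b * (σ.U h * (w * y * star w) * σ.U (-h)) * star b) * star a := by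
      calc _ = (w * τ.U h) * y * (τ.U (-h) * star w) := by simp only [mul_assoc]
        _ = _ := by rw [hwY, e1, star_mul, star_mul, σ.U_star]; simp only [mul_assoc]
    rw [this, ← comm_of_mem (σ.U_mem h _ hy) hb, mul_assoc _ b, hbu.2, mul_one]
    exact mul_mem (mul_mem ha (σ.U_mem h _ hy)) (star_mem ha)
  · rw [mem_cj hw]
    have hy' : star a * (w * y * star w) * a ∈ N := mul_mem (mul_mem (star_mem ha) hy) ha
    have : w * (τ.U (-h) * y * τ.U h) * star w =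
        σ.U (-h) * (star b * (star a * (w * y * star w) * a * b)) * σ.U (- -h) := by
      calc _ = (w * τ.U (-h)) * y * (τ.U h * star w) := by simp only [mul_assoc]
        _ = _ := by rw [e2, e3, star_mul, star_mul, σ.U_star, neg_neg]; simp only [mul_assoc]
    rw [this, comm_of_mem hy' hb, ← mul_assoc (star b), hbu.1, one_mul]
    exact σ.U_mem _ _ hy'

theorem exists_mod {η : ℝ} (hη : 0 < η) : ∃ δ > 0,
    ∀ (H : Type u) [NormedAddCommGroup H] [InnerProductSpace ℂ H] [CompleteSpace H]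
      (M N : VonNeumannAlgebra H), Close M N δ → PhaseOK M N η := by
  have hK := KA_pos
  have hK1 := one_le_KA
  set d : ℝ := min (1 / 10 ^ 11) (η / (4 * 10 ^ 7)) with hd
  have hd0 : 0 < d := lt_min (by positivity) (by positivity)
  have hd2 : 4 * 10 ^ 7 * d ≤ η := by
    rw [mul_comm, ← le_div_iff₀ (by positivity)]; exact min_le_right _ _
  refine ⟨d / KA ^ 2 / KA ^ 2, by positivity, fun H _ _ _ M N h => ?_⟩
  obtain ⟨F₂⟩ := exists_frame H (Fin 2) 0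
  refine F₂.phaseOK fun A _ _ ζ g g' hg hg' e => ?_
  have h2 := F₂.close_Mt (by positivity) h
  rw [mul_div_cancel₀ _ (by positivity)] at h2
  obtain ⟨F⟩ := exists_frame (L2 (Wd (Fin 2) 0 × Wd (Fin 2) 0) H) (Option A) none
  have h3 := F.close_Mt (by positivity) h2
  rw [mul_div_cancel₀ _ (by positivity)] at h3
  have h4 := (F.near_Mt' (by positivity) h2.2).mono (δ' := d) (by
    rw [mul_div_assoc', div_le_iff₀ (by positivity)]
    nlinarith [mul_pos hd0 hK])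
  obtain ⟨Φ, hΦ⟩ := F.rme hd0.le (min_le_left _ _) h3.1 h4 hg hg' e
  exact ⟨Φ, fun t ht => ⟨(hΦ t ht).1.trans (mul_le_mul_of_nonneg_right hd2 (norm_nonneg _)),
    (hΦ t ht).2⟩⟩

theorem cross_main {η : ℝ} (hη : 0 < η) : ∃ δ > 0,
    ∀ (H : Type u) [NormedAddCommGroup H] [InnerProductSpace ℂ H] [CompleteSpace H]
      (M N : VonNeumannAlgebra H) (ξ : H) (τ : Tomita M ξ) (h : ℝ), h ≠ 0 → Close M N δ →
      (∀ y ∈ N, τ.U h * y * τ.U (-h) ∈ N ∧ τ.U (-h) * y * τ.U h ∈ N) →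
      ∃ Θ Λ : Op H →ₗ[ℂ] Op H, (∀ t ∈ N.commutant, Θ t ∈ M.commutant ∧ ∀ x ∈ M.commutant,
        ‖Θ t - Λ x‖ ≤ 2 * (η * ‖t‖ + ‖t - x‖)) ∧ ∀ x ∈ M.commutant, ‖Λ x‖ ≤ 2 * ‖x‖ ∧
        ∀ m₁ ∈ M, ∀ m₂ ∈ M, ⟪m₂ ξ, Λ x (m₁ ξ)⟫_ℂ =
          Cross.psi τ h (L2.lift ℤ x) (star m₂ * m₁) := by
  obtain ⟨δ, hδ, hP⟩ := exists_mod.{u} hη
  have hK := KA_pos
  refine ⟨δ / KA / KA, by positivity, fun H _ _ _ M N ξ τ h hh hc hN => ?_⟩
  have h1 := Cross.close_hat τ h (by positivity) hc hN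
  rw [mul_div_cancel₀ _ hK.ne', mul_div_cancel₀ _ hK.ne'] at h1
  obtain ⟨Φ, hΦ⟩ := (hP _ _ _ h1).mod (P := Cross.PP τ h)
    (fun x hx => ((Cross.mem_PP τ h).1 hx).1) fun e he hu => Cross.partner τ h hh he hu
  obtain ⟨Λ, hΛ⟩ := Cross.exists_Lam τ h
  let l : Op H →ₗ[ℂ] Op (L2 ℤ H) := (L2.lift ℤ : Op H →⋆ₐ[ℂ] Op (L2 ℤ H)).toAlgHom.toLinearMap
  have hl : ∀ x, l x = L2.lift ℤ x := fun _ => rfl
  refine ⟨Λ ∘ₗ Φ ∘ₗ l, Λ ∘ₗ l, fun t ht => ?_, fun x hx => ?_⟩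
  · have ht' : L2.lift ℤ t ∈ (Cross.hat τ h N).commutant := by
      rw [Cross.commutant_hat]; exact Cross.lift_mem_hatC τ h hN ht
    obtain ⟨h2, h3⟩ := hΦ _ ht'
    refine ⟨(hΛ _ h3).1, fun x hx => ?_⟩
    simp only [LinearMap.comp_apply, hl]
    rw [← map_sub]
    refine (hΛ _ (Cross.Mod_sub h3 (Cross.mod_lift τ h hx))).2.1.trans ?_
    have h4 : ‖L2.lift ℤ t - L2.lift ℤ x‖ ≤ ‖t - x‖ := by
      rw [← map_sub]; exact L2.norm_lift_le _
    have h5 := mul_le_mul_of_nonneg_left (L2.norm_lift_le (𝒥 := ℤ) t) hη.le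
    have h6 := norm_sub_le_norm_sub_add_norm_sub (Φ (L2.lift ℤ t)) (L2.lift ℤ t) (L2.lift ℤ x)
    linarith
  · obtain ⟨-, h2, h3⟩ := hΛ _ (Cross.mod_lift τ h hx)
    have h5 := L2.norm_lift_le (𝒥 := ℤ) x
    exact ⟨h2.trans (by linarith), h3⟩

theorem exists_linLim_on {ι : Type*} (U : Ultrafilter ι) (N : VonNeumannAlgebra H)
    (Φ : ι → Op H →ₗ[ℂ] Op H) (h : ∀ t ∈ N, ∃ r, ∀ i, ‖Φ i t‖ ≤ r) :
    ∃ Ψ : Op H →ₗ[ℂ] Op H, ∀ t ∈ N, WLim (U : Filter ι) (fun i => Φ i t) (Ψ t) := by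
  let S : Submodule ℂ (Op H) := N.toStarSubalgebra.toSubalgebra.toSubmodule
  obtain ⟨Ψ, hΨ⟩ := exists_linLim U (fun i => Φ i ∘ₗ S.subtype) fun t => by
    obtain ⟨r, hr⟩ := h t t.2
    exact ⟨r, Eventually.of_forall hr⟩
  obtain ⟨Ψ', hΨ'⟩ := LinearMap.exists_extend Ψ
  refine ⟨Ψ', fun t ht => ?_⟩
  have := hΨ ⟨t, ht⟩
  rwa [← hΨ'] at this

theorem core_cyc {η : ℝ} (hη : 0 < η) : ∃ δ > 0,
    ∀ (H : Type u) [NormedAddCommGroup H] [InnerProductSpace ℂ H] [CompleteSpace H]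
      [SeparableSpace H] (M N : VonNeumannAlgebra H) (ξ : H), Cyc M ξ → Cyc M.commutant ξ →
      Cyc N ξ → Cyc N.commutant ξ → Close M N δ → (∀ z, Ctr M z ↔ Ctr N z) →
      HasLift M.commutant N.commutant η := by
  obtain ⟨δ₁, hδ₁, hX⟩ := cross_main.{u} (η := η / 10) (by positivity)
  have hK := KA_pos
  have hK1 := one_le_KA
  set ε : ℝ := min (min (δ₁ / 8) (η / 10)) (1 / 2) with hε
  have hε0 : 0 < ε := lt_min (lt_min (by positivity) (by positivity)) (by positivity)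
  have hε1 : ε ≤ δ₁ / 8 := (min_le_left _ _).trans (min_le_left _ _)
  have hε2 : ε ≤ η / 10 := (min_le_left _ _).trans (min_le_right _ _)
  have hε3 : ε ≤ 1 / 2 := min_le_right _ _
  obtain ⟨δ₂, hδ₂, t₀, ht₀, hN⟩ := exists_norm.{u} hε0
  set δ : ℝ := min δ₂ (ε / KA) with hδ
  have hδ0 : 0 < δ := lt_min hδ₂ (by positivity)
  have hd1 : KA * δ ≤ ε := by
    rw [mul_comm, ← le_div_iff₀ hK]; exact min_le_right _ _
  have hd3 : δ ≤ KA * δ := by nlinarith
  refine ⟨δ, hδ0, fun H _ _ _ _ M N ξ c1 c2 c3 c4 hc hctr => ?_⟩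
  obtain ⟨τ⟩ := exists_tomita c1 c2
  let hn : ℕ → ℝ := fun n => t₀ * (1 / ((n : ℝ) + 1))
  have hn0 : ∀ n, 0 < hn n := fun n => by positivity
  have hn1 : ∀ n, |hn n| ≤ t₀ := fun n => by
    rw [abs_of_pos (hn0 n)]
    refine mul_le_of_le_one_right ht₀.le ?_
    rw [div_le_one (by positivity)]
    linarith [Nat.cast_nonneg (α := ℝ) n]
  have hn2 : Tendsto hn atTop (𝓝 0) := by
    have := (tendsto_one_div_add_atTop_nhds_zero_nat (𝕜 := ℝ)).const_mul t₀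
    rwa [mul_zero] at this
  have key : ∀ n, ∃ Θ Λ : Op H →ₗ[ℂ] Op H, (∀ t ∈ N.commutant, Θ t ∈ M.commutant ∧
      ∀ x ∈ M.commutant, ‖Θ t - Λ x‖ ≤ 2 * (η / 10 * ‖t‖ + (2 * ε * ‖t‖ + ‖t - x‖))) ∧
      ∀ x ∈ M.commutant, ‖Λ x‖ ≤ 2 * ‖x‖ ∧ ∀ m₁ ∈ M, ∀ m₂ ∈ M, ⟪m₂ ξ, Λ x (m₁ ξ)⟫_ℂ =
        Cross.psi τ (hn n) (L2.lift ℤ x) (star m₂ * m₁) := fun n => by
    obtain ⟨B, hB, hB1, hB2⟩ := hN H M N ξ τ c3 c4 (hc.mono (min_le_left _ _)) hctr _ (hn1 n)
    have hc1 : Close M (cj B N) δ₁ :=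
      (Close.trans hδ0.le (by positivity) (by linarith) (by linarith) hc
        (close_cj hB hB1).symm).mono (by linarith)
    obtain ⟨Θ, Λ, h1, h2⟩ := hX H M (cj B N) ξ τ _ (hn0 n).ne' hc1 hB2
    refine ⟨Θ ∘ₗ LinearMap.mulLeftRight ℂ (star B, B), Λ, fun t ht => ?_, h2⟩
    have ht' : star B * t * B ∈ (cj B N).commutant := by
      rw [commutant_cj hB, mem_cj hB]
      have : B * (star B * t * B) * star B = (B * star B) * t * (B * star B) := by
        simp only [mul_assoc]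
      rwa [this, hB.2, one_mul, mul_one]
    have hsB : star B ∈ unitary (Op H) := Unitary.star_mem hB
    have e1 : ‖star B * t * B‖ = ‖t‖ := by
      rw [CStarRing.norm_mul_mem_unitary _ hB, CStarRing.norm_mem_unitary_mul _ hsB]
    have e2 : ‖star B * t * B - t‖ ≤ 2 * ε * ‖t‖ := by
      have : star B * t * B - t = star B * t * (B - 1) + star (B - 1) * t := by
        rw [star_sub, star_one]; noncomm_ring
      rw [this]
      refine (norm_add_le _ _).trans ?_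
      have a1 := norm_mul_le (star B * t) (B - 1)
      have a2 := norm_mul_le (star (B - 1)) t
      rw [CStarRing.norm_mem_unitary_mul _ hsB] at a1
      rw [norm_star] at a2
      nlinarith [norm_nonneg t]
    refine ⟨(h1 _ ht').1, fun x hx => ?_⟩
    have h3 := (h1 _ ht').2 x hx
    rw [e1] at h3
    have h4 := norm_sub_le_norm_sub_add_norm_sub (star B * t * B) t x
    simp only [LinearMap.comp_apply, LinearMap.mulLeftRight_apply]
    linarith
  choose Θ Λ h1 h2 using key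
  have hnear := near_comm hδ0.le hc.1
  obtain ⟨Ψ, hΨ⟩ := exists_linLim_on (hyperfilter ℕ) N.commutant Θ fun t ht =>
    ⟨2 * (η / 10 * ‖t‖ + (2 * ε * ‖t‖ + ‖t - 0‖)), fun n => by
      simpa only [map_zero, sub_zero] using (h1 n t ht).2 0 (zero_mem _)⟩
  refine ⟨Ψ, fun t ht => ⟨(hΨ t ht).mem (Eventually.of_forall fun n => (h1 n t ht).1), ?_⟩⟩
  obtain ⟨x, hx, hx1⟩ := hnear t ht
  have hΛ : WLim (hyperfilter ℕ : Filter ℕ) (fun n => Λ n x) x := by
    refine (WLim.of_cyc c1 (fun n => (h2 n x hx).1) fun m₁ hm₁ m₂ hm₂ => ?_).mono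
      Nat.hyperfilter_le_atTop
    have := (Cross.tendsto_psi τ x (star m₂ * m₁)).comp hn2
    have e : ⟪ξ, x ((star m₂ * m₁) ξ)⟫_ℂ = ⟪m₂ ξ, x (m₁ ξ)⟫_ℂ := by
      have := congrArg (fun T : Op H => T (m₁ ξ)) (comm_of_mem (star_mem hm₂) hx)
      simp only [ContinuousLinearMap.mul_apply] at this ⊢
      rw [← this, ContinuousLinearMap.star_eq_adjoint, ContinuousLinearMap.adjoint_inner_right]
    rw [e] at this
    exact this.congr fun n => ((h2 n x hx).2 m₁ hm₁ m₂ hm₂).symm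
  have h3 := ((hΨ t ht).sub hΛ).norm_le (Eventually.of_forall fun n => (h1 n t ht).2 x hx)
  have h4 := norm_sub_le_norm_sub_add_norm_sub (Ψ t) x t
  rw [norm_sub_rev x t] at h4
  have h5 : KA * δ * ‖t‖ ≤ ε * ‖t‖ := mul_le_mul_of_nonneg_right hd1 (norm_nonneg _)
  have h6 : ε * ‖t‖ ≤ η / 10 * ‖t‖ := mul_le_mul_of_nonneg_right hε2 (norm_nonneg _)
  have h7 : 0 ≤ η * ‖t‖ := by positivity
  linarith

theorem core_sep {η : ℝ} (hη : 0 < η) : ∃ δ > 0, SepLift.{u} δ η := by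
  obtain ⟨δ₁, hδ₁, hC⟩ := core_cyc.{u} (η := η / 2) (by positivity)
  have hK := KA_pos
  set d : ℝ := min (min (δ₁ / KA ^ 2 / 2002) (η / 2000)) (1 / 1000) with hd
  have hd0 : 0 < d := lt_min (lt_min (by positivity) (by positivity)) (by positivity)
  have hd1 : d ≤ δ₁ / KA ^ 2 / 2002 := (min_le_left _ _).trans (min_le_left _ _)
  have hd2 : d ≤ η / 2000 := (min_le_left _ _).trans (min_le_right _ _)
  have hd3 : d ≤ 1 / 1000 := min_le_right _ _
  refine ⟨d / KA, by positivity, fun H _ _ _ _ M N hc => ?_⟩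
  have h1 := hc.comm (by positivity)
  rw [mul_div_cancel₀ _ hK.ne'] at h1
  obtain ⟨u, hu, hu1, hz⟩ := exists_alignZ hd0.le hd3 h1
  have h2 : Close M.commutant (cj u N.commutant) (δ₁ / KA ^ 2) :=
    (Close.trans hd0.le (by positivity) (by linarith) (by linarith) h1
      (close_cj hu hu1).symm).mono (by linarith)
  obtain ⟨F⟩ := exists_frame H ℕ 0
  have := separable_frame (H := H) ℕ 0
  obtain ⟨ξ, c1, c2⟩ := F.exists_bicyc
  have h3 := F.close_Mt (by positivity) h2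
  rw [mul_div_cancel₀ _ (by positivity)] at h3
  obtain ⟨Θ, hΘ⟩ := hC _ _ _ ξ (c1 _ fun j => F.Sc_le (F.v_mem_Sc j) _) (c2 _ (F.v'_mem' _))
    (c1 _ fun j => F.Sc_le (F.v_mem_Sc j) _) (c2 _ (F.v'_mem' _)) h3 fun z => by
      simp only [F.ctr_Mt, hz]
  have h4 : HasLift M (cj u N) (η / 2) := by
    refine ⟨F.cmp ∘ₗ Θ ∘ₗ F.lift.toAlgHom.toLinearMap, fun y hy => ?_⟩
    have hy' : y ∈ (cj u N.commutant).commutant := by
      rwa [commutant_cj hu, VonNeumannAlgebra.commutant_commutant]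
    obtain ⟨h5, h6⟩ := hΘ _ (F.lift_mem' hy')
    have h7 := F.cmp_mem' h5
    rw [VonNeumannAlgebra.commutant_commutant] at h7
    refine ⟨h7, ?_⟩
    have h8 := F.norm_cmp_le (Θ (F.lift y) - F.lift y)
    rw [map_sub, F.cmp_lift] at h8
    exact h8.trans (h6.trans (mul_le_mul_of_nonneg_left (F.norm_lift_le y) (by positivity)))
  obtain ⟨Ψ, hΨ⟩ := h4.of_cj hu hu1
  exact ⟨Ψ, fun y hy => ⟨(hΨ y hy).1,
    (hΨ y hy).2.trans (mul_le_mul_of_nonneg_right (by linarith) (norm_nonneg _))⟩⟩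

theorem near_of_ball {M N : VonNeumannAlgebra H} {δ : ℝ}
    (h : ∀ x ∈ M, ‖x‖ ≤ 1 → ∃ y ∈ N, ‖y‖ ≤ 1 ∧ ‖x - y‖ < δ) : Near M N δ := fun x hx => by
  rcases eq_or_ne x 0 with rfl | h0
  · exact ⟨0, zero_mem _, by simp⟩
  have hn : 0 < ‖x‖ := norm_pos_iff.2 h0
  have hn' : (‖x‖ : ℂ) ≠ 0 := by exact_mod_cast hn.ne'
  obtain ⟨y, hy, -, h1⟩ := h ((‖x‖ : ℂ)⁻¹ • x) (vn_smul_mem _ hx) (by
    rw [norm_smul, norm_inv, Complex.norm_real, norm_norm, inv_mul_cancel₀ hn.ne'])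
  refine ⟨(‖x‖ : ℂ) • y, vn_smul_mem _ hy, ?_⟩
  have e : x - (‖x‖ : ℂ) • y = (‖x‖ : ℂ) • ((‖x‖ : ℂ)⁻¹ • x - y) := by
    rw [smul_sub, smul_smul, mul_inv_cancel₀ hn', one_smul]
  rw [e, norm_smul, Complex.norm_real, norm_norm, mul_comm]
  exact mul_le_mul_of_nonneg_right h1.le hn.le

theorem kadison_kastler {ε : ℝ} (hε : 0 < ε) : ∃ δ > 0,
    ∀ (H : Type u) [NormedAddCommGroup H] [InnerProductSpace ℂ H] [CompleteSpace H]
      (M N : VonNeumannAlgebra H), Close M N δ →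
      ∃ u ∈ unitary (Op H), ‖u - 1‖ < ε ∧ ∀ y : Op H, y ∈ N ↔ ∃ x ∈ M, y = u * x * star u := by
  obtain ⟨η, hη, hU⟩ := unitary_of_lift.{u} hε
  obtain ⟨δ, hδ, hS⟩ := core_sep.{u} hη
  have hK := KA_pos
  refine ⟨min η (δ / KA ^ 2), lt_min hη (by positivity), fun H _ _ _ M N hc => ?_⟩
  refine hU H N M (hc.2.mono (min_le_left _ _)) (hasLift_of_sep hS hη.le
    (δ₀ := δ / KA ^ 2) (by positivity) (by rw [mul_div_cancel₀ _ (by positivity)])
    (hc.symm.mono (min_le_right _ _)))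

end Crest.Agent.R78
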