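import Crest.Agent.R78.CrossDef

/-! # R78: the crossed product: basic relations (task `CrossA`) -/

set_option autoImplicit false
set_option linter.unusedSectionVars false
open Filter Topology
open scoped InnerProductSpace

namespace Crest.Agent.R78

universe u
variable {H : Type u} [NormedAddCommGroup H] [InnerProductSpace ℂ H] [CompleteSpace H]

open MeasureTheory Complex

namespace Cross
variable {M N : VonNeumannAlgebra H} {ξ : H} (τ : Tomita M ξ) (h : ℝ)

theorem ee_add (z w : ℂ) : ee H (z + w) = ee H z * ee H w := by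
  let _ : NormedAlgebra ℚ (Op (L2 ℤ H)) := .restrictScalars ℚ ℂ _
  rw [ee, ee, ee, mul_add, add_smul]
  exact NormedSpace.exp_add_of_commute (((Commute.refl _).smul_left _).smul_right _)

theorem ee_zero : ee H 0 = 1 := by
  rw [ee, mul_zero, zero_smul, NormedSpace.exp_zero]

theorem ee_one : ee H 1 = sh H := by
  rw [ee, mul_one, exp_lsh]

theorem star_ee (z : ℂ) : star (ee H z) = ee H (-(starRingEnd ℂ) z) := by
  rw [ee, ee, NormedSpace.star_exp, star_smul, lsh_sa.star_eq]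
  congr 2
  simp

theorem ee_unitary (t : ℝ) : ee H t ∈ unitary (Op (L2 ℤ H)) := by
  rw [Unitary.mem_iff, star_ee, conj_ofReal, ← ee_add, ← ee_add, neg_add_cancel, add_neg_cancel,
    ee_zero]
  exact ⟨rfl, rfl⟩

theorem differentiable_ee : Differentiable ℂ (ee H) := by
  let _ : NormedAlgebra ℚ (Op (L2 ℤ H)) := .restrictScalars ℚ ℂ _
  exact (differentiable_exp_smul_const ℂ (lsh H)).comp (differentiable_id.const_mul I)

theorem ee_comm {X : Op (L2 ℤ H)} (hX : C2 (sh H) X) (z : ℂ) : ee H z * X = X * ee H z := by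
  exact ((show Commute (lsh H) X from lsh_comm hX).smul_left _).exp_left

theorem ee_lift (z : ℂ) (x : Op H) : ee H z * L2.lift ℤ x = L2.lift ℤ x * ee H z := by
  have e : ∀ y : Op H, sh H * L2.lift ℤ y = L2.lift ℤ y * sh H := fun y =>
    (L2.lift_emb sh_bij.1 y).symm
  refine ee_comm ⟨e x, ?_⟩ z
  have := congrArg star (e (star x))
  rw [star_mul, star_mul, ← map_star, star_star] at this
  exact this.symm

/-- `ee k = shᵏ`, induction on `k`. -/
theorem ee_int_ins (k j : ℤ) (η : H) : ee H k (L2.ins j η) = L2.ins (j + k) η := by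
  induction k using Int.induction_on generalizing j with
  | zero => simp [ee_zero]
  | succ k ih =>
    rw [Int.cast_add, Int.cast_one, ee_add, ee_one, mul_apply_eq_comp, sh_ins, ih]
    congr 2; ring
  | pred k ih =>
    have e : ee H ((-(k : ℤ) : ℤ) : ℂ) = ee H ((-(k : ℤ) - 1 : ℤ) : ℂ) * sh H := by
      rw [← ee_one, ← ee_add]; congr 1; push_cast; ring
    have := ih (j - 1)
    rw [e, mul_apply_eq_comp, sh_ins, sub_add_cancel] at this
    rw [this]
    congr 2; ring

theorem star_Gam_ins (k : ℤ) (η : H) :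
    star (Gam τ h) (L2.ins k η) = L2.ins k (τ.U (k * h) η) := by
  rw [Gam, L2.star_diag (fun _ => τ.norm_U_le _),
    L2.diag_ins (C := 1) (fun _ => by rw [norm_star]; exact τ.norm_U_le _), τ.U_star, neg_neg]

theorem pi_ins (x : Op H) (k : ℤ) (η : H) :
    pi τ h x (L2.ins k η) = L2.ins k ((τ.U (-(k * h)) * x * τ.U (k * h)) η) := by
  rw [pi_apply, mul_apply_eq_comp, mul_apply_eq_comp, star_Gam_ins, L2.lift_ins, Gam_ins]
  rfl

theorem pi_xh (x : Op H) : pi τ h x (xh ξ) = L2.ins 0 (x ξ) := by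
  rw [xh, pi_ins]
  simp [τ.U_zero]

theorem ee_int_pi' (k : ℤ) (x : Op H) :
    ee H k * pi τ h x = pi τ h (τ.U (k * h) * x * τ.U (-(k * h))) * ee H k := by
  refine L2.ext_ins fun j η => ?_
  rw [mul_apply_eq_comp, mul_apply_eq_comp, pi_ins, ee_int_ins, ee_int_ins, pi_ins]
  simp only [← mul_assoc, ← τ.U_add]
  simp only [mul_assoc, ← τ.U_add]
  congr 4 <;> push_cast <;> ring_nf

theorem sh_pi (x : Op H) : sh H * pi τ h x = pi τ h (τ.U h * x * τ.U (-h)) * sh H := by
  have := ee_int_pi' τ h 1 x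
  simpa [ee_one] using this

theorem ee_int_pi (k : ℤ) (x : Op H) :
    ee H k * pi τ h x = pi τ h (τ.U (k * h) * x * τ.U (-(k * h))) * ee H k := by
  exact ee_int_pi' τ h k x

theorem lift_Gam (s : ℝ) : L2.lift ℤ (τ.U s) * Gam τ h = Gam τ h * L2.lift ℤ (τ.U s) := by
  refine L2.ext_ins fun k η => ?_
  rw [mul_apply_eq_comp, mul_apply_eq_comp, Gam_ins, L2.lift_ins, L2.lift_ins, Gam_ins,
    ← mul_apply_eq_comp (τ.U s), ← mul_apply_eq_comp _ (τ.U s), ← τ.U_add, ← τ.U_add, add_comm]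

theorem lift_pi (s : ℝ) (x : Op H) :
    L2.lift ℤ (τ.U s) * pi τ h x * L2.lift ℤ (τ.U (-s)) = pi τ h (τ.U s * x * τ.U (-s)) := by
  refine L2.ext_ins fun k η => ?_
  rw [mul_apply_eq_comp, mul_apply_eq_comp, L2.lift_ins, pi_ins, pi_ins, L2.lift_ins,
    ← mul_apply_eq_comp _ (τ.U (-s)), ← mul_apply_eq_comp (τ.U s)]
  simp only [← mul_assoc, ← τ.U_add]
  simp only [mul_assoc, ← τ.U_add]
  rw [add_comm s, add_comm (-s)]

theorem mem_hatC {X : Op (L2 ℤ H)} :
    X ∈ hatC τ h N ↔ (∀ x ∈ N, pi τ h x * X = X * pi τ h x) ∧ C2 (sh H) X := by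
  rw [hatC, mem_vn]
  constructor
  · exact fun H' => ⟨fun x hx => (H' _ (Or.inl ⟨x, hx, rfl⟩)).1, H' _ (Or.inr rfl)⟩
  · rintro ⟨h1, h2⟩ a (⟨x, hx, rfl⟩ | rfl)
    · exact ⟨h1 x hx, by rw [← map_star]; exact h1 _ (star_mem hx)⟩
    · exact h2

theorem pi_mem {x : Op H} (hx : x ∈ N) : pi τ h x ∈ hat τ h N := by
  exact subset_comm_vn (Or.inl ⟨x, hx, rfl⟩)

theorem ee_mem (z : ℂ) : ee H z ∈ hat τ h N := by
  exact VonNeumannAlgebra.mem_commutant_iff.2 fun X hX =>
    (ee_comm ((mem_hatC τ h).1 hX).2 z).symm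

theorem ee'_one : ee' τ h 1 = sh H * L2.lift ℤ (τ.U (-h)) := by
  refine L2.ext_ins fun k η => ?_
  rw [ee', ee_one, mul_apply_eq_comp, mul_apply_eq_comp, star_Gam_ins, sh_ins, Gam_ins,
    mul_apply_eq_comp, L2.lift_ins, sh_ins, ← mul_apply_eq_comp, ← τ.U_add]
  congr 3
  push_cast; ring

theorem ee'_add (z w : ℂ) : ee' τ h (z + w) = ee' τ h z * ee' τ h w := by
  rw [ee', ee', ee', ee_add]
  simp only [mul_assoc]
  rw [← mul_assoc (star (Gam τ h)), (Gam_unitary τ h).1, one_mul]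

theorem ee'_zero : ee' τ h 0 = 1 := by
  rw [ee', ee_zero, mul_one, (Gam_unitary τ h).2]

theorem star_ee' (z : ℂ) : star (ee' τ h z) = ee' τ h (-(starRingEnd ℂ) z) := by
  rw [ee', ee', star_mul, star_mul, star_star, star_ee, mul_assoc]

theorem differentiable_ee' : Differentiable ℂ (ee' τ h) := by
  exact (differentiable_ee.const_mul _).mul_const _

theorem ee'_lift (z : ℂ) (s : ℝ) :
    ee' τ h z * L2.lift ℤ (τ.U s) = L2.lift ℤ (τ.U s) * ee' τ h z := by
  have h1 : Commute (Gam τ h) (L2.lift ℤ (τ.U s)) := (lift_Gam τ h s).symm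
  have h2 : Commute (star (Gam τ h)) (L2.lift ℤ (τ.U s)) := by
    have := (show Commute (Gam τ h) (L2.lift ℤ (τ.U (-s))) from (lift_Gam τ h (-s)).symm).star_star
    rwa [← map_star, τ.U_star, neg_neg] at this
  exact (h1.mul_left (ee_lift z _)).mul_left h2

/-- `Γ* sh Γ = sh lift (U h)` commutes with `sh`, `sh*`, hence with `ee z`. -/
theorem ee'_mem (z : ℂ) : ee' τ h z ∈ hatC τ h N := by
  have g1 := (Gam_unitary τ h).1
  have g2 := (Gam_unitary τ h).2
  have cj : ∀ Y : Op (L2 ℤ H), ee H z * Y = Y * ee H z →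
      Gam τ h * Y * star (Gam τ h) * ee' τ h z = ee' τ h z * (Gam τ h * Y * star (Gam τ h)) := by
    intro Y hY
    rw [ee']
    simp only [mul_assoc]
    rw [← mul_assoc (star (Gam τ h)), g1, one_mul, ← mul_assoc (star (Gam τ h)), g1, one_mul,
      ← mul_assoc Y, ← hY, mul_assoc]
  have e : Gam τ h * (sh H * L2.lift ℤ (τ.U h)) * star (Gam τ h) = sh H := by
    refine L2.ext_ins fun k η => ?_
    rw [mul_apply_eq_comp, mul_apply_eq_comp, star_Gam_ins, mul_apply_eq_comp, L2.lift_ins, sh_ins,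
      Gam_ins, sh_ins, ← mul_apply_eq_comp, ← mul_apply_eq_comp, ← τ.U_add, ← τ.U_add,
      show -(((k + 1 : ℤ) : ℝ) * h) + h + k * h = 0 by push_cast; ring, τ.U_zero]
    rfl
  have hs : ∀ w : ℂ, Commute (ee H z) (ee H w) := fun w => by
    rw [Commute, SemiconjBy, ← ee_add, ← ee_add, add_comm]
  refine (mem_hatC τ h).2 ⟨fun x _ => cj _ (ee_lift z x), ?_, ?_⟩
  · have := cj _ ((hs 1).mul_right (ee_lift z (τ.U h)))
    rwa [ee_one, e] at this
  · have := cj _ ((show Commute (ee H z) (L2.lift ℤ (star (τ.U h))) from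
      ee_lift z _).mul_right (hs (-(starRingEnd ℂ) 1)))
    have e' := congrArg star e
    rw [star_mul, star_mul, star_star, ← mul_assoc] at e'
    rwa [← star_ee, ee_one, map_star, ← star_mul, e'] at this

/-- `lift (U s)` fixes `ee z ξ̂`, so all its coordinates are fixed by `U s`. -/
theorem Gam_ee_xh (z : ℂ) : Gam τ h (ee H z (xh ξ)) = ee H z (xh ξ) := by
  refine L2.ext_ev fun k => ?_
  rw [Gam, L2.ev_diag (fun _ => τ.norm_U_le _), ← L2.ev_lift, ← mul_apply_eq_comp, ← ee_lift,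
    mul_apply_eq_comp, xh, L2.lift_ins, τ.U_xi]

theorem ee'_xh (z : ℂ) : ee' τ h z (xh ξ) = ee H z (xh ξ) := by
  rw [ee', mul_apply_eq_comp, mul_apply_eq_comp, xh, star_Gam_ins, τ.U_xi]
  exact Gam_ee_xh τ h z

/-- If `U (± h)` normalise `N` then so do all `U (k h)`; use `pi_ins`. -/
theorem lift_mem_hatC (hN : ∀ y ∈ N, τ.U h * y * τ.U (-h) ∈ N ∧ τ.U (-h) * y * τ.U h ∈ N)
    {t : Op H} (ht : t ∈ N.commutant) : L2.lift ℤ t ∈ hatC τ h N := by
  have hk : ∀ k : ℤ, ∀ y ∈ N, τ.U (-(k * h)) * y * τ.U (k * h) ∈ N := by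
    intro k
    induction k using Int.induction_on with
    | zero => intro y hy; simpa [τ.U_zero] using hy
    | succ k ih =>
      intro y hy
      have := (hN _ (ih y hy)).2
      simp only [← mul_assoc, ← τ.U_add] at this
      simp only [mul_assoc, ← τ.U_add] at this ⊢
      convert this using 3 <;> push_cast <;> ring_nf
    | pred k ih =>
      intro y hy
      have := (hN _ (ih y hy)).1
      simp only [← mul_assoc, ← τ.U_add] at this
      simp only [mul_assoc, ← τ.U_add] at this ⊢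
      convert this using 3 <;> push_cast <;> ring_nf
  have e : ∀ y : Op H, sh H * L2.lift ℤ y = L2.lift ℤ y * sh H := fun y =>
    (L2.lift_emb sh_bij.1 y).symm
  refine (mem_hatC τ h).2 ⟨fun x hx => L2.ext_ins fun k η => ?_, e t, ?_⟩
  · rw [mul_apply_eq_comp, mul_apply_eq_comp, L2.lift_ins, pi_ins, pi_ins, L2.lift_ins,
      ← mul_apply_eq_comp _ t, ← mul_apply_eq_comp t, comm_of_mem (hk k x hx) ht]
  · have := congrArg star (e (star t))
    rw [star_mul, star_mul, ← map_star, star_star] at this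
    exact this.symm

theorem normal_self : ∀ y ∈ M, τ.U h * y * τ.U (-h) ∈ M ∧ τ.U (-h) * y * τ.U h ∈ M :=
  fun y hy => ⟨τ.U_mem h y hy, by simpa only [neg_neg] using τ.U_mem (-h) y hy⟩

/-- `ee k (π x) ξ̂ = ins k (x ξ)`; the closure of `M̂ ξ̂` is a closed subspace containing all
`ins k η`. -/
theorem cyc_xh : Cyc (hat τ h M) (xh ξ) := by
  let L : Submodule ℂ (L2 ℤ H) :=
    (Subalgebra.toSubmodule (hat τ h M).toStarSubalgebra.toSubalgebra).map
      (ContinuousLinearMap.apply ℂ (L2 ℤ H) (xh ξ) : Op (L2 ℤ H) →ₗ[ℂ] L2 ℤ H)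
  have h1 : ∀ k η, L2.ins k η ∈ L.topologicalClosure := fun k η => by
    refine Dense.induction τ.cyc (P := fun η => L2.ins k η ∈ L.topologicalClosure) ?_
      (L.isClosed_topologicalClosure.preimage (L2.ins k).continuous) η
    rintro _ ⟨x, hx, rfl⟩
    refine L.le_topologicalClosure ⟨ee H k * pi τ h x,
      show _ ∈ hat τ h M from mul_mem (ee_mem τ h k) (pi_mem τ h hx), ?_⟩
    change (ee H k * pi τ h x) (xh ξ) = _
    rw [mul_apply_eq_comp, pi_xh, ee_int_ins, zero_add]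
  intro f
  exact L.isClosed_topologicalClosure.mem_of_tendsto (L2.hasSum_ins f)
    (.of_forall fun s => Submodule.sum_mem _ fun k _ => h1 k _)

theorem cyc_zeta : Cyc (hat τ h M) (zeta ξ h) := by
  refine (cyc_xh τ h).mono ?_
  rintro _ ⟨x, hx, rfl⟩
  refine ⟨x * ee H (-(I / (2 * h))), mul_mem hx (ee_mem τ h _), ?_⟩
  change (x * ee H (-(I / (2 * h)))) (ee H (I / (2 * h)) (xh ξ)) = x (xh ξ)
  rw [← mul_apply_eq_comp, mul_assoc, ← ee_add, neg_add_cancel, ee_zero, mul_one]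

end Cross

end Crest.Agent.R78
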