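import Crest.Agent.R78.CrossA

/-! # R78: the periodic group and the expectation (task `CrossB`) -/

set_option autoImplicit false
set_option linter.unusedSectionVars false
open Filter Topology
open scoped InnerProductSpace

namespace Crest.Agent.R78

universe u
variable {H : Type u} [NormedAddCommGroup H] [InnerProductSpace ℂ H] [CompleteSpace H]

open MeasureTheory Complex

namespace Cross
variable {M N : VonNeumannAlgebra H} {ξ : H} (τ : Tomita M ξ) (h : ℝ)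

theorem cb_LE (s : ℝ) (z : ℂ) : Commute (L2.lift ℤ (τ.U s)) (ee H z) := (ee_lift z _).symm

theorem cb_LE' (s : ℝ) (z : ℂ) : Commute (L2.lift ℤ (τ.U s)) (ee' τ h z) := (ee'_lift τ h z s).symm

theorem cb_EE' (z w : ℂ) : Commute (ee H z) (ee' τ h w) :=
  comm_of_mem (ee_mem τ h (N := M) z) (by rw [commutant_hat]; exact ee'_mem τ h w)

theorem cb_EE (z w : ℂ) : Commute (ee H z) (ee H w) := by
  rw [Commute, SemiconjBy, ← ee_add, ← ee_add, add_comm]

theorem cb_L_unitary (s : ℝ) : L2.lift ℤ (τ.U s) ∈ unitary (Op (L2 ℤ H)) :=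
  ⟨by rw [← map_star, ← map_mul, (τ.U_unitary s).1, map_one],
    by rw [← map_star, ← map_mul, (τ.U_unitary s).2, map_one]⟩

theorem cb_star_L (s : ℝ) : star (L2.lift ℤ (τ.U s)) = L2.lift ℤ (τ.U (-s)) := by
  rw [← map_star, τ.U_star]

theorem cb_cont_L (η : L2 ℤ H) : Continuous fun s => L2.lift ℤ (τ.U s) η :=
  continuous_iff_continuousAt.2 fun s => L2.tendsto_diag (f := fun s _ => τ.U s)
    (g := fun _ => τ.U s) (fun s _ => τ.norm_U_le s) (fun _ => τ.norm_U_le s)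
    (fun _ ζ => (τ.U_cont ζ).tendsto s) η

theorem DD_add (s t : ℝ) : DD τ h (s + t) = DD τ h s * DD τ h t := by
  rw [DD, DD, DD, add_mul, τ.U_add, map_mul, ofReal_add, neg_add, ee_add, ee'_add]
  have h1 := (cb_LE τ (t * h) (-s)).eq
  have h2 := (cb_LE' τ h (t * h) s).eq
  have h3 := (cb_EE' τ h (-t) s).eq
  simp only [mul_assoc]
  rw [← mul_assoc (ee' τ h s), ← h2, mul_assoc, ← mul_assoc (ee H (-s)) (L2.lift ℤ _), ← h1,
    mul_assoc, ← mul_assoc (ee' τ h s), ← h3, mul_assoc]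

theorem DD_zero : DD τ h 0 = 1 := by
  rw [DD, zero_mul, τ.U_zero, map_one, ofReal_zero, neg_zero, ee_zero, ee'_zero, one_mul, one_mul]

theorem DD_one : DD τ h 1 = 1 := by
  rw [DD, one_mul, ofReal_one, ee'_one, ← ee_one, mul_assoc, ← mul_assoc (ee H _), ← ee_add,
    neg_add_cancel, ee_zero, one_mul, ← map_mul, τ.U_mul_neg, map_one]

theorem star_DD (t : ℝ) : star (DD τ h t) = DD τ h (-t) := by
  rw [DD, DD, star_mul, star_mul, star_ee, star_ee', cb_star_L, map_neg, conj_ofReal, ofReal_neg,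
    neg_mul, ← (cb_LE τ _ _).eq, ← ((cb_LE' τ h _ _).mul_left (cb_EE' τ h _ _)).eq]

theorem DD_unitary (t : ℝ) : DD τ h t ∈ unitary (Op (L2 ℤ H)) := by
  exact ⟨by rw [star_DD, ← DD_add, neg_add_cancel, DD_zero],
    by rw [star_DD, ← DD_add, add_neg_cancel, DD_zero]⟩

theorem SC_DD : SC (DD τ h) 1 := by
  have hc : ∀ η, Continuous fun t => DD τ h t η := fun η => by
    have h1 := (differentiable_ee (H := H)).continuous
    have h2 := (differentiable_ee' τ h).continuous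
    refine continuous_apply_of_bd (F := fun t => L2.lift ℤ (τ.U (t * h))) (C := 1)
      (v := fun t : ℝ => ee H (-t) (ee' τ h t η)) (fun t => norm_unitary_le (cb_L_unitary τ _))
      (fun ζ => (cb_cont_L τ ζ).comp (by fun_prop)) (by fun_prop)
  refine ⟨fun t => norm_unitary_le (DD_unitary τ h t), hc, fun η => ?_⟩
  simp only [star_DD]
  exact (hc η).comp continuous_neg

theorem DD_xh (t : ℝ) : DD τ h t (xh ξ) = xh ξ := by
  rw [DD, mul_apply_eq_comp, mul_apply_eq_comp, ee'_xh, ← mul_apply_eq_comp (ee H _), ← ee_add,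
    neg_add_cancel, ee_zero, one_apply_eq_self, xh, L2.lift_ins, τ.U_xi]

theorem cb_L_hatC (s : ℝ) {y : Op (L2 ℤ H)} (hy : y ∈ hatC τ h M) :
    star (L2.lift ℤ (τ.U s)) * y * L2.lift ℤ (τ.U s) ∈ hatC τ h M := by
  have hu := cb_L_unitary τ s
  rw [mem_hatC] at hy ⊢
  refine ⟨fun x hx => ?_, ?_⟩
  · have h1 := conj_comm' hu (hy.1 _ (τ.U_mem s x hx))
    rwa [← lift_pi, ← cb_star_L, conj_conj' hu] at h1
  · have c1 : ∀ s, Commute (sh H) (L2.lift ℤ (τ.U s)) := fun s => by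
      rw [← ee_one]; exact (cb_LE τ s 1).symm
    have c2 : ∀ s, Commute (star (sh H)) (L2.lift ℤ (τ.U s)) := fun s => by
      rw [← ee_one, star_ee]; exact (cb_LE τ s _).symm
    rw [cb_star_L]
    exact ⟨(((c1 _).mul_right hy.2.1).mul_right (c1 _)).eq,
      (((c2 _).mul_right hy.2.2).mul_right (c2 _)).eq⟩

theorem cb_L_hat (s : ℝ) {y : Op (L2 ℤ H)} (hy : y ∈ hat τ h M) :
    L2.lift ℤ (τ.U s) * y * star (L2.lift ℤ (τ.U s)) ∈ hat τ h M := by
  have hu := cb_L_unitary τ s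
  refine VonNeumannAlgebra.mem_commutant_iff.2 fun g hg => ?_
  have h1 := conj_comm hu (comm_of_mem (cb_L_hatC τ h s hg) hy)
  rwa [conj_conj hu] at h1

/-- `lift (U s)` normalises `hatC M` (`lift_pi`), hence `hat M`; `ee` is in `hat M`, `ee'` in its
commutant. -/
theorem DD_mem (t : ℝ) {y : Op (L2 ℤ H)} (hy : y ∈ hat τ h M) :
    DD τ h t * y * star (DD τ h t) ∈ hat τ h M := by
  have h1 : ee' τ h t * y = y * ee' τ h t := comm_of_mem (ee'_mem τ h t) hy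
  have h2 : ee' τ h t * star (ee' τ h t) = 1 := by
    rw [star_ee', conj_ofReal, ← ee'_add, add_neg_cancel, ee'_zero]
  have e : DD τ h t * y * star (DD τ h t) = L2.lift ℤ (τ.U (t * h)) *
      (ee H (-t) * y * star (ee H (-t))) * star (L2.lift ℤ (τ.U (t * h))) := by
    rw [DD, star_mul, star_mul, mul_assoc _ (ee' τ h t), h1]
    simp only [mul_assoc]
    rw [← mul_assoc (ee' τ h t), h2, one_mul]
  rw [e]
  exact cb_L_hat τ h _ (mul_mem (mul_mem (ee_mem τ h _) hy) (star_mem (ee_mem τ h _)))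

theorem mem_PP {y : Op (L2 ℤ H)} :
    y ∈ PP τ h ↔ y ∈ hat τ h M ∧ ∀ t, DD τ h t * y = y * DD τ h t := by
  rw [PP, mem_vn]
  constructor
  · exact fun H => ⟨VonNeumannAlgebra.mem_commutant_iff.2 fun g hg => (H g (Or.inl hg)).1,
      fun t => (H _ (Or.inr ⟨t, rfl⟩)).1⟩
  · rintro ⟨h1, h2⟩ a (ha | ⟨t, rfl⟩)
    · exact ⟨comm_of_mem ha h1, comm_of_mem (star_mem ha) h1⟩
    · exact ⟨h2 t, by rw [star_DD]; exact h2 _⟩

theorem ee_mem_PP (z : ℂ) : ee H z ∈ PP τ h := by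
  exact (mem_PP τ h).2 ⟨ee_mem τ h z, fun t =>
    (((cb_LE τ _ z).mul_left (cb_EE _ z)).mul_left (cb_EE' τ h z t).symm).eq⟩

theorem cb_int : Integrable ((Set.Icc (0 : ℝ) 1).indicator fun _ => (1 : ℂ)) :=
  (continuous_const.integrableOn_Icc).integrable_indicator measurableSet_Icc

theorem cb_SC (y : Op (L2 ℤ H)) :
    SC (fun t => DD τ h t * y * star (DD τ h t)) (1 * ‖y‖ * 1) :=
  ((SC_DD τ h).mul (SC.const y)).mul (SC_DD τ h).star

theorem cb_inner_star (X : Op H) (η ζ : H) : ⟪η, X ζ⟫_ℂ = ⟪star X η, ζ⟫_ℂ :=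
  (ContinuousLinearMap.adjoint_inner_left X ζ η).symm

theorem inner_EE (y : Op (L2 ℤ H)) (η ζ : L2 ℤ H) : ⟪ζ, EE τ h y η⟫_ℂ =
    ∫ t in (0 : ℝ)..1, ⟪ζ, (DD τ h t * y * star (DD τ h t)) η⟫_ℂ := by
  rw [EE, inner_sint cb_int (cb_SC τ h y), intervalIntegral.integral_of_le zero_le_one,
    ← integral_Icc_eq_integral_Ioc, ← integral_indicator measurableSet_Icc]
  refine integral_congr_ae (.of_forall fun t => ?_)
  by_cases ht : t ∈ Set.Icc (0 : ℝ) 1
  · simp only [Set.indicator_of_mem ht, one_mul]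
  · simp only [Set.indicator_of_notMem ht, zero_mul]

/-- Periodicity: `Function.Periodic.intervalIntegral_add_eq`. -/
theorem EE_mem {y : Op (L2 ℤ H)} (hy : y ∈ hat τ h M) : EE τ h y ∈ PP τ h := by
  refine (mem_PP τ h).2 ⟨sint_mem cb_int (cb_SC τ h y) fun t => DD_mem τ h t hy, fun s => ?_⟩
  have key : DD τ h s * EE τ h y * star (DD τ h s) = EE τ h y := by
    refine ContinuousLinearMap.ext fun η => ext_inner_left ℂ fun ζ => ?_
    have hp : Function.Periodic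
        (fun t => ⟪ζ, (DD τ h t * y * star (DD τ h t)) η⟫_ℂ) 1 := fun t => by
      simp only [DD_add, DD_one, mul_one]
    have h1 := hp.intervalIntegral_add_eq (0 + s) 0
    rw [add_right_comm, ← intervalIntegral.integral_comp_add_right, zero_add] at h1
    rw [inner_EE τ h y η, ← h1, mul_apply_eq_comp, mul_apply_eq_comp, cb_inner_star, inner_EE]
    refine intervalIntegral.integral_congr fun t _ => ?_
    simp only [add_comm t s, DD_add, star_mul, mul_apply_eq_comp]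
    rw [cb_inner_star (DD τ h s)]
  calc DD τ h s * EE τ h y = DD τ h s * EE τ h y * star (DD τ h s) * DD τ h s := by
        rw [mul_assoc _ (star _), (DD_unitary τ h s).1, mul_one]
    _ = _ := by rw [key]

theorem EE_add (y y' : Op (L2 ℤ H)) : EE τ h (y + y') = EE τ h y + EE τ h y' := by
  rw [EE, EE, EE, ← sint_add cb_int (cb_SC τ h y) (cb_SC τ h y')]
  simp only [mul_add, add_mul]

theorem EE_smul (c : ℂ) (y : Op (L2 ℤ H)) : EE τ h (c • y) = c • EE τ h y := by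
  refine ContinuousLinearMap.ext fun η => ext_inner_left ℂ fun ζ => ?_
  rw [smul_apply, inner_smul_right, inner_EE, inner_EE, ← intervalIntegral.integral_const_mul]
  simp only [mul_smul_comm, smul_mul_assoc, smul_apply, inner_smul_right]

theorem EE_nonneg (y : Op (L2 ℤ H)) : 0 ≤ EE τ h (star y * y) := by
  rw [ContinuousLinearMap.nonneg_iff_isPositive, ContinuousLinearMap.isPositive_iff_complex]
  intro η
  have e : ⟪η, EE τ h (star y * y) η⟫_ℂ =
      ((∫ t in (0 : ℝ)..1, ‖y (star (DD τ h t) η)‖ ^ 2 : ℝ) : ℂ) := by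
    rw [inner_EE, ← intervalIntegral.integral_ofReal]
    refine intervalIntegral.integral_congr fun t _ => ?_
    simp only [mul_apply_eq_comp]
    rw [cb_inner_star, cb_inner_star (star y), star_star, inner_self_eq_norm_sq_to_K]
    simp
  rw [← inner_conj_symm, e, conj_ofReal, RCLike.re_to_complex, ofReal_re]
  exact ⟨rfl, intervalIntegral.integral_nonneg zero_le_one fun _ _ => sq_nonneg _⟩

theorem inner_xh_EE (y : Op (L2 ℤ H)) : ⟪xh ξ, EE τ h y (xh ξ)⟫_ℂ = ⟪xh ξ, y (xh ξ)⟫_ℂ := by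
  rw [inner_EE]
  simp only [mul_apply_eq_comp, cb_inner_star (DD τ h _), star_DD, DD_xh,
    intervalIntegral.integral_const, sub_zero, one_smul]

/-- `psi` as a linear functional. -/
noncomputable def psiL (T : Op (L2 ℤ H)) : Op H →ₗ[ℂ] ℂ where
  toFun := psi τ h T
  map_add' a b := by simp only [psi, map_add, EE_add, add_apply, inner_add_right]
  map_smul' c a := by
    simp only [psi, map_smul, EE_smul, smul_apply, inner_smul_right, RingHom.id_apply, smul_eq_mul]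

theorem psiL_apply (T : Op (L2 ℤ H)) (m : Op H) : psiL τ h T m = psi τ h T m := rfl

theorem cb_sqrt {P : VonNeumannAlgebra H} {e : Op H} (he : e ∈ P) (h0 : 0 ≤ e) :
    ∃ d ∈ P, star d = d ∧ e = d * d := by
  refine ⟨cfc (fun r : ℝ => √r) e, mem_of_comm fun y hy =>
    ((show Commute e y from comm_of_mem he hy).cfc_real _).symm.eq,
    (cfc_predicate (fun r : ℝ => √r) e).star_eq, ?_⟩
  rw [← cfc_mul _ _ e]
  nth_rewrite 1 [← cfc_id' ℝ e]
  exact cfc_congr fun r hr => (Real.mul_self_sqrt (spectrum_nonneg_of_nonneg h0 hr)).symm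

theorem cb_sq {T : Op (L2 ℤ H)} (hT : Mod (PP τ h) (zeta ξ h) T) {m : Op H} (hm : m ∈ M) :
    ‖psi τ h T (star m * m)‖ ≤ ‖T‖ * ‖m ξ‖ ^ 2 := by
  have hc := ee_mem_PP τ h (-(I / (2 * h)))
  have hx : xh ξ = ee H (-(I / (2 * h))) (zeta ξ h) := by
    rw [zeta, ← mul_apply_eq_comp, ← ee_add, neg_add_cancel, ee_zero, one_apply_eq_self]
  have he : EE τ h (pi τ h (star m * m)) ∈ PP τ h :=
    EE_mem τ h (pi_mem τ h (mul_mem (star_mem hm) hm))
  have h0 : 0 ≤ EE τ h (pi τ h (star m * m)) := by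
    rw [map_mul, map_star]; exact EE_nonneg τ h _
  have hn : ⟪xh ξ, EE τ h (pi τ h (star m * m)) (xh ξ)⟫_ℂ = ((‖m ξ‖ ^ 2 : ℝ) : ℂ) := by
    rw [inner_xh_EE, map_mul, map_star, mul_apply_eq_comp, cb_inner_star, star_star, pi_xh,
      inner_self_eq_norm_sq_to_K, L2.norm_ins]
    simp
  rw [psi]
  generalize EE τ h (pi τ h (star m * m)) = e at he h0 hn
  obtain ⟨d, hd, hs, rfl⟩ := cb_sqrt he h0
  have k1 := hT _ hc _ (mul_mem (mul_mem hd hd) hc)
  have k2 := hT _ (mul_mem hd hc) _ (mul_mem hd hc)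
  simp only [star_mul, hs, mul_assoc] at k1 k2
  rw [← k2] at k1
  simp only [mul_apply_eq_comp, ← hx] at k1 hn ⊢
  rw [cb_inner_star, hs, inner_self_eq_norm_sq_to_K] at hn
  have h3 : ‖d (xh ξ)‖ ^ 2 = ‖m ξ‖ ^ 2 := by
    refine Complex.ofReal_injective ?_
    rw [← hn]
    simp
  rw [k1, ← h3]
  refine (norm_inner_le_norm _ _).trans ?_
  rw [sq, mul_left_comm]
  exact mul_le_mul_of_nonneg_left (T.le_opNorm _) (norm_nonneg _)

theorem cb_pol {T : Op (L2 ℤ H)} (hT : Mod (PP τ h) (zeta ξ h) T) {m₁ m₂ : Op H}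
    (h1 : m₁ ∈ M) (h2 : m₂ ∈ M) :
    ‖psi τ h T (star m₂ * m₁)‖ ≤ ‖T‖ * (‖m₁ ξ‖ ^ 2 + ‖m₂ ξ‖ ^ 2) := by
  have e : (4 : ℂ) • (star m₂ * m₁) = star (m₁ + m₂) * (m₁ + m₂) - star (m₁ - m₂) * (m₁ - m₂) +
      I • (star (m₁ + I • m₂) * (m₁ + I • m₂)) - I • (star (m₁ - I • m₂) * (m₁ - I • m₂)) := by
    simp only [star_add, star_sub, star_smul, Complex.star_def, conj_I, mul_add, add_mul, mul_sub,
      sub_mul, smul_mul_assoc, mul_smul_comm]
    match_scalars <;> ring_nf <;> simp <;> norm_num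
  have e' := congrArg (fun x => ‖psiL τ h T x‖) e
  simp only [map_add, map_sub, map_smul, psiL_apply, smul_eq_mul, norm_mul, Complex.norm_ofNat]
    at e'
  have a1 := cb_sq τ h hT (add_mem h1 h2)
  have a2 := cb_sq τ h hT (sub_mem h1 h2)
  have a3 := cb_sq τ h hT (add_mem h1 (vn_smul_mem I h2))
  have a4 := cb_sq τ h hT (sub_mem h1 (vn_smul_mem I h2))
  have p1 := parallelogram_law_with_norm ℂ (m₁ ξ) (m₂ ξ)
  have p2 := parallelogram_law_with_norm ℂ (m₁ ξ) (I • m₂ ξ)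
  rw [norm_smul, norm_I, one_mul] at p2
  simp only [add_apply, sub_apply, smul_apply] at a1 a2 a3 a4
  have t : ∀ a b c d : ℂ, ‖a - b + I * c - I * d‖ ≤ ‖a‖ + ‖b‖ + ‖c‖ + ‖d‖ := fun a b c d => by
    refine (norm_sub_le _ _).trans (add_le_add ((norm_add_le _ _).trans
      (add_le_add (norm_sub_le _ _) ?_)) ?_) <;> simp
  have t1 := e'.trans_le (t _ _ _ _)
  have q1 := congrArg (‖T‖ * ·) p1
  have q2 := congrArg (‖T‖ * ·) p2
  simp only [mul_add] at q1 q2 ⊢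
  nlinarith

/-- `ξ̂ = c ζ` with `c = ee (-(i / (2 h))) ∈ P`.  For `m ∈ M`, `E (π (m* m)) = d* d` with `d ∈ P`
(`CFC.sqrt` or `cfc √`, it commutes with `P'`), `Mod` twice gives
`psi T (m* m) = ⟪d ξ̂, T d ξ̂⟫`, of modulus `≤ ‖T‖ ‖d ξ̂‖² = ‖T‖ ‖m ξ‖²`.  Polarisation gives
`≤ ‖T‖ (‖m₁ ξ‖² + ‖m₂ ξ‖²)`; rescale `m₁ ↦ r m₁`, `m₂ ↦ r⁻¹ m₂`. -/
theorem norm_psi_le {T : Op (L2 ℤ H)} (hT : Mod (PP τ h) (zeta ξ h) T) {m₁ m₂ : Op H}
    (h1 : m₁ ∈ M) (h2 : m₂ ∈ M) :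
    ‖psi τ h T (star m₂ * m₁)‖ ≤ 2 * ‖T‖ * ‖m₁ ξ‖ * ‖m₂ ξ‖ := by
  have z : psi τ h T 0 = 0 := (psiL τ h T).map_zero
  rcases eq_or_ne (m₁ ξ) 0 with e1 | e1
  · rw [τ.cyc'.sep h1 e1, mul_zero, z, norm_zero]; positivity
  rcases eq_or_ne (m₂ ξ) 0 with e2 | e2
  · rw [τ.cyc'.sep h2 e2, star_zero, zero_mul, z, norm_zero]; positivity
  have n1 := norm_pos_iff.2 e1
  have n2 := norm_pos_iff.2 e2
  have k := cb_pol τ h hT (vn_smul_mem ((‖m₁ ξ‖⁻¹ : ℝ) : ℂ) h1) (vn_smul_mem ((‖m₂ ξ‖⁻¹ : ℝ) : ℂ) h2)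
  rw [star_smul, smul_mul_smul_comm, ← psiL_apply, map_smul, psiL_apply, smul_apply, smul_apply] at k
  simp only [norm_smul, norm_mul, norm_star, Complex.norm_real, norm_inv, norm_norm,
    inv_mul_cancel₀ n1.ne', inv_mul_cancel₀ n2.ne'] at k
  rw [← mul_inv, inv_mul_le_iff₀ (by positivity)] at k
  linarith

/-- `exists_rn` on the submodule of module maps; linear by uniqueness (`Cyc.ext`,
`norm_le_of_cyc`); `LinearMap.exists_extend`. -/
theorem exists_Lam : ∃ Λ : Op (L2 ℤ H) →ₗ[ℂ] Op H, ∀ T, Mod (PP τ h) (zeta ξ h) T →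
    Λ T ∈ M.commutant ∧ ‖Λ T‖ ≤ 2 * ‖T‖ ∧
      ∀ m₁ ∈ M, ∀ m₂ ∈ M, ⟪m₂ ξ, Λ T (m₁ ξ)⟫_ℂ = psi τ h T (star m₂ * m₁) := by
  let S : Submodule ℂ (Op (L2 ℤ H)) :=
    { carrier := {T | Mod (PP τ h) (zeta ξ h) T}
      add_mem' := fun {a b} ha hb x hx y hy => by
        rw [add_apply, add_apply, inner_add_right, inner_add_right, ha x hx y hy, hb x hx y hy]
      zero_mem' := fun x hx y hy => by simp
      smul_mem' := fun c a ha x hx y hy => by
        rw [smul_apply, smul_apply, inner_smul_right, inner_smul_right, ha x hx y hy] }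
  have k : ∀ T : S, ∃ L ∈ M.commutant, ‖L‖ ≤ 2 * ‖(T : Op (L2 ℤ H))‖ ∧
      ∀ m₁ ∈ M, ∀ m₂ ∈ M, ⟪m₂ ξ, L (m₁ ξ)⟫_ℂ = psi τ h T (star m₂ * m₁) := fun T =>
    exists_rn τ.cyc (psiL τ h T) (by positivity) fun m₁ h1 m₂ h2 => norm_psi_le τ h T.2 h1 h2
  choose L l1 l2 l3 using k
  obtain ⟨Λ, hΛ⟩ := LinearMap.exists_extend (p := S)
    (⟨⟨L, fun a b => τ.cyc.ext fun m₁ h1 => τ.cyc.ext_vec fun m₂ h2 => by
      rw [add_apply, inner_add_right, l3 _ _ h1 _ h2, l3 _ _ h1 _ h2, l3 _ _ h1 _ h2]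
      simp only [psi, Submodule.coe_add, add_apply, inner_add_right]⟩,
      fun c a => τ.cyc.ext fun m₁ h1 => τ.cyc.ext_vec fun m₂ h2 => by
        rw [RingHom.id_apply, smul_apply, inner_smul_right, l3 _ _ h1 _ h2, l3 _ _ h1 _ h2]
        simp only [psi, Submodule.coe_smul, smul_apply, inner_smul_right]⟩ : S →ₗ[ℂ] Op H)
  refine ⟨Λ, fun T hT => ?_⟩
  have e : Λ T = L ⟨T, hT⟩ := DFunLike.congr_fun hΛ ⟨T, hT⟩
  rw [e]
  exact ⟨l1 _, l2 _, l3 _⟩

theorem mod_lift {x : Op H} (hx : x ∈ M.commutant) :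
    Mod (PP τ h) (zeta ξ h) (L2.lift ℤ x) := by
  intro a _ b hb
  have h1 : L2.lift ℤ x * b = b * L2.lift ℤ x :=
    comm_of_mem (lift_mem_hatC τ h (normal_self τ h) hx) ((mem_PP τ h).1 hb).1
  rw [← mul_apply_eq_comp, h1, mul_apply_eq_comp, cb_inner_star, mul_apply_eq_comp]

theorem Mod_sub {P : VonNeumannAlgebra H} {ζ : H} {T T' : Op H} (h : Mod P ζ T) (h' : Mod P ζ T') :
    Mod P ζ (T - T') := by
  intro x hx y hy
  rw [sub_apply, sub_apply, inner_sub_right, inner_sub_right, h x hx y hy, h' x hx y hy]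

/-- `psi (lift x) m = ∫₀¹ ⟪ξ̂, lift x D_t (ins 0 (m ξ))⟫` (`DD_xh`, `pi_xh`),
`D_t (ins 0 η) = lift (U (t h)) ee (-t) Γ_h ee t (ins 0 η) → ins 0 η` as `h → 0` for each `t`
(`L2.tendsto_diag`); dominated convergence
(`intervalIntegral.tendsto_integral_filter_of_dominated_convergence`). -/
theorem tendsto_psi (x m : Op H) :
    Tendsto (fun h => psi τ h (L2.lift ℤ x) m) (𝓝 0) (𝓝 ⟪ξ, x (m ξ)⟫_ℂ) := by
  have e : ∀ h, psi τ h (L2.lift ℤ x) m = ∫ t in (0 : ℝ)..1,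
      ⟪L2.ins (0 : ℤ) (star x ξ), DD τ h t (L2.ins 0 (m ξ))⟫_ℂ := fun h => by
    rw [psi, cb_inner_star, inner_EE, ← map_star]
    simp only [mul_apply_eq_comp, star_DD, DD_xh, pi_xh]
    rw [xh, L2.lift_ins]
  have e' : ⟪ξ, x (m ξ)⟫_ℂ = ∫ t in (0 : ℝ)..1,
      ⟪L2.ins (0 : ℤ) (star x ξ), L2.ins (0 : ℤ) (m ξ)⟫_ℂ := by
    rw [intervalIntegral.integral_const, sub_zero, one_smul, L2.inner_ins_left, L2.ev_ins,
      cb_inner_star]
  simp only [e]
  rw [e']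
  refine intervalIntegral.tendsto_integral_filter_of_dominated_convergence
    (fun _ => ‖L2.ins (0 : ℤ) (star x ξ)‖ * (1 * ‖L2.ins (0 : ℤ) (m ξ)‖))
    (.of_forall fun h => (continuous_const.inner ((SC_DD τ h).cont _)).aestronglyMeasurable)
    (.of_forall fun h => .of_forall fun t _ => (norm_inner_le_norm _ _).trans
      (mul_le_mul_of_nonneg_left ((SC_DD τ h).norm_apply_le t _) (norm_nonneg _)))
    intervalIntegrable_const (.of_forall fun t _ => tendsto_const_nhds.inner ?_)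
  generalize m ξ = η
  have g0 : ∀ h, star (Gam τ h) (L2.ins 0 η) = L2.ins 0 η := fun h => by
    have : Gam τ h (L2.ins 0 η) = L2.ins 0 η := by
      rw [Gam_ins]; simp [τ.U_zero]
    nth_rewrite 1 [← this]
    rw [← mul_apply_eq_comp, (Gam_unitary τ h).1, one_apply_eq_self]
  have g1 : ∀ v, Tendsto (fun h => Gam τ h v) (𝓝 0) (𝓝 v) := fun v => by
    have := L2.tendsto_diag (l := 𝓝 (0 : ℝ)) (f := fun h (k : ℤ) => τ.U (-(k * h)))
      (g := fun _ => 1) (C := 1) (fun _ _ => τ.norm_U_le _)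
      (fun _ => ContinuousLinearMap.norm_id_le) (fun k ζ => by
        have h1 : Continuous fun h : ℝ => τ.U (-(k * h)) ζ := (τ.U_cont ζ).comp (by fun_prop)
        simpa [τ.U_zero] using h1.tendsto 0) v
    rwa [L2.diag_one] at this
  have g2 : Tendsto (fun h => ee H (-t) (Gam τ h (ee H t (L2.ins 0 η)))) (𝓝 0)
      (𝓝 (L2.ins 0 η)) := by
    have := ((ee H (-t)).continuous.tendsto _).comp (g1 (ee H t (L2.ins 0 η)))
    rwa [← mul_apply_eq_comp, ← ee_add, neg_add_cancel, ee_zero, one_apply_eq_self] at this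
  have g3 : Tendsto (fun h => L2.lift ℤ (τ.U (t * h)) (L2.ins 0 η)) (𝓝 0) (𝓝 (L2.ins 0 η)) := by
    have h1 : Continuous fun h : ℝ => L2.lift ℤ (τ.U (t * h)) (L2.ins 0 η) :=
      (cb_cont_L τ _).comp (by fun_prop)
    simpa [τ.U_zero] using h1.tendsto 0
  have g4 : Tendsto (fun h => L2.lift ℤ (τ.U (t * h))
      (ee H (-t) (Gam τ h (ee H t (L2.ins 0 η))) - L2.ins 0 η)) (𝓝 0) (𝓝 0) := by
    rw [tendsto_zero_iff_norm_tendsto_zero]
    simp only [ContinuousLinearMap.norm_map_of_mem_unitary (cb_L_unitary τ _)]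
    exact tendsto_iff_norm_sub_tendsto_zero.1 g2
  have g5 := g4.add g3
  simp only [map_sub, sub_add_cancel, zero_add] at g5
  simpa only [DD, ee', mul_apply_eq_comp, g0] using g5

end Cross

end Crest.Agent.R78
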