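import Crest.Agent.R78.WL

/-! # R78: bounded harmonic cocycles vanish (task `Harm`) -/

set_option autoImplicit false
set_option linter.unusedSectionVars false
open Filter Topology
open scoped InnerProductSpace

namespace Crest.Agent.R78

universe u
variable {H : Type u} [NormedAddCommGroup H] [InnerProductSpace ℂ H] [CompleteSpace H]

/-- `T` is a module map on `P ζ`. -/
def Mod (P : VonNeumannAlgebra H) (ζ : H) (T : Op H) : Prop :=
  ∀ x ∈ P, ∀ y ∈ P, ⟪x ζ, T (y ζ)⟫_ℂ = ⟪(star y * x) ζ, T ζ⟫_ℂ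

/-- Vanishing second differences. -/
def Sec (G : Submonoid (Op H)) (ζ : H) (T : Op H) : Prop :=
  ∀ z ∈ G, ∀ x₁ ∈ G, ∀ x₂ ∈ G, ∀ y ∈ G,
    ⟪(z * x₁ * y) ζ, T ((z * x₂ * y) ζ)⟫_ℂ - ⟪(x₁ * y) ζ, T ((x₂ * y) ζ)⟫_ℂ =
      ⟪(z * x₁) ζ, T ((z * x₂) ζ)⟫_ℂ - ⟪x₁ ζ, T (x₂ ζ)⟫_ℂ

namespace Harm

/-- the closed span of `G ζ` -/
noncomputable def K (G : Submonoid (Op H)) (ζ : H) : Submodule ℂ H :=
  (Submodule.span ℂ ((fun x : Op H => x ζ) '' (G : Set (Op H)))).topologicalClosure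

instance (G : Submonoid (Op H)) (ζ : H) : CompleteSpace (K G ζ) :=
  (Submodule.isClosed_topologicalClosure _).completeSpace_coe

variable {G : Submonoid (Op H)} {ζ : H}

theorem mem_K {x : Op H} (hx : x ∈ G) : x ζ ∈ K G ζ :=
  Submodule.le_topologicalClosure _ (Submodule.subset_span ⟨x, hx, rfl⟩)

theorem K_le {S : Submodule ℂ H} (hS : IsClosed (S : Set H)) (h : ∀ x ∈ G, x ζ ∈ S) :
    K G ζ ≤ S :=
  Submodule.topologicalClosure_minimal _ (Submodule.span_le.2 (by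
    rintro _ ⟨x, hx, rfl⟩; exact h x hx)) hS

theorem map_K {π : Op H} (h : ∀ x ∈ G, π (x ζ) ∈ K G ζ) {v : H} (hv : v ∈ K G ζ) :
    π v ∈ K G ζ :=
  K_le (S := (K G ζ).comap (π : H →ₗ[ℂ] H))
    ((Submodule.isClosed_topologicalClosure _).preimage π.continuous) h hv

theorem ext_K {v : H} (hv : v ∈ K G ζ) (h : ∀ x ∈ G, ⟪x ζ, v⟫_ℂ = 0) : v = 0 := by
  have := K_le (S := (ℂ ∙ v)ᗮ) (Submodule.isClosed_orthogonal _)
    (fun x hx => Submodule.mem_orthogonal_singleton_iff_inner_left.2 (h x hx)) hv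
  exact inner_self_eq_zero.1 (Submodule.mem_orthogonal_singleton_iff_inner_left.1 this)

theorem inner_star (a : Op H) (u v : H) : ⟪u, star a v⟫_ℂ = ⟪a u, v⟫_ℂ := by
  rw [ContinuousLinearMap.star_eq_adjoint, ContinuousLinearMap.adjoint_inner_right]

/-- the cocycle -/
noncomputable def β (G : Submonoid (Op H)) (ζ : H) (T z : Op H) : H :=
  (K G ζ).starProjection ((star z * T * z - T) ζ)

theorem β_mem (T z : Op H) : β G ζ T z ∈ K G ζ := Submodule.starProjection_apply_mem _ _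

theorem inner_β (T z : Op H) {x : Op H} (hx : x ∈ G) :
    ⟪x ζ, β G ζ T z⟫_ℂ = ⟪(z * x) ζ, T (z ζ)⟫_ℂ - ⟪x ζ, T ζ⟫_ℂ := by
  rw [β, ← Submodule.inner_starProjection_left_eq_right,
    Submodule.starProjection_eq_self_iff.2 (mem_K hx), sub_apply, inner_sub_right,
    mul_apply_eq_comp, mul_apply_eq_comp, inner_star]
  rfl

theorem norm_β (T : Op H) {z : Op H} (hz : z ∈ unitary (Op H)) :
    ‖β G ζ T z‖ ≤ 2 * ‖T‖ * ‖ζ‖ := by
  refine (Submodule.norm_starProjection_apply_le _ _).trans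
    ((star z * T * z - T).le_of_opNorm_le ?_ ζ)
  have := norm_sub_le (star z * T * z) T
  rw [norm_conj hz] at this
  linarith

theorem cocycle (hu : ∀ g ∈ G, g ∈ unitary (Op H)) (hs : ∀ g ∈ G, star g ∈ G)
    (hp : ∀ g ∈ G, ∃ g' ∈ unitary (Op H), (∀ x ∈ G, g' * x = x * g') ∧ g' ζ = g ζ)
    {T : Op H} (h2 : Sec G ζ T) {w : Op H} (hw : w ∈ G) :
    ∃ π ∈ unitary (Op H), ∀ z ∈ G, β G ζ T (z * w) = π (β G ζ T z) + β G ζ T w := by
  obtain ⟨w', u', c', e'⟩ := hp w hw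
  have hwu := hu w hw
  refine ⟨star w * w', mul_mem (Unitary.star_mem hwu) u', fun z hz => ?_⟩
  have k1 : ∀ x ∈ G, (star w * w') (x ζ) ∈ K G ζ := fun x hx => by
    have : (star w * w') (x ζ) = (star w * x * w) ζ := by
      calc _ = (star w * (w' * x)) ζ := rfl
        _ = (star w * x) (w' ζ) := by rw [c' x hx]; rfl
        _ = _ := by rw [e']; rfl
    rw [this]
    exact mem_K (mul_mem (mul_mem (hs w hw) hx) hw)
  have k2 : ∀ x ∈ G, star (star w * w') (x ζ) = (w * x * star w) ζ := fun x hx => by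
    have h1 : w' ((w * x * star w) ζ) = (w * x) ζ := by
      calc _ = (w' * (w * x * star w)) ζ := rfl
        _ = (w * x * star w) (w' ζ) := by rw [c' _ (mul_mem (mul_mem hw hx) (hs w hw))]; rfl
        _ = (w * x * (star w * w)) ζ := by rw [e']; rfl
        _ = _ := by rw [hwu.1, mul_one]
    calc _ = star w' ((w * x) ζ) := by rw [star_mul, star_star]; rfl
      _ = (star w' * w') ((w * x * star w) ζ) := by rw [← h1]; rfl
      _ = _ := by rw [u'.1]; rfl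
  rw [← sub_eq_zero]
  refine ext_K (sub_mem (β_mem _ _) (add_mem (map_K k1 (β_mem _ _)) (β_mem _ _))) fun x hx => ?_
  have hx' := mul_mem (mul_mem hw hx) (hs w hw)
  have h3 := h2 z hz _ hx' 1 (one_mem _) w hw
  have h4 : w * x * star w * w = w * x := by rw [mul_assoc, hwu.1, mul_one]
  rw [mul_assoc z _ w, h4, mul_one, one_mul] at h3
  rw [inner_sub_right, inner_add_right, ← star_star (star w * w'), inner_star, k2 x hx,
    inner_β T _ hx, inner_β T _ hx', inner_β T _ hx, mul_assoc z w x]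
  simp only [one_apply_eq_self] at h3
  linear_combination h3

end Harm

/-- Let `p₀` be the projection on the closed span `K` of `G ζ`, `c z = z* T z - T`,
`β z = p₀ (c z ζ)`, `π w = w* w'` (`w'` the partner; `w'* ζ = w* ζ`).  `K` is invariant under `w`,
`w*`, `w'`, `w'*` (`w' x ζ = x w ζ`), so `π w` commutes with `p₀`.  For `x ∈ G`:
`⟪x ζ, β (z w) - β w⟫ = ⟪w x ζ, c z w ζ⟫ = ⟪w x w* ζ, c z ζ⟫ = ⟪x ζ, π w (β z)⟫` (`Sec` with
`x₁ = w x w*`, `x₂ = 1`, `y = w`), so `β (z w) = π w (β z) + β w`.  Since `∑_b β (e b) = 0`,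
`∑_b ‖β (e b w)‖² = ∑_b ‖β (e b)‖² + card B ‖β w‖²`; as `‖β w‖²` is bounded on `G`, taking `w`
near the supremum gives `β (e b) = 0`. -/
theorem harm {G : Submonoid (Op H)} (hu : ∀ g ∈ G, g ∈ unitary (Op H)) (hs : ∀ g ∈ G, star g ∈ G)
    {ζ : H} (hp : ∀ g ∈ G, ∃ g' ∈ unitary (Op H), (∀ x ∈ G, g' * x = x * g') ∧ g' ζ = g ζ)
    {T : Op H} (h2 : Sec G ζ T) {B : Type} [Fintype B] {e : B → Op H} (he : ∀ b, e b ∈ G)
    (hh : ∑ b, star (e b) * T * e b = (Fintype.card B : ℂ) • T) (b : B) {x : Op H} (hx : x ∈ G) :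
    ⟪(e b * x) ζ, T (e b ζ)⟫_ℂ = ⟪x ζ, T ζ⟫_ℂ := by
  have hc := fun w hw => Harm.cocycle hu hs hp h2 (w := w) hw
  have h0 : ∑ b, Harm.β G ζ T (e b) = 0 := by
    simp only [Harm.β]
    rw [← map_sum, ← sum_apply, Finset.sum_sub_distrib, hh, Finset.sum_const, Finset.card_univ,
      Nat.cast_smul_eq_nsmul, sub_self, zero_apply, map_zero]
  have h1 : ∀ w ∈ G, ∑ b, ‖Harm.β G ζ T (e b * w)‖ ^ 2 =
      ∑ b, ‖Harm.β G ζ T (e b)‖ ^ 2 + Fintype.card B * ‖Harm.β G ζ T w‖ ^ 2 := fun w hw => by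
    obtain ⟨π, hπ, h⟩ := hc w hw
    have : ∀ b, ‖Harm.β G ζ T (e b * w)‖ ^ 2 = ‖Harm.β G ζ T (e b)‖ ^ 2 +
        2 * RCLike.re ⟪π (Harm.β G ζ T (e b)), Harm.β G ζ T w⟫_ℂ + ‖Harm.β G ζ T w‖ ^ 2 :=
      fun b => by
      rw [h _ (he b), norm_add_sq (𝕜 := ℂ), ContinuousLinearMap.norm_map_of_mem_unitary hπ]
    simp only [this, Finset.sum_add_distrib]
    rw [← Finset.mul_sum, ← map_sum, ← sum_inner, ← map_sum, h0]
    simp
  set A : Set ℝ := (fun w => ‖Harm.β G ζ T w‖ ^ 2) '' (G : Set (Op H)) with hA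
  have hbd : BddAbove A := ⟨(2 * ‖T‖ * ‖ζ‖) ^ 2, by
    rintro _ ⟨w, hw, rfl⟩
    exact pow_le_pow_left₀ (norm_nonneg _) (Harm.norm_β T (hu w hw)) 2⟩
  have hn : (0 : ℝ) < Fintype.card B := by
    exact_mod_cast Fintype.card_pos_iff.2 ⟨b⟩
  have h3 : sSup A ≤ sSup A - (∑ b, ‖Harm.β G ζ T (e b)‖ ^ 2) / Fintype.card B := by
    refine csSup_le ⟨_, 1, one_mem G, rfl⟩ ?_
    rintro _ ⟨w, hw, rfl⟩
    have h4 : ∑ b, ‖Harm.β G ζ T (e b * w)‖ ^ 2 ≤ Fintype.card B * sSup A := by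
      simpa using Finset.sum_le_card_nsmul Finset.univ _ (sSup A) fun b _ =>
        le_csSup hbd ⟨_, mul_mem (he b) hw, rfl⟩
    rw [h1 w hw] at h4
    rw [le_sub_iff_add_le', ← le_sub_iff_add_le, div_le_iff₀' hn]
    linarith
  have h4 : ∑ b, ‖Harm.β G ζ T (e b)‖ ^ 2 ≤ 0 := by
    have : (∑ b, ‖Harm.β G ζ T (e b)‖ ^ 2) / Fintype.card B ≤ 0 := by linarith
    rwa [div_le_iff₀ hn, zero_mul] at this
  have h5 := (Finset.single_le_sum (f := fun b => ‖Harm.β G ζ T (e b)‖ ^ 2)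
    (fun _ _ => sq_nonneg _) (Finset.mem_univ b)).trans h4
  have h6 : Harm.β G ζ T (e b) = 0 :=
    norm_eq_zero.1 (pow_eq_zero_iff two_ne_zero |>.1 (le_antisymm h5 (sq_nonneg _)))
  have h7 := Harm.inner_β (ζ := ζ) T (e b) hx
  rw [h6, inner_zero_right] at h7
  exact sub_eq_zero.1 h7.symm

theorem Harm.ind {P : VonNeumannAlgebra H} (p : Op H → Prop)
    (h1 : ∀ u ∈ P, u ∈ unitary (Op H) → p u) (h0 : p 0) (ha : ∀ x y, p x → p y → p (x + y))
    (hs : ∀ (t : ℂ) x, p x → p (t • x)) : ∀ x ∈ P, p x := by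
  intro x hx
  have h : (⟨x, hx⟩ : R121.Al P) ∈ Submodule.span ℂ (unitary (R121.Al P) : Set (R121.Al P)) := by
    rw [CStarAlgebra.span_unitary]; trivial
  refine Submodule.span_induction (p := fun y _ => p (y : R121.Al P).1) (fun u hu => ?_) h0
    (fun x y _ _ => ha _ _) (fun t x _ => hs t _) h
  exact h1 u.1 u.2 ⟨congrArg Subtype.val hu.1, congrArg Subtype.val hu.2⟩

/-- Put `x = e* x₀`; every element of `P` is a combination of four unitaries of `P`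
(`CStarAlgebra.exists_sum_four_unitary` in `R121.Al P`, or `CStarAlgebra.span_unitary`). -/
theorem mod_of_unitary {P : VonNeumannAlgebra H} {ζ : H} {T : Op H}
    (h : ∀ e ∈ P, e ∈ unitary (Op H) → ∀ x ∈ P, x ∈ unitary (Op H) →
      ⟪(e * x) ζ, T (e ζ)⟫_ℂ = ⟪x ζ, T ζ⟫_ℂ) : Mod P ζ T := by
  intro x hx
  refine Harm.ind _ (fun y hy hyu => ?_) (by simp) (fun y y' h1 h2 => ?_) fun t y h1 => ?_
  · revert x
    refine Harm.ind _ (fun x hx hxu => ?_) (by simp) (fun x x' h1 h2 => ?_) fun t x h1 => ?_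
    · have := h y hy hyu (star y * x) (mul_mem (star_mem hy) hx)
        (mul_mem (Unitary.star_mem hyu) hxu)
      rwa [un_r hyu] at this
    · simp only [mul_add, add_apply, inner_add_left, h1, h2]
    · simp only [mul_smul_comm, smul_apply, inner_smul_left, h1]
  · simp only [star_add, add_mul, add_apply, map_add, inner_add_left, inner_add_right, h1, h2]
  · simp only [star_smul, smul_mul_assoc, smul_apply, map_smul, inner_smul_left, inner_smul_right,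
      h1, RCLike.star_def, Complex.conj_conj]

theorem Harm.dense {ι : Type*} {F : Filter ι} {s : Set H} (hs : Dense s) {f : ι → H → ℂ}
    {g : H → ℂ} (hg : Continuous g) {C : ℝ} (hf : ∀ i u v, ‖f i u - f i v‖ ≤ C * ‖u - v‖)
    (h : ∀ v ∈ s, Tendsto (fun i => f i v) F (𝓝 (g v))) (v : H) :
    Tendsto (fun i => f i v) F (𝓝 (g v)) := by
  have h1 : ∀ i, LipschitzWith C.toNNReal (f i) := fun i =>
    LipschitzWith.of_dist_le' fun u v => by rw [dist_eq_norm, dist_eq_norm]; exact hf i u v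
  have h2 := (LipschitzWith.uniformEquicontinuous f _ h1).equicontinuous.isClosed_setOfPred_tendsto
    (l := F) hg
  exact h2.closure_subset_iff.2 h (hs v)

/-- Weak convergence can be tested on `M ξ`. -/
theorem WLim.of_cyc {M : VonNeumannAlgebra H} {ξ : H} (hc : Cyc M ξ) {ι : Type*} {F : Filter ι}
    {x : ι → Op H} {y : Op H} {C : ℝ} (hb : ∀ i, ‖x i‖ ≤ C)
    (h : ∀ m₁ ∈ M, ∀ m₂ ∈ M,
      Tendsto (fun i => ⟪m₂ ξ, x i (m₁ ξ)⟫_ℂ) F (𝓝 ⟪m₂ ξ, y (m₁ ξ)⟫_ℂ)) : WLim F x y := by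
  intro η ζ
  refine Harm.dense (f := fun i η => ⟪ζ, x i η⟫_ℂ) (g := fun η => ⟪ζ, y η⟫_ℂ) hc (by fun_prop)
    (C := ‖ζ‖ * C) (fun i u v => ?_) ?_ η
  · rw [← inner_sub_right, ← map_sub, mul_assoc]
    exact (norm_inner_le_norm _ _).trans
      (mul_le_mul_of_nonneg_left ((x i).le_of_opNorm_le (hb i) _) (norm_nonneg _))
  · rintro _ ⟨m₁, h₁, rfl⟩
    refine Harm.dense (f := fun i ζ => ⟪ζ, x i (m₁ ξ)⟫_ℂ) (g := fun ζ => ⟪ζ, y (m₁ ξ)⟫_ℂ) hc
      (by fun_prop) (C := C * ‖m₁ ξ‖) (fun i u v => ?_) ?_ ζ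
    · rw [← inner_sub_left, mul_comm]
      exact (norm_inner_le_norm _ _).trans
        (mul_le_mul_of_nonneg_left ((x i).le_of_opNorm_le (hb i) _) (norm_nonneg _))
    · rintro _ ⟨m₂, h₂, rfl⟩
      exact h m₁ h₁ m₂ h₂

end Crest.Agent.R78
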