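import Crest.Agent.R78.SInt

/-! # R78: Tomita-Takesaki data: definitions (complete) -/

set_option autoImplicit false
set_option linter.unusedSectionVars false
open Filter Topology
open scoped InnerProductSpace

namespace Crest.Agent.R78

universe u
variable {H : Type u} [NormedAddCommGroup H] [InnerProductSpace ℂ H] [CompleteSpace H]

open MeasureTheory

/-- An antiunitary involution. -/
structure Conj (H : Type u) [NormedAddCommGroup H] [InnerProductSpace ℂ H] where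
  J : H →L⋆[ℂ] H
  invol : ∀ η, J (J η) = η
  inner : ∀ a b, ⟪J a, J b⟫_ℂ = ⟪b, a⟫_ℂ

namespace Conj
variable (c : Conj H)

/-- `J X J`. -/
noncomputable def jj (X : Op H) : Op H := c.J.comp (X.comp c.J)

theorem jj_apply (X : Op H) (η : H) : c.jj X η = c.J (X (c.J η)) := rfl

theorem norm_J (η : H) : ‖c.J η‖ = ‖η‖ := by
  rw [norm_eq_sqrt_re_inner (𝕜 := ℂ), c.inner, ← norm_eq_sqrt_re_inner]

theorem J_smul (t : ℂ) (η : H) : c.J (t • η) = (starRingEnd ℂ) t • c.J η := map_smulₛₗ _ _ _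

theorem inner_J_left (a b : H) : ⟪c.J a, b⟫_ℂ = ⟪c.J b, a⟫_ℂ := by
  rw [← c.inner a (c.J b), c.invol]

theorem jj_jj (X : Op H) : c.jj (c.jj X) = X := by
  ext η; simp only [jj_apply, c.invol]

theorem jj_mul (X Y : Op H) : c.jj (X * Y) = c.jj X * c.jj Y := by
  ext η; simp only [jj_apply, ContinuousLinearMap.mul_apply, c.invol]

theorem jj_add (X Y : Op H) : c.jj (X + Y) = c.jj X + c.jj Y := by
  ext η; simp only [jj_apply, ContinuousLinearMap.add_apply, map_add]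

theorem jj_sub (X Y : Op H) : c.jj (X - Y) = c.jj X - c.jj Y := by
  ext η; simp only [jj_apply, ContinuousLinearMap.sub_apply, map_sub]

theorem jj_smul (t : ℂ) (X : Op H) : c.jj (t • X) = (starRingEnd ℂ) t • c.jj X := by
  ext η; simp only [jj_apply, ContinuousLinearMap.smul_apply, c.J_smul]

theorem jj_one : c.jj 1 = 1 := by
  ext η; simp only [jj_apply, ContinuousLinearMap.one_apply, c.invol]

theorem jj_star (X : Op H) : c.jj (star X) = star (c.jj X) := by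
  ext η
  refine ext_inner_left ℂ fun ζ => ?_
  rw [ContinuousLinearMap.star_eq_adjoint, ContinuousLinearMap.star_eq_adjoint,
    ContinuousLinearMap.adjoint_inner_right, jj_apply, jj_apply, c.inner_J_left (X _),
    ← inner_conj_symm, c.inner_J_left, ContinuousLinearMap.adjoint_inner_right, inner_conj_symm]

theorem norm_jj_le (X : Op H) : ‖c.jj X‖ ≤ ‖X‖ :=
  ContinuousLinearMap.opNorm_le_bound _ (norm_nonneg _) fun η => by
    rw [jj_apply, c.norm_J]
    exact (X.le_opNorm _).trans (by rw [c.norm_J])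

theorem norm_jj (X : Op H) : ‖c.jj X‖ = ‖X‖ :=
  le_antisymm (c.norm_jj_le X) (by simpa only [c.jj_jj] using c.norm_jj_le (c.jj X))

end Conj

/-- The Gaussian `exp (-a z² + b z)`. -/
noncomputable def gau (a : ℝ) (b z : ℂ) : ℂ := Complex.exp (-(a : ℂ) * z ^ 2 + b * z)

/-- Modular data of a cyclic and separating vector: `U s = Δ^{is}`, `J`. -/
structure Tomita (M : VonNeumannAlgebra H) (ξ : H) extends Conj H where
  U : ℝ → Op H
  cyc : Cyc M ξ
  cyc' : Cyc M.commutant ξ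
  U_zero : U 0 = 1
  U_add : ∀ s t, U (s + t) = U s * U t
  U_star : ∀ s, star (U s) = U (-s)
  U_cont : ∀ η, Continuous fun s => U s η
  U_xi : ∀ s, U s ξ = ξ
  U_mem : ∀ s, ∀ x ∈ M, U s * x * U (-s) ∈ M
  U_ctr : ∀ s z, Ctr M z → z * U s = U s * z
  J_xi : J ξ = ξ
  J_U : ∀ s η, J (U s η) = U s (J η)
  jj_mem : ∀ x ∈ M, toConj.jj x ∈ M.commutant
  jj_mem' : ∀ y ∈ M.commutant, toConj.jj y ∈ M
  /-- `J x* ξ = Δ^{1/2} x ξ`, tested against Gaussians. -/
  kms : ∀ x ∈ M, ∀ a : ℝ, 0 < a → ∀ b : ℂ,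
    ∫ s : ℝ, gau a b s • U s (J (star x ξ)) = ∫ s : ℝ, gau a b (s + Complex.I / 2) • U s (x ξ)
  /-- Spectral localisation of `log Δ` near `E`. -/
  est : ∀ (t E : ℝ) (η : H), ∀ n ∈ M, ∀ y ∈ M.commutant,
    ‖U t η - Complex.exp (Complex.I * t * E) • η‖ ≤
      |t| * (Real.exp (-E / 2) * ‖star n ξ‖ + Real.exp (E / 2) * ‖star y ξ‖) +
        2 * ‖η - n ξ‖ + 2 * ‖η - y ξ‖

namespace Tomita
variable {M : VonNeumannAlgebra H} {ξ : H} (τ : Tomita M ξ)

theorem U_mul_neg (s : ℝ) : τ.U s * τ.U (-s) = 1 := by rw [← τ.U_add, add_neg_cancel, τ.U_zero]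

theorem U_neg_mul (s : ℝ) : τ.U (-s) * τ.U s = 1 := by rw [← τ.U_add, neg_add_cancel, τ.U_zero]

theorem U_unitary (s : ℝ) : τ.U s ∈ unitary (Op H) :=
  ⟨by rw [τ.U_star, τ.U_neg_mul], by rw [τ.U_star, τ.U_mul_neg]⟩

theorem norm_U_apply (s : ℝ) (η : H) : ‖τ.U s η‖ = ‖η‖ :=
  ContinuousLinearMap.norm_map_of_mem_unitary (τ.U_unitary s) η

theorem norm_U_le (s : ℝ) : ‖τ.U s‖ ≤ 1 :=
  ContinuousLinearMap.opNorm_le_bound _ zero_le_one fun η => by rw [τ.norm_U_apply, one_mul]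

theorem U_mem' (s : ℝ) {y : Op H} (hy : y ∈ M.commutant) :
    τ.U s * y * τ.U (-s) ∈ M.commutant := by
  refine VonNeumannAlgebra.mem_commutant_iff.2 fun x hx => ?_
  have h := comm_of_mem (τ.U_mem (-s) x hx) hy
  rw [neg_neg] at h
  calc x * (τ.U s * y * τ.U (-s))
      = τ.U s * (τ.U (-s) * x * τ.U s * y) * τ.U (-s) := by
        simp only [← mul_assoc, τ.U_mul_neg, one_mul]
    _ = τ.U s * y * τ.U (-s) * x * (τ.U s * τ.U (-s)) := by rw [h]; simp only [mul_assoc]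
    _ = _ := by rw [τ.U_mul_neg, mul_one]

theorem SC_U : SC τ.U 1 :=
  ⟨τ.norm_U_le, τ.U_cont, fun η => by
    simp only [τ.U_star]
    exact (τ.U_cont η).comp continuous_neg⟩

theorem jj_U (s : ℝ) : τ.toConj.jj (τ.U s) = τ.U s := by
  ext η; rw [Conj.jj_apply, τ.J_U, τ.invol]

end Tomita

/-- The bounded operators of Rieffel and van Daele: `P`, `Q` are the real projections on
`K = closure (M_sa ξ)` and `i K`, `R = P + Q = 2 (1 + Δ)⁻¹`, `J T = P - Q`. -/
structure RvD (M : VonNeumannAlgebra H) (ξ : H) extends Conj H where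
  R : Op H
  T : Op H
  cyc : Cyc M ξ
  cyc' : Cyc M.commutant ξ
  R_sa : IsSelfAdjoint R
  spec : spectrum ℝ R ⊆ Set.Icc 0 2
  T_eq : T = cfc (fun r : ℝ => √(r * (2 - r))) R
  T_inj : ∀ η, T η = 0 → η = 0
  J_R : ∀ η, J (R η) = (2 - R) (J η)
  J_T : ∀ η, J (T η) = T (J η)
  TJ : ∀ x ∈ M, T (J (star x ξ)) = (2 - R) (x ξ)
  TJ' : ∀ y ∈ M.commutant, T (J (star y ξ)) = R (y ξ)
  R_real : ∀ x ∈ M, ∀ y ∈ M.commutant, IsSelfAdjoint x → IsSelfAdjoint y →
    (∀ k ∈ M, IsSelfAdjoint k → (⟪x ξ - y ξ, k ξ⟫_ℂ).re = 0) → R (y ξ) = x ξ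
  R_real' : ∀ x ∈ M, ∀ y ∈ M.commutant, IsSelfAdjoint x → IsSelfAdjoint y →
    (∀ k ∈ M.commutant, IsSelfAdjoint k → (⟪y ξ - x ξ, k ξ⟫_ℂ).re = 0) → (2 - R) (x ξ) = y ξ
  R_ctr : ∀ z, Ctr M z → z * R = R * z

/-- `log Δ` as a function of `R`. -/
noncomputable def lg (r : ℝ) : ℝ := Real.log ((2 - r) / r)

/-- Complex valued functional calculus of a self-adjoint operator. -/
noncomputable def fc (R : Op H) (f : ℝ → ℂ) : Op H := cfc (fun z : ℂ => f z.re) R

/-- `U t = Δ^{it}` is determined by `U t * T = fU t (R)`. -/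
noncomputable def fT (t : ℝ) (r : ℝ) : ℂ :=
  Complex.exp (Complex.I * t * lg r) * (√(r * (2 - r)) : ℝ)

/-- `U` is the modular group of the Rieffel-van Daele data. -/
structure RvD.Grp {M : VonNeumannAlgebra H} {ξ : H} (d : RvD M ξ) (U : ℝ → Op H) : Prop where
  UT : ∀ t, U t * d.T = fc d.R (fT t)
  U_zero : U 0 = 1
  U_add : ∀ s t, U (s + t) = U s * U t
  U_star : ∀ s, star (U s) = U (-s)
  U_cont : ∀ η, Continuous fun s => U s η
  U_comm : ∀ s (X : Op H), X * d.R = d.R * X → X * U s = U s * X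
  U_xi : ∀ s, U s ξ = ξ
  J_U : ∀ s η, d.J (U s η) = U s (d.J η)

end Crest.Agent.R78
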