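import Crest.Agent.R78.Amp
import Crest.Agent.R78.TomDef
import Crest.Agent.R78.Harm

/-! # R78: the discrete crossed product: definitions (complete) -/

set_option autoImplicit false
set_option linter.unusedSectionVars false
open Filter Topology
open scoped InnerProductSpace

namespace Crest.Agent.R78

universe u
variable {H : Type u} [NormedAddCommGroup H] [InnerProductSpace ℂ H] [CompleteSpace H]

open MeasureTheory Complex

namespace Cross

/-- The shift of `ℓ²(ℤ; H)`. -/
noncomputable def sh (H : Type u) [NormedAddCommGroup H] [InnerProductSpace ℂ H] :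
    Op (L2 ℤ H) := L2.emb H fun k => k + 1

theorem sh_bij : Function.Bijective fun k : ℤ => k + 1 := (Equiv.addRight (1 : ℤ)).bijective

theorem sh_unitary : sh H ∈ unitary (Op (L2 ℤ H)) := L2.emb_unitary sh_bij

theorem sh_ins (k : ℤ) (η : H) : sh H (L2.ins k η) = L2.ins (k + 1) η := L2.emb_ins sh_bij.1 k η

/-- A logarithm of the shift. -/
noncomputable def lsh (H : Type u) [NormedAddCommGroup H] [InnerProductSpace ℂ H]
    [CompleteSpace H] : Op (L2 ℤ H) := (exists_log (sh_unitary (H := H))).choose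

theorem lsh_sa : IsSelfAdjoint (lsh H) := (exists_log (sh_unitary (H := H))).choose_spec.1

theorem exp_lsh : NormedSpace.exp (I • lsh H) = sh H :=
  (exists_log (sh_unitary (H := H))).choose_spec.2.1

theorem lsh_comm {X : Op (L2 ℤ H)} (h : C2 (sh H) X) : lsh H * X = X * lsh H :=
  (exists_log (sh_unitary (H := H))).choose_spec.2.2 X h

/-- Complex powers of the shift. -/
noncomputable def ee (H : Type u) [NormedAddCommGroup H] [InnerProductSpace ℂ H]
    [CompleteSpace H] (z : ℂ) : Op (L2 ℤ H) := NormedSpace.exp ((I * z) • lsh H)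

variable {M : VonNeumannAlgebra H} {ξ : H} (τ : Tomita M ξ) (h : ℝ)

/-- `Γ = diag (U (-k h))`. -/
noncomputable def Gam : Op (L2 ℤ H) := L2.diag fun k : ℤ => τ.U (-(k * h))

theorem Gam_unitary : Gam τ h ∈ unitary (Op (L2 ℤ H)) := L2.diag_unitary fun _ => τ.U_unitary _

theorem Gam_ins (k : ℤ) (η : H) : Gam τ h (L2.ins k η) = L2.ins k (τ.U (-(k * h)) η) :=
  L2.diag_ins (fun _ => τ.norm_U_le _) k η

/-- `π x = Γ (1 ⊗ x) Γ*`. -/
noncomputable def pi : Op H →⋆ₐ[ℂ] Op (L2 ℤ H) where
  toFun x := Gam τ h * L2.lift ℤ x * star (Gam τ h)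
  map_one' := by rw [map_one, mul_one, (Gam_unitary τ h).2]
  map_mul' x y := by
    rw [map_mul]
    simp only [mul_assoc]
    rw [← mul_assoc (star (Gam τ h)), (Gam_unitary τ h).1, one_mul]
  map_zero' := by simp
  map_add' x y := by rw [map_add, mul_add, add_mul]
  commutes' c := by
    rw [AlgHomClass.commutes, Algebra.algebraMap_eq_smul_one, mul_smul_comm, smul_mul_assoc,
      mul_one, (Gam_unitary τ h).2]
  map_star' x := by simp only [map_star, star_mul, star_star, mul_assoc]

theorem pi_apply (x : Op H) : pi τ h x = Gam τ h * L2.lift ℤ x * star (Gam τ h) := rfl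

/-- The commutant of the crossed product. -/
noncomputable def hatC (N : VonNeumannAlgebra H) : VonNeumannAlgebra (L2 ℤ H) :=
  vn (pi τ h '' (N : Set (Op H)) ∪ {sh H})

/-- The crossed product of `N` by `Ad (U h)`. -/
noncomputable def hat (N : VonNeumannAlgebra H) : VonNeumannAlgebra (L2 ℤ H) :=
  (hatC τ h N).commutant

theorem commutant_hat (N : VonNeumannAlgebra H) : (hat τ h N).commutant = hatC τ h N :=
  VonNeumannAlgebra.commutant_commutant _

/-- The powers of the right shift. -/
noncomputable def ee' (z : ℂ) : Op (L2 ℤ H) := Gam τ h * ee H z * star (Gam τ h)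

/-- The periodic modular group of the perturbed state. -/
noncomputable def DD (t : ℝ) : Op (L2 ℤ H) :=
  L2.lift ℤ (τ.U (t * h)) * ee H (-t) * ee' τ h t

/-- The fixed point algebra. -/
noncomputable def PP : VonNeumannAlgebra (L2 ℤ H) :=
  vn ((hatC τ h M : Set (Op (L2 ℤ H))) ∪ Set.range (DD τ h))

/-- The conditional expectation. -/
noncomputable def EE (y : Op (L2 ℤ H)) : Op (L2 ℤ H) :=
  sint ((Set.Icc (0 : ℝ) 1).indicator fun _ => 1) fun t => DD τ h t * y * star (DD τ h t)

/-- The dual vector. -/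
noncomputable def xh (ξ : H) : L2 ℤ H := L2.ins 0 ξ

/-- The perturbed vector. -/
noncomputable def zeta (ξ : H) (h : ℝ) : L2 ℤ H := ee H (I / (2 * h)) (xh ξ)

/-- The functional attached to an operator `T` on `ℓ²(ℤ; H)`. -/
noncomputable def psi (T : Op (L2 ℤ H)) (m : Op H) : ℂ :=
  ⟪xh ξ, T (EE τ h (pi τ h m) (xh ξ))⟫_ℂ

end Cross

end Crest.Agent.R78
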