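import Crest.Agent.R78.TomDef

/-! # R78: complex functional calculus of a self-adjoint operator (task `FC`) -/

set_option autoImplicit false
set_option linter.unusedSectionVars false
open Filter Topology
open scoped InnerProductSpace

namespace Crest.Agent.R78

universe u
variable {H : Type u} [NormedAddCommGroup H] [InnerProductSpace ℂ H] [CompleteSpace H]

open MeasureTheory

variable {R : Op H} {S : Set ℝ} {f g : ℝ → ℂ}

/-! All lemmas: `spectrum ℂ R` is the image of `spectrum ℝ R` under `ofReal`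
(`IsSelfAdjoint.spectrumRestricts`, `SpectrumRestricts.algebraMap_image`, or
`IsSelfAdjoint.mem_spectrum_eq_re` with `spectrum.of_algebraMap_mem`), so `z ↦ f z.re` is
continuous on `spectrum ℂ R`. -/

theorem FC_re_mem (hR : IsSelfAdjoint R) {z : ℂ} (hz : z ∈ spectrum ℂ R) : z.re ∈ spectrum ℝ R :=
  hR.spectrumRestricts.apply_mem hz

theorem FC_re_eq (hR : IsSelfAdjoint R) {z : ℂ} (hz : z ∈ spectrum ℂ R) : (z.re : ℂ) = z :=
  (hR.mem_spectrum_eq_re hz).symm

theorem FC_joint {X : Type*} [TopologicalSpace X] (hR : IsSelfAdjoint R)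
    (hS : spectrum ℝ R ⊆ S) {F : X → ℝ → ℂ} {V : Set X}
    (hF : ContinuousOn (fun p : X × ℝ => F p.1 p.2) (V ×ˢ S)) :
    ContinuousOn (Function.uncurry fun (x : X) (z : ℂ) => F x z.re) (V ×ˢ spectrum ℂ R) :=
  hF.comp (f := fun p : X × ℂ => (p.1, p.2.re)) (by fun_prop)
    fun _ hp => ⟨hp.1, hS (FC_re_mem hR hp.2)⟩

theorem fc_contOn (hR : IsSelfAdjoint R) (hS : spectrum ℝ R ⊆ S) (hf : ContinuousOn f S) :
    ContinuousOn (fun z : ℂ => f z.re) (spectrum ℂ R) :=
  hf.comp Complex.continuous_re.continuousOn fun _ hz => hS (FC_re_mem hR hz)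

theorem fc_congr (hR : IsSelfAdjoint R) (hS : spectrum ℝ R ⊆ S) (h : ∀ r ∈ S, f r = g r) :
    fc R f = fc R g :=
  cfc_congr fun _ hz => h _ (hS (FC_re_mem hR hz))

theorem fc_mul (hR : IsSelfAdjoint R) (hS : spectrum ℝ R ⊆ S) (hf : ContinuousOn f S)
    (hg : ContinuousOn g S) : fc R (fun r => f r * g r) = fc R f * fc R g :=
  cfc_mul (fun z : ℂ => f z.re) (fun z : ℂ => g z.re) R (fc_contOn hR hS hf) (fc_contOn hR hS hg)

theorem fc_add (hR : IsSelfAdjoint R) (hS : spectrum ℝ R ⊆ S) (hf : ContinuousOn f S)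
    (hg : ContinuousOn g S) : fc R (fun r => f r + g r) = fc R f + fc R g :=
  cfc_add R (fun z : ℂ => f z.re) (fun z : ℂ => g z.re) (fc_contOn hR hS hf) (fc_contOn hR hS hg)

theorem fc_sub (hR : IsSelfAdjoint R) (hS : spectrum ℝ R ⊆ S) (hf : ContinuousOn f S)
    (hg : ContinuousOn g S) : fc R (fun r => f r - g r) = fc R f - fc R g :=
  cfc_sub (fun z : ℂ => f z.re) (fun z : ℂ => g z.re) R (fc_contOn hR hS hf) (fc_contOn hR hS hg)

theorem fc_smul (hR : IsSelfAdjoint R) (hS : spectrum ℝ R ⊆ S) (hf : ContinuousOn f S) (c : ℂ) :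
    fc R (fun r => c * f r) = c • fc R f :=
  cfc_const_mul c (fun z : ℂ => f z.re) R (fc_contOn hR hS hf)

theorem fc_star (R : Op H) (f : ℝ → ℂ) :
    fc R (fun r => (starRingEnd ℂ) (f r)) = star (fc R f) :=
  cfc_star (fun z : ℂ => f z.re) R

theorem fc_const (hR : IsSelfAdjoint R) (c : ℂ) : fc R (fun _ => c) = c • (1 : Op H) := by
  rw [fc, cfc_const c R hR.isStarNormal, Algebra.algebraMap_eq_smul_one]

theorem fc_id (hR : IsSelfAdjoint R) : fc R (fun r => (r : ℂ)) = R := by
  rw [fc, cfc_congr (g := fun z : ℂ => z) fun z hz => FC_re_eq hR hz, cfc_id' ℂ R hR.isStarNormal]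

theorem fc_two_sub (hR : IsSelfAdjoint R) : fc R (fun r => 2 - (r : ℂ)) = 2 - R := by
  rw [fc_sub hR (Set.subset_univ _) (f := fun _ => 2) (g := fun r => (r : ℂ)) (by fun_prop)
    (by fun_prop), fc_const hR, fc_id hR, two_smul, one_add_one_eq_two]

/-- `cfc_real_eq_complex`. -/
theorem fc_real (hR : IsSelfAdjoint R) (φ : ℝ → ℝ) : fc R (fun r => (φ r : ℂ)) = cfc φ R :=
  (cfc_real_eq_complex φ hR).symm

theorem norm_fc_le (hR : IsSelfAdjoint R) (hS : spectrum ℝ R ⊆ S) {C : ℝ} (hC : 0 ≤ C)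
    (h : ∀ r ∈ S, ‖f r‖ ≤ C) : ‖fc R f‖ ≤ C :=
  norm_cfc_le hC fun _ hz => h _ (hS (FC_re_mem hR hz))

theorem fc_comm (hR : IsSelfAdjoint R) {X : Op H} (h : X * R = R * X) (f : ℝ → ℂ) :
    X * fc R f = fc R f * X :=
  (hR.commute_cfc (𝕜 := ℂ) (show Commute R X from h.symm) _).symm.eq

/-- Eigenvectors.  (If `η ≠ 0` then `c ∈ spectrum ℝ R`; induction on continuous functions,
`ContinuousMap.induction_on_of_compact`/`cfc_induction`-style polynomial approximation; or:
`f - f c` is a uniform limit on the spectrum of functions `g · (r - c)`.) -/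
theorem fc_eigen (hR : IsSelfAdjoint R) (hS : spectrum ℝ R ⊆ S) (hf : ContinuousOn f S)
    {η : H} {c : ℝ} (h : R η = (c : ℂ) • η) : fc R f η = f c • η := by
  by_cases hη : η = 0
  · simp [hη]
  have hc : (c : ℂ) ∈ spectrum ℂ R := by
    intro hu
    obtain ⟨u, hu⟩ := hu
    apply hη
    have h1 : (u : Op H) η = 0 := by
      rw [hu, Algebra.algebraMap_eq_smul_one]; simp [h]
    calc η = ((u⁻¹ : (Op H)ˣ) * (u : Op H) : Op H) η := by rw [Units.inv_mul]; rfl
      _ = ((u⁻¹ : (Op H)ˣ) : Op H) ((u : Op H) η) := rfl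
      _ = 0 := by rw [h1, map_zero]
  have key : ∀ g : C(spectrum ℂ R, ℂ), cfcHom hR.isStarNormal g η = g ⟨c, hc⟩ • η := by
    intro g
    open scoped ContinuousFunctionalCalculus in
    induction g using ContinuousMap.induction_on_of_compact with
    | const r =>
      have : ContinuousMap.const (spectrum ℂ R) r = algebraMap ℂ _ r := rfl
      rw [this, AlgHomClass.commutes, Algebra.algebraMap_eq_smul_one]
      simp
    | id => rw [cfcHom_id]; exact h
    | star_id => rw [map_star, cfcHom_id, hR.star_eq, h]; simp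
    | add g g' h1 h2 => rw [map_add, add_apply, h1, h2, ContinuousMap.add_apply, add_smul]
    | mul g g' h1 h2 =>
      rw [map_mul, mul_apply_eq_comp, h2, map_smul, h1, ContinuousMap.mul_apply, smul_smul,
        mul_comm]
    | frequently g hg =>
      have h1 := cfcHom_continuous (R := ℂ) hR.isStarNormal
      exact hg.mem_of_closed (isClosed_eq (by fun_prop) (by fun_prop))
  rw [fc, cfc_apply _ R hR.isStarNormal (fc_contOn hR hS hf), key]
  simp

theorem FC_jj_cont (c : Conj H) : Continuous c.jj := by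
  refine (LipschitzWith.of_dist_le_mul (K := 1) fun X Y => ?_).continuous
  rw [dist_eq_norm, dist_eq_norm, ← c.jj_sub, c.norm_jj]
  simp

theorem FC_jj_algebraMap (c : Conj H) (r : ℂ) :
    c.jj (algebraMap ℂ (Op H) r) = algebraMap ℂ (Op H) (star r) := by
  rw [Algebra.algebraMap_eq_smul_one, Algebra.algebraMap_eq_smul_one, c.jj_smul, c.jj_one]
  rfl

theorem FC_symm (c : Conj H) (hR : IsSelfAdjoint R) (hJ : c.jj R = 2 - R) {z : ℂ}
    (hz : z ∈ spectrum ℂ R) : 2 - z ∈ spectrum ℂ R := by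
  intro hu
  apply hz
  let φ : Op H →* Op H := ⟨⟨c.jj, c.jj_one⟩, c.jj_mul⟩
  have h1 : IsUnit (c.jj (algebraMap ℂ (Op H) (2 - z) - R)) := IsUnit.map φ hu
  have h2 : star (2 - z) = 2 - z := by
    rw [← FC_re_eq hR hz]; simp
  rw [c.jj_sub, FC_jj_algebraMap, h2, hJ, map_sub, map_ofNat] at h1
  have h3 : (2 : Op H) - algebraMap ℂ (Op H) z - (2 - R) = -(algebraMap ℂ (Op H) z - R) := by
    abel
  rw [h3] at h1
  exact (IsUnit.neg_iff _).1 h1

/-- `J f(R) J = conj f (2 - R)` when `J R J = 2 - R`.  (`X ↦ J X* J` is linear, isometric and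
anti-multiplicative; polynomial approximation on `[0,2]`, or uniqueness of the functional
calculus `cfcHom_eq_of_continuous_of_map_id`.) -/
theorem jj_fc (c : Conj H) (hR : IsSelfAdjoint R) (hS : spectrum ℝ R ⊆ Set.Icc 0 2)
    (hJ : ∀ η, c.J (R η) = (2 - R) (c.J η)) (hf : ContinuousOn f (Set.Icc 0 2)) :
    c.jj (fc R f) = fc R fun r => (starRingEnd ℂ) (f (2 - r)) := by
  have hJ' : c.jj R = 2 - R := by
    ext η; rw [c.jj_apply, hJ, c.invol]
  let σ : C(spectrum ℂ R, spectrum ℂ R) :=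
    ⟨fun z => ⟨2 - z.1, FC_symm c hR hJ' z.2⟩, by fun_prop⟩
  have key : ∀ g : C(spectrum ℂ R, ℂ),
      c.jj (cfcHom hR.isStarNormal g) = cfcHom hR.isStarNormal (star (g.comp σ)) := by
    have hid : ((ContinuousMap.id ℂ).restrict (spectrum ℂ R)).comp σ =
        algebraMap ℂ _ 2 - (ContinuousMap.id ℂ).restrict (spectrum ℂ R) := by
      ext z; rfl
    have h2 : cfcHom hR.isStarNormal (((ContinuousMap.id ℂ).restrict (spectrum ℂ R)).comp σ) =
        2 - R := by
      rw [hid, map_sub, AlgHomClass.commutes, cfcHom_id, map_ofNat]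
    intro g
    open scoped ContinuousFunctionalCalculus in
    induction g using ContinuousMap.induction_on_of_compact with
    | const r =>
      have e1 : ContinuousMap.const (spectrum ℂ R) r = algebraMap ℂ _ r := rfl
      have e2 : star ((ContinuousMap.const (spectrum ℂ R) r).comp σ) = algebraMap ℂ _ (star r) :=
        rfl
      rw [e2, e1, AlgHomClass.commutes, AlgHomClass.commutes, FC_jj_algebraMap]
    | id => rw [map_star, h2, cfcHom_id, hJ', star_sub, hR.star_eq, star_ofNat]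
    | star_id =>
      rw [map_star, cfcHom_id, hR.star_eq, hJ', ← h2]
      congr 1
      ext z; simp
    | add g g' h1 h2 => rw [map_add, c.jj_add, h1, h2, ← map_add]; congr 1; ext z; simp
    | mul g g' h1 h2 => rw [map_mul, c.jj_mul, h1, h2, ← map_mul]; congr 1; ext z; simp
    | frequently g hg =>
      have h1 := cfcHom_continuous (R := ℂ) hR.isStarNormal
      exact hg.mem_of_closed (isClosed_eq ((FC_jj_cont c).comp h1)
        (h1.comp (continuous_star.comp (ContinuousMap.continuous_precomp σ))))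
  have hf' : ContinuousOn (fun r : ℝ => (starRingEnd ℂ) (f (2 - r))) (Set.Icc 0 2) :=
    Complex.continuous_conj.comp_continuousOn (hf.comp (by fun_prop) fun r hr =>
      ⟨by linarith [hr.2], by linarith [hr.1]⟩)
  rw [fc, fc, cfc_apply _ R hR.isStarNormal (fc_contOn hR hS hf),
    cfc_apply _ R hR.isStarNormal (fc_contOn hR hS hf'), key]
  refine congrArg _ (ContinuousMap.ext fun z => ?_)
  simp [σ]

/-- Joint continuity gives norm continuity (uniform continuity on compact sets). -/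
theorem continuousOn_fc {X : Type*} [TopologicalSpace X] (hR : IsSelfAdjoint R)
    (hS : spectrum ℝ R ⊆ Set.Icc 0 2) {F : X → ℝ → ℂ} {V : Set X}
    (hF : ContinuousOn (fun p : X × ℝ => F p.1 p.2) (V ×ˢ Set.Icc 0 2)) :
    ContinuousOn (fun x => fc R (F x)) V := by
  have h1 := ContinuousMap.continuousOn_mkD_restrict_of_uncurry _ 0 (FC_joint hR hS hF)
  refine ((cfcL (R := ℂ) hR.isStarNormal).continuous.comp_continuousOn h1).congr fun x _ => ?_
  exact cfc_eq_cfcL_mkD _ R hR.isStarNormal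

/-- Holomorphic dependence: `z ↦ (F z restricted to the spectrum)` is holomorphic with values in
`C(spectrum, ℂ)` by `differentiableOn_of_norming` (point evaluations), and `cfcHom` is a
continuous linear map. -/
theorem differentiableOn_fc (hR : IsSelfAdjoint R) (hS : spectrum ℝ R ⊆ Set.Icc 0 2)
    {F : ℂ → ℝ → ℂ} {V : Set ℂ} (hV : IsOpen V)
    (hF : ContinuousOn (fun p : ℂ × ℝ => F p.1 p.2) (V ×ˢ Set.Icc 0 2))
    (hd : ∀ r ∈ Set.Icc (0 : ℝ) 2, DifferentiableOn ℂ (fun z => F z r) V) :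
    DifferentiableOn ℂ (fun z => fc R (F z)) V := by
  open scoped ContinuousFunctionalCalculus in
  have h1 := ContinuousMap.continuousOn_mkD_restrict_of_uncurry _ 0 (FC_joint hR hS hF)
  have hcont : ∀ z ∈ V, ContinuousOn (fun w : ℂ => F z w.re) (spectrum ℂ R) := fun z hz =>
    (FC_joint hR hS hF).comp (Continuous.prodMk_right z).continuousOn fun _ hw => ⟨hz, hw⟩
  open scoped ContinuousFunctionalCalculus in
  have h2 : DifferentiableOn ℂ (fun z => ContinuousMap.mkD
      ((spectrum ℂ R).domRestrict fun w : ℂ => F z w.re) (0 : C(spectrum ℂ R, ℂ))) V := by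
    refine differentiableOn_of_norming (Set.range fun w => ContinuousMap.evalCLM ℂ w) ?_ ?_ hV ?_ ?_
    · rintro _ ⟨w, rfl⟩
      refine ContinuousLinearMap.opNorm_le_bound _ zero_le_one fun g => ?_
      rw [one_mul]
      exact g.norm_coe_le_norm w
    · intro v c hc hv
      exact (ContinuousMap.norm_le _ hc).2 fun w => hv _ ⟨w, rfl⟩
    · intro z hz
      have h3 := (h1.continuousAt (hV.mem_nhds hz)).norm.eventually (gt_mem_nhds (lt_add_one _))
      obtain ⟨r, hr, h4⟩ := Metric.eventually_nhds_iff_ball.1 h3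
      exact ⟨r, hr, _, fun w hw => (h4 w hw).le⟩
    · rintro _ ⟨w, rfl⟩
      refine (hd w.1.re (hS (FC_re_mem hR w.2))).congr fun z hz => ?_
      exact ContinuousMap.mkD_apply_of_continuousOn (hcont z hz)
  refine ((cfcL (R := ℂ) hR.isStarNormal).differentiable.comp_differentiableOn h2).congr
    fun x _ => ?_
  exact cfc_eq_cfcL_mkD _ R hR.isStarNormal

/-- `cfc_integral`. -/
theorem integral_fc (hR : IsSelfAdjoint R) (hS : spectrum ℝ R ⊆ Set.Icc 0 2) {F : ℝ → ℝ → ℂ}
    (hF : ContinuousOn (fun p : ℝ × ℝ => F p.1 p.2) (Set.univ ×ˢ Set.Icc 0 2)) {b : ℝ → ℝ}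
    (hb : Integrable b) (hbd : ∀ s, ∀ r ∈ Set.Icc (0 : ℝ) 2, ‖F s r‖ ≤ b s) (η : H) :
    ∫ s, fc R (F s) η = fc R (fun r => ∫ s, F s r) η := by
  have hbd' : ∀ᵐ s : ℝ, ∀ z ∈ spectrum ℂ R, ‖F s z.re‖ ≤ b s :=
    ae_of_all _ fun s z hz => hbd s _ (hS (FC_re_mem hR hz))
  have h1 := integrable_cfc (fun (s : ℝ) (z : ℂ) => F s z.re) b R (FC_joint hR hS hF) hbd' hb.2
    hR.isStarNormal
  have h2 := cfc_integral (fun (s : ℝ) (z : ℂ) => F s z.re) b R (FC_joint hR hS hF) hbd' hb.2
    hR.isStarNormal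
  unfold fc
  rw [h2, ContinuousLinearMap.integral_apply h1]

/-- `|fT t r| = √(r (2 - r))`, which tends to `0` at the two points where `lg` is
discontinuous. -/
theorem continuousOn_fT :
    ContinuousOn (fun p : ℝ × ℝ => fT p.1 p.2) (Set.univ ×ˢ Set.Icc 0 2) := by
  have hn : ∀ p : ℝ × ℝ, ‖fT p.1 p.2‖ = √(p.2 * (2 - p.2)) := fun p => by
    have : Complex.I * p.1 * lg p.2 = ((p.1 * lg p.2 : ℝ) : ℂ) * Complex.I := by push_cast; ring
    rw [fT, norm_mul, this, Complex.norm_exp_ofReal_mul_I, one_mul, Complex.norm_real,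
      Real.norm_eq_abs, abs_of_nonneg (Real.sqrt_nonneg _)]
  intro p _
  refine ContinuousAt.continuousWithinAt ?_
  by_cases h0 : p.2 * (2 - p.2) = 0
  · have h1 : fT p.1 p.2 = 0 := by rw [← norm_eq_zero, hn, h0, Real.sqrt_zero]
    rw [ContinuousAt, h1, tendsto_zero_iff_norm_tendsto_zero]
    simp only [hn]
    have h2 : Continuous fun q : ℝ × ℝ => √(q.2 * (2 - q.2)) := by fun_prop
    have h3 := h2.tendsto p
    rwa [h0, Real.sqrt_zero] at h3
  · have h1 : p.2 ≠ 0 := left_ne_zero_of_mul h0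
    have h2 : 2 - p.2 ≠ 0 := right_ne_zero_of_mul h0
    have h3 : ContinuousAt (fun q : ℝ × ℝ => lg q.2) p := by
      unfold lg
      exact ContinuousAt.log (by fun_prop (disch := exact h1)) (div_ne_zero h2 h1)
    unfold fT
    fun_prop

end Crest.Agent.R78
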