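import Crest.Agent.R78.Basic

/-! # R78: frames: `ℓ²(I × I; H)` with two commuting Cuntz families (complete) -/

set_option autoImplicit false
set_option linter.unusedSectionVars false
open Filter Topology
open scoped InnerProductSpace

namespace Crest.Agent.R78

universe u
variable {H : Type u} [NormedAddCommGroup H] [InnerProductSpace ℂ H] [CompleteSpace H]

/-- Model: `𝓗 = ℓ²(I × I; H)` where `I` is the set of words over `A` that are eventually `o`,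
`v j` (`v' j`) prepends the letter `j` to the first (second) word, `T` moves the first letter of the
first word to the second word, `p` (`p'`) is the projection on "first (second) word is `o o o …`",
`ι` embeds `H` at the two trivial words. -/
structure Frame (H : Type u) [NormedAddCommGroup H] [InnerProductSpace ℂ H] [CompleteSpace H]
    (𝓗 : Type u) [NormedAddCommGroup 𝓗] [InnerProductSpace ℂ 𝓗] [CompleteSpace 𝓗]
    (A : Type) (o : A) where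
  ι : H →L[ℂ] 𝓗
  lift : Op H →⋆ₐ[ℂ] Op 𝓗
  v : A → Op 𝓗
  v' : A → Op 𝓗
  T : Op 𝓗
  p : Op 𝓗
  p' : Op 𝓗
  𝒥 : Type
  ev : 𝒥 → 𝓗 →L[ℂ] H
  adj_ι : ∀ η, ContinuousLinearMap.adjoint ι (ι η) = η
  ι_adj : ∀ η, ι (ContinuousLinearMap.adjoint ι η) = p (p' η)
  lift_ι : ∀ x η, lift x (ι η) = ι (x η)
  v_iso : ∀ j, star (v j) * v j = 1
  v_orth : ∀ i j, i ≠ j → star (v i) * v j = 0
  v_par : ∀ η, HasSum (fun j => ‖star (v j) η‖ ^ 2) (‖η‖ ^ 2)
  v'_iso : ∀ j, star (v' j) * v' j = 1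
  v'_orth : ∀ i j, i ≠ j → star (v' i) * v' j = 0
  v'_par : ∀ η, HasSum (fun j => ‖star (v' j) η‖ ^ 2) (‖η‖ ^ 2)
  v_v' : ∀ i j, C2 (v i) (v' j)
  lift_v : ∀ x j, lift x * v j = v j * lift x
  lift_v' : ∀ x j, lift x * v' j = v' j * lift x
  T_unitary : T ∈ unitary (Op 𝓗)
  T_v : ∀ j, T * v j = v' j
  p_proj : IsStarProjection p
  p'_proj : IsStarProjection p'
  p_p' : p * p' = p' * p
  v_p : v o * p = p
  v'_p' : v' o * p' = p'
  p_comm : ∀ X, (∀ j, C2 (v j) X) → X * p = p * X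
  p'_comm : ∀ X, (∀ j, C2 (v' j) X) → X * p' = p' * X
  p_lim : ∀ η, Tendsto (fun n : ℕ => (star T ^ n * p * T ^ n) η) atTop (𝓝 η)
  p'_lim : ∀ η, Tendsto (fun n : ℕ => (T ^ n * p' * star T ^ n) η) atTop (𝓝 η)
  ev_par : ∀ η, HasSum (fun i => ‖ev i η‖ ^ 2) (‖η‖ ^ 2)
  ev_lift : ∀ i x η, ev i (lift x η) = x (ev i η)

namespace Frame
variable {𝓗 : Type u} [NormedAddCommGroup 𝓗] [InnerProductSpace ℂ 𝓗] [CompleteSpace 𝓗]
  {A : Type} {o : A} (F : Frame H 𝓗 A o)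

/-- Exchange of the two words. -/
noncomputable def flip : Frame H 𝓗 A o :=
  { F with
    v := F.v', v' := F.v, T := star F.T, p := F.p', p' := F.p
    ι_adj := fun η => by
      rw [F.ι_adj]; exact congrArg (fun X : Op 𝓗 => X η) F.p_p'
    v_iso := F.v'_iso, v_orth := F.v'_orth, v_par := F.v'_par
    v'_iso := F.v_iso, v'_orth := F.v_orth, v'_par := F.v_par
    v_v' := fun i j => ⟨(F.v_v' j i).1.symm, (F.v_v' j i).star_right.1.symm⟩
    lift_v := F.lift_v', lift_v' := F.lift_v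
    T_unitary := Unitary.star_mem F.T_unitary
    T_v := fun j => by rw [← F.T_v, ← mul_assoc, F.T_unitary.1, one_mul]
    p_proj := F.p'_proj, p'_proj := F.p_proj, p_p' := F.p_p'.symm
    v_p := F.v'_p', v'_p' := F.v_p, p_comm := F.p'_comm, p'_comm := F.p_comm
    p_lim := by simpa only [star_star] using F.p'_lim
    p'_lim := by simpa only [star_star] using F.p_lim }

@[simp] theorem flip_ι : F.flip.ι = F.ι := rfl
@[simp] theorem flip_lift : F.flip.lift = F.lift := rfl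
@[simp] theorem flip_v : F.flip.v = F.v' := rfl
@[simp] theorem flip_v' : F.flip.v' = F.v := rfl
@[simp] theorem flip_T : F.flip.T = star F.T := rfl
@[simp] theorem flip_p : F.flip.p = F.p' := rfl
@[simp] theorem flip_p' : F.flip.p' = F.p := rfl

/-- Compression to `H`. -/
noncomputable def cmp : Op 𝓗 →ₗ[ℂ] Op H where
  toFun X := ContinuousLinearMap.adjoint F.ι ∘L X ∘L F.ι
  map_add' X Y := by ext η; simp
  map_smul' c X := by ext η; simp

theorem cmp_apply (X : Op 𝓗) (η : H) :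
    F.cmp X η = ContinuousLinearMap.adjoint F.ι (X (F.ι η)) := rfl

theorem inner_cmp (X : Op 𝓗) (η ζ : H) : ⟪ζ, F.cmp X η⟫_ℂ = ⟪F.ι ζ, X (F.ι η)⟫_ℂ := by
  rw [cmp_apply, ContinuousLinearMap.adjoint_inner_right]

@[simp] theorem flip_cmp : F.flip.cmp = F.cmp := rfl

/-- `M ⊗ B(ℓ² I) ⊗ 1`. -/
noncomputable def Mt (M : VonNeumannAlgebra H) : VonNeumannAlgebra 𝓗 :=
  vn (F.lift '' (M.commutant : Set (Op H)) ∪ Set.range F.v')

theorem mem_Mt {M : VonNeumannAlgebra H} {X : Op 𝓗} : X ∈ F.Mt M ↔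
    (∀ y ∈ M.commutant, F.lift y * X = X * F.lift y) ∧ ∀ j, C2 (F.v' j) X := by
  rw [Mt, mem_vn]
  constructor
  · exact fun h => ⟨fun y hy => (h _ (Or.inl ⟨y, hy, rfl⟩)).1, fun j => h _ (Or.inr ⟨j, rfl⟩)⟩
  · rintro ⟨h1, h2⟩ a (⟨y, hy, rfl⟩ | ⟨j, rfl⟩)
    · exact ⟨h1 y hy, by rw [← map_star]; exact h1 _ (star_mem hy)⟩
    · exact h2 j

/-- `1 ⊗ B(ℓ² I) ⊗ 1`. -/
noncomputable def Sc : VonNeumannAlgebra 𝓗 := vn (Set.range F.lift ∪ Set.range F.v')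

theorem mem_Sc {X : Op 𝓗} : X ∈ F.Sc ↔
    (∀ y, F.lift y * X = X * F.lift y) ∧ ∀ j, C2 (F.v' j) X := by
  rw [Sc, mem_vn]
  constructor
  · exact fun h => ⟨fun y => (h _ (Or.inl ⟨y, rfl⟩)).1, fun j => h _ (Or.inr ⟨j, rfl⟩)⟩
  · rintro ⟨h1, h2⟩ a (⟨y, rfl⟩ | ⟨j, rfl⟩)
    · exact ⟨h1 y, by rw [← map_star]; exact h1 _⟩
    · exact h2 j

theorem Sc_le {X : Op 𝓗} (h : X ∈ F.Sc) (M : VonNeumannAlgebra H) : X ∈ F.Mt M :=
  F.mem_Mt.2 ⟨fun y _ => (F.mem_Sc.1 h).1 y, (F.mem_Sc.1 h).2⟩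

/-- A unitary of `Mt M` that only acts on the first letter. -/
structure Dil (M : VonNeumannAlgebra H) (W : Op 𝓗) : Prop where
  mem : W ∈ F.Mt M
  uni : W ∈ unitary (Op 𝓗)
  comm : ∀ y ∈ F.Sc, W * (star F.T * y * F.T) = star F.T * y * F.T * W

/-- A simple pair of Cuntz families `W v j`, `W' v' j` with invariant vector `ι ζ`. -/
structure Pair (M : VonNeumannAlgebra H) (ζ : H) (W W' : Op 𝓗) : Prop where
  mem : W ∈ F.Mt M
  uni : W ∈ unitary (Op 𝓗)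
  mem' : W' ∈ (F.Mt M).commutant
  uni' : W' ∈ unitary (Op 𝓗)
  fix : (W' * F.T * star W) (F.ι ζ) = F.ι ζ
  simple : ∀ X, (∀ j, C2 (W * F.v j) X) → (∀ j, C2 (W' * F.v' j) X) →
    ∃ z, Ctr M z ∧ X = F.lift z

/-- Placement of the Cuntz families `W v j`, `W' v' j` in `Mt N` and its commutant. -/
structure Placed (M N : VonNeumannAlgebra H) (W W' : Op 𝓗) (ε : ℝ) (B R R' : Op 𝓗) : Prop where
  B_uni : B ∈ unitary (Op 𝓗)
  B_near : ‖B - 1‖ ≤ ε
  R_mem : R ∈ F.Mt N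
  R_uni : R ∈ unitary (Op 𝓗)
  R'_mem : R' ∈ (F.Mt N).commutant
  R'_uni : R' ∈ unitary (Op 𝓗)
  B_v : ∀ j, B * (W * F.v j) = R * F.v j * B
  B_v' : ∀ j, B * (W' * F.v' j) = R' * F.v' j * B
  pow : ∀ k : ℕ, ‖(R * star F.T) ^ k - (W * star F.T) ^ k‖ ≤ ε
  pow' : ∀ k : ℕ, ‖(R' * F.T) ^ k - (W' * F.T) ^ k‖ ≤ ε
  ctr : ∀ z, Ctr M z → Ctr N z → B * F.lift z = F.lift z * B

end Frame

end Crest.Agent.R78
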