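import Crest.Agent.R78.GBasic

/-!
# R78 (S0104, S0105): the free product of copies of `ℤ/2`
-/

set_option autoImplicit false
set_option linter.unusedSectionVars false
open scoped InnerProductSpace BigOperators

noncomputable section

namespace Crest.Agent.R78.G

open Crest.Agent.R124

namespace GFree
variable {κ : Type}

/-- reduced words -/
abbrev X (κ : Type) : Type := {l : List κ // l.IsChain (· ≠ ·)}

open Classical in
/-- the action of a generator on words -/
def act (i : κ) (l : List κ) : List κ := if l.head? = some i then l.tail else i :: l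

theorem act_cases (i : κ) (l : List κ) :
    (act i l = i :: l ∧ l.head? ≠ some i) ∨ l = i :: act i l := by
  unfold act
  split_ifs with h
  · right
    cases l with
    | nil => simp at h
    | cons a t => simp at h; simp [h]
  · exact Or.inl ⟨rfl, h⟩

theorem chain_cons {i : κ} {l : List κ} (h : l.IsChain (· ≠ ·)) (hi : l.head? ≠ some i) :
    (i :: l).IsChain (· ≠ ·) := by
  cases l with
  | nil => simp
  | cons a t =>
    rw [List.isChain_cons_cons]
    exact ⟨fun e => hi (by simp [e]), h⟩

theorem head_ne {i : κ} {l : List κ} (h : (i :: l).IsChain (· ≠ ·)) : l.head? ≠ some i := by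
  cases l with
  | nil => simp
  | cons a t =>
    rw [List.isChain_cons_cons] at h
    simpa using h.1.symm

theorem act_chain (i : κ) {l : List κ} (h : l.IsChain (· ≠ ·)) : (act i l).IsChain (· ≠ ·) := by
  rcases act_cases i l with ⟨h1, h2⟩ | h1
  · rw [h1]; exact chain_cons h h2
  · rw [h1] at h; exact h.tail

theorem act_act (i : κ) {l : List κ} (h : l.IsChain (· ≠ ·)) : act i (act i l) = l := by
  rcases act_cases i l with ⟨h1, -⟩ | h1
  · rw [h1]; simp [act]
  · have h2 : (i :: act i l).IsChain (· ≠ ·) := h1 ▸ h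
    conv_rhs => rw [h1]
    rw [act, if_neg (head_ne h2)]

/-- the generators -/
def γ (i : κ) : Equiv.Perm (X κ) :=
  Function.Involutive.toPerm (fun l => ⟨act i l.1, act_chain i l.2⟩)
    fun l => Subtype.ext (act_act i l.2)

theorem γ_apply (i : κ) (l : X κ) : (γ i l).1 = act i l.1 := rfl

theorem γ_sq (i : κ) : γ i * γ i = 1 :=
  Equiv.ext fun l => Subtype.ext (act_act i l.2)

/-- the product over a word -/
def pr (l : List κ) : Equiv.Perm (X κ) := (l.map γ).prod

/-- the word of a permutation -/
def wd (y : Equiv.Perm (X κ)) : List κ := (y ⟨[], List.isChain_nil⟩).1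

theorem pr_cons (i : κ) (l : List κ) : pr (i :: l) = γ i * pr l := by simp [pr]

theorem pr_concat (i : κ) (l : List κ) : pr (l ++ [i]) = pr l * γ i := by simp [pr]

theorem wd_mul (i : κ) (y : Equiv.Perm (X κ)) : wd (γ i * y) = act i (wd y) := rfl

theorem wd_pr {l : List κ} (h : l.IsChain (· ≠ ·)) : wd (pr l) = l := by
  induction l with
  | nil => rfl
  | cons a t ih =>
    rw [pr_cons, wd_mul, ih h.tail, act, if_neg (head_ne h)]

theorem γ_mul_pr (i : κ) (l : List κ) : γ i * pr l = pr (act i l) := by
  rcases act_cases i l with ⟨h1, -⟩ | h1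
  · rw [h1, pr_cons]
  · conv_lhs => rw [h1, pr_cons, ← mul_assoc, γ_sq, one_mul]

theorem exists_pr {y : Equiv.Perm (X κ)} (hy : y ∈ Subgroup.closure (Set.range (γ (κ := κ)))) :
    ∃ l : List κ, l.IsChain (· ≠ ·) ∧ y = pr l := by
  induction hy using Subgroup.closure_induction_left with
  | one => exact ⟨[], List.isChain_nil, rfl⟩
  | mul_left x hx y _ ih =>
    obtain ⟨i, rfl⟩ := hx
    obtain ⟨l, h1, rfl⟩ := ih
    exact ⟨_, act_chain i h1, γ_mul_pr i l⟩
  | inv_mul_cancel x hx y _ ih =>
    obtain ⟨i, rfl⟩ := hx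
    obtain ⟨l, h1, rfl⟩ := ih
    refine ⟨_, act_chain i h1, ?_⟩
    rw [inv_eq_of_mul_eq_one_right (γ_sq i), γ_mul_pr i l]

theorem pr_mul_γ (i : κ) {l : List κ} (h : l.IsChain (· ≠ ·)) :
    ∃ l' : List κ, l'.IsChain (· ≠ ·) ∧ pr l * γ i = pr l' ∧ (l' = l ++ [i] ∨ l = l' ++ [i]) := by
  rcases List.eq_nil_or_concat l with rfl | ⟨t, b, rfl⟩
  · exact ⟨[i], by simp, by simp [pr], Or.inl rfl⟩
  · rw [List.concat_eq_append] at h ⊢
    by_cases hb : b = i
    · subst hb
      refine ⟨t, (List.isChain_append.1 h).1, ?_, Or.inr rfl⟩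
      rw [pr_concat, mul_assoc, γ_sq, mul_one]
    · refine ⟨t ++ [b] ++ [i], ?_, (pr_concat _ _).symm, Or.inl rfl⟩
      rw [List.isChain_append]
      refine ⟨h, by simp, ?_⟩
      simp [hb]

end GFree

/-- **Existence of the free product.**  Any construction is fine.  Suggestion: let `X` be the
subtype of lists with `IsChain (· ≠ ·)`, `γ i : Equiv.Perm X` the involution which removes the head
if it is `i` and prepends `i` otherwise, `G := Subgroup.closure (range γ)`, `wd y := (y [] : X).1`.
Every `y ∈ G` is the product of `γ` over the reduced list `wd y` (closure induction by left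
multiplication, `Subgroup.closure_induction_left`; the product over a reduced list `l` sends `[]`
to `l`), so `wd` is injective (countability) and `wd (prod l) = l`.  `step` is the definition of
`γ`.  `conj`: if `y ≠ 1` and `head (wd y) ≠ i` then `y g_i` is the product over `wd y ++ [i]` or over
`(wd y).dropLast` (non-empty since `wd y ≠ [i]`), whichever is reduced, so its head is the head of
`wd y`, and `g_i (y g_i)` has head `i`.  (Alternatively use `Monoid.CoprodI` and its `Word.equiv`.) -/
theorem exists_freeZ2 (κ : Type) [Countable κ] :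
    ∃ (G : Type) (_ : Group G) (_ : Countable G) (g : κ → G) (wd : G → List κ), FreeZ2 g wd := by
  let Γ := Subgroup.closure (Set.range (GFree.γ (κ := κ)))
  have hinj : Function.Injective fun y : Γ => GFree.wd y.1 := fun y z h => by
    obtain ⟨l, h1, h2⟩ := GFree.exists_pr y.2
    obtain ⟨l', h1', h2'⟩ := GFree.exists_pr z.2
    simp only [h2, h2', GFree.wd_pr h1, GFree.wd_pr h1'] at h
    exact Subtype.ext (by rw [h2, h2', h])
  refine ⟨Γ, inferInstance, hinj.countable,
    fun i => ⟨GFree.γ i, Subgroup.subset_closure ⟨i, rfl⟩⟩, fun y => GFree.wd y.1,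
    fun y => (y.1 _).2, rfl, fun i => Subtype.ext (GFree.γ_sq i), fun i y => ?_,
    fun i y hy hi => ?_⟩
  · exact (GFree.act_cases i (GFree.wd y.1)).imp (fun h => h.1) id
  · obtain ⟨l, h1, h2⟩ := GFree.exists_pr y.2
    obtain ⟨l', h3, h4, h5⟩ := GFree.pr_mul_γ i h1
    change (GFree.wd (GFree.γ i * y.1 * GFree.γ i)).head? = some i
    simp only [h2, GFree.wd_pr h1] at hi
    have hl : l ≠ [] := fun e => hy (Subtype.ext (by rw [h2, e]; rfl))
    have h6 : l'.head? ≠ some i := by
      rcases h5 with h5 | h5
      · rw [h5]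
        cases l with
        | nil => exact absurd rfl hl
        | cons a t => simpa using hi
      · rw [h5] at hi
        cases l' with
        | nil => simp
        | cons a t => simpa using hi
    rw [h2, mul_assoc, h4, ← GFree.pr_cons, GFree.wd_pr (GFree.chain_cons h3 h6)]
    rfl

end Crest.Agent.R78.G
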