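import Crest.Agent.R78.GL2
import Crest.Agent.R78.GFree

/-!
# R78 (S0104, S0105): the two models
-/

set_option autoImplicit false
set_option linter.unusedSectionVars false
open scoped InnerProductSpace BigOperators

noncomputable section

namespace Crest.Agent.R78.G

open Crest.Agent.R124

open Crest.Agent.R73 (L2 dl ext_dl)

section Aux
variable {J : Type} [DecidableEq J]

open Classical in
theorem gmod_ind_dl (p : J → Prop) (j : J) : ind p (dl j) = if p j then dl j else 0 := by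
  split_ifs with h
  · exact ind_dl_pos h
  · exact ind_dl_neg h

theorem gmod_perm_apply (σ : Equiv.Perm J) (η : L2 J) (z : J) : perm σ η z = η (σ.symm z) := by
  have h := star_perm σ.symm
  rw [Equiv.symm_symm, perm, star_star] at h
  rw [← h]; rfl

theorem gmod_dl_ne (j : J) : (dl j : L2 J) ≠ 0 := by
  rw [← norm_ne_zero_iff, R73.norm_dl]; exact one_ne_zero

theorem gmod_cm {κ G C A' C' : Type} [Group G] (g : κ → G) (wd : G → List κ) {e : J ≃ (G × G) × C}
    {e' : J ≃ A' × C'} (h : IndepL e e') {z : L2 J →L[ℂ] L2 J} (hz : z ∈ Leg e') : (mkSide g wd e).Cm z :=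
  mkSide_cm g wd e fun _ ha => (h.commute ha hz).symm

theorem gmod_fin {ι : Type} [Fintype ι] (z : ι → J) (hz : Function.Injective z) (T : L2 J →L[ℂ] L2 J)
    (h1 : ∀ k, T (dl (z k)) = dl (z k)) (h2 : ∀ j, (∀ k, z k ≠ j) → T (dl j) = 0) :
    FiniteDimensional ℂ T.range := by
  have e : T = ∑ k, (innerSL ℂ (dl (z k))).smulRight (dl (z k)) := by
    refine ext_dl fun j => ?_
    simp only [sum_apply, ContinuousLinearMap.smulRight_apply, innerSL_apply_apply,
      R73.inner_dl, R73.dl_apply]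
    by_cases h : ∃ k, z k = j
    · obtain ⟨k, rfl⟩ := h
      rw [h1, Finset.sum_eq_single k]
      · simp
      · intro l _ hl
        rw [if_neg fun h => hl (hz h), zero_smul]
      · simp
    · push Not at h
      rw [h2 j h]
      exact (Finset.sum_eq_zero fun k _ => by rw [if_neg (h k), zero_smul]).symm
  have : FiniteDimensional ℂ (Submodule.span ℂ (Set.range fun k => (dl (z k) : L2 J))) :=
    FiniteDimensional.span_of_finite ℂ (Set.finite_range _)
  refine Submodule.finiteDimensional_of_le (S₂ := Submodule.span ℂ (Set.range fun k => (dl (z k) : L2 J))) ?_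
  rintro _ ⟨ψ, rfl⟩
  change T ψ ∈ _
  rw [e, sum_apply]
  exact Submodule.sum_mem _ fun k _ => Submodule.smul_mem _ _ (Submodule.subset_span ⟨k, rfl⟩)

end Aux

section Mu
variable {G : Type} [Group G] [DecidableEq G]

/-- regrouping of the coordinates -/
def gmodE (G : Type) : (G × G) × ℕ ≃ (G × ℕ) × G where
  toFun z := ((z.1.1, z.2), z.1.2)
  invFun w := ((w.1.1, w.2), w.1.2)
  left_inv _ := rfl
  right_inv _ := rfl

/-- the permutation part of `mu` -/
def gmodS (j j' : G × ℕ) (h : G) : Equiv.Perm ((G × G) × ℕ) :=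
  (gmodE G).trans (((Equiv.swap j' j).prodCongr (Equiv.mulLeft h)).trans (gmodE G).symm)

/-- `e_{j j'} ⊗ λ(h)` -/
def gmodMu (j j' : G × ℕ) (h : G) : L2 ((G × G) × ℕ) →L[ℂ] L2 ((G × G) × ℕ) :=
  perm (gmodS j j' h) * ind fun z => (z.1.1, z.2) = j'

theorem gmodMu_dl (j j' : G × ℕ) (h x y : G) (n : ℕ) :
    gmodMu j j' h (dl ((x, y), n)) = if (x, n) = j' then dl ((j.1, h * y), j.2) else 0 := by
  rw [gmodMu, mul_apply_eq_comp]
  split_ifs with hj
  · rw [ind_dl_pos (by exact hj), perm_dl]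
    congr 1
    change (gmodE G).symm (Equiv.swap j' j (x, n), h * y) = _
    rw [hj, Equiv.swap_apply_left]; rfl
  · rw [ind_dl_neg (by exact hj), map_zero]

theorem gmodMu_star (j j' : G × ℕ) (h : G) : star (gmodMu j j' h) = gmodMu j' j h⁻¹ := by
  refine ext_dl ?_
  rintro ⟨⟨x, y⟩, n⟩
  rw [gmodMu_dl, gmodMu, star_mul, star_perm, (ind_proj _).isSelfAdjoint.star_eq, mul_apply_eq_comp, perm_dl]
  have e : (gmodS j j' h).symm ((x, y), n) = (gmodE G).symm (Equiv.swap j' j (x, n), h⁻¹ * y) := rfl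
  rw [e]
  split_ifs with hj
  · rw [hj, Equiv.swap_apply_right]
    exact ind_dl_pos rfl
  · refine ind_dl_neg fun h' => hj ?_
    change Equiv.swap j' j (x, n) = j' at h'
    rwa [Equiv.swap_apply_eq_iff, Equiv.swap_apply_left] at h'

theorem gmodMu_one (j : G × ℕ) : gmodMu j j (1 : G) = ind fun z : (G × G) × ℕ => (z.1.1, z.2) = j := by
  refine ext_dl ?_
  rintro ⟨⟨x, y⟩, n⟩
  rw [gmodMu_dl]
  split_ifs with hj
  · rw [ind_dl_pos (by exact hj), ← hj, one_mul]
  · rw [ind_dl_neg (by exact hj)]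

/-- right translation -/
def gmodR (h : G) : Equiv.Perm ((G × G) × ℕ) :=
  ((Equiv.refl G).prodCongr (Equiv.mulRight h)).prodCongr (Equiv.refl ℕ)

theorem gmodR_comm (h : G) (j j' : G × ℕ) (h' : G) : Commute (perm (gmodR h)) (gmodMu j j' h') := by
  refine ext_dl ?_
  rintro ⟨⟨x, y⟩, n⟩
  have e : ∀ x y n, gmodR h ((x, y), n) = ((x, y * h), n) := fun _ _ _ => rfl
  rw [mul_apply_eq_comp, mul_apply_eq_comp, perm_dl, e, gmodMu_dl, gmodMu_dl]
  split_ifs
  · rw [perm_dl, e, mul_assoc]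
  · rw [map_zero]

theorem gmod_tr (j : G × ℕ) (b : L2 ((G × G) × ℕ) →L[ℂ] L2 ((G × G) × ℕ))
    (hb : b ∈ Set.centralizer (Set.centralizer (muSet gmodMu))) (h1 : gmodMu j j 1 * b = b)
    (h2 : b * gmodMu j j 1 = b) :
    ‖b (dl ((j.1, 1), j.2))‖ = ‖star b (dl ((j.1, 1), j.2))‖ ∧ (b (dl ((j.1, 1), j.2)) = 0 → b = 0) := by
  have hc : ∀ h : G, perm (gmodR h) * b = b * perm (gmodR h) := fun h =>
    hb _ (by rintro _ ⟨l, l', h', rfl⟩; exact (gmodR_comm h l l' h').symm)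
  have a1 : ∀ y : G, b (dl ((j.1, y), j.2)) = perm (gmodR y) (b (dl ((j.1, 1), j.2))) := fun y => by
    rw [← mul_apply_eq_comp, hc, mul_apply_eq_comp, perm_dl]
    congr 2
    change _ = ((j.1, 1 * y), j.2)
    rw [one_mul]
  have a2 : ∀ (x y : G) (n : ℕ), (x, n) ≠ j → b (dl ((x, y), n)) = 0 := fun x y n hj => by
    rw [← h2, mul_apply_eq_comp, gmodMu_dl, if_neg hj, map_zero]
  have a3 : ∀ (x y : G) (n : ℕ), (x, n) ≠ j → b (dl ((j.1, 1), j.2)) ((x, y), n) = 0 := fun x y n hj => by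
    rw [← h1, mul_apply_eq_comp, gmodMu_one, ind_apply, if_neg (by exact hj)]
  constructor
  · let ι : Equiv.Perm ((G × G) × ℕ) := ((Equiv.refl G).prodCongr (Equiv.inv G)).prodCongr (Equiv.refl ℕ)
    have a4 : ∀ z, ‖star b (dl ((j.1, 1), j.2)) z‖ = ‖perm ι (b (dl ((j.1, 1), j.2))) z‖ := by
      rintro ⟨⟨x, y⟩, n⟩
      rw [gmod_perm_apply, ← R73.inner_dl ((x, y), n), ContinuousLinearMap.star_eq_adjoint,
        ContinuousLinearMap.adjoint_inner_right, norm_inner_symm, R73.inner_dl]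
      change _ = ‖b (dl ((j.1, 1), j.2)) ((x, y⁻¹), n)‖
      by_cases hj : (x, n) = j
      · subst hj
        rw [a1 y, gmod_perm_apply]
        change ‖b (dl ((x, 1), n)) ((x, 1 * y⁻¹), n)‖ = _
        rw [one_mul]
      · rw [a2 x y n hj, a3 x _ n hj]; rfl
    rw [← ContinuousLinearMap.norm_map_of_mem_unitary (perm_unitary ι)]
    exact le_antisymm (lp.norm_mono (by norm_num) fun z => (a4 z).ge)
      (lp.norm_mono (by norm_num) fun z => (a4 z).le)
  · intro h0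
    refine ext_dl ?_
    rintro ⟨⟨x, y⟩, n⟩
    by_cases hj : (x, n) = j
    · subst hj
      rw [a1 y, h0, map_zero]; rfl
    · rw [a2 x y n hj]; rfl

end Mu

/-- **Model for S0104.**  `J = (G × G) × ((G × G) × ZMod n)`, `H = L2 J`, the three coordinates
`e₁ = refl`, `e₂ : (a, b, c) ↦ (b, a, c)`, `e₃ : (a, b, c) ↦ (c, a, b)` are pairwise `IndepL` (by `rfl`);
`S_i = mkSide g wd e_i`, `U = perm (lift e₃ (Equiv.addRight 1))`, `e k = ind (third coordinate = k)`.
The product of the four projections is `ind (a = (1,1) ∧ b = (1,1))`; its range is contained in the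
span of the `n` vectors `dl ((1,1), (1,1), k)` (`p ψ = ∑_k ψ(.., k) • dl ..`). -/
theorem exists_model104 (κ : Type) [Countable κ] (n : ℕ) [NeZero n] :
    ∃ (G : Type) (_ : Group G) (g : κ → G) (wd : G → List κ) (H : Type) (_ : NormedAddCommGroup H)
      (_ : InnerProductSpace ℂ H) (_ : CompleteSpace H) (_ : TopologicalSpace.SeparableSpace H)
      (S₁ S₂ : Side κ G H) (e : ZMod n → (H →L[ℂ] H)) (U : H →L[ℂ] H),
      FreeZ2 g wd ∧ S₁.Ok g ∧ S₂.Ok g ∧ S₁.Indep S₂ ∧ S₂.Indep S₁ ∧ Res e ∧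
      U ∈ unitary (H →L[ℂ] H) ∧ (∀ k, U * e k = e (k + 1) * U) ∧ S₁.Cm U ∧ S₂.Cm U ∧
      (∀ k, S₁.Cm (e k)) ∧ (∀ k, S₂.Cm (e k)) ∧
      S₂.P * S₂.E 1 * (S₁.P * S₁.E 1) ≠ 0 ∧
      FiniteDimensional ℂ (S₂.P * S₂.E 1 * (S₁.P * S₁.E 1)).range := by
  classical
  obtain ⟨G, _, _, g, wd, hG⟩ := exists_freeZ2 κ
  let e₁ : (G × G) × ((G × G) × ZMod n) ≃ (G × G) × ((G × G) × ZMod n) := Equiv.refl _
  let e₂ : (G × G) × ((G × G) × ZMod n) ≃ (G × G) × ((G × G) × ZMod n) :=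
    ⟨fun z => (z.2.1, (z.1, z.2.2)), fun z => (z.2.1, (z.1, z.2.2)), fun _ => rfl, fun _ => rfl⟩
  let e₃ : (G × G) × ((G × G) × ZMod n) ≃ ZMod n × ((G × G) × (G × G)) :=
    ⟨fun z => (z.2.2, (z.1, z.2.1)), fun z => (z.2.1, (z.2.2, z.1)), fun _ => rfl, fun _ => rfl⟩
  have h12 : IndepL e₁ e₂ := ⟨fun _ _ => rfl, fun _ _ => rfl, fun _ _ _ => rfl⟩
  have h21 : IndepL e₂ e₁ := ⟨fun _ _ => rfl, fun _ _ => rfl, fun _ _ _ => rfl⟩
  have h13 : IndepL e₁ e₃ := ⟨fun _ _ => rfl, fun _ _ => rfl, fun _ _ _ => rfl⟩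
  have h23 : IndepL e₂ e₃ := ⟨fun _ _ => rfl, fun _ _ => rfl, fun _ _ _ => rfl⟩
  have hT : ∀ z : (G × G) × ((G × G) × ZMod n),
      ((mkSide g wd e₂).P * (mkSide g wd e₂).E 1 * ((mkSide g wd e₁).P * (mkSide g wd e₁).E 1)) (dl z) =
        if z.1 = (1, 1) ∧ z.2.1 = (1, 1) then dl z else 0 := by
    rintro ⟨⟨a, a'⟩, ⟨b, b'⟩, c⟩
    simp only [mkSide, mul_apply_eq_comp, gmod_ind_dl, apply_ite (ind _), map_zero, Prod.mk.injEq]
    change (if a' = 1 then (if a = 1 then (if b' = 1 then (if b = 1 then _ else 0) else 0) else 0) else 0) = _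
    by_cases a = 1 <;> by_cases a' = 1 <;> by_cases b = 1 <;> by_cases b' = 1 <;> simp [*]
  refine ⟨G, inferInstance, g, wd, L2 ((G × G) × ((G × G) × ZMod n)), inferInstance, inferInstance,
    inferInstance, separable_L2, mkSide g wd e₁, mkSide g wd e₂, fun k => ind fun z => (e₃ z).1 = k,
    perm (lift e₃ (Equiv.addRight 1)), hG, mkSide_ok hG _, mkSide_ok hG _, mkSide_indep g wd h12,
    mkSide_indep g wd h21, res_ind fun z => (e₃ z).1, perm_unitary _, fun k => ?_,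
    gmod_cm g wd h13 (Or.inl ⟨_, rfl⟩), gmod_cm g wd h23 (Or.inl ⟨_, rfl⟩),
    fun k => gmod_cm g wd h13 (Or.inr ⟨fun c => c = k, rfl⟩),
    fun k => gmod_cm g wd h23 (Or.inr ⟨fun c => c = k, rfl⟩), fun h0 => ?_, ?_⟩
  · refine ext_dl fun z => ?_
    beta_reduce
    rw [mul_apply_eq_comp, mul_apply_eq_comp, perm_dl]
    by_cases hz : (e₃ z).1 = k
    · rw [ind_dl_pos (j := z) (by exact hz), perm_dl, ind_dl_pos]
      change (e₃ z).1 + 1 = k + 1
      rw [hz]
    · rw [ind_dl_neg (j := z) (by exact hz), map_zero, ind_dl_neg]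
      change ¬ (e₃ z).1 + 1 = k + 1
      rwa [add_left_inj]
  · have := hT ((1, 1), (1, 1), 0)
    rw [h0, if_pos ⟨rfl, rfl⟩] at this
    exact gmod_dl_ne _ this.symm
  · refine gmod_fin (fun k : ZMod n => (((1, 1), (1, 1), k) : (G × G) × ((G × G) × ZMod n)))
      (fun k l h => by simpa using h) _ (fun k => ?_) fun j hj => ?_
    · rw [hT, if_pos ⟨rfl, rfl⟩]
    · rw [hT, if_neg]
      rintro ⟨a1, a2⟩
      exact hj j.2.2 (Prod.ext a1.symm (Prod.ext a2.symm rfl))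

/-- **Model for S0105.**  `J = (G × G) × ℕ ∋ ((x, y), n)`, `S = mkSide g wd (Equiv.refl _)`;
`mu j j' h` sends `dl ((x, y), n)` to `dl ((j.1, h * y), j.2)` if `(x, n) = j'` and to `0` otherwise
(a permutation operator built from `Equiv.swap j j'` and `Equiv.mulLeft h`, times an indicator);
`q n = ind (·.2 = n)`, `s n m = perm` of `Equiv.swap n m` on the last coordinate,
`QR i = ind (head (wd y⁻¹) = i)` (`(y g_i)⁻¹ = g_i y⁻¹`, `FreeZ2.head_mul`), `η n = dl ((1,1), n)`,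
`ζ j = dl ((j.1, 1), j.2)`.  `tr`: `ρ h = perm (y ↦ y h)` commutes with all `mu`, hence with `b` and
`b*`.  With `δ y = dl ((j.1, y), j.2)`: `b (δ y) = ρ y (b ζ)`, `b` kills the other basis vectors, which
gives faithfulness; `b ζ` and `b* ζ` are supported on the `δ y` and
`(b* ζ)(y) = ⟪δ y, b* ζ⟫ = conj ⟪ζ, ρ y (b ζ)⟫ = conj ((b ζ)(y⁻¹))`, so the norms agree
(`lp.hasSum_norm` and the involution `((x, y), n) ↦ ((x, y⁻¹), n)` of `J`). -/
theorem exists_model105 (κ : Type) [Countable κ] :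
    ∃ (G : Type) (_ : Group G) (_ : Countable G) (g : κ → G) (wd : G → List κ) (H : Type)
      (_ : NormedAddCommGroup H) (_ : InnerProductSpace ℂ H) (_ : CompleteSpace H)
      (_ : TopologicalSpace.SeparableSpace H) (S : Side κ G H)
      (mu : G × ℕ → G × ℕ → G → (H →L[ℂ] H)) (q : ℕ → (H →L[ℂ] H)) (s : ℕ → ℕ → (H →L[ℂ] H))
      (ζ : G × ℕ → H) (QR : κ → (H →L[ℂ] H)) (η : ℕ → H),
      FreeZ2 g wd ∧ S.Ok g ∧ Mu mu q s ζ ∧ Five g S mu q s QR η := by
  classical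
  obtain ⟨G, _, _, g, wd, hG⟩ := exists_freeZ2 κ
  let e₁ : (G × G) × ℕ ≃ (G × G) × ℕ := Equiv.refl _
  let e₂ : (G × G) × ℕ ≃ ℕ × (G × G) := Equiv.prodComm _ _
  have h12 : IndepL e₁ e₂ := ⟨fun _ _ => rfl, fun _ _ => rfl, fun _ _ _ => rfl⟩
  have hs : ∀ (n m : ℕ) (a : G × G) (k : ℕ),
      perm (lift e₂ (Equiv.swap n m)) (dl (a, k)) = dl (a, Equiv.swap n m k) := fun n m a k => perm_dl _ _
  have hΛ : ∀ i (x y : G) (k : ℕ), (mkSide g wd e₁).Λ i (dl ((x, y), k)) = dl ((g i * x, y), k) :=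
    fun i x y k => perm_dl _ _
  have hL : ∀ i (x y : G) (k : ℕ), (mkSide g wd e₁).L i (dl ((x, y), k)) = dl ((x, g i * y), k) :=
    fun i x y k => perm_dl _ _
  have hR : ∀ i (x y : G) (k : ℕ), (mkSide g wd e₁).R i (dl ((x, y), k)) = dl ((x, y * g i), k) :=
    fun i x y k => perm_dl _ _
  refine ⟨G, inferInstance, inferInstance, g, wd, L2 ((G × G) × ℕ), inferInstance, inferInstance,
    inferInstance, separable_L2, mkSide g wd e₁, gmodMu, fun n => ind fun z => (e₂ z).1 = n,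
    fun n m => perm (lift e₂ (Equiv.swap n m)), fun j => dl ((j.1, 1), j.2),
    fun i => ind fun z => (wd z.1.2⁻¹).head? = some i, fun n => dl ((1, 1), n), hG, mkSide_ok hG _,
    ⟨fun j l l' h h' => ?_, fun j j' l l' h h' hne => ?_, gmodMu_star, ?_, res_ind fun z => (e₂ z).1,
      fun n j j' h => ?_, fun n j j' h hn => ?_, fun n m => perm_unitary _, fun n m => ?_,
      fun n m j j' h => ⟨(j.1, Equiv.swap n m j.2), ?_⟩, fun j => ?_, gmod_tr⟩,
    ⟨fun i x n j' h => ?_, fun j j' h => ?_, fun i j j' h => ?_, fun i j j' h => gmodR_comm (g i) j j' h,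
      fun n => gmod_cm g wd h12 (Or.inr ⟨fun c => c = n, rfl⟩),
      fun n n' => gmod_cm g wd h12 (Or.inl ⟨_, rfl⟩), fun i => ind_proj _, fun i j hij => ?_, fun i => ?_,
      fun n => R73.norm_dl _, fun n => ind_dl_pos rfl, fun n => ind_dl_pos rfl, fun i n => ?_⟩⟩
  · refine ext_dl ?_
    rintro ⟨⟨x, y⟩, k⟩
    rw [mul_apply_eq_comp, gmodMu_dl, gmodMu_dl]
    split_ifs
    · rw [gmodMu_dl, if_pos rfl, mul_assoc]
    · rw [map_zero]
  · refine ext_dl ?_
    rintro ⟨⟨x, y⟩, k⟩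
    rw [mul_apply_eq_comp, gmodMu_dl]
    split_ifs
    · rw [gmodMu_dl, if_neg (Ne.symm hne)]; rfl
    · rw [map_zero]; rfl
  · simp only [gmodMu_one]
    exact res_ind fun z : (G × G) × ℕ => (z.1.1, z.2)
  · by_cases hn : j.2 = n
    · refine Or.inl (ext_dl ?_)
      rintro ⟨⟨x, y⟩, k⟩
      rw [mul_apply_eq_comp, gmodMu_dl]
      split_ifs
      · exact ind_dl_pos hn
      · rw [map_zero]
    · refine Or.inr (ext_dl ?_)
      rintro ⟨⟨x, y⟩, k⟩
      rw [mul_apply_eq_comp, gmodMu_dl]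
      split_ifs
      · exact ind_dl_neg hn
      · rw [map_zero]; rfl
  · refine ext_dl ?_
    rintro ⟨⟨x, y⟩, k⟩
    rw [mul_apply_eq_comp]
    by_cases hk : k = n
    · rw [ind_dl_pos (by exact hk), gmodMu_dl, if_neg]
      · rfl
      · rintro rfl; exact hn hk.symm
    · rw [ind_dl_neg (by exact hk), map_zero]; rfl
  · refine ext_dl ?_
    rintro ⟨a, k⟩
    rw [mul_apply_eq_comp, mul_apply_eq_comp, hs]
    by_cases hk : k = m
    · rw [ind_dl_pos (by exact hk), hs, ind_dl_pos]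
      change Equiv.swap n m k = n
      rw [hk, Equiv.swap_apply_right]
    · rw [ind_dl_neg (by exact hk), map_zero, ind_dl_neg]
      change ¬ Equiv.swap n m k = n
      rwa [Equiv.swap_apply_eq_iff, Equiv.swap_apply_left]
  · refine ext_dl ?_
    rintro ⟨⟨x, y⟩, k⟩
    rw [mul_apply_eq_comp, gmodMu_dl, gmodMu_dl]
    split_ifs
    · exact hs _ _ _ _
    · rw [map_zero]
  · rw [gmodMu_dl, if_pos rfl, one_mul]
  · refine ext_dl ?_
    rintro ⟨⟨x', y⟩, k⟩
    rw [mul_apply_eq_comp, gmodMu_dl, gmodMu_dl]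
    split_ifs
    · exact hΛ _ _ _ _
    · rw [map_zero]
  · by_cases hn : j.1 = 1
    · refine Or.inl (ext_dl ?_)
      rintro ⟨⟨x, y⟩, k⟩
      rw [mul_apply_eq_comp, gmodMu_dl]
      split_ifs
      · exact ind_dl_pos hn
      · rw [map_zero]
    · refine Or.inr (ext_dl ?_)
      rintro ⟨⟨x, y⟩, k⟩
      rw [mul_apply_eq_comp, gmodMu_dl]
      split_ifs
      · exact ind_dl_neg hn
      · rw [map_zero]; rfl
  · refine ext_dl ?_
    rintro ⟨⟨x', y⟩, k⟩
    rw [mul_apply_eq_comp, gmodMu_dl, gmodMu_dl]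
    split_ifs
    · rw [hL, mul_assoc]
    · rw [map_zero]
  · refine ext_dl fun z => ?_
    rw [mul_apply_eq_comp]
    by_cases hz : (wd z.1.2⁻¹).head? = some j
    · rw [ind_dl_pos (j := z) (by exact hz), ind_dl_neg]
      · rfl
      · rw [hz]; exact fun h => hij (Option.some.inj h).symm
    · rw [ind_dl_neg (j := z) (by exact hz), map_zero]; rfl
  · refine ext_dl ?_
    rintro ⟨⟨x, y⟩, k⟩
    rw [mul_apply_eq_comp, mul_apply_eq_comp, sub_apply, sub_apply, one_apply_eq_self, one_apply_eq_self]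
    by_cases hz : (wd y⁻¹).head? = some i
    · rw [ind_dl_pos (by exact hz), sub_self, map_zero, map_zero, sub_zero]; rfl
    · rw [ind_dl_neg (by exact hz), sub_zero, hR, ind_dl_pos, sub_self]
      · rfl
      · change (wd (y * g i)⁻¹).head? = some i
        rw [mul_inv_rev, inv_eq_of_mul_eq_one_right (hG.sq i), hG.head_mul]
        exact hz
  · rw [hR, hL, one_mul, hG.sq]

end Crest.Agent.R78.G
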