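import Crest.Agent.R78.GBasic

/-!
# R78 (S0104, S0105): the Exel–Loring obstruction
-/

set_option autoImplicit false
set_option linter.unusedSectionVars false
open scoped InnerProductSpace BigOperators

noncomputable section

namespace Crest.Agent.R78.G

open Crest.Agent.R124

theorem gobs_const {g : ℝ → ℂ} (hg : Continuous g) {c : ℂ} (he : ∀ t, Complex.exp (g t) = c)
    (a b : ℝ) : g a = g b :=
  Complex.isCoveringMap_exp.const_of_comp hg
    (fun t t' => Subtype.ext ((he t).trans (he t').symm)) a b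

/-- **Winding.**  A nowhere vanishing continuous `h` on the plane has a continuous logarithm `L`
(`Complex.exists_continuousOn_eqOn_exp_comp` on `univ`).  A continuous function on `ℝ` whose
exponential is constant is constant (values in a coset of `2πiℤ`; e.g. `IsPreconnected.constant` or
`Complex.isCoveringMap_exp.const_of_comp`).  Hence `t ↦ L (1, t) - L (0, t)` is constant, it is `0` at
`t = 1`, and `s ↦ L (s, 0) - d log (φ s)` is constant (`φ s` is in the slit plane), so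
`d (log (φ 1) - log (φ 0)) = 0`. -/
theorem winding {h : ℝ × ℝ → ℂ} (hc : Continuous h) (h0 : ∀ p, h p ≠ 0)
    (hper : ∀ t, h (0, t) = h (1, t)) (hone : ∀ s, h (s, 1) = h (0, 1)) {φ : ℝ → ℂ}
    (hφ : Continuous φ) (hφ' : ∀ s, ‖φ s - 1‖ < 1) (hφ0 : φ 0 = 1) {d : ℕ} (hd : d ≠ 0) {c : ℂ}
    (hzero : ∀ s, h (s, 0) = φ s ^ d * c) : φ 1 = 1 := by
  have hsc : IsSimplyConnected (Set.univ : Set (ℝ × ℝ)) := by
    have : ContractibleSpace (Set.univ : Set (ℝ × ℝ)) :=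
      (convex_univ (𝕜 := ℝ)).contractibleSpace Set.univ_nonempty
    exact SimplyConnectedSpace.ofContractible _
  obtain ⟨L, hL, hLe⟩ := Complex.exists_continuousOn_eqOn_exp_comp hsc isOpen_univ
    hc.continuousOn (by rintro ⟨p, -, hp⟩; exact h0 p hp)
  rw [continuousOn_univ] at hL
  have hE : ∀ p, Complex.exp (L p) = h p := fun p => hLe (Set.mem_univ p)
  have hs : ∀ s, φ s ∈ Complex.slitPlane := fun s => by
    have := Complex.mem_slitPlane_of_norm_lt_one (hφ' s)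
    rwa [add_sub_cancel] at this
  have hne : ∀ s, φ s ≠ 0 := fun s => Complex.slitPlane_ne_zero (hs s)
  have h1 := gobs_const (g := fun t => L (1, t) - L (0, t)) (by fun_prop) (c := 1)
    (fun t => by rw [Complex.exp_sub, hE, hE, hper, div_self (h0 _)]) 0 1
  have h2 := gobs_const (g := fun s => L (s, 1)) (by fun_prop) (c := h (0, 1))
    (fun s => by rw [hE, hone]) 1 0
  have hlog : Continuous fun s => Complex.log (φ s) := hφ.clog hs
  have h3 := gobs_const (g := fun s => L (s, 0) - d * Complex.log (φ s)) (by fun_prop) (c := c)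
    (fun s => by
      rw [Complex.exp_sub, hE, hzero, Complex.exp_nat_mul, Complex.exp_log (hne s)]
      exact mul_div_cancel_left₀ _ (pow_ne_zero _ (hne s))) 1 0
  simp only [hφ0, Complex.log_one, mul_zero, sub_zero] at h1 h2 h3
  have h4 : (d : ℂ) * Complex.log (φ 1) = 0 := by linear_combination h1 + h2 - h3
  have h5 := (mul_eq_zero.1 h4).resolve_left (Nat.cast_ne_zero.2 hd)
  rw [← Complex.exp_log (hne 1), h5, Complex.exp_zero]

/-- **Finite-dimensional obstruction.**  Let `σ : ℝ → [0,1]` be the clamp, `x_t = u + σ t (x - u)`,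
`y_t = v + σ t (y - v)`, `h (s, t) = det ((1 - σ s) y_t x_t + σ s x_t y_t)`
(`ContinuousLinearMap.det`, `ContinuousLinearMap.continuous_det`).  The operator is within
`(1/20)(2 + 1/20) + 1/2 < 1` of the isometry `v u`, hence injective, so `h ≠ 0`;
`h (0,t) = h (1,t)` by multiplicativity of `det`; `h (s, 1) = det (x y)`;
`h (s, 0) = (1 - σ s + σ s ω) ^ finrank * det (v u)`.  Apply `winding`. -/
theorem fin_obstruction {F : Type*} [NormedAddCommGroup F] [NormedSpace ℂ F]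
    [FiniteDimensional ℂ F] [Nontrivial F] {u v x y : F →L[ℂ] F} (hu : ∀ ξ, ‖u ξ‖ = ‖ξ‖)
    (hv : ∀ ξ, ‖v ξ‖ = ‖ξ‖) {ω : ℂ} (hω : ‖ω - 1‖ ≤ 1 / 2) (huv : u * v = ω • (v * u))
    (hx : ‖x - u‖ ≤ 1 / 20) (hy : ‖y - v‖ ≤ 1 / 20) (hxy : x * y = y * x) : ω = 1 := by
  have : CompleteSpace F := FiniteDimensional.complete ℂ F
  let σ : ℝ → ℝ := fun t => max 0 (min t 1)
  have hσc : Continuous σ := by fun_prop
  have hσ0 : ∀ t, 0 ≤ σ t := fun t => le_max_left _ _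
  have hσ1 : ∀ t, σ t ≤ 1 := fun t => max_le zero_le_one (min_le_right _ _)
  have e0 : σ 0 = 0 := by simp [σ]
  have e1 : σ 1 = 1 := by simp [σ]
  have nσ : ∀ t, ‖(σ t : ℂ)‖ = σ t := fun t => by
    rw [Complex.norm_real, Real.norm_of_nonneg (hσ0 t)]
  have nσ' : ∀ t, ‖(1 - σ t : ℂ)‖ = 1 - σ t := fun t => by
    rw [← Complex.ofReal_one, ← Complex.ofReal_sub, Complex.norm_real,
      Real.norm_of_nonneg (sub_nonneg.2 (hσ1 t))]
  let X : ℝ → F →L[ℂ] F := fun t => u + (σ t : ℂ) • (x - u)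
  let Y : ℝ → F →L[ℂ] F := fun t => v + (σ t : ℂ) • (y - v)
  have hXc : Continuous X := by fun_prop
  have hYc : Continuous Y := by fun_prop
  have hu1 : ‖u‖ ≤ 1 := u.opNorm_le_bound zero_le_one fun ξ => by rw [hu, one_mul]
  have hv1 : ‖v‖ ≤ 1 := v.opNorm_le_bound zero_le_one fun ξ => by rw [hv, one_mul]
  have hX : ∀ t, ‖X t - u‖ ≤ 1 / 20 := fun t => by
    simp only [X, add_sub_cancel_left, norm_smul, nσ]
    exact (mul_le_mul (hσ1 t) hx (norm_nonneg _) zero_le_one).trans_eq (one_mul _)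
  have hY : ∀ t, ‖Y t - v‖ ≤ 1 / 20 := fun t => by
    simp only [Y, add_sub_cancel_left, norm_smul, nσ]
    exact (mul_le_mul (hσ1 t) hy (norm_nonneg _) zero_le_one).trans_eq (one_mul _)
  have hprod : ∀ a b c d : F →L[ℂ] F, ‖a - c‖ ≤ 1 / 20 → ‖b - d‖ ≤ 1 / 20 → ‖c‖ ≤ 1 → ‖d‖ ≤ 1 →
      ‖a * b - c * d‖ ≤ 41 / 400 := fun a b c d h1 h2 h3 h4 => by
    have e : a * b - c * d = (a - c) * (b - d) + (a - c) * d + c * (b - d) := by noncomm_ring
    rw [e]
    have k1 := (norm_mul_le (a - c) (b - d)).trans (mul_le_mul h1 h2 (norm_nonneg _) (by norm_num))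
    have k2 := (norm_mul_le (a - c) d).trans (mul_le_mul h1 h4 (norm_nonneg _) (by norm_num))
    have k3 := (norm_mul_le c (b - d)).trans (mul_le_mul h3 h2 (norm_nonneg _) (by norm_num))
    have := norm_add₃_le (a := (a - c) * (b - d)) (b := (a - c) * d) (c := c * (b - d))
    linarith
  let T : ℝ × ℝ → F →L[ℂ] F := fun p =>
    (1 - σ p.1 : ℂ) • (Y p.2 * X p.2) + (σ p.1 : ℂ) • (X p.2 * Y p.2)
  have hTc : Continuous T := by fun_prop
  have hT : ∀ p, ‖T p - v * u‖ ≤ 7 / 10 := fun p => by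
    have e : T p - v * u = (1 - σ p.1 : ℂ) • (Y p.2 * X p.2 - v * u)
        + (σ p.1 : ℂ) • (X p.2 * Y p.2 - u * v) + ((σ p.1 : ℂ) * (ω - 1)) • (v * u) := by
      simp only [T, huv]
      module
    rw [e]
    refine norm_add₃_le.trans ?_
    rw [norm_smul, norm_smul, norm_smul, norm_mul, nσ, nσ']
    have k1 := hprod _ _ _ _ (hY p.2) (hX p.2) hv1 hu1
    have k2 := hprod _ _ _ _ (hX p.2) (hY p.2) hu1 hv1
    have k3 : ‖v * u‖ ≤ 1 :=
      (norm_mul_le v u).trans ((mul_le_mul hv1 hu1 (norm_nonneg _) zero_le_one).trans_eq (one_mul _))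
    have k4 : σ p.1 * ‖ω - 1‖ * ‖v * u‖ ≤ 1 * (1 / 2) * 1 :=
      mul_le_mul (mul_le_mul (hσ1 _) hω (norm_nonneg _) zero_le_one) k3 (norm_nonneg _) (by norm_num)
    have k5 := mul_le_mul_of_nonneg_left k1 (sub_nonneg.2 (hσ1 p.1))
    have k6 := mul_le_mul_of_nonneg_left k2 (hσ0 p.1)
    linarith
  have hdet : ∀ p, (T p).det ≠ 0 := fun p h0 => by
    rw [ContinuousLinearMap.det, LinearMap.det_eq_zero_iff_ker_ne_bot] at h0
    refine h0 (LinearMap.ker_eq_bot'.2 fun ξ hξ => ?_)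
    have h1 : (T p - v * u) ξ = -(v (u ξ)) := by
      rw [sub_apply, show T p ξ = 0 from hξ, zero_sub]; rfl
    have h2 := (T p - v * u).le_of_opNorm_le (hT p) ξ
    rw [h1, norm_neg, hv, hu] at h2
    exact norm_le_zero_iff.1 (by linarith [norm_nonneg ξ])
  have hmul : ∀ a b : F →L[ℂ] F, (a * b).det = a.det * b.det := fun a b =>
    LinearMap.det_comp (a : F →ₗ[ℂ] F) (b : F →ₗ[ℂ] F)
  have hsm : ∀ (c : ℂ) (a : F →L[ℂ] F), (c • a).det = c ^ Module.finrank ℂ F * a.det := fun c a =>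
    LinearMap.det_smul c (a : F →ₗ[ℂ] F)
  have key := winding (h := fun p => (T p).det) (ContinuousLinearMap.continuous_det.comp hTc) hdet
    (φ := fun s => 1 - σ s + σ s * ω) (d := Module.finrank ℂ F) (c := (v * u).det) ?_ ?_
    (by fun_prop) ?_ ?_ Module.finrank_pos.ne' ?_
  · simpa [e1] using key
  · intro t
    simp only [T, e0, e1, Complex.ofReal_zero, Complex.ofReal_one, sub_zero, sub_self, one_smul,
      zero_smul, add_zero, zero_add, hmul, mul_comm]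
  · intro s
    simp only [T, X, Y, e0, e1, Complex.ofReal_zero, Complex.ofReal_one, sub_zero, one_smul,
      zero_smul, add_zero, add_sub_cancel, hxy]
    rw [← add_smul, sub_add_cancel, one_smul]
  · intro s
    have e : (1 - σ s + σ s * ω - 1 : ℂ) = σ s * (ω - 1) := by ring
    rw [e, norm_mul, nσ]
    have := mul_le_mul (hσ1 s) hω (norm_nonneg _) zero_le_one
    linarith
  · simp [e0]
  · intro s
    simp only [T, X, Y, e0, Complex.ofReal_zero, zero_smul, add_zero, huv]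
    rw [← hsm, smul_smul, ← add_smul]

variable {H : Type*} [NormedAddCommGroup H] [InnerProductSpace ℂ H] [CompleteSpace H]

/-- A self-adjoint operator near a projection has a spectral projection near it.
`‖a² - a‖ ≤ 4 η`, so `|t² - t| ≤ 4 η < 1/4` on the spectrum and `π = cfc (fun t => if 1/2 < t then 1 else 0) a`
satisfies `‖π - a‖ ≤ 8 η` (see `Crest.Agent.R129S.approx_proj` in `R129S/Gap.lean`, or copy its
proof; commutation: `Commute.cfc_real`/`IsSelfAdjoint.commute_cfc`). -/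
theorem exists_proj_near {a p : H →L[ℂ] H} (ha : IsSelfAdjoint a) (hp : IsStarProjection p)
    {η : ℝ} (hη : η ≤ 1 / 32) (h : ‖a - p‖ ≤ η) :
    ∃ π : H →L[ℂ] H, IsStarProjection π ∧ ‖π - p‖ ≤ 9 * η ∧ ∀ z, Commute z a → Commute z π := by
  have hη0 : 0 ≤ η := (norm_nonneg _).trans h
  have hp1 : ‖p‖ ≤ 1 := hp.norm_le
  have ha1 : ‖a‖ ≤ 2 := by
    have := norm_add_le (a - p) p
    rw [sub_add_cancel] at this
    linarith
  have h2 : ‖a * a - a‖ ≤ 4 * η := by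
    have e : a * a - a = (a - p) * a + p * (a - p) - (a - p) := by
      rw [sub_mul, mul_sub, hp.isIdempotentElem.eq]; abel
    rw [e]
    have k1 := (norm_mul_le (a - p) a).trans (mul_le_mul h ha1 (norm_nonneg _) hη0)
    have k2 := (norm_mul_le p (a - p)).trans (mul_le_mul hp1 h (norm_nonneg _) zero_le_one)
    have k3 := norm_sub_le ((a - p) * a + p * (a - p)) (a - p)
    have k4 := norm_add_le ((a - p) * a) (p * (a - p))
    linarith
  have h3 : ∀ t ∈ spectrum ℝ a, |t * t - t| ≤ 4 * η := fun t ht => by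
    have e : cfc (fun t : ℝ => t * t - t) a = a * a - a := by
      rw [cfc_sub _ _ a, cfc_mul _ _ a, cfc_id' ℝ a]
    have := norm_apply_le_norm_cfc (fun t : ℝ => t * t - t) a ht
    rw [e] at this
    exact this.trans h2
  let f : ℝ → ℝ := fun t => max 0 (min 1 (2 * t - 1 / 2))
  have hf : Continuous f := by fun_prop
  have h4 : ∀ t ∈ spectrum ℝ a, (f t = 0 ∧ |t| ≤ 8 * η) ∨ (f t = 1 ∧ |1 - t| ≤ 8 * η) :=
    fun t ht => by
      obtain ⟨k1, k2⟩ := abs_le.1 (h3 t ht)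
      rcases le_total t (1 / 2) with h5 | h5
      · have h6 : t ≤ 1 / 4 := by nlinarith
        refine .inl ⟨max_eq_left ((min_le_right _ _).trans (by linarith)), abs_le.2 ⟨?_, ?_⟩⟩
        · nlinarith
        · nlinarith
      · have h6 : 3 / 4 ≤ t := by nlinarith
        refine .inr ⟨?_, abs_le.2 ⟨?_, ?_⟩⟩
        · simp only [f]
          rw [min_eq_left (by linarith), max_eq_right zero_le_one]
        · nlinarith
        · nlinarith
  refine ⟨cfc f a, ⟨?_, cfc_predicate _ _⟩, ?_, fun z hz => (hz.symm.cfc_real f).symm⟩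
  · rw [IsIdempotentElem, ← cfc_mul f f a]
    refine cfc_congr fun t ht => ?_
    rcases h4 t ht with ⟨k, -⟩ | ⟨k, -⟩ <;> simp [k]
  · have e : cfc (fun t => f t - t) a = cfc f a - a := by
      rw [cfc_sub _ _ a, cfc_id' ℝ a]
    have k : ‖cfc f a - a‖ ≤ 8 * η := by
      rw [← e]
      refine norm_cfc_le (by positivity) fun t ht => ?_
      rcases h4 t ht with ⟨k, k'⟩ | ⟨k, k'⟩
      · rw [k, zero_sub, norm_neg]; exact k'
      · rw [k]; exact k'
    have := norm_add_le (cfc f a - a) (a - p)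
    rw [sub_add_sub_cancel] at this
    linarith

theorem gobs_mul {a b c d : H →L[ℂ] H} {α β γ δ : ℝ} (h1 : ‖a - c‖ ≤ α) (h2 : ‖b - d‖ ≤ β)
    (hb : ‖b‖ ≤ γ) (hc : ‖c‖ ≤ δ) : ‖a * b - c * d‖ ≤ α * γ + δ * β := by
  have e : a * b - c * d = (a - c) * b + c * (b - d) := by noncomm_ring
  rw [e]
  exact (norm_add_le _ _).trans (add_le_add
    ((norm_mul_le _ _).trans (mul_le_mul h1 hb (norm_nonneg _) ((norm_nonneg _).trans h1)))
    ((norm_mul_le _ _).trans (mul_le_mul hc h2 (norm_nonneg _) ((norm_nonneg _).trans hc))))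

theorem gobs_norm_mul {a b : H →L[ℂ] H} {α β : ℝ} (h1 : ‖a‖ ≤ α) (h2 : ‖b‖ ≤ β) :
    ‖a * b‖ ≤ α * β :=
  (norm_mul_le _ _).trans (mul_le_mul h1 h2 (norm_nonneg _) ((norm_nonneg _).trans h1))

theorem gobs_norm_of_sub {a b : H →L[ℂ] H} {α β : ℝ} (h1 : ‖a - b‖ ≤ α) (h2 : ‖b‖ ≤ β) :
    ‖a‖ ≤ α + β := by
  have := norm_add_le (a - b) b
  rw [sub_add_cancel] at this
  linarith

theorem gobs_unit {U : H →L[ℂ] H} (hU : U ∈ unitary (H →L[ℂ] H)) : ‖U‖ ≤ 1 :=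
  U.opNorm_le_bound zero_le_one fun ξ => by
    rw [one_mul]
    exact (ContinuousLinearMap.norm_map_of_mem_unitary hU ξ).le

theorem gobs_proj {p U A : H →L[ℂ] H} (hp : IsStarProjection p) (hU : U ∈ unitary (H →L[ℂ] H))
    (hA : ‖A - U * p‖ ≤ 1 / 10000) :
    ∃ π : H →L[ℂ] H, IsStarProjection π ∧ ‖π - p‖ ≤ 27 / 10000 ∧
      ∀ z, Commute z A → Commute z (star A) → Commute z π := by
  have h1 : ‖U * p‖ ≤ 1 * 1 := gobs_norm_mul (gobs_unit hU) hp.norm_le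
  have h2 := gobs_norm_of_sub hA h1
  have h3 : ‖star A - star (U * p)‖ ≤ 1 / 10000 := by rwa [← star_sub, norm_star]
  have h4 := gobs_mul h3 hA h2 ((norm_star _).trans_le h1)
  have e : star (U * p) * (U * p) = p := by
    rw [star_mul, hp.isSelfAdjoint.star_eq, mul_assoc, ← mul_assoc (star U),
      Unitary.star_mul_self_of_mem hU, one_mul, hp.isIdempotentElem.eq]
  rw [e] at h4
  obtain ⟨π, h5, h6, h7⟩ := exists_proj_near (IsSelfAdjoint.star_mul_self A) hp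
    (η := 3 / 10000) (by norm_num) (h4.trans (by norm_num))
  exact ⟨π, h5, h6.trans (by norm_num), fun z hz hz' => h7 z (hz'.mul_right hz)⟩

theorem gobs_X {p₁ p₂ π₁ π₂ U A : H →L[ℂ] H} (hp₁ : IsStarProjection p₁)
    (hp₂ : IsStarProjection p₂) (hπ₁ : IsStarProjection π₁) (hπ₂ : IsStarProjection π₂)
    (hU : U ∈ unitary (H →L[ℂ] H)) (hU₁ : Commute U p₁) (hA : ‖A - U * p₁‖ ≤ 1 / 10000)
    (h1 : ‖π₁ - p₁‖ ≤ 27 / 10000) (h2 : ‖π₂ - p₂‖ ≤ 27 / 10000) :
    ‖π₁ * A * π₁ * π₂ - U * (p₁ * p₂)‖ ≤ 1 / 100 := by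
  have k1 : ‖U * p₁‖ ≤ 1 * 1 := gobs_norm_mul (gobs_unit hU) hp₁.norm_le
  have k2 := gobs_norm_of_sub hA k1
  have k3 := gobs_mul h1 hA k2 hp₁.norm_le
  have k4 := gobs_norm_mul hp₁.norm_le k1
  have k5 := gobs_mul k3 h1 hπ₁.norm_le k4
  have k6 := gobs_norm_mul k4 hp₁.norm_le
  have k7 := gobs_mul k5 h2 hπ₂.norm_le k6
  have e : p₁ * (U * p₁) * p₁ * p₂ = U * (p₁ * p₂) := by
    rw [← mul_assoc p₁ U, ← hU₁.eq, mul_assoc U p₁ p₁, hp₁.isIdempotentElem.eq, mul_assoc U p₁ p₁,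
      hp₁.isIdempotentElem.eq, mul_assoc]
  rw [e] at k7
  exact k7.trans (by norm_num)

theorem gobs_sim {p π : H →L[ℂ] H} (hp : IsStarProjection p) (hπ : IsStarProjection π)
    (h : ‖π - p‖ ≤ 54 / 10000) :
    ∃ S S' : H →L[ℂ] H, S' * S = 1 ∧ p * S = S * π ∧ ‖S - 1‖ ≤ 11 / 1000 ∧
      ‖S' - 1‖ ≤ 12 / 1000 := by
  set t := (1 - p) * (π - p) - p * (π - p) with ht
  have h1 : ‖t‖ ≤ 11 / 1000 := by
    have k1 := gobs_norm_mul hp.one_sub.norm_le h
    have k2 := gobs_norm_mul hp.norm_le h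
    have := norm_sub_le ((1 - p) * (π - p)) (p * (π - p))
    linarith
  let u := Units.oneSub t (h1.trans_lt (by norm_num))
  have hu : (u : H →L[ℂ] H) = 1 - t := rfl
  have hpp := hp.isIdempotentElem.eq
  have hππ := hπ.isIdempotentElem.eq
  have e : 1 - t = p * π + (1 - p) * (1 - π) := by
    simp only [ht, mul_sub, sub_mul, one_mul, mul_one, hpp]
    abel
  refine ⟨u, (u⁻¹ : (H →L[ℂ] H)ˣ), u.inv_mul, ?_, ?_, ?_⟩
  · rw [hu, e]
    simp only [mul_add, add_mul, mul_sub, sub_mul, one_mul, mul_one, ← mul_assoc, hpp]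
    simp only [mul_assoc, hππ]
    abel
  · rw [hu, sub_sub_cancel_left, norm_neg]; exact h1
  · have e2 : ((u⁻¹ : (H →L[ℂ] H)ˣ) : H →L[ℂ] H) - 1
        = (((u⁻¹ : (H →L[ℂ] H)ˣ) : H →L[ℂ] H) - 1) * t + t := by
      have := u.inv_mul
      rw [hu, mul_sub, mul_one] at this
      rw [sub_mul, one_mul, sub_add_cancel, ← this]
      abel
    have k := norm_add_le ((((u⁻¹ : (H →L[ℂ] H)ˣ) : H →L[ℂ] H) - 1) * t) t
    rw [← e2] at k
    have k2 := gobs_norm_mul (le_refl ‖((u⁻¹ : (H →L[ℂ] H)ˣ) : H →L[ℂ] H) - 1‖) h1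
    linarith

theorem gobs_conj {S S' X Z : H →L[ℂ] H} (hS : ‖S - 1‖ ≤ 11 / 1000) (hS' : ‖S' - 1‖ ≤ 12 / 1000)
    (hX : ‖X - Z‖ ≤ 1 / 100) (hZ : ‖Z‖ ≤ 1) : ‖S * X * S' - Z‖ ≤ 1 / 20 := by
  have h1 : ‖(1 : H →L[ℂ] H)‖ ≤ 1 := ContinuousLinearMap.norm_id_le
  have k1 := gobs_mul hS hX (gobs_norm_of_sub hX hZ) h1
  have k2 := gobs_mul k1 hS' (gobs_norm_of_sub hS' h1) (gobs_norm_mul h1 hZ)
  rw [one_mul, mul_one] at k2
  exact k2.trans (by norm_num)

/-- **Obstruction.**  `ε = 10⁻⁴`.  `‖A* A - p₁‖ ≤ 3 ε`; take `π₁`, `π₂` from `exists_proj_near` for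
`A* A`, `B* B` (`‖π_i - p_i‖ ≤ 27 ε`).  `B, B*` commute with `A* A` hence with `π₁`; `A, A*, π₁` commute with
`B* B` hence with `π₂`.  `π = π₁ π₂`, `X = π₁ A π₁ π₂`, `Y = π₂ B π₂ π₁` satisfy `X Y = Y X`,
`π X = X`, `π Y = Y`, `‖π - p‖ ≤ 54 ε`, `‖X - U p‖, ‖Y - V p‖ ≤ 90 ε` (`p = p₁ p₂`).
`S = p π + (1 - p)(1 - π) = 1 + (2 p - 1)(π - p)` is invertible, `S π = p S`, `‖S⁻¹ - 1‖ ≤ 60 ε`;
`X' = S X S⁻¹`, `Y' = S Y S⁻¹` commute, `p X' = X'`, `‖X' - U p‖ ≤ 500 ε = 1/20`.  Restrict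
`U, V, X', Y'` to `F = range p` and apply `fin_obstruction`. -/
theorem obstruction {p₁ p₂ U V A B : H →L[ℂ] H} (hp₁ : IsStarProjection p₁)
    (hp₂ : IsStarProjection p₂) (hp : Commute p₁ p₂) (hU : U ∈ unitary (H →L[ℂ] H))
    (hV : V ∈ unitary (H →L[ℂ] H)) (hU₁ : Commute U p₁) (hU₂ : Commute U p₂) (hV₁ : Commute V p₁)
    (hV₂ : Commute V p₂) {ω : ℂ} (hω : ‖ω - 1‖ ≤ 1 / 2) (hUV : U * V = ω • (V * U))
    (h0 : p₁ * p₂ ≠ 0) (hfin : FiniteDimensional ℂ (p₁ * p₂).range)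
    (hAB : Commute A B) (hAB' : Commute (star A) B) (hA : ‖A - U * p₁‖ ≤ 1 / 10000)
    (hB : ‖B - V * p₂‖ ≤ 1 / 10000) : ω = 1 := by
  obtain ⟨π₁, hπ₁, n₁, c₁⟩ := gobs_proj hp₁ hU hA
  obtain ⟨π₂, hπ₂, n₂, c₂⟩ := gobs_proj hp₂ hV hB
  have hAB2 : Commute A (star B) := by simpa using hAB'.star_star
  have hB1 : Commute B π₁ := c₁ B hAB.symm hAB'.symm
  have hB1' : Commute (star B) π₁ := c₁ _ hAB2.symm hAB.star_star.symm
  have hA2 : Commute A π₂ := c₂ A hAB hAB2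
  have h12 : Commute π₁ π₂ := c₂ π₁ hB1.symm hB1'.symm
  have hpp : IsStarProjection (p₁ * p₂) := hp₁.mul hp₂ hp
  have hππ : IsStarProjection (π₁ * π₂) := hπ₁.mul hπ₂ h12
  have nπ : ‖π₁ * π₂ - p₁ * p₂‖ ≤ 54 / 10000 :=
    (gobs_mul n₁ n₂ hπ₂.norm_le hp₁.norm_le).trans (by norm_num)
  obtain ⟨S, S', hSS, hpS, nS, nS'⟩ := gobs_sim hpp hππ nπ
  have nX := gobs_X hp₁ hp₂ hπ₁ hπ₂ hU hU₁ hA n₁ n₂
  have nY := gobs_X hp₂ hp₁ hπ₂ hπ₁ hV hV₂ hB n₂ n₁
  rw [← hp.eq] at nY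
  set X := π₁ * A * π₁ * π₂ with hX
  set Y := π₂ * B * π₂ * π₁ with hY
  have h11 := hπ₁.isIdempotentElem.eq
  have h22 := hπ₂.isIdempotentElem.eq
  have ca : Commute (π₁ * A * π₁) π₂ := (h12.mul_left hA2).mul_left h12
  have cb : Commute (π₂ * B * π₂) π₁ := (h12.symm.mul_left hB1).mul_left h12.symm
  have cab : Commute (π₁ * A * π₁) (π₂ * B * π₂) :=
    (ca.mul_right ((hB1.symm.mul_left hAB).mul_left hB1.symm)).mul_right ca
  have la : π₁ * (π₁ * A * π₁) = π₁ * A * π₁ := by rw [← mul_assoc, ← mul_assoc, h11]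
  have lb : π₂ * (π₂ * B * π₂) = π₂ * B * π₂ := by rw [← mul_assoc, ← mul_assoc, h22]
  have ra : π₁ * A * π₁ * π₁ = π₁ * A * π₁ := by rw [mul_assoc _ π₁, h11]
  have rb : π₂ * B * π₂ * π₂ = π₂ * B * π₂ := by rw [mul_assoc _ π₂, h22]
  have hXY : X * Y = Y * X := by
    calc X * Y = π₁ * A * π₁ * (π₂ * (π₂ * B * π₂) * π₁) := by
          simp only [hX, hY, mul_assoc]
      _ = π₁ * A * π₁ * (π₂ * B * π₂) := by rw [lb, cb.eq, ← mul_assoc, ra]
      _ = π₂ * B * π₂ * (π₁ * A * π₁) := cab.eq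
      _ = π₂ * B * π₂ * (π₁ * (π₁ * A * π₁) * π₂) := by rw [la, ca.eq, ← mul_assoc _ π₂, rb]
      _ = Y * X := by simp only [hX, hY, mul_assoc]
  have hπX : π₁ * π₂ * X = X := by
    rw [hX, ca.eq, mul_assoc π₁, ← mul_assoc π₂, h22, ← mul_assoc, h12.eq, mul_assoc π₂, la]
  have hπY : π₁ * π₂ * Y = Y := by
    rw [hY, h12.eq, cb.eq, mul_assoc π₂, ← mul_assoc π₁, h11, ← mul_assoc, ← h12.eq,
      mul_assoc π₁, lb]
  set p := p₁ * p₂ with hp_def
  have nUp : ‖U * p‖ ≤ 1 := (gobs_norm_mul (gobs_unit hU) hpp.norm_le).trans (by norm_num)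
  have nVp : ‖V * p‖ ≤ 1 := (gobs_norm_mul (gobs_unit hV) hpp.norm_le).trans (by norm_num)
  have nX' := gobs_conj nS nS' nX nUp
  have nY' := gobs_conj nS nS' nY nVp
  have hX' : p * (S * X * S') = S * X * S' := by
    rw [← mul_assoc, ← mul_assoc, hpS, mul_assoc S, hπX]
  have hY' : p * (S * Y * S') = S * Y * S' := by
    rw [← mul_assoc, ← mul_assoc, hpS, mul_assoc S, hπY]
  have hXY' : S * X * S' * (S * Y * S') = S * Y * S' * (S * X * S') := by
    have e : ∀ a b : H →L[ℂ] H, S * a * S' * (S * b * S') = S * (a * b) * S' := fun a b => by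
      calc S * a * S' * (S * b * S') = S * a * (S' * S) * b * S' := by simp only [mul_assoc]
        _ = _ := by rw [hSS, mul_one, mul_assoc S]
    rw [e, e, hXY]
  have cU : Commute U p := hU₁.mul_right hU₂
  have cV : Commute V p := hV₁.mul_right hV₂
  generalize S * X * S' = X' at nX' hX' hXY'
  generalize S * Y * S' = Y' at nY' hY' hXY'
  let F : Submodule ℂ H := p.range
  have hF : ∀ ξ : F, p ξ = ξ := by
    rintro ⟨_, η, rfl⟩
    exact congrArg (fun T : H →L[ℂ] H => T η) hpp.isIdempotentElem.eq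
  let c : (H →L[ℂ] H) → F →L[ℂ] F := fun T =>
    (p.codRestrict F fun ξ => ⟨ξ, rfl⟩) ∘L T ∘L F.subtypeL
  have hc : ∀ T (ξ : F), (c T ξ : H) = p (T ξ) := fun T ξ => rfl
  have hcU : ∀ {T : H →L[ℂ] H}, Commute T p → ∀ ξ : F, (c T ξ : H) = T ξ := fun {T} hT ξ => by
    rw [hc, ← mul_apply_eq_comp, ← hT.eq, mul_apply_eq_comp, hF]
  have hcX : ∀ {T : H →L[ℂ] H}, p * T = T → ∀ ξ : F, (c T ξ : H) = T ξ := fun {T} hT ξ => by
    rw [hc, ← mul_apply_eq_comp, hT]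
  have hn : ∀ {T W : H →L[ℂ] H}, p * T = T → Commute W p → ‖T - W * p‖ ≤ 1 / 20 →
      ‖c T - c W‖ ≤ 1 / 20 := fun {T W} hT hW h => by
    refine ContinuousLinearMap.opNorm_le_bound _ (by norm_num) fun ξ => ?_
    have := (T - W * p).le_of_opNorm_le h ξ
    rw [sub_apply, mul_apply_eq_comp, hF] at this
    rw [← Submodule.norm_coe, sub_apply, Submodule.coe_sub, hcX hT, hcU hW]
    exact this
  have : Nontrivial F := by
    refine Submodule.nontrivial_iff_ne_bot.2 fun hb => h0 ?_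
    ext ξ
    have : p ξ ∈ F := ⟨ξ, rfl⟩
    rw [hb] at this
    exact this
  refine fin_obstruction (F := F) (u := c U) (v := c V) (x := c X') (y := c Y') (fun ξ => ?_)
    (fun ξ => ?_) hω ?_ (hn hX' cU nX') (hn hY' cV nY') ?_
  · rw [← Submodule.norm_coe, hcU cU, ContinuousLinearMap.norm_map_of_mem_unitary hU]; rfl
  · rw [← Submodule.norm_coe, hcU cV, ContinuousLinearMap.norm_map_of_mem_unitary hV]; rfl
  · ext ξ
    simp only [mul_apply_eq_comp, smul_apply, Submodule.coe_smul, hcU cU, hcU cV]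
    exact congrArg (fun T : H →L[ℂ] H => T ξ) hUV
  · ext ξ
    simp only [mul_apply_eq_comp, hcX hX', hcX hY']
    exact congrArg (fun T : H →L[ℂ] H => T ξ) hXY'

end Crest.Agent.R78.G
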