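import Crest.Agent.R78.GRes

/-!
# R78 (S0104, S0105): clock, shift and windows
-/

set_option autoImplicit false
set_option linter.unusedSectionVars false
open scoped InnerProductSpace BigOperators

noncomputable section

namespace Crest.Agent.R78.G

open Crest.Agent.R124

section aux
variable {H : Type*} [NormedAddCommGroup H] [InnerProductSpace ℂ H] [CompleteSpace H] {n : ℕ}
  [NeZero n] {e : ZMod n → (H →L[ℂ] H)}

theorem GWin_char (a : ℕ) : ‖ZMod.stdAddChar (a : ZMod n) - 1‖ ≤ 7 * a / n := by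
  have e1 : ZMod.stdAddChar (a : ZMod n) =
      Complex.exp (Complex.I * ((2 * Real.pi * a / n : ℝ) : ℂ)) := by
    rw [ZMod.stdAddChar_apply, ZMod.toCircle_natCast]
    congr 1
    push_cast
    ring
  rw [e1]
  refine Real.norm_exp_I_mul_ofReal_sub_one_le.trans ?_
  rw [Real.norm_of_nonneg (by positivity)]
  gcongr
  linarith [Real.pi_lt_d2]

theorem GWin_norm (k : ZMod n) : ‖ZMod.stdAddChar k‖ = 1 := by
  rw [ZMod.stdAddChar_apply, Circle.norm_coe]

theorem GWin_sq (h : Res e) (a : ZMod n) (v : H) : ∑ s, ‖e (s + a) v‖ ^ 2 = ‖v‖ ^ 2 :=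
  (Equiv.sum_comp (Equiv.addRight a) fun s => ‖e s v‖ ^ 2).trans
    ((hasSum_fintype _).unique (h.hasSum_sq v))

theorem GWin_col (h : Res e) (a : ZMod n) : Col (fun s => e (s + a)) 1 := fun v =>
  l2_le_of_sq_le (by positivity) (by rw [GWin_sq h, one_mul])

theorem GWin_col_sum {σ α : Type*} [Fintype σ] (T : Finset α) {d : α → σ → (H →L[ℂ] H)} {c : ℝ}
    (h : ∀ a ∈ T, Col (d a) c) : Col (fun s => ∑ a ∈ T, d a s) (T.card * c) := by
  classical
  induction T using Finset.induction_on with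
  | empty => intro v; simp [l2]
  | insert a T ha ih =>
    simp only [Finset.sum_insert ha, Finset.card_insert_of_notMem ha]
    exact ((h a (Finset.mem_insert_self _ _)).add
      (ih fun b hb => h b (Finset.mem_insert_of_mem hb))).mono (le_of_eq (by push_cast; ring))

theorem GWin_mul (h : Res e) (f : ZMod n → ℂ) (j : ZMod n) : e j * ∑ k, f k • e k = f j • e j := by
  rw [Finset.mul_sum, Finset.sum_eq_single j (fun k _ hk => by
    rw [mul_smul_comm, h.orth _ _ hk.symm, smul_zero]) (by simp), mul_smul_comm,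
    (h.proj j).isIdempotentElem.eq]

theorem GWin_diag (h : Res e) {f g : ZMod n → ℂ} (hfg : ∀ k, f k * g k = 1) :
    (∑ k, f k • e k) * ∑ k, g k • e k = 1 := by
  simp only [Finset.sum_mul, smul_mul_assoc, GWin_mul h, smul_smul, hfg, one_smul]
  ext v
  rw [_root_.sum_apply]
  exact (hasSum_fintype _).unique (h.hasSum v)

theorem GWin_window (h : Res e) {D : ℕ} (hD : D ≤ n) (s : ZMod n) (v : H) :
    ∑ a ∈ Finset.range D, ‖e (s + a) v‖ ^ 2 ≤ ‖(∑ a ∈ Finset.range D, e (s + a)) v‖ ^ 2 := by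
  have h1 : ∀ a b : ℕ, a < D → b < D → a ≠ b → e (s + a) * e (s + b) = 0 := fun a b ha hb hab =>
    h.orth _ _ fun h2 => hab (by
      rwa [add_right_inj, ZMod.natCast_eq_natCast_iff', Nat.mod_eq_of_lt (by omega),
        Nat.mod_eq_of_lt (by omega)] at h2)
  refine le_trans (le_of_eq ?_) (sum_sq_proj_le (Q := fun a : Fin D => e (s + (a : ℕ)))
    (fun a => h.proj _) (fun a b hab => h1 a b a.2 b.2 (Fin.val_injective.ne hab)) _)
  rw [Finset.sum_range]
  refine Finset.sum_congr rfl fun a _ => ?_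
  rw [← mul_apply_eq_comp, Finset.mul_sum, Finset.sum_eq_single (a : ℕ)
    (fun b hb hba => h1 a b a.2 (Finset.mem_range.1 hb) hba.symm) (by simp),
    (h.proj _).isIdempotentElem.eq]

theorem GWin_unit {U : H →L[ℂ] H} (hU : U ∈ unitary (H →L[ℂ] H)) : ‖U‖ ≤ 1 := by
  simpa using (CStarRing.norm_mem_unitary_mul 1 hU).le.trans ContinuousLinearMap.norm_id_le

end aux

/-- **Windows.**  Choose `D ≥ 1` with `2 / √D ≤ γ` and `n ≥ max D 20` with `2 π D √D / n ≤ γ`.
Let `ψ = ZMod.stdAddChar` (or `ZMod.toCircle`), `V = ∑ ψ k • e k`, `ω = ψ 1` (`V U = ω U V`, `ω ≠ 1`,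
`‖ω - 1‖ ≤ 2π/n`, `Complex.norm_exp_I_mul_ofReal_sub_one_le`), `c = ψ`,
`χ s = (√D)⁻¹ • ∑_{a < D} e (s + a)`.
* `‖χ s v‖² = D⁻¹ ∑_a ‖e (s + a) v‖²` (the `s + a` are distinct as `D ≤ n`), and `∑_s ‖e (s + a) v‖² = ‖v‖²`.
* `U χ s - χ s U = (χ (s + 1) - χ s) U = (√D)⁻¹ (e (s + D) - e s) U`.
* `c s χ s - χ s V = (√D)⁻¹ ∑_a ψ s (1 - ψ a) e (s + a)`, `‖1 - ψ a‖ ≤ 2 π D / n`; use the triangle
inequality over `a` (`Col.add` by induction on the sum). -/
theorem exists_windows {γ : ℝ} (hγ : 0 < γ) : ∃ (n : ℕ) (_ : NeZero n),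
    ∀ (H : Type) [NormedAddCommGroup H] [InnerProductSpace ℂ H] [CompleteSpace H]
      (e : ZMod n → (H →L[ℂ] H)) (U : H →L[ℂ] H), Res e → U ∈ unitary (H →L[ℂ] H) →
      (∀ k, U * e k = e (k + 1) * U) →
      ∃ (V : H →L[ℂ] H) (χ : ZMod n → (H →L[ℂ] H)) (c : ZMod n → ℂ) (ω : ℂ),
        V ∈ unitary (H →L[ℂ] H) ∧ ω ≠ 1 ∧ ‖ω - 1‖ ≤ 1 / 2 ∧ V * U = ω • (U * V) ∧
        (∀ s, ‖c s‖ = 1) ∧ (∀ ψ, ‖ψ‖ ≤ l2 fun s => χ s ψ) ∧
        Col (fun s => U * χ s - χ s * U) γ ∧
        Col (fun s => c s • (1 : H →L[ℂ] H) * χ s - χ s * V) γ ∧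
        (∀ a, (∀ k, Commute a (e k)) → Commute a V) ∧
        ∀ s a, (∀ k, Commute a (e k)) → Commute a (χ s) := by
  obtain ⟨m, hm⟩ := exists_nat_gt (2 / γ)
  have hm0 : (0 : ℝ) < m := lt_trans (by positivity) hm
  obtain ⟨n, hn⟩ := exists_nat_gt (7 * (m : ℝ) ^ 3 / γ + m ^ 2 + 14)
  have h1 : 0 ≤ 7 * (m : ℝ) ^ 3 / γ := by positivity
  have h2 : 0 ≤ (m : ℝ) ^ 2 := by positivity
  have hn14 : (14 : ℝ) ≤ n := by linarith
  have hn2 : 14 ≤ n := by exact_mod_cast hn14
  have hD : m ^ 2 ≤ n := by exact_mod_cast (by linarith : (m : ℝ) ^ 2 ≤ n)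
  have : NeZero n := ⟨by omega⟩
  have hmn : ‖(m : ℂ)⁻¹‖ = (m : ℝ)⁻¹ := by simp
  refine ⟨n, this, fun H _ _ _ e U h hU hUe => ⟨∑ k, ZMod.stdAddChar k • e k,
    fun s => (m : ℂ)⁻¹ • ∑ a ∈ Finset.range (m ^ 2), e (s + a), ZMod.stdAddChar,
    ZMod.stdAddChar (1 : ZMod n), ?_, fun h3 => ?_, ?_, ?_, GWin_norm, fun v => ?_, ?_, ?_,
    fun a ha => Commute.sum_right _ _ _ fun k _ => (ha k).smul_right _,
    fun s a ha => (Commute.sum_right _ _ _ fun k _ => ha _).smul_right _⟩⟩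
  · rw [Unitary.mem_iff, star_sum]
    simp only [star_smul, (h.proj _).isSelfAdjoint.star_eq]
    exact ⟨GWin_diag h fun k => by rw [Complex.star_def, Complex.conj_mul', GWin_norm]; simp,
      GWin_diag h fun k => by rw [Complex.star_def, Complex.mul_conj', GWin_norm]; simp⟩
  · have : Fact (1 < n) := ⟨by omega⟩
    exact one_ne_zero (ZMod.injective_stdAddChar (h3.trans (AddChar.map_zero_eq_one _).symm))
  · have h3 := GWin_char (n := n) 1
    rw [Nat.cast_one, Nat.cast_one] at h3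
    refine h3.trans ?_
    rw [div_le_iff₀ (by linarith)]
    linarith
  · rw [← Equiv.sum_comp (Equiv.addRight (1 : ZMod n)), Finset.sum_mul,
      Equiv.sum_comp (Equiv.addRight (1 : ZMod n)) fun k => ZMod.stdAddChar k • e k, Finset.mul_sum,
      Finset.smul_sum]
    refine Finset.sum_congr rfl fun k _ => ?_
    rw [Equiv.coe_addRight, smul_mul_assoc, mul_smul_comm, hUe, smul_smul, AddChar.map_add_eq_mul,
      mul_comm]
  · refine Real.le_sqrt_of_sq_le (le_trans (le_of_eq ?_) (Finset.sum_le_sum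
      (f := fun s => (m : ℝ)⁻¹ ^ 2 * ∑ a ∈ Finset.range (m ^ 2), ‖e (s + a) v‖ ^ 2) fun s _ => ?_))
    · rw [← Finset.mul_sum, Finset.sum_comm]
      simp only [GWin_sq h, Finset.sum_const, Finset.card_range, nsmul_eq_mul]
      push_cast
      field_simp
    · beta_reduce
      rw [_root_.smul_apply, norm_smul, hmn, mul_pow]
      exact mul_le_mul_of_nonneg_left (GWin_window h hD s v) (by positivity)
  · have h3 := ((((GWin_col h (m ^ 2 : ℕ)).sub (GWin_col h (0 : ℕ))).mul_right (by norm_num)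
      (GWin_unit hU)).smul (a := fun _ => (m : ℂ)⁻¹) (by positivity)
      fun _ => hmn.le).mono (c' := γ) (by
        rw [div_lt_iff₀ hγ] at hm
        rw [inv_mul_le_iff₀ hm0]
        linarith)
    convert h3 using 2 with s
    rw [mul_smul_comm, smul_mul_assoc, ← smul_sub, Finset.mul_sum,
      ← Finset.sum_range_sub fun a : ℕ => e (s + a), Finset.sum_sub_distrib, sub_mul,
      Finset.sum_mul, Finset.sum_mul]
    simp only [hUe, Nat.cast_succ, add_assoc]
  · have h3 := (GWin_col_sum (Finset.range (m ^ 2)) (c := (m : ℝ)⁻¹ * (7 * m ^ 2 / n) * 1)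
      (d := fun (a : ℕ) (s : ZMod n) =>
        ((m : ℂ)⁻¹ * (ZMod.stdAddChar s - ZMod.stdAddChar (s + (a : ZMod n)))) • e (s + a))
      fun a ha => (GWin_col h a).smul (by positivity) fun s => by
        have h4 : (a : ℝ) ≤ m ^ 2 := by exact_mod_cast (Finset.mem_range.1 ha).le
        rw [norm_mul, hmn, AddChar.map_add_eq_mul, ← mul_one_sub, norm_mul, GWin_norm, one_mul,
          norm_sub_rev]
        exact mul_le_mul_of_nonneg_left ((GWin_char a).trans (by gcongr)) (by positivity)).mono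
      (c' := γ) (by
        have h4 : 7 * (m : ℝ) ^ 3 / γ ≤ n := by linarith
        rw [div_le_iff₀ hγ] at h4
        rw [Finset.card_range, show ((m ^ 2 : ℕ) : ℝ) * ((m : ℝ)⁻¹ * (7 * m ^ 2 / n) * 1) =
          7 * m ^ 3 / n by push_cast; field_simp, div_le_iff₀ (by linarith)]
        linarith)
    convert h3 using 2 with s
    simp only [smul_mul_assoc, one_mul, Finset.sum_mul, GWin_mul h, Finset.smul_sum, smul_smul,
      ← Finset.sum_sub_distrib, ← sub_smul, mul_sub, mul_comm]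

end Crest.Agent.R78.G
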