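import Crest.Agent.R78.GComm
import Crest.Agent.R78.GWin
import Crest.Agent.R78.GObs
import Crest.Agent.R78.GModel
import Crest.Agent.R78.GHyper

/-!
# R78 (S0104, S0105): near inclusion without a unitary near `1`
-/

set_option autoImplicit false
set_option linter.unusedSectionVars false
open scoped InnerProductSpace BigOperators

noncomputable section

namespace Crest.Agent.R78.G

open Crest.Agent.R124

variable {H : Type*} [NormedAddCommGroup H] [InnerProductSpace ℂ H] [CompleteSpace H]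

/-- The commutant of a self-adjoint set. -/
def vnc (s : Set (H →L[ℂ] H)) (hs : ∀ a ∈ s, star a = a) : VonNeumannAlgebra H where
  toStarSubalgebra := StarSubalgebra.centralizer ℂ s
  centralizer_centralizer' := by
    have h : (StarSubalgebra.centralizer ℂ s : Set (H →L[ℂ] H)) = Set.centralizer s := by
      rw [StarSubalgebra.coe_centralizer]
      congr 1
      refine Set.union_eq_self_of_subset_right fun a ha => ?_
      have := hs _ (Set.mem_star.1 ha)
      rw [star_star] at this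
      rw [this]; exact Set.mem_star.1 ha
    change Set.centralizer (Set.centralizer (StarSubalgebra.centralizer ℂ s : Set (H →L[ℂ] H))) =
      (StarSubalgebra.centralizer ℂ s : Set (H →L[ℂ] H))
    rw [h, Set.centralizer_centralizer_centralizer]

theorem coe_vnc (s : Set (H →L[ℂ] H)) (hs : ∀ a ∈ s, star a = a) :
    (vnc s hs : Set (H →L[ℂ] H)) = Set.centralizer s := by
  change (StarSubalgebra.centralizer ℂ s : Set (H →L[ℂ] H)) = _
  rw [StarSubalgebra.coe_centralizer]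
  congr 1
  refine Set.union_eq_self_of_subset_right fun a ha => ?_
  have := hs _ (Set.mem_star.1 ha)
  rw [star_star] at this
  rw [this]; exact Set.mem_star.1 ha

variable {κ G : Type*} [Group G] {g : κ → G}

theorem gens_star {S S' : Side κ G H} (h : S.Ok g) (h' : S'.Ok g) {W : κ → (H →L[ℂ] H)}
    (hW : S.Par W) : ∀ a ∈ gens S S' W, star a = a := by
  rintro a (⟨i, rfl⟩ | ⟨i, rfl⟩)
  exacts [Side.m_star h hW i, h'.R_star i]

theorem par_smul {S : Side κ G H} {U : H →L[ℂ] H} (hU : U ∈ unitary (H →L[ℂ] H)) (h : S.Cm U)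
    {c : κ → ℂ} (hc : ∀ i, ‖c i‖ = 1) : S.Par fun i => c i • U := fun i => by
  refine ⟨?_, h.smul _⟩
  have := mul_mem ((Side.par_scalar (S := S) c hc i).1) hU
  rwa [smul_mul_assoc, one_mul] at this

/-- The phases `1, -i`. -/
def ph (k : ℕ) (i : Bool × Fin k) : ℂ := if i.1 then 1 else -Complex.I

theorem norm_ph (k : ℕ) (i : Bool × Fin k) : ‖ph k i‖ = 1 := by
  unfold ph; split_ifs <;> simp

theorem sum_ph (k : ℕ) (U p : H →L[ℂ] H) :
    ∑ i, star (ph k i) • (gB (ph k i • U) * p) = ((3 / 5 : ℂ) * k) • (U * p) := by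
  rw [Fintype.sum_prod_type, Fintype.sum_bool]
  simp only [ph, gB, if_true, Bool.false_eq_true, if_false, Finset.sum_const, Finset.card_univ,
    Fintype.card_fin, star_one, one_smul, star_neg, star_smul, Complex.star_def, Complex.conj_I,
    neg_neg, smul_mul_assoc, add_mul, smul_add, smul_smul, ← Nat.cast_smul_eq_nsmul ℂ]
  match_scalars
  · linear_combination (-(3 / 10 : ℂ) * k) * Complex.I_mul_I
  · linear_combination ((3 / 10 : ℂ) * k) * Complex.I_mul_I

/-- Recovering the parameter from perturbed generators. -/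
theorem recover {k : ℕ} (hk : 10 ^ 12 ≤ k) {G : Type*} [Group G] {g : Bool × Fin k → G}
    {S : Side (Bool × Fin k) G H} (hS : S.Ok g) {U : H →L[ℂ] H}
    (hU : U ∈ unitary (H →L[ℂ] H)) (h : S.Cm U) {y : Bool × Fin k → (H →L[ℂ] H)}
    (hy : ∀ i, ‖y i - S.m (fun i => ph k i • U) i * S.R i‖ ≤ 2 / 10 ^ 5) :
    ‖((3 / 5 : ℂ) * k)⁻¹ • ∑ i, star (ph k i) • y i - U * (S.P * S.E 1)‖ ≤ 1 / 10000 := by
  have hk' : (10 : ℝ) ^ 12 ≤ k := by exact_mod_cast hk
  have hk0 : (0 : ℝ) < k := by linarith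
  have hc : ((3 / 5 : ℂ) * k) ≠ 0 := by
    have : (k : ℂ) ≠ 0 := by exact_mod_cast hk0.ne'
    exact mul_ne_zero (by norm_num) this
  have h1 := Side.estimate hS (par_smul hU h (norm_ph k)) (a := fun i => star (ph k i))
    fun i => by rw [norm_star, norm_ph]
  rw [sum_ph] at h1
  have h2 : ‖∑ i, star (ph k i) • y i -
      ∑ i, star (ph k i) • (S.m (fun i => ph k i • U) i * S.R i)‖ ≤ 2 * k * (2 / 10 ^ 5) := by
    rw [← Finset.sum_sub_distrib]
    refine (norm_sum_le_of_le (n := fun _ => 2 / 10 ^ 5) _ fun i _ => ?_).trans (by simp)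
    rw [← smul_sub, norm_smul, norm_star, norm_ph, one_mul]
    exact hy i
  have h3 : √(Fintype.card (Bool × Fin k) : ℝ) ≤ 2 * k / 10 ^ 6 := by
    rw [Real.sqrt_le_left (by positivity)]
    simp only [Fintype.card_prod, Fintype.card_bool, Fintype.card_fin]
    push_cast
    nlinarith
  have e : ((3 / 5 : ℂ) * k)⁻¹ • ∑ i, star (ph k i) • y i - U * (S.P * S.E 1) =
      ((3 / 5 : ℂ) * k)⁻¹ • (∑ i, star (ph k i) • y i - ((3 / 5 : ℂ) * k) • (U * (S.P * S.E 1))) := by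
    rw [smul_sub, smul_smul, inv_mul_cancel₀ hc, one_smul]
  have h4 := norm_sub_le_norm_sub_add_norm_sub (∑ i, star (ph k i) • y i)
    (∑ i, star (ph k i) • (S.m (fun i => ph k i • U) i * S.R i))
    (((3 / 5 : ℂ) * k) • (U * (S.P * S.E 1)))
  have h5 : ‖((3 / 5 : ℂ) * k)⁻¹‖ = (3 / 5 * (k : ℝ))⁻¹ := by simp
  rw [e, norm_smul, h5, inv_mul_le_iff₀ (by positivity)]
  nlinarith

theorem norm_conj_sub_le {u a : H →L[ℂ] H} (hu : u ∈ unitary (H →L[ℂ] H)) (ha : ‖a‖ ≤ 1) :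
    ‖u * a * star u - a‖ ≤ 2 * ‖u - 1‖ := by
  have e : u * a * star u - a = (u - 1) * a * star u + a * star (u - 1) := by
    rw [star_sub, star_one]; noncomm_ring
  have h1 := norm_le_one_of_unitary (Unitary.star_mem hu)
  have h2 : ‖(u - 1) * a * star u‖ ≤ ‖u - 1‖ * 1 * 1 :=
    (norm_mul_le _ _).trans (mul_le_mul ((norm_mul_le _ _).trans
      (mul_le_mul_of_nonneg_left ha (norm_nonneg _))) h1 (norm_nonneg _) (by positivity))
  have h3 : ‖a * star (u - 1)‖ ≤ 1 * ‖u - 1‖ := by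
    refine (norm_mul_le _ _).trans ?_
    rw [norm_star]
    exact mul_le_mul_of_nonneg_right ha (norm_nonneg _)
  rw [e]
  linarith [norm_add_le ((u - 1) * a * star u) (a * star (u - 1))]

theorem commute_avg {ι : Type*} [Fintype ι] {a b : ι → (H →L[ℂ] H)} (h : ∀ i j, Commute (a i) (b j))
    (c d : ℂ) (c' d' : ι → ℂ) : Commute (c • ∑ i, c' i • a i) (d • ∑ j, d' j • b j) :=
  ((Commute.sum_left _ _ _ fun i _ => (Commute.sum_right _ _ _ fun j _ =>
    (h i j).smul_right (d' j)).smul_left (c' i)).smul_left c).smul_right d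

theorem main104 : ∃ ε₀ : ℝ, 0 < ε₀ ∧ ∀ δ : ℝ, 0 < δ →
    ∃ (H : Type) (_ : NormedAddCommGroup H) (_ : InnerProductSpace ℂ H) (_ : CompleteSpace H)
      (_ : TopologicalSpace.SeparableSpace H) (M N : VonNeumannAlgebra H),
      (∀ x ∈ M, ‖x‖ ≤ 1 → ∃ y ∈ N, ‖x - y‖ < δ) ∧
      ∀ u : H →L[ℂ] H, u ∈ unitary (H →L[ℂ] H) →
        (∀ x ∈ M, u * x * star u ∈ N) → ε₀ ≤ ‖u - 1‖ := by
  refine ⟨1 / 10 ^ 5, by positivity, fun δ hδ => ?_⟩
  obtain ⟨k, hk⟩ : ∃ k : ℕ, 10 ^ 12 ≤ k := ⟨_, le_rfl⟩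
  obtain ⟨γ, hγ, hγδ⟩ : ∃ γ : ℝ, 0 < γ ∧ 5600 * (400 * γ) < δ :=
    ⟨δ / (2 * 5600 * 400), by positivity, by linarith⟩
  obtain ⟨n, hn, hwin⟩ := exists_windows hγ
  obtain ⟨G, _, g, wd, H, _, _, _, _, S₁, S₂, e, U, hG, h₁, h₂, h₁₂, h₂₁, he, hU, hUe, hU₁, hU₂,
    he₁, he₂, hp0, hfin⟩ := exists_model104 (Bool × Fin k) n
  obtain ⟨V, χ, c, ω, hV, hω1, hω, hVU, hc, hχ, hcU, hcV, hVe, hχe⟩ := hwin H e U he hU hUe
  have hV₁ : S₁.Cm V := .of_comm he₁ hVe
  have hV₂ : S₂.Cm V := .of_comm he₂ hVe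
  obtain ⟨W₁, hW₁⟩ : ∃ W₁, W₁ = fun i => ph k i • U := ⟨_, rfl⟩
  obtain ⟨W₂, hW₂⟩ : ∃ W₂, W₂ = fun i => ph k i • V := ⟨_, rfl⟩
  have p11 : S₁.Par W₁ := hW₁ ▸ par_smul hU hU₁ (norm_ph k)
  have p21 : S₂.Par W₁ := hW₁ ▸ par_smul hU hU₂ (norm_ph k)
  have p12 : S₁.Par W₂ := hW₂ ▸ par_smul hV hV₁ (norm_ph k)
  have p22 : S₂.Par W₂ := hW₂ ▸ par_smul hV hV₂ (norm_ph k)
  have s1 := gens_star h₁ h₂ p11
  have s2 := gens_star h₂ h₁ p22
  have hM : ∀ x, x ∈ (vnc _ s1).commutant ↔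
      x ∈ Set.centralizer (Set.centralizer (gens S₁ S₂ W₁)) := fun x => by
    rw [← coe_vnc _ s1, ← VonNeumannAlgebra.coe_commutant, SetLike.mem_coe]
  have hP : ∀ x, x ∈ (vnc _ s2).commutant ↔
      x ∈ Set.centralizer (Set.centralizer (gens S₂ S₁ W₂)) := fun x => by
    rw [← coe_vnc _ s2, ← VonNeumannAlgebra.coe_commutant, SetLike.mem_coe]
  refine ⟨H, inferInstance, inferInstance, inferInstance, inferInstance, (vnc _ s1).commutant,
    vnc _ s2, fun x hx hx1 => ?_, fun u hu huM => ?_⟩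
  · obtain ⟨Z, hZ, hn⟩ := hyper_vn (vnc _ s2).commutant (Y := x) (g := 400 * γ) (by positivity)
      fun t ht => by
        refine (comm_est hG h₁ h₂ h₁₂ h₂₁ p11 p21 p22 p12 (fun s => .of_comm he₁ (hχe s))
          (fun s => .of_comm he₂ (hχe s)) hχ (c := fun s i => ph k i * c s)
          (fun s i => by rw [norm_mul, norm_ph, hc, one_mul]) hγ.le (fun i => ?_) (fun i => ?_)
          ((hM x).1 hx) ((hP t).1 ht)).trans ?_
        · have := hcU.smul (a := fun _ => ph k i) zero_le_one fun _ => (norm_ph k i).le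
          simpa only [hW₁, one_mul, smul_sub, smul_mul_assoc, mul_smul_comm] using this
        · have := hcV.smul (a := fun _ => ph k i) zero_le_one fun _ => (norm_ph k i).le
          simpa only [hW₂, one_mul, smul_sub, smul_mul_assoc, mul_smul_comm, smul_smul] using this
        · have : 400 * γ * ‖x‖ ≤ 400 * γ := mul_le_of_le_one_right (by positivity) hx1
          exact mul_le_mul_of_nonneg_right this (norm_nonneg _)
    rw [VonNeumannAlgebra.commutant_commutant] at hZ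
    exact ⟨Z, hZ, hn.trans_lt hγδ⟩
  by_contra hlt
  push Not at hlt
  have hN : ∀ a ∈ gens S₁ S₂ W₁, ∀ b ∈ gens S₂ S₁ W₂, Commute (u * a * star u) b := by
    intro a ha b hb
    have h1 : u * a * star u ∈ (vnc _ s2 : Set (H →L[ℂ] H)) :=
      huM a ((hM a).2 (Set.subset_centralizer_centralizer ha))
    rw [coe_vnc] at h1
    exact (h1 b hb).symm
  have m1 : ∀ i, S₁.m W₁ i ∈ gens S₁ S₂ W₁ := fun i => Or.inl ⟨i, rfl⟩
  have r2 : ∀ i, S₂.R i ∈ gens S₁ S₂ W₁ := fun i => Or.inr ⟨i, rfl⟩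
  have m2 : ∀ i, S₂.m W₂ i ∈ gens S₂ S₁ W₂ := fun i => Or.inl ⟨i, rfl⟩
  have r1 : ∀ i, S₁.R i ∈ gens S₂ S₁ W₂ := fun i => Or.inr ⟨i, rfl⟩
  have hu1 : star u * u = 1 := (Unitary.mem_iff.1 hu).1
  have hVR : ∀ i j, Commute (S₁.V W₁ i) (S₂.R j) := fun i j =>
    (Side.commute_V (h₁₂.R j).tc ((p21 i).2.R j).symm (((p21 i).2.star h₂).R j).symm).symm
  have hmR : ∀ i j, Commute (u * S₁.m W₁ i * star u) (u * S₂.R j * star u) := fun i j => by
    have h1 : Commute (S₁.m W₁ i) (S₂.R j) := (hVR i j).mul_left ((h₁₂.R j).L i).symm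
    have e : ∀ a b : H →L[ℂ] H, u * a * star u * (u * b * star u) = u * (a * b) * star u :=
      fun a b => by simp only [mul_assoc]; rw [← mul_assoc (star u) u, hu1, one_mul]
    change _ * _ = _ * _
    rw [e, e, h1.eq]
  have hRm : ∀ i j, Commute (S₁.R i) (S₂.m W₂ j) := fun i j =>
    (Side.commute_V (h₂₁.R i).tc ((p12 j).2.R i).symm
      (((p12 j).2.star h₁).R i).symm).mul_right ((h₂₁.R i).L j)
  have hcomm : ∀ i j, Commute (S₂.m W₂ j * (u * S₂.R j * star u))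
      (u * S₁.m W₁ i * star u * S₁.R i) := fun i j =>
    ((hN _ (m1 i) _ (m2 j)).symm.mul_right (hRm i j).symm).mul_left
      ((hmR i j).symm.mul_right (hN _ (r2 j) _ (r1 i)))
  have hcomm' : ∀ i j, Commute (star (S₂.m W₂ j * (u * S₂.R j * star u)))
      (u * S₁.m W₁ i * star u * S₁.R i) := fun i j => by
    have e : star (S₂.m W₂ j * (u * S₂.R j * star u)) = u * S₂.R j * star u * S₂.m W₂ j := by
      simp only [star_mul, star_star, h₂.R_star, Side.m_star h₂ p22, mul_assoc]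
    rw [e, (hN _ (r2 j) _ (m2 j)).eq]
    exact hcomm i j
  have nm : ∀ {S : Side (Bool × Fin k) G H} {W}, S.Ok g → S.Par W → ∀ i, ‖S.m W i‖ ≤ 1 :=
    fun hS hW i => norm_le_one_of_unitary
      (mem_unitary_of_sa (Side.m_star hS hW i) (Side.m_sq hS hW i))
  have nR : ∀ {S : Side (Bool × Fin k) G H}, S.Ok g → ∀ i, ‖S.R i‖ ≤ 1 :=
    fun hS i => norm_le_one_of_unitary (mem_unitary_of_sa (hS.R_star i) (hS.R_sq i))
  have hA := recover hk h₁ hU hU₁ (y := fun i => u * S₁.m W₁ i * star u * S₁.R i) fun i => by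
    rw [← hW₁, ← sub_mul]
    have h1 := norm_conj_sub_le hu (nm h₁ p11 i)
    refine (norm_mul_le _ _).trans ((mul_le_mul h1 (nR h₁ i) (norm_nonneg _)
      (by positivity)).trans ?_)
    linarith
  have hB := recover hk h₂ hV hV₂ (y := fun i => S₂.m W₂ i * (u * S₂.R i * star u)) fun i => by
    rw [← hW₂, ← mul_sub]
    have h1 := norm_conj_sub_le hu (nR h₂ i)
    refine (norm_mul_le _ _).trans ((mul_le_mul (nm h₂ p22 i) h1 (norm_nonneg _)
      zero_le_one).trans ?_)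
    linarith
  have pj : ∀ {S : Side (Bool × Fin k) G H}, S.Ok g → IsStarProjection (S.P * S.E 1) :=
    fun hS => hS.tree.P_proj.mul (hS.res.proj 1) (hS.tE 1).P.symm
  refine hω1 (obstruction (pj h₂) (pj h₁) ?_ hV hU (hV₂.P.mul_right (hV₂.E 1))
    (hV₁.P.mul_right (hV₁.E 1)) (hU₂.P.mul_right (hU₂.E 1)) (hU₁.P.mul_right (hU₁.E 1)) hω hVU
    hp0 hfin (commute_avg (fun j i => hcomm i j) _ _ _ _) ?_ hB hA)
  · exact (h₁₂.P.P.mul_right (h₁₂.P.E 1)).mul_left (((h₁₂.E 1).P).mul_right ((h₁₂.E 1).E 1))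
  · rw [star_smul, star_sum]
    simp only [star_smul]
    exact commute_avg (fun j i => hcomm' i j) _ _ _ _

end Crest.Agent.R78.G
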