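import Crest.Agent.R78.G105a
import Crest.Agent.R78.GModel

/-!
# R78 (S0104, S0105): close separable algebras which are not spatially isomorphic
-/

set_option autoImplicit false
set_option linter.unusedSectionVars false
open scoped InnerProductSpace BigOperators

noncomputable section

namespace Crest.Agent.R78.G

open Crest.Agent.R124

theorem main105 (ε : ℝ) (hε : 0 < ε) :
    ∃ (H : Type) (_ : NormedAddCommGroup H) (_ : InnerProductSpace ℂ H) (_ : CompleteSpace H)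
      (_ : TopologicalSpace.SeparableSpace H) (A B : StarSubalgebra ℂ (H →L[ℂ] H)),
      IsClosed (A : Set (H →L[ℂ] H)) ∧ IsClosed (B : Set (H →L[ℂ] H)) ∧
      TopologicalSpace.IsSeparable (A : Set (H →L[ℂ] H)) ∧
      TopologicalSpace.IsSeparable (B : Set (H →L[ℂ] H)) ∧
      (∀ a ∈ A, ‖a‖ ≤ 1 → ∃ b ∈ B, ‖b‖ ≤ 1 ∧ ‖a - b‖ < ε) ∧
      (∀ b ∈ B, ‖b‖ ≤ 1 → ∃ a ∈ A, ‖a‖ ≤ 1 ∧ ‖b - a‖ < ε) ∧
      Set.centralizer (Set.centralizer (A : Set (H →L[ℂ] H))) =
        Set.centralizer (Set.centralizer (B : Set (H →L[ℂ] H))) ∧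
      ¬ ∃ u : H →L[ℂ] H, u ∈ unitary (H →L[ℂ] H) ∧
          ∀ y : H →L[ℂ] H, y ∈ B ↔ ∃ x ∈ A, y = u * x * star u := by
  obtain ⟨G, _, _, g, wd, H, _, _, _, _, S, mu, q, s, ζ, QR, η, hG, hS, hM, hF⟩ :=
    exists_model105 (Fin 16)
  obtain ⟨N, hN⟩ := exists_nat_gt (400 / ε)
  have hN0 : (0 : ℝ) < N := lt_trans (by positivity) hN
  obtain ⟨θ, hθ⟩ : ∃ θ : ℝ, θ = Real.pi / 2 / N := ⟨_, rfl⟩
  have hθ0 : 0 ≤ θ := by rw [hθ]; positivity
  have hθε : 200 * θ < ε := by
    have h1 : θ ≤ 2 / N := by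
      rw [hθ]; exact div_le_div_of_nonneg_right (by linarith [Real.pi_le_four]) hN0.le
    have h2 : 200 * (2 / (N : ℝ)) < ε := by
      rw [div_lt_iff₀ hε] at hN
      rw [← mul_div_assoc, div_lt_iff₀ hN0]; linarith
    linarith
  let w : ℕ → ℂ := fun j => Complex.exp (Complex.I * ((j * θ : ℝ) : ℂ))
  have hw : ∀ j, ‖w j‖ = 1 := fun j => Complex.norm_exp_I_mul_ofReal _
  have hw0 : w 0 = 1 := by simp [w]
  have hwN : w N = Complex.I := by
    have : (N : ℝ) * θ = Real.pi / 2 := by rw [hθ]; field_simp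
    simp only [w, this]
    rw [mul_comm]; push_cast; exact Complex.exp_pi_div_two_mul_I
  have hd : ∀ j, ‖w (j + 1) - w j‖ ≤ θ := fun j => by
    have e : w (j + 1) - w j = w j * (Complex.exp (Complex.I * θ) - 1) := by
      simp only [w]
      rw [mul_sub, mul_one, ← Complex.exp_add]
      congr 2
      push_cast; ring
    rw [e, norm_mul, hw, one_mul]
    exact Real.norm_exp_I_mul_ofReal_sub_one_le.trans (by rw [Real.norm_of_nonneg hθ0])
  obtain ⟨j, hj⟩ : ∃ j, ¬Conj (Aw mu (mw S (w j))) (Aw mu (mw S (w (j + 1)))) := by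
    by_contra hcon
    push Not at hcon
    have : ∀ j, Conj (Aw mu (mw S (w 0))) (Aw mu (mw S (w j))) := fun j => by
      induction j with
      | zero => exact .refl _
      | succ j ih => exact ih.trans (hcon j)
    have h := this N
    rw [hw0, hwN] at h
    exact not_conj (by simp) hS hM hF h
  have hsep : ∀ m : Fin 16 → (H →L[ℂ] H),
      TopologicalSpace.IsSeparable (Aw mu m : Set (H →L[ℂ] H)) := fun m => by
    refine cgen_separable ((Set.countable_range m).union ?_)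
    refine (Set.countable_range fun t : (G × ℕ) × (G × ℕ) × G => mu t.1 t.2.1 t.2.2).mono ?_
    rintro _ ⟨j, j', h, rfl⟩
    exact ⟨(j, j', h), rfl⟩
  refine ⟨H, inferInstance, inferInstance, inferInstance, inferInstance, Aw mu (mw S (w j)),
    Aw mu (mw S (w (j + 1))), isClosed_cgen _, isClosed_cgen _, hsep _, hsep _,
    fun a ha ha1 => ?_, fun a ha ha1 => ?_, ?_, hj⟩
  · obtain ⟨b, hb, hb1, hb2⟩ := close hG hS hM hF (hw j) (hw (j + 1)) ha ha1
    exact ⟨b, hb, hb1, by linarith [hd j]⟩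
  · obtain ⟨b, hb, hb1, hb2⟩ := close hG hS hM hF (hw (j + 1)) (hw j) ha ha1
    rw [norm_sub_rev (w j)] at hb2
    exact ⟨b, hb, hb1, by linarith [hd j]⟩
  · rw [hM.centralizer_Aw (hF.goodM hS (hw j)), hM.centralizer_Aw (hF.goodM hS (hw (j + 1)))]

end Crest.Agent.R78.G
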