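import Crest.Agent.R78.GIdeal

/-!
# R78 (S0104, S0105): a spatial isomorphism preserves the ideal
-/

set_option autoImplicit false
set_option linter.unusedSectionVars false
open scoped InnerProductSpace BigOperators

noncomputable section

namespace Crest.Agent.R78.G

open Crest.Agent.R124

variable {H : Type*} [NormedAddCommGroup H] [InnerProductSpace ℂ H] [CompleteSpace H]
variable {κ G : Type*} [Group G] {mu : G × ℕ → G × ℕ → G → (H →L[ℂ] H)} {q : ℕ → (H →L[ℂ] H)}
  {s : ℕ → ℕ → (H →L[ℂ] H)} {ζ : G × ℕ → H} {m m' : κ → (H →L[ℂ] H)} {u : H →L[ℂ] H}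

/-- `u` normalises the common commutant (`centralizer_Aw`). -/
theorem Mu.conj_cent (hM : Mu mu q s ζ) (hm : GoodM mu q s m) (hm' : GoodM mu q s m')
    (hu : u ∈ unitary (H →L[ℂ] H)) (h : ∀ y, y ∈ Aw mu m' ↔ ∃ x ∈ Aw mu m, y = u * x * star u)
    {z : H →L[ℂ] H} (hz : z ∈ Set.centralizer (muSet mu)) :
    u * z * star u ∈ Set.centralizer (muSet mu) ∧ star u * z * u ∈ Set.centralizer (muSet mu) := by
  have hu1 : star u * u = 1 := (Unitary.mem_iff.1 hu).1
  have hu2 : u * star u = 1 := (Unitary.mem_iff.1 hu).2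
  constructor
  · rw [← hM.centralizer_Aw hm'] 
    rw [← hM.centralizer_Aw hm] at hz
    intro y hy
    obtain ⟨x, hx, rfl⟩ := (h y).1 hy
    simp only [mul_assoc]
    rw [← mul_assoc (star u) u, hu1, one_mul, ← mul_assoc (star u) u, hu1, one_mul,
      ← mul_assoc x, hz x hx, mul_assoc]
  · rw [← hM.centralizer_Aw hm]
    rw [← hM.centralizer_Aw hm'] at hz
    intro x hx
    have h1 := hz _ ((h _).2 ⟨x, hx, rfl⟩)
    calc x * (star u * z * u) = star u * (u * x * star u * z) * u := by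
          simp only [← mul_assoc]; rw [hu1, one_mul]
      _ = star u * z * u * x := by
          rw [h1]; simp only [mul_assoc]; rw [hu1, mul_one]

/-- **A finite projection of the extension lies in the ideal.**  Write `p = y + k` (`mem_Aw`).
`p² = p` gives `(y² - y) + (y k + k y + k² - k) = 0`, so `y² = y` by `Mu.norm_le`.  Fix `m`; for all
`n` let `b = p (s n m) y (q m) p` (all factors are left multipliers, `lm_bicomm`).
`‖b* ξ‖ = ‖p y* (s n m)* (q n) ξ‖ ≤ ‖p‖ ‖y‖ ‖q n ξ‖ → 0`, while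
`b ξ = p (q n) (s n m) y (q m) ξ = (s n m) y² (q m) ξ + (k q n) (s n m) y (q m) ξ`, so
`‖y (q m) ξ‖ ≤ ‖b ξ‖ + ‖k q n‖ ‖y‖ ‖ξ‖ → 0`.  Hence `q m (y ξ) = 0` for all `m`, `y ξ = 0`,
`p y p ξ = 0`, `p y p = 0`; but `p y p = y³ + (element of the ideal)`, so `y = y³ = 0` by `norm_le`. -/
theorem Mu.fin_proj (hM : Mu mu q s ζ) (hm : GoodM mu q s m) {p : H →L[ℂ] H}
    (hp : IsStarProjection p) (hpA : p ∈ Aw mu m) {ξ : H} (hξ : p ξ = ξ)
    (htr : ∀ b, b ∈ Set.centralizer (Set.centralizer (muSet mu)) → p * b = b → b * p = b →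
      ‖b ξ‖ = ‖star b ξ‖ ∧ (b ξ = 0 → b = 0)) : p ∈ Iid mu := by
  obtain ⟨y, hy, k, hk, hyk⟩ := (hM.mem_Aw hm).1 hpA
  obtain ⟨hyl, hyq, hys⟩ := hm.of_mem hy
  have hyl' := (hm.of_mem (StarMemClass.star_mem hy)).1
  have hpp : p * p = p := hp.isIdempotentElem.eq
  have hzero : ∀ y' ∈ cgen (Set.range m), ∀ k' ∈ Iid mu, y' + k' = 0 → y' = 0 := by
    intro y' hy' k' hk' h0
    obtain ⟨-, h1, h2⟩ := hm.of_mem hy'
    have := hM.norm_le h1 h2 hk'
    rwa [h0, norm_zero, norm_le_zero_iff] at this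
  have hyy : y * y = y := by
    refine sub_eq_zero.1 (hzero _ (sub_mem (mul_mem hy hy) hy) (y * k + k * y + k * k - k)
      (sub_mem (add_mem (add_mem (hyl _ hk) (hM.mul_mem_right hk hyl')) (hM.lm_of_mem hk _ hk)) hk)
      ?_)
    have : (y + k) * (y + k) - (y + k) = 0 := by rw [← hyk, hpp, sub_self]
    rw [← this]; noncomm_ring
  have hpl : p ∈ LMalg mu := hM.lm_of_Aw hm hpA
  have hq : ∀ n, star (q n) = q n := fun n => (hM.q_res.proj n).isSelfAdjoint.star_eq
  have hqq : ∀ n, q n * q n = q n := fun n => (hM.q_res.proj n).isIdempotentElem.eq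
  have h1 : ∀ n', q n' (y ξ) = 0 := by
    intro n'
    have hb : ∀ n, ‖q n' (y ξ)‖ ≤ ‖y‖ * ‖q n ξ‖ + ‖k * q n‖ * ‖q n' (y ξ)‖ := by
      intro n
      have hsu := hM.s_unit n n'
      have hb := (htr (p * (s n n' * q n' * y) * p) (hM.lm_bicomm (mem_LMalg.1 (mul_mem (mul_mem hpl
        (mul_mem (mul_mem (hM.lm_s n n') (hM.lm_q n')) hyl)) hpl)))
        (by rw [← mul_assoc, ← mul_assoc, hpp]) (by rw [mul_assoc, hpp])).1
      have e1 : star (p * (s n n' * q n' * y) * p) = p * star y * star (s n n') * q n * p := by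
        rw [hM.s_q]
        simp only [star_mul, hp.isSelfAdjoint.star_eq, hq, mul_assoc]
      have e2 : p * (s n n' * q n' * y) = s n n' * q n' * y + k * q n * (s n n' * q n' * y) := by
        have e3 : s n n' * q n' * y = q n * (s n n' * q n' * y) := by
          rw [hM.s_q, ← mul_assoc, ← mul_assoc, hqq]
        have e4 : y * (s n n' * q n' * y) = s n n' * q n' * y := by
          rw [← mul_assoc, ((hys n n').mul_right (hyq n')).eq, mul_assoc _ y y, hyy]
        rw [hyk, add_mul, e4, mul_assoc k, ← e3]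
      rw [e1, e2] at hb
      simp only [mul_apply_eq_comp, add_apply, hξ] at hb
      have n1 : ‖s n n' (q n' (y ξ))‖ = ‖q n' (y ξ)‖ :=
        ContinuousLinearMap.norm_map_of_mem_unitary hsu _
      have n2 : ‖p ((star y) ((star (s n n')) (q n ξ)))‖ ≤ ‖y‖ * ‖q n ξ‖ := by
        refine (p.le_of_opNorm_le hp.norm_le _).trans ?_
        rw [one_mul, ← norm_star y,
          ← ContinuousLinearMap.norm_map_of_mem_unitary (Unitary.star_mem hsu) (q n ξ)]
        exact ContinuousLinearMap.le_opNorm _ _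
      have n3 := (k * q n).le_opNorm (s n n' (q n' (y ξ)))
      rw [n1, mul_apply_eq_comp] at n3
      have n4 := norm_sub_le (s n n' (q n' (y ξ)) + k (q n (s n n' (q n' (y ξ)))))
        (k (q n (s n n' (q n' (y ξ)))))
      rw [add_sub_cancel_right, n1] at n4
      linarith
    have hl := ((hM.q_res.tendsto ξ).const_mul ‖y‖).add
      ((hM.tendsto_q hk).mul_const ‖q n' (y ξ)‖)
    simp only [mul_zero, zero_mul, add_zero] at hl
    exact norm_le_zero_iff.1 (ge_of_tendsto' hl hb)
  have h2 : y ξ = 0 := by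
    have := hM.q_res.hasSum (y ξ)
    simp only [h1] at this
    exact this.unique hasSum_zero
  have h3 : p * y * p = 0 :=
    (htr _ (hM.lm_bicomm (mem_LMalg.1 (mul_mem (mul_mem hpl hyl) hpl)))
      (by rw [← mul_assoc, ← mul_assoc, hpp]) (by rw [mul_assoc, hpp])).2
      (by simp only [mul_apply_eq_comp, hξ, h2, map_zero])
  have h4 : y = 0 := by
    refine hzero y hy (y * k + k * y + k * (y * k)) (add_mem (add_mem (hyl _ hk)
      (hM.mul_mem_right hk hyl')) (hM.lm_of_mem hk _ (hyl _ hk))) ?_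
    rw [← h3, hyk]
    simp only [add_mul, mul_add, mul_assoc, hyy]
    abel
  rwa [hyk, h4, zero_add]

/-- `p = u* (mu j' j' 1) u` is in the ideal by `fin_proj` with `ξ = u* (ζ j')` (transport `Mu.tr` by
`u`, using `conj_cent`); `u* (mu j j' h) u = (u* (mu j j' h) u) p ∈ Aw · I ⊆ I`; then `Iid_le`. -/
theorem Mu.conj_ideal (hM : Mu mu q s ζ) (hm : GoodM mu q s m) (hm' : GoodM mu q s m')
    (hu : u ∈ unitary (H →L[ℂ] H)) (h : ∀ y, y ∈ Aw mu m' ↔ ∃ x ∈ Aw mu m, y = u * x * star u)
    {k : H →L[ℂ] H} (hk : k ∈ Iid mu) : star u * k * u ∈ Iid mu := by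
  have hu1 : star u * u = 1 := (Unitary.mem_iff.1 hu).1
  have hu2 : u * star u = 1 := (Unitary.mem_iff.1 hu).2
  have hA : ∀ j j' h', star u * mu j j' h' * u ∈ Aw mu m := fun j j' h' => by
    obtain ⟨x, hx, hx'⟩ := (h _).1 (subset_cgen (Or.inr ⟨j, j', h', rfl⟩))
    rw [hx']
    simp only [← mul_assoc]
    rwa [hu1, one_mul, mul_assoc, hu1, mul_one]
  have hcj : ∀ a b : H →L[ℂ] H, star u * a * u * (star u * b * u) = star u * (a * b) * u :=
    fun a b => by simp only [mul_assoc]; rw [← mul_assoc u (star u), hu2, one_mul]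
  have hp : ∀ j, star u * mu j j 1 * u ∈ Iid mu := fun j => by
    have he := hM.res.proj j
    refine hM.fin_proj hm ⟨by rw [IsIdempotentElem, hcj, he.isIdempotentElem.eq], by
      rw [IsSelfAdjoint, star_mul, star_mul, star_star, he.isSelfAdjoint.star_eq, mul_assoc]⟩
      (hA j j 1) (ξ := star u (ζ j)) ?_ fun b hb h1 h2 => ?_
    · rw [mul_apply_eq_comp, mul_apply_eq_comp, ← mul_apply_eq_comp u, hu2, one_apply_eq_self,
        hM.ζ_mu]
    · have hb' : u * b * star u ∈ Set.centralizer (Set.centralizer (muSet mu)) := fun z hz => by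
        have h3 := hb _ (hM.conj_cent hm hm' hu h hz).2
        calc z * (u * b * star u) = u * (star u * z * u * b) * star u := by
              simp only [← mul_assoc]; rw [hu2, one_mul]
          _ = u * b * star u * z := by
              rw [h3]; simp only [mul_assoc]; rw [hu2, mul_one]
      obtain ⟨h4, h5⟩ := hM.tr j _ hb'
        (by
          conv_rhs => rw [← h1]
          simp only [← mul_assoc]; rw [hu2, one_mul])
        (by
          conv_rhs => rw [← h2]
          simp only [mul_assoc]; rw [hu2, mul_one])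
      rw [star_mul, star_mul, star_star] at h4
      simp only [mul_apply_eq_comp, ContinuousLinearMap.norm_map_of_mem_unitary hu] at h4 h5
      refine ⟨h4, fun h6 => ?_⟩
      have h7 := h5 (by rw [h6, map_zero])
      calc b = star u * (u * b * star u) * u := by
            simp only [← mul_assoc]; rw [hu1, one_mul, mul_assoc, hu1, mul_one]
        _ = 0 := by rw [h7, mul_zero, zero_mul]
  refine Iid_le (K := (Iid mu).comap (LinearMap.mulRight ℂ u ∘ₗ LinearMap.mulLeft ℂ (star u)))
    (isClosed_Iid.preimage ((continuous_const.mul continuous_id).mul continuous_const))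
    (fun j j' h' => ?_) hk
  change star u * mu j j' h' * u ∈ Iid mu
  have := hM.lm_of_Aw hm (hA j j' h') _ (hp j')
  rwa [hcj, hM.mul_eq, mul_one] at this

end Crest.Agent.R78.G
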