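import Crest.Agent.R78.GRes

/-!
# R78 (S0104, S0105): the tensor bound
-/

set_option autoImplicit false
set_option linter.unusedSectionVars false
open scoped InnerProductSpace BigOperators

noncomputable section

namespace Crest.Agent.R78.G

open Crest.Agent.R124

variable {H : Type*} [NormedAddCommGroup H] [InnerProductSpace ℂ H] [CompleteSpace H]

/-- A bounded scalar matrix acts on vector-valued columns.  Expand in an orthonormal basis `b` of
the (finite-dimensional) span of the `X j`, `Y j` (`stdOrthonormalBasis`,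
`OrthonormalBasis.sum_inner_mul_inner`): `⟪X j, Y j'⟫ = ∑_b ⟪X j, b⟫ ⟪b, Y j'⟫`, then Cauchy–Schwarz
in `b`. -/
theorem amplify {ι : Type*} [Fintype ι] {c : ι → ι → ℂ} {M : ℝ} (hM : 0 ≤ M)
    (hc : ∀ x y : ι → ℂ, ‖∑ j, ∑ j', (starRingEnd ℂ) (x j) * c j j' * y j'‖ ≤ M * l2 x * l2 y)
    (X Y : ι → H) : ‖∑ j, ∑ j', c j j' * ⟪X j, Y j'⟫_ℂ‖ ≤ M * l2 X * l2 Y := by
  set V : Submodule ℂ H := Submodule.span ℂ (Set.range X ∪ Set.range Y) with hV
  have : FiniteDimensional ℂ V :=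
    FiniteDimensional.span_of_finite ℂ ((Set.finite_range X).union (Set.finite_range Y))
  let X' : ι → V := fun j => ⟨X j, Submodule.subset_span (Or.inl ⟨j, rfl⟩)⟩
  let Y' : ι → V := fun j => ⟨Y j, Submodule.subset_span (Or.inr ⟨j, rfl⟩)⟩
  let b := stdOrthonormalBasis ℂ V
  have h1 : ∑ j, ∑ j', c j j' * ⟪X j, Y j'⟫_ℂ = ∑ k, ∑ j, ∑ j',
      (starRingEnd ℂ) ⟪b k, X' j⟫_ℂ * c j j' * ⟪b k, Y' j'⟫_ℂ := by
    rw [Finset.sum_comm (s := Finset.univ) (t := Finset.univ)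
      (f := fun k j => ∑ j', (starRingEnd ℂ) ⟪b k, X' j⟫_ℂ * c j j' * ⟪b k, Y' j'⟫_ℂ)]
    refine Finset.sum_congr rfl fun j _ => ?_
    rw [Finset.sum_comm]
    refine Finset.sum_congr rfl fun j' _ => ?_
    have h2 : ⟪X j, Y j'⟫_ℂ = ⟪X' j, Y' j'⟫_ℂ := rfl
    rw [h2, ← b.sum_inner_mul_inner, Finset.mul_sum]
    refine Finset.sum_congr rfl fun k _ => ?_
    rw [inner_conj_symm]; ring
  have h3 : ∀ (Z : ι → H) (Z' : ι → V), (∀ j, (Z' j : H) = Z j) →
      √(∑ k, l2 (fun j => ⟪b k, Z' j⟫_ℂ) ^ 2) = l2 Z := by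
    intro Z Z' hZ
    simp only [l2_sq]
    rw [Finset.sum_comm, l2]
    congr 1
    refine Finset.sum_congr rfl fun j _ => ?_
    rw [b.sum_sq_norm_inner_right, ← hZ j]
    rfl
  rw [h1]
  refine (norm_sum_le _ _).trans ((Finset.sum_le_sum fun k _ => hc _ _).trans ?_)
  simp only [mul_assoc, ← Finset.mul_sum]
  refine mul_le_mul_of_nonneg_left ?_ hM
  rw [← h3 X X' fun _ => rfl, ← h3 Y Y' fun _ => rfl]
  exact Real.sum_mul_le_sqrt_mul_sqrt _ _ _

theorem gtens_sum_l2 {ι κ : Type*} [Fintype ι] [Fintype κ] {Q : κ → (H →L[ℂ] H)}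
    (hQ : ∀ i, IsStarProjection (Q i)) (hQQ : ∀ i j, i ≠ j → Q i * Q j = 0) (x : ι → H) :
    ∑ i, l2 (fun j => Q i (x j)) ≤ √(Fintype.card κ) * l2 x := by
  have h1 := Real.sum_mul_le_sqrt_mul_sqrt Finset.univ (fun _ : κ => (1 : ℝ))
    fun i => l2 fun j => Q i (x j)
  simp only [one_mul, one_pow, Finset.sum_const, Finset.card_univ, nsmul_eq_mul, mul_one,
    l2_sq] at h1
  refine h1.trans (mul_le_mul_of_nonneg_left (Real.sqrt_le_sqrt ?_) (Real.sqrt_nonneg _))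
  rw [Finset.sum_comm]
  exact Finset.sum_le_sum fun j _ => sum_sq_proj_le hQ hQQ _

theorem gtens_half {ι κ : Type*} [Fintype ι] [Fintype κ] {c : κ → ι → ι → ℂ}
    (hc : ∀ i (x y : ι → ℂ),
      ‖∑ j, ∑ j', (starRingEnd ℂ) (x j) * c i j j' * y j'‖ ≤ 1 * l2 x * l2 y)
    {r Q : κ → (H →L[ℂ] H)} (hr1 : ∀ i, ‖r i‖ ≤ 1)
    (hQ : ∀ i, IsStarProjection (Q i)) (hQQ : ∀ i j, i ≠ j → Q i * Q j = 0)
    (h0 : ∀ i, (1 - Q i) * r i * (1 - Q i) = 0) (x y : ι → H) :
    ‖∑ i, ∑ j, ∑ j', c i j j' * ⟪x j, r i (y j')⟫_ℂ‖ ≤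
      2 * √(Fintype.card κ) * l2 x * l2 y := by
  have h1 : ∀ i, ‖∑ j, ∑ j', c i j j' * ⟪x j, r i (y j')⟫_ℂ‖ ≤
      l2 (fun j => Q i (x j)) * l2 y + l2 x * l2 (fun j => Q i (y j)) := by
    intro i
    have e : r i = Q i * r i + (1 - Q i) * r i * Q i := by
      have := h0 i
      rw [mul_sub, mul_one, sub_eq_zero] at this
      rw [← this, sub_mul, one_mul, add_sub_cancel]
    have e2 : ∀ u w : H, ⟪u, r i w⟫_ℂ =
        ⟪Q i u, r i w⟫_ℂ + ⟪u, ((1 - Q i) * r i) (Q i w)⟫_ℂ := by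
      intro u w
      rw [gres_inner (hQ i), ← inner_add_right]
      conv_lhs => rw [e]
      rfl
    have e3 : ‖(1 - Q i) * r i‖ ≤ 1 :=
      (norm_mul_le _ _).trans (mul_le_one₀ (hQ i).one_sub.norm_le (norm_nonneg _) (hr1 i))
    have e4 : ∑ j, ∑ j', c i j j' * ⟪x j, r i (y j')⟫_ℂ =
        ∑ j, ∑ j', c i j j' * ⟪Q i (x j), r i (y j')⟫_ℂ +
          ∑ j, ∑ j', c i j j' * ⟪x j, ((1 - Q i) * r i) (Q i (y j'))⟫_ℂ := by
      rw [← Finset.sum_add_distrib]
      refine Finset.sum_congr rfl fun j _ => ?_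
      rw [← Finset.sum_add_distrib]
      exact Finset.sum_congr rfl fun j' _ => by rw [e2, mul_add]
    rw [e4]
    refine (norm_add_le _ _).trans (add_le_add ((amplify zero_le_one (hc i) _ _).trans ?_)
      ((amplify zero_le_one (hc i) _ _).trans ?_))
    · rw [one_mul]
      exact mul_le_mul_of_nonneg_left ((l2_apply_le _ _).trans
        (mul_le_of_le_one_left (l2_nonneg _) (hr1 i))) (l2_nonneg _)
    · rw [one_mul]
      exact mul_le_mul_of_nonneg_left ((l2_apply_le _ _).trans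
        (mul_le_of_le_one_left (l2_nonneg _) e3)) (l2_nonneg _)
  refine (norm_sum_le _ _).trans ((Finset.sum_le_sum fun i _ => h1 i).trans ?_)
  rw [Finset.sum_add_distrib, ← Finset.sum_mul, ← Finset.mul_sum]
  have h2 := mul_le_mul_of_nonneg_right (gtens_sum_l2 hQ hQQ x) (l2_nonneg y)
  have h3 := mul_le_mul_of_nonneg_left (gtens_sum_l2 hQ hQQ y) (l2_nonneg x)
  linarith

/-- **Tensor bound.**  If `H` is trivial there is nothing to prove; otherwise some `f o o ≠ 0`; take a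
unit vector `v` in its range: the `f j o v` are orthonormal and `⟪f j o v, a f j' o v⟫ = c j j'`, so the
scalar matrix `c` of `a i` is bounded by `1` on every finite set `F` of indices.  For
`ξ, η` in the range of `p_F = ∑_{j ∈ F} f j j`:
`⟪η, a r ξ⟫ = ∑_{j,j' ∈ F} c j j' ⟪f o j η, r (f o j' ξ)⟫` (`f j j' = f j o f o j'`, `r` commutes with `f`).
Split `r = Q r + (1 - Q) r Q`, use `amplify`, `∑_j ‖f o j η‖² ≤ ‖η‖²`, `sum_sq_proj_le` and
Cauchy–Schwarz over `i`: each half is at most `√|κ| ‖η‖ ‖ξ‖`.  Finally `p_F → 1` strongly. -/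
theorem tensor_bound {ι : Type*} {f : ι → ι → (H →L[ℂ] H)} (hmul : ∀ j l l', f j l * f l l' = f j l')
    (hstar : ∀ j j', star (f j j') = f j' j) (hres : Res fun j => f j j) {κ : Type*} [Fintype κ]
    {a r Q : κ → (H →L[ℂ] H)} (ha : ∀ i, ‖a i‖ ≤ 1)
    (hac : ∀ i j j', ∃ c : ℂ, f j j * a i * f j' j' = c • f j j')
    (hr : ∀ i j j', Commute (r i) (f j j')) (hr1 : ∀ i, ‖r i‖ ≤ 1)
    (hQ : ∀ i, IsStarProjection (Q i)) (hQQ : ∀ i j, i ≠ j → Q i * Q j = 0)
    (h0 : ∀ i, (1 - Q i) * r i * (1 - Q i) = 0) :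
    ‖∑ i, a i * r i‖ ≤ 2 * √(Fintype.card κ) := by
  classical
  by_cases hz : ∀ o ψ, f o o ψ = 0
  · refine ContinuousLinearMap.opNorm_le_bound _ (by positivity) fun ψ => ?_
    have h1 := hres.hasSum ψ
    simp only [hz] at h1
    rw [← hasSum_zero.unique h1]
    simp
  push Not at hz
  obtain ⟨o, ψ, hψ⟩ := hz
  have happ : ∀ j l l' w, f j l (f l l' w) = f j l' w := fun j l l' w => by
    rw [← mul_apply_eq_comp, hmul]
  have hadj : ∀ j l u w, ⟪f j l u, w⟫_ℂ = ⟪u, f l j w⟫_ℂ := fun j l u w => by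
    rw [← ContinuousLinearMap.adjoint_inner_right, ← ContinuousLinearMap.star_eq_adjoint, hstar]
  have hnorm : ∀ j l w, ‖f j l w‖ = ‖f l l w‖ := fun j l w => by
    have h1 : ⟪f j l w, f j l w⟫_ℂ = ⟪f l l w, f l l w⟫_ℂ := by
      rw [hadj, hadj, happ, happ]
    rw [norm_eq_sqrt_re_inner (𝕜 := ℂ), h1, ← norm_eq_sqrt_re_inner (𝕜 := ℂ)]
  set v : H := ((‖f o o ψ‖⁻¹ : ℝ) : ℂ) • f o o ψ with hv
  have hv1 : ∀ j, ‖f j o v‖ = 1 := fun j => by
    rw [hnorm, hv, map_smul, happ, norm_smul, Complex.norm_real, norm_inv, norm_norm,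
      inv_mul_cancel₀ (norm_ne_zero_iff.2 hψ)]
  clear_value v
  choose c hc using hac
  have hc1 : ∀ i j j' u w, ⟪f j j u, a i (f j' j' w)⟫_ℂ = c i j j' * ⟪u, f j j' w⟫_ℂ := by
    intro i j j' u w
    rw [hadj, ← inner_smul_right, ← smul_apply, ← hc]
    rfl
  have hfin : ∀ (F : Finset ι) (η ξ : H),
      ‖⟪∑ j ∈ F, f j j η, (∑ i, a i * r i) (∑ j ∈ F, f j j ξ)⟫_ℂ‖ ≤
        2 * √(Fintype.card κ) * ‖η‖ * ‖ξ‖ := by
    intro F η ξ
    have hl : ∀ x : F → ℂ, ‖∑ j : F, x j • f j o v‖ = l2 x := by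
      intro x
      have h1 := gres_pyth (E := fun j : F => f j j) (fun j => hres.proj j)
        (fun j j' h => hres.orth j j' fun e => h (Subtype.ext e)) (v := fun j : F => x j • f j o v)
        (fun j => by rw [map_smul, happ]) Finset.univ
      simp only [norm_smul, hv1, mul_one] at h1
      rw [l2, ← h1, Real.sqrt_sq (norm_nonneg _)]
    have hcb : ∀ i (x y : F → ℂ), 
        ‖∑ j : F, ∑ j' : F, (starRingEnd ℂ) (x j) * c i j j' * y j'‖ ≤ 1 * l2 x * l2 y := by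
      intro i x y
      have h1 : ∑ j : F, ∑ j' : F, (starRingEnd ℂ) (x j) * c i j j' * y j' =
          ⟪∑ j : F, x j • f j o v, a i (∑ j : F, y j • f j o v)⟫_ℂ := by
        rw [sum_inner]
        refine Finset.sum_congr rfl fun j _ => ?_
        rw [map_sum, inner_sum]
        refine Finset.sum_congr rfl fun j' _ => ?_
        have h2 := hc1 i j j' (f j o v) (f j' o v)
        rw [happ, happ, happ, inner_self_eq_norm_sq_to_K, hv1] at h2
        rw [map_smul, inner_smul_left, inner_smul_right, h2]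
        simp only [RCLike.ofReal_one, one_pow, mul_one]
        ring
      rw [h1, one_mul, ← hl x, ← hl y]
      refine (norm_inner_le_norm _ _).trans (mul_le_mul_of_nonneg_left ?_ (norm_nonneg _))
      exact ((a i).le_opNorm _).trans (mul_le_of_le_one_left (norm_nonneg _) (ha i))
    have h1 : ⟪∑ j ∈ F, f j j η, (∑ i, a i * r i) (∑ j ∈ F, f j j ξ)⟫_ℂ =
        ∑ i, ∑ j : F, ∑ j' : F, c i j j' * ⟪f o j η, r i (f o j' ξ)⟫_ℂ := by
      rw [← Finset.sum_coe_sort F, ← Finset.sum_coe_sort F, sum_apply, inner_sum]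
      refine Finset.sum_congr rfl fun i _ => ?_
      rw [sum_inner]
      refine Finset.sum_congr rfl fun j _ => ?_
      rw [map_sum, inner_sum]
      refine Finset.sum_congr rfl fun j' _ => ?_
      have hcomm : ∀ l l' w, r i (f l l' w) = f l l' (r i w) := fun l l' w => by
        rw [← mul_apply_eq_comp, (hr i l l').eq, mul_apply_eq_comp]
      rw [mul_apply_eq_comp, hcomm, hc1, hadj, hcomm, happ]
    have h2 : ∀ w, l2 (fun j : F => f o j w) ≤ ‖w‖ := by
      intro w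
      refine l2_le_of_sq_le (norm_nonneg _) ?_
      simp only [hnorm o]
      exact sum_sq_proj_le (Q := fun j : F => f j j) (fun j => hres.proj j)
        (fun j j' h => hres.orth j j' fun e => h (Subtype.ext e)) w
    rw [h1]
    refine (gtens_half (c := fun i (j j' : F) => c i j j') hcb hr1 hQ hQQ h0 _ _).trans ?_
    have h3 := l2_nonneg fun j : F => f o j ξ
    gcongr
    exacts [h2 η, h2 ξ]
  refine ContinuousLinearMap.opNorm_le_bound _ (by positivity) fun ξ => ?_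
  set T := ∑ i, a i * r i
  have h1 := ((hres.hasSum (T ξ)).inner (𝕜 := ℂ)
    ((T.continuous.tendsto _).comp (hres.hasSum ξ))).norm
  have h2 := le_of_tendsto' h1 fun F => hfin F (T ξ) ξ
  rw [inner_self_eq_norm_sq_to_K, norm_pow, RCLike.norm_ofReal, abs_norm] at h2
  rcases (norm_nonneg (T ξ)).eq_or_lt with h3 | h3
  · rw [← h3]; positivity
  · refine le_of_mul_le_mul_left ?_ h3
    linarith

end Crest.Agent.R78.G
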