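import Crest.Agent.R78.GFell
import Crest.Agent.R78.GFin
import Crest.Agent.R78.GTens

/-!
# R78 (S0104, S0105): the algebras `A_w` are close, `A_1` and `A_i` are not conjugate
-/

set_option autoImplicit false
set_option linter.unusedSectionVars false
open scoped InnerProductSpace BigOperators

noncomputable section

namespace Crest.Agent.R78.G

open Crest.Agent.R124

variable {H : Type*} [NormedAddCommGroup H] [InnerProductSpace ℂ H] [CompleteSpace H]
variable {κ G : Type*} [Group G] {g : κ → G} {wd : G → List κ} {S : Side κ G H}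
  {mu : G × ℕ → G × ℕ → G → (H →L[ℂ] H)} {q : ℕ → (H →L[ℂ] H)} {s : ℕ → ℕ → (H →L[ℂ] H)}
  {ζ : G × ℕ → H} {QR : κ → (H →L[ℂ] H)} {η : ℕ → H}

/-- The twisted generators with scalar parameter `w`. -/
def mw (S : Side κ G H) (w : ℂ) : κ → (H →L[ℂ] H) := S.m fun _ => w • 1

theorem par_w (S : Side κ G H) {w : ℂ} (hw : ‖w‖ = 1) : S.Par fun _ => w • (1 : H →L[ℂ] H) :=
  Side.par_scalar (fun _ => w) fun _ => hw

theorem Five.goodM (hS : S.Ok g) (hF : Five g S mu q s QR η) {w : ℂ} (hw : ‖w‖ = 1) :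
    GoodM mu q s (mw S w) := by
  have hc : ∀ z, S.Cm z → ∀ i, Commute (mw S w i) z := fun z hz i =>
    ((Side.commute_V hz.tc ((Commute.one_right z).smul_right w)
      (by rw [star_smul, star_one]; exact (Commute.one_right z).smul_right _)).mul_right
      (hz.L i)).symm
  refine ⟨Side.m_star hS (par_w S hw), fun i => ?_, fun i n => hc _ (hF.q_cm n) i,
    fun i n n' => hc _ (hF.s_cm n n') i⟩
  have hΛ : S.Λ i ∈ LMalg mu := LM.of_gen fun j j' h => by
    rw [hF.Λ_mu i j.1 j.2]; exact mu_mem _ _ _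
  have hL : S.L i ∈ LMalg mu := LM.of_gen fun j j' h => by
    rw [hF.L_mu]; exact mu_mem _ _ _
  have hP : S.P ∈ LMalg mu := LM.of_gen fun j j' h => by
    rcases hF.P_mu j j' h with h1 | h1 <;> rw [h1]
    exacts [mu_mem _ _ _, zero_mem _]
  obtain ⟨b, c, c', h⟩ := gad_scalar (S.Λ i) S.P w
  have hV : gad (S.Λ i) S.P (w • 1) ∈ LMalg mu := by
    rw [h]
    exact add_mem (add_mem (add_mem hΛ (Subalgebra.smul_mem _
      (sub_mem hP (mul_mem (mul_mem hΛ hP) hΛ)) _)) (Subalgebra.smul_mem _ (mul_mem hΛ hP) _))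
      (Subalgebra.smul_mem _ (mul_mem hP hΛ) _)
  exact mem_LMalg.1 (mul_mem hV hL)

theorem norm_conj_sub_le' {u a : H →L[ℂ] H} (hu : u ∈ unitary (H →L[ℂ] H)) (ha : ‖a‖ ≤ 1) :
    ‖u * a * star u - a‖ ≤ 2 * ‖u - 1‖ := by
  have e : u * a * star u - a = (u - 1) * a * star u + a * star (u - 1) := by
    rw [star_sub, star_one]; noncomm_ring
  have h1 := norm_le_one_of_unitary (Unitary.star_mem hu)
  have h2 : ‖(u - 1) * a * star u‖ ≤ ‖u - 1‖ * 1 * 1 :=
    (norm_mul_le _ _).trans (mul_le_mul ((norm_mul_le _ _).trans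
      (mul_le_mul_of_nonneg_left ha (norm_nonneg _))) h1 (norm_nonneg _) (by positivity))
  have h3 : ‖a * star (u - 1)‖ ≤ 1 * ‖u - 1‖ := by
    refine (norm_mul_le _ _).trans ?_
    rw [norm_star]
    exact mul_le_mul_of_nonneg_right ha (norm_nonneg _)
  rw [e]
  linarith [norm_add_le ((u - 1) * a * star u) (a * star (u - 1))]

theorem exists_normalize {A : StarSubalgebra ℂ (H →L[ℂ] H)} {a b : H →L[ℂ] H} (hb : b ∈ A)
    (ha : ‖a‖ ≤ 1) {ε : ℝ} (h : ‖a - b‖ ≤ ε) : ∃ b' ∈ A, ‖b'‖ ≤ 1 ∧ ‖a - b'‖ ≤ 2 * ε := by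
  have hε : 0 ≤ ε := (norm_nonneg _).trans h
  rcases le_or_gt ‖b‖ 1 with h1 | h1
  · exact ⟨b, hb, h1, by linarith⟩
  have h0 : 0 < ‖b‖ := by linarith
  have h2 : ‖b‖ ≤ 1 + ε := by
    have := norm_sub_norm_le b a
    rw [norm_sub_rev] at this
    linarith
  refine ⟨((‖b‖⁻¹ : ℝ) : ℂ) • b, SMulMemClass.smul_mem _ hb, ?_, ?_⟩
  · rw [norm_smul, Complex.norm_real, Real.norm_of_nonneg (by positivity), inv_mul_cancel₀ h0.ne']
  · have h3 : ‖b - ((‖b‖⁻¹ : ℝ) : ℂ) • b‖ = ‖b‖ - 1 := by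
      have e : b - ((‖b‖⁻¹ : ℝ) : ℂ) • b = ((1 - ‖b‖⁻¹ : ℝ) : ℂ) • b := by
        rw [Complex.ofReal_sub, Complex.ofReal_one, sub_smul, one_smul]
      rw [e, norm_smul, Complex.norm_real,
        Real.norm_of_nonneg (sub_nonneg.2 (inv_le_one_of_one_le₀ h1.le)), sub_mul,
        inv_mul_cancel₀ h0.ne', one_mul]
    linarith [norm_sub_le_norm_sub_add_norm_sub a b (((‖b‖⁻¹ : ℝ) : ℂ) • b)]

theorem close (hG : FreeZ2 g wd) (hS : S.Ok g) (hM : Mu mu q s ζ) (hF : Five g S mu q s QR η)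
    {w w' : ℂ} (hw : ‖w‖ = 1) (hw' : ‖w'‖ = 1) {a : H →L[ℂ] H} (ha : a ∈ Aw mu (mw S w))
    (ha1 : ‖a‖ ≤ 1) : ∃ b ∈ Aw mu (mw S w'), ‖b‖ ≤ 1 ∧ ‖a - b‖ ≤ 200 * ‖w' - w‖ := by
  obtain ⟨y, hy, k, hk, rfl⟩ := (hM.mem_Aw (hF.goodM hS hw)).1 ha
  obtain ⟨-, hyq, hys⟩ := (hF.goodM hS hw).of_mem hy
  have hy1 : ‖y‖ ≤ 1 := (hM.norm_le hyq hys hk).trans ha1
  obtain ⟨T, hT⟩ := Side.exists_fell hS (par_w S hw) wd
  obtain ⟨T', hT'⟩ := Side.exists_fell hS (par_w S hw') wd
  have hTu := hT.mem_unitary hS (par_w S hw)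
  have hTu' := hT'.mem_unitary hS (par_w S hw')
  have h1 : star T * T = 1 := (Unitary.mem_iff.1 hTu).1
  have h2 : T * star T = 1 := (Unitary.mem_iff.1 hTu).2
  have hv : T' * star T ∈ unitary (H →L[ℂ] H) := mul_mem hTu' (Unitary.star_mem hTu)
  have hy' : T' * star T * y * star (T' * star T) ∈ cgen (Set.range (mw S w')) := by
    refine cgen_conj hv ?_ hy
    rintro _ ⟨i, rfl⟩
    refine subset_cgen ⟨i, ?_⟩
    rw [mw, mw, ← hT.conj_L hG hS (par_w S hw), ← hT'.conj_L hG hS (par_w S hw'), star_mul,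
      star_star]
    simp only [mul_assoc]
    rw [← mul_assoc (star T) T, h1, one_mul, ← mul_assoc (star T) T, h1, one_mul]
  have hcol := hT.col hG hS (par_w S hw) (σ := Unit) (W' := fun _ _ => w' • 1) (T' := fun _ => T')
    (χ := fun _ => 1) (fun _ => par_w S hw') (fun _ => hT') (fun _ => .one) (norm_nonneg (w' - w))
    fun i => (col_unit (norm_nonneg _)).2 (by
      rw [mul_one, one_mul, ← sub_smul, norm_smul]
      exact mul_le_of_le_one_right (norm_nonneg _) ContinuousLinearMap.norm_id_le)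
  rw [col_unit (by positivity), mul_one, one_mul] at hcol
  have h3 : ‖T' * star T - 1‖ ≤ 50 * ‖w' - w‖ := by
    rw [← h2, ← sub_mul]
    refine (norm_mul_le _ _).trans ((mul_le_mul hcol
      (norm_le_one_of_unitary (Unitary.star_mem hTu)) (norm_nonneg _) (by positivity)).trans ?_)
    rw [mul_one]
  have h4 := norm_conj_sub_le' hv hy1
  obtain ⟨b, hb, hb1, hb2⟩ := exists_normalize ((hM.mem_Aw (hF.goodM hS hw')).2
    ⟨_, hy', k, hk, rfl⟩) ha1 (ε := 100 * ‖w' - w‖) (by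
      rw [add_sub_add_right_eq_sub, norm_sub_rev]; linarith)
  exact ⟨b, hb, hb1, by linarith⟩

/-- The twisted matrix units. -/
def fm (mu : G × ℕ → G × ℕ → G → (H →L[ℂ] H)) (j j' : G × ℕ) : H →L[ℂ] H :=
  mu j j' (j.1 * j'.1⁻¹)

theorem scalar_entries (hS : S.Ok g) (hM : Mu mu q s ζ)
    (hF : Five g S mu q s QR η) {a : H →L[ℂ] H} (ha : a ∈ cgen (Set.range (mw S Complex.I)))
    (j j' : G × ℕ) : ∃ c : ℂ, fm mu j j * a * fm mu j' j' = c • fm mu j j' := by
  let N : Submodule ℂ (H →L[ℂ] H) :=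
    (Submodule.span ℂ (Set.range fun l => fm mu l j')).topologicalClosure
  have hN : IsClosed (N : Set (H →L[ℂ] H)) := Submodule.isClosed_topologicalClosure _
  have hfN : ∀ l, fm mu l j' ∈ N := fun l =>
    Submodule.le_topologicalClosure _ (Submodule.subset_span ⟨l, rfl⟩)
  have hind : ∀ (b : H →L[ℂ] H) (N' : Submodule ℂ (H →L[ℂ] H)),
      IsClosed (N' : Set (H →L[ℂ] H)) → (∀ l, b * fm mu l j' ∈ N') → ∀ z ∈ N, b * z ∈ N' := by
    intro b N' hN' h
    have : N ≤ N'.comap (LinearMap.mulLeft ℂ b) :=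
      Submodule.topologicalClosure_minimal _
        (Submodule.span_le.2 (by rintro _ ⟨l, rfl⟩; exact h l))
        (hN'.preimage (continuous_const.mul continuous_id))
    exact fun z hz => this hz
  let K : Subalgebra ℂ (H →L[ℂ] H) :=
    { carrier := {b | ∀ z ∈ N, b * z ∈ N}
      mul_mem' := fun ha hb z hz => by rw [mul_assoc]; exact ha _ (hb z hz)
      add_mem' := fun ha hb z hz => by rw [add_mul]; exact add_mem (ha z hz) (hb z hz)
      algebraMap_mem' := fun c z hz => by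
        rw [Algebra.algebraMap_eq_smul_one, smul_mul_assoc, one_mul]; exact N.smul_mem c hz }
  have hK : IsClosed (K : Set (H →L[ℂ] H)) := by
    have : (K : Set (H →L[ℂ] H)) = ⋂ z ∈ N, (fun b => b * z) ⁻¹' N := by
      ext b; simp only [Set.mem_iInter]; rfl
    rw [this]
    exact isClosed_biInter fun z _ => hN.preimage (continuous_id.mul continuous_const)
  have haK : a ∈ K := by
    refine cgen_subset ?_ hK ?_ ha
    · rintro _ ⟨i, rfl⟩
      exact Side.m_star hS (par_w S Complex.norm_I) i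
    · rintro _ ⟨i, rfl⟩
      refine hind _ N hN fun l => ?_
      have e : mw S Complex.I i * fm mu l j' = fm mu (g i * l.1, l.2) j' := by
        rw [mw, Side.m, Side.V, gad_I, fm, fm, mul_assoc, hF.L_mu, hF.Λ_mu i l.1 l.2, mul_assoc]
      rw [e]
      exact hfN _
  have h1 := hind (fm mu j j) (ℂ ∙ fm mu j j') (Submodule.closed_of_finiteDimensional _)
    (fun l => by
      by_cases hl : j = l
      · subst hl
        rw [fm, fm, hM.mul_eq, mul_inv_cancel, one_mul]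
        exact Submodule.mem_span_singleton_self _
      · rw [show fm mu j j * fm mu l j' = 0 from hM.mul_ne _ _ _ _ _ _ hl]
        exact zero_mem _) _ (haK _ (hfN j'))
  obtain ⟨c, hc⟩ := Submodule.mem_span_singleton.1 h1
  exact ⟨c, by rw [hc, mul_assoc]⟩

theorem inner_mw_one (hS : S.Ok g) (hF : Five g S mu q s QR η) (i : κ) (n : ℕ) :
    ⟪η n, (mw S 1 i * S.R i) (η n)⟫_ℂ = 3 / 5 := by
  have hP := hF.P_η n
  have h0 : S.P (S.Λ i (η n)) = 0 := by
    have := congrArg (fun T : H →L[ℂ] H => T (η n)) (hS.tree.PΛP i)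
    simpa [hP] using this
  have h1 : ⟪η n, S.Λ i (η n)⟫_ℂ = 0 := by
    have hs := hS.tree.P_proj.isSelfAdjoint.star_eq
    rw [ContinuousLinearMap.star_eq_adjoint] at hs
    conv_lhs => enter [2]; rw [← hP, ← hs]
    rw [ContinuousLinearMap.adjoint_inner_left, h0, inner_zero_right]
  rw [mw, Side.m, Side.V, gad_one, mul_apply_eq_comp, mul_apply_eq_comp, hF.LR_η]
  simp [hP, h0, h1, hF.η_norm]

theorem not_conj [Fintype κ] (hκ : Fintype.card κ = 16) (hS : S.Ok g) (hM : Mu mu q s ζ)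
    (hF : Five g S mu q s QR η) : ¬Conj (Aw mu (mw S 1)) (Aw mu (mw S Complex.I)) := by
  rintro ⟨u, hu, h⟩
  have g1 := hF.goodM hS (w := 1) norm_one
  have gI := hF.goodM hS Complex.norm_I
  have hu1 : star u * u = 1 := (Unitary.mem_iff.1 hu).1
  have hu2 : u * star u = 1 := (Unitary.mem_iff.1 hu).2
  have nu := norm_le_one_of_unitary hu
  have nu' := norm_le_one_of_unitary (Unitary.star_mem hu)
  have ncj : ∀ x : H →L[ℂ] H, ‖x‖ ≤ 1 → ‖u * x * star u‖ ≤ 1 := fun x hx =>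
    (norm_mul_le _ _).trans (mul_le_one₀ ((norm_mul_le _ _).trans
      (mul_le_one₀ nu (norm_nonneg _) hx)) (norm_nonneg _) nu')
  have hcj : ∀ a b : H →L[ℂ] H, u * a * star u * (u * b * star u) = u * (a * b) * star u :=
    fun a b => by simp only [mul_assoc]; rw [← mul_assoc (star u) u, hu1, one_mul]
  have hdec : ∀ i, ∃ a ∈ cgen (Set.range (mw S Complex.I)), ∃ k ∈ Iid mu,
      u * mw S 1 i * star u = a + k := fun i =>
    (hM.mem_Aw gI).1 ((h _).2 ⟨_, subset_cgen (Or.inl ⟨i, rfl⟩), rfl⟩)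
  choose a ha k hk hak using hdec
  have nm : ∀ i, ‖mw S 1 i‖ ≤ 1 := fun i => norm_le_one_of_unitary
    (mem_unitary_of_sa (Side.m_star hS (par_w S norm_one) i) (Side.m_sq hS (par_w S norm_one) i))
  have nR : ∀ i, ‖S.R i‖ ≤ 1 := fun i =>
    norm_le_one_of_unitary (mem_unitary_of_sa (hS.R_star i) (hS.R_sq i))
  have na : ∀ i, ‖a i‖ ≤ 1 := fun i => by
    obtain ⟨-, h1, h2⟩ := gI.of_mem (ha i)
    exact (hM.norm_le h1 h2 (hk i)).trans (hak i ▸ ncj _ (nm i))
  have hRD : ∀ i, u * S.R i * star u ∈ Set.centralizer (muSet mu) := fun i =>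
    (hM.conj_cent g1 gI hu h (by rintro _ ⟨j, j', h', rfl⟩; exact (hF.R_mu i j j' h').symm)).1
  have hone : ∀ x : H →L[ℂ] H, 1 - u * x * star u = u * (1 - x) * star u := fun x => by
    rw [mul_sub, sub_mul, mul_one, hu2]
  have hT := tensor_bound (f := fm mu)
    (fun j l l' => by rw [fm, fm, fm, hM.mul_eq, mul_assoc, inv_mul_cancel_left])
    (fun j j' => by rw [fm, fm, hM.star_eq, mul_inv_rev, inv_inv])
    (by simpa only [fm, mul_inv_cancel] using hM.res) na
    (fun i j j' => scalar_entries hS hM hF (ha i) j j') (r := fun i => u * S.R i * star u)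
    (fun i j j' => (hRD i _ ⟨j, j', _, rfl⟩).symm) (fun i => ncj _ (nR i))
    (Q := fun i => u * QR i * star u)
    (fun i => ⟨by rw [IsIdempotentElem, hcj, (hF.QR_proj i).isIdempotentElem.eq],
      by rw [IsSelfAdjoint, star_mul, star_mul, star_star, (hF.QR_proj i).isSelfAdjoint.star_eq,
        mul_assoc]⟩)
    (fun i j hij => by rw [hcj, hF.QR_orth i j hij, mul_zero, zero_mul])
    (fun i => by rw [hone, hcj, hcj, hF.QR_R, mul_zero, zero_mul])
  rw [hκ, show √((16 : ℕ) : ℝ) = 4 by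
    rw [show ((16 : ℕ) : ℝ) = 4 ^ 2 by norm_num, Real.sqrt_sq (by norm_num)]] at hT
  -- the ideal parts die along `η n`
  have hlim : Filter.Tendsto (fun n => ∑ i, ‖star u * star (k i) * u * q n‖) Filter.atTop
      (nhds (∑ _i : κ, 0)) :=
    tendsto_finsetSum _ fun i _ =>
      hM.tendsto_q (hM.conj_ideal g1 gI hu h (hM.star_mem (hk i)))
  rw [Finset.sum_const_zero] at hlim
  obtain ⟨n, hn⟩ := (hlim.eventually (gt_mem_nhds (show (0 : ℝ) < 1 by norm_num))).exists
  have e1 : ∑ i, mw S 1 i * S.R i = star u * (∑ i, a i * (u * S.R i * star u)) * u +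
      ∑ i, star (star u * star (k i) * u * q n) * S.R i +
      (1 - q n) * ∑ i, star u * k i * u * S.R i := by
    rw [Finset.mul_sum, Finset.sum_mul, Finset.mul_sum, ← Finset.sum_add_distrib,
      ← Finset.sum_add_distrib]
    refine Finset.sum_congr rfl fun i _ => ?_
    have e2 : mw S 1 i = star u * (a i + k i) * u := by
      rw [← hak i]; simp only [← mul_assoc]; rw [hu1, one_mul, mul_assoc, hu1, mul_one]
    rw [e2]
    simp only [star_mul, star_star, (hM.q_res.proj n).isSelfAdjoint.star_eq, mul_assoc, hu1,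
      mul_one, mul_add, add_mul, sub_mul, one_mul]
    abel
  have e3 : ⟪η n, (∑ i, mw S 1 i * S.R i) (η n)⟫_ℂ = ((48 / 5 : ℝ) : ℂ) := by
    rw [sum_apply, inner_sum]
    simp only [inner_mw_one hS hF, Finset.sum_const, Finset.card_univ, hκ]
    norm_num
  have e4 : ∀ Z : H →L[ℂ] H, ⟪η n, ((1 - q n) * Z) (η n)⟫_ℂ = 0 := fun Z => by
    have hs := (hM.q_res.proj n).one_sub.isSelfAdjoint.star_eq
    rw [ContinuousLinearMap.star_eq_adjoint] at hs
    rw [mul_apply_eq_comp, ← hs, ContinuousLinearMap.adjoint_inner_right, sub_apply,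
      one_apply_eq_self, hF.q_η, sub_self, inner_zero_left]
  have e5 : ∀ Z : H →L[ℂ] H, ‖⟪η n, Z (η n)⟫_ℂ‖ ≤ ‖Z‖ := fun Z => by
    have := (norm_inner_le_norm (𝕜 := ℂ) (η n) (Z (η n))).trans
      (mul_le_mul_of_nonneg_left (Z.le_opNorm _) (norm_nonneg _))
    simpa [hF.η_norm] using this
  rw [e1, add_apply, inner_add_right, e4, add_zero] at e3
  have e6 := e5 (star u * (∑ i, a i * (u * S.R i * star u)) * u +
      ∑ i, star (star u * star (k i) * u * q n) * S.R i)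
  rw [e3, Complex.norm_real, Real.norm_of_nonneg (by norm_num)] at e6
  have e7 : ‖star u * (∑ i, a i * (u * S.R i * star u)) * u‖ ≤ 1 * (2 * 4) * 1 :=
    (norm_mul_le _ _).trans (mul_le_mul ((norm_mul_le _ _).trans
      (mul_le_mul nu' hT (norm_nonneg _) zero_le_one)) nu (norm_nonneg _) (by norm_num))
  have e8 : ‖∑ i, star (star u * star (k i) * u * q n) * S.R i‖ ≤
      ∑ i, ‖star u * star (k i) * u * q n‖ :=
    norm_sum_le_of_le _ fun i _ => (norm_mul_le _ _).trans (by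
      rw [norm_star]; exact mul_le_of_le_one_right (norm_nonneg _) (nR i))
  linarith [norm_add_le (star u * (∑ i, a i * (u * S.R i * star u)) * u)
    (∑ i, star (star u * star (k i) * u * q n) * S.R i)]

theorem Conj.refl (A : StarSubalgebra ℂ (H →L[ℂ] H)) : Conj A A :=
  ⟨1, one_mem _, fun y => by simp⟩

theorem Conj.trans {A B C : StarSubalgebra ℂ (H →L[ℂ] H)} (h : Conj A B) (h' : Conj B C) :
    Conj A C := by
  obtain ⟨u, hu, h⟩ := h
  obtain ⟨v, hv, h'⟩ := h'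
  refine ⟨v * u, mul_mem hv hu, fun y => (h' y).trans ⟨?_, ?_⟩⟩
  · rintro ⟨z, hz, rfl⟩
    obtain ⟨x, hx, rfl⟩ := (h z).1 hz
    exact ⟨x, hx, by simp only [star_mul, mul_assoc]⟩
  · rintro ⟨x, hx, rfl⟩
    exact ⟨_, (h _).2 ⟨x, hx, rfl⟩, by simp only [star_mul, mul_assoc]⟩

end Crest.Agent.R78.G
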