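import Crest.Agent.R124.Form

/-!
# R78 (S0104, S0105): definitions

Overview.  `G` is the free product of copies of `ℤ/2` indexed by `κ` (`FreeZ2`).  A `Side` consists
of a *tree* (`Λ i` = left translation by the generator, `Q i` = words starting with `i`, `P` = root)
and a *copy* of the regular representation (`L i`, `R i`, `E y`, `QL i`), commuting with each other.
For unitaries `W i` commuting with the side, `gad (Λ i) P (W i)` is a self-adjoint unitary which
agrees with `Λ i` off the root edge; the representation `π` of `G` it generates depends on `W` in a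
uniformly Lipschitz way (`GGad`), so does the Fell unitary `T = ∑ π(y) E y` (`GFell`), and
`W` is recovered from `avg (V i L i) R i` (`GEst`).
-/

set_option autoImplicit false
set_option linter.unusedSectionVars false
open scoped InnerProductSpace BigOperators

noncomputable section

namespace Crest.Agent.R78.G

open Crest.Agent.R124

/-- Free product of copies of `ℤ/2`, with reduced words. -/
structure FreeZ2 {κ G : Type*} [Group G] (g : κ → G) (wd : G → List κ) : Prop where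
  chain : ∀ y, (wd y).IsChain (· ≠ ·)
  one : wd 1 = []
  sq : ∀ i, g i * g i = 1
  step : ∀ i y, wd (g i * y) = i :: wd y ∨ wd y = i :: wd (g i * y)
  conj : ∀ i y, y ≠ 1 → (wd y).head? ≠ some i → (wd (g i * y * g i)).head? = some i

section Gad
variable {B : Type*} [Ring B] [StarRing B] [Algebra ℂ B]

/-- diagonal coefficient of the gadget -/
def gB (W : B) : B := (3 / 10 : ℂ) • (W + star W)

/-- off-diagonal coefficient of the gadget; `gB W ^ 2 + (gC W)* gC W = 1` for unitary `W` -/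
def gC (W : B) : B := (9 / 10 : ℂ) • (1 : B) - (1 / 10 : ℂ) • (W * W)

/-- The gadget: `Λ` off `P + Λ P Λ`, and `[[B, C*], [C, -B]]` on `P ⊕ Λ P Λ`. -/
def gad (Λ P W : B) : B :=
  Λ + gB W * (P - Λ * P * Λ) + (gC W - 1) * (Λ * P) + (star (gC W) - 1) * (P * Λ)

/-- The tree relations. -/
structure Tree {κ : Type*} (Λ Q : κ → B) (P : B) : Prop where
  Λ_star : ∀ i, star (Λ i) = Λ i
  Λ_sq : ∀ i, Λ i * Λ i = 1
  Q_proj : ∀ i, IsStarProjection (Q i)
  P_proj : IsStarProjection P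
  ΛQ : ∀ i, Λ i * Q i = (1 - Q i) * Λ i
  QQ : ∀ i j, i ≠ j → Q i * Q j = 0
  PQ : ∀ i, P * Q i = 0

/-- `z` commutes with the tree. -/
structure TC {κ : Type*} (Λ Q : κ → B) (P : B) (z : B) : Prop where
  Λ : ∀ i, Commute z (Λ i)
  Q : ∀ i, Commute z (Q i)
  P : Commute z P

/-- The value of the representation generated by `V` on a word. -/
def wp {κ : Type*} (V : κ → B) (l : List κ) : B := (l.map V).prod

omit [StarRing B] [Algebra ℂ B] in
@[simp] theorem wp_nil {κ : Type*} (V : κ → B) : wp V [] = 1 := rfl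

omit [StarRing B] [Algebra ℂ B] in
@[simp] theorem wp_cons {κ : Type*} (V : κ → B) (a : κ) (l : List κ) :
    wp V (a :: l) = V a * wp V l := by simp [wp]

end Gad

variable {H : Type*} [NormedAddCommGroup H] [InnerProductSpace ℂ H] [CompleteSpace H]

/-- The column `(d s)ₛ` has norm at most `c`. -/
def Col {σ : Type*} [Fintype σ] (d : σ → (H →L[ℂ] H)) (c : ℝ) : Prop :=
  ∀ ψ : H, l2 (fun s => d s ψ) ≤ c * ‖ψ‖

/-- A resolution of the identity. -/
structure Res {ι : Type*} (E : ι → (H →L[ℂ] H)) : Prop where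
  proj : ∀ y, IsStarProjection (E y)
  orth : ∀ y z, y ≠ z → E y * E z = 0
  hasSum : ∀ ψ, HasSum (fun y => E y ψ) ψ

/-- The operators of a tree and a copy of the regular representation. -/
structure Side (κ G H : Type*) [NormedAddCommGroup H] [InnerProductSpace ℂ H] where
  Λ : κ → (H →L[ℂ] H)
  Q : κ → (H →L[ℂ] H)
  P : H →L[ℂ] H
  L : κ → (H →L[ℂ] H)
  R : κ → (H →L[ℂ] H)
  QL : κ → (H →L[ℂ] H)
  E : G → (H →L[ℂ] H)

namespace Side
variable {κ G : Type*} (S : Side κ G H)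

/-- `z` commutes with the side. -/
structure Cm (z : H →L[ℂ] H) : Prop where
  Λ : ∀ i, Commute z (S.Λ i)
  Q : ∀ i, Commute z (S.Q i)
  P : Commute z S.P
  L : ∀ i, Commute z (S.L i)
  R : ∀ i, Commute z (S.R i)
  QL : ∀ i, Commute z (S.QL i)
  E : ∀ y, Commute z (S.E y)

/-- The relations of a side. -/
structure Ok [Group G] (g : κ → G) : Prop where
  tree : Tree S.Λ S.Q S.P
  L_star : ∀ i, star (S.L i) = S.L i
  L_sq : ∀ i, S.L i * S.L i = 1
  R_star : ∀ i, star (S.R i) = S.R i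
  R_sq : ∀ i, S.R i * S.R i = 1
  LR : ∀ i j, Commute (S.L i) (S.R j)
  res : Res S.E
  LE : ∀ i y, S.L i * S.E y = S.E (g i * y) * S.L i
  QL_proj : ∀ i, IsStarProjection (S.QL i)
  QLQL : ∀ i j, i ≠ j → S.QL i * S.QL j = 0
  LRE : ∀ i, (1 - S.QL i) * (S.L i * S.R i - S.E 1) * (1 - S.QL i) = 0
  tL : ∀ i, TC S.Λ S.Q S.P (S.L i)
  tR : ∀ i, TC S.Λ S.Q S.P (S.R i)
  tQL : ∀ i, TC S.Λ S.Q S.P (S.QL i)
  tE : ∀ y, TC S.Λ S.Q S.P (S.E y)

/-- Two sides commute. -/
structure Indep (S' : Side κ G H) : Prop where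
  Λ : ∀ i, S.Cm (S'.Λ i)
  P : S.Cm S'.P
  L : ∀ i, S.Cm (S'.L i)
  R : ∀ i, S.Cm (S'.R i)
  E : ∀ y, S.Cm (S'.E y)

/-- admissible parameters -/
def Par (W : κ → (H →L[ℂ] H)) : Prop := ∀ i, W i ∈ unitary (H →L[ℂ] H) ∧ S.Cm (W i)

/-- the gadget unitaries -/
def V (W : κ → (H →L[ℂ] H)) (i : κ) : H →L[ℂ] H := gad (S.Λ i) S.P (W i)

/-- the twisted generators -/
def m (W : κ → (H →L[ℂ] H)) (i : κ) : H →L[ℂ] H := S.V W i * S.L i

/-- `T = ∑ π(y) E y` is the Fell unitary. -/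
def IsFell (wd : G → List κ) (W : κ → (H →L[ℂ] H)) (T : H →L[ℂ] H) : Prop :=
  ∀ y, T * S.E y = wp (S.V W) (wd y) * S.E y

variable {S}

theorem Cm.tc {z : H →L[ℂ] H} (h : S.Cm z) : TC S.Λ S.Q S.P z := ⟨h.Λ, h.Q, h.P⟩

theorem Cm.mul {z z' : H →L[ℂ] H} (h : S.Cm z) (h' : S.Cm z') : S.Cm (z * z') :=
  ⟨fun i => (h.Λ i).mul_left (h'.Λ i), fun i => (h.Q i).mul_left (h'.Q i), h.P.mul_left h'.P,
    fun i => (h.L i).mul_left (h'.L i), fun i => (h.R i).mul_left (h'.R i),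
    fun i => (h.QL i).mul_left (h'.QL i), fun i => (h.E i).mul_left (h'.E i)⟩

theorem Cm.smul {z : H →L[ℂ] H} (h : S.Cm z) (c : ℂ) : S.Cm (c • z) :=
  ⟨fun i => (h.Λ i).smul_left c, fun i => (h.Q i).smul_left c, h.P.smul_left c,
    fun i => (h.L i).smul_left c, fun i => (h.R i).smul_left c,
    fun i => (h.QL i).smul_left c, fun i => (h.E i).smul_left c⟩

theorem Cm.one : S.Cm 1 :=
  ⟨fun _ => Commute.one_left _, fun _ => Commute.one_left _, Commute.one_left _,
    fun _ => Commute.one_left _, fun _ => Commute.one_left _, fun _ => Commute.one_left _,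
    fun _ => Commute.one_left _⟩

/-- A family commuting with everything that commutes with `e` commutes with the side. -/
theorem Cm.of_comm {ι : Type*} {e : ι → (H →L[ℂ] H)} (he : ∀ k, S.Cm (e k)) {z : H →L[ℂ] H}
    (hz : ∀ a, (∀ k, Commute a (e k)) → Commute a z) : S.Cm z :=
  ⟨fun i => (hz _ fun k => ((he k).Λ i).symm).symm, fun i => (hz _ fun k => ((he k).Q i).symm).symm,
    (hz _ fun k => (he k).P.symm).symm, fun i => (hz _ fun k => ((he k).L i).symm).symm,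
    fun i => (hz _ fun k => ((he k).R i).symm).symm,
    fun i => (hz _ fun k => ((he k).QL i).symm).symm,
    fun i => (hz _ fun k => ((he k).E i).symm).symm⟩

theorem commute_star_left {z a : H →L[ℂ] H} (h : Commute z a) (ha : star a = a) :
    Commute (star z) a := by
  have := h.star_star
  rwa [ha] at this

theorem Cm.star [Group G] {g : κ → G} (hS : S.Ok g) {z : H →L[ℂ] H} (h : S.Cm z) :
    S.Cm (star z) :=
  ⟨fun i => commute_star_left (h.Λ i) (hS.tree.Λ_star i),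
    fun i => commute_star_left (h.Q i) (hS.tree.Q_proj i).isSelfAdjoint.star_eq,
    commute_star_left h.P hS.tree.P_proj.isSelfAdjoint.star_eq,
    fun i => commute_star_left (h.L i) (hS.L_star i),
    fun i => commute_star_left (h.R i) (hS.R_star i),
    fun i => commute_star_left (h.QL i) (hS.QL_proj i).isSelfAdjoint.star_eq,
    fun i => commute_star_left (h.E i) (hS.res.proj i).isSelfAdjoint.star_eq⟩

theorem par_scalar (w : κ → ℂ) (hw : ∀ i, ‖w i‖ = 1) :
    S.Par fun i => w i • (1 : H →L[ℂ] H) := fun i => by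
  refine ⟨?_, Cm.one.smul _⟩
  have h : (starRingEnd ℂ) (w i) * w i = 1 := by
    rw [Complex.conj_mul', hw]; simp
  rw [Unitary.mem_iff, star_smul, star_one, smul_mul_smul_comm, smul_mul_smul_comm, one_mul,
    mul_comm (w i), Complex.star_def, h, one_smul]
  exact ⟨rfl, rfl⟩

end Side

/-! ### S0105 -/

section Five
variable {κ G : Type*}

/-- The generators of the ideal. -/
def muSet (mu : G × ℕ → G × ℕ → G → (H →L[ℂ] H)) : Set (H →L[ℂ] H) :=
  {x | ∃ j j' h, x = mu j j' h}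

/-- The ideal `K ⊗ C*_r(G)`. -/
def Iid (mu : G × ℕ → G × ℕ → G → (H →L[ℂ] H)) : Submodule ℂ (H →L[ℂ] H) :=
  (Submodule.span ℂ (muSet mu)).topologicalClosure

/-- Left multipliers of the ideal. -/
def LM (mu : G × ℕ → G × ℕ → G → (H →L[ℂ] H)) (a : H →L[ℂ] H) : Prop :=
  ∀ k ∈ Iid mu, a * k ∈ Iid mu

/-- The C⋆-algebra generated by a set. -/
def cgen (s : Set (H →L[ℂ] H)) : StarSubalgebra ℂ (H →L[ℂ] H) :=
  (StarAlgebra.adjoin ℂ s).topologicalClosure

/-- The data of the S0105 model that do not involve the side: `mu j j' h = e_{j j'} ⊗ λ(h)`,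
multiplicity projections `q n`, swaps `s n m`, trace vectors `ζ j`. -/
structure Mu [Group G] (mu : G × ℕ → G × ℕ → G → (H →L[ℂ] H)) (q : ℕ → (H →L[ℂ] H))
    (s : ℕ → ℕ → (H →L[ℂ] H)) (ζ : G × ℕ → H) : Prop where
  mul_eq : ∀ j l l' h h', mu j l h * mu l l' h' = mu j l' (h * h')
  mul_ne : ∀ j j' l l' h h', j' ≠ l → mu j j' h * mu l l' h' = 0
  star_eq : ∀ j j' h, star (mu j j' h) = mu j' j h⁻¹
  res : Res fun j => mu j j 1
  q_res : Res q
  q_mu : ∀ n j j' h, q n * mu j j' h = mu j j' h ∨ q n * mu j j' h = 0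
  mu_q : ∀ n j j' h, n ≠ j'.2 → mu j j' h * q n = 0
  s_unit : ∀ n m, s n m ∈ unitary (H →L[ℂ] H)
  s_q : ∀ n m, s n m * q m = q n * s n m
  s_mu : ∀ n m j j' h, ∃ l, s n m * mu j j' h = mu l j' h
  ζ_mu : ∀ j, mu j j 1 (ζ j) = ζ j
  tr : ∀ j b, b ∈ Set.centralizer (Set.centralizer (muSet mu)) → mu j j 1 * b = b →
    b * mu j j 1 = b → ‖b (ζ j)‖ = ‖star b (ζ j)‖ ∧ (b (ζ j) = 0 → b = 0)

/-- Generators compatible with the ideal. -/
structure GoodM (mu : G × ℕ → G × ℕ → G → (H →L[ℂ] H)) (q : ℕ → (H →L[ℂ] H))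
    (s : ℕ → ℕ → (H →L[ℂ] H)) (m : κ → (H →L[ℂ] H)) : Prop where
  sa : ∀ i, star (m i) = m i
  lm : ∀ i, LM mu (m i)
  q : ∀ i n, Commute (m i) (q n)
  s : ∀ i n n', Commute (m i) (s n n')

/-- The link between the side and the ideal. -/
structure Five [Group G] (g : κ → G) (S : Side κ G H) (mu : G × ℕ → G × ℕ → G → (H →L[ℂ] H))
    (q : ℕ → (H →L[ℂ] H)) (s : ℕ → ℕ → (H →L[ℂ] H)) (QR : κ → (H →L[ℂ] H)) (η : ℕ → H) :
    Prop where
  Λ_mu : ∀ i x n j' h, S.Λ i * mu (x, n) j' h = mu (g i * x, n) j' h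
  P_mu : ∀ j j' h, S.P * mu j j' h = mu j j' h ∨ S.P * mu j j' h = 0
  L_mu : ∀ i j j' h, S.L i * mu j j' h = mu j j' (g i * h)
  R_mu : ∀ i j j' h, Commute (S.R i) (mu j j' h)
  q_cm : ∀ n, S.Cm (q n)
  s_cm : ∀ n n', S.Cm (s n n')
  QR_proj : ∀ i, IsStarProjection (QR i)
  QR_orth : ∀ i j, i ≠ j → QR i * QR j = 0
  QR_R : ∀ i, (1 - QR i) * S.R i * (1 - QR i) = 0
  η_norm : ∀ n, ‖η n‖ = 1
  q_η : ∀ n, q n (η n) = η n
  P_η : ∀ n, S.P (η n) = η n
  LR_η : ∀ i n, S.L i (S.R i (η n)) = η n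

/-- Unitary conjugacy of two subalgebras. -/
def Conj (A B : StarSubalgebra ℂ (H →L[ℂ] H)) : Prop :=
  ∃ u : H →L[ℂ] H, u ∈ unitary (H →L[ℂ] H) ∧
    ∀ y : H →L[ℂ] H, y ∈ B ↔ ∃ x ∈ A, y = u * x * star u

end Five

end Crest.Agent.R78.G
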