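import Crest.Agent.R78.GFell

/-!
# R78 (S0104, S0105): the commutator estimate
-/

set_option autoImplicit false
set_option linter.unusedSectionVars false
open scoped InnerProductSpace BigOperators

noncomputable section

namespace Crest.Agent.R78.G

open Crest.Agent.R124

variable {H : Type*} [NormedAddCommGroup H] [InnerProductSpace ℂ H] [CompleteSpace H]
variable {κ G : Type*} [Group G] {g : κ → G} {wd : G → List κ}

/-- The generators of one of the two algebras. -/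
def gens (S S' : Side κ G H) (W : κ → (H →L[ℂ] H)) : Set (H →L[ℂ] H) :=
  Set.range (S.m W) ∪ Set.range S'.R

theorem gcomm_m {S : Side κ G H} {W : κ → (H →L[ℂ] H)} {z : H →L[ℂ] H} (hz : S.Cm z) {i : κ}
    (h : Commute z (W i)) (h' : Commute z (star (W i))) : Commute z (S.m W i) :=
  (Side.commute_V hz.tc h h').mul_right (hz.L i)

/-- The Fell unitary conjugates the untwisted generators onto the twisted ones. -/
theorem gcomm_conj (hG : FreeZ2 g wd) {S S' : Side κ G H} (h : S.Ok g) (h' : S'.Ok g)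
    (hI : S.Indep S') {W : κ → (H →L[ℂ] H)} (hW : S.Par W) (hW' : S'.Par W) {T : H →L[ℂ] H}
    (hT : S.IsFell wd W T) (z : H →L[ℂ] H) :
    (∀ a ∈ Set.range S.L ∪ Set.range S'.R, Commute z (T * a * star T)) ↔
      ∀ b ∈ gens S S' W, Commute z b := by
  have e : ∀ i, T * S'.R i * star T = S'.R i := fun i => by
    have hc : Commute (S'.R i) T := hT.commute h (hI.R i).E fun j =>
      Side.commute_V (hI.R i).tc ((hW' j).2.R i).symm (((hW' j).2.star h').R i).symm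
    rw [← hc.eq, mul_assoc, (hT.mem_unitary h hW).2, mul_one]
  constructor
  · rintro H b (⟨i, rfl⟩ | ⟨i, rfl⟩)
    · rw [← hT.conj_L hG h hW i]; exact H _ (Or.inl ⟨i, rfl⟩)
    · rw [← e i]; exact H _ (Or.inr ⟨i, rfl⟩)
  · rintro H a (⟨i, rfl⟩ | ⟨i, rfl⟩)
    · rw [hT.conj_L hG h hW i]; exact H _ (Or.inl ⟨i, rfl⟩)
    · rw [e i]; exact H _ (Or.inr ⟨i, rfl⟩)

theorem gcomm_bicomm {A : Set (H →L[ℂ] H)} {x w : H →L[ℂ] H}
    (hx : x ∈ Set.centralizer (Set.centralizer A)) (hw : ∀ b ∈ A, Commute w b) : Commute w x :=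
  hx w fun b hb => (hw b hb).symm

theorem gcomm_norm {T T' t : H →L[ℂ] H} (hT : T ∈ unitary (H →L[ℂ] H))
    (hT' : T' ∈ unitary (H →L[ℂ] H)) : ‖T * t * T'‖ ≤ ‖t‖ := by
  have h1 := norm_le_one_of_unitary hT
  have h2 := norm_le_one_of_unitary hT'
  calc _ ≤ ‖T‖ * ‖t‖ * ‖T'‖ := norm_mul₃_le
    _ ≤ 1 * ‖t‖ * 1 := by gcongr
    _ = _ := by ring

theorem gcomm_cancel {T t : H →L[ℂ] H} (hT : T ∈ unitary (H →L[ℂ] H)) :
    T * (star T * t * T) * star T = t := by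
  rw [← mul_assoc, ← mul_assoc, hT.2, one_mul, mul_assoc, hT.2, mul_one]

/-- With scalar parameters on the second side the two generating sets commute. -/
theorem gens_commute {S₁ S₂ : Side κ G H} (h₁ : S₁.Ok g) (h₂ : S₂.Ok g) (h₁₂ : S₁.Indep S₂)
    {W₁ : κ → (H →L[ℂ] H)} (hW₁ : S₁.Par W₁) (hW₁' : S₂.Par W₁) {c : κ → ℂ}
    (hc : ∀ i, ‖c i‖ = 1) :
    ∀ a ∈ gens S₁ S₂ W₁, ∀ b ∈ gens S₂ S₁ (fun i => c i • 1), Commute a b := by
  rintro a (⟨i, rfl⟩ | ⟨i, rfl⟩) b (⟨j, rfl⟩ | ⟨j, rfl⟩)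
  · have hW := (hW₁' i).2
    have hW' := hW.star h₂
    refine (commute_gad (gcomm_m (h₁₂.Λ j) (hW.Λ j).symm (hW'.Λ j).symm).symm
      (gcomm_m h₁₂.P hW.P.symm hW'.P.symm).symm ((Commute.one_right _).smul_right _) ?_).mul_right
      (gcomm_m (h₁₂.L j) (hW.L j).symm (hW'.L j).symm).symm
    rw [star_smul, star_one]
    exact (Commute.one_right _).smul_right _
  · exact Side.m_R h₁ hW₁ i j
  · exact (Side.m_R h₂ (Side.par_scalar c hc) j i).symm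
  · exact (h₁₂.R i).R j

/-- **Commutator estimate.**  Let `T₁`, `T₂`, `T₂ₛ` be the Fell unitaries of `(S₁, W₁)`, `(S₂, W₂)`,
`(S₂, c s • 1)` (`exists_fell`, `par_scalar`).  `T₁` conjugates `A₁ = range L₁ ∪ range R₂` onto
`gens S₁ S₂ W₁` (`conj_L`; `R₂` commutes with `T₁` by `IsFell.commute`), likewise `T₂`, `T₂ₛ` and
`A₂ = range L₂ ∪ range R₁`.  `commute_transport` with `T' = 1` shows that `x₀ = T₁* x T₁` and
`t₀ = T₂* t T₂` commute with `χ s`; `col_conj` gives the two columns (`100 γ ‖x‖`, `100 γ ‖t‖`) for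
`x = T₁ x₀ T₁*` and `t'_s = T₂ₛ t₀ T₂ₛ*`.  Every `a ∈ gens S₁ S₂ W₁` commutes with `t'_s`
(`commute_transport` and `gens_commute`), so `x` does.  Conclude with `norm_comm_le`. -/
theorem comm_est (hG : FreeZ2 g wd) {S₁ S₂ : Side κ G H} (h₁ : S₁.Ok g) (h₂ : S₂.Ok g)
    (h₁₂ : S₁.Indep S₂) (h₂₁ : S₂.Indep S₁) {W₁ W₂ : κ → (H →L[ℂ] H)} (hW₁ : S₁.Par W₁)
    (hW₁' : S₂.Par W₁) (hW₂ : S₂.Par W₂) (hW₂' : S₁.Par W₂) {σ : Type*} [Fintype σ]
    {χ : σ → (H →L[ℂ] H)} (hχ₁ : ∀ s, S₁.Cm (χ s)) (hχ₂ : ∀ s, S₂.Cm (χ s))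
    (hχ : ∀ ψ, ‖ψ‖ ≤ l2 fun s => χ s ψ) {c : σ → κ → ℂ} (hc : ∀ s i, ‖c s i‖ = 1) {γ : ℝ}
    (hγ : 0 ≤ γ) (hd₁ : ∀ i, Col (fun s => W₁ i * χ s - χ s * W₁ i) γ)
    (hd₂ : ∀ i, Col (fun s => c s i • (1 : H →L[ℂ] H) * χ s - χ s * W₂ i) γ)
    {x t : H →L[ℂ] H} (hx : x ∈ Set.centralizer (Set.centralizer (gens S₁ S₂ W₁)))
    (ht : t ∈ Set.centralizer (Set.centralizer (gens S₂ S₁ W₂))) :
    ‖x * t - t * x‖ ≤ 400 * γ * ‖x‖ * ‖t‖ := by
  obtain ⟨T₁, hT₁⟩ := Side.exists_fell h₁ hW₁ wd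
  obtain ⟨T₂, hT₂⟩ := Side.exists_fell h₂ hW₂ wd
  have hp₁ : ∀ s, S₁.Par fun i => c s i • (1 : H →L[ℂ] H) := fun s => Side.par_scalar (c s) (hc s)
  have hp₂ : ∀ s, S₂.Par fun i => c s i • (1 : H →L[ℂ] H) := fun s => Side.par_scalar (c s) (hc s)
  choose T' hT' using fun s => Side.exists_fell h₂ (hp₂ s) wd
  have u₁ := hT₁.mem_unitary h₁ hW₁
  have u₂ := hT₂.mem_unitary h₂ hW₂
  have u' := fun s => (hT' s).mem_unitary h₂ (hp₂ s)
  have hx' : ∀ w, (∀ a ∈ Set.range S₁.L ∪ Set.range S₂.R, Commute w (T₁ * a * star T₁)) →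
      Commute w x := fun w hw =>
    gcomm_bicomm hx ((gcomm_conj hG h₁ h₂ h₁₂ hW₁ hW₁' hT₁ w).1 hw)
  have ht' : ∀ w, (∀ a ∈ Set.range S₂.L ∪ Set.range S₁.R, Commute w (T₂ * a * star T₂)) →
      Commute w t := fun w hw =>
    gcomm_bicomm ht ((gcomm_conj hG h₂ h₁ h₂₁ hW₂ hW₂' hT₂ w).1 hw)
  have hx0 : ∀ s, Commute (star T₁ * x * T₁) (χ s) := fun s => by
    have := commute_transport (z := χ s) u₁ (one_mem _) hx' (by
      rintro a (⟨i, rfl⟩ | ⟨i, rfl⟩) <;> rw [star_one, one_mul, mul_one]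
      exacts [(hχ₁ s).L i, (hχ₂ s).R i])
    rw [star_one, one_mul, mul_one] at this
    exact this.symm
  have ht0 : ∀ s, Commute (star T₂ * t * T₂) (χ s) := fun s => by
    have := commute_transport (z := χ s) u₂ (one_mem _) ht' (by
      rintro a (⟨i, rfl⟩ | ⟨i, rfl⟩) <;> rw [star_one, one_mul, mul_one]
      exacts [(hχ₂ s).L i, (hχ₁ s).R i])
    rw [star_one, one_mul, mul_one] at this
    exact this.symm
  have c₁ := hT₁.col_conj hG h₁ hW₁ (W' := fun _ => W₁) (T' := fun _ => T₁) (fun _ => hW₁)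
    (fun _ => hT₁) hχ₁ hγ hd₁ hx0
  have c₂ := hT₂.col_conj hG h₂ hW₂ hp₂ hT' hχ₂ hγ hd₂ ht0
  simp only [gcomm_cancel u₁] at c₁
  simp only [gcomm_cancel u₂] at c₂
  have n₁ : ‖star T₁ * x * T₁‖ ≤ ‖x‖ := gcomm_norm (Unitary.star_mem u₁) u₁
  have n₂ : ‖star T₂ * t * T₂‖ ≤ ‖t‖ := gcomm_norm (Unitary.star_mem u₂) u₂
  have := norm_comm_le (a := 100 * γ * ‖x‖) (b := 100 * γ * ‖t‖) (by positivity) (by positivity) hχ
    (c₁.mono (by gcongr)) (c₂.mono (by gcongr))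
    (fun s => (gcomm_bicomm hx fun a ha => (commute_transport u₂ (u' s) ht'
      ((gcomm_conj hG h₂ h₁ h₂₁ (hp₂ s) (hp₁ s) (hT' s) a).2
        (gens_commute h₁ h₂ h₁₂ hW₁ hW₁' (hc s) a ha))).symm).symm)
    fun s => (gcomm_norm (u' s) (Unitary.star_mem (u' s))).trans n₂
  linarith

end Crest.Agent.R78.G
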