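import Crest.Agent.R78.GLyap

/-!
# R78 (S0104, S0105): the Fell unitary and the averaging estimate
-/

set_option autoImplicit false
set_option linter.unusedSectionVars false
open scoped InnerProductSpace BigOperators

noncomputable section

namespace Crest.Agent.R78.G

open Crest.Agent.R124

variable {H : Type*} [NormedAddCommGroup H] [InnerProductSpace ℂ H] [CompleteSpace H]
variable {κ G : Type*} [Group G] {g : κ → G} {wd : G → List κ} {S : Side κ G H}
  {W : κ → (H →L[ℂ] H)} {T : H →L[ℂ] H}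

namespace Side

theorem V_star (hS : S.Ok g) (hW : S.Par W) (i : κ) : star (S.V W i) = S.V W i :=
  hS.tree.gad_star (hW i).2.tc i

theorem V_sq (hS : S.Ok g) (hW : S.Par W) (i : κ) : S.V W i * S.V W i = 1 :=
  hS.tree.gad_sq (hW i).1 (hW i).2.tc i

/-- Whatever commutes with the tree and the parameter commutes with the gadget. -/
theorem commute_V {z : H →L[ℂ] H} (hz : TC S.Λ S.Q S.P z) {i : κ} (h : Commute z (W i))
    (h' : Commute z (star (W i))) : Commute z (S.V W i) :=
  commute_gad (hz.Λ i) hz.P h h'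

theorem V_L (hS : S.Ok g) (hW : S.Par W) (i j : κ) : Commute (S.V W i) (S.L j) :=
  (commute_V (hS.tL j) ((hW i).2.L j).symm (((hW i).2.star hS).L j).symm).symm

theorem V_R (hS : S.Ok g) (hW : S.Par W) (i j : κ) : Commute (S.V W i) (S.R j) :=
  (commute_V (hS.tR j) ((hW i).2.R j).symm (((hW i).2.star hS).R j).symm).symm

theorem V_E (hS : S.Ok g) (hW : S.Par W) (i : κ) (y : G) : Commute (S.V W i) (S.E y) :=
  (commute_V (hS.tE y) ((hW i).2.E y).symm (((hW i).2.star hS).E y).symm).symm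

theorem m_star (hS : S.Ok g) (hW : S.Par W) (i : κ) : star (S.m W i) = S.m W i := by
  rw [m, star_mul, hS.L_star, V_star hS hW, (V_L hS hW i i).eq]

theorem m_sq (hS : S.Ok g) (hW : S.Par W) (i : κ) : S.m W i * S.m W i = 1 := by
  rw [m, mul_assoc, ← mul_assoc (S.L i), ← (V_L hS hW i i).eq, mul_assoc, hS.L_sq, mul_one,
    V_sq hS hW]

theorem m_R (hS : S.Ok g) (hW : S.Par W) (i j : κ) : Commute (S.m W i) (S.R j) :=
  (V_R hS hW i j).mul_left (hS.LR i j)

theorem wp_V_unitary (hS : S.Ok g) (hW : S.Par W) (l : List κ) :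
    wp (S.V W) l ∈ unitary (H →L[ℂ] H) :=
  wp_unitary (fun i => mem_unitary_of_sa (V_star hS hW i) (V_sq hS hW i)) l

theorem commute_wp {V : κ → (H →L[ℂ] H)} {z : H →L[ℂ] H} (h : ∀ i, Commute z (V i))
    {l : List κ} : Commute z (wp V l) := by
  induction l with
  | nil => exact Commute.one_right _
  | cons a l ih => rw [wp_cons]; exact (h a).mul_right ih

/-- `Res.exists_diag`. -/
theorem exists_fell (hS : S.Ok g) (hW : S.Par W) (wd : G → List κ) : ∃ T, S.IsFell wd W T := by
  exact hS.res.exists_diag (c := 1) (fun y => norm_le_one_of_unitary (wp_V_unitary hS hW _))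
    (fun y => (commute_wp fun i => (V_E hS hW i y).symm).symm)

/-- `E y T E z = π(z) E y E z`, compare with `T E y E z` (`Res.ext`). -/
theorem IsFell.comm_E (hS : S.Ok g) (hW : S.Par W) (hT : S.IsFell wd W T) (y : G) :
    Commute T (S.E y) := by
  have hc : ∀ z y, Commute (wp (S.V W) (wd z)) (S.E y) := fun z y =>
    (commute_wp fun i => (V_E hS hW i y).symm).symm
  refine hS.res.ext fun z => ?_
  rw [mul_assoc, mul_assoc, hT z, ← mul_assoc (S.E y), ← (hc z y).eq, mul_assoc]
  by_cases h : y = z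
  · subst h
    rw [(hS.res.proj y).isIdempotentElem.eq, hT y]
  · rw [hS.res.orth y z h, mul_zero, mul_zero]

/-- `T* E y = (E y T)* = (π(y) E y)* = π(y)* E y`; then `T* T E y = T* E y π(y) = E y`, etc. -/
theorem IsFell.mem_unitary (hS : S.Ok g) (hW : S.Par W) (hT : S.IsFell wd W T) :
    T ∈ unitary (H →L[ℂ] H) := by
  have hc : ∀ z y, Commute (wp (S.V W) (wd z)) (S.E y) := fun z y =>
    (commute_wp fun i => (V_E hS hW i y).symm).symm
  have hE : ∀ y, star (S.E y) = S.E y := fun y => (hS.res.proj y).isSelfAdjoint.star_eq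
  have hs : ∀ y, star T * S.E y = S.E y * star (wp (S.V W) (wd y)) := fun y => by
    have := congrArg star (hT y)
    rw [star_mul, star_mul, hE] at this
    rw [← this, (commute_star_left (hT.comm_E hS hW y) (hE y)).eq]
  have hu := fun y => wp_V_unitary hS hW (wd y)
  rw [Unitary.mem_iff]
  constructor
  · refine hS.res.ext fun y => ?_
    rw [mul_assoc, hT y, (hc y y).eq, ← mul_assoc, hs y, mul_assoc,
      (Unitary.mem_iff.1 (hu y)).1, mul_one, one_mul]
  · refine hS.res.ext fun y => ?_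
    rw [mul_assoc, hs y, ← mul_assoc, hT y, (hc y y).eq, mul_assoc,
      (Unitary.mem_iff.1 (hu y)).2, mul_one, one_mul]

/-- **Fell absorption.** `π(g_i y) = V_i π(y)` by `FreeZ2.step` and `V_sq`;
`T L_i E y = T E (g_i y) L_i = V_i π(y) L_i E y = V_i L_i T E y`. -/
theorem IsFell.conj_L (hG : FreeZ2 g wd) (hS : S.Ok g) (hW : S.Par W) (hT : S.IsFell wd W T)
    (i : κ) : T * S.L i * star T = S.m W i := by
  have hc : ∀ z y, Commute (wp (S.V W) (wd z)) (S.E y) := fun z y =>
    (commute_wp fun i => (V_E hS hW i y).symm).symm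
  have hL : ∀ z, Commute (wp (S.V W) (wd z)) (S.L i) := fun z =>
    (commute_wp fun j => (V_L hS hW j i).symm).symm
  have hstep : ∀ y, wp (S.V W) (wd (g i * y)) = S.V W i * wp (S.V W) (wd y) := fun y => by
    rcases hG.step i y with h | h
    · rw [h, wp_cons]
    · rw [h, wp_cons, ← mul_assoc, V_sq hS hW, one_mul]
  have key : T * S.L i = S.m W i * T := by
    refine hS.res.ext fun y => ?_
    rw [mul_assoc, hS.LE, ← mul_assoc, hT, hstep, mul_assoc, ← hS.LE, m, mul_assoc, mul_assoc,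
      mul_assoc, hT, ← mul_assoc (S.L i), ← (hL y).eq, mul_assoc]
  rw [key, mul_assoc, (Unitary.mem_iff.1 (hT.mem_unitary hS hW)).2, mul_one]

theorem IsFell.commute (hS : S.Ok g) (hT : S.IsFell wd W T) {z : H →L[ℂ] H}
    (hE : ∀ y, Commute z (S.E y)) (hV : ∀ i, Commute z (S.V W i)) : Commute z T := by
  refine hS.res.ext fun y => ?_
  rw [mul_assoc, hT, mul_assoc, (hE y).eq, ← mul_assoc T, hT, ← mul_assoc,
    (commute_wp hV).eq, mul_assoc, mul_assoc, (hE y).eq]

/-- `Res.col` and `Tree.tele`: `(T'_s χ_s - χ_s T) E y = (π'_s(y) χ_s - χ_s π(y)) E y`. -/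
theorem IsFell.col (hG : FreeZ2 g wd) (hS : S.Ok g) (hW : S.Par W) (hT : S.IsFell wd W T)
    {σ : Type*} [Fintype σ] {W' : σ → κ → (H →L[ℂ] H)} {T' χ : σ → (H →L[ℂ] H)}
    (hW' : ∀ s, S.Par (W' s)) (hT' : ∀ s, S.IsFell wd (W' s) (T' s)) (hχ : ∀ s, S.Cm (χ s))
    {γ : ℝ} (hγ : 0 ≤ γ) (hd : ∀ i, Col (fun s => W' s i * χ s - χ s * W i) γ) :
    Col (fun s => T' s * χ s - χ s * T) (50 * γ) := by
  have hE1 : ∀ y, ‖S.E y‖ ≤ 1 := fun y => (hS.res.proj y).norm_le
  refine hS.res.col (by positivity) (fun s y => ?_) (fun y => ?_)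
  · exact (((hT' s).comm_E hS (hW' s) y).mul_left ((hχ s).E y)).sub_left
      (((hχ s).E y).mul_left (hT.comm_E hS hW y))
  · have h := (hS.tree.tele (W := W) (W' := W') (χ := χ) (fun i => ⟨(hW i).1, (hW i).2.tc⟩)
      (fun s i => ⟨(hW' s i).1, (hW' s i).2.tc⟩) (fun s => (hχ s).tc) hγ hd
      (hG.chain y)).mul_right (by positivity) (hE1 y)
    rw [mul_one] at h
    have e : (fun s => (T' s * χ s - χ s * T) * S.E y) = fun s =>
        (wp (fun i => gad (S.Λ i) S.P (W' s i)) (wd y) * χ s -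
          χ s * wp (fun i => gad (S.Λ i) S.P (W i)) (wd y)) * S.E y := by
      funext s
      rw [sub_mul, sub_mul, mul_assoc, ((hχ s).E y).eq, ← mul_assoc, hT' s y, mul_assoc (χ s),
        hT y, mul_assoc, ← ((hχ s).E y).eq, ← mul_assoc, ← mul_assoc]
      rfl
    rw [e]
    exact h

/-- With `D_s = T'_s χ_s - χ_s T`:
`T' x T'* χ - χ T x T* = -T' x T'* D T* + D x T*`. -/
theorem IsFell.col_conj (hG : FreeZ2 g wd) (hS : S.Ok g) (hW : S.Par W) (hT : S.IsFell wd W T)
    {σ : Type*} [Fintype σ] {W' : σ → κ → (H →L[ℂ] H)} {T' χ : σ → (H →L[ℂ] H)}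
    (hW' : ∀ s, S.Par (W' s)) (hT' : ∀ s, S.IsFell wd (W' s) (T' s)) (hχ : ∀ s, S.Cm (χ s))
    {γ : ℝ} (hγ : 0 ≤ γ) (hd : ∀ i, Col (fun s => W' s i * χ s - χ s * W i) γ)
    {x : H →L[ℂ] H} (hx : ∀ s, Commute x (χ s)) :
    Col (fun s => T' s * x * star (T' s) * χ s - χ s * (T * x * star T)) (100 * γ * ‖x‖) := by
  have hD := hT.col hG hS hW hW' hT' hχ hγ hd
  have hu := hT.mem_unitary hS hW
  have hu' := fun s => (hT' s).mem_unitary hS (hW' s)
  have n1 : ‖star T‖ ≤ 1 := by rw [norm_star]; exact norm_le_one_of_unitary hu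
  have n2 : ∀ s, ‖T' s * x * star (T' s)‖ ≤ ‖x‖ := fun s => by
    have a := norm_le_one_of_unitary (hu' s)
    have b : ‖star (T' s)‖ ≤ 1 := by rw [norm_star]; exact a
    calc ‖T' s * x * star (T' s)‖ ≤ ‖T' s‖ * ‖x‖ * ‖star (T' s)‖ :=
          (norm_mul_le _ _).trans (mul_le_mul_of_nonneg_right (norm_mul_le _ _) (norm_nonneg _))
      _ ≤ 1 * ‖x‖ * 1 := by gcongr
      _ = ‖x‖ := by ring
  have n3 : ‖x * star T‖ ≤ ‖x‖ := by
    calc ‖x * star T‖ ≤ ‖x‖ * ‖star T‖ := norm_mul_le _ _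
      _ ≤ ‖x‖ * 1 := by gcongr
      _ = ‖x‖ := mul_one _
  have h1 := ((hD.mul_right (by positivity) n1).mul_left (norm_nonneg x) n2).neg
  have h2 := hD.mul_right (by positivity) n3
  have h3 := (h1.add h2).mono (c' := 100 * γ * ‖x‖) (le_of_eq (by ring))
  have e : (fun s => T' s * x * star (T' s) * χ s - χ s * (T * x * star T)) = fun s =>
      -(T' s * x * star (T' s) * ((T' s * χ s - χ s * T) * star T)) +
        (T' s * χ s - χ s * T) * (x * star T) := by
    funext s
    have a1 : star (T' s) * T' s = 1 := (Unitary.mem_iff.1 (hu' s)).1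
    have a2 : T * star T = 1 := (Unitary.mem_iff.1 hu).2
    have b1 : T' s * x * star (T' s) * (T' s * χ s * star T) = T' s * χ s * (x * star T) := by
      calc T' s * x * star (T' s) * (T' s * χ s * star T)
          = T' s * x * (star (T' s) * T' s) * χ s * star T := by simp only [mul_assoc]
        _ = T' s * (x * χ s) * star T := by rw [a1, mul_one, mul_assoc (T' s)]
        _ = T' s * χ s * (x * star T) := by rw [(hx s).eq]; simp only [mul_assoc]
    have b2 : T' s * x * star (T' s) * (χ s * T * star T) = T' s * x * star (T' s) * χ s := by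
      rw [mul_assoc (χ s), a2, mul_one]
    rw [sub_mul, mul_sub, b1, b2, sub_mul]
    simp only [mul_assoc]
    abel
  rw [e]
  exact h3

/-- **Averaging estimate.**  `V L R - B P E = (V - B P) L R + B P (L R - E)`; apply `orth_sum` with
`Q` (norms `≤ 2`, `gad_off`, `L R` commutes with `Q`) and with `QL` (norms `≤ 2`, `LRE`, `B P` commutes
with `QL`). -/
theorem estimate [Fintype κ] (hS : S.Ok g) (hW : S.Par W) {a : κ → ℂ} (ha : ∀ i, ‖a i‖ ≤ 1) :
    ‖∑ i, a i • (S.m W i * S.R i) - ∑ i, a i • (gB (W i) * (S.P * S.E 1))‖ ≤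
      8 * √(Fintype.card κ) := by
  have nP : ‖S.P‖ ≤ 1 := hS.tree.P_proj.norm_le
  have nE : ‖S.E 1‖ ≤ 1 := (hS.res.proj 1).norm_le
  have nL : ∀ i, ‖S.L i‖ ≤ 1 := fun i =>
    norm_le_one_of_unitary (mem_unitary_of_sa (hS.L_star i) (hS.L_sq i))
  have nR : ∀ i, ‖S.R i‖ ≤ 1 := fun i =>
    norm_le_one_of_unitary (mem_unitary_of_sa (hS.R_star i) (hS.R_sq i))
  have nV : ∀ i, ‖S.V W i‖ ≤ 1 := fun i =>
    norm_le_one_of_unitary (mem_unitary_of_sa (V_star hS hW i) (V_sq hS hW i))
  have nLR : ∀ i, ‖S.L i * S.R i‖ ≤ 1 := fun i =>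
    (norm_mul_le _ _).trans (mul_le_one₀ (nL i) (norm_nonneg _) (nR i))
  have nBP : ∀ i, ‖gB (W i) * S.P‖ ≤ 1 := fun i =>
    (norm_mul_le _ _).trans (mul_le_one₀ ((norm_gB_le (hW i).1).trans (by norm_num))
      (norm_nonneg _) nP)
  have h1 : ‖∑ i, a i • ((S.V W i - gB (W i) * S.P) * (S.L i * S.R i))‖ ≤
      2 * 2 * √(Fintype.card κ) := by
    refine orth_sum hS.tree.Q_proj hS.tree.QQ (by norm_num) (fun i => ?_) (fun i => ?_)
    · rw [norm_smul]
      have b1 : ‖S.V W i - gB (W i) * S.P‖ ≤ 2 :=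
        (norm_sub_le _ _).trans (by linarith [nV i, nBP i])
      calc ‖a i‖ * ‖(S.V W i - gB (W i) * S.P) * (S.L i * S.R i)‖
          ≤ 1 * (2 * 1) := by
            gcongr
            · exact ha i
            · exact (norm_mul_le _ _).trans
                (mul_le_mul b1 (nLR i) (norm_nonneg _) (by norm_num))
        _ = 2 := by norm_num
    · have hc : Commute (S.L i * S.R i) (1 - S.Q i) :=
        (Commute.one_right _).sub_right (((hS.tL i).Q i).mul_left ((hS.tR i).Q i))
      have h0 := hS.tree.gad_off (hW i).2.tc i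
      rw [mul_smul_comm, smul_mul_assoc, ← mul_assoc, mul_assoc _ (S.L i * S.R i), hc.eq,
        ← mul_assoc]
      rw [show S.V W i = gad (S.Λ i) S.P (W i) from rfl, h0, zero_mul, smul_zero]
  have h2 : ‖∑ i, a i • (gB (W i) * S.P * (S.L i * S.R i - S.E 1))‖ ≤
      2 * 2 * √(Fintype.card κ) := by
    refine orth_sum hS.QL_proj hS.QLQL (by norm_num) (fun i => ?_) (fun i => ?_)
    · rw [norm_smul]
      have b1 : ‖S.L i * S.R i - S.E 1‖ ≤ 2 :=
        (norm_sub_le _ _).trans (by linarith [nLR i, nE])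
      calc ‖a i‖ * ‖gB (W i) * S.P * (S.L i * S.R i - S.E 1)‖
          ≤ 1 * (1 * 2) := by
            gcongr
            · exact ha i
            · exact (norm_mul_le _ _).trans
                (mul_le_mul (nBP i) b1 (norm_nonneg _) (by norm_num))
        _ = 2 := by norm_num
    · have hc : Commute (1 - S.QL i) (gB (W i) * S.P) :=
        (Commute.one_left _).sub_left
          ((commute_gB ((hW i).2.QL i).symm (((hW i).2.star hS).QL i).symm).mul_right
            (hS.tQL i).P)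
      rw [mul_smul_comm, smul_mul_assoc, ← mul_assoc, hc.eq, mul_assoc (gB (W i) * S.P),
        mul_assoc (gB (W i) * S.P), hS.LRE i, mul_zero, smul_zero]
  have e : ∑ i, a i • (S.m W i * S.R i) - ∑ i, a i • (gB (W i) * (S.P * S.E 1)) =
      ∑ i, a i • ((S.V W i - gB (W i) * S.P) * (S.L i * S.R i)) +
        ∑ i, a i • (gB (W i) * S.P * (S.L i * S.R i - S.E 1)) := by
    rw [← Finset.sum_sub_distrib, ← Finset.sum_add_distrib]
    refine Finset.sum_congr rfl fun i _ => ?_
    rw [← smul_sub, ← smul_add, m, sub_mul, mul_sub]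
    congr 1
    simp only [mul_assoc]
    abel
  rw [e]
  exact (norm_add_le _ _).trans (by linarith)

end Side

end Crest.Agent.R78.G
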