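import Crest.Agent.R78.GRes

/-!
# R78 (S0104, S0105): the gadget: algebra
-/

set_option autoImplicit false
set_option linter.unusedSectionVars false
open scoped InnerProductSpace BigOperators

noncomputable section

namespace Crest.Agent.R78.G

open Crest.Agent.R124

section Alg
variable {B : Type*} [Ring B] [StarRing B] [Algebra ℂ B] [StarModule ℂ B]

theorem gB_star (W : B) : star (gB W) = gB W := by
  simp [gB, star_smul, add_comm]

/-- `(9/100)(W² + 2 + W*²) + 81/100 + 1/100 - (9/100)(W² + W*²) = 1`. -/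
theorem gB_sq_add {W : B} (hW : W ∈ unitary B) : gB W * gB W + star (gC W) * gC W = 1 := by
  have h1 : star W * W = 1 := hW.1
  have h2 : W * star W = 1 := hW.2
  have h3 : ∀ x, star W * (W * x) = x := fun x => by rw [← mul_assoc, h1, one_mul]
  have e1 : star (9 / 10 : ℂ) = 9 / 10 := by simp
  have e2 : star (1 / 10 : ℂ) = 1 / 10 := by simp
  simp only [gB, gC, star_sub, star_smul, star_one, star_mul, e1, e2, mul_add, add_mul, mul_sub,
    sub_mul, smul_mul_assoc, mul_smul_comm, mul_assoc, h1, h2, h3, mul_one, one_mul]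
  module

theorem commute_gB {z W : B} (h : Commute z W) (h' : Commute z (star W)) : Commute z (gB W) := by
  exact (h.add_right h').smul_right _

theorem commute_gC {z W : B} (h : Commute z W) : Commute z (gC W) := by
  exact ((Commute.one_right z).smul_right _).sub_right ((h.mul_right h).smul_right _)

theorem commute_star_gC {z W : B} (h' : Commute z (star W)) : Commute z (star (gC W)) := by
  simp only [gC, star_sub, star_smul, star_one, star_mul]
  exact ((Commute.one_right z).smul_right _).sub_right ((h'.mul_right h').smul_right _)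

theorem commute_gad {z Λ P W : B} (hΛ : Commute z Λ) (hP : Commute z P) (h : Commute z W)
    (h' : Commute z (star W)) : Commute z (gad Λ P W) := by
  exact ((hΛ.add_right ((commute_gB h h').mul_right
    (hP.sub_right ((hΛ.mul_right hP).mul_right hΛ)))).add_right
    (((commute_gC h).sub_right (Commute.one_right z)).mul_right (hΛ.mul_right hP))).add_right
    (((commute_star_gC h').sub_right (Commute.one_right z)).mul_right (hP.mul_right hΛ))

/-- At `W = i` the gadget is the translation. -/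
theorem gad_I (Λ P : B) : gad Λ P (Complex.I • (1 : B)) = Λ := by
  have h1 : gB (Complex.I • (1 : B)) = 0 := by simp [gB, star_smul]
  have h2 : gC (Complex.I • (1 : B)) = 1 := by
    rw [gC, smul_mul_smul_comm, Complex.I_mul_I, mul_one]
    module
  simp [gad, h1, h2]

/-- At `W = 1`. -/
theorem gad_one (Λ P : B) : gad Λ P ((1 : ℂ) • (1 : B)) =
    Λ + (3 / 5 : ℂ) • (P - Λ * P * Λ) - (1 / 5 : ℂ) • (Λ * P) - (1 / 5 : ℂ) • (P * Λ) := by
  have h1 : gB ((1 : ℂ) • (1 : B)) = (3 / 5 : ℂ) • (1 : B) := by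
    simp only [gB, one_smul, star_one]; module
  have h2 : gC ((1 : ℂ) • (1 : B)) = (4 / 5 : ℂ) • (1 : B) := by
    simp only [gC, one_smul, mul_one]; module
  have e : star (4 / 5 : ℂ) = 4 / 5 := by simp
  simp only [gad, h1, h2, star_smul, star_one, e, sub_mul, smul_mul_assoc, one_mul]
  module

/-- For a scalar parameter the gadget is a linear combination. -/
theorem gad_scalar (Λ P : B) (w : ℂ) : ∃ b c c' : ℂ, gad Λ P (w • (1 : B)) =
    Λ + b • (P - Λ * P * Λ) + c • (Λ * P) + c' • (P * Λ) := by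
  have h1 : gB (w • (1 : B)) = (3 / 10 * (w + star w) : ℂ) • (1 : B) := by
    simp only [gB, star_smul, star_one]; module
  have h2 : gC (w • (1 : B)) = (9 / 10 - 1 / 10 * (w * w) : ℂ) • (1 : B) := by
    simp only [gC, smul_mul_smul_comm, mul_one]; module
  refine ⟨3 / 10 * (w + star w), 9 / 10 - 1 / 10 * (w * w) - 1,
    star (9 / 10 - 1 / 10 * (w * w)) - 1, ?_⟩
  simp only [gad, h1, h2, star_smul, star_one, sub_mul, smul_mul_assoc, one_mul]
  module

variable {κ : Type*} {Λ Q : κ → B} {P W : B}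

theorem TC.star (hT : Tree Λ Q P) (h : TC Λ Q P W) : TC Λ Q P (star W) := by
  refine ⟨fun i => ?_, fun i => ?_, ?_⟩
  · have := (h.Λ i).star_star
    rwa [hT.Λ_star] at this
  · have := (h.Q i).star_star
    rwa [(hT.Q_proj i).isSelfAdjoint.star_eq] at this
  · have := h.P.star_star
    rwa [hT.P_proj.isSelfAdjoint.star_eq] at this

theorem Tree.QP (hT : Tree Λ Q P) (i : κ) : Q i * P = 0 := by
  have := congrArg Star.star (hT.PQ i)
  rwa [star_mul, star_zero, (hT.Q_proj i).isSelfAdjoint.star_eq,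
    hT.P_proj.isSelfAdjoint.star_eq] at this

theorem Tree.QΛ (hT : Tree Λ Q P) (i : κ) : Q i * Λ i = Λ i * (1 - Q i) := by
  have := congrArg Star.star (hT.ΛQ i)
  rwa [star_mul, star_mul, star_sub, star_one, (hT.Q_proj i).isSelfAdjoint.star_eq,
    hT.Λ_star] at this

/-- `Q Λ P = Λ (1 - Q) P = Λ P` (from `ΛQ` multiplied by `Λ` on both sides, and `Q P = 0`). -/
theorem Tree.QΛP (hT : Tree Λ Q P) (i : κ) : Q i * (Λ i * P) = Λ i * P := by
  rw [← mul_assoc, hT.QΛ, mul_assoc, sub_mul, one_mul, hT.QP, sub_zero]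

theorem Tree.PΛP (hT : Tree Λ Q P) (i : κ) : P * Λ i * P = 0 := by
  rw [mul_assoc, ← hT.QΛP i, ← mul_assoc, hT.PQ, zero_mul]

theorem Tree.gcomm (hT : Tree Λ Q P) (h : TC Λ Q P W) (i : κ) :
    Commute (Λ i) (gB W) ∧ Commute P (gB W) ∧ Commute (Λ i) (gC W) ∧ Commute P (gC W) ∧
      Commute (Λ i) (Star.star (gC W)) ∧ Commute P (Star.star (gC W)) :=
  have h' := h.star hT
  ⟨commute_gB (h.Λ i).symm (h'.Λ i).symm, commute_gB h.P.symm h'.P.symm, commute_gC (h.Λ i).symm,
    commute_gC h.P.symm, commute_star_gC (h'.Λ i).symm, commute_star_gC h'.P.symm⟩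

theorem Tree.rules (hT : Tree Λ Q P) (i : κ) :
    Λ i * Λ i = 1 ∧ (∀ x, Λ i * (Λ i * x) = x) ∧ P * P = P ∧ (∀ x, P * (P * x) = P * x) ∧
      P * (Λ i * P) = 0 ∧ ∀ x, P * (Λ i * (P * x)) = 0 :=
  ⟨hT.Λ_sq i, fun x => by rw [← mul_assoc, hT.Λ_sq, one_mul], hT.P_proj.isIdempotentElem.eq,
    fun x => by rw [← mul_assoc, hT.P_proj.isIdempotentElem.eq],
    by rw [← mul_assoc, hT.PΛP], fun x => by rw [← mul_assoc, ← mul_assoc, hT.PΛP, zero_mul]⟩

theorem Tree.qrules (hT : Tree Λ Q P) (h : TC Λ Q P W) (i : κ) :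
    Commute (Q i) (gB W) ∧ Commute (Q i) (gC W) ∧ Commute (Q i) (Star.star (gC W)) ∧
      Q i * P = 0 ∧ (∀ x, Q i * (P * x) = 0) ∧ Q i * (Λ i * P) = Λ i * P ∧
      ∀ x, Q i * (Λ i * (P * x)) = Λ i * (P * x) :=
  have h' := h.star hT
  ⟨commute_gB (h.Q i).symm (h'.Q i).symm, commute_gC (h.Q i).symm, commute_star_gC (h'.Q i).symm,
    hT.QP i, fun x => by rw [← mul_assoc, hT.QP, zero_mul], hT.QΛP i,
    fun x => by rw [← mul_assoc (Λ i), ← mul_assoc, hT.QΛP]⟩

theorem Tree.gad_star (hT : Tree Λ Q P) (h : TC Λ Q P W) (i : κ) :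
    star (gad (Λ i) P W) = gad (Λ i) P W := by
  obtain ⟨b1, b2, c1, c2, d1, d2⟩ := hT.gcomm h i
  simp only [gad, star_add, star_mul, star_sub, star_one, star_star, gB_star, hT.Λ_star,
    hT.P_proj.isSelfAdjoint.star_eq]
  simp only [mul_sub, sub_mul, mul_assoc, mul_one, one_mul, b1.eq, b2.eq, c1.eq, c2.eq, d1.eq,
    d2.eq, b1.left_comm, b2.left_comm, c1.left_comm, c2.left_comm, d1.left_comm, d2.left_comm]
  abel

/-- With matrix units `e11 = P`, `e21 = Λ P`, `e12 = P Λ`, `e22 = Λ P Λ` (use `PΛP`, `Λ_sq`) and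
`G = Λ - e21 - e12` (`G e = e G = 0`, `G² = 1 - e11 - e22`), the gadget is
`G + B e11 - B e22 + C e21 + C* e12`, where `B, C, C*` commute with each other and with `Λ, P`. -/
theorem Tree.gad_sq (hT : Tree Λ Q P) (hW : W ∈ unitary B) (h : TC Λ Q P W) (i : κ) :
    gad (Λ i) P W * gad (Λ i) P W = 1 := by
  obtain ⟨b1, b2, c1, c2, d1, d2⟩ := hT.gcomm h i
  obtain ⟨r1, r2, r3, r4, r5, r6⟩ := hT.rules i
  have w0 : Commute (star W) W := hW.1.trans hW.2.symm
  have wb : Commute (gB W) W := (commute_gB (Commute.refl W) w0.symm).symm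
  have wb' : Commute (gB W) (star W) := (commute_gB w0 (Commute.refl _)).symm
  have cb : Commute (gC W) (gB W) := (commute_gC wb).symm
  have db : Commute (star (gC W)) (gB W) := (commute_star_gC wb').symm
  have cd : Commute (gC W) (star (gC W)) := commute_star_gC (commute_gC w0).symm
  have bb : ∀ x, gB W * (gB W * x) = x - star (gC W) * (gC W * x) := fun x => by
    rw [eq_sub_iff_add_eq, ← mul_assoc, ← mul_assoc, ← add_mul, gB_sq_add hW, one_mul]
  simp only [gad, mul_add, add_mul, mul_sub, sub_mul, mul_assoc, mul_one, one_mul,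
    b1.left_comm, b2.left_comm, c1.left_comm, c2.left_comm, d1.left_comm, d2.left_comm,
    cb.left_comm, db.left_comm, cd.left_comm, r1, r2, r3, r4, r5, r6, mul_zero, bb]
  abel

theorem Tree.P_gad (hT : Tree Λ Q P) (h : TC Λ Q P W) (i : κ) :
    P * gad (Λ i) P W = gB W * P + star (gC W) * (P * Λ i) := by
  obtain ⟨b1, b2, c1, c2, d1, d2⟩ := hT.gcomm h i
  obtain ⟨r1, r2, r3, r4, r5, r6⟩ := hT.rules i
  simp only [gad, mul_add, mul_sub, sub_mul, mul_assoc, one_mul,
    b2.left_comm, c2.left_comm, d2.left_comm, r3, r4, r5, r6, mul_zero]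
  abel

theorem Tree.PΛ_gad (hT : Tree Λ Q P) (h : TC Λ Q P W) (i : κ) :
    P * Λ i * gad (Λ i) P W = gC W * P - gB W * (P * Λ i) := by
  obtain ⟨b1, b2, c1, c2, d1, d2⟩ := hT.gcomm h i
  obtain ⟨r1, r2, r3, r4, r5, r6⟩ := hT.rules i
  simp only [gad, mul_add, mul_sub, sub_mul, mul_assoc, mul_one, one_mul,
    b1.left_comm, b2.left_comm, c1.left_comm, c2.left_comm, d1.left_comm, d2.left_comm,
    r1, r2, r3, r4, r5, r6, mul_zero]
  abel

theorem Tree.Q_gad (hT : Tree Λ Q P) (h : TC Λ Q P W) (i : κ) :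
    (Q i - Λ i * P * Λ i) * gad (Λ i) P W = Λ i * (1 - Q i - P) := by
  obtain ⟨b1, b2, c1, c2, d1, d2⟩ := hT.gcomm h i
  obtain ⟨r1, r2, r3, r4, r5, r6⟩ := hT.rules i
  obtain ⟨b3, c3, d3, q1, q2, q3, q4⟩ := hT.qrules h i
  have q5 := hT.QΛ i
  simp only [gad, mul_add, mul_sub, sub_mul, mul_assoc, mul_one, one_mul,
    b1.left_comm, b2.left_comm, c1.left_comm, c2.left_comm, d1.left_comm, d2.left_comm,
    b3.left_comm, c3.left_comm, d3.left_comm, q1, q2, q3, q4, r1, r2, r3, r4, r5, r6, mul_zero]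
  simp only [q5, mul_sub, mul_one]
  abel

theorem Tree.gad_off (hT : Tree Λ Q P) (h : TC Λ Q P W) (i : κ) :
    (1 - Q i) * (gad (Λ i) P W - gB W * P) * (1 - Q i) = 0 := by
  obtain ⟨b3, c3, d3, q1, q2, q3, q4⟩ := hT.qrules h i
  have q0 : ∀ x, Q i * (Q i * x) = Q i * x := fun x => by
    rw [← mul_assoc, (hT.Q_proj i).isIdempotentElem.eq]
  have q5 : Λ i * Q i = Λ i - Q i * Λ i := by rw [hT.ΛQ, sub_mul, one_mul]
  have q6 := hT.PQ i
  have q7 : ∀ x, P * (Q i * x) = 0 := fun x => by rw [← mul_assoc, q6, zero_mul]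
  simp only [gad, mul_add, add_mul, mul_sub, sub_mul, mul_assoc, mul_one, one_mul,
    b3.left_comm, c3.left_comm, d3.left_comm, q0, q1, q2, q3, q4, q5, q6, q7, mul_zero]
  abel

/-- The intertwining defect of two gadgets lives on the root edge. -/
theorem Tree.gad_defect (hT : Tree Λ Q P) {W' χ : B} (hχ : TC Λ Q P χ) (i : κ) :
    gad (Λ i) P W' * χ - χ * gad (Λ i) P W =
      (gB W' * χ - χ * gB W) * (P - Λ i * P * Λ i) + (gC W' * χ - χ * gC W) * (Λ i * P) +
        (star (gC W') * χ - χ * star (gC W)) * (P * Λ i) := by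
  have h1 := hχ.Λ i
  have h2 := hχ.P
  simp only [gad, mul_add, add_mul, mul_sub, sub_mul, mul_assoc, one_mul,
    h1.symm.eq, h2.symm.eq, h1.symm.left_comm, h2.symm.left_comm]
  abel

end Alg

section Norm
variable {B : Type*} [CStarAlgebra B]

theorem norm_le_one_of_unitary {W : B} (hW : W ∈ unitary B) : ‖W‖ ≤ 1 := by
  rcases subsingleton_or_nontrivial B with h | h
  · simp [Subsingleton.elim W 0]
  · exact (CStarRing.norm_of_mem_unitary hW).le

theorem norm_gB_le {W : B} (hW : W ∈ unitary B) : ‖gB W‖ ≤ 3 / 5 := by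
  have h1 := norm_le_one_of_unitary hW
  rw [gB, norm_smul]
  have h2 : ‖W + star W‖ ≤ 2 := (norm_add_le _ _).trans (by rw [norm_star]; linarith)
  have h3 : ‖(3 / 10 : ℂ)‖ = 3 / 10 := by simp
  rw [h3]; linarith

theorem norm_gC_le {W : B} (hW : W ∈ unitary B) : ‖gC W‖ ≤ 1 := by
  have h1 := norm_le_one_of_unitary (mul_mem hW hW)
  have h2 := norm_le_one_of_unitary (one_mem (unitary B))
  refine (norm_sub_le _ _).trans ?_
  have h3 : ‖(9 / 10 : ℂ)‖ = 9 / 10 := by simp
  have h4 : ‖(1 / 10 : ℂ)‖ = 1 / 10 := by simp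
  rw [norm_smul, norm_smul, h3, h4]; linarith

theorem mem_unitary_of_sa {V : B} (h1 : star V = V) (h2 : V * V = 1) : V ∈ unitary B := by
  exact ⟨by rw [h1, h2], by rw [h1, h2]⟩

theorem wp_unitary {κ : Type*} {V : κ → B} (h : ∀ i, V i ∈ unitary B) (l : List κ) :
    wp V l ∈ unitary B := by
  induction l with
  | nil => exact one_mem _
  | cons a l ih => rw [wp_cons]; exact mul_mem (h a) ih

end Norm

end Crest.Agent.R78.G
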