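import Crest.Agent.R78.GRes

/-!
# R78 (S0104, S0105): the ideal and the extension algebras
-/

set_option autoImplicit false
set_option linter.unusedSectionVars false
open scoped InnerProductSpace BigOperators

noncomputable section

namespace Crest.Agent.R78.G

open Crest.Agent.R124

variable {H : Type*} [NormedAddCommGroup H] [InnerProductSpace ℂ H] [CompleteSpace H]

section Cgen
variable {s t : Set (H →L[ℂ] H)}

theorem subset_cgen {a : H →L[ℂ] H} (ha : a ∈ s) : a ∈ cgen s :=
  StarSubalgebra.le_topologicalClosure _ (StarAlgebra.subset_adjoin ℂ s ha)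

theorem isClosed_cgen (s : Set (H →L[ℂ] H)) : IsClosed (cgen s : Set (H →L[ℂ] H)) :=
  StarSubalgebra.isClosed_topologicalClosure _

theorem cgen_le {K : StarSubalgebra ℂ (H →L[ℂ] H)} (hK : IsClosed (K : Set (H →L[ℂ] H)))
    (h : s ⊆ K) : cgen s ≤ K :=
  StarSubalgebra.topologicalClosure_minimal (StarAlgebra.adjoin_le h) hK

/-- `StarAlgebra.adjoin_toSubalgebra`, `Algebra.adjoin_le`, `closure_minimal`. -/
theorem cgen_subset (hs : ∀ a ∈ s, star a = a) {K : Subalgebra ℂ (H →L[ℂ] H)}
    (hK : IsClosed (K : Set (H →L[ℂ] H))) (h : s ⊆ K) {x : H →L[ℂ] H} (hx : x ∈ cgen s) :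
    x ∈ K := by
  refine closure_minimal (s := (StarAlgebra.adjoin ℂ s : Set (H →L[ℂ] H))) ?_ hK hx
  have : (StarAlgebra.adjoin ℂ s).toSubalgebra ≤ K := by
    rw [StarAlgebra.adjoin_toSubalgebra]
    refine Algebra.adjoin_le (Set.union_subset h fun a ha => ?_)
    have h1 := hs _ (Set.mem_star.1 ha)
    rw [star_star] at h1
    rw [h1]; exact h (Set.mem_star.1 ha)
  exact this

/-- `Algebra.adjoin_eq_span`, the submonoid generated by a countable set is countable,
`IsSeparable.span`, `IsSeparable.closure`. -/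
theorem cgen_separable (hs : s.Countable) :
    TopologicalSpace.IsSeparable (cgen s : Set (H →L[ℂ] H)) := by
  refine TopologicalSpace.IsSeparable.closure (s := (StarAlgebra.adjoin ℂ s : Set (H →L[ℂ] H))) ?_
  have h1 : (s ∪ star s).Countable := by
    refine hs.union ?_
    rw [← Set.image_star]; exact hs.image _
  have h2 : (Submonoid.closure (s ∪ star s) : Set (H →L[ℂ] H)).Countable := by
    have := h1.to_subtype
    refine (Set.countable_range fun l : List ↥(s ∪ star s) => (l.map Subtype.val).prod).mono ?_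
    intro x hx
    induction hx using Submonoid.closure_induction with
    | mem x hx => exact ⟨[⟨x, hx⟩], by simp⟩
    | one => exact ⟨[], rfl⟩
    | mul x y _ _ hx hy =>
      obtain ⟨l, rfl⟩ := hx
      obtain ⟨l', rfl⟩ := hy
      exact ⟨l ++ l', by simp⟩
  have h3 := (h2.isSeparable).span (R := ℂ)
  rw [← Algebra.adjoin_eq_span, ← StarAlgebra.adjoin_toSubalgebra] at h3
  exact h3

/-- `{x | u x u* ∈ cgen t}` is a closed ⋆-subalgebra. -/
theorem cgen_conj {u : H →L[ℂ] H} (hu : u ∈ unitary (H →L[ℂ] H))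
    (h : ∀ a ∈ s, u * a * star u ∈ cgen t) {x : H →L[ℂ] H} (hx : x ∈ cgen s) :
    u * x * star u ∈ cgen t := by
  have hu1 : star u * u = 1 := (Unitary.mem_iff.1 hu).1
  have hu2 : u * star u = 1 := (Unitary.mem_iff.1 hu).2
  let K : StarSubalgebra ℂ (H →L[ℂ] H) :=
    { carrier := {x | u * x * star u ∈ cgen t}
      mul_mem' := fun {a b} ha hb => by
        have := mul_mem (show u * a * star u ∈ cgen t from ha) (show u * b * star u ∈ cgen t from hb)
        change u * (a * b) * star u ∈ cgen t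
        convert this using 1
        simp only [mul_assoc]; rw [← mul_assoc (star u) u, hu1, one_mul]
      add_mem' := fun {a b} ha hb => by
        change u * (a + b) * star u ∈ cgen t
        rw [mul_add, add_mul]; exact add_mem ha hb
      algebraMap_mem' := fun c => by
        change u * _ * star u ∈ cgen t
        rw [Algebra.algebraMap_eq_smul_one, mul_smul_comm, smul_mul_assoc, mul_one, hu2]
        exact SMulMemClass.smul_mem _ (one_mem _)
      star_mem' := fun {a} ha => by
        have := star_mem (show u * a * star u ∈ cgen t from ha)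
        change u * star a * star u ∈ cgen t
        rwa [star_mul, star_mul, star_star, ← mul_assoc] at this }
  have hK : IsClosed (K : Set (H →L[ℂ] H)) :=
    (isClosed_cgen t).preimage ((continuous_const.mul continuous_id).mul continuous_const)
  exact cgen_le hK h hx

end Cgen

variable {κ G : Type*} {mu : G × ℕ → G × ℕ → G → (H →L[ℂ] H)} {q : ℕ → (H →L[ℂ] H)}
  {s : ℕ → ℕ → (H →L[ℂ] H)} {ζ : G × ℕ → H} {m : κ → (H →L[ℂ] H)}

theorem mu_mem (j j' : G × ℕ) (h : G) : mu j j' h ∈ Iid mu :=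
  Submodule.le_topologicalClosure _ (Submodule.subset_span ⟨j, j', h, rfl⟩)

theorem isClosed_Iid : IsClosed (Iid mu : Set (H →L[ℂ] H)) :=
  Submodule.isClosed_topologicalClosure _

theorem Iid_le {K : Submodule ℂ (H →L[ℂ] H)} (hK : IsClosed (K : Set (H →L[ℂ] H)))
    (h : ∀ j j' h, mu j j' h ∈ K) : Iid mu ≤ K :=
  Submodule.topologicalClosure_minimal _
    (Submodule.span_le.2 (by rintro _ ⟨j, j', h', rfl⟩; exact h j j' h')) hK

theorem LM.of_gen {a : H →L[ℂ] H} (h : ∀ j j' h, a * mu j j' h ∈ Iid mu) : LM mu a := by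
  intro k hk
  exact Iid_le (K := (Iid mu).comap (LinearMap.mulLeft ℂ a))
    (isClosed_Iid.preimage (continuous_const.mul continuous_id)) h hk

/-- The left multipliers form a closed subalgebra. -/
def LMalg (mu : G × ℕ → G × ℕ → G → (H →L[ℂ] H)) : Subalgebra ℂ (H →L[ℂ] H) where
  carrier := {a | LM mu a}
  mul_mem' ha hb k hk := by rw [mul_assoc]; exact ha _ (hb k hk)
  add_mem' ha hb k hk := by rw [add_mul]; exact add_mem (ha k hk) (hb k hk)
  algebraMap_mem' c k hk := by
    rw [Algebra.algebraMap_eq_smul_one, smul_mul_assoc, one_mul]; exact Submodule.smul_mem _ c hk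

theorem mem_LMalg {a : H →L[ℂ] H} : a ∈ LMalg mu ↔ LM mu a := Iff.rfl

theorem isClosed_LMalg : IsClosed (LMalg mu : Set (H →L[ℂ] H)) := by
  have : (LMalg mu : Set (H →L[ℂ] H)) = ⋂ z ∈ Iid mu, (fun b => b * z) ⁻¹' (Iid mu) := by
    ext b; simp only [Set.mem_iInter]; rfl
  rw [this]
  exact isClosed_biInter fun z _ => isClosed_Iid.preimage (continuous_id.mul continuous_const)

/-- The extension algebra. -/
def Aw (mu : G × ℕ → G × ℕ → G → (H →L[ℂ] H)) (m : κ → (H →L[ℂ] H)) :
    StarSubalgebra ℂ (H →L[ℂ] H) := cgen (Set.range m ∪ muSet mu)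

variable [Group G]

theorem Mu.star_mem (hM : Mu mu q s ζ) {k : H →L[ℂ] H} (hk : k ∈ Iid mu) : star k ∈ Iid mu := by
  let K : Submodule ℂ (H →L[ℂ] H) :=
    { carrier := {k | star k ∈ Iid mu}
      add_mem' := fun {a b} ha hb => by
        change star (a + b) ∈ Iid mu
        rw [star_add]; exact add_mem ha hb
      zero_mem' := by
        change star 0 ∈ Iid mu
        rw [star_zero]; exact zero_mem _
      smul_mem' := fun c a ha => by
        change star (c • a) ∈ Iid mu
        rw [star_smul]; exact Submodule.smul_mem _ _ ha }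
  refine Iid_le (K := K) (isClosed_Iid.preimage continuous_star) (fun j j' h => ?_) hk
  change star (mu j j' h) ∈ Iid mu
  rw [hM.star_eq]; exact mu_mem _ _ _

theorem Mu.lm_of_mem (hM : Mu mu q s ζ) {k : H →L[ℂ] H} (hk : k ∈ Iid mu) : LM mu k := by
  refine Iid_le (K := Subalgebra.toSubmodule (LMalg mu)) isClosed_LMalg (fun j j' h => ?_) hk
  refine LM.of_gen fun l l' h' => ?_
  by_cases hl : j' = l
  · subst hl; rw [hM.mul_eq]; exact mu_mem _ _ _
  · rw [hM.mul_ne _ _ _ _ _ _ hl]; exact zero_mem _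

theorem Mu.lm_q (hM : Mu mu q s ζ) (n : ℕ) : LM mu (q n) := by
  refine LM.of_gen fun j j' h => ?_
  rcases hM.q_mu n j j' h with h1 | h1 <;> rw [h1]
  exacts [mu_mem _ _ _, zero_mem _]

theorem Mu.lm_s (hM : Mu mu q s ζ) (n n' : ℕ) : LM mu (s n n') := by
  refine LM.of_gen fun j j' h => ?_
  obtain ⟨l, hl⟩ := hM.s_mu n n' j j' h
  rw [hl]; exact mu_mem _ _ _

/-- `k a = (a* k*)*`. -/
theorem Mu.mul_mem_right (hM : Mu mu q s ζ) {k a : H →L[ℂ] H} (hk : k ∈ Iid mu)
    (ha : LM mu (star a)) : k * a ∈ Iid mu := by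
  have := hM.star_mem (ha _ (hM.star_mem hk))
  rwa [star_mul, star_star, star_star] at this

/-- `z` commutes with the ideal (`Iid_le`), so `(a z - z a) e = (a e) z - z (a e) = 0` for
`e = mu j j 1`; `Res.ext`. -/
theorem Mu.lm_bicomm (hM : Mu mu q s ζ) {a : H →L[ℂ] H} (ha : LM mu a) :
    a ∈ Set.centralizer (Set.centralizer (muSet mu)) := by
  intro z hz
  have h1 : ∀ k ∈ Iid mu, k * z = z * k := fun k hk =>
    Iid_le (K := Subalgebra.toSubmodule (Subalgebra.centralizer ℂ {z}))
      (Set.isClosed_centralizer _) (fun j j' h => by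
        rintro _ rfl; exact (hz _ ⟨j, j', h, rfl⟩).symm) hk z rfl |>.symm
  refine hM.res.ext fun j => ?_
  rw [mul_assoc, ← h1 _ (ha _ (mu_mem j j 1)), mul_assoc, mul_assoc, h1 _ (mu_mem j j 1)]

/-- The set of such `k` is a closed submodule containing the generators (`mu_q`). -/
theorem Mu.tendsto_q (hM : Mu mu q s ζ) {k : H →L[ℂ] H} (hk : k ∈ Iid mu) :
    Filter.Tendsto (fun n => ‖k * q n‖) Filter.atTop (nhds 0) := by
  have nq : ∀ n, ‖q n‖ ≤ 1 := fun n => (hM.q_res.proj n).norm_le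
  have h1 : ∀ k ∈ Submodule.span ℂ (muSet mu), ∀ᶠ n in Filter.atTop, k * q n = 0 := by
    intro k hk
    induction hk using Submodule.span_induction with
    | mem x hx =>
      obtain ⟨j, j', h, rfl⟩ := hx
      exact (Filter.eventually_ne_atTop j'.2).mono fun n hn => hM.mu_q n j j' h hn
    | zero => exact .of_forall fun n => zero_mul _
    | add x y _ _ hx hy => exact (hx.and hy).mono fun n hn => by rw [add_mul, hn.1, hn.2, add_zero]
    | smul c x _ hx => exact hx.mono fun n hn => by rw [smul_mul_assoc, hn, smul_zero]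
  rw [Metric.tendsto_nhds]
  intro ε hε
  obtain ⟨k', hk', hd⟩ := Metric.mem_closure_iff.1 hk ε hε
  refine (h1 k' hk').mono fun n hn => ?_
  rw [dist_zero_right, norm_norm, ← sub_zero (k * q n), ← hn, ← sub_mul]
  rw [dist_eq_norm] at hd
  exact ((norm_mul_le _ _).trans (mul_le_of_le_one_right (norm_nonneg _) (nq n))).trans_lt hd

/-- `y q m = (s n m)* y q n (s n m)`, so `‖y q m‖ = ‖y q n‖ ≤ ‖y + k‖ + ‖k q n‖ → ‖y + k‖`;
`Res.norm_le`. -/
theorem Mu.norm_le (hM : Mu mu q s ζ) {y k : H →L[ℂ] H} (hq : ∀ n, Commute y (q n))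
    (hs : ∀ n n', Commute y (s n n')) (hk : k ∈ Iid mu) : ‖y‖ ≤ ‖y + k‖ := by
  have nq : ∀ n, ‖q n‖ ≤ 1 := fun n => (hM.q_res.proj n).norm_le
  refine hM.q_res.norm_le (norm_nonneg _) hq fun n' => ?_
  have h1 : ∀ n, ‖y * q n'‖ ≤ ‖y + k‖ + ‖k * q n‖ := fun n => by
    have e : s n n' * (y * q n') = y * q n * s n n' := by
      rw [← mul_assoc, ← (hs n n').eq, mul_assoc, hM.s_q, mul_assoc]
    have h2 : ‖y * q n'‖ = ‖y * q n‖ := by
      rw [← CStarRing.norm_mem_unitary_mul _ (hM.s_unit n n'), e,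
        CStarRing.norm_mul_mem_unitary _ (hM.s_unit n n')]
    have h3 : y * q n = (y + k) * q n - k * q n := by rw [add_mul, add_sub_cancel_right]
    rw [h2, h3]
    exact (norm_sub_le _ _).trans (add_le_add_left
      ((norm_mul_le _ _).trans (mul_le_of_le_one_right (norm_nonneg _) (nq n))) _)
  have h4 := (hM.tendsto_q hk).const_add ‖y + k‖
  rw [add_zero] at h4
  exact ge_of_tendsto' h4 h1

omit [Group G] in
/-- `cgen_subset` with `LMalg` and centralizers. -/
theorem GoodM.of_mem (hm : GoodM mu q s m) {y : H →L[ℂ] H} (hy : y ∈ cgen (Set.range m)) :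
    LM mu y ∧ (∀ n, Commute y (q n)) ∧ ∀ n n', Commute y (s n n') := by
  have hsa : ∀ a ∈ Set.range m, star a = a := by rintro _ ⟨i, rfl⟩; exact hm.sa i
  have h1 : ∀ z, (∀ i, Commute (m i) z) → Commute y z := fun z hz =>
    (cgen_subset hsa (K := Subalgebra.centralizer ℂ {z}) (Set.isClosed_centralizer _)
      (by rintro _ ⟨i, rfl⟩ _ rfl; exact (hz i).symm) hy z rfl).symm
  exact ⟨cgen_subset hsa isClosed_LMalg (by rintro _ ⟨i, rfl⟩; exact hm.lm i) hy,
    fun n => h1 _ fun i => hm.q i n, fun n n' => h1 _ fun i => hm.s i n n'⟩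

/-- The sums `y + k` form a ⋆-subalgebra (`GoodM.of_mem`, `mul_mem_right`, `lm_of_mem`) containing
the generators; it is closed because `‖y - y'‖ ≤ ‖(y + k) - (y' + k')‖` (`Mu.norm_le`; Cauchy
sequences).  Conversely both summands lie in `Aw`. -/
theorem Mu.mem_Aw (hM : Mu mu q s ζ) (hm : GoodM mu q s m) {x : H →L[ℂ] H} :
    x ∈ Aw mu m ↔ ∃ y ∈ cgen (Set.range m), ∃ k ∈ Iid mu, x = y + k := by
  constructor
  · intro hx
    let K : StarSubalgebra ℂ (H →L[ℂ] H) :=
      { carrier := {x | ∃ y ∈ cgen (Set.range m), ∃ k ∈ Iid mu, x = y + k}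
        mul_mem' := by
          rintro _ _ ⟨y, hy, k, hk, rfl⟩ ⟨y', hy', k', hk', rfl⟩
          refine ⟨y * y', mul_mem hy hy', y * k' + k * y' + k * k', add_mem (add_mem
            ((hm.of_mem hy).1 _ hk') (hM.mul_mem_right hk (hm.of_mem (StarMemClass.star_mem hy')).1))
            (hM.lm_of_mem hk _ hk'), by noncomm_ring⟩
        add_mem' := by
          rintro _ _ ⟨y, hy, k, hk, rfl⟩ ⟨y', hy', k', hk', rfl⟩
          exact ⟨y + y', add_mem hy hy', k + k', add_mem hk hk', by abel⟩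
        algebraMap_mem' := fun c => ⟨_, algebraMap_mem _ c, 0, zero_mem _, (add_zero _).symm⟩
        star_mem' := by
          rintro _ ⟨y, hy, k, hk, rfl⟩
          exact ⟨star y, StarMemClass.star_mem hy, star k, hM.star_mem hk, star_add _ _⟩ }
    have hK : IsClosed (K : Set (H →L[ℂ] H)) := by
      refine isClosed_of_closure_subset fun x hx => ?_
      obtain ⟨a, ha, hlim⟩ := mem_closure_iff_seq_limit.1 hx
      choose y hy k hk hyk using ha
      have hc : CauchySeq y := by
        have h1 := hlim.cauchySeq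
        rw [Metric.cauchySeq_iff] at h1 ⊢
        intro ε hε
        obtain ⟨N, hN⟩ := h1 ε hε
        refine ⟨N, fun i hi j hj => lt_of_le_of_lt ?_ (hN i hi j hj)⟩
        obtain ⟨-, h2, h3⟩ := hm.of_mem (sub_mem (hy i) (hy j))
        rw [dist_eq_norm, dist_eq_norm, hyk i, hyk j, add_sub_add_comm]
        exact hM.norm_le h2 h3 (sub_mem (hk i) (hk j))
      obtain ⟨y₀, hy₀⟩ := cauchySeq_tendsto_of_complete hc
      refine ⟨y₀, (isClosed_cgen _).mem_of_tendsto hy₀ (.of_forall hy), x - y₀,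
        isClosed_Iid.mem_of_tendsto (hlim.sub hy₀) (.of_forall fun n => ?_), by abel⟩
      rw [hyk n, add_sub_cancel_left]; exact hk n
    refine cgen_le hK ?_ hx
    rintro a (ha | ⟨j, j', h, rfl⟩)
    · exact ⟨a, subset_cgen ha, 0, zero_mem _, (add_zero _).symm⟩
    · exact ⟨0, zero_mem _, _, mu_mem j j' h, (zero_add _).symm⟩
  · rintro ⟨y, hy, k, hk, rfl⟩
    refine add_mem (cgen_le (isClosed_cgen _) (fun a ha => subset_cgen (Or.inl ha)) hy) ?_
    exact Iid_le (K := Subalgebra.toSubmodule (Aw mu m).toSubalgebra) (isClosed_cgen _)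
      (fun j j' h => subset_cgen (Or.inr ⟨j, j', h, rfl⟩)) hk

theorem Mu.lm_of_Aw (hM : Mu mu q s ζ) (hm : GoodM mu q s m) {x : H →L[ℂ] H}
    (hx : x ∈ Aw mu m) : LM mu x := by
  obtain ⟨y, hy, k, hk, rfl⟩ := (hM.mem_Aw hm).1 hx
  exact (LMalg mu).add_mem (hm.of_mem hy).1 (hM.lm_of_mem hk)

theorem Mu.centralizer_Aw (hM : Mu mu q s ζ) (hm : GoodM mu q s m) :
    Set.centralizer (Aw mu m : Set (H →L[ℂ] H)) = Set.centralizer (muSet mu) := by
  refine Set.Subset.antisymm (Set.centralizer_subset fun a ha => subset_cgen (Or.inr ha)) ?_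
  intro z hz a ha
  exact (hM.lm_bicomm (hM.lm_of_Aw hm ha) z hz).symm

end Crest.Agent.R78.G
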