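import Crest.Agent.R78.GBasic
import Crest.Agent.R73.L2

/-!
# R78 (S0104, S0105): permutation and indicator operators on `ℓ²`, the model of a side
-/

set_option autoImplicit false
set_option linter.unusedSectionVars false
open scoped InnerProductSpace BigOperators

noncomputable section

namespace Crest.Agent.R78.G

open Crest.Agent.R124

open Crest.Agent.R73 (L2 dl pull ext_dl)

section Ops
variable {J : Type} [DecidableEq J]

/-- permutation operator -/
def perm (σ : Equiv.Perm J) : L2 J →L[ℂ] L2 J := star (pull σ σ.injective)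

theorem perm_dl (σ : Equiv.Perm J) (j : J) : perm σ (dl j) = dl (σ j) :=
  R73.star_pull_dl _ _ _

theorem star_perm (σ : Equiv.Perm J) : star (perm σ) = perm σ.symm := by
  refine ext_dl fun z => ?_
  rw [perm_dl, perm, star_star]
  conv_lhs => rw [← σ.apply_symm_apply z]
  exact R73.pull_dl _ _ _

theorem gl2_perm_mul (σ τ : Equiv.Perm J) : perm σ * perm τ = perm (σ * τ) :=
  ext_dl fun z => by rw [mul_apply_eq_comp, perm_dl, perm_dl, perm_dl, Equiv.Perm.mul_apply]

theorem gl2_perm_eq_one {σ : Equiv.Perm J} (h : ∀ j, σ j = j) : perm σ = 1 :=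
  ext_dl fun z => by rw [perm_dl, h]; rfl

theorem gl2_perm_congr {σ τ : Equiv.Perm J} (h : ∀ j, σ j = τ j) : perm σ = perm τ := by
  rw [Equiv.ext h]

theorem gl2_comm_pp {σ τ : Equiv.Perm J} (h : ∀ j, σ (τ j) = τ (σ j)) : Commute (perm σ) (perm τ) := by
  unfold Commute SemiconjBy
  rw [gl2_perm_mul, gl2_perm_mul]
  exact gl2_perm_congr h

theorem perm_unitary (σ : Equiv.Perm J) : perm σ ∈ unitary (L2 J →L[ℂ] L2 J) := by
  rw [Unitary.mem_iff, star_perm, gl2_perm_mul, gl2_perm_mul]
  exact ⟨gl2_perm_eq_one fun j => by simp, gl2_perm_eq_one fun j => by simp⟩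

open Classical in
/-- indicator operator -/
def ind (p : J → Prop) : L2 J →L[ℂ] L2 J :=
  LinearMap.mkContinuous
    { toFun := fun η => ⟨fun z => if p z then η z else 0,
        (lp.memℓp η).mono' fun z => by split_ifs <;> simp⟩
      map_add' := fun η η' => by ext z; by_cases h : p z <;> simp [h]
      map_smul' := fun c η => by ext z; by_cases h : p z <;> simp [h] } 1
    (fun η => by
      rw [one_mul]
      exact lp.norm_mono (by norm_num) fun z => by
        change ‖if p z then η z else 0‖ ≤ _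
        split_ifs <;> simp)

open Classical in
theorem ind_apply (p : J → Prop) (η : L2 J) (z : J) : ind p η z = if p z then η z else 0 := rfl

theorem ind_dl_pos {p : J → Prop} {j : J} (h : p j) : ind p (dl j) = dl j := by
  ext z
  rw [ind_apply]
  split_ifs with hz
  · rfl
  · rw [R73.dl_apply, if_neg]
    rintro rfl
    exact hz h

theorem ind_dl_neg {p : J → Prop} {j : J} (h : ¬p j) : ind p (dl j) = 0 := by
  ext z
  rw [ind_apply]
  split_ifs with hz
  · rw [R73.dl_apply, if_neg]
    · rfl
    · rintro rfl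
      exact h hz
  · rfl

theorem gl2_ind_mul (p q : J → Prop) : ind p * ind q = ind fun j => p j ∧ q j := by
  ext η z
  simp only [mul_apply_eq_comp, ind_apply]
  by_cases hp : p z <;> by_cases hq : q z <;> simp [hp, hq]

theorem gl2_ind_congr {p q : J → Prop} (h : ∀ j, p j ↔ q j) : ind p = ind q := by
  rw [show p = q from funext fun j => propext (h j)]

theorem gl2_ind_mul_eq_zero {p q : J → Prop} (h : ∀ j, p j → q j → False) : ind p * ind q = 0 := by
  rw [gl2_ind_mul]
  exact ext_dl fun z => ind_dl_neg fun hz => h z hz.1 hz.2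

theorem gl2_one_sub_ind (p : J → Prop) : 1 - ind p = ind fun j => ¬p j := by
  refine ext_dl fun z => ?_
  by_cases h : p z
  · rw [sub_apply, ind_dl_pos h, ind_dl_neg (p := fun j => ¬p j) (not_not.2 h)]
    exact sub_self _
  · rw [sub_apply, ind_dl_neg h, ind_dl_pos (p := fun j => ¬p j) h]
    exact sub_zero _

theorem gl2_perm_ind {σ : Equiv.Perm J} {p q : J → Prop} (h : ∀ j, q (σ j) ↔ p j) :
    perm σ * ind p = ind q * perm σ := by
  refine ext_dl fun z => ?_
  rw [mul_apply_eq_comp, mul_apply_eq_comp, perm_dl]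
  by_cases hp : p z
  · rw [ind_dl_pos hp, perm_dl, ind_dl_pos ((h z).2 hp)]
  · rw [ind_dl_neg hp, map_zero, ind_dl_neg fun hq => hp ((h z).1 hq)]

theorem gl2_comm_pi {σ : Equiv.Perm J} {p : J → Prop} (h : ∀ j, p (σ j) ↔ p j) : Commute (perm σ) (ind p) :=
  gl2_perm_ind h

theorem gl2_comm_ii (p q : J → Prop) : Commute (ind p) (ind q) := by
  unfold Commute SemiconjBy
  rw [gl2_ind_mul, gl2_ind_mul]
  exact gl2_ind_congr fun j => and_comm

theorem ind_proj (p : J → Prop) : IsStarProjection (ind p) := by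
  refine ⟨?_, ?_⟩
  · unfold IsIdempotentElem
    rw [gl2_ind_mul]
    exact gl2_ind_congr fun j => and_self_iff
  · rw [ContinuousLinearMap.isSelfAdjoint_iff_isSymmetric]
    intro x y
    change ⟪ind p x, y⟫_ℂ = ⟪x, ind p y⟫_ℂ
    rw [lp.inner_eq_tsum, lp.inner_eq_tsum]
    refine tsum_congr fun z => ?_
    rw [ind_apply, ind_apply]
    split_ifs <;> simp

theorem gl2_single (j : J) (a : ℂ) : (lp.single 2 j a : L2 J) = a • dl j := by
  rw [dl, ← lp.single_smul]; simp

/-- The fibres of a map give a resolution of the identity.  (`HasSum`: the partial sums are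
contractions `ind (f · ∈ s)`, eventually fixing each `dl j`; or use `lp.hasSum_single` and
`HasSum.sigma`/`Equiv.sigmaFiberEquiv`.) -/
theorem res_ind {ι : Type*} (f : J → ι) : Res fun y => ind fun j => f j = y := by
  refine ⟨fun y => ind_proj _, fun y z hyz => gl2_ind_mul_eq_zero fun j h1 h2 => hyz (h1.symm.trans h2),
    fun ψ => ?_⟩
  have h0 : HasSum (fun j => (lp.single 2 j (ψ j) : L2 J)) ψ := lp.hasSum_single (by norm_num) ψ
  have h1 := (Equiv.sigmaFiberEquiv f).hasSum_iff.2 h0
  refine h1.sigma fun y => ?_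
  have h2 := (ind fun j => f j = y).hasSum h0
  have h3 : HasSum ({j | f j = y}.indicator fun j => (lp.single 2 j (ψ j) : L2 J)) (ind (fun j => f j = y) ψ) := by
    convert h2 using 2 with j
    rw [gl2_single, map_smul]
    by_cases h : f j = y
    · rw [Set.indicator_of_mem (by exact h), ind_dl_pos (p := fun j => f j = y) h, gl2_single]
    · rw [Set.indicator_of_notMem (by exact h), ind_dl_neg (p := fun j => f j = y) h, smul_zero]
  exact (hasSum_subtype_iff_indicator (s := {j | f j = y})).2 h3

theorem separable_L2 [Countable J] : TopologicalSpace.SeparableSpace (L2 J) := by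
  rw [← TopologicalSpace.isSeparable_univ_iff]
  refine ((Set.countable_range (dl : J → L2 J)).isSeparable.span (R := ℂ)).closure.mono fun ψ _ => ?_
  have h0 : HasSum (fun j => (lp.single 2 j (ψ j) : L2 J)) ψ := lp.hasSum_single (by norm_num) ψ
  refine isClosed_closure.mem_of_tendsto h0 (Filter.Eventually.of_forall fun s => subset_closure ?_)
  refine Submodule.sum_mem _ fun j _ => ?_
  rw [gl2_single]
  exact Submodule.smul_mem _ _ (Submodule.subset_span ⟨j, rfl⟩)

end Ops

section Lens
variable {J A A' C C' : Type} [DecidableEq J]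

/-- a permutation of the first coordinate -/
def lift (e : J ≃ A × C) (σ : Equiv.Perm A) : Equiv.Perm J :=
  e.trans ((σ.prodCongr (Equiv.refl C)).trans e.symm)

theorem lift_apply (e : J ≃ A × C) (σ : Equiv.Perm A) (j : J) :
    lift e σ j = e.symm (σ (e j).1, (e j).2) := rfl

/-- monomial operators supported on the first coordinate -/
def Leg (e : J ≃ A × C) : Set (L2 J →L[ℂ] L2 J) :=
  {a | (∃ σ, a = perm (lift e σ)) ∨ ∃ p : A → Prop, a = ind fun j => p (e j).1}

/-- two coordinates are independent -/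
structure IndepL (e : J ≃ A × C) (e' : J ≃ A' × C') : Prop where
  get : ∀ σ j, (e' (lift e σ j)).1 = (e' j).1
  get' : ∀ τ j, (e (lift e' τ j)).1 = (e j).1
  comm : ∀ σ τ j, lift e σ (lift e' τ j) = lift e' τ (lift e σ j)

theorem IndepL.commute {e : J ≃ A × C} {e' : J ≃ A' × C'} (h : IndepL e e')
    {a b : L2 J →L[ℂ] L2 J} (ha : a ∈ Leg e) (hb : b ∈ Leg e') : Commute a b := by
  rcases ha with ⟨σ, rfl⟩ | ⟨p, rfl⟩ <;> rcases hb with ⟨τ, rfl⟩ | ⟨q, rfl⟩
  · exact gl2_comm_pp (h.comm σ τ)
  · exact gl2_comm_pi fun j => by rw [h.get]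
  · exact (gl2_comm_pi fun j => by rw [h.get']).symm
  · exact gl2_comm_ii _ _

variable {κ G : Type} [Group G]

/-- The side attached to a coordinate with values in `G × G` (tree, copy). -/
def mkSide (g : κ → G) (wd : G → List κ) (e : J ≃ (G × G) × C) : Side κ G (L2 J) where
  Λ i := perm (lift e ((Equiv.mulLeft (g i)).prodCongr (Equiv.refl G)))
  Q i := ind fun j => (wd (e j).1.1).head? = some i
  P := ind fun j => (e j).1.1 = 1
  L i := perm (lift e ((Equiv.refl G).prodCongr (Equiv.mulLeft (g i))))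
  R i := perm (lift e ((Equiv.refl G).prodCongr (Equiv.mulRight (g i))))
  QL i := ind fun j => (wd (e j).1.2).head? = some i
  E y := ind fun j => (e j).1.2 = y

/-- `head (g_i y) = i ↔ head y ≠ i` (from `step` and `chain`). -/
theorem FreeZ2.head_mul {g : κ → G} {wd : G → List κ} (hG : FreeZ2 g wd) (i : κ) (y : G) :
    (wd (g i * y)).head? = some i ↔ (wd y).head? ≠ some i := by
  have key : ∀ (l : List κ), (i :: l).IsChain (· ≠ ·) → l.head? ≠ some i := by
    intro l hl
    cases l with
    | nil => simp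
    | cons a l =>
      have := (List.isChain_cons_cons.1 hl).1
      simpa using this.symm
  rcases hG.step i y with h | h
  · have c := hG.chain (g i * y)
    rw [h] at c
    rw [h]
    exact ⟨fun _ => key _ c, fun _ => rfl⟩
  · have c := hG.chain y
    rw [h] at c
    rw [h]
    exact ⟨fun h' => absurd h' (key _ c), fun h' => absurd rfl h'⟩

/-- All relations are checked on basis vectors (`ext_dl`, `perm_dl`, `ind_dl_pos/neg`); write
`j = e.symm ((x, y), c)`. -/
theorem mkSide_ok {g : κ → G} {wd : G → List κ} (hG : FreeZ2 g wd) (e : J ≃ (G × G) × C) :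
    (mkSide g wd e).Ok g := by
  have hinv : ∀ i, (g i)⁻¹ = g i := fun i => inv_eq_of_mul_eq_one_right (hG.sq i)
  have hsq : ∀ i x, g i * (g i * x) = x := fun i x => by rw [← mul_assoc, hG.sq, one_mul]
  have hsq' : ∀ i x, x * g i * g i = x := fun i x => by rw [mul_assoc, hG.sq, mul_one]
  have hsa : ∀ σ : Equiv.Perm J, (∀ j, σ (σ j) = j) → star (perm σ) = perm σ ∧ perm σ * perm σ = 1 := by
    intro σ hσ
    refine ⟨?_, by rw [gl2_perm_mul]; exact gl2_perm_eq_one hσ⟩
    rw [star_perm]
    exact gl2_perm_congr fun j => by rw [Equiv.symm_apply_eq, hσ]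
  have hΛ := fun i => hsa (lift e ((Equiv.mulLeft (g i)).prodCongr (Equiv.refl G))) fun j => by
    simp [lift_apply, Prod.map, hsq]
  have hL := fun i => hsa (lift e ((Equiv.refl G).prodCongr (Equiv.mulLeft (g i)))) fun j => by
    simp [lift_apply, Prod.map, hsq]
  have hR := fun i => hsa (lift e ((Equiv.refl G).prodCongr (Equiv.mulRight (g i)))) fun j => by
    simp [lift_apply, Prod.map, hsq']
  have tp : ∀ τ : Equiv.Perm G, TC (mkSide g wd e).Λ (mkSide g wd e).Q (mkSide g wd e).P
      (perm (lift e ((Equiv.refl G).prodCongr τ))) := fun τ =>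
    ⟨fun i => gl2_comm_pp fun j => by simp [lift_apply, Prod.map], fun i => gl2_comm_pi fun j => by simp [lift_apply],
      gl2_comm_pi fun j => by simp [lift_apply]⟩
  have ti : ∀ p : G → Prop, TC (mkSide g wd e).Λ (mkSide g wd e).Q (mkSide g wd e).P
      (ind fun j => p (e j).1.2) := fun p =>
    ⟨fun i => (gl2_comm_pi fun j => by simp [lift_apply]).symm, fun i => gl2_comm_ii _ _, gl2_comm_ii _ _⟩
  refine ⟨⟨fun i => (hΛ i).1, fun i => (hΛ i).2, fun i => ind_proj _, ind_proj _, fun i => ?_,
      fun i j hij => gl2_ind_mul_eq_zero fun z h1 h2 => hij (Option.some.inj (h1.symm.trans h2)),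
      fun i => gl2_ind_mul_eq_zero fun z h1 h2 => ?_⟩,
    fun i => (hL i).1, fun i => (hL i).2, fun i => (hR i).1, fun i => (hR i).2,
    fun i j => gl2_comm_pp fun z => by simp [lift_apply, Prod.map, mul_assoc], res_ind fun j => (e j).1.2,
    fun i y => gl2_perm_ind fun z => by simp [lift_apply], fun i => ind_proj _,
    fun i j hij => gl2_ind_mul_eq_zero fun z h1 h2 => hij (Option.some.inj (h1.symm.trans h2)),
    fun i => ?_, fun i => tp _, fun i => tp _, fun i => ti fun y => (wd y).head? = some i,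
    fun y => ti fun x => x = y⟩
  · simp only [mkSide]
    rw [gl2_one_sub_ind]
    refine gl2_perm_ind fun z => ?_
    simp [lift_apply, hG.head_mul]
  · rw [h1, hG.one] at h2
    simp at h2
  · simp only [mkSide]
    rw [gl2_one_sub_ind]
    refine ext_dl fun z => ?_
    rw [mul_apply_eq_comp, mul_apply_eq_comp]
    by_cases h : (wd (e z).1.2).head? = some i
    · rw [ind_dl_neg (p := fun j => ¬(wd (e j).1.2).head? = some i) (not_not.2 h), map_zero, map_zero]
      rfl
    · rw [ind_dl_pos (p := fun j => ¬(wd (e j).1.2).head? = some i) h, sub_apply, mul_apply_eq_comp, perm_dl,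
        perm_dl]
      by_cases h1 : (e z).1.2 = 1
      · rw [ind_dl_pos (p := fun j => (e j).1.2 = 1) h1]
        have : lift e ((Equiv.refl G).prodCongr (Equiv.mulLeft (g i)))
            (lift e ((Equiv.refl G).prodCongr (Equiv.mulRight (g i))) z) = z := by
          apply e.injective
          ext <;> simp [lift_apply, h1, hG.sq]
        rw [this, sub_self, map_zero]
        rfl
      · rw [ind_dl_neg (p := fun j => (e j).1.2 = 1) h1, sub_zero, ind_dl_neg]
        · rfl
        · have := hG.conj i _ h1 h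
          simpa [lift_apply, mul_assoc] using this

theorem mkSide_cm (g : κ → G) (wd : G → List κ) (e : J ≃ (G × G) × C) {z : L2 J →L[ℂ] L2 J}
    (hz : ∀ a ∈ Leg e, Commute z a) : (mkSide g wd e).Cm z := by
  exact ⟨fun i => hz _ (Or.inl ⟨_, rfl⟩), fun i => hz _ (Or.inr ⟨fun a => (wd a.1).head? = some i, rfl⟩),
    hz _ (Or.inr ⟨fun a => a.1 = 1, rfl⟩), fun i => hz _ (Or.inl ⟨_, rfl⟩), fun i => hz _ (Or.inl ⟨_, rfl⟩),
    fun i => hz _ (Or.inr ⟨fun a => (wd a.2).head? = some i, rfl⟩),
    fun y => hz _ (Or.inr ⟨fun a => a.2 = y, rfl⟩)⟩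

theorem mkSide_indep (g : κ → G) (wd : G → List κ) {e : J ≃ (G × G) × C} {e' : J ≃ (G × G) × C'}
    (h : IndepL e e') : (mkSide g wd e).Indep (mkSide g wd e') := by
  have key : ∀ b ∈ Leg e', (mkSide g wd e).Cm b := fun b hb =>
    mkSide_cm g wd e fun a ha => (h.commute ha hb).symm
  exact ⟨fun i => key _ (Or.inl ⟨_, rfl⟩), key _ (Or.inr ⟨fun a => a.1 = 1, rfl⟩),
    fun i => key _ (Or.inl ⟨_, rfl⟩), fun i => key _ (Or.inl ⟨_, rfl⟩),
    fun y => key _ (Or.inr ⟨fun a => a.2 = y, rfl⟩)⟩

end Lens

end Crest.Agent.R78.G
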