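import Crest.Agent.R78.GGad

/-!
# R78 (S0104, S0105): the Lyapunov estimate
-/

set_option autoImplicit false
set_option linter.unusedSectionVars false
open scoped InnerProductSpace BigOperators

noncomputable section

namespace Crest.Agent.R78.G

open Crest.Agent.R124

variable {H : Type*} [NormedAddCommGroup H] [InnerProductSpace ℂ H] [CompleteSpace H]
variable {κ : Type*} {Λ Q : κ → (H →L[ℂ] H)} {P : H →L[ℂ] H}

/-- The energy on the root edge `a`. -/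
def en (Λ : κ → (H →L[ℂ] H)) (P : H →L[ℂ] H) (a : κ) (ψ : H) : ℝ :=
  ‖P ψ‖ ^ 2 + ‖P (Λ a ψ)‖ ^ 2

set_option linter.deprecated false

theorem GLyap_inner (A z : H →L[ℂ] H) (η ψ : H) : ⟪η, (star A * z) ψ⟫_ℂ = ⟪A η, z ψ⟫_ℂ := by
  rw [ContinuousLinearMap.mul_apply, ContinuousLinearMap.star_eq_adjoint,
    ContinuousLinearMap.adjoint_inner_right]

theorem GLyap_pyth {x y : H →L[ℂ] H} (h : star x * y = 0) (ψ : H) :
    ‖(x + y) ψ‖ ^ 2 = ‖x ψ‖ ^ 2 + ‖y ψ‖ ^ 2 := by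
  have h0 : ⟪x ψ, y ψ⟫_ℂ = 0 := by rw [← GLyap_inner, h]; simp
  have := norm_add_sq_eq_norm_sq_add_norm_sq_of_inner_eq_zero _ _ h0
  rw [ContinuousLinearMap.add_apply, sq, sq, sq, this]

theorem GLyap_apply_le {x : H →L[ℂ] H} {c : ℝ} (h : ‖x‖ ≤ c) (ψ : H) : ‖x ψ‖ ≤ c * ‖ψ‖ :=
  x.le_of_opNorm_le h ψ

theorem Tree.GLyap_Λ (hT : Tree Λ Q P) (a : κ) (ψ : H) : ‖Λ a ψ‖ = ‖ψ‖ :=
  ContinuousLinearMap.norm_map_of_mem_unitary (mem_unitary_of_sa (hT.Λ_star a) (hT.Λ_sq a)) ψ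

theorem Tree.GLyap_QP (hT : Tree Λ Q P) (a : κ) : Q a * P = 0 := by
  have := congrArg star (hT.PQ a)
  rwa [star_mul, (hT.Q_proj a).isSelfAdjoint.star_eq, hT.P_proj.isSelfAdjoint.star_eq,
    star_zero] at this

theorem Tree.GLyap_QP_le (hT : Tree Λ Q P) (a : κ) (ψ : H) :
    ‖Q a ψ‖ ^ 2 + ‖P ψ‖ ^ 2 ≤ ‖ψ‖ ^ 2 := by
  have hp : IsStarProjection (Q a + P) := (hT.Q_proj a).add hT.P_proj (hT.GLyap_QP a)
  rw [← GLyap_pyth (by rw [(hT.Q_proj a).isSelfAdjoint.star_eq, hT.GLyap_QP a])]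
  have := GLyap_apply_le hp.norm_le ψ
  rw [one_mul] at this
  exact pow_le_pow_left₀ (norm_nonneg _) this 2

theorem GLyap_en_nonneg (a : κ) (ψ : H) : 0 ≤ en Λ P a ψ := by
  unfold en; positivity

/-- **One step.**  Put `V = gad`, `ψ' = V ψ`, so `ψ = V ψ'` (`gad_sq`); `α' = ‖P ψ'‖`,
`β = ‖P Λ ψ'‖ = ‖Λ P Λ ψ'‖`.  `P_gad` gives `‖P ψ‖ ≤ (3/5) α' + β`, so `‖P ψ‖² ≤ 0.72 α'² + 2 β²`;
`PΛ_gad` gives `‖P Λ ψ‖ ≤ α' + (3/5) β`, so `‖P Λ ψ‖² ≤ 2 α'² + 0.72 β²`.  `Λ P Λ ≤ Q a` (`QΛP`), so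
`‖Q a ψ'‖² = β² + ‖(Q a - Λ P Λ) ψ'‖² = β² + ‖(1 - Q a - P) ψ‖² ≥ β² + ‖Q' ψ‖²` (`Q_gad`;
`Q' ψ = Q' (1 - Q a - P) ψ`). -/
theorem Tree.one_step (hT : Tree Λ Q P) {W : H →L[ℂ] H} (hW : W ∈ unitary (H →L[ℂ] H))
    (h : TC Λ Q P W) (a : κ) {Q' : H →L[ℂ] H} (hQ' : ‖Q'‖ ≤ 1) (h1 : Q' * Q a = 0)
    (h2 : Q' * P = 0) (ψ : H) :
    en Λ P a ψ + 23 * ‖Q' ψ‖ ^ 2 + 10 * ‖P ψ‖ ^ 2 ≤
      23 * ‖Q a (gad (Λ a) P W ψ)‖ ^ 2 + 10 * ‖P (gad (Λ a) P W ψ)‖ ^ 2 := by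
  set V := gad (Λ a) P W with hV
  set ψ' := V ψ with hψ'
  have hψ : V ψ' = ψ := by
    rw [hψ', ← ContinuousLinearMap.mul_apply, hV, hT.gad_sq hW h a]; rfl
  have hB := norm_gB_le hW
  have hC := norm_gC_le hW
  have hC' : ‖star (gC W)‖ ≤ 1 := by rwa [norm_star]
  have e1 : ‖P ψ‖ ≤ 3 / 5 * ‖P ψ'‖ + ‖P (Λ a ψ')‖ := by
    have : P ψ = gB W (P ψ') + star (gC W) (P (Λ a ψ')) := by
      conv_lhs => rw [← hψ, ← ContinuousLinearMap.mul_apply, hV, hT.P_gad h a]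
      rfl
    rw [this]
    have h3 := GLyap_apply_le hB (P ψ')
    have h4 := GLyap_apply_le hC' (P (Λ a ψ'))
    have := norm_add_le (gB W (P ψ')) (star (gC W) (P (Λ a ψ')))
    linarith
  have e2 : ‖P (Λ a ψ)‖ ≤ ‖P ψ'‖ + 3 / 5 * ‖P (Λ a ψ')‖ := by
    have : P (Λ a ψ) = gC W (P ψ') - gB W (P (Λ a ψ')) := by
      have h3 : P (Λ a ψ) = (P * Λ a * V) ψ' := by rw [← hψ]; rfl
      rw [h3, hV, hT.PΛ_gad h a]
      rfl
    rw [this]
    have h3 := GLyap_apply_le hB (P (Λ a ψ'))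
    have h4 := GLyap_apply_le hC (P ψ')
    have := norm_sub_le (gC W (P ψ')) (gB W (P (Λ a ψ')))
    linarith
  have hP := hT.P_proj.isSelfAdjoint.star_eq
  have e3 : ‖Q a ψ'‖ ^ 2 = ‖P (Λ a ψ')‖ ^ 2 + ‖(1 - Q a - P) ψ‖ ^ 2 := by
    have h3 : star (Λ a * P * Λ a) * (Q a - Λ a * P * Λ a) = 0 := by
      have h4 := congrArg star (hT.QΛP a)
      simp only [star_mul, hP, hT.Λ_star, (hT.Q_proj a).isSelfAdjoint.star_eq] at h4 ⊢
      have h5 : Λ a * (P * Λ a) * (Λ a * P * Λ a) = Λ a * (P * Λ a) := by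
        calc _ = Λ a * (P * (Λ a * Λ a) * P) * Λ a := by noncomm_ring
          _ = _ := by rw [hT.Λ_sq, mul_one, hT.P_proj.isIdempotentElem.eq, mul_assoc]
      rw [mul_sub, h5, mul_assoc, h4, sub_self]
    have h4 := GLyap_pyth h3 ψ'
    rw [add_sub_cancel] at h4
    rw [h4]
    have h5 : (Q a - Λ a * P * Λ a) ψ' = Λ a ((1 - Q a - P) ψ) := by
      rw [hψ', ← ContinuousLinearMap.mul_apply, hV, hT.Q_gad h a]; rfl
    have h6 : (Λ a * P * Λ a) ψ' = Λ a (P (Λ a ψ')) := rfl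
    rw [h5, h6, hT.GLyap_Λ, hT.GLyap_Λ]
  have e4 : ‖Q' ψ‖ ≤ ‖(1 - Q a - P) ψ‖ := by
    have : Q' ψ = Q' ((1 - Q a - P) ψ) := by
      rw [← ContinuousLinearMap.mul_apply, mul_sub, mul_sub, h1, h2, mul_one, sub_zero, sub_zero]
    rw [this]
    simpa using GLyap_apply_le hQ' ((1 - Q a - P) ψ)
  have e5 := pow_le_pow_left₀ (norm_nonneg _) e4 2
  have e6 := pow_le_pow_left₀ (norm_nonneg _) e1 2
  have e7 := pow_le_pow_left₀ (norm_nonneg _) e2 2
  unfold en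
  rw [e3]
  nlinarith [sq_nonneg (3 / 5 * ‖P ψ'‖ - ‖P (Λ a ψ')‖), sq_nonneg (‖P ψ'‖ - 3 / 5 * ‖P (Λ a ψ')‖),
    sq_nonneg ‖P ψ'‖, sq_nonneg ‖P (Λ a ψ')‖]

/-- Total energy along a word, the head applied last. -/
def enL (Λ : κ → (H →L[ℂ] H)) (P : H →L[ℂ] H) (V : κ → (H →L[ℂ] H)) : List κ → H → ℝ
  | [], _ => 0
  | a :: l, ψ => enL Λ P V l ψ + en Λ P a (wp V l ψ)

/-- Total energy along a word, the head applied first. -/
def enF (Λ : κ → (H →L[ℂ] H)) (P : H →L[ℂ] H) (V : κ → (H →L[ℂ] H)) : List κ → H → ℝ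
  | [], _ => 0
  | a :: l, η => en Λ P a η + enF Λ P V l (V a η)

theorem GLyap_enL_nonneg (V : κ → (H →L[ℂ] H)) (l : List κ) (ψ : H) : 0 ≤ enL Λ P V l ψ := by
  induction l with
  | nil => exact le_rfl
  | cons a l ih => exact add_nonneg ih (GLyap_en_nonneg _ _)

theorem GLyap_enF_nonneg (V : κ → (H →L[ℂ] H)) (l : List κ) (η : H) : 0 ≤ enF Λ P V l η := by
  induction l generalizing η with
  | nil => exact le_rfl
  | cons a l ih => exact add_nonneg (GLyap_en_nonneg _ _) (ih _)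

theorem Tree.GLyap_enL (hT : Tree Λ Q P) {W : κ → (H →L[ℂ] H)}
    (hW : ∀ i, W i ∈ unitary (H →L[ℂ] H) ∧ TC Λ Q P (W i)) (l : List κ) (a : κ)
    (hl : (a :: l).IsChain (· ≠ ·)) (ψ : H) :
    enL Λ P (fun i => gad (Λ i) P (W i)) (a :: l) ψ ≤
      23 * ‖Q a (wp (fun i => gad (Λ i) P (W i)) (a :: l) ψ)‖ ^ 2 +
        10 * ‖P (wp (fun i => gad (Λ i) P (W i)) (a :: l) ψ)‖ ^ 2 := by
  induction l generalizing a with
  | nil =>
    have := hT.one_step (hW a).1 (hW a).2 a (Q' := 0) (by simp) (zero_mul _) (zero_mul _) ψ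
    simp only [enL, wp_cons, wp_nil, mul_one, ContinuousLinearMap.one_apply, zero_add]
    nlinarith [sq_nonneg ‖P ψ‖, sq_nonneg ‖(0 : H →L[ℂ] H) ψ‖]
  | cons b l ih =>
    rw [List.isChain_cons_cons] at hl
    have h1 := ih b hl.2
    have h2 := hT.one_step (hW a).1 (hW a).2 a (hT.Q_proj b).norm_le (hT.QQ b a hl.1.symm)
      (hT.GLyap_QP b) (wp (fun i => gad (Λ i) P (W i)) (b :: l) ψ)
    rw [enL, wp_cons _ a, ContinuousLinearMap.mul_apply]
    linarith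

theorem Tree.GLyap_unit (hT : Tree Λ Q P) {W : H →L[ℂ] H} (hW : W ∈ unitary (H →L[ℂ] H))
    (h : TC Λ Q P W) (a : κ) : gad (Λ a) P W ∈ unitary (H →L[ℂ] H) :=
  mem_unitary_of_sa (hT.gad_star h a) (hT.gad_sq hW h a)

/-- Induction with the invariant `enL l ψ ≤ 23 ‖Q_{head l} π(l) ψ‖² + 10 ‖P π(l) ψ‖²` (`Q_{head []} = 0`),
then `‖Q φ‖² + ‖P φ‖² ≤ ‖φ‖²` and `π(l)` is unitary. -/
theorem Tree.enL_le (hT : Tree Λ Q P) {W : κ → (H →L[ℂ] H)}
    (hW : ∀ i, W i ∈ unitary (H →L[ℂ] H) ∧ TC Λ Q P (W i)) {l : List κ}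
    (hl : l.IsChain (· ≠ ·)) (ψ : H) :
    enL Λ P (fun i => gad (Λ i) P (W i)) l ψ ≤ 23 * ‖ψ‖ ^ 2 := by
  cases l with
  | nil => simp only [enL]; positivity
  | cons a l =>
    have h1 := hT.GLyap_enL hW l a hl ψ
    have h2 := hT.GLyap_QP_le a (wp (fun i => gad (Λ i) P (W i)) (a :: l) ψ)
    rw [ContinuousLinearMap.norm_map_of_mem_unitary
      (wp_unitary (fun i => hT.GLyap_unit (hW i).1 (hW i).2 i) (a :: l))] at h2
    nlinarith [sq_nonneg ‖P (wp (fun i => gad (Λ i) P (W i)) (a :: l) ψ)‖]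

theorem Tree.GLyap_enF (hT : Tree Λ Q P) {W : κ → (H →L[ℂ] H)}
    (hW : ∀ i, W i ∈ unitary (H →L[ℂ] H) ∧ TC Λ Q P (W i)) (l : List κ) (b : κ)
    (hl : (b :: l).IsChain (· ≠ ·)) (η : H) :
    enF Λ P (fun i => gad (Λ i) P (W i)) l η + 23 * ‖Q b η‖ ^ 2 + 10 * ‖P η‖ ^ 2 ≤
      23 * ‖η‖ ^ 2 := by
  induction l generalizing b η with
  | nil =>
    have := hT.GLyap_QP_le b η
    simp only [enF]
    nlinarith [sq_nonneg ‖P η‖]
  | cons a l ih =>
    rw [List.isChain_cons_cons] at hl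
    have h1 := ih a hl.2 (gad (Λ a) P (W a) η)
    have h2 := hT.one_step (hW a).1 (hW a).2 a (hT.Q_proj b).norm_le (hT.QQ b a hl.1)
      (hT.GLyap_QP b) η
    rw [ContinuousLinearMap.norm_map_of_mem_unitary (hT.GLyap_unit (hW a).1 (hW a).2 a)] at h1
    rw [enF]
    linarith

/-- Induction on `l` with the invariant: for `Q' = 0` or `Q' = Q b` with `b ≠ head l`,
`enF l η + 23 ‖Q' η‖² + 10 ‖P η‖² ≤ 23 ‖η‖²`. -/
theorem Tree.enF_le (hT : Tree Λ Q P) {W : κ → (H →L[ℂ] H)}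
    (hW : ∀ i, W i ∈ unitary (H →L[ℂ] H) ∧ TC Λ Q P (W i)) {l : List κ}
    (hl : l.IsChain (· ≠ ·)) (η : H) :
    enF Λ P (fun i => gad (Λ i) P (W i)) l η ≤ 23 * ‖η‖ ^ 2 := by
  cases l with
  | nil => simp only [enF]; positivity
  | cons a l =>
    have h1 := hT.GLyap_enF hW l a hl (gad (Λ a) P (W a) η)
    have h2 := hT.one_step (hW a).1 (hW a).2 a (Q' := 0) (by simp) (zero_mul _) (zero_mul _) η
    rw [ContinuousLinearMap.norm_map_of_mem_unitary (hT.GLyap_unit (hW a).1 (hW a).2 a)] at h1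
    rw [enF]
    nlinarith [sq_nonneg ‖P η‖, sq_nonneg ‖(0 : H →L[ℂ] H) η‖]

theorem GLyap_term {σ : Type*} [Fintype σ] {z : σ → (H →L[ℂ] H)} {c E e : ℝ} (hz : Col z c)
    (hc : 0 ≤ c) {ζ : σ → H} {φ : H} (hζ : l2 ζ ≤ E) (hφ : ‖φ‖ ≤ e) :
    ‖∑ s, ⟪ζ s, z s φ⟫_ℂ‖ ≤ c * E * e := by
  refine (norm_sum_inner_le_l2 ζ fun s => z s φ).trans ?_
  have h1 := (hz φ).trans (mul_le_mul_of_nonneg_left hφ hc)
  refine (mul_le_mul hζ h1 (l2_nonneg _) ((l2_nonneg _).trans hζ)).trans (le_of_eq ?_)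
  ring

theorem GLyap_sq {σ : Type*} [Fintype σ] {U : H →L[ℂ] H} {U' χ : σ → (H →L[ℂ] H)}
    (hU : ‖U‖ ≤ 1) (hU' : ∀ s, ‖U' s‖ ≤ 1) {γ : ℝ} (hγ : 0 ≤ γ)
    (hd : Col (fun s => U' s * χ s - χ s * U) γ) :
    Col (fun s => (-(1 / 10) : ℂ) • (U' s * U' s * χ s - χ s * (U * U))) (1 / 5 * γ) := by
  have h1 := ((hd.mul_left zero_le_one hU').add (hd.mul_right hγ hU)).smul
    (a := fun _ => (-(1 / 10) : ℂ)) (C := 1 / 10) (by norm_num) (fun _ => by simp)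
  have e : (fun s => (-(1 / 10) : ℂ) • (U' s * U' s * χ s - χ s * (U * U))) = fun s =>
      (-(1 / 10) : ℂ) • (U' s * (U' s * χ s - χ s * U) + (U' s * χ s - χ s * U) * U) := by
    funext s; congr 1; noncomm_ring
  rw [e]
  exact h1.mono (le_of_eq (by ring))

theorem GLyap_comm {z W W' χ : H →L[ℂ] H} (h1 : Commute W z) (h2 : Commute (star W) z)
    (h3 : Commute W' z) (h4 : Commute (star W') z) (h5 : Commute χ z) :
    Commute z (gB W' * χ - χ * gB W) ∧ Commute z (gC W' * χ - χ * gC W) ∧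
      Commute z (star (gC W') * χ - χ * star (gC W)) :=
  ⟨((commute_gB h3.symm h4.symm).mul_right h5.symm).sub_right
      (h5.symm.mul_right (commute_gB h1.symm h2.symm)),
    ((commute_gC h3.symm).mul_right h5.symm).sub_right (h5.symm.mul_right (commute_gC h1.symm)),
    ((commute_star_gC h4.symm).mul_right h5.symm).sub_right
      (h5.symm.mul_right (commute_star_gC h2.symm))⟩

theorem GLyap_split {B : Type*} [Ring B] {L P b c c' : B} (hP : P * P = P) (b1 : Commute L b)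
    (b2 : Commute P b) (c1 : Commute L c) (c2 : Commute P c) (d2 : Commute P c') :
    b * (P - L * P * L) + c * (L * P) + c' * (P * L) =
      P * (b * P) - (L * P) * (b * (P * L)) + (L * P) * (c * P) + P * (c' * (P * L)) := by
  have e1 : P * (b * P) = b * P := by rw [← mul_assoc, b2.eq, mul_assoc, hP]
  have e2 : (L * P) * (b * (P * L)) = b * (L * P * L) := by
    rw [← mul_assoc, (b1.mul_left b2).eq]
    calc b * (L * P) * (P * L) = b * (L * (P * P) * L) := by noncomm_ring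
      _ = _ := by rw [hP]
  have e3 : (L * P) * (c * P) = c * (L * P) := by
    rw [← mul_assoc, (c1.mul_left c2).eq]
    calc c * (L * P) * P = c * (L * (P * P)) := by noncomm_ring
      _ = _ := by rw [hP]
  have e4 : P * (c' * (P * L)) = c' * (P * L) := by
    rw [← mul_assoc, d2.eq]
    calc c' * P * (P * L) = c' * ((P * P) * L) := by noncomm_ring
      _ = _ := by rw [hP]
  rw [e1, e2, e3, e4, mul_sub]

/-- The defect of one letter.  With `d = W' χ - χ W`: `W'* χ - χ W* = -W'* d W*`,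
`W'² χ - χ W² = W' d + d W`, so the three columns `b, c, c'` of `gad_defect` are bounded by
`0.6 γ, 0.2 γ, 0.2 γ` (`Col.mul_left`, ...), and they commute with `Λ, P`:
`⟪η, d ψ⟫ = ⟪P η, b P ψ⟫ - ⟪P Λ η, b P Λ ψ⟫ + ⟪P Λ η, c P ψ⟫ + ⟪P η, c' P Λ ψ⟫`; each of the four sums
over `s` is at most `(coefficient) γ √(∑ en η_s) √(en ψ)` (`norm_sum_inner_le_l2`). -/
theorem Tree.defect_le (hT : Tree Λ Q P) {σ : Type*} [Fintype σ] {W : H →L[ℂ] H}
    {W' χ : σ → (H →L[ℂ] H)} (hW : W ∈ unitary (H →L[ℂ] H)) (h : TC Λ Q P W)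
    (hW' : ∀ s, W' s ∈ unitary (H →L[ℂ] H) ∧ TC Λ Q P (W' s)) (hχ : ∀ s, TC Λ Q P (χ s))
    {γ : ℝ} (hγ : 0 ≤ γ) (hd : Col (fun s => W' s * χ s - χ s * W) γ) (a : κ) (η : σ → H) (ψ : H) :
    ‖∑ s, ⟪η s, (gad (Λ a) P (W' s) * χ s - χ s * gad (Λ a) P W) ψ⟫_ℂ‖ ≤
      2 * γ * √(∑ s, en Λ P a (η s)) * √(en Λ P a ψ) := by
  have nW := norm_le_one_of_unitary hW
  have nW' := fun s => norm_le_one_of_unitary (hW' s).1
  have nWs : ‖star W‖ ≤ 1 := by rwa [norm_star]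
  have nWs' : ∀ s, ‖star (W' s)‖ ≤ 1 := fun s => by rw [norm_star]; exact nW' s
  have hds : Col (fun s => star (W' s) * χ s - χ s * star W) γ := by
    have h1 := ((hd.mul_left zero_le_one nWs').mul_right (by positivity) nWs).neg
    have e : (fun s => star (W' s) * χ s - χ s * star W) = fun s =>
        -(star (W' s) * (W' s * χ s - χ s * W) * star W) := by
      funext s
      have h2 := Unitary.star_mul_self_of_mem (hW' s).1
      have h3 := Unitary.mul_star_self_of_mem hW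
      calc _ = -((star (W' s) * W' s) * χ s * star W - star (W' s) * χ s * (W * star W)) := by
            rw [h2, h3]; noncomm_ring
        _ = _ := by noncomm_ring
    rw [e]
    exact h1.mono (le_of_eq (by ring))
  have hb : Col (fun s => gB (W' s) * χ s - χ s * gB W) (3 / 5 * γ) := by
    have h1 := (hd.add hds).smul (a := fun _ => (3 / 10 : ℂ)) (C := 3 / 10) (by norm_num)
      (fun _ => by simp)
    have e : (fun s => gB (W' s) * χ s - χ s * gB W) = fun s => (3 / 10 : ℂ) •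
        ((W' s * χ s - χ s * W) + (star (W' s) * χ s - χ s * star W)) := by
      funext s
      simp only [gB, smul_mul_assoc, mul_smul_comm, add_mul, mul_add]
      module
    rw [e]
    exact h1.mono (le_of_eq (by ring))
  have hc : Col (fun s => gC (W' s) * χ s - χ s * gC W) (1 / 5 * γ) := by
    have e : (fun s => gC (W' s) * χ s - χ s * gC W) = fun s =>
        (-(1 / 10) : ℂ) • (W' s * W' s * χ s - χ s * (W * W)) := by
      funext s
      simp only [gC, smul_mul_assoc, mul_smul_comm, sub_mul, mul_sub, one_mul, mul_one]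
      module
    rw [e]
    exact GLyap_sq nW nW' hγ hd
  have hc' : Col (fun s => star (gC (W' s)) * χ s - χ s * star (gC W)) (1 / 5 * γ) := by
    have hs : ∀ U : H →L[ℂ] H, star (gC U) = gC (star U) := fun U => by
      simp [gC, star_smul]
    have e : (fun s => star (gC (W' s)) * χ s - χ s * star (gC W)) = fun s =>
        (-(1 / 10) : ℂ) • (star (W' s) * star (W' s) * χ s - χ s * (star W * star W)) := by
      funext s
      rw [hs, hs]
      simp only [gC, smul_mul_assoc, mul_smul_comm, sub_mul, mul_sub, one_mul, mul_one]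
      module
    rw [e]
    exact GLyap_sq nWs nWs' hγ hds
  have hP := hT.P_proj.isSelfAdjoint.star_eq
  have hsplit : ∀ s, ⟪η s, (gad (Λ a) P (W' s) * χ s - χ s * gad (Λ a) P W) ψ⟫_ℂ =
      ⟪P (η s), (gB (W' s) * χ s - χ s * gB W) (P ψ)⟫_ℂ -
      ⟪P (Λ a (η s)), (gB (W' s) * χ s - χ s * gB W) (P (Λ a ψ))⟫_ℂ +
      ⟪P (Λ a (η s)), (gC (W' s) * χ s - χ s * gC W) (P ψ)⟫_ℂ +
      ⟪P (η s), (star (gC (W' s)) * χ s - χ s * star (gC W)) (P (Λ a ψ))⟫_ℂ := fun s => by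
    obtain ⟨b1, c1, -⟩ := GLyap_comm (h.Λ a) ((TC.star hT h).Λ a) ((hW' s).2.Λ a)
      ((TC.star hT (hW' s).2).Λ a) ((hχ s).Λ a)
    obtain ⟨b2, c2, d2⟩ := GLyap_comm h.P (TC.star hT h).P (hW' s).2.P
      (TC.star hT (hW' s).2).P (hχ s).P
    rw [hT.gad_defect (hχ s) a, GLyap_split hT.P_proj.isIdempotentElem.eq b1 b2 c1 c2 d2]
    have e1 : ∀ z : H →L[ℂ] H, ⟪η s, (P * z) ψ⟫_ℂ = ⟪P (η s), z ψ⟫_ℂ := fun z => by
      rw [← GLyap_inner, hP]
    have e2 : ∀ z : H →L[ℂ] H, ⟪η s, (Λ a * P * z) ψ⟫_ℂ = ⟪P (Λ a (η s)), z ψ⟫_ℂ := fun z => by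
      have := GLyap_inner (P * Λ a) z (η s) ψ
      rwa [star_mul, hP, hT.Λ_star] at this
    rw [ContinuousLinearMap.add_apply, ContinuousLinearMap.add_apply,
      ContinuousLinearMap.sub_apply, inner_add_right, inner_add_right, inner_sub_right,
      e1, e1, e2, e2]
    rfl
  simp_rw [hsplit]
  rw [Finset.sum_add_distrib, Finset.sum_add_distrib, Finset.sum_sub_distrib]
  have l1 : l2 (fun s => P (η s)) ≤ √(∑ s, en Λ P a (η s)) :=
    Real.sqrt_le_sqrt (Finset.sum_le_sum fun s _ => le_add_of_nonneg_right (by positivity))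
  have l2' : l2 (fun s => P (Λ a (η s))) ≤ √(∑ s, en Λ P a (η s)) :=
    Real.sqrt_le_sqrt (Finset.sum_le_sum fun s _ => le_add_of_nonneg_left (by positivity))
  have n1 : ‖P ψ‖ ≤ √(en Λ P a ψ) :=
    Real.le_sqrt_of_sq_le (le_add_of_nonneg_right (by positivity))
  have n2 : ‖P (Λ a ψ)‖ ≤ √(en Λ P a ψ) :=
    Real.le_sqrt_of_sq_le (le_add_of_nonneg_left (by positivity))
  have t1 := GLyap_term hb (by positivity) l1 n1
  have t2 := GLyap_term hb (by positivity) l2' n2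
  have t3 := GLyap_term hc (by positivity) l2' n1
  have t4 := GLyap_term hc' (by positivity) l1 n2
  refine (norm_add_le _ _).trans ((add_le_add ((norm_add_le _ _).trans
    (add_le_add ((norm_sub_le _ _).trans (add_le_add t1 t2)) t3)) t4).trans ?_)
  have : 0 ≤ γ * √(∑ s, en Λ P a (η s)) * √(en Λ P a ψ) := by positivity
  nlinarith

theorem GLyap_cs {a b c d : ℝ} (ha : 0 ≤ a) (hb : 0 ≤ b) (hc : 0 ≤ c) (hd : 0 ≤ d) :
    √a * √b + √c * √d ≤ √(a + c) * √(b + d) := by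
  rw [← Real.sqrt_mul (add_nonneg ha hc)]
  apply Real.le_sqrt_of_sq_le
  have h1 := Real.sq_sqrt ha
  have h2 := Real.sq_sqrt hb
  have h3 := Real.sq_sqrt hc
  have h4 := Real.sq_sqrt hd
  generalize √a = x at *
  generalize √b = y at *
  generalize √c = z at *
  generalize √d = w at *
  subst h1 h2 h3 h4
  nlinarith [sq_nonneg (x * w - z * y)]

/-- **Telescoping.**  `D(a :: l) = V'_a D(l) + d_a π(l)`; by induction on `l` (generalizing `η`, `V'`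
self-adjoint) `‖∑ ⟪η_s, D_s(l) ψ⟫‖ ≤ 2 γ √(∑_s enF l η_s) √(enL l ψ)` (two-dimensional Cauchy–Schwarz
`√a √b + √c √d ≤ √(a + c) √(b + d)`), then `enF_le`, `enL_le`, `Col.of_inner`. -/
theorem Tree.tele (hT : Tree Λ Q P) {σ : Type*} [Fintype σ] {W : κ → (H →L[ℂ] H)}
    {W' : σ → κ → (H →L[ℂ] H)} {χ : σ → (H →L[ℂ] H)}
    (hW : ∀ i, W i ∈ unitary (H →L[ℂ] H) ∧ TC Λ Q P (W i))
    (hW' : ∀ s i, W' s i ∈ unitary (H →L[ℂ] H) ∧ TC Λ Q P (W' s i)) (hχ : ∀ s, TC Λ Q P (χ s))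
    {γ : ℝ} (hγ : 0 ≤ γ) (hd : ∀ i, Col (fun s => W' s i * χ s - χ s * W i) γ) {l : List κ}
    (hl : l.IsChain (· ≠ ·)) :
    Col (fun s => wp (fun i => gad (Λ i) P (W' s i)) l * χ s -
      χ s * wp (fun i => gad (Λ i) P (W i)) l) (50 * γ) := by
  have key : ∀ (l : List κ) (ψ : H) (η : σ → H),
      ‖∑ s, ⟪η s, (wp (fun i => gad (Λ i) P (W' s i)) l * χ s -
        χ s * wp (fun i => gad (Λ i) P (W i)) l) ψ⟫_ℂ‖ ≤
      2 * γ * (√(∑ s, enF Λ P (fun i => gad (Λ i) P (W' s i)) l (η s)) *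
        √(enL Λ P (fun i => gad (Λ i) P (W i)) l ψ)) := by
    intro l ψ
    induction l with
    | nil => intro η; simp; positivity
    | cons a l ih =>
      intro η
      have h1 := ih fun s => gad (Λ a) P (W' s a) (η s)
      have h2 := hT.defect_le (hW a).1 (hW a).2 (fun s => hW' s a) hχ hγ (hd a) a η
        (wp (fun i => gad (Λ i) P (W i)) l ψ)
      have e : ∀ s, ⟪η s, (wp (fun i => gad (Λ i) P (W' s i)) (a :: l) * χ s -
          χ s * wp (fun i => gad (Λ i) P (W i)) (a :: l)) ψ⟫_ℂ =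
          ⟪η s, (gad (Λ a) P (W' s a) * χ s - χ s * gad (Λ a) P (W a))
            (wp (fun i => gad (Λ i) P (W i)) l ψ)⟫_ℂ +
          ⟪gad (Λ a) P (W' s a) (η s), (wp (fun i => gad (Λ i) P (W' s i)) l * χ s -
            χ s * wp (fun i => gad (Λ i) P (W i)) l) ψ⟫_ℂ := fun s => by
        rw [← GLyap_inner, hT.gad_star (hW' s a).2, ← ContinuousLinearMap.mul_apply,
          ← inner_add_right, ← ContinuousLinearMap.add_apply, wp_cons, wp_cons]
        congr 2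
        noncomm_ring
      simp_rw [e]
      rw [Finset.sum_add_distrib]
      refine (norm_add_le _ _).trans ((add_le_add h2 h1).trans ?_)
      simp only [enF, enL]
      rw [Finset.sum_add_distrib, add_comm (enL _ _ _ _ _), mul_assoc, ← mul_add]
      exact mul_le_mul_of_nonneg_left (GLyap_cs
        (Finset.sum_nonneg fun s _ => GLyap_en_nonneg _ _) (GLyap_en_nonneg _ _)
        (Finset.sum_nonneg fun s _ => GLyap_enF_nonneg _ _ _) (GLyap_enL_nonneg _ _ _))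
        (by positivity)
  refine Col.of_inner (by positivity) fun ψ η => (key l ψ η).trans ?_
  have h1 : √(∑ s, enF Λ P (fun i => gad (Λ i) P (W' s i)) l (η s)) ≤ 5 * l2 η := by
    apply Real.sqrt_le_iff.2 ⟨by have := l2_nonneg η; positivity, ?_⟩
    rw [mul_pow, l2_sq, Finset.mul_sum]
    refine Finset.sum_le_sum fun s _ => (hT.enF_le (hW' s) hl (η s)).trans ?_
    nlinarith [sq_nonneg ‖η s‖]
  have h2 : √(enL Λ P (fun i => gad (Λ i) P (W i)) l ψ) ≤ 5 * ‖ψ‖ := by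
    apply Real.sqrt_le_iff.2 ⟨by positivity, (hT.enL_le hW hl ψ).trans ?_⟩
    nlinarith [sq_nonneg ‖ψ‖]
  have h3 := mul_le_mul h1 h2 (Real.sqrt_nonneg _) (by have := l2_nonneg η; positivity)
  refine (mul_le_mul_of_nonneg_left h3 (by positivity)).trans (le_of_eq ?_)
  ring

end Crest.Agent.R78.G
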