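import Crest.Agent.R78.GBasic

/-!
# R78 (S0104, S0105): columns, resolutions of the identity, orthogonal sums
-/

set_option autoImplicit false
set_option linter.unusedSectionVars false
open scoped InnerProductSpace BigOperators

noncomputable section

namespace Crest.Agent.R78.G

open Crest.Agent.R124

variable {H : Type*} [NormedAddCommGroup H] [InnerProductSpace ℂ H] [CompleteSpace H]

section Col
variable {σ : Type*} [Fintype σ] {d d' : σ → (H →L[ℂ] H)} {c c' : ℝ}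

theorem Col.mono (h : Col d c) (hc : c ≤ c') : Col d c' := by
  exact fun ψ => (h ψ).trans (mul_le_mul_of_nonneg_right hc (norm_nonneg _))

theorem Col.add (h : Col d c) (h' : Col d' c') : Col (fun s => d s + d' s) (c + c') := by
  intro ψ
  rw [add_mul]
  exact (l2_add_le (fun s => d s ψ) fun s => d' s ψ).trans (add_le_add (h ψ) (h' ψ))

theorem Col.neg (h : Col d c) : Col (fun s => -d s) c := by
  intro ψ
  refine le_trans (l2_mono (η := fun s => d s ψ) fun s => ?_) (h ψ)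
  simp

theorem Col.sub (h : Col d c) (h' : Col d' c') : Col (fun s => d s - d' s) (c + c') := by
  simpa only [sub_eq_add_neg] using h.add h'.neg

theorem gres_l2_le {K K' : Type*} [NormedAddCommGroup K] [NormedAddCommGroup K'] {ζ : σ → K} {η : σ → K'}
    {C : ℝ} (hC : 0 ≤ C) (h : ∀ s, ‖ζ s‖ ≤ C * ‖η s‖) : l2 ζ ≤ C * l2 η := by
  refine l2_le_of_sq_le (mul_nonneg hC (l2_nonneg _)) ?_
  rw [mul_pow, l2_sq, Finset.mul_sum]
  refine Finset.sum_le_sum fun i _ => ?_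
  rw [← mul_pow]
  gcongr
  exact h i

/-- `l2_mono`. -/
theorem Col.mul_left (h : Col d c) {T : σ → (H →L[ℂ] H)} {C : ℝ} (hC : 0 ≤ C)
    (hT : ∀ s, ‖T s‖ ≤ C) : Col (fun s => T s * d s) (C * c) := by
  intro ψ
  rw [mul_assoc]
  refine (gres_l2_le (η := fun s => d s ψ) hC fun s => ?_).trans (mul_le_mul_of_nonneg_left (h ψ) hC)
  exact ((T s).le_opNorm _).trans (mul_le_mul_of_nonneg_right (hT s) (norm_nonneg _))

theorem Col.mul_right (h : Col d c) (hc : 0 ≤ c) {T : H →L[ℂ] H} {C : ℝ} (hT : ‖T‖ ≤ C) :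
    Col (fun s => d s * T) (c * C) := by
  intro ψ
  rw [mul_assoc]
  exact (h (T ψ)).trans (mul_le_mul_of_nonneg_left
    ((T.le_opNorm _).trans (mul_le_mul_of_nonneg_right hT (norm_nonneg _))) hc)

theorem Col.smul (h : Col d c) {a : σ → ℂ} {C : ℝ} (hC : 0 ≤ C) (ha : ∀ s, ‖a s‖ ≤ C) :
    Col (fun s => a s • d s) (C * c) := by
  intro ψ
  rw [mul_assoc]
  refine (gres_l2_le (η := fun s => d s ψ) hC fun s => ?_).trans (mul_le_mul_of_nonneg_left (h ψ) hC)
  rw [smul_apply, norm_smul]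
  exact mul_le_mul_of_nonneg_right (ha s) (norm_nonneg _)

theorem col_unit {x : H →L[ℂ] H} (hc : 0 ≤ c) : Col (fun _ : Unit => x) c ↔ ‖x‖ ≤ c := by
  have e : ∀ ψ : H, l2 (fun _ : Unit => x ψ) = ‖x ψ‖ := fun ψ => by simp [l2]
  constructor
  · intro h
    exact x.opNorm_le_bound hc fun ψ => (e ψ).symm.trans_le (h ψ)
  · intro h ψ
    exact (e ψ).trans_le ((x.le_opNorm ψ).trans (mul_le_mul_of_nonneg_right h (norm_nonneg _)))

/-- A column is bounded through its form (take `η s = d s ψ`). -/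
theorem Col.of_inner (hc : 0 ≤ c)
    (h : ∀ (ψ : H) (η : σ → H), ‖∑ s, ⟪η s, d s ψ⟫_ℂ‖ ≤ c * l2 η * ‖ψ‖) : Col d c := by
  intro ψ
  set η : σ → H := fun s => d s ψ with hη
  have h1 := h ψ η
  have h2 : ∑ s, ⟪η s, d s ψ⟫_ℂ = ((l2 η ^ 2 : ℝ) : ℂ) := by
    rw [l2_sq]
    push_cast
    refine Finset.sum_congr rfl fun i _ => ?_
    rw [inner_self_eq_norm_sq_to_K]
    rfl
  rw [h2, Complex.norm_real, Real.norm_of_nonneg (sq_nonneg _)] at h1
  rcases (l2_nonneg η).eq_or_lt with h0 | h0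
  · rw [← h0]; exact mul_nonneg hc (norm_nonneg _)
  · rw [sq, mul_right_comm] at h1
    exact le_of_mul_le_mul_right h1 h0

/-- **Commutator through windows.**  `χ_s (x t - t x) = x b_s + ... ` : with
`a_s = x χ_s - χ_s x`, `b_s = t_s χ_s - χ_s t` one has
`χ_s (x t - t x) = -a_s t - x b_s + b_s x + t_s a_s`, and `‖Z ψ‖ ≤ l2 (χ_s Z ψ)`. -/
theorem norm_comm_le {χ t' : σ → (H →L[ℂ] H)} {x t : H →L[ℂ] H} {a b : ℝ} (ha0 : 0 ≤ a)
    (hb0 : 0 ≤ b) (hχ : ∀ ψ, ‖ψ‖ ≤ l2 fun s => χ s ψ) (ha : Col (fun s => x * χ s - χ s * x) a)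
    (hb : Col (fun s => t' s * χ s - χ s * t) b) (hc : ∀ s, Commute x (t' s))
    (ht' : ∀ s, ‖t' s‖ ≤ ‖t‖) : ‖x * t - t * x‖ ≤ 2 * (a * ‖t‖ + b * ‖x‖) := by
  have h1 := (((ha.mul_right ha0 (le_refl ‖t‖)).neg.sub (hb.mul_left (T := fun _ => x) (norm_nonneg x)
    fun _ => le_rfl)).add (hb.mul_right hb0 (le_refl ‖x‖))).add (ha.mul_left (norm_nonneg t) ht')
  refine ContinuousLinearMap.opNorm_le_bound _ (by positivity) fun ψ => (hχ _).trans ?_
  refine le_trans (le_of_eq ?_) ((h1 ψ).trans (le_of_eq (by ring)))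
  congr 1
  funext s
  have e : χ s * (x * t - t * x) = -((x * χ s - χ s * x) * t) - x * (t' s * χ s - χ s * t) +
      (t' s * χ s - χ s * t) * x + t' s * (x * χ s - χ s * x) := by
    have := (hc s).eq
    simp only [mul_sub, sub_mul, ← mul_assoc, this]
    abel
  exact congrArg (fun T : H →L[ℂ] H => T ψ) e

end Col

section Res
variable {ι : Type*} {E : ι → (H →L[ℂ] H)}

theorem gres_inner {P : H →L[ℂ] H} (hP : IsStarProjection P) (a b : H) : ⟪P a, b⟫_ℂ = ⟪a, P b⟫_ℂ := by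
  rw [← ContinuousLinearMap.adjoint_inner_right, ← ContinuousLinearMap.star_eq_adjoint, hP.isSelfAdjoint.star_eq]

theorem gres_idem {P : H →L[ℂ] H} (hP : IsStarProjection P) (a : H) : P (P a) = P a := by
  rw [← mul_apply_eq_comp, hP.isIdempotentElem.eq]

theorem gres_inner_sq {P : H →L[ℂ] H} (hP : IsStarProjection P) (a : H) :
    ⟪a, P a⟫_ℂ = ((‖P a‖ ^ 2 : ℝ) : ℂ) := by
  rw [← gres_idem hP a, ← gres_inner hP, inner_self_eq_norm_sq_to_K, gres_idem hP]
  simp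

/-- Pythagoras for vectors in the ranges of orthogonal projections. -/
theorem gres_pyth {E : ι → (H →L[ℂ] H)} (hE : ∀ y, IsStarProjection (E y)) (ho : ∀ y z, y ≠ z → E y * E z = 0)
    {v : ι → H} (hv : ∀ y, E y (v y) = v y) (s : Finset ι) : ‖∑ y ∈ s, v y‖ ^ 2 = ∑ y ∈ s, ‖v y‖ ^ 2 := by
  classical
  induction s using Finset.induction_on with
  | empty => simp
  | insert a s ha ih =>
    rw [Finset.sum_insert ha, Finset.sum_insert ha, ← ih, sq, sq, sq]
    refine norm_add_sq_eq_norm_sq_add_norm_sq_of_inner_eq_zero (𝕜 := ℂ) _ _ ?_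
    rw [inner_sum]
    refine Finset.sum_eq_zero fun z hz => ?_
    rw [← hv a, ← hv z, gres_inner (hE a), ← mul_apply_eq_comp,
      ho a z (fun e => ha (e ▸ hz))]
    simp

theorem Res.ext (h : Res E) {Z Z' : H →L[ℂ] H} (hZ : ∀ y, Z * E y = Z' * E y) : Z = Z' := by
  ext ψ
  have h1 := Z.hasSum (h.hasSum ψ)
  have h2 := Z'.hasSum (h.hasSum ψ)
  refine h1.unique ?_
  convert h2 using 2 with y
  exact congrArg (fun T : H →L[ℂ] H => T ψ) (hZ y)

/-- `⟪ψ, E y ψ⟫ = ‖E y ψ‖²` and `innerSL` of `h.hasSum`. -/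
theorem Res.hasSum_sq (h : Res E) (ψ : H) : HasSum (fun y => ‖E y ψ‖ ^ 2) (‖ψ‖ ^ 2) := by
  have h1 := (innerSL ℂ ψ).hasSum (h.hasSum ψ)
  simp only [innerSL_apply_apply, gres_inner_sq (h.proj _)] at h1
  have h2 := Complex.reCLM.hasSum h1
  simp only [Complex.reCLM_apply, Complex.ofReal_re] at h2
  rwa [← RCLike.re_to_complex, inner_self_eq_norm_sq] at h2

theorem Res.tendsto {q : ℕ → (H →L[ℂ] H)} (h : Res q) (ψ : H) :
    Filter.Tendsto (fun n => ‖q n ψ‖) Filter.atTop (nhds 0) := by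
  simpa using (h.hasSum ψ).summable.tendsto_atTop_zero.norm

/-- `∑_s ‖d_s ψ‖² = ∑_s ∑_y ‖E y d_s ψ‖² = ∑_y ∑_s ‖d_s E y ψ‖² ≤ c² ∑_y ‖E y ψ‖²`. -/
theorem Res.col (h : Res E) {σ : Type*} [Fintype σ] {d : σ → (H →L[ℂ] H)} {c : ℝ} (hc : 0 ≤ c)
    (hd : ∀ s y, Commute (d s) (E y)) (hb : ∀ y, Col (fun s => d s * E y) c) : Col d c := by
  intro ψ
  refine l2_le_of_sq_le (mul_nonneg hc (norm_nonneg _)) ?_
  have h1 : HasSum (fun y => ∑ s, ‖E y (d s ψ)‖ ^ 2) (∑ s, ‖d s ψ‖ ^ 2) :=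
    hasSum_sum fun s _ => h.hasSum_sq (d s ψ)
  have h2 := (h.hasSum_sq ψ).mul_left (c ^ 2)
  rw [mul_pow]
  refine hasSum_le (fun y => ?_) h1 h2
  have h3 := hb y (E y ψ)
  have h4 := pow_le_pow_left₀ (l2_nonneg _) h3 2
  rw [l2_sq, mul_pow] at h4
  refine le_trans (le_of_eq (Finset.sum_congr rfl fun s _ => ?_)) h4
  rw [mul_apply_eq_comp, gres_idem (h.proj y), ← mul_apply_eq_comp,
    ← mul_apply_eq_comp (d s), (hd s y).eq]

theorem Res.norm_le (h : Res E) {Z : H →L[ℂ] H} {c : ℝ} (hc : 0 ≤ c)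
    (hZ : ∀ y, Commute Z (E y)) (hb : ∀ y, ‖Z * E y‖ ≤ c) : ‖Z‖ ≤ c := by
  exact (col_unit hc).1 (h.col hc (fun _ y => hZ y) fun y => (col_unit hc).2 (hb y))

/-- **Block diagonal operators.**  `T ψ = ∑' y, Z y (E y ψ)`; the terms are orthogonal
(`Z y E y = E y Z y E y`), so finite partial sums have norm² `∑ ‖Z y E y ψ‖² ≤ c² ∑ ‖E y ψ‖²`, which
gives summability (`summable_iff_vanishing_norm`/Cauchy criterion) and the bound. -/
theorem Res.exists_diag (h : Res E) {Z : ι → (H →L[ℂ] H)} {c : ℝ} (hc : ∀ y, ‖Z y‖ ≤ c)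
    (hZ : ∀ y, Commute (Z y) (E y)) : ∃ T : H →L[ℂ] H, ∀ y, T * E y = Z y * E y := by
  classical
  set M := |c| + 1 with hM
  have hM0 : 0 < M := by positivity
  have hv : ∀ ψ y, E y (Z y (E y ψ)) = Z y (E y ψ) := fun ψ y => by
    rw [← mul_apply_eq_comp, ← (hZ y).eq, mul_apply_eq_comp, gres_idem (h.proj y)]
  have hb : ∀ (ψ : H) (s : Finset ι), ‖∑ y ∈ s, Z y (E y ψ)‖ ^ 2 ≤ M ^ 2 * ∑ y ∈ s, ‖E y ψ‖ ^ 2 := by
    intro ψ s
    rw [gres_pyth h.proj h.orth (hv ψ), Finset.mul_sum]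
    refine Finset.sum_le_sum fun y _ => ?_
    rw [← mul_pow]
    gcongr
    refine ((Z y).le_opNorm _).trans (mul_le_mul_of_nonneg_right ?_ (norm_nonneg _))
    have := le_abs_self c
    linarith [hc y]
  have hs : ∀ ψ, Summable fun y => Z y (E y ψ) := by
    intro ψ
    rw [summable_iff_vanishing_norm]
    intro ε hε
    obtain ⟨s, hs⟩ := summable_iff_vanishing_norm.1 (h.hasSum_sq ψ).summable ((ε / M) ^ 2) (by positivity)
    refine ⟨s, fun t ht => ?_⟩
    have a := (le_abs_self _).trans_lt (hs t ht)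
    have b := (hb ψ t).trans_lt (mul_lt_mul_of_pos_left a (by positivity))
    rw [← mul_pow, mul_div_cancel₀ _ hM0.ne'] at b
    exact lt_of_pow_lt_pow_left₀ 2 hε.le b
  let T0 : H →ₗ[ℂ] H :=
    { toFun := fun ψ => ∑' y, Z y (E y ψ)
      map_add' := fun a b => by
        simp only [map_add]
        exact (hs a).tsum_add (hs b)
      map_smul' := fun a b => by
        simp only [map_smul, RingHom.id_apply]
        exact (hs b).tsum_const_smul a }
  have hT : ∀ ψ, ‖T0 ψ‖ ≤ M * ‖ψ‖ := by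
    intro ψ
    refine le_of_tendsto' (hs ψ).hasSum.norm fun s => ?_
    refine le_of_pow_le_pow_left₀ two_ne_zero (by positivity) ((hb ψ s).trans ?_)
    rw [mul_pow]
    exact mul_le_mul_of_nonneg_left (sum_le_hasSum s (fun _ _ => by positivity) (h.hasSum_sq ψ)) (by positivity)
  refine ⟨T0.mkContinuous M hT, fun y => ?_⟩
  ext ψ
  change ∑' z, Z z (E z (E y ψ)) = Z y (E y ψ)
  rw [tsum_eq_single y, gres_idem (h.proj y)]
  intro z hz
  rw [← mul_apply_eq_comp (E z), h.orth z y hz]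
  simp

end Res

/-- Bessel's inequality for orthogonal projections. -/
theorem sum_sq_proj_le {κ : Type*} [Fintype κ] {Q : κ → (H →L[ℂ] H)}
    (hQ : ∀ i, IsStarProjection (Q i)) (hQQ : ∀ i j, i ≠ j → Q i * Q j = 0) (ψ : H) :
    ∑ i, ‖Q i ψ‖ ^ 2 ≤ ‖ψ‖ ^ 2 := by
  have h1 := gres_pyth hQ hQQ (fun i => gres_idem (hQ i) ψ) Finset.univ
  have h2 : ⟪ψ, ∑ i, Q i ψ⟫_ℂ = ((∑ i, ‖Q i ψ‖ ^ 2 : ℝ) : ℂ) := by
    rw [inner_sum, Complex.ofReal_sum]
    exact Finset.sum_congr rfl fun i _ => gres_inner_sq (hQ i) ψ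
  have h3 := norm_inner_le_norm (𝕜 := ℂ) ψ (∑ i, Q i ψ)
  rw [h2, ← h1, Complex.norm_real, Real.norm_of_nonneg (sq_nonneg _)] at h3
  rw [← h1]
  nlinarith [sq_nonneg (‖ψ‖ - ‖∑ i, Q i ψ‖)]

/-- **Ping-pong bound.**  `Y i = Q i Y i + (1 - Q i) Y i Q i`;
`|⟪η, ∑ Q i Y i ψ⟫| ≤ ∑ ‖Q i η‖ c ‖ψ‖ ≤ √|κ| c ‖η‖ ‖ψ‖` and
`‖∑ (1 - Q i) Y i Q i ψ‖ ≤ c ∑ ‖Q i ψ‖ ≤ c √|κ| ‖ψ‖`. -/
theorem orth_sum {κ : Type*} [Fintype κ] {Q Y : κ → (H →L[ℂ] H)}
    (hQ : ∀ i, IsStarProjection (Q i)) (hQQ : ∀ i j, i ≠ j → Q i * Q j = 0) {c : ℝ} (hc : 0 ≤ c)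
    (hY : ∀ i, ‖Y i‖ ≤ c) (h0 : ∀ i, (1 - Q i) * Y i * (1 - Q i) = 0) :
    ‖∑ i, Y i‖ ≤ 2 * c * √(Fintype.card κ) := by
  refine ContinuousLinearMap.opNorm_le_bound _ (by positivity) fun ψ => ?_
  have hk : (√(Fintype.card κ : ℝ)) ^ 2 = Fintype.card κ := Real.sq_sqrt (Nat.cast_nonneg _)
  have e : ∀ i, Y i ψ = Q i (Y i ψ) + (1 - Q i) (Y i (Q i ψ)) := by
    intro i
    have a : Y i = Q i * Y i + (1 - Q i) * Y i * Q i := by
      have := h0 i
      rw [mul_sub, mul_one, sub_eq_zero] at this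
      rw [← this, sub_mul, one_mul]; abel
    conv_lhs => rw [a]
    rfl
  have h1 : ‖∑ i, Q i (Y i ψ)‖ ≤ c * √(Fintype.card κ) * ‖ψ‖ := by
    refine le_of_pow_le_pow_left₀ two_ne_zero (by positivity) ?_
    rw [gres_pyth hQ hQQ (fun i => gres_idem (hQ i) _) Finset.univ]
    have : ∀ i ∈ Finset.univ, ‖Q i (Y i ψ)‖ ^ 2 ≤ (c * ‖ψ‖) ^ 2 := by
      intro i _
      gcongr
      refine ((Q i).le_opNorm _).trans ((mul_le_of_le_one_left (norm_nonneg _) (hQ i).norm_le).trans ?_)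
      exact ((Y i).le_opNorm _).trans (mul_le_mul_of_nonneg_right (hY i) (norm_nonneg _))
    refine (Finset.sum_le_card_nsmul _ _ _ this).trans (le_of_eq ?_)
    rw [nsmul_eq_mul, Finset.card_univ, mul_pow, mul_pow, mul_pow, hk]; ring
  have h2 : ‖∑ i, (1 - Q i) (Y i (Q i ψ))‖ ≤ c * √(Fintype.card κ) * ‖ψ‖ := by
    have a : ∀ i ∈ Finset.univ, ‖(1 - Q i) (Y i (Q i ψ))‖ ≤ c * ‖Q i ψ‖ := by
      intro i _
      refine ((1 - Q i).le_opNorm _).trans
        ((mul_le_of_le_one_left (norm_nonneg _) (hQ i).one_sub.norm_le).trans ?_)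
      exact ((Y i).le_opNorm _).trans (mul_le_mul_of_nonneg_right (hY i) (norm_nonneg _))
    refine (norm_sum_le _ _).trans ((Finset.sum_le_sum a).trans ?_)
    rw [← Finset.mul_sum, mul_assoc]
    refine mul_le_mul_of_nonneg_left ?_ hc
    refine le_of_pow_le_pow_left₀ two_ne_zero (by positivity) ?_
    refine sq_sum_le_card_mul_sum_sq.trans ?_
    rw [mul_pow, hk, Finset.card_univ]
    exact mul_le_mul_of_nonneg_left (sum_sq_proj_le hQ hQQ ψ) (Nat.cast_nonneg _)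
  rw [sum_apply, Finset.sum_congr rfl fun i _ => e i, Finset.sum_add_distrib]
  refine (norm_add_le _ _).trans ?_
  linarith

/-- Transport of commutation: if `t` commutes with everything that commutes with all
`T a T*`, and `z` commutes with all `T' a T'*`, then `z` commutes with `T' T* t T T'*`
(`T T'* z T' T*` commutes with all `T a T*`). -/
theorem commute_transport {T T' t z : H →L[ℂ] H} (hT : T ∈ unitary (H →L[ℂ] H))
    (hT' : T' ∈ unitary (H →L[ℂ] H)) {A : Set (H →L[ℂ] H)}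
    (ht : ∀ w, (∀ a ∈ A, Commute w (T * a * star T)) → Commute w t)
    (hz : ∀ a ∈ A, Commute z (T' * a * star T')) :
    Commute z (T' * (star T * t * T) * star T') := by
  have a1 : star T * T = 1 := (Unitary.mem_iff.1 hT).1
  have a2 : T * star T = 1 := (Unitary.mem_iff.1 hT).2
  have b1 : star T' * T' = 1 := (Unitary.mem_iff.1 hT').1
  have b2 : T' * star T' = 1 := (Unitary.mem_iff.1 hT').2
  have a1' : ∀ x, star T * (T * x) = x := fun x => by rw [← mul_assoc, a1, one_mul]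
  have b1' : ∀ x, star T' * (T' * x) = x := fun x => by rw [← mul_assoc, b1, one_mul]
  have b2' : ∀ x, T' * (star T' * x) = x := fun x => by rw [← mul_assoc, b2, one_mul]
  have h1 := ht (T * (star T' * z * T') * star T) fun a ha => by
    have := congrArg (fun x => T * (star T' * x * T') * star T) (hz a ha).eq
    simp only [mul_assoc, b1', b1, mul_one] at this
    unfold Commute SemiconjBy
    simp only [mul_assoc, a1']
    exact this
  have := congrArg (fun x => T' * (star T * x * T) * star T') h1.eq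
  simp only [mul_assoc, a1', b2', b2, mul_one] at this
  unfold Commute SemiconjBy
  simp only [mul_assoc]
  exact this

end Crest.Agent.R78.G
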