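import Crest.Agent.R78.Band

/-! # R78: the L² comparison of two modular groups: statement (complete) -/

set_option autoImplicit false
set_option linter.unusedSectionVars false
open Filter Topology
open scoped InnerProductSpace

namespace Crest.Agent.R78

universe u
variable {H : Type u} [NormedAddCommGroup H] [InnerProductSpace ℂ H] [CompleteSpace H]

open MeasureTheory

/-- Lattice form. -/
def LatLe {M N : VonNeumannAlgebra H} {ξ : H} (τ : Tomita M ξ) (σ : Tomita N ξ) (r κ : ℝ) :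
    Prop :=
  ∀ z, Ctr M z → Ctr N z → IsStarProjection z → ∀ (ι : Type) [Fintype ι] (x t : ι → Op H),
    (∀ i, x i ∈ M) → (∀ i, t i ∈ M.commutant) → (∀ i, x i ξ = t i ξ) → Col x 4 → Col t 4 →
      ∀ (θ : ℝ) (S : Finset ℤ), ∑ n ∈ S, ∑ i, ‖σ.U r (z (τ.band (x i) (θ + n) ξ)) -
        τ.U r (z (τ.band (x i) (θ + n) ξ))‖ ^ 2 ≤ κ * ‖z ξ‖ ^ 2

/-- Integrated form. -/
def L2Le {M N : VonNeumannAlgebra H} {ξ : H} (τ : Tomita M ξ) (σ : Tomita N ξ) (r κ : ℝ) :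
    Prop :=
  ∀ z, Ctr M z → Ctr N z → IsStarProjection z → ∀ (ι : Type) [Fintype ι] (x t : ι → Op H),
    (∀ i, x i ∈ M) → (∀ i, t i ∈ M.commutant) → (∀ i, x i ξ = t i ξ) → Col x 4 → Col t 4 →
      ∫ s, Real.exp (-2 * s ^ 2) * ∑ i, ‖σ.U r (τ.U s (z (x i ξ))) -
        τ.U (s + r) (z (x i ξ))‖ ^ 2 ≤ κ * ‖z ξ‖ ^ 2

end Crest.Agent.R78
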