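import Crest.Agent.R78.L2Def

/-! # R78: from the lattice estimate to the integral (task `L2Int`) -/

set_option autoImplicit false
set_option linter.unusedSectionVars false
open Filter Topology
open scoped InnerProductSpace

namespace Crest.Agent.R78

universe u
variable {H : Type u} [NormedAddCommGroup H] [InnerProductSpace ℂ H] [CompleteSpace H]

open MeasureTheory in
theorem L2Int_ft (D : Op H) {G : ℝ → H} (hG : Integrable G) (w : ℝ) :
    ft (fun s => D (G s)) w = D (ft G w) := by
  have h1 : Integrable fun s : ℝ => Complex.exp (-(2 * Real.pi * Complex.I * w * s)) • G s := by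
    refine Integrable.mono' hG.norm
      ((by fun_prop : Continuous fun s : ℝ =>
        Complex.exp (-(2 * Real.pi * Complex.I * w * s))).aestronglyMeasurable.smul hG.1)
      (ae_of_all _ fun s => ?_)
    rw [norm_smul, ← conj_exp_char, Complex.norm_conj, norm_exp_char, one_mul]
  rw [ft, ft, ← D.integral_comp_comm h1]
  simp only [map_smul]

open MeasureTheory in
/-- `F i s = exp (-s²) • (V r U s - U (s + r)) z x i ξ = D (exp (-s²) • U s (x i ξ))` with
`D = (V r - U r) z` (`U_ctr`), so `ft (F i) w = D (band (x i) w ξ)` is integrable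
(`integrable_band`); `plancherel`, `integral_le_of_lattice` for `Φ w = ∑ i, ‖ft (F i) w‖²`. -/
theorem LatLe.l2Le {M N : VonNeumannAlgebra H} {ξ : H} {τ : Tomita M ξ} {σ : Tomita N ξ}
    {r κ : ℝ} (h : LatLe τ σ r κ) : L2Le τ σ r κ := by
  intro z hzM hzN hz ι _ x t hx ht hxt cx ct
  have h1 := h z hzM hzN hz ι x t hx ht hxt cx ct
  let D : Op H := (σ.U r - τ.U r) * z
  let G : ι → ℝ → H := fun i s => (Real.exp (-s ^ 2) : ℂ) • τ.U s (x i ξ)
  have hGc : ∀ i, Continuous (G i) := fun i => by
    have := τ.U_cont (x i ξ)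
    simp only [G]
    fun_prop
  have hGi : ∀ i, Integrable (G i) := fun i => by
    have := integrable_gauss_mul (τ.U_cont (x i ξ)) (C := ‖x i ξ‖) fun s => (τ.norm_U_apply s _).le
    simpa only [G, Complex.coe_smul] using this
  have hft : ∀ i, ft (fun s => D (G i s)) = fun w => D (τ.band (x i) w ξ) := fun i => by
    funext w
    rw [L2Int_ft D (hGi i), τ.band_xi]
  have hP := fun i => plancherel (F := fun s => D (G i s)) (D.continuous.comp (hGc i))
    (D.integrable_comp (hGi i))
    (by rw [hft]; exact D.integrable_comp (τ.integrable_band (hx i) (ht i) (hxt i)))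
  have e : ∀ s : ℝ, Real.exp (-2 * s ^ 2) * ∑ i, ‖σ.U r (τ.U s (z (x i ξ))) -
      τ.U (s + r) (z (x i ξ))‖ ^ 2 = ∑ i, ‖D (G i s)‖ ^ 2 := fun s => by
    rw [Finset.mul_sum]
    refine Finset.sum_congr rfl fun i _ => ?_
    have e1 : z (τ.U s (x i ξ)) = τ.U s (z (x i ξ)) := congrArg (fun X : Op H => X (x i ξ))
      (τ.U_ctr s z hzM)
    have e2 : D (τ.U s (x i ξ)) = σ.U r (τ.U s (z (x i ξ))) - τ.U (s + r) (z (x i ξ)) := by
      rw [add_comm, τ.U_add, mul_apply_eq_comp (τ.U r), ← e1]; rfl
    rw [map_smul, e2, norm_smul, mul_pow, Complex.norm_real, Real.norm_eq_abs, sq_abs,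
      ← Real.exp_nat_mul]
    congr 2
    push_cast
    ring
  simp only [e]
  rw [integral_finsetSum _ fun i _ => (hP i).1, Finset.sum_congr rfl fun i _ => (hP i).2.2,
    ← integral_finsetSum _ fun i _ => (hP i).2.1]
  refine integral_le_of_lattice (continuous_finsetSum _ fun i _ =>
    (continuous_ft (D.integrable_comp (hGi i))).norm.pow 2)
    (integrable_finsetSum _ fun i _ => (hP i).2.1) fun θ S => ?_
  simp only [hft]
  exact h1 θ S

open MeasureTheory in
/-- Otherwise `g n s = min (avg n s) (2 c) → 2 c` pointwise (eventually equal), so by dominated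
convergence `∫ exp (-2 s²) g n s → 2 c √(π/2) > c`, while each integral is `≤ c`. -/
theorem exists_pick {D : ℕ → ℝ → ℝ} (hc : ∀ k, Continuous (D k)) {C c : ℝ} (h0 : ∀ k s, 0 ≤ D k s)
    (h1 : ∀ k s, D k s ≤ C) (hc0 : 0 < c) (h : ∀ k, ∫ s, Real.exp (-2 * s ^ 2) * D k s ≤ c) :
    ∃ s, ∃ᶠ n : ℕ in atTop, ((n : ℝ) + 1)⁻¹ * ∑ k ∈ Finset.range (n + 1), D k s ≤ 2 * c := by
  by_contra hcon
  simp only [not_exists, not_frequently, not_le] at hcon
  have hg : Integrable fun s : ℝ => Real.exp (-2 * s ^ 2) :=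
    integrable_exp_neg_mul_sq (b := 2) two_pos
  have hD : ∀ k, Integrable fun s : ℝ => Real.exp (-2 * s ^ 2) * D k s := fun k =>
    hg.mul_bdd (c := C) (hc k).aestronglyMeasurable (ae_of_all _ fun s => by
      rw [Real.norm_eq_abs, abs_of_nonneg (h0 k s)]; exact h1 k s)
  let a : ℕ → ℝ → ℝ := fun n s => ((n : ℝ) + 1)⁻¹ * ∑ k ∈ Finset.range (n + 1), D k s
  have ha0 : ∀ n s, 0 ≤ a n s := fun n s =>
    mul_nonneg (by positivity) (Finset.sum_nonneg fun k _ => h0 k s)
  have hac : ∀ n, Continuous (a n) := fun n =>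
    continuous_const.mul (continuous_finsetSum _ fun k _ => hc k)
  have hb : ∀ n s, ‖Real.exp (-2 * s ^ 2) * min (a n s) (2 * c)‖ ≤
      Real.exp (-2 * s ^ 2) * (2 * c) := fun n s => by
    rw [Real.norm_eq_abs, abs_of_nonneg (mul_nonneg (Real.exp_pos _).le
      (le_min (ha0 n s) (by positivity)))]
    exact mul_le_mul_of_nonneg_left (min_le_right _ _) (Real.exp_pos _).le
  have hm : ∀ n, AEStronglyMeasurable (fun s => Real.exp (-2 * s ^ 2) * min (a n s) (2 * c))
      volume := fun n => by
    have := hac n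
    exact (by fun_prop : Continuous _).aestronglyMeasurable
  have hT := tendsto_integral_of_dominated_convergence (μ := volume)
    (F := fun n s => Real.exp (-2 * s ^ 2) * min (a n s) (2 * c))
    (f := fun s => Real.exp (-2 * s ^ 2) * (2 * c)) _ hm (hg.mul_const (2 * c))
    (fun n => ae_of_all _ (hb n)) (ae_of_all _ fun s => tendsto_const_nhds.congr' (by
      filter_upwards [hcon s] with n hn
      rw [min_eq_right hn.le]))
  have hle : ∀ n, ∫ s, Real.exp (-2 * s ^ 2) * min (a n s) (2 * c) ≤ c := fun n => by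
    have e : ∀ s, Real.exp (-2 * s ^ 2) * a n s = ((n : ℝ) + 1)⁻¹ *
        ∑ k ∈ Finset.range (n + 1), Real.exp (-2 * s ^ 2) * D k s := fun s => by
      rw [← Finset.mul_sum]; ring
    have hi : Integrable fun s => ((n : ℝ) + 1)⁻¹ *
        ∑ k ∈ Finset.range (n + 1), Real.exp (-2 * s ^ 2) * D k s :=
      (integrable_finsetSum _ fun k _ => hD k).const_mul _
    refine (integral_mono ((hg.mul_const (2 * c)).mono' (hm n) (ae_of_all _ (hb n))) hi
      fun s => ?_).trans ?_
    · simp only [← e]
      exact mul_le_mul_of_nonneg_left (min_le_left _ _) (Real.exp_pos _).le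
    · rw [integral_const_mul, integral_finsetSum _ fun k _ => hD k,
        inv_mul_le_iff₀ (by positivity)]
      simpa using Finset.sum_le_card_nsmul _ _ c fun k (_ : k ∈ Finset.range (n + 1)) => h k
  have h2 := le_of_tendsto' hT hle
  rw [integral_mul_const, integral_gaussian] at h2
  have h3 : 1 ≤ √(Real.pi / 2) := by
    rw [Real.one_le_sqrt]; linarith [Real.pi_gt_three]
  nlinarith

end Crest.Agent.R78
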