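import Crest.Agent.R78.Harm

/-! # R78: separation of phases (task `PhaseA`) -/

set_option autoImplicit false
set_option linter.unusedSectionVars false
open Filter Topology
open scoped InnerProductSpace

namespace Crest.Agent.R78

universe u
variable {H : Type u} [NormedAddCommGroup H] [InnerProductSpace ℂ H] [CompleteSpace H]

open Matrix

/-- The quadratic form of a `2 × 2` matrix of operators. -/
noncomputable def qf (T : Fin 2 × Fin 2 → Fin 2 × Fin 2 → Op H) (ζ : H)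
    (g : Matrix (Fin 2) (Fin 2) (Op H)) : ℂ :=
  ∑ i : Fin 2 × Fin 2, ∑ k : Fin 2 × Fin 2, ⟪g i.1 i.2 ζ, T i k (g k.1 k.2 ζ)⟫_ℂ

/-- The Hadamard matrix. -/
noncomputable def had (H : Type u) [NormedAddCommGroup H] [InnerProductSpace ℂ H] :
    Matrix (Fin 2) (Fin 2) (Op H) :=
  (((√2)⁻¹ : ℝ) : ℂ) • !![1, 1; 1, -1]

/-- The phase matrix. -/
noncomputable def pha (H : Type u) [NormedAddCommGroup H] [InnerProductSpace ℂ H] :
    Matrix (Fin 2) (Fin 2) (Op H) := !![1, 0; 0, Complex.I • 1]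

/-- The generators. -/
noncomputable def gen {B : Type} (e : B → Op H) : (B ⊕ B) ⊕ Bool → Matrix (Fin 2) (Fin 2) (Op H)
  | .inl (.inl b) => !![e b, 0; 0, 1]
  | .inl (.inr b) => !![1, 0; 0, e b]
  | .inr true => had H
  | .inr false => pha H

namespace PhaseA

theorem s_sq : (((√2)⁻¹ : ℝ) : ℂ) * (((√2)⁻¹ : ℝ) : ℂ) = 1 / 2 := by
  rw [← Complex.ofReal_mul, ← mul_inv, Real.mul_self_sqrt zero_le_two]
  norm_num

theorem diag_mul {R : Type*} [Ring R] (x y x' y' : R) :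
    !![x, 0; 0, y] * !![x', 0; 0, y'] = !![x * x', 0; 0, y * y'] := by
  simp

theorem prod_eq {R : Type*} [Ring R] [Algebra ℂ R] (α β γ : ℂ) (z₁ z₂ x₁ x₂ y₁ y₂ : R) :
    (!![1, 0; 0, α • 1] * !![z₁, 0; 0, z₂]) * !![1, 1; 1, -1] *
      (!![x₁, 0; 0, x₂] * !![1, 0; 0, γ • 1]) * !![1, 1; 1, -1] *
      (!![y₁, 0; 0, y₂] * !![1, 0; 0, β • 1]) =
    !![z₁ * x₁ * y₁ + γ • (z₁ * x₂ * y₁), β • (z₁ * x₁ * y₂ - γ • (z₁ * x₂ * y₂));
      α • (z₂ * x₁ * y₁ - γ • (z₂ * x₂ * y₁)), (α * β) • (z₂ * x₁ * y₂ + γ • (z₂ * x₂ * y₂))] := by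
  simp only [Matrix.mul_fin_two, mul_one, one_mul, mul_zero, zero_mul, add_zero, zero_add,
    mul_neg, neg_mul, smul_mul_assoc, mul_smul_comm, add_mul, smul_add, smul_neg,
    sub_eq_add_neg, smul_smul]
  ext i j : 1
  fin_cases i <;> fin_cases j <;> simp <;> module

theorem signs {T : Fin 2 × Fin 2 → Fin 2 × Fin 2 → Op H} {ζ : H} {c : ℂ} {a b a' b' : Op H}
    (h : ∀ α β : ℂ, (α = 1 ∨ α = -1) → (β = 1 ∨ β = -1) →
      qf T ζ ((1 / 2 : ℂ) • !![a, β • b; α • a', (α * β) • b']) = c) :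
    ⟪a ζ, T (0, 0) (0, 0) (a ζ)⟫_ℂ + ⟪b ζ, T (0, 1) (0, 1) (b ζ)⟫_ℂ +
      ⟪a' ζ, T (1, 0) (1, 0) (a' ζ)⟫_ℂ + ⟪b' ζ, T (1, 1) (1, 1) (b' ζ)⟫_ℂ = 4 * c := by
  have h1 := h 1 1 (Or.inl rfl) (Or.inl rfl)
  have h2 := h 1 (-1) (Or.inl rfl) (Or.inr rfl)
  have h3 := h (-1) 1 (Or.inr rfl) (Or.inl rfl)
  have h4 := h (-1) (-1) (Or.inr rfl) (Or.inr rfl)
  simp only [qf, Fintype.sum_prod_type, Fin.sum_univ_two, Matrix.smul_apply, Matrix.of_apply,
    Matrix.cons_val', Matrix.cons_val_zero, Matrix.cons_val_one, Matrix.cons_val_fin_one,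
    _root_.smul_apply, map_smul, inner_smul_left, inner_smul_right, map_mul, map_neg, map_one,
    map_div₀, map_ofNat] at h1 h2 h3 h4
  linear_combination h1 + h2 + h3 + h4

end PhaseA

theorem diag_mem {B : Type} (e : B → Op H) {x y : Op H}
    (hx : x ∈ Submonoid.closure (Set.range e)) (hy : y ∈ Submonoid.closure (Set.range e)) :
    !![x, 0; 0, y] ∈ Submonoid.closure (Set.range (gen e)) := by
  have h1 : !![x, 0; 0, 1] ∈ Submonoid.closure (Set.range (gen e)) := by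
    induction hx using Submonoid.closure_induction with
    | mem x hx =>
      obtain ⟨b, rfl⟩ := hx
      exact Submonoid.subset_closure ⟨.inl (.inl b), rfl⟩
    | one => rw [← Matrix.one_fin_two]; exact one_mem _
    | mul x x' _ _ h h' => simpa only [PhaseA.diag_mul, mul_one] using mul_mem h h'
  have h2 : !![1, 0; 0, y] ∈ Submonoid.closure (Set.range (gen e)) := by
    induction hy using Submonoid.closure_induction with
    | mem x hx =>
      obtain ⟨b, rfl⟩ := hx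
      exact Submonoid.subset_closure ⟨.inl (.inr b), rfl⟩
    | one => rw [← Matrix.one_fin_two]; exact one_mem _
    | mul x x' _ _ h h' => simpa only [PhaseA.diag_mul, mul_one] using mul_mem h h'
  simpa only [PhaseA.diag_mul, mul_one, one_mul] using mul_mem h1 h2

theorem PhaseA.ph_mem {B : Type} (e : B → Op H) {γ : ℂ}
    (hγ : (γ = 1 ∨ γ = -1) ∨ γ = Complex.I ∨ γ = -Complex.I) :
    !![1, 0; 0, γ • (1 : Op H)] ∈ Submonoid.closure (Set.range (gen e)) := by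
  have h1 : !![1, 0; 0, Complex.I • (1 : Op H)] ∈ Submonoid.closure (Set.range (gen e)) :=
    Submonoid.subset_closure ⟨.inr false, rfl⟩
  have h2 : !![1, 0; 0, (-1 : ℂ) • (1 : Op H)] ∈ Submonoid.closure (Set.range (gen e)) := by
    simpa only [PhaseA.diag_mul, mul_one, smul_mul_smul_comm, Complex.I_mul_I] using mul_mem h1 h1
  rcases hγ with (rfl | rfl) | rfl | rfl
  · rw [one_smul, ← Matrix.one_fin_two]; exact one_mem _
  · exact h2
  · exact h1
  · simpa only [PhaseA.diag_mul, mul_one, smul_mul_smul_comm, neg_one_mul] using mul_mem h2 h1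

theorem PhaseA.four {B : Type} (e : B → Op H) {T : Fin 2 × Fin 2 → Fin 2 × Fin 2 → Op H} {ζ : H}
    {c : ℂ} (h : ∀ g ∈ Submonoid.closure (Set.range (gen e)), qf T ζ g = c)
    {z₁ z₂ x₁ x₂ y₁ y₂ : Op H} (hz₁ : z₁ ∈ Submonoid.closure (Set.range e))
    (hz₂ : z₂ ∈ Submonoid.closure (Set.range e)) (hx₁ : x₁ ∈ Submonoid.closure (Set.range e))
    (hx₂ : x₂ ∈ Submonoid.closure (Set.range e)) (hy₁ : y₁ ∈ Submonoid.closure (Set.range e))
    (hy₂ : y₂ ∈ Submonoid.closure (Set.range e)) :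
    ⟪(z₁ * x₁ * y₁) ζ, T (0, 0) (0, 0) ((z₁ * x₂ * y₁) ζ)⟫_ℂ -
      ⟪(z₁ * x₁ * y₂) ζ, T (0, 1) (0, 1) ((z₁ * x₂ * y₂) ζ)⟫_ℂ -
      ⟪(z₂ * x₁ * y₁) ζ, T (1, 0) (1, 0) ((z₂ * x₂ * y₁) ζ)⟫_ℂ +
      ⟪(z₂ * x₁ * y₂) ζ, T (1, 1) (1, 1) ((z₂ * x₂ * y₂) ζ)⟫_ℂ = 0 := by
  have hh : had H ∈ Submonoid.closure (Set.range (gen e)) :=
    Submonoid.subset_closure ⟨.inr true, rfl⟩
  have key := fun (γ : ℂ) (hγ : (γ = 1 ∨ γ = -1) ∨ γ = Complex.I ∨ γ = -Complex.I) =>
    PhaseA.signs (T := T) (ζ := ζ) (c := c) (a := z₁ * x₁ * y₁ + γ • (z₁ * x₂ * y₁))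
      (b := z₁ * x₁ * y₂ - γ • (z₁ * x₂ * y₂)) (a' := z₂ * x₁ * y₁ - γ • (z₂ * x₂ * y₁))
      (b' := z₂ * x₁ * y₂ + γ • (z₂ * x₂ * y₂)) fun α β hα hβ => by
      refine h _ ?_
      have := mul_mem (mul_mem (mul_mem (mul_mem (mul_mem (PhaseA.ph_mem e (Or.inl hα))
        (diag_mem e hz₁ hz₂)) hh) (mul_mem (diag_mem e hx₁ hx₂) (PhaseA.ph_mem e hγ))) hh)
        (mul_mem (diag_mem e hy₁ hy₂) (PhaseA.ph_mem e (Or.inl hβ)))
      simp only [had, smul_mul_assoc, mul_smul_comm, smul_smul, PhaseA.s_sq] at this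
      rwa [PhaseA.prod_eq] at this
  have h1 := key 1 (Or.inl (Or.inl rfl))
  have h2 := key (-1) (Or.inl (Or.inr rfl))
  have h3 := key Complex.I (Or.inr (Or.inl rfl))
  have h4 := key (-Complex.I) (Or.inr (Or.inr rfl))
  simp only [_root_.add_apply, _root_.sub_apply, _root_.smul_apply, map_add, map_sub, map_smul,
    inner_add_left, inner_add_right, inner_sub_left, inner_sub_right, inner_smul_left,
    inner_smul_right, map_neg, map_one, Complex.conj_I] at h1 h2 h3 h4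
  refine mul_left_cancel₀ (mul_ne_zero (show (4 : ℂ) ≠ 0 by norm_num) Complex.I_ne_zero) ?_
  linear_combination Complex.I * (h1 - h2) + (h3 - h4)

/-- For `α, β ∈ {1, -1}`, `γ ∈ {1, i, -1, -i}` the matrix
`g = diag (1, α) diag (z₁, z₂) had diag (x₁, x₂) diag (1, γ) had diag (y₁, y₂) diag (1, β)` lies in
the monoid (`diag (1, iᵏ) = phaᵏ`) and `g a b = α_a β_b z_a (x₁ + (-1)^(a+b) γ x₂) y_b / 2`.
Summing `conj γ * qf g = conj γ * c` over the 16 choices gives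
`ψ₀₀ (z₁, y₁) - ψ₀₁ (z₁, y₂) - ψ₁₀ (z₂, y₁) + ψ₁₁ (z₂, y₂) = 0` for
`ψ_ab (z, y) = ⟪z x₁ y ζ, T (a,b) (a,b) z x₂ y ζ⟫`.  Take second differences in `(z₁, y₁)` and in
`(z₂, y₁)`. -/
theorem sec_of_qf {B : Type} (e : B → Op H) {T : Fin 2 × Fin 2 → Fin 2 × Fin 2 → Op H} {ζ : H}
    {c : ℂ} (h : ∀ g ∈ Submonoid.closure (Set.range (gen e)), qf T ζ g = c) :
    Sec (Submonoid.closure (Set.range e)) ζ (T (0, 0) (0, 0)) ∧
      Sec (Submonoid.closure (Set.range e)) ζ (T (1, 0) (1, 0)) := by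
  have o := one_mem (Submonoid.closure (Set.range e))
  constructor
  · intro z hz x₁ hx₁ x₂ hx₂ y hy
    have h1 := PhaseA.four e h hz o hx₁ hx₂ hy o
    have h2 := PhaseA.four e h o o hx₁ hx₂ hy o
    have h3 := PhaseA.four e h hz o hx₁ hx₂ o o
    have h4 := PhaseA.four e h o o hx₁ hx₂ o o
    simp only [one_mul, mul_one] at h1 h2 h3 h4
    linear_combination h1 - h2 - h3 + h4
  · intro z hz x₁ hx₁ x₂ hx₂ y hy
    have h1 := PhaseA.four e h o hz hx₁ hx₂ hy o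
    have h2 := PhaseA.four e h o o hx₁ hx₂ hy o
    have h3 := PhaseA.four e h o hz hx₁ hx₂ o o
    have h4 := PhaseA.four e h o o hx₁ hx₂ o o
    simp only [one_mul, mul_one] at h1 h2 h3 h4
    linear_combination -h1 + h2 + h3 - h4

theorem PhaseA.star_had : star (had H) = had H := by
  ext i j : 1
  fin_cases i <;> fin_cases j <;> simp [had, Matrix.star_apply]

theorem PhaseA.star_diag (x y : Op H) : star !![x, 0; 0, y] = !![star x, 0; 0, star y] := by
  ext i j : 1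
  fin_cases i <;> fin_cases j <;> simp [Matrix.star_apply]

theorem PhaseA.tr_diag (x y : Op H) (S : Matrix (Fin 2) (Fin 2) (Op H)) :
    (star !![x, 0; 0, y] * S * !![x, 0; 0, y]).trace =
      star x * S 0 0 * x + star y * S 1 1 * y := by
  rw [PhaseA.star_diag, Matrix.eta_fin_two S]
  simp [Matrix.trace_fin_two]

theorem PhaseA.I_sq : star (Complex.I • (1 : Op H)) * (Complex.I • (1 : Op H)) = 1 ∧
    (Complex.I • (1 : Op H)) * star (Complex.I • (1 : Op H)) = 1 := by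
  simp [smul_smul]

/-- Let `S a c = T (a,0) (c,0)`; take the trace of `∑_j (gen j)* S (gen j) = (2 n + 2) S`:
`∑_b (e* S₀₀ e + S₁₁) + ∑_b (S₀₀ + e* S₁₁ e) + 2 (S₀₀ + S₁₁)`. -/
theorem harm_of_gen {B : Type} [Fintype B] (e : B → Op H) (S : Matrix (Fin 2) (Fin 2) (Op H))
    (h : ∑ j, star (gen e j) * S * gen e j = (Fintype.card ((B ⊕ B) ⊕ Bool) : ℂ) • S) :
    ∑ b, star (e b) * (S 0 0 + S 1 1) * e b = (Fintype.card B : ℂ) • (S 0 0 + S 1 1) := by
  have h1 : (star (had H) * S * had H).trace = S 0 0 + S 1 1 := by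
    rw [PhaseA.star_had, Matrix.eta_fin_two S]
    simp only [had, smul_mul_assoc, mul_smul_comm, smul_smul, PhaseA.s_sq, Matrix.trace_smul]
    simp [Matrix.trace_fin_two]
    module
  have h2 : (star (pha H) * S * pha H).trace = S 0 0 + S 1 1 := by
    rw [pha, PhaseA.tr_diag]
    simp [smul_smul]
  have h3 := congrArg Matrix.trace h
  rw [Matrix.trace_sum, Fintype.sum_sum_type, Fintype.sum_sum_type, Fintype.sum_bool,
    Matrix.trace_smul, Matrix.trace_fin_two S] at h3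
  simp only [gen, h1, h2, PhaseA.tr_diag, star_one, one_mul, mul_one, Finset.sum_add_distrib,
    Finset.sum_const, Finset.card_univ, Fintype.card_sum, Fintype.card_bool,
    ← Nat.cast_smul_eq_nsmul ℂ] at h3
  simp only [mul_add, add_mul, Finset.sum_add_distrib]
  push_cast at h3
  linear_combination (norm := module) h3

theorem gen_unitary {B : Type} {e : B → Op H} (he : ∀ b, e b ∈ unitary (Op H))
    (j : (B ⊕ B) ⊕ Bool) : gen e j ∈ unitary (Matrix (Fin 2) (Fin 2) (Op H)) := by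
  have hd : ∀ x y : Op H, x ∈ unitary (Op H) → y ∈ unitary (Op H) →
      !![x, 0; 0, y] ∈ unitary (Matrix (Fin 2) (Fin 2) (Op H)) := fun x y hx hy => by
    rw [Unitary.mem_iff, PhaseA.star_diag, PhaseA.diag_mul, PhaseA.diag_mul, hx.1, hx.2, hy.1, hy.2,
      ← Matrix.one_fin_two]
    exact ⟨rfl, rfl⟩
  rcases j with (b | b) | _ | _
  · exact hd _ _ (he b) (one_mem _)
  · exact hd _ _ (one_mem _) (he b)
  · exact hd _ _ (one_mem _) PhaseA.I_sq
  · have : had H * had H = 1 := by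
      simp only [had, smul_mul_assoc, mul_smul_comm, smul_smul, PhaseA.s_sq]
      ext i j : 1
      fin_cases i <;> fin_cases j <;> simp <;> module
    change had H ∈ _
    rw [Unitary.mem_iff, PhaseA.star_had]
    exact ⟨this, this⟩

end Crest.Agent.R78
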