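import Crest.Agent.R78.Hyper

/-! # R78: stability of the multiplication, implementation by a unitary (tasks `RT`) -/

set_option autoImplicit false
set_option linter.unusedSectionVars false
open Filter Topology
open scoped InnerProductSpace

namespace Crest.Agent.R78

universe u
variable {H : Type u} [NormedAddCommGroup H] [InnerProductSpace ℂ H] [CompleteSpace H]

open Crest.Agent.R121

variable {M N : VonNeumannAlgebra H}

namespace RT
variable {A : Type*} [CStarAlgebra A]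

/-- a function of two variables as a list cochain -/
def c2 (f : A → A → A) : List A → A
  | [a, b] => f a b
  | _ => 0

/-- a function of three variables as a list cochain -/
def c3 (f : A → A → A → A) : List A → A
  | [a, b, c] => f a b c
  | _ => 0

theorem dd2 (f : List A → A) (a b : A) : dd f [a, b] = a * f [b] - f [a * b] + f [a] * b := by
  simp only [dd_cons, pd_cons, pd_single]; abel

theorem dd3 (f : List A → A) (a b c : A) :
    dd f [a, b, c] = a * f [b, c] - f [a * b, c] + f [a, b * c] - f [a, b] * c := by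
  simp only [dd_cons, pd_cons, pd_single]; abel

theorem ML2 (f : A →ₗ[ℂ] A →ₗ[ℂ] A) : ML 2 (c2 fun a b => f a b) := by
  intro l₁ l₂ h
  rcases l₁ with _ | ⟨a, _ | ⟨b, l₁⟩⟩ <;> rcases l₂ with _ | ⟨c, _ | ⟨d, l₂⟩⟩ <;>
    simp only [List.length_cons, List.length_nil] at h <;> try omega
  · exact (f.flip c).isLinear
  · exact (f a).isLinear

theorem ML3 {f : A → A → A → A} (h1 : ∀ b c, IsLinearMap ℂ fun a => f a b c)
    (h2 : ∀ a c, IsLinearMap ℂ fun b => f a b c) (h3 : ∀ a b, IsLinearMap ℂ fun c => f a b c) :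
    ML 3 (c3 f) := by
  intro l₁ l₂ h
  rcases l₁ with _ | ⟨a, _ | ⟨b, _ | ⟨b', l₁⟩⟩⟩ <;> rcases l₂ with _ | ⟨c, _ | ⟨d, _ | ⟨d', l₂⟩⟩⟩ <;>
    simp only [List.length_cons, List.length_nil] at h <;> try omega
  · exact h1 c d
  · exact h2 a c
  · exact h3 a b

/-- vanishing of the cohomology, with bounds -/
def CobAll (A : Type*) [CStarAlgebra A] : Prop :=
  ∀ (k : ℕ) (φ : List A → A) (c : ℝ), 0 ≤ c → ML (k + 1) φ → Bd (k + 1) φ c → Cocycle (k + 1) φ →
    Cob k φ ((2 * k + 3) * c)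

theorem lin (hA : CobAll A) (μ : A →ₗ[ℂ] A →ₗ[ℂ] A) {e : ℝ} (h0 : 0 ≤ e)
    (h : ∀ a b, ‖μ a b‖ ≤ e * ‖a‖ * ‖b‖)
    (ha : ∀ a b c, a * μ b c - μ (a * b) c + μ a (b * c) - μ a b * c = μ (μ a b) c - μ a (μ b c)) :
    ∃ l : A →ₗ[ℂ] A, (∀ a, ‖l a‖ ≤ 5 * (14 * e ^ 2 + e) * ‖a‖) ∧
      ∀ a b, ‖μ a b + a * l b - l (a * b) + l a * b‖ ≤ 14 * e ^ 2 * ‖a‖ * ‖b‖ := by
  have hd : ∀ l : List A, l.length = 3 →
      c3 (fun a b c => μ (μ a b) c - μ a (μ b c)) l = dd (c2 fun a b => μ a b) l := fun l hl => by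
    obtain ⟨a, b, c, rfl⟩ := List.length_eq_three.1 hl
    rw [dd3]
    exact (ha a b c).symm
  obtain ⟨ν, n1, n2, n3⟩ := hA 2 (c3 fun a b c => μ (μ a b) c - μ a (μ b c)) (2 * e ^ 2)
    (by positivity)
    (ML3 (fun b c => ⟨fun x y => by simp only [map_add, LinearMap.add_apply]; abel,
        fun t x => by simp only [map_smul, LinearMap.smul_apply, smul_sub]⟩)
      (fun b c => ⟨fun x y => by simp only [map_add, LinearMap.add_apply]; abel,
        fun t x => by simp only [map_smul, LinearMap.smul_apply, smul_sub]⟩)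
      (fun b c => ⟨fun x y => by simp only [map_add]; abel,
        fun t x => by simp only [map_smul, smul_sub]⟩))
    (fun l hl => by
      obtain ⟨a, b, c, rfl⟩ := List.length_eq_three.1 hl
      have h1 : ‖μ (μ a b) c‖ ≤ e * (e * ‖a‖ * ‖b‖) * ‖c‖ := (h _ _).trans (by gcongr; exact h _ _)
      have h2 : ‖μ a (μ b c)‖ ≤ e * ‖a‖ * (e * ‖b‖ * ‖c‖) := (h _ _).trans (by gcongr; exact h _ _)
      refine (norm_sub_le _ _).trans ((add_le_add h1 h2).trans (le_of_eq ?_))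
      simp only [nrm_cons, nrm_nil]
      ring)
    (fun l hl => by
      rw [dd_congr (g := dd (c2 fun a b => μ a b)) fun l' h' => hd l' (by omega), dd_dd])
  have n4 : ∀ a b, ‖ν [a, b]‖ ≤ 14 * e ^ 2 * ‖a‖ * ‖b‖ := fun a b =>
    (n2 [a, b] rfl).trans (le_of_eq (by simp only [nrm_cons, nrm_nil]; push_cast; ring))
  obtain ⟨G, g1, g2, g3⟩ := hA 1 (fun l => ν l - c2 (fun a b => μ a b) l) (14 * e ^ 2 + e)
    (by positivity) (n1.sub (ML2 μ))
    (fun l hl => by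
      obtain ⟨a, b, rfl⟩ := List.length_eq_two.1 hl
      refine (norm_sub_le _ _).trans ((add_le_add (n4 a b) (h a b)).trans (le_of_eq ?_))
      simp only [nrm_cons, nrm_nil]
      ring)
    (fun l hl => by rw [dd_sub, n3 l hl, hd l hl, sub_self])
  refine ⟨IsLinearMap.mk' (fun a => G [a]) (g1 [] [] rfl), fun a => (g2 [a] rfl).trans
    (le_of_eq (by simp only [nrm_cons, nrm_nil]; push_cast; ring)), fun a b => ?_⟩
  have := g3 [a, b] rfl
  rw [dd2] at this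
  refine le_of_eq_of_le (congrArg _ ?_) (n4 a b)
  change μ a b + a * G [b] - G [a * b] + G [a] * b = _
  rw [eq_sub_iff_add_eq] at this
  rw [← this]
  change _ = _ + μ a b
  abel

theorem step (hA : CobAll A) (m : A →ₗ[ℂ] A →ₗ[ℂ] A) (ha : ∀ a b c, m (m a b) c = m a (m b c))
    (hs : ∀ a b, star (m a b) = m (star b) (star a)) {e : ℝ} (h0 : 0 ≤ e) (he : e ≤ 1 / 1000)
    (h : ∀ a b, ‖m a b - a * b‖ ≤ e * ‖a‖ * ‖b‖) :
    ∃ l : A →L[ℂ] A, ‖l‖ ≤ 6 * e ∧ (∀ a, l (star a) = star (l a)) ∧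
      ∀ a b, ‖m (a + l a) (b + l b) - (a * b + l (a * b))‖ ≤ 100 * e ^ 2 * ‖a‖ * ‖b‖ := by
  obtain ⟨μ, hμ⟩ : ∃ μ : A →ₗ[ℂ] A →ₗ[ℂ] A, ∀ a b, m a b = a * b + μ a b :=
    ⟨m - LinearMap.mul ℂ A, fun a b => by simp⟩
  have hb : ∀ a b, ‖μ a b‖ ≤ e * ‖a‖ * ‖b‖ := fun a b => by simpa [hμ] using h a b
  have hs' : ∀ a b, star (μ a b) = μ (star b) (star a) := fun a b => by
    simpa [hμ] using hs a b
  obtain ⟨l₀, l1, l2⟩ := lin hA μ h0 hb fun a b c => by
    have := ha a b c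
    rw [hμ (m a b), hμ a (m b c), hμ a b, hμ b c] at this
    simp only [map_add, LinearMap.add_apply, add_mul, mul_add, mul_assoc] at this
    rw [← sub_eq_zero] at this ⊢
    rw [← neg_eq_zero, ← this]
    abel
  let L : A →ₗ[ℂ] A :=
    { toFun := fun a => (1 / 2 : ℂ) • (l₀ a + star (l₀ (star a)))
      map_add' := fun a b => by simp only [star_add, map_add, smul_add]; abel
      map_smul' := fun t a => by
        simp only [star_smul, map_smul, star_star, RingHom.id_apply, ← smul_add]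
        rw [smul_comm] }
  have hL : ∀ a, L a = (1 / 2 : ℂ) • (l₀ a + star (l₀ (star a))) := fun _ => rfl
  have hn : ∀ x y : A, ‖(1 / 2 : ℂ) • (x + y)‖ ≤ (‖x‖ + ‖y‖) / 2 := fun x y => by
    rw [norm_smul]
    have := norm_add_le x y
    simp only [one_div, norm_inv, Complex.norm_ofNat]
    linarith
  have hLb : ∀ a, ‖L a‖ ≤ 6 * e * ‖a‖ := fun a => by
    refine (hn _ _).trans ?_
    have h1 := l1 a
    have h2 := l1 (star a)
    rw [norm_star] at h2 ⊢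
    have h3 : 5 * (14 * e ^ 2 + e) ≤ 6 * e := by nlinarith
    nlinarith [mul_le_mul_of_nonneg_right h3 (norm_nonneg a)]
  have hL2 : ∀ a b, ‖μ a b + a * L b - L (a * b) + L a * b‖ ≤ 14 * e ^ 2 * ‖a‖ * ‖b‖ :=
    fun a b => by
    have e1 : μ a b + a * L b - L (a * b) + L a * b = (1 / 2 : ℂ) •
        ((μ a b + a * l₀ b - l₀ (a * b) + l₀ a * b) + star (μ (star b) (star a) +
          star b * l₀ (star a) - l₀ (star b * star a) + l₀ (star b) * star a)) := by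
      simp only [hL, star_add, star_sub, star_mul, star_star, hs', mul_smul_comm, smul_mul_assoc,
        mul_add, add_mul]
      module
    rw [e1]
    refine (hn _ _).trans ?_
    have h1 := l2 a b
    have h2 := l2 (star b) (star a)
    rw [norm_star, norm_star] at h2
    rw [norm_star]
    linarith
  refine ⟨L.mkContinuous _ hLb, L.mkContinuous_norm_le (by positivity) hLb, fun a => ?_,
    fun a b => ?_⟩
  · simp only [LinearMap.mkContinuous_apply, hL, star_smul, star_add, star_star, add_comm]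
    simp
  · simp only [LinearMap.mkContinuous_apply]
    have e1 : m (a + L a) (b + L b) - (a * b + L (a * b)) =
        (μ a b + a * L b - L (a * b) + L a * b) + L a * L b + μ a (L b) + μ (L a) b +
          μ (L a) (L b) := by
      rw [hμ]
      simp only [map_add, LinearMap.add_apply, add_mul, mul_add]
      abel
    have h1 : ‖L a * L b‖ ≤ (6 * e * ‖a‖) * (6 * e * ‖b‖) :=
      (norm_mul_le _ _).trans (by gcongr <;> exact hLb _)
    have h2 : ‖μ a (L b)‖ ≤ e * ‖a‖ * (6 * e * ‖b‖) := (hb _ _).trans (by gcongr; exact hLb _)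
    have h3 : ‖μ (L a) b‖ ≤ e * (6 * e * ‖a‖) * ‖b‖ := (hb _ _).trans (by gcongr; exact hLb _)
    have h4 : ‖μ (L a) (L b)‖ ≤ 1 * (6 * e * ‖a‖) * (6 * e * ‖b‖) :=
      (hb _ _).trans (by gcongr <;> first | exact hLb _ | linarith)
    rw [e1]
    refine (norm_add_le_of_le (norm_add_le_of_le (norm_add_le_of_le
      (norm_add_le_of_le (hL2 a b) h1) h2) h3) h4).trans ?_
    have : 0 ≤ e ^ 2 * ‖a‖ * ‖b‖ := by positivity
    nlinarith

/-- admissible multiplications -/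
def Adm (m : A →ₗ[ℂ] A →ₗ[ℂ] A) (e : ℝ) : Prop :=
  (∀ a b c, m (m a b) c = m a (m b c)) ∧ (∀ a b, star (m a b) = m (star b) (star a)) ∧
    ∀ a b, ‖m a b - a * b‖ ≤ e * ‖a‖ * ‖b‖

theorem step' (hA : CobAll A) {m : A →ₗ[ℂ] A →ₗ[ℂ] A} {e : ℝ} (h0 : 0 ≤ e) (he : e ≤ 1 / 1000)
    (h : Adm m e) : ∃ (ψ : A →L[ℂ] A) (m' : A →ₗ[ℂ] A →ₗ[ℂ] A), Adm m' (e / 2) ∧
      ‖ψ - 1‖ ≤ 6 * e ∧ (∀ a, ψ (star a) = star (ψ a)) ∧ ∀ a b, m (ψ a) (ψ b) = ψ (m' a b) := by
  obtain ⟨l, l1, l2, l3⟩ := step hA m h.1 h.2.1 h0 he h.2.2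
  obtain ⟨u, hu⟩ : IsUnit (1 + l) := by
    have := (Units.oneSub (-l) (by rw [norm_neg]; linarith)).isUnit
    rwa [Units.val_oneSub, sub_neg_eq_add] at this
  obtain ⟨χ, c1, c2⟩ : ∃ χ : A →L[ℂ] A, (∀ a, (1 + l) (χ a) = a) ∧ ∀ a, χ ((1 + l) a) = a :=
    ⟨(u⁻¹ : (A →L[ℂ] A)ˣ), fun a => by rw [← hu, ← mul_apply_eq_comp, Units.mul_inv]; rfl,
      fun a => by rw [← hu, ← mul_apply_eq_comp, Units.inv_mul]; rfl⟩
  have hψ : ∀ a, (1 + l) (star a) = star ((1 + l) a) := fun a => by simp [l2]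
  have c3 : ∀ a, star (χ a) = χ (star a) := fun a => by
    conv_rhs => rw [← c1 a, ← hψ, c2]
  have c4 : ∀ a, ‖χ a‖ ≤ 2 * ‖a‖ := fun a => by
    have h1 : χ a = a - l (χ a) := by
      rw [eq_sub_iff_add_eq]; exact c1 a
    have h2 := norm_sub_le a (l (χ a))
    rw [← h1] at h2
    have h3 := l.le_of_opNorm_le l1 (χ a)
    nlinarith [norm_nonneg (χ a)]
  refine ⟨1 + l, (m.compl₁₂ (1 + l : A →L[ℂ] A) (1 + l : A →L[ℂ] A)).compr₂ (χ : A →ₗ[ℂ] A),
    ⟨fun a b c => ?_, fun a b => ?_, fun a b => ?_⟩, by simpa using l1, hψ, fun a b => ?_⟩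
  · simp only [LinearMap.compr₂_apply, LinearMap.compl₁₂_apply, ContinuousLinearMap.coe_coe, c1,
      h.1]
  · simp only [LinearMap.compr₂_apply, LinearMap.compl₁₂_apply, ContinuousLinearMap.coe_coe, c3,
      h.2.1, hψ]
  · simp only [LinearMap.compr₂_apply, LinearMap.compl₁₂_apply, ContinuousLinearMap.coe_coe]
    rw [← c2 (a * b), ← map_sub]
    refine (c4 _).trans ((mul_le_mul_of_nonneg_left (l3 a b) zero_le_two).trans ?_)
    have h1 : 0 ≤ e * ‖a‖ * ‖b‖ := by positivity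
    nlinarith
  · simp only [LinearMap.compr₂_apply, LinearMap.compl₁₂_apply, ContinuousLinearMap.coe_coe, c1]

theorem dc {X : Type*} (P : ℕ → X → Prop) (R : ℕ → X → X → Prop) {x₀ : X} (h0 : P 0 x₀)
    (h : ∀ n x, P n x → ∃ y, P (n + 1) y ∧ R n x y) :
    ∃ f : ℕ → X, ∀ n, P n (f n) ∧ R n (f n) (f (n + 1)) := by
  choose g hg using h
  let f : (n : ℕ) → {x // P n x} := fun n =>
    Nat.rec ⟨x₀, h0⟩ (fun n x => ⟨g n x.1 x.2, (hg n x.1 x.2).1⟩) n
  exact ⟨fun n => (f n).1, fun n => ⟨(f n).2, (hg n (f n).1 (f n).2).2⟩⟩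

theorem main (hA : CobAll A) {m : A →ₗ[ℂ] A →ₗ[ℂ] A} {e : ℝ} (h0 : 0 ≤ e) (he : e ≤ 1 / 1000)
    (h : Adm m e) :
    ∃ φ : A →L[ℂ] A, (∀ a, ‖φ a - a‖ ≤ 20 * e * ‖a‖) ∧ (∀ a, φ (star a) = star (φ a)) ∧
      ∀ a b, φ (a * b) = m (φ a) (φ b) := by
  obtain ⟨f, hf⟩ := dc (X := (A →L[ℂ] A) × (A →ₗ[ℂ] A →ₗ[ℂ] A))
    (fun n x => Adm x.2 (e / 2 ^ n) ∧ (∀ a, x.1 (star a) = star (x.1 a)) ∧
      (∀ a b, m (x.1 a) (x.1 b) = x.1 (x.2 a b)) ∧ ‖x.1 - 1‖ ≤ 20 * (e - e / 2 ^ n))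
    (fun n x y => dist x.1 y.1 ≤ 20 * e / 2 / 2 ^ n) (x₀ := (1, m))
    ⟨by simpa using h, fun _ => rfl, fun _ _ => rfl, by simp⟩ (by
      rintro n ⟨φ, m'⟩ ⟨h1, h2, h3, h4⟩
      have hn0 : 0 ≤ e / 2 ^ n := by positivity
      have hn1 : e / 2 ^ n ≤ e := div_le_self h0 (one_le_pow₀ one_le_two)
      obtain ⟨ψ, m'', p1, p2, p3, p4⟩ := step' hA hn0 (hn1.trans he) h1
      have e1 : e / 2 ^ (n + 1) = e / 2 ^ n / 2 := by rw [pow_succ, div_div]
      have hφ : ‖φ‖ ≤ 3 / 2 := by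
        have h5 := norm_add_le (φ - 1) 1
        have h6 : ‖(1 : A →L[ℂ] A)‖ ≤ 1 := ContinuousLinearMap.norm_id_le
        rw [sub_add_cancel] at h5
        simp only [] at h4
        linarith
      have hd : ‖φ * ψ - φ‖ ≤ 10 * (e / 2 ^ n) := by
        rw [← mul_sub_one]
        refine (norm_mul_le _ _).trans ((mul_le_mul hφ p2 (norm_nonneg _) (by norm_num)).trans ?_)
        linarith
      refine ⟨(φ * ψ, m''), ⟨e1 ▸ p1, fun a => ?_, fun a b => ?_, ?_⟩, ?_⟩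
      · simp only [mul_apply_eq_comp, p3]; exact h2 _
      · simp only [mul_apply_eq_comp, ← p4]; exact h3 _ _
      · have := norm_add_le (φ * ψ - φ) (φ - 1)
        rw [sub_add_sub_cancel] at this
        simp only [] at h4 ⊢
        rw [e1]
        linarith
      · rw [dist_comm, dist_eq_norm]
        exact hd.trans (le_of_eq (by ring)))
  obtain ⟨φ, hφ⟩ := cauchySeq_tendsto_of_complete
    (cauchySeq_of_le_geometric_two (f := fun n => (f n).1) fun n => (hf n).2)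
  have ev : ∀ {x : ℕ → A} {y : A}, Tendsto x atTop (𝓝 y) →
      Tendsto (fun n => (f n).1 (x n)) atTop (𝓝 (φ y)) := fun {x y} hx =>
    ((continuous_fst.clm_apply continuous_snd).tendsto (φ, y)).comp (hφ.prodMk_nhds hx)
  refine ⟨φ, fun a => ?_, fun a => ?_, fun a b => ?_⟩
  · have h1 : ‖φ - 1‖ ≤ 20 * e := le_of_tendsto' (hφ.sub_const 1).norm fun n => by
      have : 0 ≤ e / 2 ^ n := by positivity
      linarith [(hf n).1.2.2.2]
    exact (φ - 1).le_of_opNorm_le h1 a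
  · refine tendsto_nhds_unique (ev tendsto_const_nhds) ?_
    simp only [(hf _).1.2.1]
    exact (ev tendsto_const_nhds).star
  · have h1 : Tendsto (fun n => (f n).2 a b) atTop (𝓝 (a * b)) := by
      rw [tendsto_iff_norm_sub_tendsto_zero]
      refine squeeze_zero (fun _ => norm_nonneg _) (fun n => (hf n).1.1.2.2 a b) ?_
      have := (((tendsto_pow_atTop_atTop_of_one_lt (one_lt_two (α := ℝ))).const_div_atTop
        e).mul_const ‖a‖).mul_const ‖b‖
      simpa using this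
    refine tendsto_nhds_unique (ev h1) ?_
    simp only [← (hf _).1.2.2.1]
    let m₂ := m.mkContinuous₂ (e + 1) fun a b => by
      have h2 := norm_add_le (m a b - a * b) (a * b)
      rw [sub_add_cancel] at h2
      have h3 := norm_mul_le a b
      have h4 := h.2.2 a b
      linarith
    exact (m₂.continuous₂.tendsto (φ a, φ b)).comp
      ((ev tendsto_const_nhds).prodMk_nhds (ev tendsto_const_nhds))

end RT

/-- One Newton step.  `μ a b = m a b - a b`.  As list cochains (`μ [a, b]`, zero or arbitrary on other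
lengths) associativity gives `dd μ [a,b,c] = μ (μ a b) c - μ a (μ b c)`, of norm `≤ 2 e²`; it is a
3-cocycle (`dd dd = 0`), `R121.cob_all` (`k = 2`) gives `ν` with `dd ν = dd μ`, `‖ν‖ ≤ 14 e²`;
`ν - μ` is a 2-cocycle, `cob_all` (`k = 1`) gives `l` with `dd l = ν - μ`, `‖l‖ ≤ 5 (e + 14 e²)`.
So `‖μ a b + a l b - l (a b) + l a b‖ ≤ 14 e² ‖a‖ ‖b‖`; the same holds for `a ↦ (l a*)*` by `hs`,
hence for the average.  Expand. -/
theorem rt_step (m : Al N →ₗ[ℂ] Al N →ₗ[ℂ] Al N) (ha : ∀ a b c, m (m a b) c = m a (m b c))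
    (hs : ∀ a b, star (m a b) = m (star b) (star a)) {e : ℝ} (h0 : 0 ≤ e) (he : e ≤ 1 / 1000)
    (h : ∀ a b, ‖m a b - a * b‖ ≤ e * ‖a‖ * ‖b‖) :
    ∃ l : Al N →L[ℂ] Al N, ‖l‖ ≤ 6 * e ∧ (∀ a, l (star a) = star (l a)) ∧
      ∀ a b, ‖m (a + l a) (b + l b) - (a * b + l (a * b))‖ ≤ 100 * e ^ 2 * ‖a‖ * ‖b‖ :=
  RT.step (fun _ _ _ => cob_all) m ha hs h0 he h

/-- Iterate: `ψ = 1 + l` is invertible (`Units.oneSub`/`NormedRing.inverse` in the Banach algebra
`Al N →L[ℂ] Al N`, `‖ψ⁻¹‖ ≤ 1 / (1 - 6 e)`, `ψ⁻¹` is `*`-preserving), `m' a b = ψ⁻¹ (m (ψ a) (ψ b))`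
is associative with `e' ≤ e / 2`.  The products `φ n = ψ₁ ψ₂ ⋯ ψₙ` are Cauchy and
`m (φ n a) (φ n b) = φ n (m_n a b)`.  (Formalise the recursion on the subtype of triples
`(φ, m', proofs)`, or use a lemma "for all `n` and all admissible `m`…" with dependent choice
`exists_seq_of_forall…`/`Nat.rec` + `Classical.choose`.) -/
theorem rt (m : Al N →ₗ[ℂ] Al N →ₗ[ℂ] Al N) (ha : ∀ a b c, m (m a b) c = m a (m b c))
    (hs : ∀ a b, star (m a b) = m (star b) (star a)) {e : ℝ} (h0 : 0 ≤ e) (he : e ≤ 1 / 1000)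
    (h : ∀ a b, ‖m a b - a * b‖ ≤ e * ‖a‖ * ‖b‖) :
    ∃ φ : Al N →L[ℂ] Al N, (∀ a, ‖φ a - a‖ ≤ 20 * e * ‖a‖) ∧ (∀ a, φ (star a) = star (φ a)) ∧
      ∀ a b, φ (a * b) = m (φ a) (φ b) :=
  RT.main (fun _ _ _ => cob_all) h0 he ⟨ha, hs, h⟩

end Crest.Agent.R78
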