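import Crest.Agent.R78.WL

/-! # R78: Cuntz words and the invariance of a functional (task `RmeA`) -/

set_option autoImplicit false
set_option linter.unusedSectionVars false
open Filter Topology
open scoped InnerProductSpace

namespace Crest.Agent.R78

universe u
variable {H : Type u} [NormedAddCommGroup H] [InnerProductSpace ℂ H] [CompleteSpace H]

variable {A : Type}

/-- The isometry of a word. -/
def sw (s : A → Op H) (w : List A) : Op H := (w.map s).prod

/-- The range projection of a word. -/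
noncomputable def qw (s : A → Op H) (w : List A) : Op H := sw s w * star (sw s w)

@[simp] theorem sw_nil (s : A → Op H) : sw s [] = 1 := rfl

@[simp] theorem sw_cons (s : A → Op H) (j : A) (w : List A) : sw s (j :: w) = s j * sw s w := by
  simp [sw]

theorem sw_append (s : A → Op H) (u w : List A) : sw s (u ++ w) = sw s u * sw s w := by
  simp [sw]

/-- A Cuntz family. -/
structure Cuntz (s : A → Op H) : Prop where
  iso : ∀ j, star (s j) * s j = 1
  orth : ∀ i j, i ≠ j → star (s i) * s j = 0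
  ext : ∀ X : Op H, (∀ j, X * s j = 0) → X = 0

namespace Cuntz
variable {s s' : A → Op H}

theorem sw_iso (h : Cuntz s) (w : List A) : star (sw s w) * sw s w = 1 := by
  induction w with
  | nil => simp
  | cons j w ih => rw [sw_cons, star_mul, mul_assoc, ← mul_assoc (star (s j)), h.iso, one_mul, ih]

theorem qw_proj (h : Cuntz s) (w : List A) : IsStarProjection (qw s w) := by
  refine ⟨?_, ?_⟩
  · rw [IsIdempotentElem, qw, mul_assoc, ← mul_assoc (star (sw s w)), h.sw_iso, one_mul]
  · rw [IsSelfAdjoint, qw, star_mul, star_star]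

/-- Induction on both words: `qw (i :: u) = s i qw u (s i)*`. -/
theorem qw_comm (h : Cuntz s) (u w : List A) : qw s u * qw s w = qw s w * qw s u := by
  have e : ∀ (i : A) (u : List A), qw s (i :: u) = s i * qw s u * star (s i) := fun i u => by
    simp only [qw, sw_cons, star_mul, mul_assoc]
  induction u generalizing w with
  | nil => simp [qw]
  | cons i u ih =>
    cases w with
    | nil => simp [qw]
    | cons j w =>
      have e2 : ∀ (i j : A) (x y : Op H), s i * x * star (s i) * (s j * y * star (s j)) =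
          s i * x * (star (s i) * s j) * y * star (s j) := fun i j x y => by simp only [mul_assoc]
      rw [e, e, e2, e2]
      by_cases hij : i = j
      · subst hij
        rw [h.iso, mul_one, mul_one, mul_assoc (s i), ih, ← mul_assoc]
      · rw [h.orth i j hij, h.orth j i (Ne.symm hij)]
        simp

theorem ext_len (h : Cuntz s) (m : ℕ) {X : Op H} (e : ∀ u : List A, u.length = m → X * sw s u = 0) :
    X = 0 := by
  induction m generalizing X with
  | zero => simpa using e [] rfl
  | succ m ih =>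
    refine h.ext X fun j => ih fun u hu => ?_
    rw [mul_assoc, ← sw_cons]
    exact e _ (by simp [hu])

/-- `S s j = s' j` and the two families commute. -/
theorem pow_sw {S : Op H} (hS : ∀ j, S * s j = s' j) (hc : ∀ i j, s i * s' j = s' j * s i)
    (u : List A) : S ^ u.length * sw s u = sw s' u.reverse := by
  have hw : ∀ j (v : List A), s' j * sw s v = sw s v * s' j := fun j v => by
    induction v with
    | nil => simp
    | cons i v ih => rw [sw_cons, ← mul_assoc, ← hc, mul_assoc, ih, mul_assoc]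
  induction u with
  | nil => simp
  | cons j v ih =>
    rw [List.length_cons, pow_succ, sw_cons, mul_assoc, ← mul_assoc S, hS, hw, ← mul_assoc, ih,
      List.reverse_cons, sw_append]
    simp

end Cuntz

/-- Fix `m`, let `P = S*ᵐ p Sᵐ`, `Y = S*ᵐ q_w Sᵐ`, `Q = U* P U ∈ Q₀`, `Z = Sᵐ Q S*ᵐ`.  For
`|u| = m`, `u' = u.reverse`: `P s_u = s_u p`, `Y s_u = s_u q_w` (`pow_sw`; `p`, `q_w` commute with
`s'`), so `P` commutes with `q_u` and `Y q_u = q_{u ++ w} = q_u Y`; hence `[U, Y] q_u = 0` and
`[U, Y] = 0` (`ext_len`), `Q Y Q = U* P Y P U = μ Q`.  `Z q'_{u'} = q'_{u'} y` with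
`y = s_u* Q s_u ∈ Q₀`, and `b` commutes with `q'_{u'}` and `y`, so `[b, Z] = 0` (`ext_len` for
`s'`).  With `b' = S*ᵐ b Sᵐ` (commutes with `Q`), `⟪Ξ, (q_w - μ) b Ξ⟫ = ⟪Ξ, (Y - μ) b' Ξ⟫` and
`⟪Q Ξ, (Y - μ) b' Q Ξ⟫ = ⟪Ξ, Q (Y - μ) Q b' Ξ⟫ = 0`, while `‖Ξ - Q Ξ‖ = ‖U Ξ - P U Ξ‖ → 0`. -/
theorem rme_core {s s' : A → Op H} (hs : Cuntz s) (hs' : Cuntz s') (hc : ∀ i j, C2 (s i) (s' j))
    {S : Op H} (hS : S ∈ unitary (Op H)) (hSs : ∀ j, S * s j = s' j) {p : Op H}
    (hp : IsStarProjection p) (hps : ∀ j, C2 (s' j) p)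
    (hlim : ∀ η, Tendsto (fun m : ℕ => (star S ^ m * p * S ^ m) η) atTop (𝓝 η)) {Ξ : H}
    (hΞ : S Ξ = Ξ) {Q₀ : VonNeumannAlgebra H} (h1 : ∀ j, s j ∈ Q₀) (h2 : ∀ j, s' j ∈ Q₀.commutant)
    {U : Op H} (hU : U ∈ unitary (Op H)) (hUq : ∀ u, U * qw s u = qw s u * U)
    (hUP : ∀ m : ℕ, star U * (star S ^ m * p * S ^ m) * U ∈ Q₀) {b : Op H}
    (hb : b ∈ Q₀.commutant) (hbq : ∀ u, b * qw s' u = qw s' u * b) {w : List A} {μ : ℂ}
    (hw : p * qw s w * p = μ • p) : ⟪Ξ, (qw s w * b) Ξ⟫_ℂ = μ * ⟪Ξ, b Ξ⟫_ℂ := by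
  have hsw : ∀ {t : A → Op H} {x : Op H}, (∀ j, Commute x (t j)) → ∀ v, Commute x (sw t v) := by
    intro t x h v
    induction v with
    | nil => exact Commute.one_right _
    | cons i v ih => rw [sw_cons]; exact (h i).mul_right ih
  have hsw' : ∀ {t : A → Op H} {x : Op H}, (∀ j, Commute x (star (t j))) →
      ∀ v, Commute x (star (sw t v)) := by
    intro t x h v
    induction v with
    | nil => simp
    | cons i v ih => rw [sw_cons, star_mul]; exact ih.mul_right (h i)
  have hmem : ∀ (R : VonNeumannAlgebra H) {t : A → Op H}, (∀ j, t j ∈ R) → ∀ v, sw t v ∈ R := by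
    intro R t h v
    induction v with
    | nil => exact one_mem _
    | cons i v ih => rw [sw_cons]; exact mul_mem (h i) ih
  have hq' : ∀ v, Commute (qw s w) (sw s' v) := hsw fun j =>
    ((hsw (x := s' j) (fun i => (hc i j).1.symm) w).mul_right
      (hsw' (x := s' j) (fun i => (hc i j).2.symm) w)).symm
  have hp' : ∀ v, Commute p (sw s' v) := hsw fun j => (hps j).1.symm
  obtain ⟨C, hC⟩ : ∃ C, C = ‖qw s w - μ • 1‖ * ‖b‖ := ⟨_, rfl⟩
  have hU1 := hU.1
  have hU2 := hU.2
  have key : ∀ m : ℕ, ‖⟪Ξ, ((qw s w - μ • 1) * b) Ξ⟫_ℂ‖ ≤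
      2 * C * ‖Ξ‖ * ‖(star S ^ m * p * S ^ m) (U Ξ) - U Ξ‖ := by
    intro m
    obtain ⟨V, hV⟩ : ∃ V, V = S ^ m := ⟨_, rfl⟩
    have hVu : V ∈ unitary (Op H) := hV ▸ pow_mem hS m
    have hV1 := hVu.1
    have hV2 := hVu.2
    have hQ₀ := hUP m
    rw [← star_pow, ← hV] at hQ₀ ⊢
    have hVs : ∀ u : List A, u.length = m → V * sw s u = sw s' u.reverse := fun u hu => by
      rw [hV, ← hu]; exact Cuntz.pow_sw hSs (fun i j => (hc i j).1) u
    have hVs' : ∀ u : List A, u.length = m → star V * sw s' u.reverse = sw s u := fun u hu => by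
      rw [← hVs u hu, ← mul_assoc, hV1, one_mul]
    have hconj : ∀ x : Op H, (∀ v, Commute x (sw s' v)) → ∀ u : List A, u.length = m →
        star V * x * V * sw s u = sw s u * x := fun x hx u hu => by
      rw [mul_assoc, hVs u hu, mul_assoc, (hx _).eq, ← mul_assoc, hVs' u hu]
    obtain ⟨P, hP⟩ : ∃ P, P = star V * p * V := ⟨_, rfl⟩
    obtain ⟨Y, hY⟩ : ∃ Y, Y = star V * qw s w * V := ⟨_, rfl⟩
    rw [← hP] at hQ₀ ⊢
    have hPs : star P = P := by
      rw [hP, star_mul, star_mul, star_star, hp.isSelfAdjoint.star_eq, mul_assoc]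
    have hPP : P * P = P := by
      rw [hP]; simp only [mul_assoc]
      rw [← mul_assoc V, hV2, one_mul, ← mul_assoc p, hp.isIdempotentElem.eq]
    have hPq : ∀ u : List A, u.length = m → Commute P (qw s u) := fun u hu => by
      have e : P * qw s u = sw s u * p * star (sw s u) := by
        rw [qw, ← mul_assoc, hP, hconj p hp' u hu]
      have e2 := congrArg star e
      rw [star_mul, star_mul, star_mul, star_star, hPs, (hs.qw_proj u).isSelfAdjoint.star_eq,
        hp.isSelfAdjoint.star_eq, ← mul_assoc] at e2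
      exact e.trans e2.symm
    have hqs : ∀ {t : A → Op H}, Cuntz t → ∀ u, qw t u * sw t u = sw t u := fun ht u => by
      rw [qw, mul_assoc, ht.sw_iso, mul_one]
    have hUY : U * Y = Y * U := by
      refine sub_eq_zero.1 (hs.ext_len m fun u hu => ?_)
      have e : Y * qw s u = qw s (u ++ w) := by
        rw [qw, ← mul_assoc, hY, hconj _ hq' u hu, qw, qw, sw_append, star_mul]
        simp only [mul_assoc]
      rw [← hqs hs u, ← mul_assoc, sub_mul, mul_assoc U, e, mul_assoc Y, hUq u, ← mul_assoc Y, e,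
        hUq, sub_self, zero_mul]
    have hPYP : P * Y * P = μ • P := by
      rw [hP, hY]
      calc star V * p * V * (star V * qw s w * V) * (star V * p * V)
          = star V * (p * (V * star V) * qw s w * (V * star V) * p) * V := by
            simp only [mul_assoc]
        _ = _ := by rw [hV2, mul_one, mul_one, hw, mul_smul_comm, smul_mul_assoc]
    obtain ⟨Q, hQ⟩ : ∃ Q, Q = star U * P * U := ⟨_, rfl⟩
    rw [← hQ] at hQ₀
    have hQs : star Q = Q := by rw [hQ, star_mul, star_mul, star_star, hPs, mul_assoc]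
    have hQQ : Q * Q = Q := by
      rw [hQ]; simp only [mul_assoc]
      rw [← mul_assoc U, hU2, one_mul, ← mul_assoc P, hPP]
    have hQYQ : Q * (Y - μ • 1) * Q = 0 := by
      have e : Q * Y * Q = μ • Q := by
        rw [hQ]
        calc star U * P * U * Y * (star U * P * U)
            = star U * (P * (U * Y * star U) * P) * U := by simp only [mul_assoc]
          _ = _ := by
            rw [hUY, mul_assoc Y, hU2, mul_one, hPYP, mul_smul_comm, smul_mul_assoc]
      rw [mul_sub, sub_mul, e, mul_smul_comm, mul_one, smul_mul_assoc, hQQ, sub_self]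
    have hbQ : star V * b * V * Q = Q * (star V * b * V) := by
      have e : b * (V * Q * star V) - V * Q * star V * b = 0 := by
        refine hs'.ext_len m fun v hv => ?_
        have hu : v.reverse.length = m := by simpa using hv
        have h3 := hVs _ hu
        have h4 := hVs' _ hu
        rw [List.reverse_reverse] at h3 h4
        generalize v.reverse = u at hu h3 h4
        have hUq' : Commute (star U) (qw s u) := by
          have := (show Commute U (qw s u) from hUq u).star_star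
          rwa [(hs.qw_proj u).isSelfAdjoint.star_eq] at this
        have hQq : Commute Q (qw s u) := hQ ▸ (hUq'.mul_left (hPq u hu)).mul_left (hUq u)
        have hy : star (sw s u) * Q * sw s u ∈ Q₀ :=
          mul_mem (mul_mem (star_mem (hmem _ h1 u)) hQ₀) (hmem _ h1 u)
        generalize hyd : star (sw s u) * Q * sw s u = y at hy
        have h5 : Q * sw s u = sw s u * y := by
          rw [← hyd, ← mul_assoc, ← mul_assoc, ← qw, ← hQq.eq, mul_assoc, hqs hs]
        have h6 : V * Q * star V * qw s' v = y * qw s' v := by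
          rw [qw, ← mul_assoc, mul_assoc _ (star V), h4, mul_assoc V, h5, ← mul_assoc V, h3,
            ← comm_of_mem hy (hmem _ h2 v), mul_assoc]
        rw [← hqs hs' v, ← mul_assoc, sub_mul, mul_assoc b, h6, mul_assoc _ b, hbq, ← mul_assoc _ _ b,
          h6, ← mul_assoc b, ← comm_of_mem hy hb, mul_assoc y, hbq, ← mul_assoc y, sub_self,
          zero_mul]
      calc star V * b * V * Q = star V * (b * (V * Q * star V)) * V := by
            simp only [mul_assoc]; rw [hV1, mul_one]
        _ = Q * (star V * b * V) := by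
            rw [sub_eq_zero.1 e]; simp only [← mul_assoc]; rw [hV1, one_mul]
    have hVΞ : V Ξ = Ξ := by
      rw [hV]; clear * - hΞ
      induction m with
      | zero => simp
      | succ m ih => rw [pow_succ, mul_apply_eq_comp, hΞ, ih]
    obtain ⟨X, hX⟩ : ∃ X, X = star V * ((qw s w - μ • 1) * b) * V := ⟨_, rfl⟩
    have hX1 : ⟪Ξ, ((qw s w - μ • 1) * b) Ξ⟫_ℂ = ⟪Ξ, X Ξ⟫_ℂ := by
      rw [hX, mul_apply_eq_comp (star V * _), mul_apply_eq_comp (star V), hVΞ,
        ContinuousLinearMap.star_eq_adjoint, ContinuousLinearMap.adjoint_inner_right, hVΞ]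
    have hX2 : ‖X‖ ≤ C := by
      rw [hX, CStarRing.norm_mul_mem_unitary _ hVu,
        CStarRing.norm_mem_unitary_mul _ (Unitary.star_mem hVu), hC]
      exact norm_mul_le _ _
    have hX3 : Q * X * Q = 0 := by
      have e : X = (Y - μ • 1) * (star V * b * V) := by
        rw [hX, hY]
        simp only [sub_mul, mul_sub, mul_assoc, smul_mul_assoc, mul_smul_comm, one_mul]
        rw [← mul_assoc V, hV2, one_mul]
      rw [e, mul_assoc, mul_assoc, hbQ, ← mul_assoc, ← mul_assoc, hQYQ, zero_mul]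
    have hn : ‖Ξ - Q Ξ‖ = ‖P (U Ξ) - U Ξ‖ := by
      rw [← ContinuousLinearMap.norm_map_of_mem_unitary hU, map_sub, hQ, ← mul_apply_eq_comp U,
        ← mul_assoc, ← mul_assoc, hU2, one_mul, norm_sub_rev, mul_apply_eq_comp]
    have hQn : ‖Q Ξ‖ ≤ ‖Ξ‖ :=
      (Q.le_of_opNorm_le (IsStarProjection.norm_le Q ⟨hQQ, hQs⟩) Ξ).trans_eq (one_mul _)
    have e : ⟪Ξ, X Ξ⟫_ℂ = ⟪Ξ - Q Ξ, X Ξ⟫_ℂ + ⟪Q Ξ, X (Ξ - Q Ξ)⟫_ℂ := by
      have h3 : ⟪Q Ξ, X (Q Ξ)⟫_ℂ = 0 := by
        have h4 : ContinuousLinearMap.adjoint Q = Q := hQs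
        rw [← h4, ContinuousLinearMap.adjoint_inner_left, h4, ← mul_apply_eq_comp X,
          ← mul_apply_eq_comp Q, ← mul_assoc, hX3]
        simp
      rw [map_sub, inner_sub_left, inner_sub_right, h3]; ring
    have hC0 : 0 ≤ C := (norm_nonneg _).trans hX2
    have b1 := (norm_inner_le_norm (𝕜 := ℂ) (Ξ - Q Ξ) (X Ξ)).trans
      (mul_le_mul_of_nonneg_left (X.le_of_opNorm_le hX2 Ξ) (norm_nonneg _))
    have b2 := (norm_inner_le_norm (𝕜 := ℂ) (Q Ξ) (X (Ξ - Q Ξ))).trans
      (mul_le_mul hQn (X.le_of_opNorm_le hX2 _) (norm_nonneg _) (norm_nonneg _))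
    rw [hX1, e, ← hn]
    exact (norm_add_le_of_le b1 b2).trans (le_of_eq (by ring))
  have hl := ((tendsto_iff_norm_sub_tendsto_zero.1 (hlim (U Ξ))).const_mul (2 * C * ‖Ξ‖))
  rw [mul_zero] at hl
  have h0 := norm_le_zero_iff.1 (ge_of_tendsto' hl key)
  rw [sub_mul, sub_apply, inner_sub_right, smul_mul_assoc, one_mul, smul_apply, inner_smul_right,
    sub_eq_zero] at h0
  exact h0

end Crest.Agent.R78
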