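import Crest.Agent.R78.WL

/-! # R78: strong integrals, weakly holomorphic functions (task `SInt`) -/

set_option autoImplicit false
set_option linter.unusedSectionVars false
open Filter Topology
open scoped InnerProductSpace

namespace Crest.Agent.R78

universe u
variable {H : Type u} [NormedAddCommGroup H] [InnerProductSpace ℂ H] [CompleteSpace H]

open MeasureTheory

section
variable {f g : ℝ → ℂ} {F G : ℝ → Op H} {C D : ℝ}

theorem SC.nonneg (hF : SC F C) : 0 ≤ C := (norm_nonneg _).trans (hF.bd 0)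

theorem SC.norm_apply_le (hF : SC F C) (s : ℝ) (η : H) : ‖F s η‖ ≤ C * ‖η‖ :=
  ((F s).le_opNorm η).trans (mul_le_mul_of_nonneg_right (hF.bd s) (norm_nonneg _))

theorem SC.integrable (hf : Integrable f) (hF : SC F C) (η : H) :
    Integrable fun s => f s • F s η := by
  refine Integrable.mono' (hf.norm.mul_const (C * ‖η‖))
    (hf.aestronglyMeasurable.smul (hF.cont η).aestronglyMeasurable) (.of_forall fun s => ?_)
  rw [norm_smul]
  exact mul_le_mul_of_nonneg_left (hF.norm_apply_le s η) (norm_nonneg _)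

theorem norm_integral_SC_le (hf : Integrable f) (hF : SC F C) (η : H) :
    ‖∫ s, f s • F s η‖ ≤ (C * ∫ s, ‖f s‖) * ‖η‖ := by
  have h : ‖∫ s, f s • F s η‖ ≤ ∫ s, ‖f s‖ * (C * ‖η‖) := by
    refine norm_integral_le_of_norm_le (hf.norm.mul_const _) (.of_forall fun s => ?_)
    rw [norm_smul]
    exact mul_le_mul_of_nonneg_left (hF.norm_apply_le s η) (norm_nonneg _)
  rw [integral_mul_const] at h
  exact h.trans_eq (by ring)

theorem sint_apply (hf : Integrable f) (hF : SC F C) (η : H) :
    sint f F η = ∫ s, f s • F s η := by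
  have h : ∃ X : Op H, ∀ η, X η = ∫ s, f s • F s η := by
    let L : H →ₗ[ℂ] H :=
      { toFun := fun η => ∫ s, f s • F s η
        map_add' := fun x y => by
          simp only [map_add, smul_add]
          exact integral_add (hF.integrable hf x) (hF.integrable hf y)
        map_smul' := fun c x => by
          simp only [map_smul, RingHom.id_apply]
          rw [← integral_smul]
          simp only [smul_comm c] }
    exact ⟨L.mkContinuous _ (norm_integral_SC_le hf hF), fun η => rfl⟩
  unfold sint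
  rw [dif_pos h]
  exact h.choose_spec η

theorem inner_sint (hf : Integrable f) (hF : SC F C) (η ζ : H) :
    ⟪ζ, sint f F η⟫_ℂ = ∫ s, f s * ⟪ζ, F s η⟫_ℂ := by
  rw [sint_apply hf hF, ← integral_inner (hF.integrable hf η)]
  simp only [inner_smul_right]

theorem norm_sint_le (hf : Integrable f) (hF : SC F C) : ‖sint f F‖ ≤ C * ∫ s, ‖f s‖ := by
  refine ContinuousLinearMap.opNorm_le_bound _
    (mul_nonneg hF.nonneg (integral_nonneg fun _ => norm_nonneg _)) fun η => ?_
  rw [sint_apply hf hF]
  exact norm_integral_SC_le hf hF η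

theorem SC.star (hF : SC F C) : SC (fun s => star (F s)) C := by
  refine ⟨fun s => by rw [norm_star]; exact hF.bd s, hF.cont', fun η => ?_⟩
  simpa only [star_star] using hF.cont η

theorem continuous_apply_of_bd {C : ℝ} {F : ℝ → Op H} (hb : ∀ s, ‖F s‖ ≤ C)
    (hc : ∀ η, Continuous fun s => F s η) {v : ℝ → H} (hv : Continuous v) :
    Continuous fun s => F s (v s) := by
  refine continuous_iff_continuousAt.2 fun t => ?_
  have e : (fun s => F s (v s)) = fun s => F s (v s - v t) + F s (v t) := by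
    ext s; simp
  have h1 : Tendsto (fun s => F s (v s - v t)) (𝓝 t) (𝓝 0) := by
    refine squeeze_zero_norm (a := fun s => C * ‖v s - v t‖) (fun s =>
      ((F s).le_opNorm _).trans (mul_le_mul_of_nonneg_right (hb s) (norm_nonneg _))) ?_
    have : Continuous fun s => C * ‖v s - v t‖ := by fun_prop
    simpa using this.tendsto t
  have h2 := h1.add ((hc (v t)).tendsto t)
  rw [ContinuousAt, e]
  simpa using h2

theorem SC.mul (hF : SC F C) (hG : SC G D) : SC (fun s => F s * G s) (C * D) := by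
  refine ⟨fun s => (norm_mul_le _ _).trans
    (mul_le_mul (hF.bd s) (hG.bd s) (norm_nonneg _) hF.nonneg), fun η => ?_, fun η => ?_⟩
  · exact continuous_apply_of_bd hF.bd hF.cont (hG.cont η)
  · simp only [star_mul]
    exact continuous_apply_of_bd hG.star.bd hG.cont' (hF.cont' η)

theorem SC.add (hF : SC F C) (hG : SC G D) : SC (fun s => F s + G s) (C + D) := by
  refine ⟨fun s => (norm_add_le _ _).trans (add_le_add (hF.bd s) (hG.bd s)), fun η => ?_,
    fun η => ?_⟩
  · exact (hF.cont η).add (hG.cont η)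
  · simp only [star_add]
    exact (hF.cont' η).add (hG.cont' η)

theorem SC.const (X : Op H) : SC (fun _ => X) ‖X‖ := by
  exact ⟨fun _ => le_rfl, fun _ => continuous_const, fun _ => continuous_const⟩

theorem SC.comp (hF : SC F C) {φ : ℝ → ℝ} (hφ : Continuous φ) : SC (fun s => F (φ s)) C := by
  exact ⟨fun s => hF.bd _, fun η => (hF.cont η).comp hφ, fun η => (hF.cont' η).comp hφ⟩

theorem SC.of_continuous (h : Continuous F) (hb : ∀ s, ‖F s‖ ≤ C) : SC F C := by
  refine ⟨hb, fun η => ?_, fun η => ?_⟩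
  · exact (ContinuousLinearMap.apply ℂ H η).continuous.comp h
  · exact (ContinuousLinearMap.apply ℂ H η).continuous.comp (continuous_star.comp h)

theorem star_sint (hf : Integrable f) (hF : SC F C) :
    star (sint f F) = sint (fun s => (starRingEnd ℂ) (f s)) fun s => star (F s) := by
  have hf' : Integrable fun s => (starRingEnd ℂ) (f s) :=
    (Complex.conjCLE : ℂ →L[ℝ] ℂ).integrable_comp hf
  ext η
  refine ext_inner_left ℂ fun ζ => ?_
  rw [inner_sint hf' hF.star, ContinuousLinearMap.star_eq_adjoint,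
    ContinuousLinearMap.adjoint_inner_right, ← inner_conj_symm, inner_sint hf hF, ← integral_conj]
  refine integral_congr_ae (.of_forall fun s => ?_)
  simp only [map_mul, inner_conj_symm, ContinuousLinearMap.star_eq_adjoint,
    ContinuousLinearMap.adjoint_inner_right]

theorem mul_sint (hf : Integrable f) (hF : SC F C) (a : Op H) :
    a * sint f F = sint f fun s => a * F s := by
  ext η
  have h2 : SC (fun s => a * F s) (‖a‖ * C) := (SC.const a).mul hF
  rw [sint_apply hf h2, mul_apply_eq_comp, sint_apply hf hF,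
    ← ContinuousLinearMap.integral_comp_comm a (hF.integrable hf η)]
  simp only [map_smul, mul_apply_eq_comp]

theorem sint_mul (hf : Integrable f) (hF : SC F C) (a : Op H) :
    sint f F * a = sint f fun s => F s * a := by
  ext η
  have h2 : SC (fun s => F s * a) (C * ‖a‖) := hF.mul (SC.const a)
  rw [sint_apply hf h2, mul_apply_eq_comp, sint_apply hf hF]
  simp only [mul_apply_eq_comp]

theorem sint_add (hf : Integrable f) (hF : SC F C) (hG : SC G D) :
    sint f (fun s => F s + G s) = sint f F + sint f G := by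
  ext η
  rw [sint_apply hf (hF.add hG), add_apply, sint_apply hf hF, sint_apply hf hG,
    ← integral_add (hF.integrable hf η) (hG.integrable hf η)]
  simp only [add_apply, smul_add]

theorem sint_add_fun (hf : Integrable f) (hg : Integrable g) (hF : SC F C) :
    sint (fun s => f s + g s) F = sint f F + sint g F := by
  ext η
  have hfg : Integrable fun s => f s + g s := hf.add hg
  rw [sint_apply hfg hF, add_apply, sint_apply hf hF, sint_apply hg hF,
    ← integral_add (hF.integrable hf η) (hF.integrable hg η)]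
  simp only [add_smul]

theorem sint_smul_fun (c : ℂ) (hf : Integrable f) (hF : SC F C) :
    sint (fun s => c * f s) F = c • sint f F := by
  ext η
  rw [sint_apply (hf.const_mul c) hF, smul_apply, sint_apply hf hF,
    ← integral_smul]
  simp only [mul_smul]

theorem sint_comm (hf : Integrable f) (hF : SC F C) {a b : Op H} (h : ∀ s, a * F s = F s * b) :
    a * sint f F = sint f F * b := by
  rw [mul_sint hf hF, sint_mul hf hF]
  simp only [h]

theorem sint_mem (hf : Integrable f) (hF : SC F C) {M : VonNeumannAlgebra H}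
    (h : ∀ s, F s ∈ M) : sint f F ∈ M := by
  exact mem_of_comm fun y hy => sint_comm hf hF fun s => (comm_of_mem (h s) hy).symm

theorem sint_shift (hf : Integrable f) (hF : SC F C) (t : ℝ) :
    sint f (fun s => F (s + t)) = sint (fun s => f (s - t)) F := by
  ext η
  have h2 : SC (fun s => F (s + t)) C := hF.comp (φ := fun s => s + t) (by fun_prop)
  rw [sint_apply hf h2, sint_apply (hf.comp_sub_right t) hF,
    ← integral_add_right_eq_self (fun s => f (s - t) • F s η) t]
  simp only [add_sub_cancel_right]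

end

/-- Dunford's theorem: a locally bounded function which is holomorphic against a norming set of
functionals is holomorphic.  For `φ ∈ Φ` the scalar function `φ ∘ F` is bounded by `C` on a
ball of radius `r` about `z`; the Cauchy/Schwarz estimate (`Complex.dist_le_div_mul_dist_of_mapsTo_ball`
applied to `dslope`, or `Complex.norm_deriv_le_of_forall_mem_sphere_norm_le` twice) shows that the
difference quotients satisfy `‖q w - q w'‖ ≤ C' ‖w - w'‖` near `z`, uniformly in `φ`, so they are
Cauchy in `E`. -/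
theorem differentiableOn_of_norming {E : Type*} [NormedAddCommGroup E] [NormedSpace ℂ E]
    [CompleteSpace E] (Φ : Set (E →L[ℂ] ℂ)) (h1 : ∀ φ ∈ Φ, ‖φ‖ ≤ 1)
    (h2 : ∀ (v : E) (c : ℝ), 0 ≤ c → (∀ φ ∈ Φ, ‖φ v‖ ≤ c) → ‖v‖ ≤ c) {U : Set ℂ} (hU : IsOpen U)
    {F : ℂ → E} (hb : ∀ z ∈ U, ∃ r > 0, ∃ C, ∀ w ∈ Metric.ball z r, ‖F w‖ ≤ C)
    (hd : ∀ φ ∈ Φ, DifferentiableOn ℂ (fun z => φ (F z)) U) : DifferentiableOn ℂ F U := by
  intro z hz
  obtain ⟨r₀, hr₀, C, hC⟩ := hb z hz
  obtain ⟨r₁, hr₁, hU₁⟩ := Metric.isOpen_iff.1 hU z hz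
  set r := min r₀ r₁ with hr_def
  have hr : 0 < r := lt_min hr₀ hr₁
  have hC0 : 0 ≤ C := (norm_nonneg _).trans (hC z (Metric.mem_ball_self hr₀))
  have hCr : ∀ w ∈ Metric.ball z r, ‖F w‖ ≤ C := fun w hw =>
    hC w (Metric.ball_subset_ball (min_le_left _ _) hw)
  have hUr : Metric.ball z r ⊆ U := (Metric.ball_subset_ball (min_le_right _ _)).trans hU₁
  set K := 2 * (2 * C / r) / r with hK
  have hK0 : 0 ≤ K := by positivity
  have key : ∀ φ ∈ Φ, ∀ w ∈ Metric.ball z r,
      dist (dslope (fun z => φ (F z)) z w) (dslope (fun z => φ (F z)) z z) ≤ K * dist w z := by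
    intro φ hφ w hw
    have hg : DifferentiableOn ℂ (fun z => φ (F z)) (Metric.ball z r) := (hd φ hφ).mono hUr
    have hb1 : ∀ w ∈ Metric.ball z r, ‖φ (F w)‖ ≤ C := fun w hw =>
      (φ.le_opNorm _).trans ((mul_le_mul (h1 φ hφ) (hCr w hw) (norm_nonneg _) zero_le_one).trans_eq
        (one_mul _))
    have hm : Set.MapsTo (fun z => φ (F z)) (Metric.ball z r)
        (Metric.closedBall (φ (F z)) (2 * C)) := fun w hw => by
      rw [Metric.mem_closedBall, dist_eq_norm]
      have := norm_sub_le (φ (F w)) (φ (F z))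
      linarith [hb1 w hw, hb1 z (Metric.mem_ball_self hr)]
    have hs : ∀ w ∈ Metric.ball z r, ‖dslope (fun z => φ (F z)) z w‖ ≤ 2 * C / r := fun w hw =>
      Complex.norm_dslope_le_div_of_mapsTo_ball hg hm hw
    have hg' : DifferentiableOn ℂ (dslope (fun z => φ (F z)) z) (Metric.ball z r) :=
      (Complex.differentiableOn_dslope (Metric.ball_mem_nhds z hr)).2 hg
    refine Complex.dist_le_div_mul_dist_of_mapsTo_ball hg' (fun w hw => ?_) hw
    rw [Metric.mem_closedBall, dist_eq_norm]
    have := norm_sub_le (dslope (fun z => φ (F z)) z w) (dslope (fun z => φ (F z)) z z)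
    linarith [hs w hw, hs z (Metric.mem_ball_self hr)]
  have key2 : ∀ w ∈ Metric.ball z r, ∀ w' ∈ Metric.ball z r, w ≠ z → w' ≠ z →
      ‖slope F z w - slope F z w'‖ ≤ K * dist w z + K * dist w' z := by
    intro w hw w' hw' h h'
    refine h2 _ _ (by positivity) fun φ hφ => ?_
    have e : ∀ w, w ≠ z → φ (slope F z w) = dslope (fun z => φ (F z)) z w := fun w h => by
      rw [dslope_of_ne _ h, slope_def_module, slope_def_module, map_smul, map_sub]
    rw [map_sub, e w h, e w' h', ← dist_eq_norm]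
    exact (dist_triangle_right _ _ (dslope (fun z => φ (F z)) z z)).trans
      (add_le_add (key φ hφ w hw) (key φ hφ w' hw'))
  have hc : Cauchy (map (slope F z) (𝓝[≠] z)) := by
    rw [Metric.cauchy_iff]
    refine ⟨inferInstance, fun ε hε => ?_⟩
    set ρ := min r (ε / (2 * K + 1)) with hρ
    have hρ0 : 0 < ρ := lt_min hr (by positivity)
    refine ⟨slope F z '' (Metric.ball z ρ ∩ {z}ᶜ), image_mem_map
      (inter_mem (mem_nhdsWithin_of_mem_nhds (Metric.ball_mem_nhds z hρ0)) self_mem_nhdsWithin), ?_⟩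
    rintro _ ⟨w, ⟨hw, hw1⟩, rfl⟩ _ ⟨w', ⟨hw', hw1'⟩, rfl⟩
    have hsub : Metric.ball z ρ ⊆ Metric.ball z r := Metric.ball_subset_ball (min_le_left _ _)
    have h3 := key2 w (hsub hw) w' (hsub hw') hw1 hw1'
    rw [dist_eq_norm]
    have h4 : dist w z ≤ ε / (2 * K + 1) := (Metric.mem_ball.1 hw).le.trans (min_le_right _ _)
    have h5 : dist w' z ≤ ε / (2 * K + 1) := (Metric.mem_ball.1 hw').le.trans (min_le_right _ _)
    have h6 : K * (ε / (2 * K + 1)) + K * (ε / (2 * K + 1)) < ε := by
      rw [← add_mul, ← mul_div_assoc, div_lt_iff₀ (by positivity)]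
      nlinarith
    have h7 := mul_le_mul_of_nonneg_left h4 hK0
    have h8 := mul_le_mul_of_nonneg_left h5 hK0
    linarith
  obtain ⟨v, hv⟩ := cauchy_map_iff_exists_tendsto.1 hc
  exact (hasDerivAt_iff_tendsto_slope.2 hv).differentiableAt.differentiableWithinAt

theorem differentiable_of_weak {F : ℂ → Op H}
    (hb : ∀ z, ∃ r > 0, ∃ C, ∀ w ∈ Metric.ball z r, ‖F w‖ ≤ C)
    (hd : ∀ η ζ : H, Differentiable ℂ fun z => ⟪ζ, F z η⟫_ℂ) : Differentiable ℂ F := by
  rw [← differentiableOn_univ]
  refine differentiableOn_of_norming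
    {φ | ∃ η ζ : H, ‖η‖ ≤ 1 ∧ ‖ζ‖ ≤ 1 ∧
      φ = (innerSL ℂ ζ).comp (ContinuousLinearMap.apply ℂ H η)} ?_ ?_ isOpen_univ
    (fun z _ => hb z) ?_
  · rintro _ ⟨η, ζ, hη, hζ, rfl⟩
    refine ContinuousLinearMap.opNorm_le_bound _ zero_le_one fun X => ?_
    change ‖⟪ζ, X η⟫_ℂ‖ ≤ _
    refine (norm_inner_le_norm _ _).trans ?_
    have := X.le_opNorm η
    have h3 : ‖X η‖ ≤ ‖X‖ := this.trans (mul_le_of_le_one_right (norm_nonneg _) hη)
    exact mul_le_mul hζ h3 (norm_nonneg _) zero_le_one
  · intro X c hc h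
    refine ContinuousLinearMap.opNorm_le_of_unit_norm hc fun η hη => ?_
    rcases eq_or_ne (X η) 0 with h0 | h0
    · rw [h0, norm_zero]; exact hc
    · have hn : 0 < ‖X η‖ := norm_pos_iff.2 h0
      have h1 := h _ ⟨η, ((‖X η‖⁻¹ : ℝ) : ℂ) • X η, hη.le, by
        rw [norm_smul, Complex.norm_real, norm_inv, norm_norm, inv_mul_cancel₀ hn.ne'], rfl⟩
      change ‖⟪((‖X η‖⁻¹ : ℝ) : ℂ) • X η, X η⟫_ℂ‖ ≤ c at h1
      rw [inner_smul_left, norm_mul, Complex.conj_ofReal, Complex.norm_real, norm_inv, norm_norm,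
        inner_self_eq_norm_sq_to_K] at h1
      simp only [norm_pow, RCLike.norm_ofReal, abs_norm] at h1
      rwa [sq, ← mul_assoc, inv_mul_cancel₀ hn.ne', one_mul] at h1
  · rintro _ ⟨η, ζ, -, -, rfl⟩
    exact (hd η ζ).differentiableOn

/-- `z ↦ ⟪w (conj z), v z⟫` is holomorphic. -/
theorem differentiableOn_inner_conj {U : Set ℂ} (hU : IsOpen U)
    (hc : ∀ z ∈ U, (starRingEnd ℂ) z ∈ U) {v w : ℂ → H} (hv : DifferentiableOn ℂ v U)
    (hw : DifferentiableOn ℂ w U) :
    DifferentiableOn ℂ (fun z => ⟪w ((starRingEnd ℂ) z), v z⟫_ℂ) U := by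
  intro z hz
  have h1 : DifferentiableAt ℂ w ((starRingEnd ℂ) z) :=
    (hw _ (hc z hz)).differentiableAt (hU.mem_nhds (hc z hz))
  have h2 := h1.comp_semilinear₁ (starRingEnd ℂ) (innerSL ℂ : H →L⋆[ℂ] H →L[ℂ] ℂ)
  rw [Complex.conj_conj] at h2
  exact (h2.clm_apply ((hv z hz).differentiableAt (hU.mem_nhds hz))).differentiableWithinAt

/-- `z ↦ (X (conj z))*` is holomorphic. -/
theorem differentiable_star_conj {X : ℂ → Op H} (h : Differentiable ℂ X) :
    Differentiable ℂ fun z => star (X ((starRingEnd ℂ) z)) := by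
  intro z
  exact differentiableAt_star_conj_iff.2 (h _)

end Crest.Agent.R78
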