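import Crest.Agent.R78.StarDef

/-! # R78: intertwiners of placed Cuntz families (task `StarA`) -/

set_option autoImplicit false
set_option linter.unusedSectionVars false
open Filter Topology
open scoped InnerProductSpace

namespace Crest.Agent.R78

universe u
variable {H : Type u} [NormedAddCommGroup H] [InnerProductSpace ℂ H] [CompleteSpace H]

section
variable {𝓗 : Type u} [NormedAddCommGroup 𝓗] [InnerProductSpace ℂ 𝓗] [CompleteSpace 𝓗]
  {A : Type} {o : A}

/-- `f k = (R₁ T*)ᵏ ((R₂ T*)ᵏ)*` satisfies `f (k+1) = R₁ (T* f k T) R₂* ∈ Mt N` (`rho_mem`).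
`Mean.fixed` gives `R₁ (T* a T) R₂* = a`; use `rho_v` and `star_v_mul`.
For the commutant apply this lemma to `F.flip` (`flip_Mt`, `flip_T`, `star_star`). -/
theorem Frame.exists_intw (F : Frame H 𝓗 A o) {N : VonNeumannAlgebra H} {R₁ R₂ : Op 𝓗}
    (h1 : R₁ ∈ F.Mt N) (u1 : R₁ ∈ unitary (Op 𝓗)) (h2 : R₂ ∈ F.Mt N) (u2 : R₂ ∈ unitary (Op 𝓗))
    (𝒰 : Ultrafilter ℕ) (h𝒰 : (𝒰 : Filter ℕ) ≤ atTop) :
    ∃ a ∈ F.Mt N, Mean 𝒰 (fun k => (R₁ * star F.T) ^ k * star ((R₂ * star F.T) ^ k)) a ∧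
      ‖a‖ ≤ 1 ∧ ∀ j, a * (R₂ * F.v j) = R₁ * F.v j * a ∧
        a * star (R₂ * F.v j) = star (R₁ * F.v j) * a := by
  have w1 : R₁ * star F.T ∈ unitary (Op 𝓗) := mul_mem u1 (Unitary.star_mem F.T_unitary)
  have w2 : R₂ * star F.T ∈ unitary (Op 𝓗) := mul_mem u2 (Unitary.star_mem F.T_unitary)
  set f : ℕ → Op 𝓗 := fun k => (R₁ * star F.T) ^ k * star ((R₂ * star F.T) ^ k) with hf
  have hr : ∀ k, ‖f k‖ ≤ 1 := fun k =>
    norm_unitary_le (mul_mem (pow_mem w1 k) (Unitary.star_mem (pow_mem w2 k)))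
  have hs : ∀ k, R₁ * star F.T * f k * (F.T * star R₂) = f (k + 1) := fun k => by
    simp only [hf, pow_succ', star_mul, star_star, mul_assoc]
  have hm : ∀ k, f k ∈ F.Mt N := fun k => by
    induction k with
    | zero => simp [hf]
    | succ k ih =>
      rw [← hs]
      have := mul_mem (mul_mem h1 (F.rho_mem ih)) (star_mem h2)
      simpa only [mul_assoc] using this
  obtain ⟨a, ha⟩ := exists_Mean 𝒰 f 1 hr
  have ham := ha.mem hm
  have hfix := ha.fixed h𝒰 hr hs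
  have hρ := F.rho_v (X := a) fun j => ((F.mem_Mt.1 ham).2 j).1.symm
  refine ⟨a, ham, ha, ha.norm_le hr, fun j => ⟨?_, ?_⟩⟩
  · calc a * (R₂ * F.v j) = R₁ * star F.T * a * (F.T * star R₂) * (R₂ * F.v j) := by rw [hfix]
      _ = R₁ * (star F.T * a * F.T * F.v j) := by simp only [mul_assoc, un_l u2]
      _ = R₁ * F.v j * a := by rw [hρ, mul_assoc]
  · calc a * star (R₂ * F.v j) = a * star (F.v j) * star R₂ := by rw [star_mul, mul_assoc]
      _ = star (F.v j) * (star F.T * a * F.T) * star R₂ := by rw [F.star_v_mul hρ j]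
      _ = star (R₁ * F.v j) * (R₁ * star F.T * a * (F.T * star R₂)) := by
          simp only [star_mul, mul_assoc, un_l u1]
      _ = star (R₁ * F.v j) * a := by rw [hfix]

/-- `exists_polar` (`ε = 3/10`) for `X = a E + (1 - E)`:
`‖X η‖² = ‖a E η‖² + ‖(1-E) η‖²`; `b = w E`; `X (E x) = (E y) X`. -/
theorem exists_cutPI {P : VonNeumannAlgebra 𝓗} {a E : Op 𝓗} (ha : a ∈ P) (h1 : ‖a‖ ≤ 1)
    (hE : IsStarProjection E) (hEP : Ctr P E)
    (hl : ∀ η, E η = η → 1 / 2 * ‖η‖ ^ 2 ≤ ‖a η‖ ^ 2 ∧ 1 / 2 * ‖η‖ ^ 2 ≤ ‖star a η‖ ^ 2) :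
    ∃ b ∈ P, star b * b = E ∧ b * star b = E ∧ ∀ x ∈ P, ∀ y ∈ P, a * x = y * a →
      a * star x = star y * a → b * x = y * b ∧ b * star x = star y * b := by
  have hEE : E * E = E := hE.isIdempotentElem.eq
  have hEs : star E = E := hE.isSelfAdjoint.star_eq
  have hc : ∀ x ∈ P, x * E = E * x := fun x hx => comm_of_mem hx hEP.2
  have hfix : ∀ η, E (E η) = E η := fun η => by rw [← mul_apply_eq_comp, hEE]
  have py : ∀ b ∈ P, ∀ η, ‖(b * E + (1 - E)) η‖ ^ 2 = ‖b (E η)‖ ^ 2 + ‖η - E η‖ ^ 2 :=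
    fun b hb η => by
      change ‖b (E η) + (η - E η)‖ ^ 2 = _
      rw [sq, sq, sq]
      refine norm_add_sq_eq_norm_sq_add_norm_sq_of_inner_eq_zero (𝕜 := ℂ) _ _ ?_
      have e : b (E η) = E (b η) := by rw [← mul_apply_eq_comp, hc b hb, mul_apply_eq_comp]
      rw [e, ← ContinuousLinearMap.adjoint_inner_right, ← ContinuousLinearMap.star_eq_adjoint, hEs,
        map_sub, hfix, sub_self, inner_zero_right]
  have py1 : ∀ η, ‖η‖ ^ 2 = ‖E η‖ ^ 2 + ‖η - E η‖ ^ 2 := fun η => by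
    have := py 1 (one_mem _) η
    rwa [one_mul, add_sub_cancel] at this
  have low : ∀ b ∈ P, (∀ η, E η = η → 1 / 2 * ‖η‖ ^ 2 ≤ ‖b η‖ ^ 2) → ∀ η,
      (1 - 3 / 10) * ‖η‖ ≤ ‖(b * E + (1 - E)) η‖ := fun b hb h η => by
    refine (pow_le_pow_iff_left₀ (by positivity) (norm_nonneg _) two_ne_zero).1 ?_
    rw [py b hb, mul_pow, py1 η]
    have := h _ (hfix η)
    nlinarith [sq_nonneg ‖E η‖, sq_nonneg ‖η - E η‖]
  have hXs : star (a * E + (1 - E)) = star a * E + (1 - E) := by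
    rw [star_add, star_mul, star_sub, star_one, hEs, hc _ (star_mem ha)]
  have hXP : a * E + (1 - E) ∈ P := add_mem (mul_mem ha hEP.1) (sub_mem (one_mem _) hEP.1)
  obtain ⟨w, hw, -, -, hwc⟩ := exists_polar (X := a * E + (1 - E)) (ε := 3 / 10) (by norm_num)
    (by norm_num) (low a ha fun η h => (hl η h).1)
    (by rw [hXs]; exact low _ (star_mem ha) fun η h => (hl η h).2) (by
      refine ContinuousLinearMap.opNorm_le_bound _ (by norm_num) fun η => ?_
      refine (pow_le_pow_iff_left₀ (norm_nonneg _) (by positivity) two_ne_zero).1 ?_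
      rw [py a ha, mul_pow, py1 η]
      have h2 : ‖a (E η)‖ ≤ ‖E η‖ :=
        (a.le_opNorm _).trans (mul_le_of_le_one_left (norm_nonneg _) h1)
      have h3 := pow_le_pow_left₀ (norm_nonneg _) h2 2
      nlinarith [sq_nonneg ‖E η‖, sq_nonneg ‖η - E η‖])
  have hwP : w ∈ P := mem_of_comm fun y hy =>
    (hwc y y (comm_of_mem hXP hy) (comm_of_mem hXP (star_mem hy))).symm
  have hwE := hc w hwP
  have k0 : ∀ x ∈ P, ∀ y ∈ P, a * x = y * a →
      (a * E + (1 - E)) * (E * x) = E * y * (a * E + (1 - E)) := fun x hx y hy h => by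
    have e1 : (a * E + (1 - E)) * E = a * E := by
      rw [add_mul, mul_assoc, hEE, sub_mul, one_mul, hEE, sub_self, add_zero]
    have e2 : E * (a * E + (1 - E)) = a * E := by
      rw [mul_add, ← mul_assoc, ← hc a ha, mul_assoc, hEE, mul_sub, mul_one, hEE, sub_self,
        add_zero]
    rw [← mul_assoc, e1, ← hc y hy, mul_assoc y, e2, ← mul_assoc y, ← h, mul_assoc, mul_assoc,
      hc x hx]
  have key : ∀ x ∈ P, ∀ y ∈ P, a * x = y * a → a * star x = star y * a →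
      w * E * x = y * (w * E) := fun x hx y hy h h' => by
    have := hwc (E * x) (E * y) (k0 x hx y hy h) (by
      rw [star_mul, star_mul, hEs, hc _ (star_mem hx), hc _ (star_mem hy)]
      exact k0 _ (star_mem hx) _ (star_mem hy) h')
    rw [mul_assoc, this, ← hc y hy, mul_assoc, ← hwE]
  refine ⟨w * E, mul_mem hwP hEP.1, ?_, ?_, fun x hx y hy h h' =>
    ⟨key x hx y hy h h', key _ (star_mem hx) _ (star_mem hy) h' (by rwa [star_star, star_star])⟩⟩
  · rw [star_mul, hEs, mul_assoc, un_l hw, hEE]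
  · rw [star_mul, hEs, mul_assoc, ← mul_assoc E, hEE, ← mul_assoc, hwE, mul_assoc, hw.2, mul_one]

/-- `lift` preserves positivity (`0 ≤ x` gives `x = d* d`; or use `ev_par`-type sums). -/
theorem Frame.lift_nonneg (F : Frame H 𝓗 A o) {x : Op H} (hx : IsSelfAdjoint x)
    (h : ∀ η, 0 ≤ (⟪η, x η⟫_ℂ).re) (η : 𝓗) : 0 ≤ (⟪η, F.lift x η⟫_ℂ).re := by
  have h0 : 0 ≤ x := by
    rw [ContinuousLinearMap.nonneg_iff_isPositive, ContinuousLinearMap.isPositive_def']
    refine ⟨hx, fun ζ => ?_⟩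
    rw [ContinuousLinearMap.reApplyInnerSelf_apply, inner_re_symm]
    exact h ζ
  obtain ⟨d, rfl⟩ := CStarAlgebra.nonneg_iff_eq_star_mul_self.1 h0
  rw [map_mul, map_star, mul_apply_eq_comp, ContinuousLinearMap.star_eq_adjoint,
    ContinuousLinearMap.adjoint_inner_right]
  exact inner_self_nonneg (𝕜 := ℂ)

end

namespace Ctx
variable {𝓗 : Type u} [NormedAddCommGroup 𝓗] [InnerProductSpace ℂ 𝓗] [CompleteSpace 𝓗]
  {A : Type} {o : A} (c : Ctx H 𝓗 A o)

theorem stA_mul {a b : Op 𝓗} {x y w : A → Op 𝓗} (h : Intw a x y) (h' : Intw b y w) :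
    Intw (b * a) x w := fun j =>
  ⟨by rw [mul_assoc, (h j).1, ← mul_assoc, (h' j).1, mul_assoc],
    by rw [mul_assoc, (h j).2, ← mul_assoc, (h' j).2, mul_assoc]⟩

theorem stA_star {a : Op 𝓗} {x y : A → Op 𝓗} (h : Intw a x y) : Intw (star a) y x := fun j =>
  ⟨by simpa only [star_mul, star_star] using (congrArg star (h j).2).symm,
    by simpa only [star_mul] using (congrArg star (h j).1).symm⟩

theorem stA_of_C2 {a : Op 𝓗} {x : A → Op 𝓗} (h : ∀ j, C2 (x j) a) : Intw a x x := fun j =>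
  ⟨(h j).1.symm, (h j).2.symm⟩

theorem stA_C2 {a : Op 𝓗} {x : A → Op 𝓗} (h : Intw a x x) (j : A) : C2 (x j) a :=
  ⟨(h j).1.symm, (h j).2.symm⟩

theorem stA_of_unitary {D : Op 𝓗} (hD : D ∈ unitary (Op 𝓗)) {x y : A → Op 𝓗}
    (h : ∀ j, D * x j = y j * D) : Intw D x y := fun j => ⟨h j, by
  have e := congrArg star (h j)
  rw [star_mul, star_mul] at e
  calc D * star (x j) = D * (star (x j) * star D) * D := by
        rw [mul_assoc, mul_assoc, hD.1, mul_one]
    _ = star (y j) * D := by rw [e, un_r hD]⟩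

theorem stA_normal {a : Op 𝓗} (h1 : star a * a * a = a * (star a * a))
    (h2 : a * star a * star a = star a * (a * star a)) : star a * a = a * star a := by
  have h3 : star a * a * star a = star a * (star a * a) := by
    have := congrArg star h1
    simpa only [star_mul, star_star, mul_assoc] using this.symm
  have e1 : (star a * a - a * star a) * a = 0 := by
    rw [sub_mul, h1, mul_assoc, sub_self]
  have e2 : (star a * a - a * star a) * star a = star a * (star a * a - a * star a) := by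
    rw [sub_mul, mul_sub, h3, h2]
  have e3 : star (star a * a - a * star a) = star a * a - a * star a := by
    simp only [star_sub, star_mul, star_star]
  refine sub_eq_zero.1 ((CStarRing.star_mul_self_eq_zero_iff _).1 ?_)
  rw [e3]
  set d := star a * a - a * star a with hd
  calc d * d = d * star a * a - d * a * star a := by
        conv_lhs => rw [hd]
        rw [mul_sub, ← hd, mul_assoc, mul_assoc]
    _ = 0 := by rw [e2, mul_assoc, e1, mul_zero, zero_mul, sub_self]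

theorem r_mem (t s : ℝ) (j : A) : c.r t s j ∈ c.F.Mt c.N := by
  exact mul_mem (c.V_mem t (c.pl s).R_mem) (c.F.Sc_le (c.F.v_mem_Sc j) c.N)

theorem r'_mem (t s : ℝ) (j : A) : c.r' t s j ∈ (c.F.Mt c.N).commutant := by
  exact mul_mem (c.V_mem' t (c.pl s).R'_mem) (c.F.v'_mem' c.N j)

theorem D_unitary (t s : ℝ) : c.V t * c.B s * c.U s ∈ unitary (Op 𝓗) := by
  exact mul_mem (mul_mem (c.V_unitary t) (c.pl s).B_uni) (c.U_unitary s)

theorem D_ctr (t s : ℝ) {z : Op H} (hz : Ctr c.M z) :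
    c.F.lift z * (c.V t * c.B s * c.U s) = c.V t * c.B s * c.U s * c.F.lift z := by
  have h1 : Commute (c.F.lift z) (c.V t) := c.V_ctr t hz
  have h2 : Commute (c.F.lift z) (c.B s) := ((c.pl s).ctr z hz ((c.ctr z).1 hz)).symm
  have h3 : Commute (c.F.lift z) (c.U s) := c.U_ctr s hz
  exact ((h1.mul_right h2).mul_right h3).eq

/-- `D = V t B s U s` carries `W v j` to `r t s j` (`B_v`; `U`, `V` commute with `v j`); the adjoint
relation follows as `D` is unitary. -/
theorem D_intw (t s : ℝ) :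
    Intw (c.V t * c.B s * c.U s) (fun j => c.W * c.F.v j) (c.r t s) ∧
      Intw (c.V t * c.B s * c.U s) (fun j => c.W' * c.F.v' j) (c.r' t s) := by
  have hU : c.U (-s) * c.U s = 1 := by rw [c.U_mul, neg_add_cancel, c.U_zero]
  have hV : c.V (-t) * c.V t = 1 := by rw [c.V_mul, neg_add_cancel, c.V_zero]
  have gen : ∀ W R v : Op 𝓗, c.U s * v = v * c.U s → c.V t * v = v * c.V t →
      c.B s * (c.U s * W * c.U (-s) * v) = R * v * c.B s →
      c.V t * c.B s * c.U s * (W * v) = c.V t * R * c.V (-t) * v * (c.V t * c.B s * c.U s) :=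
    fun W R v h1 h2 h3 => by
      calc c.V t * c.B s * c.U s * (W * v)
          = c.V t * c.B s * c.U s * W * (c.U (-s) * c.U s) * v := by
            rw [hU, mul_one, mul_assoc _ W]
        _ = c.V t * (c.B s * (c.U s * W * c.U (-s) * v)) * c.U s := by
            simp only [mul_assoc, h1]
        _ = c.V t * R * (c.V (-t) * c.V t) * v * c.B s * c.U s := by
            rw [h3, hV, mul_one]; simp only [mul_assoc]
        _ = c.V t * R * c.V (-t) * (c.V t * v) * c.B s * c.U s := by simp only [mul_assoc]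
        _ = _ := by rw [h2]; simp only [mul_assoc]
  exact ⟨stA_of_unitary (c.D_unitary t s) fun j =>
      gen _ _ _ (c.F.lift_v _ j) (c.F.lift_v _ j) ((c.pl s).B_v j),
    stA_of_unitary (c.D_unitary t s) fun j =>
      gen _ _ _ (c.F.lift_v' _ j) (c.F.lift_v' _ j) ((c.pl s).B_v' j)⟩

/-- Apply `pair.simple` to `D* X D`. -/
theorem simple_r (t s : ℝ) {X : Op 𝓗} (h : ∀ j, C2 (c.r t s j) X) (h' : ∀ j, C2 (c.r' t s j) X) :
    ∃ z, Ctr c.M z ∧ X = c.F.lift z := by
  obtain ⟨d1, d2⟩ := c.D_intw t s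
  have hD := c.D_unitary t s
  obtain ⟨z, hz, e⟩ := c.pair.simple _
    (stA_C2 (stA_mul (stA_mul d1 (stA_of_C2 h)) (stA_star d1)))
    (stA_C2 (stA_mul (stA_mul d2 (stA_of_C2 h')) (stA_star d2)))
  refine ⟨z, hz, ?_⟩
  have e2 := congrArg (fun Y => c.V t * c.B s * c.U s * Y * star (c.V t * c.B s * c.U s)) e
  beta_reduce at e2
  rw [un_r hD, mul_assoc X, hD.2, mul_one, ← c.D_ctr t s hz, mul_assoc (c.F.lift z), hD.2,
    mul_one] at e2
  exact e2

/-- `a* a` commutes with `r t s`, `r' t s`; `a a*` with `r 0 s'`, `r' 0 s'`; so they are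
`lift z`, `lift z₂`, and `lift (z - z₂) a = 0` gives `(z - z₂) z = 0 = (z - z₂) z₂`, `z = z₂`
(`lift` is injective by `cmp_lift`; `z - z₂` is self-adjoint). -/
theorem sq_ctr {t s s' : ℝ} {a : Op 𝓗} (ha : a ∈ c.F.Mt c.N) (h : Intw a (c.r t s) (c.r 0 s')) :
    ∃ z, Ctr c.M z ∧ c.PI z a := by
  have hC : ∀ t s j X, X ∈ c.F.Mt c.N → C2 (c.r' t s j) X := fun t s j X hX =>
    ⟨(comm_of_mem hX (c.r'_mem t s j)).symm, (comm_of_mem hX (star_mem (c.r'_mem t s j))).symm⟩
  obtain ⟨z, hz, e⟩ := c.simple_r t s (stA_C2 (stA_mul h (stA_star h)))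
    fun j => hC _ _ j _ (mul_mem (star_mem ha) ha)
  obtain ⟨z₂, hz₂, e₂⟩ := c.simple_r 0 s' (stA_C2 (stA_mul (stA_star h) h))
    fun j => hC _ _ j _ (mul_mem ha (star_mem ha))
  refine ⟨z, hz, e, ?_⟩
  rw [← e]
  refine (stA_normal ?_ ?_).symm
  · rw [e]
    exact (comm_of_mem ha (c.F.lift_mem' ((c.ctr z).1 hz).2)).symm
  · rw [e₂]
    exact (comm_of_mem (star_mem ha) (c.F.lift_mem' ((c.ctr z₂).1 hz₂).2)).symm

theorem sq_ctr' {t s s' : ℝ} {a : Op 𝓗} (ha : a ∈ (c.F.Mt c.N).commutant)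
    (h : Intw a (c.r' t s) (c.r' 0 s')) : ∃ z, Ctr c.M z ∧ c.PI z a := by
  have hC : ∀ t s j X, X ∈ (c.F.Mt c.N).commutant → C2 (c.r t s j) X := fun t s j X hX =>
    ⟨comm_of_mem (c.r_mem t s j) hX, comm_of_mem (star_mem (c.r_mem t s j)) hX⟩
  obtain ⟨z, hz, e⟩ := c.simple_r t s (fun j => hC _ _ j _ (mul_mem (star_mem ha) ha))
    (stA_C2 (stA_mul h (stA_star h)))
  obtain ⟨z₂, hz₂, e₂⟩ := c.simple_r 0 s' (fun j => hC _ _ j _ (mul_mem ha (star_mem ha)))
    (stA_C2 (stA_mul (stA_star h) h))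
  refine ⟨z, hz, e, ?_⟩
  rw [← e]
  refine (stA_normal ?_ ?_).symm
  · rw [e]
    exact comm_of_mem (c.F.lift_mem ((c.ctr z).1 hz).1) ha
  · rw [e₂]
    exact comm_of_mem (c.F.lift_mem ((c.ctr z₂).1 hz₂).1) (star_mem ha)

/-- `X = D₁* a a' D₂` with `D₁ = V 0 B (s+t) U (s+t)`, `D₂ = V t B s U s` commutes with the two
Cuntz families, so `X = lift z`, `lift (z* z) = lift e`.  Replace `a` by `lift z* a`:
`lift z* a a' V t = lift e B (s+t) U t (B s)*`. -/
theorem rel_core {t s : ℝ} {e : Op H} (he : c.CP e) {a a' : Op 𝓗} (ha : a ∈ c.F.Mt c.N)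
    (ha' : a' ∈ (c.F.Mt c.N).commutant) (h1 : c.PI e a) (h1' : c.PI e a')
    (h : Intw a (c.r t s) (c.r 0 (s + t))) (h' : Intw a' (c.r' t s) (c.r' 0 (s + t))) :
    c.Rel t e (2 * c.ε) := by
  obtain ⟨d1, d1'⟩ := c.D_intw 0 (s + t)
  obtain ⟨d2, d2'⟩ := c.D_intw t s
  have u1 := c.D_unitary 0 (s + t)
  have u2 := c.D_unitary t s
  have i1 : Intw a' (c.r t s) (c.r t s) := stA_of_C2 fun j =>
    ⟨comm_of_mem (c.r_mem t s j) ha', comm_of_mem (star_mem (c.r_mem t s j)) ha'⟩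
  have i2 : Intw a (c.r' 0 (s + t)) (c.r' 0 (s + t)) := stA_of_C2 fun j =>
    ⟨(comm_of_mem ha (c.r'_mem _ _ j)).symm, (comm_of_mem ha (star_mem (c.r'_mem _ _ j))).symm⟩
  obtain ⟨z, hz, e0⟩ := c.pair.simple _
    (stA_C2 (stA_mul (stA_mul (stA_mul d2 i1) h) (stA_star d1)))
    (stA_C2 (stA_mul (stA_mul (stA_mul d2' h') i2) (stA_star d1')))
  have hzs : Ctr c.M (star z) := ⟨star_mem hz.1, star_mem hz.2⟩
  have k1 := c.D_ctr 0 (s + t) hz
  have k2 := c.D_ctr t s he.1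
  set D₁ := c.V 0 * c.B (s + t) * c.U (s + t) with hD₁
  set D₂ := c.V t * c.B s * c.U s with hD₂
  set Z := c.F.lift z with hZ
  set E := c.F.lift e with hE
  have hEE : E * E = E := by rw [hE, ← map_mul, he.2.isIdempotentElem.eq]
  have hEs : star E = E := by rw [hE, ← map_star, he.2.isSelfAdjoint.star_eq]
  have hEa : a * E = E * a := comm_of_mem ha (c.F.lift_mem' ((c.ctr e).1 he.1).2)
  have hEa' : E * a' = a' * E := comm_of_mem (c.F.lift_mem ((c.ctr e).1 he.1).1) ha'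
  have hZZ : star Z * Z = E := by
    rw [← e0]
    calc star (star D₁ * (a * (a' * D₂))) * (star D₁ * (a * (a' * D₂)))
        = star D₂ * (star a' * ((star a * a) * a') * D₂) := by
          simp only [star_mul, star_star, mul_assoc, un_r u1]
      _ = star D₂ * ((star a' * a') * E * D₂) := by
          rw [h1.1, ← hE, hEa', ← mul_assoc (star a')]
      _ = E := by rw [h1'.1, ← hE, hEE, k2, un_l u2]
  have hZZ' : Z * star Z = E := by
    rw [← hZZ, hZ, ← map_star, ← map_mul, ← map_mul, comm_of_mem hz.1 hzs.2]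
  have hZE : E * Z = Z * E := by rw [hE, hZ, ← map_mul, ← map_mul, comm_of_mem he.1.1 hz.2]
  refine ⟨star Z * a, mul_mem (star_mem (c.F.lift_mem ((c.ctr z).1 hz).1)) ha, a', ha',
    ⟨?_, ?_⟩, h1', ?_⟩
  · rw [star_mul, star_star, mul_assoc, ← mul_assoc Z, hZZ', ← hEa, ← mul_assoc, h1.1, ← hE, hEE]
  · rw [star_mul, star_star, mul_assoc, ← mul_assoc a, h1.2, ← hE, hZE, ← mul_assoc, hZZ, hEE]
  · have e1 : a * a' = D₁ * Z * star D₂ := by
      rw [← e0, un_r u1, mul_assoc, mul_assoc, u2.2, mul_one]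
    have hV : c.V (-t) * c.V t = 1 := by rw [c.V_mul, neg_add_cancel, c.V_zero]
    have e2 : star Z * a * a' * c.V t = E * (c.B (s + t) * c.U t * star (c.B s)) := by
      rw [mul_assoc (star Z), e1, ← k1, ← mul_assoc, ← mul_assoc, hZZ, hD₁, hD₂, c.V_zero, one_mul,
        star_mul, star_mul, c.star_V, c.star_U]
      have : c.U (s + t) * c.U (-s) = c.U t := by rw [c.U_mul]; congr 1; ring
      rw [← this]
      simp only [mul_assoc, hV, mul_one]
    have nE : ‖E‖ ≤ 1 := IsStarProjection.norm_le E ⟨hEE, hEs⟩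
    have e3 : c.B (s + t) * c.U t * star (c.B s) - c.U t =
        (c.B (s + t) - 1) * (c.U t * star (c.B s)) + c.U t * (star (c.B s) - 1) := by
      noncomm_ring
    have n3 : ‖c.B (s + t) * c.U t * star (c.B s) - c.U t‖ ≤ 2 * c.ε := by
      rw [e3]
      refine (norm_add_le _ _).trans ?_
      rw [CStarRing.norm_mul_mem_unitary _
          (mul_mem (c.U_unitary t) (Unitary.star_mem (c.pl s).B_uni)),
        CStarRing.norm_mem_unitary_mul _ (c.U_unitary t), norm_star_sub_one]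
      linarith [(c.pl (s + t)).B_near, (c.pl s).B_near]
    rw [e2, ← hE, ← mul_sub]
    exact (norm_mul_le _ _).trans ((mul_le_of_le_one_left (norm_nonneg _) nE).trans n3)

end Ctx

end Crest.Agent.R78
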