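import Crest.Agent.R78.StarA
import Crest.Agent.R78.L2Int

/-! # R78: the mass estimate (task `StarB`) -/

set_option autoImplicit false
set_option linter.unusedSectionVars false
open Filter Topology
open scoped InnerProductSpace

namespace Crest.Agent.R78

universe u
variable {H : Type u} [NormedAddCommGroup H] [InnerProductSpace ℂ H] [CompleteSpace H]

open MeasureTheory

theorem sb_gauss : Integrable fun s : ℝ => Real.exp (-2 * s ^ 2) :=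
  integrable_exp_neg_mul_sq (b := 2) two_pos

theorem sb_int {f : ℝ → ℝ} (hf : Continuous f) {C : ℝ} (h0 : ∀ s, 0 ≤ f s) (h1 : ∀ s, f s ≤ C) :
    Integrable fun s : ℝ => Real.exp (-2 * s ^ 2) * f s := by
  refine (sb_gauss.mul_const C).mono' (Continuous.aestronglyMeasurable (by fun_prop))
    (.of_forall fun s => ?_)
  rw [Real.norm_of_nonneg (mul_nonneg (Real.exp_pos _).le (h0 s))]
  exact mul_le_mul_of_nonneg_left (h1 s) (Real.exp_pos _).le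

theorem sb_key {α β α' β' : H} {μ ε : ℝ} (ha : ‖α‖ = μ) (hb : ‖β‖ = μ) (h1 : ‖α - α'‖ ≤ ε * μ)
    (h2 : ‖β - β'‖ ≤ ε * μ) : μ ^ 2 - ‖β' - α'‖ ^ 2 - 4 * ε ^ 2 * μ ^ 2 ≤ (⟪α, β⟫_ℂ).re := by
  have h3 := norm_sub_sq (𝕜 := ℂ) α β
  rw [ha, hb, RCLike.re_to_complex] at h3
  have h4 : ‖α - β‖ ≤ ‖β' - α'‖ + 2 * (ε * μ) := by
    have e : α - β = (α - α') - (β' - α') - (β - β') := by abel
    rw [e]
    have := norm_sub_le ((α - α') - (β' - α')) (β - β')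
    have := norm_sub_le (α - α') (β' - α')
    linarith
  have h5 := pow_le_pow_left₀ (norm_nonneg _) h4 2
  nlinarith [sq_nonneg (‖β' - α'‖ - 2 * (ε * μ))]

theorem sb_conj_pow {u u' x : Op H} (h1 : u * u' = 1) (h2 : u' * u = 1) (k : ℕ) :
    (u * x * u') ^ k = u * x ^ k * u' := by
  induction k with
  | zero => rw [pow_zero, pow_zero, mul_one, h1]
  | succ k ih =>
    rw [pow_succ, ih, pow_succ]
    calc u * x ^ k * u' * (u * x * u') = u * x ^ k * (u' * u) * x * u' := by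
          simp only [mul_assoc]
      _ = _ := by rw [h2]; simp only [mul_assoc, mul_one]

theorem sb_re_inner (a : Op H) (η : H) : (⟪η, (star a * a) η⟫_ℂ).re = ‖a η‖ ^ 2 := by
  rw [mul_apply_eq_comp, ContinuousLinearMap.star_eq_adjoint,
    ContinuousLinearMap.adjoint_inner_right, ← RCLike.re_to_complex, inner_self_eq_norm_sq]

theorem sb_re_le {w : Op H} (hw : ‖w‖ ≤ 1) (η : H) : (⟪η, w η⟫_ℂ).re ≤ ‖η‖ ^ 2 := by
  have h1 := re_inner_le_norm (𝕜 := ℂ) η (w η)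
  rw [RCLike.re_to_complex] at h1
  have h2 := (w.le_opNorm η).trans (mul_le_of_le_one_left (norm_nonneg _) hw)
  rw [sq]
  exact h1.trans (mul_le_mul_of_nonneg_left h2 (norm_nonneg _))

theorem sb_proj_le {z : Op H} (hz : IsStarProjection z) (η : H) : ‖z η‖ ≤ ‖η‖ :=
  (z.le_opNorm η).trans (mul_le_of_le_one_left (norm_nonneg _) hz.norm_le)

namespace Ctx
variable {𝓗 : Type u} [NormedAddCommGroup 𝓗] [InnerProductSpace ℂ 𝓗] [CompleteSpace 𝓗]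
  {A : Type} {o : A} (c : Ctx H 𝓗 A o)

theorem sb_norm_U (s : ℝ) (η : 𝓗) : ‖c.U s η‖ = ‖η‖ :=
  ContinuousLinearMap.norm_map_of_mem_unitary (c.U_unitary s) η

theorem sb_norm_V (s : ℝ) (η : 𝓗) : ‖c.V s η‖ = ‖η‖ :=
  ContinuousLinearMap.norm_map_of_mem_unitary (c.V_unitary s) η

theorem sb_cont (t : ℝ) (η : 𝓗) :
    Continuous fun s => ‖c.V t (c.U s η) - c.U (s + t) η‖ ^ 2 := by
  have h1 : Continuous fun s => c.U s η := (c.F.SC_lift c.τ.SC_U).cont η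
  have h2 : Continuous fun s => c.U (s + t) η := h1.comp (continuous_add_const t)
  fun_prop

theorem sb_bd (t s : ℝ) (η : 𝓗) : ‖c.V t (c.U s η) - c.U (s + t) η‖ ^ 2 ≤ (2 * ‖η‖) ^ 2 := by
  refine pow_le_pow_left₀ (norm_nonneg _) ((norm_sub_le _ _).trans ?_) 2
  rw [sb_norm_V, sb_norm_U, sb_norm_U]
  linarith

theorem sb_fix : c.F.T (star c.W (c.F.ι (c.κ.k c.ξ))) = star c.W' (c.F.ι (c.κ.k c.ξ)) := by
  have h := congrArg (fun η => (star c.W' : Op 𝓗) η) c.pair.fix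
  beta_reduce at h
  rw [← mul_apply_eq_comp, mul_assoc, un_l c.pair.uni'] at h
  exact h

theorem sb_zk {z : Op H} (hz : c.CP z) (h0 : z ≠ 0) :
    0 < ‖z (c.κ.k c.ξ)‖ ∧ ‖z c.ξ‖ ≤ 2 * ‖z (c.κ.k c.ξ)‖ := by
  have h1 : ‖z c.ξ‖ ≤ 2 * ‖z (c.κ.k c.ξ)‖ := by
    rw [← mul_apply_eq_comp, ← comm_of_mem c.κ.k_mem hz.1.2]
    exact c.κ.k_low _
  have h2 : 0 < ‖z c.ξ‖ := norm_pos_iff.2 fun h => h0 (c.τ.cyc'.sep hz.1.1 h)
  exact ⟨by linarith, h1⟩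

/-- Columns `x i = ev i y ι k ∈ M`, `t i = ev i y' ι k' ∈ M'` (`k ξ = k' ξ`) over a finite subset of
`𝒥` (coerced to a type), bounded by `‖k‖ ≤ 2`.  `‖lift X Θ‖² = ∑ ‖X (ev i Θ)‖²` and the terms
outside a finite set are bounded by `4 ‖ev i Θ‖²`, uniformly in `s`; `∫ exp (-2 s²) < ∞`. -/
theorem l2_frame {t κ : ℝ} (h : L2Le c.τ c.σ t κ) {z : Op H} (hz : c.CP z) {y y' : Op 𝓗}
    (hy : ∀ m ∈ c.M.commutant, c.F.lift m * y = y * c.F.lift m) (h1 : ‖y‖ ≤ 1)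
    (hy' : ∀ m ∈ c.M, c.F.lift m * y' = y' * c.F.lift m) (h1' : ‖y'‖ ≤ 1)
    (e : y (c.F.ι (c.κ.k c.ξ)) = y' (c.F.ι (c.κ.k c.ξ))) :
    ∫ s, Real.exp (-2 * s ^ 2) *
      ‖c.V t (c.U s (c.F.lift z (y (c.F.ι (c.κ.k c.ξ))))) -
        c.U (s + t) (c.F.lift z (y (c.F.ι (c.κ.k c.ξ))))‖ ^ 2 ≤ κ * ‖z c.ξ‖ ^ 2 := by
  set Θ := y (c.F.ι (c.κ.k c.ξ)) with hΘ
  let x : c.F.𝒥 → Op H := fun i => c.F.ev i ∘L y ∘L c.F.ι ∘L c.κ.k
  let x' : c.F.𝒥 → Op H := fun i => c.F.ev i ∘L y' ∘L c.F.ι ∘L c.κ.k'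
  have hx : ∀ i, x i ∈ c.M := fun i => mem_of_comm fun m hm => by
    ext η
    change m (c.F.ev i (y (c.F.ι (c.κ.k η)))) = c.F.ev i (y (c.F.ι (c.κ.k (m η))))
    rw [← c.F.ev_lift, ← mul_apply_eq_comp (c.F.lift m), hy m hm, mul_apply_eq_comp, c.F.lift_ι,
      ← mul_apply_eq_comp m, ← comm_of_mem c.κ.k_mem hm, mul_apply_eq_comp]
  have hx' : ∀ i, x' i ∈ c.M.commutant := fun i =>
    VonNeumannAlgebra.mem_commutant_iff.2 fun m hm => by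
      ext η
      change m (c.F.ev i (y' (c.F.ι (c.κ.k' η)))) = c.F.ev i (y' (c.F.ι (c.κ.k' (m η))))
      rw [← c.F.ev_lift, ← mul_apply_eq_comp (c.F.lift m), hy' m hm, mul_apply_eq_comp,
        c.F.lift_ι, ← mul_apply_eq_comp m, comm_of_mem hm c.κ.k'_mem, mul_apply_eq_comp]
  have hxx : ∀ i, x i c.ξ = x' i c.ξ := fun i => by
    change c.F.ev i (y (c.F.ι (c.κ.k c.ξ))) = c.F.ev i (y' (c.F.ι (c.κ.k' c.ξ)))
    rw [← c.κ.k_eq, ← e]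
  have col : ∀ (S : Finset c.F.𝒥) (y : Op 𝓗) (k : Op H), ‖y‖ ≤ 1 → ‖k‖ ≤ 2 →
      Col (fun i : S => (c.F.ev i ∘L y ∘L c.F.ι ∘L k : Op H)) 4 := fun S y k h1 h2 η => by
    have h3 := sum_le_hasSum S (fun i _ => sq_nonneg _) (c.F.ev_par (y (c.F.ι (k η))))
    have h4 : ‖y (c.F.ι (k η))‖ ≤ 4 * ‖η‖ := by
      refine (y.le_opNorm _).trans ((mul_le_of_le_one_left (norm_nonneg _) h1).trans ?_)
      rw [c.F.norm_ι]
      exact (k.le_opNorm _).trans (mul_le_mul_of_nonneg_right (by linarith) (norm_nonneg _))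
    rw [← mul_pow]
    refine le_trans (le_of_eq ?_) (h3.trans (pow_le_pow_left₀ (norm_nonneg _) h4 2))
    exact Finset.sum_coe_sort S fun i => ‖c.F.ev i (y (c.F.ι (k η)))‖ ^ 2
  let g : H → ℝ → ℝ := fun v s => ‖c.σ.U t (c.τ.U s (z v)) - c.τ.U (s + t) (z v)‖ ^ 2
  have gc : ∀ v, Continuous (g v) := fun v => by
    have h1 := c.τ.U_cont (z v)
    have h2 : Continuous fun s => c.τ.U (s + t) (z v) := h1.comp (continuous_add_const t)
    fun_prop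
  have gb : ∀ v s, g v s ≤ 4 * ‖v‖ ^ 2 := fun v s => by
    rw [show 4 * ‖v‖ ^ 2 = (2 * ‖v‖) ^ 2 by ring]
    refine pow_le_pow_left₀ (norm_nonneg _) ((norm_sub_le _ _).trans ?_) 2
    rw [c.σ.norm_U_apply, c.τ.norm_U_apply, c.τ.norm_U_apply]
    linarith [sb_proj_le hz.2 v]
  have main : ∀ S : Finset c.F.𝒥, ∫ s, Real.exp (-2 * s ^ 2) *
      ‖c.V t (c.U s (c.F.lift z Θ)) - c.U (s + t) (c.F.lift z Θ)‖ ^ 2 ≤ κ * ‖z c.ξ‖ ^ 2 +
        (∫ s : ℝ, Real.exp (-2 * s ^ 2)) * (4 * (‖Θ‖ ^ 2 - ∑ i ∈ S, ‖c.F.ev i Θ‖ ^ 2)) := by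
    intro S
    have k1 := h z hz.1 ((c.ctr z).1 hz.1) hz.2 S (fun i => x i) (fun i => x' i) (fun i => hx i)
      (fun i => hx' i) (fun i => hxx i) (col S _ _ h1 c.κ.norm_k) (col S _ _ h1' c.κ.norm_k')
    have i1 : Integrable fun s : ℝ => Real.exp (-2 * s ^ 2) * ∑ i : S, g (c.F.ev i Θ) s :=
      sb_int (continuous_finsetSum _ fun i _ => gc _) (C := ∑ i : S, 4 * ‖c.F.ev i Θ‖ ^ 2)
        (fun s => Finset.sum_nonneg fun i _ => sq_nonneg _)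
        (fun s => Finset.sum_le_sum fun i _ => gb _ _)
    refine le_trans ?_ (add_le_add_left k1 _)
    rw [← integral_mul_const]
    refine le_trans (integral_mono_of_nonneg (.of_forall fun s => by positivity)
      (i1.add (sb_gauss.mul_const (4 * (‖Θ‖ ^ 2 - ∑ i ∈ S, ‖c.F.ev i Θ‖ ^ 2))))
      (.of_forall fun s => ?_)) (le_of_eq (integral_add i1 (sb_gauss.mul_const _)))
    have k2 := c.F.ev_par (c.V t (c.U s (c.F.lift z Θ)) - c.U (s + t) (c.F.lift z Θ))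
    simp only [map_sub, U, V, c.F.ev_lift] at k2
    have k3 := sum_le_hasSum S (fun i _ => sub_nonneg.2 (gb (c.F.ev i Θ) s))
      (((c.F.ev_par Θ).mul_left 4).sub k2)
    rw [Finset.sum_sub_distrib, ← Finset.mul_sum] at k3
    simp only [Pi.add_apply]
    rw [← mul_add, Finset.sum_coe_sort S fun i => g (c.F.ev i Θ) s]
    refine mul_le_mul_of_nonneg_left ?_ (Real.exp_pos _).le
    simp only [U, V]
    linarith
  have lim : Tendsto (fun S : Finset c.F.𝒥 => κ * ‖z c.ξ‖ ^ 2 +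
      (∫ s : ℝ, Real.exp (-2 * s ^ 2)) * (4 * (‖Θ‖ ^ 2 - ∑ i ∈ S, ‖c.F.ev i Θ‖ ^ 2))) atTop
      (𝓝 (κ * ‖z c.ξ‖ ^ 2 + (∫ s : ℝ, Real.exp (-2 * s ^ 2)) * (4 * (‖Θ‖ ^ 2 - ‖Θ‖ ^ 2)))) :=
    ((((c.F.ev_par Θ).const_sub _).const_mul _).const_mul _).const_add _
  rw [sub_self, mul_zero, mul_zero, add_zero] at lim
  exact ge_of_tendsto' lim main

/-- `T W* Ξ = W'* Ξ` by `pair.fix`, `y' (k+1) = (T (y' k) T*) W'*`: here
`((W T*)ᵏ)* = (T W*)ᵏ` and `T W* y' = (T y' T*) T W*` for `y' ∈ (Mt M)'`. -/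
theorem theta (k : ℕ) : ∃ y' ∈ (c.F.Mt c.M).commutant, y' ∈ unitary (Op 𝓗) ∧
    star ((c.W * star c.F.T) ^ k) (c.F.ι (c.κ.k c.ξ)) = y' (c.F.ι (c.κ.k c.ξ)) := by
  induction k with
  | zero => exact ⟨1, one_mem _, one_mem _, by rw [pow_zero, star_one]⟩
  | succ k ih =>
    obtain ⟨y', h1, h2, h3⟩ := ih
    refine ⟨c.F.T * y' * star c.F.T * star c.W', mul_mem (c.F.rho_mem' h1) (star_mem c.pair.mem'),
      mul_mem (mul_mem (mul_mem c.F.T_unitary h2) (Unitary.star_mem c.F.T_unitary))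
        (Unitary.star_mem c.pair.uni'), ?_⟩
    rw [pow_succ, star_mul, mul_apply_eq_comp, h3, star_mul, star_star, mul_apply_eq_comp,
      ← mul_apply_eq_comp (star c.W), comm_of_mem (star_mem c.pair.mem) h1,
      mul_apply_eq_comp _ (star c.W'), ← c.sb_fix, ← mul_apply_eq_comp _ c.F.T,
      mul_assoc _ _ c.F.T, c.F.T_unitary.1, mul_one]
    rfl

theorem theta' (k : ℕ) : ∃ y ∈ c.F.Mt c.M, y ∈ unitary (Op 𝓗) ∧
    star ((c.W' * c.F.T) ^ k) (c.F.ι (c.κ.k c.ξ)) = y (c.F.ι (c.κ.k c.ξ)) := by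
  induction k with
  | zero => exact ⟨1, one_mem _, one_mem _, by rw [pow_zero, star_one]⟩
  | succ k ih =>
    obtain ⟨y, h1, h2, h3⟩ := ih
    refine ⟨star c.F.T * y * c.F.T * star c.W, mul_mem (c.F.rho_mem h1) (star_mem c.pair.mem),
      mul_mem (mul_mem (mul_mem (Unitary.star_mem c.F.T_unitary) h2) c.F.T_unitary)
        (Unitary.star_mem c.pair.uni), ?_⟩
    rw [pow_succ, star_mul, mul_apply_eq_comp, h3, star_mul, mul_apply_eq_comp,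
      ← mul_apply_eq_comp (star c.W'), ← comm_of_mem h1 (star_mem c.pair.mem'),
      mul_apply_eq_comp, ← c.sb_fix]
    rfl

theorem sb_side {t s : ℝ} {z : Op H} (hpos : 0 < ‖z (c.κ.k c.ξ)‖) {S W₀ a : Op 𝓗}
    {R : ℝ → Op 𝓗} {w : Op H} {𝒰 : Filter ℕ} [𝒰.NeBot]
    (hS : ∀ x, c.F.lift x * S = S * c.F.lift x) (uS : S ∈ unitary (Op 𝓗))
    (uR : ∀ s, R s ∈ unitary (Op 𝓗))
    (hZ : c.F.lift z * star W₀ = star W₀ * c.F.lift z)
    (hZ' : c.F.lift z * star S = star S * c.F.lift z)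
    (hpow : ∀ s (k : ℕ), ‖(R s * S) ^ k - (c.U s * W₀ * c.U (-s) * S) ^ k‖ ≤ c.ε)
    (hmean : Mean 𝒰 (fun k => (c.V 0 * R (s + t) * c.V (-0) * S) ^ k *
      star ((c.V t * R s * c.V (-t) * S) ^ k)) a)
    (hw : Ctr c.M w) (hPI : star a * a = c.F.lift w)
    (hD : ∀ᶠ n : ℕ in 𝒰, ((n : ℝ) + 1)⁻¹ * ∑ k ∈ Finset.range (n + 1),
      ‖c.V t (c.U s (c.F.lift z (star ((W₀ * S) ^ k) (c.F.ι (c.κ.k c.ξ))))) -
        c.U (s + t) (c.F.lift z (star ((W₀ * S) ^ k) (c.F.ι (c.κ.k c.ξ))))‖ ^ 2 ≤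
      16 / 1000 * ‖z (c.κ.k c.ξ)‖ ^ 2) :
    9 / 10 * ‖z (c.κ.k c.ξ)‖ ^ 2 ≤ (⟪z (c.κ.k c.ξ), w (z (c.κ.k c.ξ))⟫_ℂ).re := by
  set ζ := c.κ.k c.ξ with hζ
  set μ := ‖z ζ‖ with hμ
  set Θ := c.F.ι (z ζ) with hΘ
  have nΘ : ‖Θ‖ = μ := c.F.norm_ι _
  have UU : ∀ s, c.U s * c.U (-s) = 1 := fun s => by rw [c.U_mul, add_neg_cancel, c.U_zero]
  have UU' : ∀ s, c.U (-s) * c.U s = 1 := fun s => by rw [c.U_mul, neg_add_cancel, c.U_zero]
  have VV : c.V t * c.V (-t) = 1 := by rw [c.V_mul, add_neg_cancel, c.V_zero]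
  have VV' : c.V (-t) * c.V t = 1 := by rw [c.V_mul, neg_add_cancel, c.V_zero]
  have hZk : ∀ k : ℕ, c.F.lift z (star ((W₀ * S) ^ k) (c.F.ι ζ)) = star ((W₀ * S) ^ k) Θ := by
    intro k
    have h1 : Commute (c.F.lift z) (star ((W₀ * S) ^ k)) := by
      rw [star_pow, star_mul]
      exact (Commute.mul_right hZ' hZ).pow_right k
    rw [← mul_apply_eq_comp, h1.eq, mul_apply_eq_comp, c.F.lift_ι]
  have near : ∀ s (k : ℕ), ‖star ((R s * S) ^ k) (c.U s Θ) - c.U s (star ((W₀ * S) ^ k) Θ)‖ ≤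
      c.ε * μ := fun s k => by
    have h1 := hpow s k
    have e : c.U s * W₀ * c.U (-s) * S = c.U s * (W₀ * S) * c.U (-s) := by
      rw [mul_assoc _ (c.U (-s)), show c.U (-s) * S = S * c.U (-s) from hS _]
      simp only [mul_assoc]
    rw [e, sb_conj_pow (UU s) (UU' s), ← norm_star, star_sub, star_mul, star_mul, c.star_U,
      c.star_U, neg_neg] at h1
    have e2 : c.U s (star ((W₀ * S) ^ k) Θ) =
        (c.U s * (star ((W₀ * S) ^ k) * c.U (-s))) (c.U s Θ) := by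
      rw [← mul_apply_eq_comp _ (c.U s), mul_assoc, mul_assoc, UU', mul_one, mul_apply_eq_comp]
    rw [e2, ← _root_.sub_apply]
    refine (ContinuousLinearMap.le_opNorm _ _).trans ?_
    rw [c.sb_norm_U, nΘ]
    exact mul_le_mul_of_nonneg_right h1 hpos.le
  have nrm : ∀ s (k : ℕ) η, ‖star ((R s * S) ^ k) η‖ = ‖η‖ := fun s k η =>
    ContinuousLinearMap.norm_map_of_mem_unitary
      (Unitary.star_mem (pow_mem (mul_mem (uR s) uS) k)) η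
  have key : ∀ k : ℕ, μ ^ 2 - ‖c.V t (c.U s (star ((W₀ * S) ^ k) Θ)) -
      c.U (s + t) (star ((W₀ * S) ^ k) Θ)‖ ^ 2 - 4 * c.ε ^ 2 * μ ^ 2 ≤
      (⟪c.U (s + t) Θ, ((c.V 0 * R (s + t) * c.V (-0) * S) ^ k *
        star ((c.V t * R s * c.V (-t) * S) ^ k)) (c.V t (c.U s Θ))⟫_ℂ).re := fun k => by
    have e : c.V t * R s * c.V (-t) * S = c.V t * (R s * S) * c.V (-t) := by
      rw [mul_assoc _ (c.V (-t)), show c.V (-t) * S = S * c.V (-t) from hS _]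
      simp only [mul_assoc]
    have e2 : star ((c.V t * R s * c.V (-t) * S) ^ k) (c.V t (c.U s Θ)) =
        c.V t (star ((R s * S) ^ k) (c.U s Θ)) := by
      rw [e, sb_conj_pow VV VV', star_mul, star_mul, c.star_V, c.star_V, neg_neg,
        ← mul_apply_eq_comp _ (c.V t), mul_assoc, mul_assoc, VV', mul_one, mul_apply_eq_comp]
    rw [neg_zero, c.V_zero, one_mul, mul_one, mul_apply_eq_comp, e2, Frame.fl_inner]
    refine sb_key (by rw [nrm, c.sb_norm_U, nΘ]) (by rw [c.sb_norm_V, nrm, c.sb_norm_U, nΘ])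
      (near (s + t) k) ?_
    rw [← map_sub, c.sb_norm_V]
    exact near s k
  have hε : c.ε ^ 2 ≤ (1 / 1000) ^ 2 := pow_le_pow_left₀ c.ε_nonneg c.hε 2
  have h1 : 98 / 100 * μ ^ 2 ≤ (⟪c.U (s + t) Θ, a (c.V t (c.U s Θ))⟫_ℂ).re := by
    refine WLim.le_re hmean _ _ (hD.mono fun n hn => ?_)
    simp only [hZk] at hn
    rw [inner_ces, show ((n : ℂ) + 1)⁻¹ = ((((n : ℝ) + 1)⁻¹ : ℝ) : ℂ) by push_cast; rfl,
      Complex.re_ofReal_mul, Complex.re_sum]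
    have h2 := Finset.sum_le_sum fun k (_ : k ∈ Finset.range (n + 1)) => key k
    rw [Finset.sum_sub_distrib, Finset.sum_sub_distrib, Finset.sum_const, Finset.sum_const,
      Finset.card_range, nsmul_eq_mul, nsmul_eq_mul] at h2
    have hn0 : (0 : ℝ) < (n : ℝ) + 1 := by positivity
    have h3 := mul_le_mul_of_nonneg_left h2 (inv_pos.2 hn0).le
    rw [Nat.cast_add_one, mul_sub, mul_sub, ← mul_assoc, ← mul_assoc, inv_mul_cancel₀ hn0.ne', one_mul,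
      one_mul] at h3
    have h4 := mul_le_mul_of_nonneg_right hε (sq_nonneg μ)
    linarith [sq_nonneg μ]
  have h2 : (⟪c.U (s + t) Θ, a (c.V t (c.U s Θ))⟫_ℂ).re ≤ μ * ‖a (c.V t (c.U s Θ))‖ := by
    have := re_inner_le_norm (𝕜 := ℂ) (c.U (s + t) Θ) (a (c.V t (c.U s Θ)))
    rwa [RCLike.re_to_complex, c.sb_norm_U, nΘ] at this
  have h3 : 98 / 100 * μ ≤ ‖a (c.V t (c.U s Θ))‖ :=
    le_of_mul_le_mul_left (by linarith [sq μ]) hpos
  have h4 : ‖a (c.V t (c.U s Θ))‖ ^ 2 = (⟪z ζ, w (z ζ)⟫_ℂ).re := by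
    rw [← sb_re_inner, hPI, ← mul_apply_eq_comp (c.F.lift w), c.V_ctr t hw, mul_apply_eq_comp,
      ← mul_apply_eq_comp (c.F.lift w), c.U_ctr s hw, mul_apply_eq_comp,
      ContinuousLinearMap.inner_map_map_of_mem_unitary (c.V_unitary t),
      ContinuousLinearMap.inner_map_map_of_mem_unitary (c.U_unitary s), hΘ, c.F.lift_ι,
      c.F.inner_ι]
  have h5 := pow_le_pow_left₀ (by positivity) h3 2
  rw [← h4]
  nlinarith [sq_nonneg μ]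

/-- Let `Ξ = ι k ξ`, `m = ‖z k ξ‖² ≥ ‖z ξ‖² / 4 > 0` (`k_low`, `Cyc.sep`), `Y = W T*`,
`D k s = ‖V t U s z (Yᵏ)* Ξ - U (s+t) z (Yᵏ)* Ξ‖²` plus the same for `W' T`; `l2_frame`, `theta`,
`exists_pick` (continuity by `SC_lift`) give `s` and an ultrafilter `𝒰 ≤ atTop` along which the
Cesaro averages of `D k s` are `≤ 16 m / 1000` (`Ultrafilter.exists_le` for
`atTop ⊓ 𝓟 _`).  `exists_intw` with `R₁ = R (s+t)`, `R₂ = V t R s V (-t)`.  With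
`ζ₁ = U (s+t) z Ξ`, `ζ₂ = V t U s z Ξ`, using `pow`:
`Re ⟪ζ₁, f k ζ₂⟫ ≥ Re ⟪U (s+t) z (Yᵏ)* Ξ, V t U s z (Yᵏ)* Ξ⟫ - 2 ε m = m - D/2 - 2 ε m`; so
`‖a ζ₂‖ √m ≥ Re ⟪ζ₁, a ζ₂⟫ ≥ 0.99 m` (`inner_ces`, `WLim.le_re`), and
`‖a ζ₂‖² = ⟪ζ₂, lift w ζ₂⟫ = ⟪z k ξ, w z k ξ⟫`. -/
theorem mass_est {t : ℝ} (h : L2Le c.τ c.σ t (1 / 1000)) {z : Op H} (hz : c.CP z) (h0 : z ≠ 0) :
    ∃ s, ∃ a ∈ c.F.Mt c.N, ∃ a' ∈ (c.F.Mt c.N).commutant, ∃ w w' : Op H, ‖a‖ ≤ 1 ∧ ‖a'‖ ≤ 1 ∧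
      Intw a (c.r t s) (c.r 0 (s + t)) ∧ Intw a' (c.r' t s) (c.r' 0 (s + t)) ∧
      Ctr c.M w ∧ Ctr c.M w' ∧ c.PI w a ∧ c.PI w' a' ∧
      9 / 10 * ‖z (c.κ.k c.ξ)‖ ^ 2 ≤ (⟪z (c.κ.k c.ξ), w (z (c.κ.k c.ξ))⟫_ℂ).re ∧
      9 / 10 * ‖z (c.κ.k c.ξ)‖ ^ 2 ≤ (⟪z (c.κ.k c.ξ), w' (z (c.κ.k c.ξ))⟫_ℂ).re := by
  obtain ⟨hpos, hle⟩ := c.sb_zk hz h0
  set Ξ := c.F.ι (c.κ.k c.ξ) with hΞ
  set μ := ‖z (c.κ.k c.ξ)‖ with hμ
  have uY : ∀ k : ℕ, star ((c.W * star c.F.T) ^ k) ∈ unitary (Op 𝓗) := fun k =>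
    Unitary.star_mem (pow_mem (mul_mem c.pair.uni (Unitary.star_mem c.F.T_unitary)) k)
  have uY' : ∀ k : ℕ, star ((c.W' * c.F.T) ^ k) ∈ unitary (Op 𝓗) := fun k =>
    Unitary.star_mem (pow_mem (mul_mem c.pair.uni' c.F.T_unitary) k)
  let D : 𝓗 → ℝ → ℝ := fun η s =>
    ‖c.V t (c.U s (c.F.lift z η)) - c.U (s + t) (c.F.lift z η)‖ ^ 2
  have Dc : ∀ η, Continuous (D η) := fun η => c.sb_cont t _
  have D0 : ∀ η s, 0 ≤ D η s := fun η s => sq_nonneg _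
  have Db : ∀ u ∈ unitary (Op 𝓗), ∀ s, D (u Ξ) s ≤ (2 * ‖Ξ‖) ^ 2 := fun u hu s => by
    refine (c.sb_bd t s _).trans (pow_le_pow_left₀ (by positivity) ?_ 2)
    have := sb_proj_le (hz.2.map c.F.lift) (u Ξ)
    rw [ContinuousLinearMap.norm_map_of_mem_unitary hu] at this
    linarith
  have hsq : 1 / 1000 * ‖z c.ξ‖ ^ 2 ≤ 4 / 1000 * μ ^ 2 := by
    have := pow_le_pow_left₀ (norm_nonneg _) hle 2
    linarith [mul_pow 2 μ 2]
  have I1 : ∀ k : ℕ, ∫ s, Real.exp (-2 * s ^ 2) * D (star ((c.W * star c.F.T) ^ k) Ξ) s ≤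
      4 / 1000 * μ ^ 2 := fun k => by
    obtain ⟨y', h1, h2, h3⟩ := c.theta k
    refine (c.l2_frame h hz (fun m hm => ?_) (norm_unitary_le (uY k)) (c.F.mem_Mt'.1 h1).1
      (norm_unitary_le h2) h3).trans hsq
    rw [star_pow, star_mul, star_star]
    exact (Commute.mul_right (c.F.lift_T m)
      ((c.F.mem_Mt.1 (star_mem c.pair.mem)).1 m hm)).pow_right k
  have I2 : ∀ k : ℕ, ∫ s, Real.exp (-2 * s ^ 2) * D (star ((c.W' * c.F.T) ^ k) Ξ) s ≤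
      4 / 1000 * μ ^ 2 := fun k => by
    obtain ⟨y, h1, h2, h3⟩ := c.theta' k
    rw [h3]
    refine (c.l2_frame h hz (c.F.mem_Mt.1 h1).1 (norm_unitary_le h2) (fun m hm => ?_)
      (norm_unitary_le (uY' k)) h3.symm).trans hsq
    rw [star_pow, star_mul]
    exact (Commute.mul_right (c.F.lift_starT m)
      ((c.F.mem_Mt'.1 (star_mem c.pair.mem')).1 m hm)).pow_right k
  obtain ⟨s, hs⟩ := exists_pick
    (D := fun k s => D (star ((c.W * star c.F.T) ^ k) Ξ) s + D (star ((c.W' * c.F.T) ^ k) Ξ) s)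
    (fun k => (Dc _).add (Dc _)) (C := (2 * ‖Ξ‖) ^ 2 + (2 * ‖Ξ‖) ^ 2) (c := 8 / 1000 * μ ^ 2)
    (fun k s => add_nonneg (D0 _ _) (D0 _ _))
    (fun k s => add_le_add (Db _ (uY k) s) (Db _ (uY' k) s)) (by positivity) fun k => by
      simp only [mul_add]
      rw [integral_add (sb_int (Dc _) (D0 _) (Db _ (uY k))) (sb_int (Dc _) (D0 _) (Db _ (uY' k)))]
      linarith [I1 k, I2 k]
  have hne := Filter.frequently_iff_neBot.1 hs
  obtain ⟨𝒰, h𝒰⟩ := Ultrafilter.exists_le (atTop ⊓ 𝓟 {n : ℕ | ((n : ℝ) + 1)⁻¹ *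
    ∑ k ∈ Finset.range (n + 1), (D (star ((c.W * star c.F.T) ^ k) Ξ) s +
      D (star ((c.W' * c.F.T) ^ k) Ξ) s) ≤ 2 * (8 / 1000 * μ ^ 2)})
  have hev := Filter.le_principal_iff.1 (h𝒰.trans inf_le_right)
  have uV : ∀ t {X : Op 𝓗}, X ∈ unitary (Op 𝓗) → c.V t * X * c.V (-t) ∈ unitary (Op 𝓗) :=
    fun t X hX => mul_mem (mul_mem (c.V_unitary _) hX) (c.V_unitary _)
  obtain ⟨a, ha, hm, hn, hi⟩ := c.F.exists_intw (c.V_mem 0 (c.pl (s + t)).R_mem)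
    (uV 0 (c.pl (s + t)).R_uni) (c.V_mem t (c.pl s).R_mem) (uV t (c.pl s).R_uni) 𝒰
    (h𝒰.trans inf_le_left)
  obtain ⟨a', ha', hm', hn', hi'⟩ := c.F.flip.exists_intw (N := c.N.commutant)
    (by rw [c.F.flip_Mt]; exact c.V_mem' 0 (c.pl (s + t)).R'_mem)
    (uV 0 (c.pl (s + t)).R'_uni) (by rw [c.F.flip_Mt]; exact c.V_mem' t (c.pl s).R'_mem)
    (uV t (c.pl s).R'_uni) 𝒰 (h𝒰.trans inf_le_left)
  rw [c.F.flip_Mt] at ha'
  rw [Frame.flip_T, star_star] at hm'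
  obtain ⟨w, hw, hPI⟩ := c.sq_ctr ha hi
  obtain ⟨w', hw', hPI'⟩ := c.sq_ctr' ha' hi'
  have hn0 : ∀ n : ℕ, (0 : ℝ) ≤ ((n : ℝ) + 1)⁻¹ := fun n => by positivity
  refine ⟨s, a, ha, a', ha', w, w', hn, hn', hi, hi', hw, hw', hPI, hPI', ?_, ?_⟩
  · refine c.sb_side hpos c.F.lift_starT (Unitary.star_mem c.F.T_unitary)
      (fun s => (c.pl s).R_uni) ((c.F.mem_Mt.1 (star_mem c.pair.mem)).1 z hz.1.2)
      (by rw [star_star, c.F.lift_T]) (fun s => (c.pl s).pow) hm hw hPI.1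
      (Filter.mem_of_superset hev fun n hn => ?_)
    refine le_trans (mul_le_mul_of_nonneg_left (Finset.sum_le_sum fun k _ =>
      le_add_of_nonneg_right (D0 _ _)) (hn0 n)) (le_of_le_of_eq hn (by ring))
  · refine c.sb_side hpos c.F.lift_T c.F.T_unitary
      (fun s => (c.pl s).R'_uni) ((c.F.mem_Mt'.1 (star_mem c.pair.mem')).1 z hz.1.1)
      (c.F.lift_starT z) (fun s => (c.pl s).pow') hm' hw' hPI'.1
      (Filter.mem_of_superset hev fun n hn => ?_)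
    refine le_trans (mul_le_mul_of_nonneg_left (Finset.sum_le_sum fun k _ =>
      le_add_of_nonneg_left (D0 _ _)) (hn0 n)) (le_of_le_of_eq hn (by ring))

theorem sb_w {w : Op H} {a : Op 𝓗} (h : c.PI w a) (h1 : ‖a‖ ≤ 1) : star w = w ∧ ‖w‖ ≤ 1 := by
  constructor
  · rw [← c.F.cmp_lift (star w), map_star, ← h.1, star_mul, star_star, h.1, c.F.cmp_lift]
  · rw [← c.F.cmp_lift w, ← h.1]
    refine (c.F.norm_cmp_le _).trans ((norm_mul_le _ _).trans ?_)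
    rw [norm_star]
    exact mul_le_one₀ h1 (norm_nonneg _) h1

theorem sb_cut {P : VonNeumannAlgebra 𝓗} {a : Op 𝓗} (ha : a ∈ P) (h1 : ‖a‖ ≤ 1) {w e : Op H}
    (hw : c.PI w a) (he : IsStarProjection e) (hE : Ctr P (c.F.lift e))
    (hl : ∀ η, e η = η → 1 / 2 * ‖η‖ ^ 2 ≤ (⟪η, w η⟫_ℂ).re) {x y : A → Op 𝓗}
    (hx : ∀ j, x j ∈ P) (hy : ∀ j, y j ∈ P) (hi : Intw a x y) :
    ∃ b ∈ P, c.PI e b ∧ Intw b x y := by
  have se : star e = e := he.isSelfAdjoint.star_eq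
  have ee : e * e = e := he.isIdempotentElem.eq
  have sw := (c.sb_w hw h1).1
  have k : ∀ η : 𝓗, c.F.lift e η = η → 1 / 2 * ‖η‖ ^ 2 ≤ (⟪η, c.F.lift w η⟫_ℂ).re := by
    intro η hη
    have h2 := c.F.lift_nonneg (x := e * ((2 : ℂ) • w - 1) * e) (by
      rw [IsSelfAdjoint, star_mul, star_mul, se, star_sub, star_smul, sw, star_one, mul_assoc]
      simp) (fun η => by
      have h3 := hl (e η) (by rw [← mul_apply_eq_comp, ee])
      rw [mul_apply_eq_comp, mul_apply_eq_comp, Frame.fl_inner, se, _root_.sub_apply,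
        _root_.smul_apply, one_apply_eq_self, inner_sub_right, inner_smul_right, Complex.sub_re,
        ← RCLike.re_to_complex (x := ⟪e η, e η⟫_ℂ), inner_self_eq_norm_sq]
      simp only [Complex.mul_re, Complex.re_ofNat, Complex.im_ofNat, zero_mul, sub_zero]
      linarith) η
    rw [map_mul, map_mul, mul_apply_eq_comp, mul_apply_eq_comp, Frame.fl_inner, ← map_star, se,
      hη, map_sub, map_smul, map_one, _root_.sub_apply,
      _root_.smul_apply, one_apply_eq_self, inner_sub_right, inner_smul_right, Complex.sub_re,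
      ← RCLike.re_to_complex (x := ⟪η, η⟫_ℂ), inner_self_eq_norm_sq] at h2
    simp only [Complex.mul_re, Complex.re_ofNat, Complex.im_ofNat, zero_mul, sub_zero] at h2
    linarith
  obtain ⟨b, hb, h2, h3, h4⟩ := exists_cutPI ha h1 (he.map c.F.lift) hE fun η hη =>
    ⟨by rw [← sb_re_inner, hw.1]; exact k η hη, by
      rw [← sb_re_inner, star_star, hw.2]; exact k η hη⟩
  exact ⟨b, hb, ⟨h2, h3⟩, fun j => h4 _ (hx j) _ (hy j) (hi j).1 (hi j).2⟩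

/-- `exists_cut` for the self-adjoint central element `z (w + w')` at `3/2` gives a central
projection `e`, `e ≠ 0` by the mass estimate, `z e = e` (if `e η = η` then `η' = (1 - z) η` has
`e η' = η'` and `z (w + w') η' = 0`), and `w ≥ 1/2`, `w' ≥ 1/2` on the range of `e` because
`‖w‖, ‖w'‖ ≤ 1`.  `lift_nonneg` for `e w e - e/2`, `exists_cutPI` (`ctr_Mt`), `rel_core`. -/
theorem mass {t : ℝ} (h : L2Le c.τ c.σ t (1 / 1000)) {z : Op H} (hz : c.CP z) (h0 : z ≠ 0) :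
    ∃ e, c.CP e ∧ e ≠ 0 ∧ z * e = e ∧ c.Rel t e (2 * c.ε) := by
  obtain ⟨s, a, ha, a', ha', w, w', hn, hn', hi, hi', hw, hw', hPI, hPI', m1, m2⟩ :=
    c.mass_est h hz h0
  obtain ⟨hpos, -⟩ := c.sb_zk hz h0
  obtain ⟨sw, nw⟩ := c.sb_w hPI hn
  obtain ⟨sw', nw'⟩ := c.sb_w hPI' hn'
  have zz : z * z = z := hz.2.isIdempotentElem.eq
  have cm : z * (w + w') = (w + w') * z := comm_of_mem hz.1.1 (add_mem hw.2 hw'.2)
  have yM : z * (w + w') ∈ c.M := mul_mem hz.1.1 (add_mem hw.1 hw'.1)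
  have yM' : z * (w + w') ∈ c.M.commutant := mul_mem hz.1.2 (add_mem hw.2 hw'.2)
  obtain ⟨e, he, hc, h1, h2⟩ := exists_cut (y := z * (w + w')) (by
    rw [IsSelfAdjoint, star_mul, star_add, sw, sw', hz.2.isSelfAdjoint.star_eq, cm]) (3 / 2)
  have hctr : Ctr c.M e := ⟨mem_of_comm fun y hy => (hc y (comm_of_mem yM hy)).symm,
    VonNeumannAlgebra.mem_commutant_iff.2 fun y hy => (hc y (comm_of_mem hy yM').symm).symm⟩
  have ee : e * e = e := he.isIdempotentElem.eq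
  have hy : ∀ η, z η = η → (⟪η, (z * (w + w')) η⟫_ℂ).re =
      (⟪η, w η⟫_ℂ).re + (⟪η, w' η⟫_ℂ).re := fun η hη => by
    rw [cm, mul_apply_eq_comp, hη, add_apply, inner_add_right, Complex.add_re]
  have hze : z * e = e := by
    ext η
    have k1 := h1 (((1 - z) * e) η) (by
      rw [← mul_apply_eq_comp, ← mul_assoc, comm_of_mem hctr.1 (sub_mem (one_mem _) hz.1.2),
        mul_assoc, ee])
    have k2 : (z * (w + w')) (((1 - z) * e) η) = 0 := by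
      rw [← mul_apply_eq_comp, cm, mul_assoc, ← mul_assoc z, mul_sub, mul_one, zz, sub_self,
        zero_mul, mul_zero, zero_apply]
    rw [k2, inner_zero_right, Complex.zero_re] at k1
    have k3 : ((1 - z) * e) η = 0 := by
      rw [← norm_eq_zero, ← pow_eq_zero_iff two_ne_zero]
      linarith [sq_nonneg ‖((1 - z) * e) η‖]
    rw [sub_mul, one_mul, _root_.sub_apply, sub_eq_zero] at k3
    exact k3.symm
  have hl : ∀ η, e η = η → 1 / 2 * ‖η‖ ^ 2 ≤ (⟪η, w η⟫_ℂ).re ∧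
      1 / 2 * ‖η‖ ^ 2 ≤ (⟪η, w' η⟫_ℂ).re := fun η hη => by
    have k1 := h1 η hη
    rw [hy η (by rw [← hη, ← mul_apply_eq_comp, hze])] at k1
    constructor <;> linarith [sb_re_le nw η, sb_re_le nw' η]
  have hE : Ctr (c.F.Mt c.N) (c.F.lift e) := c.F.ctr_Mt.2 ⟨e, (c.ctr e).1 hctr, rfl⟩
  obtain ⟨b, hb, p1, i1⟩ := c.sb_cut ha hn hPI he hE (fun η hη => (hl η hη).1) (c.r_mem t s)
    (c.r_mem 0 (s + t)) hi
  obtain ⟨b', hb', p1', i1'⟩ := c.sb_cut ha' hn' hPI' he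
    ⟨hE.2, by rw [VonNeumannAlgebra.commutant_commutant]; exact hE.1⟩
    (fun η hη => (hl η hη).2) (c.r'_mem t s) (c.r'_mem 0 (s + t)) hi'
  refine ⟨e, ⟨hctr, he⟩, fun he0 => ?_, hze, c.rel_core ⟨hctr, he⟩ hb hb' p1 p1' i1 i1'⟩
  have k1 := h2 (z (c.κ.k c.ξ)) (by rw [he0, zero_apply])
  rw [hy _ (by rw [← mul_apply_eq_comp, zz])] at k1
  linarith [pow_pos hpos 2]

end Ctx

end Crest.Agent.R78
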