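import Crest.Agent.R78.StarA

/-! # R78: exhaustion, products, descent (task `StarC`) -/

set_option autoImplicit false
set_option linter.unusedSectionVars false
open Filter Topology
open scoped InnerProductSpace

namespace Crest.Agent.R78

universe u
variable {H : Type u} [NormedAddCommGroup H] [InnerProductSpace ℂ H] [CompleteSpace H]

namespace StarC
variable {ι : Type*} {E b : ι → Op H}

theorem proj_sum (hE : ∀ i, IsStarProjection (E i)) (ho : ∀ i j, i ≠ j → E i * E j = 0)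
    (s : Finset ι) : IsStarProjection (∑ i ∈ s, E i) := by
  classical
  induction s using Finset.induction_on with
  | empty => simp
  | insert i s hi ih =>
    rw [Finset.sum_insert hi]
    refine (hE i).add ih ?_
    rw [Finset.mul_sum]
    exact Finset.sum_eq_zero fun j hj => ho i j fun h => hi (h ▸ hj)

theorem inner_zero {x y : Op H} (h : star x * y = 0) (η ζ : H) : ⟪x η, y ζ⟫_ℂ = 0 := by
  rw [← ContinuousLinearMap.adjoint_inner_right, ← ContinuousLinearMap.star_eq_adjoint,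
    ← mul_apply_eq_comp, h]
  simp

theorem sq_sum (hE : ∀ i, IsStarProjection (E i)) (ho : ∀ i j, i ≠ j → E i * E j = 0)
    (s : Finset ι) (η : H) : ∑ i ∈ s, ‖E i η‖ ^ 2 ≤ ‖η‖ ^ 2 := by
  classical
  have py : ∀ s : Finset ι, ‖(∑ i ∈ s, E i) η‖ ^ 2 = ∑ i ∈ s, ‖E i η‖ ^ 2 := fun s => by
    induction s using Finset.induction_on with
    | empty => simp
    | insert i s hi ih =>
      rw [Finset.sum_insert hi, Finset.sum_insert hi, ← ih, add_apply, sq, sq, sq]
      refine norm_add_sq_eq_norm_sq_add_norm_sq_of_inner_eq_zero (𝕜 := ℂ) _ _ (inner_zero ?_ _ _)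
      rw [(hE i).isSelfAdjoint.star_eq, Finset.mul_sum]
      exact Finset.sum_eq_zero fun j hj => ho i j fun h => hi (h ▸ hj)
  rw [← py]
  have := (∑ i ∈ s, E i).le_of_opNorm_le (proj_sum hE ho s).norm_le η
  rw [one_mul] at this
  exact pow_le_pow_left₀ (norm_nonneg _) this 2

theorem block (hE : ∀ i, IsStarProjection (E i)) (ho : ∀ i j, i ≠ j → E i * E j = 0)
    (h1 : ∀ i, E i * b i = b i) (h2 : ∀ i, b i * E i = b i) {C : ℝ} (hC : 0 ≤ C)
    (hb : ∀ i, ‖b i‖ ≤ C) : ∃ X : Op H, ‖X‖ ≤ C ∧ (∀ η, HasSum (fun i => b i η) (X η)) ∧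
      (∀ j, E j * X = b j) ∧ (∀ j, X * E j = b j) ∧
      ∀ P : VonNeumannAlgebra H, (∀ i, b i ∈ P) → X ∈ P := by
  obtain ⟨X, hX, hs⟩ := exists_colSum b (fun i j hij => inner_zero (by
    rw [← h1 i, ← h1 j, star_mul, (hE i).isSelfAdjoint.star_eq, mul_assoc, ← mul_assoc (E i),
      ho i j hij, zero_mul, mul_zero])) hC fun s η => by
    refine le_trans (Finset.sum_le_sum fun i _ => ?_)
      ((Finset.mul_sum s _ (C ^ 2)).ge.trans
        (mul_le_mul_of_nonneg_left (sq_sum hE ho s η) (by positivity)))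
    rw [← h2 i, ← mul_pow]
    exact pow_le_pow_left₀ (norm_nonneg _) ((b i).le_of_opNorm_le (hb i) _) 2
  refine ⟨X, hX, hs, fun j => ?_, fun j => ?_, fun P hP => ?_⟩
  · ext η
    refine ((hs η).mapL (E j)).unique ?_
    have := hasSum_single (f := fun i => E j (b i η)) j fun i hi => by
      rw [← h1 i, ← mul_apply_eq_comp, ← mul_assoc, ho j i hi.symm]; simp
    rwa [← mul_apply_eq_comp, h1] at this
  · ext η
    refine (hs (E j η)).unique ?_
    have := hasSum_single (f := fun i => b i (E j η)) j fun i hi => by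
      rw [← h2 i, ← mul_apply_eq_comp, mul_assoc, ho i j hi]; simp
    rwa [← mul_apply_eq_comp, h2] at this
  · have hw : WLim atTop (fun s : Finset ι => ∑ i ∈ s, b i) X := WLim.of_strong fun η => by
      simp only [sum_apply]; exact hs η
    exact hw.mem (Eventually.of_forall fun s => sum_mem fun i _ => hP i)

theorem ext (h : ∀ η, HasSum (fun i => E i η) η) {Y Y' : Op H} (e : ∀ i, E i * Y = E i * Y') :
    Y = Y' := by
  ext η
  refine (h (Y η)).unique ?_
  have := h (Y' η)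
  simp only [← mul_apply_eq_comp, ← e] at this
  exact this

theorem pi_facts {a e : Op H} (he : IsStarProjection e) (h1 : star a * a = e)
    (h2 : a * star a = e) : e * a = a ∧ a * e = a ∧ ‖a‖ ≤ 1 := by
  have h3 : a * e = a := by
    have : star (a * (1 - e)) * (a * (1 - e)) = 0 := by
      rw [star_mul, mul_assoc, ← mul_assoc (star a), h1, mul_sub, he.isIdempotentElem.eq, mul_one,
        sub_self, mul_zero]
    rw [CStarRing.star_mul_self_eq_zero_iff, mul_sub, mul_one, sub_eq_zero] at this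
    exact this.symm
  refine ⟨by rw [← h2, mul_assoc, h1, h3], h3, ?_⟩
  have h4 := he.norm_le
  rw [← h1, CStarRing.norm_star_mul_self] at h4
  nlinarith [norm_nonneg a]

theorem block_uni (hE : ∀ i, IsStarProjection (E i)) (ho : ∀ i j, i ≠ j → E i * E j = 0)
    (h : ∀ η, HasSum (fun i => E i η) η) (h1 : ∀ i, star (b i) * b i = E i)
    (h2 : ∀ i, b i * star (b i) = E i) : ∃ X : Op H, star X * X = 1 ∧ X * star X = 1 ∧
      (∀ j, E j * X = b j) ∧ ∀ P : VonNeumannAlgebra H, (∀ i, b i ∈ P) → X ∈ P := by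
  have hf := fun i => pi_facts (hE i) (h1 i) (h2 i)
  obtain ⟨X, -, -, a1, a2, a3⟩ := block hE ho (fun i => (hf i).1) (fun i => (hf i).2.1)
    zero_le_one fun i => (hf i).2.2
  have s1 : ∀ j, E j * star X = star (b j) := fun j => by
    rw [← a2, star_mul, (hE j).isSelfAdjoint.star_eq]
  have s2 : ∀ j, star (b j) * E j = star (b j) := fun j => by
    conv_rhs => rw [← (hf j).1, star_mul, (hE j).isSelfAdjoint.star_eq]
  refine ⟨X, ext h fun j => ?_, ext h fun j => ?_, a1, a3⟩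
  · rw [← mul_assoc, s1, ← s2, mul_assoc, a1, h1, mul_one]
  · rw [← mul_assoc, a1, ← (hf j).2.1, mul_assoc, s1, h2, mul_one]

theorem low {x y v : Op H} {θ : ℝ} (hv : v ∈ unitary (Op H)) (h : ‖x * y - v‖ ≤ θ) (hx : ‖x‖ ≤ 1)
    (η : H) : (1 - θ) * ‖η‖ ≤ ‖y η‖ := by
  have h1 := x.le_of_opNorm_le hx (y η)
  rw [one_mul] at h1
  exact (lower_of_near hv h η).trans h1

theorem half {N : VonNeumannAlgebra H} {n n' u : Op H} {θ : ℝ} (hnN : n ∈ N)
    (hcm : n * n' = n' * n) (b1 : ‖n‖ ≤ 1) (b2 : ‖n'‖ ≤ 1) (hu : u ∈ unitary (Op H))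
    (hθ : θ ≤ 1 / 2) (h1 : ‖n * n' - u‖ ≤ θ) :
    ∃ w ∈ N, w ∈ unitary (Op H) ∧ ‖w - n‖ ≤ θ := by
  have h0 : 0 ≤ θ := (norm_nonneg _).trans h1
  have h2 : ‖n' * n - u‖ ≤ θ := by rw [← hcm]; exact h1
  have h3 : ‖star n' * star n - star u‖ ≤ θ := by rwa [← star_mul, ← star_sub, norm_star]
  have h4 : ‖star n'‖ ≤ 1 := by rwa [norm_star]
  obtain ⟨w, hw, w1, -, w2⟩ := exists_polar (X := n) h0 hθ (low hu h2 b2)
    (low (Unitary.star_mem hu) h3 h4) (by linarith)
  exact ⟨w, mem_of_comm fun y hy => (w2 y y (comm_of_mem hnN hy)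
    (comm_of_mem hnN (star_mem hy))).symm, hw, w1⟩

theorem split {N : VonNeumannAlgebra H} {n n' u : Op H} {θ : ℝ} (hnN : n ∈ N)
    (hnN' : n' ∈ N.commutant) (b1 : ‖n‖ ≤ 1) (b2 : ‖n'‖ ≤ 1) (hu : u ∈ unitary (Op H))
    (hθ : θ ≤ 1 / 2) (h1 : ‖n * n' - u‖ ≤ θ) :
    ∃ a ∈ N, ∃ b ∈ N.commutant, a ∈ unitary (Op H) ∧ b ∈ unitary (Op H) ∧
      ‖u - a * b‖ ≤ 3 * θ := by
  have hcm : n * n' = n' * n := comm_of_mem hnN hnN'
  obtain ⟨w, hwN, hw, w1⟩ := half hnN hcm b1 b2 hu hθ h1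
  obtain ⟨w', hwN', hw', w1'⟩ := half hnN' hcm.symm b2 b1 hu hθ (by rw [← hcm]; exact h1)
  refine ⟨w, hwN, w', hwN', hw, hw', ?_⟩
  have e2 : u - w * w' = -(n * n' - u) - n * (w' - n') - (w - n) * w' := by noncomm_ring
  have h3 : ‖n * (w' - n')‖ ≤ θ :=
    (norm_mul_le _ _).trans ((mul_le_of_le_one_left (norm_nonneg _) b1).trans w1')
  have h4 : ‖(w - n) * w'‖ ≤ θ := by rwa [CStarRing.norm_mul_mem_unitary _ hw']
  rw [e2]
  have h5 := norm_sub_le (-(n * n' - u) - n * (w' - n')) ((w - n) * w')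
  have h6 := norm_sub_le (-(n * n' - u)) (n * (w' - n'))
  rw [norm_neg] at h6
  linarith

end StarC

namespace Ctx
variable {𝓗 : Type u} [NormedAddCommGroup 𝓗] [InnerProductSpace ℂ 𝓗] [CompleteSpace 𝓗]
  {A : Type} {o : A} (c : Ctx H 𝓗 A o)

/-- Take a maximal orthogonal family `S` of nonzero central projections `e` with `Rel t e θ`
(`R121.exists_maximal_pairwise`); the weak limit `P` of the finite sums (along `R121.fU`) is a
central projection, equal to `1` by maximality.  `a`, `a'` = weak limits of the finite sums of the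
`a e`, `a' e` (norm `≤ 1`: `a e = lift e a e = a e lift e`), `lift e a = a e`.  An operator `X` with
`‖lift (∑_{e ∈ s} e) X‖ ≤ r` for all finite `s` has `‖X‖ ≤ r` because `lift (∑ e) → 1` (the finite
sums of projections converge strongly: `‖η - P_s η‖² = ⟪η, (1 - P_s) η⟫`; `tendsto_lift`). -/
theorem exh {t θ : ℝ} (hθ : 0 ≤ θ)
    (h : ∀ z, c.CP z → z ≠ 0 → ∃ e, c.CP e ∧ e ≠ 0 ∧ z * e = e ∧ c.Rel t e θ) : c.Rel t 1 θ := by
  obtain ⟨S, hS, hSo, hmax⟩ := R121.exists_maximal_pairwise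
    (fun e : Op H => c.CP e ∧ e ≠ 0 ∧ c.Rel t e θ) (fun x y => x * y = 0 ∧ y * x = 0)
    fun _ _ h => h.symm
  have he : ∀ i : S, IsStarProjection i.1 := fun i => (hS _ i.2).1.2
  have hc : ∀ i : S, Ctr c.M i.1 := fun i => (hS _ i.2).1.1
  have ho : ∀ i j : S, i ≠ j → i.1 * j.1 = 0 := fun i j hij =>
    (hSo i.2 j.2 fun h => hij (Subtype.ext h)).1
  obtain ⟨P, -, hs, -, a2, a3⟩ := StarC.block (E := fun i : S => i.1) (b := fun i : S => i.1) he ho
    (fun i => (he i).isIdempotentElem.eq) (fun i => (he i).isIdempotentElem.eq) zero_le_one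
    fun i => (he i).norm_le
  have hP : IsStarProjection P := by
    constructor
    · ext η
      refine ((hs η).mapL P).unique ?_
      simp only [← mul_apply_eq_comp, a2]
      exact hs η
    · have hw : WLim atTop (fun s : Finset S => ∑ i ∈ s, i.1) P := WLim.of_strong fun η => by
        simp only [sum_apply]; exact hs η
      refine hw.star.unique (hw.congr' (Eventually.of_forall fun s => ?_))
      exact (StarC.proj_sum he ho s).isSelfAdjoint.star_eq.symm
  have hP1 : P = 1 := by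
    by_contra hne
    obtain ⟨e, h1, h2, h3, h4⟩ := h (1 - P)
      ⟨⟨sub_mem (one_mem _) (a3 _ fun i => (hc i).1), sub_mem (one_mem _) (a3 _ fun i => (hc i).2)⟩,
        hP.one_sub⟩ (sub_ne_zero.2 (Ne.symm hne))
    have h5 : e * (1 - P) = e := by
      have := congrArg star h3
      rwa [star_mul, h1.2.isSelfAdjoint.star_eq, hP.one_sub.isSelfAdjoint.star_eq] at this
    have h6 : ∀ y ∈ S, e * y = 0 := fun y hy => by
      rw [← h5, mul_assoc, sub_mul, one_mul, a2 ⟨y, hy⟩, sub_self, mul_zero]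
    have h7 : e ∈ S := hmax e ⟨h1, h2, h4⟩ fun y hy => ⟨h6 y hy, by
      rw [comm_of_mem (hS y hy).1.1.1 h1.1.2, h6 y hy]⟩
    exact h2 (by rw [← h1.2.isIdempotentElem.eq, h6 e h7])
  subst hP1
  let E : S → Op 𝓗 := fun i => c.F.lift i.1
  have hE : ∀ i, IsStarProjection (E i) := fun i => (he i).map c.F.lift
  have hEo : ∀ i j, i ≠ j → E i * E j = 0 := fun i j hij => by
    simp only [E]
    rw [← map_mul, ho i j hij, map_zero]
  have hEs : ∀ η, HasSum (fun i => E i η) η := fun η => by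
    have := c.F.tendsto_lift (l := atTop) (x := fun s : Finset S => ∑ i ∈ s, i.1) (y := 1)
      (fun s => (StarC.proj_sum he ho s).norm_le)
      (fun ζ => by simp only [sum_apply]; exact hs ζ) η
    simp only [map_sum, map_one, sum_apply, one_apply_eq_self] at this
    exact this
  choose a ha a' ha' p1 p2 hn using fun i : S => (hS _ i.2).2.2
  obtain ⟨X, x1, x2, x3, x4⟩ := StarC.block_uni hE hEo hEs (fun i => (p1 i).1) fun i => (p1 i).2
  obtain ⟨X', y1, y2, y3, y4⟩ := StarC.block_uni hE hEo hEs (fun i => (p2 i).1) fun i => (p2 i).2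
  have f1 := fun i => StarC.pi_facts (hE i) (p1 i).1 (p1 i).2
  have f2 := fun i => StarC.pi_facts (hE i) (p2 i).1 (p2 i).2
  have g1 : ∀ i, E i * (a i * a' i * c.V t - E i * c.U t) = a i * a' i * c.V t - E i * c.U t :=
    fun i => by
    rw [mul_sub, ← mul_assoc, ← mul_assoc, (f1 i).1, ← mul_assoc, (hE i).isIdempotentElem.eq]
  obtain ⟨Y, z1, -, z2, -, -⟩ := StarC.block (b := fun i => a i * a' i * c.V t - E i * c.U t)
    hE hEo g1 (fun i => by
      rw [sub_mul, mul_assoc _ (c.V t), ← c.V_ctr t (hc i), mul_assoc _ (c.U t), ← c.U_ctr t (hc i),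
        ← mul_assoc, ← mul_assoc, mul_assoc (a i), (f2 i).2.1, (hE i).isIdempotentElem.eq]) hθ hn
  refine ⟨X, x4 _ ha, X', y4 _ ha', ⟨by rw [x1, map_one], by rw [x2, map_one]⟩,
    ⟨by rw [y1, map_one], by rw [y2, map_one]⟩, le_of_eq_of_le (congrArg _ ?_) z1⟩
  refine StarC.ext hEs fun j => ?_
  rw [z2, map_one, one_mul, mul_sub, ← mul_assoc, ← mul_assoc, x3, ← (f1 j).2.1,
    mul_assoc (a j) (E j) X', y3, (f1 j).2.1]

theorem rel_zero : c.Rel 0 1 0 := by
  refine ⟨1, one_mem _, 1, one_mem _, ⟨by simp, by simp⟩, ⟨by simp, by simp⟩, ?_⟩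
  simp [c.V_zero, c.U_zero]

theorem StarC_pi {a : Op 𝓗} : c.PI 1 a ↔ a ∈ unitary (Op 𝓗) := by
  rw [PI, map_one, Unitary.mem_iff]

/-- `(a V t b V (-t)) (a' V t b' V (-t)) V (t + t') = (a a' V t) (b b' V t')`. -/
theorem rel_add {t t' θ θ' : ℝ} (h : c.Rel t 1 θ) (h' : c.Rel t' 1 θ') :
    c.Rel (t + t') 1 (θ + θ') := by
  obtain ⟨a, ha, a', ha', p1, p2, hn⟩ := h
  obtain ⟨b, hb, b', hb', q1, q2, hm⟩ := h'
  rw [StarC_pi] at p1 p2 q1 q2
  rw [map_one, one_mul] at hn hm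
  have hV := c.V_unitary
  refine ⟨a * (c.V t * b * c.V (-t)), mul_mem ha (c.V_mem t hb), a' * (c.V t * b' * c.V (-t)),
    mul_mem ha' (c.V_mem' t hb'), c.StarC_pi.2 (mul_mem p1 (mul_mem (mul_mem (hV _) q1) (hV _))),
    c.StarC_pi.2 (mul_mem p2 (mul_mem (mul_mem (hV _) q2) (hV _))), ?_⟩
  have e0 : c.V (-t) * c.V t = 1 := by rw [c.V_mul, neg_add_cancel, c.V_zero]
  have e1 := comm_of_mem (c.V_mem t hb) ha'
  have e : a * (c.V t * b * c.V (-t)) * (a' * (c.V t * b' * c.V (-t))) * c.V (t + t') =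
      (a * a' * c.V t) * (b * b' * c.V t') := by
    rw [← c.V_mul]
    calc _ = a * (c.V t * b * c.V (-t) * a') * c.V t * b' * (c.V (-t) * c.V t) * c.V t' := by
          simp only [mul_assoc]
      _ = a * a' * c.V t * b * (c.V (-t) * c.V t) * b' * c.V t' := by
          rw [e1, e0, mul_one, mul_one, mul_assoc _ b b', ← mul_one b, ← e0]
          simp only [mul_assoc, e0, mul_one]
      _ = _ := by rw [e0]; simp only [mul_assoc, mul_one]
  rw [e, map_one, one_mul, ← c.U_mul]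
  have e2 : (a * a' * c.V t) * (b * b' * c.V t') - c.U t * c.U t' =
      (a * a' * c.V t - c.U t) * (b * b' * c.V t') + c.U t * (b * b' * c.V t' - c.U t') := by
    noncomm_ring
  rw [e2]
  refine (norm_add_le _ _).trans (add_le_add ?_ ?_)
  · rwa [CStarRing.norm_mul_mem_unitary _ (mul_mem (mul_mem q1 q2) (hV _))]
  · rwa [CStarRing.norm_mem_unitary_mul _ (c.U_unitary t)]

/-- `n = cmp a ∈ N`, `n' = cmp a' ∈ N'` are commuting contractions,
`n' n = cmp (a' a)` (`cmp_mul`, `p_comm`, `p'_comm`), `‖n n' σ.U t - τ.U t‖ ≤ θ`; hence `n`, `n*`,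
`n'`, `n'*` are bounded below by `1 - θ`; `exists_polar`. -/
theorem descent {t θ : ℝ} (hθ : θ ≤ 1 / 2) (h : c.Rel t 1 θ) :
    ∃ a ∈ c.N, ∃ b ∈ c.N.commutant, a ∈ unitary (Op H) ∧ b ∈ unitary (Op H) ∧
      ‖c.τ.U t * c.σ.U (-t) - a * b‖ ≤ 3 * θ := by
  obtain ⟨a, ha, a', ha', p1, p2, hn⟩ := h
  rw [StarC_pi] at p1 p2
  have h0 : 0 ≤ θ := (norm_nonneg _).trans hn
  obtain ⟨n, hn0⟩ : ∃ n, n = c.F.cmp a := ⟨_, rfl⟩
  obtain ⟨n', hn0'⟩ : ∃ n, n = c.F.cmp a' := ⟨_, rfl⟩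
  have hnN : n ∈ c.N := hn0 ▸ c.F.cmp_mem (c.F.mem_Mt.1 ha).1
  have hnN' : n' ∈ c.N.commutant := hn0' ▸ c.F.cmp_mem' ha'
  have hcm : n * n' = n' * n := comm_of_mem hnN hnN'
  have b1 : ‖n‖ ≤ 1 := hn0 ▸ (c.F.norm_cmp_le a).trans (norm_unitary_le p1)
  have b2 : ‖n'‖ ≤ 1 := hn0' ▸ (c.F.norm_cmp_le a').trans (norm_unitary_le p2)
  have e1 : c.F.cmp (a * a') = n * n' := by
    rw [comm_of_mem ha ha', hcm, hn0, hn0']
    exact c.F.cmp_mul (c.F.p_comm _ (c.F.mem_Mt'.1 ha').2) (c.F.p'_comm _ (c.F.mem_Mt.1 ha).2)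
  have hu : c.τ.U t * c.σ.U (-t) ∈ unitary (Op H) := mul_mem (c.τ.U_unitary _) (c.σ.U_unitary _)
  have h1 : ‖n * n' - c.τ.U t * c.σ.U (-t)‖ ≤ θ := by
    have h2 := (c.F.norm_cmp_le _).trans hn
    rw [map_one, one_mul, map_sub, V, U, c.F.cmp_mul_lift, c.F.cmp_lift, e1,
      ← CStarRing.norm_mul_mem_unitary _ (c.σ.U_unitary (-t)), sub_mul, mul_assoc _ (c.σ.U t),
      c.σ.U_mul_neg, mul_one] at h2
    exact h2
  exact StarC.split hnN hnN' b1 b2 hu hθ h1

end Ctx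

end Crest.Agent.R78
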