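import Crest.Agent.R78.FrameLem
import Crest.Agent.R78.KrausDef
import Crest.Agent.R78.L2Def

/-! # R78: comparison of the modular groups in a frame: definitions (complete) -/

set_option autoImplicit false
set_option linter.unusedSectionVars false
open Filter Topology
open scoped InnerProductSpace

namespace Crest.Agent.R78

universe u
variable {H : Type u} [NormedAddCommGroup H] [InnerProductSpace ℂ H] [CompleteSpace H]

/-- All the data of the main argument. -/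
structure Ctx (H : Type u) [NormedAddCommGroup H] [InnerProductSpace ℂ H] [CompleteSpace H]
    (𝓗 : Type u) [NormedAddCommGroup 𝓗] [InnerProductSpace ℂ 𝓗] [CompleteSpace 𝓗]
    (A : Type) (o : A) where
  M : VonNeumannAlgebra H
  N : VonNeumannAlgebra H
  ξ : H
  τ : Tomita M ξ
  σ : Tomita N ξ
  ctr : ∀ z, Ctr M z ↔ Ctr N z
  F : Frame H 𝓗 A o
  κ : Kraus M ξ
  W : Op 𝓗
  W' : Op 𝓗
  pair : F.Pair M (κ.k ξ) W W'
  ε : ℝ
  hε : ε ≤ 1 / 1000
  B : ℝ → Op 𝓗
  R : ℝ → Op 𝓗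
  R' : ℝ → Op 𝓗
  pl : ∀ s, F.Placed M N (F.lift (τ.U s) * W * F.lift (τ.U (-s)))
    (F.lift (τ.U s) * W' * F.lift (τ.U (-s))) ε (B s) (R s) (R' s)

namespace Ctx
variable {𝓗 : Type u} [NormedAddCommGroup 𝓗] [InnerProductSpace ℂ 𝓗] [CompleteSpace 𝓗]
  {A : Type} {o : A} (c : Ctx H 𝓗 A o)

/-- The amplified modular group of `M`. -/
noncomputable def U (s : ℝ) : Op 𝓗 := c.F.lift (c.τ.U s)

/-- The amplified modular group of `N`. -/
noncomputable def V (s : ℝ) : Op 𝓗 := c.F.lift (c.σ.U s)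

/-- The Cuntz family `V t R s v j V (-t)` of `Mt N`. -/
noncomputable def r (t s : ℝ) (j : A) : Op 𝓗 := c.V t * c.R s * c.V (-t) * c.F.v j

/-- The Cuntz family `V t R' s v' j V (-t)` of `(Mt N)'`. -/
noncomputable def r' (t s : ℝ) (j : A) : Op 𝓗 := c.V t * c.R' s * c.V (-t) * c.F.v' j

/-- `a` is a partial isometry with both supports `lift e`. -/
def PI (e : Op H) (a : Op 𝓗) : Prop := star a * a = c.F.lift e ∧ a * star a = c.F.lift e

/-- `a` intertwines `x` with `y`. -/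
def Intw (a : Op 𝓗) (x y : A → Op 𝓗) : Prop :=
  ∀ j, a * x j = y j * a ∧ a * star (x j) = star (y j) * a

/-- On the central projection `e`, `U t` is `θ`-close to `U(Mt N) U((Mt N)') V t`. -/
def Rel (t : ℝ) (e : Op H) (θ : ℝ) : Prop :=
  ∃ a ∈ c.F.Mt c.N, ∃ a' ∈ (c.F.Mt c.N).commutant, c.PI e a ∧ c.PI e a' ∧
    ‖a * a' * c.V t - c.F.lift e * c.U t‖ ≤ θ

/-- Central projections. -/
def CP (e : Op H) : Prop := Ctr c.M e ∧ IsStarProjection e

theorem U_mul (s t : ℝ) : c.U s * c.U t = c.U (s + t) := by rw [U, U, U, ← map_mul, c.τ.U_add]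
theorem V_mul (s t : ℝ) : c.V s * c.V t = c.V (s + t) := by rw [V, V, V, ← map_mul, c.σ.U_add]
theorem U_zero : c.U 0 = 1 := by rw [U, c.τ.U_zero, map_one]
theorem V_zero : c.V 0 = 1 := by rw [V, c.σ.U_zero, map_one]
theorem star_U (s : ℝ) : star (c.U s) = c.U (-s) := by rw [U, U, ← map_star, c.τ.U_star]
theorem star_V (s : ℝ) : star (c.V s) = c.V (-s) := by rw [V, V, ← map_star, c.σ.U_star]
theorem U_unitary (s : ℝ) : c.U s ∈ unitary (Op 𝓗) := c.F.lift_unitary (c.τ.U_unitary s)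
theorem V_unitary (s : ℝ) : c.V s ∈ unitary (Op 𝓗) := c.F.lift_unitary (c.σ.U_unitary s)

theorem U_ctr (s : ℝ) {z : Op H} (hz : Ctr c.M z) : c.F.lift z * c.U s = c.U s * c.F.lift z := by
  rw [U, ← map_mul, ← map_mul, c.τ.U_ctr s z hz]

theorem V_ctr (s : ℝ) {z : Op H} (hz : Ctr c.M z) : c.F.lift z * c.V s = c.V s * c.F.lift z := by
  rw [V, ← map_mul, ← map_mul, c.σ.U_ctr s z ((c.ctr z).1 hz)]

theorem V_mem (t : ℝ) {X : Op 𝓗} (hX : X ∈ c.F.Mt c.N) : c.V t * X * c.V (-t) ∈ c.F.Mt c.N := by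
  rw [← c.star_V]
  refine c.F.lift_conj_mem (c.σ.U_unitary t) (fun y hy => ?_) hX
  simpa only [c.σ.U_star, neg_neg] using c.σ.U_mem' (-t) hy

theorem V_mem' (t : ℝ) {X : Op 𝓗} (hX : X ∈ (c.F.Mt c.N).commutant) :
    c.V t * X * c.V (-t) ∈ (c.F.Mt c.N).commutant := by
  rw [← c.star_V, ← c.F.flip_Mt] at *
  refine c.F.flip.lift_conj_mem (c.σ.U_unitary t) (fun y hy => ?_) hX
  rw [VonNeumannAlgebra.commutant_commutant] at hy ⊢
  simpa only [c.σ.U_star, neg_neg] using c.σ.U_mem (-t) y hy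

theorem ε_nonneg : 0 ≤ c.ε := (norm_nonneg _).trans (c.pl 0).B_near

end Ctx

end Crest.Agent.R78
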