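import Crest.Agent.R78.FC
import Crest.Agent.R109.RvD

/-! # R78: real projections and the operators `R = P + Q`, `D = P - Q` (helper of `Tom1`) -/

set_option autoImplicit false
set_option linter.unusedSectionVars false
open Filter Topology
open scoped InnerProductSpace

namespace Crest.Agent.R78

open Crest.Agent.R109 Complex

universe u
variable {H : Type u} [NormedAddCommGroup H] [InnerProductSpace ℂ H] [CompleteSpace H]

/-- The real orthogonal projection on `K`. -/
structure RP (K : Set H) (P : H →+ H) : Prop where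
  sub : RSub K
  mem : ∀ η, P η ∈ K
  orth : ∀ η, ∀ w ∈ K, (⟪η - P η, w⟫_ℂ).re = 0

theorem rp_unique {K : Set H} (hK : RSub K) {η v v' : H} (hv : v ∈ K) (hv' : v' ∈ K)
    (h : ∀ w ∈ K, (⟪η - v, w⟫_ℂ).re = 0) (h' : ∀ w ∈ K, (⟪η - v', w⟫_ℂ).re = 0) : v = v' := by
  refine sub_eq_zero.1 (rvd_eq_zero (le_of_eq ?_))
  have e : v - v' = (η - v') - (η - v) := by abel
  nth_rewrite 1 [e]
  rw [inner_sub_left, sub_re, h _ (hK.sub hv hv'), h' _ (hK.sub hv hv'), sub_zero]

theorem exists_RP {L : Set H} (hL : RSub L) : ∃ P, RP (closure L) P := by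
  choose P h1 h2 using hL.exists_proj
  have hK := hL.closure
  refine ⟨AddMonoidHom.mk' P fun a b => ?_, hK, h1, h2⟩
  refine rp_unique hK (h1 _) (hK.add _ (h1 a) _ (h1 b)) (h2 _) fun w hw => ?_
  rw [add_sub_add_comm, inner_add_left, add_re, h2 a w hw, h2 b w hw, add_zero]

theorem t1_II (η : H) : I • I • η = -η := by rw [smul_smul, I_mul_I, neg_one_smul]

theorem t1_re_I_left (a b : H) : (⟪I • a, b⟫_ℂ).re = (⟪a, b⟫_ℂ).im := by
  rw [inner_smul_left, conj_I]; simp

theorem t1_re_I_right (a b : H) : (⟪a, I • b⟫_ℂ).re = -(⟪a, b⟫_ℂ).im := by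
  rw [inner_smul_right, I_mul_re]

theorem t1_smul (c : ℂ) (η : H) : c • η = (c.re : ℂ) • η + (c.im : ℂ) • I • η := by
  rw [smul_smul, ← add_smul, re_add_im]

namespace RP
variable {K : Set H} {P : H →+ H} (h : RP K P)
include h

theorem eq {η v : H} (hv : v ∈ K) (h' : ∀ w ∈ K, (⟪η - v, w⟫_ℂ).re = 0) : P η = v :=
  rp_unique h.sub (h.mem η) hv (h.orth η) h'

theorem of_mem {v : H} (hv : v ∈ K) : P v = v := h.eq hv fun w _ => by simp

theorem idem (η : H) : P (P η) = P η := h.of_mem (h.mem η)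

theorem smul (r : ℝ) (η : H) : P ((r : ℂ) • η) = (r : ℂ) • P η :=
  h.eq (h.sub.smul r _ (h.mem η)) fun w hw => by
    rw [← smul_sub, inner_smul_left, conj_ofReal, re_ofReal_mul, h.orth η w hw, mul_zero]

theorem re_right (a b : H) : (⟪a, P b⟫_ℂ).re = (⟪P a, P b⟫_ℂ).re := by
  have := h.orth a _ (h.mem b)
  rw [inner_sub_left, sub_re] at this
  linarith

theorem symm (a b : H) : (⟪P a, b⟫_ℂ).re = (⟪a, P b⟫_ℂ).re := by
  rw [rvd_re_symm, h.re_right, h.re_right a, rvd_re_symm]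

theorem re_self (a : H) : (⟪a, P a⟫_ℂ).re = ‖P a‖ ^ 2 := by rw [h.re_right, rvd_re_self]

theorem norm_le (a : H) : ‖P a‖ ≤ ‖a‖ := by
  have h1 := (le_abs_self _).trans (rvd_abs_re_le a (P a))
  rw [h.re_self] at h1
  by_contra hc
  push Not at hc
  nlinarith [norm_nonneg a]

/-- `R = P + Q`. -/
noncomputable def Rop : Op H :=
  LinearMap.mkContinuous
    { toFun := fun η => P η - I • P (I • η)
      map_add' := fun a b => by simp only [smul_add, map_add]; abel
      map_smul' := fun c η => by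
        rw [RingHom.id_apply, t1_smul c η, t1_smul c (P η - _)]
        simp only [smul_add, map_add, smul_comm I (_ : ℂ) η, smul_comm I (c.im : ℂ), h.smul, t1_II,
          smul_neg, map_neg, smul_sub, smul_comm I (c.re : ℂ)]
        abel } 2 fun η => by
      have h1 := h.norm_le η
      have h2 := h.norm_le (I • η)
      have h3 := norm_sub_le (P η) (I • P (I • η))
      simp only [norm_smul, norm_I, one_mul] at h2 h3
      change ‖P η - I • P (I • η)‖ ≤ _
      linarith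

theorem Rop_apply (η : H) : h.Rop η = P η - I • P (I • η) := rfl

/-- `D = P - Q`. -/
noncomputable def Dop : H →ₗ⋆[ℂ] H where
  toFun := fun η => P η + I • P (I • η)
  map_add' := fun a b => by simp only [smul_add, map_add]; abel
  map_smul' := fun c η => by
    rw [t1_smul c η, t1_smul ((starRingEnd ℂ) c) (P η + _)]
    simp only [smul_add, map_add, smul_comm I (_ : ℂ) η, smul_comm I (c.im : ℂ), h.smul, t1_II,
      smul_neg, map_neg, smul_comm I (c.re : ℂ), conj_re, conj_im, ofReal_neg, neg_smul]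
    abel

theorem Dop_apply (η : H) : h.Dop η = P η + I • P (I • η) := rfl

theorem norm_Rop_le : ‖h.Rop‖ ≤ 2 := LinearMap.mkContinuous_norm_le _ zero_le_two _

theorem norm_Dop_le (η : H) : ‖h.Dop η‖ ≤ 2 * ‖η‖ := by
  have h1 := h.norm_le η
  have h2 := h.norm_le (I • η)
  have h3 := norm_add_le (P η) (I • P (I • η))
  simp only [norm_smul, norm_I, one_mul] at h2 h3
  rw [Dop_apply]
  linarith

theorem continuous_Dop : Continuous h.Dop :=
  AddMonoidHomClass.continuous_of_bound h.Dop 2 h.norm_Dop_le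

theorem symm_I (a b : H) : (⟪I • P (I • a), b⟫_ℂ).re = (⟪a, I • P (I • b)⟫_ℂ).re := by
  have h1 := h.symm (I • a) (I • b)
  rw [t1_re_I_right, t1_re_I_left] at h1
  rw [t1_re_I_right, t1_re_I_left]
  linarith

theorem Rop_sa : IsSelfAdjoint h.Rop := by
  have h1 : ∀ a b, (⟪h.Rop a, b⟫_ℂ).re = (⟪a, h.Rop b⟫_ℂ).re := fun a b => by
    rw [Rop_apply, Rop_apply, inner_sub_left, inner_sub_right, sub_re, sub_re, h.symm, h.symm_I]
  rw [ContinuousLinearMap.isSelfAdjoint_iff_isSymmetric]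
  intro a b
  refine Complex.ext (h1 a b) ?_
  have h2 := h1 a (I • b)
  rw [map_smul, t1_re_I_right, t1_re_I_right] at h2
  exact neg_injective h2

theorem Dop_symm (a b : H) : ⟪h.Dop a, b⟫_ℂ = ⟪h.Dop b, a⟫_ℂ := by
  have h1 : ∀ a b, (⟪h.Dop a, b⟫_ℂ).re = (⟪h.Dop b, a⟫_ℂ).re := fun a b => by
    rw [rvd_re_symm (h.Dop b), Dop_apply, Dop_apply, inner_add_left, inner_add_right, add_re,
      add_re, h.symm, h.symm_I]
  refine Complex.ext (h1 a b) ?_
  have h2 := h1 a (I • b)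
  rw [map_smulₛₗ, conj_I, neg_smul, inner_neg_left, neg_re, t1_re_I_right, t1_re_I_left] at h2
  exact neg_injective h2

theorem Rop_nonneg : 0 ≤ h.Rop := by
  rw [ContinuousLinearMap.nonneg_iff_isPositive, ContinuousLinearMap.isPositive_def']
  refine ⟨h.Rop_sa, fun η => ?_⟩
  rw [ContinuousLinearMap.reApplyInnerSelf_apply, inner_re_symm]
  change 0 ≤ (⟪η, h.Rop η⟫_ℂ).re
  have h1 := h.re_self (I • η)
  rw [t1_re_I_left] at h1
  rw [Rop_apply, inner_sub_right, sub_re, h.re_self, t1_re_I_right, h1, sub_neg_eq_add]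
  positivity

theorem Rop_spec : spectrum ℝ h.Rop ⊆ Set.Icc 0 2 := fun r hr => by
  refine ⟨spectrum_nonneg_of_nonneg h.Rop_nonneg hr, ?_⟩
  have := norm_apply_le_norm_cfc (fun t : ℝ => t) h.Rop hr (by fun_prop) h.Rop_sa
  rw [cfc_id' ℝ h.Rop h.Rop_sa] at this
  exact (le_abs_self r).trans (this.trans h.norm_Rop_le)

omit h in
theorem two_sub_apply (R : Op H) (η : H) : (2 - R) η = η + η - R η := by
  rw [← one_add_one_eq_two]; rfl

theorem DD (η : H) : h.Dop (h.Dop η) = h.Rop ((2 - h.Rop) η) := by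
  simp only [two_sub_apply, Rop_apply, Dop_apply, map_add, map_sub, smul_add, smul_sub, t1_II,
    map_neg, h.idem, smul_neg]
  abel

theorem DR (η : H) : h.Dop (h.Rop η) = (2 - h.Rop) (h.Dop η) := by
  simp only [two_sub_apply, Rop_apply, Dop_apply, map_add, map_sub, smul_add, smul_sub, t1_II,
    map_neg, h.idem, smul_neg]
  abel

theorem DR' (η : H) : h.Dop ((2 - h.Rop) η) = h.Rop (h.Dop η) := by
  rw [two_sub_apply, map_sub, map_add, h.DR, two_sub_apply]
  abel

/-- `T = √(R (2 - R))`. -/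
noncomputable def Top : Op H := cfc (fun r : ℝ => √(r * (2 - r))) h.Rop

theorem Top_sa : IsSelfAdjoint h.Top := cfc_predicate _ _

theorem cfc_A : cfc (fun r : ℝ => r * (2 - r)) h.Rop = h.Rop * (2 - h.Rop) := by
  have := h.Rop_sa
  rw [cfc_mul _ _ h.Rop, cfc_sub _ _ h.Rop, cfc_id' ℝ h.Rop, cfc_const _ h.Rop, map_ofNat]

theorem TT : h.Top * h.Top = h.Rop * (2 - h.Rop) := by
  rw [Top, ← cfc_mul _ _ h.Rop, ← h.cfc_A]
  refine cfc_congr fun r hr => Real.mul_self_sqrt ?_
  obtain ⟨h1, h2⟩ := h.Rop_spec hr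
  exact mul_nonneg h1 (sub_nonneg.2 h2)

theorem RT : h.Rop * h.Top = h.Top * h.Rop := ((Commute.refl h.Rop).cfc_real _).symm.eq

theorem DT (η : H) : h.Dop (h.Top η) = h.Top (h.Dop η) := by
  let S : StarSubalgebra ℝ (Op H) :=
    { carrier := {X | (∀ η, h.Dop (X η) = X (h.Dop η)) ∧ ∀ η, h.Dop (star X η) = star X (h.Dop η)}
      mul_mem' := fun {a b} ha hb => ⟨fun η => by
        rw [mul_apply_eq_comp, ha.1, hb.1, mul_apply_eq_comp], fun η => by
        rw [star_mul, mul_apply_eq_comp, hb.2, ha.2, mul_apply_eq_comp]⟩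
      add_mem' := fun {a b} ha hb => ⟨fun η => by
        rw [add_apply, map_add, ha.1, hb.1, add_apply], fun η => by
        rw [star_add, add_apply, map_add, ha.2, hb.2, add_apply]⟩
      algebraMap_mem' := fun r => by
        have e : ∀ η, h.Dop (algebraMap ℝ (Op H) r η) = algebraMap ℝ (Op H) r (h.Dop η) :=
          fun η => by
            rw [Algebra.algebraMap_eq_smul_one, ← Complex.coe_smul, smul_apply, smul_apply,
              one_apply_eq_self, one_apply_eq_self, map_smulₛₗ, conj_ofReal]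
        refine ⟨e, ?_⟩
        rw [(IsSelfAdjoint.algebraMap _ (IsSelfAdjoint.all r)).star_eq]
        exact e
      star_mem' := fun {a} ha => ⟨ha.2, by rw [star_star]; exact ha.1⟩ }
  have hc := h.continuous_Dop
  have hS : IsClosed (S : Set (Op H)) := by
    refine IsClosed.inter ?_ ?_
    · change IsClosed {X : Op H | ∀ η, h.Dop (X η) = X (h.Dop η)}
      rw [Set.ofPred_forall]
      exact isClosed_iInter fun η => isClosed_eq (by fun_prop) (by fun_prop)
    · change IsClosed {X : Op H | ∀ η, h.Dop (star X η) = star X (h.Dop η)}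
      rw [Set.ofPred_forall]
      exact isClosed_iInter fun η => isClosed_eq (by fun_prop) (by fun_prop)
  have hA1 : ∀ η, h.Dop ((h.Rop * (2 - h.Rop)) η) = (h.Rop * (2 - h.Rop)) (h.Dop η) := fun η => by
    rw [mul_apply_eq_comp, ← h.DD, mul_apply_eq_comp, ← h.DD]
  have hsa : IsSelfAdjoint (h.Rop * (2 - h.Rop)) := h.cfc_A ▸ cfc_predicate _ _
  have hA : h.Rop * (2 - h.Rop) ∈ S := ⟨hA1, by rw [hsa.star_eq]; exact hA1⟩
  have hT : h.Top = cfc (fun r : ℝ => √r) (h.Rop * (2 - h.Rop)) := by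
    have := h.Rop_sa
    rw [← h.cfc_A, ← cfc_comp' _ _ h.Rop, Top]
  rw [hT]
  exact (cfc_mem (𝕜' := ℝ) (fun r : ℝ => √r) hA).1 η

theorem inner_T (a b : H) : ⟪h.Top a, b⟫_ℂ = ⟪a, h.Top b⟫_ℂ :=
  ContinuousLinearMap.isSelfAdjoint_iff_isSymmetric.1 h.Top_sa a b

theorem inner_DD (a b : H) : ⟪h.Dop a, h.Dop b⟫_ℂ = ⟪h.Top b, h.Top a⟫_ℂ := by
  rw [h.Dop_symm, h.DD, ← mul_apply_eq_comp, ← h.TT, mul_apply_eq_comp, h.inner_T]

theorem norm_D (a : H) : ‖h.Dop a‖ = ‖h.Top a‖ := by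
  rw [norm_eq_sqrt_re_inner (𝕜 := ℂ), h.inner_DD, ← norm_eq_sqrt_re_inner]

/-- The polar decomposition `D = J T`. -/
theorem exists_J (hD : ∀ η, h.Dop η = 0 → η = 0) :
    ∃ c : Conj H, (∀ η, c.J (h.Top η) = h.Dop η) ∧ (∀ η, c.J (h.Top η) = h.Top (c.J η)) ∧
      ∀ η, c.J (h.Rop η) = (2 - h.Rop) (c.J η) := by
  have hT : ∀ η, h.Top η = 0 → η = 0 := fun η h0 =>
    hD η (norm_eq_zero.1 (by rw [h.norm_D, h0, norm_zero]))
  have hd : DenseRange h.Top := by
    have : (h.Top.range).topologicalClosure = ⊤ := by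
      rw [Submodule.topologicalClosure_eq_top_iff, eq_bot_iff]
      intro v hv
      have h1 := hv (h.Top (h.Top v)) ⟨_, rfl⟩
      rw [h.inner_T] at h1
      exact hT v (inner_self_eq_zero.1 h1)
    exact Submodule.dense_iff_topologicalClosure_eq_top.2 this
  let J : H →L⋆[ℂ] H := h.Dop.extendOfNorm (h.Top : H →ₗ[ℂ] H)
  have hJ : ∀ η, J (h.Top η) = h.Dop η := fun η =>
    LinearMap.extendOfNorm_eq (f := h.Dop) (e := (h.Top : H →ₗ[ℂ] H)) hd
      ⟨1, fun x => by rw [one_mul]; exact (h.norm_D x).le⟩ η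
  have hJT : ∀ η, J (h.Top η) = h.Top (J η) := fun η => by
    refine hd.induction_on η (isClosed_eq (by fun_prop) (by fun_prop)) fun a => ?_
    rw [hJ, hJ, h.DT]
  refine ⟨⟨J, fun η => ?_, fun a b => ?_⟩, hJ, hJT, fun η => ?_⟩
  · refine (hd.comp hd h.Top.continuous).induction_on η
      (isClosed_eq (by fun_prop) (by fun_prop)) fun a => ?_
    rw [Function.comp_apply, hJ, h.DT, hJ, h.DD, ← mul_apply_eq_comp, ← h.TT, mul_apply_eq_comp]
  · refine hd.induction_on₂ (isClosed_eq (by fun_prop) (by fun_prop)) (fun a b => ?_) a b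
    rw [hJ, hJ, h.inner_DD]
  · refine hd.induction_on η (isClosed_eq (by fun_prop) (by fun_prop)) fun a => ?_
    change J (h.Rop (h.Top a)) = (2 - h.Rop) (J (h.Top a))
    rw [← mul_apply_eq_comp, h.RT, mul_apply_eq_comp, hJ, hJ, h.DR]

end RP

end Crest.Agent.R78
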