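import Crest.Agent.R78.FC
import Crest.Agent.R109.RvD

/-! # R78: the Rieffel-van Daele operator identity, the modular group (task `Tom2`) -/

set_option autoImplicit false
set_option linter.unusedSectionVars false
open Filter Topology
open scoped InnerProductSpace

namespace Crest.Agent.R78

universe u
variable {H : Type u} [NormedAddCommGroup H] [InnerProductSpace ℂ H] [CompleteSpace H]

theorem tom2_star_inner (X : Op H) (a b : H) : ⟪star X a, b⟫_ℂ = ⟪a, X b⟫_ℂ := by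
  rw [ContinuousLinearMap.star_eq_adjoint, ContinuousLinearMap.adjoint_inner_left]

theorem tom2_sa_inner {X : Op H} (h : IsSelfAdjoint X) (a b : H) : ⟪X a, b⟫_ℂ = ⟪a, X b⟫_ℂ := by
  rw [← tom2_star_inner, h.star_eq]

theorem tom2_two_sub (X : Op H) (η : H) : (2 - X) η = (2 : ℂ) • η - X η := by
  rw [ContinuousLinearMap.sub_apply, ← one_add_one_eq_two (R := Op H), two_smul]
  rfl

theorem tom2_decomp {N : VonNeumannAlgebra H} {y : Op H} (hy : y ∈ N) :
    ∃ a ∈ N, ∃ b ∈ N, IsSelfAdjoint a ∧ IsSelfAdjoint b ∧ y = a + Complex.I • b := by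
  refine ⟨(1 / 2 : ℂ) • (y + star y), vn_smul_mem _ (add_mem hy (star_mem hy)),
    (-Complex.I / 2) • (y - star y), vn_smul_mem _ (sub_mem hy (star_mem hy)), ?_, ?_, ?_⟩
  · rw [IsSelfAdjoint, star_smul, star_add, star_star, add_comm]
    simp
  · rw [IsSelfAdjoint, star_smul, star_sub, star_star, ← neg_sub y, smul_neg, ← neg_smul]
    congr 1
    simp [neg_div]
  · rw [smul_smul, show Complex.I * (-Complex.I / 2) = 1 / 2 by
      rw [← mul_div_assoc, mul_neg, Complex.I_mul_I, neg_neg]]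
    module

theorem Cyc.tom2_ext_vec {M : VonNeumannAlgebra H} {ζ : H} (hc : Cyc M ζ) {v w : H}
    (h : ∀ m ∈ M, ⟪m ζ, v⟫_ℂ = ⟪m ζ, w⟫_ℂ) : v = w :=
  ext_inner_left ℂ fun η => Dense.induction hc (P := fun η => ⟪η, v⟫_ℂ = ⟪η, w⟫_ℂ)
    (by rintro _ ⟨m, hm, rfl⟩; exact h m hm) (isClosed_eq (by fun_prop) (by fun_prop)) η

theorem tom2_cont_sq : ContinuousOn (fun r : ℝ => ((√(r * (2 - r)) : ℝ) : ℂ)) (Set.Icc 0 2) := by
  fun_prop

theorem tom2_cont_fT (t : ℝ) : ContinuousOn (fT t) (Set.Icc 0 2) :=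
  continuousOn_fT.comp (f := fun r : ℝ => (t, r)) (by fun_prop) fun _ hr => ⟨trivial, hr⟩

theorem tom2_conj_fT (t r : ℝ) : (starRingEnd ℂ) (fT t r) = fT (-t) r := by
  simp only [fT, map_mul, ← Complex.exp_conj, Complex.conj_ofReal, Complex.conj_I]
  push_cast
  ring_nf

theorem tom2_lg (r : ℝ) : lg (2 - r) = -lg r := by
  rw [lg, lg, sub_sub_cancel, ← Real.log_inv, inv_div]

namespace RvD
variable {M : VonNeumannAlgebra H} {ξ : H} (d : RvD M ξ)

theorem T_sa : IsSelfAdjoint d.T := by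
  rw [d.T_eq]
  exact IsSelfAdjoint.cfc

/-- `T` is self-adjoint and injective. -/
theorem T_dense : DenseRange d.T := by
  have h : (LinearMap.range d.T.toLinearMap).topologicalClosure = ⊤ := by
    rw [Submodule.topologicalClosure_eq_top_iff, Submodule.eq_bot_iff]
    intro η hη
    refine d.T_inj η (ext_inner_left ℂ fun v => ?_)
    rw [inner_zero_right, ← tom2_sa_inner d.T_sa]
    exact hη _ ⟨v, rfl⟩
  exact Submodule.dense_iff_topologicalClosure_eq_top.2 h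

theorem T_fc : d.T = fc d.R fun r => ((√(r * (2 - r)) : ℝ) : ℂ) := by
  exact d.T_eq.trans (fc_real d.R_sa fun r => √(r * (2 - r))).symm

/-- `TJ` at `x = 1` and `TJ'` at `y = 1` give `(2 - R) ξ = R ξ`. -/
theorem R_xi : d.R ξ = ξ := by
  have h1 := d.TJ 1 (one_mem M)
  rw [d.TJ' 1 (one_mem M.commutant), tom2_two_sub, ContinuousLinearMap.one_apply, eq_sub_iff_add_eq,
    ← two_smul ℂ] at h1
  exact smul_right_injective H (two_ne_zero (α := ℂ)) h1

theorem T_xi : d.T ξ = ξ := by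
  have h := fc_eigen d.R_sa d.spec tom2_cont_sq (η := ξ) (c := 1) (by rw [d.R_xi]; simp)
  rw [← d.T_fc] at h
  rw [h]
  norm_num

theorem J_xi : d.J ξ = ξ := by
  have h1 := d.TJ' 1 (one_mem M.commutant)
  rw [star_one, ContinuousLinearMap.one_apply, d.R_xi] at h1
  refine sub_eq_zero.1 (d.T_inj _ ?_)
  rw [map_sub, h1, d.T_xi, sub_self]

/-- The data of the commutant: `R ↦ 2 - R`, same `T` (`cfc_comp`, `cfc_const_sub`…) and `J`. -/
theorem exists_flip : ∃ d' : RvD M.commutant ξ, d'.toConj = d.toConj := by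
  have hM : ∀ {y : Op H}, y ∈ M.commutant.commutant → y ∈ M := fun hy => by
    rwa [M.commutant_commutant] at hy
  have hM' : ∀ {y : Op H}, y ∈ M → y ∈ M.commutant.commutant := fun hy => by
    rwa [M.commutant_commutant]
  have h2 : IsSelfAdjoint (2 : Op H) := by simp [IsSelfAdjoint]
  refine ⟨{ toConj := d.toConj
            R := 2 - d.R
            T := d.T
            cyc := d.cyc'
            cyc' := by rw [M.commutant_commutant]; exact d.cyc
            R_sa := h2.sub d.R_sa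
            spec := ?_
            T_eq := ?_
            T_inj := d.T_inj
            J_R := fun η => ?_
            J_T := d.J_T
            TJ := fun x hx => ?_
            TJ' := fun y hy => d.TJ y (hM hy)
            R_real := fun x hx y hy hxs hys h => d.R_real' y (hM hy) x hx hys hxs h
            R_real' := fun x hx y hy hxs hys h => ?_
            R_ctr := fun z hz => ?_ }, rfl⟩
  · have e : (2 : Op H) = algebraMap ℝ (Op H) 2 := (map_ofNat _ 2).symm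
    rw [e, ← spectrum.singleton_sub_eq]
    rintro _ ⟨_, rfl, r, hr, rfl⟩
    obtain ⟨h0, h1⟩ := d.spec hr
    exact ⟨by simp only; linarith, by simp only; linarith⟩
  · have e : (2 : Op H) - d.R = cfc (fun r : ℝ => 2 - r) d.R := by
      rw [cfc_sub (fun _ : ℝ => 2) (fun r : ℝ => r) d.R (by fun_prop) (by fun_prop), cfc_const 2 d.R d.R_sa,
        cfc_id' ℝ d.R d.R_sa, map_ofNat]
    rw [e, ← cfc_comp' (fun r : ℝ => √(r * (2 - r))) (fun r : ℝ => 2 - r) d.R (by fun_prop) (by fun_prop)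
      d.R_sa, d.T_eq]
    congr 1
    funext r
    rw [sub_sub_cancel, mul_comm]
  · rw [sub_sub_cancel, tom2_two_sub, map_sub, d.J_R, tom2_two_sub, d.toConj.J_smul, map_ofNat,
      sub_sub_cancel]
  · rw [sub_sub_cancel]
    exact d.TJ' x hx
  · rw [sub_sub_cancel]
    exact d.R_real y (hM hy) x hx hys hxs fun k hk => h k (hM' hk)
  · rw [mul_sub, sub_mul, d.R_ctr z ⟨hM hz.2, hz.1⟩, mul_two, two_mul]

theorem tom2_ext_right {X Y : Op H} (h : X * d.T = Y * d.T) : X = Y :=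
  ContinuousLinearMap.coeFn_injective (d.T_dense.equalizer X.continuous Y.continuous
    (funext fun η => congrArg (fun Z : Op H => Z η) h))

theorem tom2_ext_left {X Y : Op H} (h : d.T * X = d.T * Y) : X = Y := by
  ext η
  refine sub_eq_zero.1 (d.T_inj _ ?_)
  rw [map_sub, sub_eq_zero]
  exact congrArg (fun Z : Op H => Z η) h

theorem tom2_norm_fT (t : ℝ) (η : H) : ‖fc d.R (fT t) η‖ = ‖d.T η‖ := by
  have h : star (fc d.R (fT t)) * fc d.R (fT t) = d.T * d.T := by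
    rw [← fc_star, ← fc_mul d.R_sa d.spec (f := fun r => (starRingEnd ℂ) (fT t r))
      (Complex.continuous_conj.comp_continuousOn (tom2_cont_fT t)) (tom2_cont_fT t), d.T_fc,
      ← fc_mul d.R_sa d.spec tom2_cont_sq tom2_cont_sq]
    congr 1
    funext r
    rw [tom2_conj_fT, fT, fT, mul_mul_mul_comm, ← Complex.exp_add]
    simp
  rw [norm_eq_sqrt_re_inner (𝕜 := ℂ), norm_eq_sqrt_re_inner (𝕜 := ℂ) (d.T η), tom2_sa_inner d.T_sa,
    ← ContinuousLinearMap.mul_apply d.T, ← h, ContinuousLinearMap.mul_apply, ← tom2_star_inner,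
    ← tom2_star_inner (star _) η, star_star, tom2_star_inner]

theorem tom2_pre_sa {a : Op H} (ha : a ∈ M.commutant) (has : IsSelfAdjoint a) :
    ∃ k ∈ M, IsSelfAdjoint k ∧ d.R (a ξ) = k ξ ∧ d.J (d.T (a ξ)) = k ξ := by
  obtain ⟨⟨k, hk⟩, hks, hkl⟩ := R109.sakai M ξ (l := 1) (by simp) ha has
  have hks' : IsSelfAdjoint k := congrArg Subtype.val hks
  have h1 : d.R (a ξ) = k ξ := d.R_real k hk a ha hks' has fun k' hk' hk's => by
    have := hkl ⟨k', hk'⟩ (Subtype.ext hk's)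
    rwa [one_smul] at this
  refine ⟨k, hk, hks', h1, ?_⟩
  rw [d.J_T, ← h1, ← d.TJ' a ha, has.star_eq]

/-- For `y = a + i b ∈ M'` take `a₀`, `b₀` from `R109.sakai` with `l = 1`; `R_real` gives
`R a ξ = a₀ ξ`, and `J T a ξ = T J a ξ = R a ξ` by `TJ'`. -/
theorem exists_pre {y : Op H} (hy : y ∈ M.commutant) :
    ∃ x ∈ M, d.R (y ξ) = x ξ ∧ d.J (d.T (y ξ)) = star x ξ := by
  obtain ⟨a, ha, b, hb, has, hbs, rfl⟩ := tom2_decomp hy
  obtain ⟨a₀, ha₀, ha₁, ha₂, ha₃⟩ := d.tom2_pre_sa ha has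
  obtain ⟨b₀, hb₀, hb₁, hb₂, hb₃⟩ := d.tom2_pre_sa hb hbs
  refine ⟨a₀ + Complex.I • b₀, add_mem ha₀ (vn_smul_mem _ hb₀), ?_, ?_⟩
  · simp only [ContinuousLinearMap.add_apply, ContinuousLinearMap.smul_apply, map_add, map_smul, ha₂, hb₂]
  · rw [star_add, star_smul, ha₁.star_eq, hb₁.star_eq]
    simp only [ContinuousLinearMap.add_apply, ContinuousLinearMap.smul_apply, map_add, map_smul,
      d.toConj.J_smul, ha₃, hb₃]
    rfl

/-- `k` from `R109.sakai`: for self-adjoint `k' ∈ M`, `⟪t ξ, k' ξ⟫` is real, so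
`2 ⟪t ξ, m ξ⟫ = conj l ⟪k ξ, m ξ⟫ + l ⟪m* ξ, k ξ⟫` for self-adjoint `m`, hence all `m ∈ M`.  Put
`m = y z*` with `y`, `z` from `exists_pre` for `y'`, `z' ∈ M'`:
`⟪t y* ξ, z* ξ⟫ = ⟪z' ξ, T (J t J) T y' ξ⟫`,
`⟪y* k ξ, z* ξ⟫ = ⟪z' ξ, T J (k y)* ξ⟫ = ⟪z' ξ, (2 - R) k R y' ξ⟫`, and symmetrically.  Conclude
with `cyc'` (`Cyc.ext` twice). -/
theorem exists_sakai {t : Op H} (ht : t ∈ M.commutant) (hts : IsSelfAdjoint t) {l : ℂ}
    (hl : 0 < l.re) : ∃ k ∈ M, (2 : ℂ) • (d.T * d.toConj.jj t * d.T) =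
      (starRingEnd ℂ) l • ((2 - d.R) * k * d.R) + l • (d.R * k * (2 - d.R)) := by
  obtain ⟨⟨k, hk⟩, hks, hkl⟩ := R109.sakai M ξ hl ht hts
  have hks' : IsSelfAdjoint k := congrArg Subtype.val hks
  have hsa : ∀ m ∈ M, IsSelfAdjoint m →
      2 * ⟪t ξ, m ξ⟫_ℂ = (starRingEnd ℂ) l * ⟪k ξ, m ξ⟫_ℂ + l * ⟪m ξ, k ξ⟫_ℂ := by
    intro m hm hms
    have h1 : (⟪l • k ξ - t ξ, m ξ⟫_ℂ).re = 0 := hkl ⟨m, hm⟩ (Subtype.ext hms)
    have h2 : (starRingEnd ℂ) ⟪t ξ, m ξ⟫_ℂ = ⟪t ξ, m ξ⟫_ℂ := by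
      rw [inner_conj_symm, tom2_sa_inner hms, tom2_sa_inner hts, ← ContinuousLinearMap.mul_apply,
        comm_of_mem hm ht, ContinuousLinearMap.mul_apply]
    rw [inner_sub_left, inner_smul_left, Complex.sub_re, sub_eq_zero] at h1
    have h3 : l * ⟪m ξ, k ξ⟫_ℂ = (starRingEnd ℂ) ((starRingEnd ℂ) l * ⟪k ξ, m ξ⟫_ℂ) := by
      rw [map_mul, Complex.conj_conj, inner_conj_symm]
    rw [h3, Complex.add_conj, h1, ← Complex.add_conj, h2, two_mul]
  have hall : ∀ m ∈ M,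
      2 * ⟪t ξ, m ξ⟫_ℂ = (starRingEnd ℂ) l * ⟪k ξ, m ξ⟫_ℂ + l * ⟪star m ξ, k ξ⟫_ℂ := by
    intro m hm
    obtain ⟨a, ha, b, hb, has, hbs, rfl⟩ := tom2_decomp hm
    rw [star_add, star_smul, has.star_eq, hbs.star_eq]
    simp only [ContinuousLinearMap.add_apply, ContinuousLinearMap.smul_apply, inner_add_left,
      inner_add_right, inner_smul_left, inner_smul_right, Complex.star_def, Complex.conj_conj]
    linear_combination hsa a ha has + Complex.I * hsa b hb hbs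
  refine ⟨k, hk, d.cyc'.ext fun y' hy' => d.cyc'.tom2_ext_vec fun z' hz' => ?_⟩
  obtain ⟨y, hy, hy1, hy2⟩ := d.exists_pre hy'
  obtain ⟨z, hz, hz1, hz2⟩ := d.exists_pre hz'
  have h := hall (y * star z) (mul_mem hy (star_mem hz))
  have h2R : IsSelfAdjoint (2 - d.R) := IsSelfAdjoint.sub (by simp [IsSelfAdjoint]) d.R_sa
  have hJ : ∀ a b : H, ⟪a, d.J b⟫_ℂ = ⟪b, d.J a⟫_ℂ := fun a b => by
    rw [← d.toConj.inner (d.J a), d.toConj.invol]
  have e1 : ⟪t ξ, (y * star z) ξ⟫_ℂ = ⟪z' ξ, (d.T * d.toConj.jj t * d.T) (y' ξ)⟫_ℂ :=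
    calc ⟪t ξ, (y * star z) ξ⟫_ℂ = ⟪(star y * t) ξ, star z ξ⟫_ℂ := (tom2_star_inner y _ _).symm
      _ = ⟪t (star y ξ), star z ξ⟫_ℂ := by rw [comm_of_mem (star_mem hy) ht]; rfl
      _ = ⟪d.T (z' ξ), d.J (t (d.J (d.T (y' ξ))))⟫_ℂ := by rw [← hy2, ← hz2, hJ]
      _ = _ := tom2_sa_inner d.T_sa _ _
  have e2 : ⟪k ξ, (y * star z) ξ⟫_ℂ = ⟪z' ξ, ((2 - d.R) * k * d.R) (y' ξ)⟫_ℂ :=
    calc ⟪k ξ, (y * star z) ξ⟫_ℂ = ⟪(star y * k) ξ, star z ξ⟫_ℂ := (tom2_star_inner y _ _).symm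
      _ = ⟪d.T (z' ξ), d.J (star (k * y) ξ)⟫_ℂ := by rw [← hz2, hJ, star_mul, hks'.star_eq]
      _ = ⟪z' ξ, (2 - d.R) (k (y ξ))⟫_ℂ := by
        rw [tom2_sa_inner d.T_sa, d.TJ _ (mul_mem hk hy)]; rfl
      _ = _ := by rw [← hy1]; rfl
  have e3 : ⟪star (y * star z) ξ, k ξ⟫_ℂ = ⟪z' ξ, (d.R * k * (2 - d.R)) (y' ξ)⟫_ℂ :=
    calc ⟪star (y * star z) ξ, k ξ⟫_ℂ = ⟪star (star z) (star y ξ), k ξ⟫_ℂ := by rw [star_mul]; rfl
      _ = ⟪star y ξ, star (k * z) ξ⟫_ℂ := by rw [tom2_star_inner, star_mul, hks'.star_eq]; rfl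
      _ = ⟪d.T (d.J (star (k * z) ξ)), y' ξ⟫_ℂ := by
        rw [← hy2, d.toConj.inner_J_left, tom2_sa_inner d.T_sa]
      _ = ⟪(2 - d.R) (k (d.R (z' ξ))), y' ξ⟫_ℂ := by rw [d.TJ _ (mul_mem hk hz), hz1]; rfl
      _ = _ := by rw [tom2_sa_inner h2R, tom2_sa_inner hks', tom2_sa_inner d.R_sa]; rfl
  rw [e1, e2, e3] at h
  rw [ContinuousLinearMap.add_apply, ContinuousLinearMap.smul_apply, ContinuousLinearMap.smul_apply,
    ContinuousLinearMap.smul_apply, inner_add_right, inner_smul_right, inner_smul_right, inner_smul_right]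
  exact h

/-- `‖fT t (R) η‖ = ‖T η‖`, so `T η ↦ fT t (R) η` extends from the dense range of `T` to an
isometry `U t`.  `U s U t T T = fT s (R) fT t (R) = fT (s+t) (R) T = U (s+t) T T`;
`⟪T a, U t T b⟫ = ⟪U (-t) T a, T b⟫`; continuity on `range T` by `continuousOn_fc`, then density;
`U_xi` by `fc_eigen` (`fT t 1 = 1`); `J_U` by `jj_fc` (`lg (2 - r) = - lg r`). -/
theorem exists_grp : ∃ U, d.Grp U := by
  have hn : ∀ t η, ‖(fc d.R (fT t)).toLinearMap η‖ ≤ 1 * ‖d.T.toLinearMap η‖ := fun t η => by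
    rw [one_mul]
    exact (d.tom2_norm_fT t η).le
  obtain ⟨U, hU, hU1⟩ : ∃ U : ℝ → Op H, (∀ t, U t * d.T = fc d.R (fT t)) ∧ ∀ t, ‖U t‖ ≤ 1 :=
    ⟨fun t => (fc d.R (fT t)).toLinearMap.extendOfNorm d.T.toLinearMap,
      fun t => ContinuousLinearMap.ext fun η => LinearMap.extendOfNorm_eq d.T_dense ⟨1, hn t⟩ η,
      fun t => LinearMap.opNorm_extendOfNorm_le d.T_dense zero_le_one (hn t)⟩
  have hcomm : ∀ s (X : Op H), X * d.R = d.R * X → X * U s = U s * X := fun s X hX => by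
    refine d.tom2_ext_right ?_
    have h1 : X * d.T = d.T * X := by rw [d.T_fc]; exact fc_comm d.R_sa hX _
    rw [mul_assoc, hU, fc_comm d.R_sa hX, mul_assoc, h1, ← mul_assoc, hU]
  have hTR : d.T * d.R = d.R * d.T := by rw [d.T_fc]; exact (fc_comm d.R_sa rfl _).symm
  have hTU : ∀ s, d.T * U s = U s * d.T := fun s => hcomm s _ hTR
  refine ⟨U, hU, ?_, fun s t => ?_, fun s => ?_, fun η => ?_, hcomm, fun s => ?_, fun s η => ?_⟩
  · refine d.tom2_ext_right ?_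
    rw [hU, one_mul, d.T_fc]
    congr 1
    funext r
    simp [fT]
  · refine d.tom2_ext_right (d.tom2_ext_right ?_)
    have e : U s * U t * d.T * d.T = U s * d.T * (U t * d.T) := by
      calc U s * U t * d.T * d.T = U s * (U t * d.T) * d.T := by rw [mul_assoc (U s)]
        _ = U s * (d.T * U t) * d.T := by rw [hTU]
        _ = _ := by simp only [mul_assoc]
    rw [e, hU, hU, hU, ← fc_mul d.R_sa d.spec (tom2_cont_fT s) (tom2_cont_fT t)]
    conv_lhs => rw [d.T_fc]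
    rw [← fc_mul d.R_sa d.spec (tom2_cont_fT (s + t)) tom2_cont_sq]
    congr 1
    funext r
    simp only [fT]
    rw [Complex.ofReal_add, mul_add, add_mul, Complex.exp_add]
    ring
  · refine d.tom2_ext_left ?_
    have e : d.T * star (U s) = star (U s * d.T) := by rw [star_mul, d.T_sa.star_eq]
    rw [e, hTU, hU, hU, ← fc_star]
    congr 1
    funext r
    exact tom2_conj_fT s r
  · refine continuous_of_uniform_approx_of_continuous fun u hu => ?_
    obtain ⟨ε, hε, hεu⟩ := Metric.mem_uniformity_dist.1 hu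
    obtain ⟨a, ha⟩ := d.T_dense.exists_dist_lt η hε
    refine ⟨fun s => U s (d.T a), ?_, fun s => hεu ?_⟩
    · have h1 : Continuous fun s => fc d.R (fT s) :=
        continuousOn_univ.1 (continuousOn_fc d.R_sa d.spec continuousOn_fT)
      have e : (fun s => U s (d.T a)) = fun s => fc d.R (fT s) a := by
        funext s
        rw [← hU, ContinuousLinearMap.mul_apply]
      rw [e]
      fun_prop
    · rw [dist_eq_norm, ← map_sub]
      refine lt_of_le_of_lt (((U s).le_of_opNorm_le (hU1 s) _).trans_eq (one_mul _)) ?_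
      rwa [← dist_eq_norm]
  · have h := fc_eigen d.R_sa d.spec (tom2_cont_fT s) (η := ξ) (c := 1) (by rw [d.R_xi]; simp)
    rw [← hU, ContinuousLinearMap.mul_apply, d.T_xi] at h
    rw [h]
    norm_num [fT, lg]
  · have hT : d.toConj.jj d.T = d.T := by
      ext η
      rw [Conj.jj_apply, d.J_T, d.toConj.invol]
    have h : d.toConj.jj (U s) = U s := by
      refine d.tom2_ext_right ?_
      conv_lhs => rw [← hT]
      rw [← Conj.jj_mul, hU, jj_fc d.toConj d.R_sa d.spec d.J_R (tom2_cont_fT s)]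
      congr 1
      funext r
      rw [tom2_conj_fT, fT, fT, tom2_lg, sub_sub_cancel, mul_comm (2 - r)]
      push_cast
      ring_nf
    conv_rhs => rw [← h]
    rw [Conj.jj_apply, d.toConj.invol]

end RvD

end Crest.Agent.R78
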