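import Crest.Agent.R78.Tom2
import Crest.Agent.R78.Strip

/-! # R78: Tomita's theorem (task `Tom3`) -/

set_option autoImplicit false
set_option linter.unusedSectionVars false
open Filter Topology
open scoped InnerProductSpace

namespace Crest.Agent.R78

universe u
variable {H : Type u} [NormedAddCommGroup H] [InnerProductSpace ℂ H] [CompleteSpace H]

open MeasureTheory Complex

namespace RvD
variable {M : VonNeumannAlgebra H} {ξ : H} (d : RvD M ξ) {U : ℝ → Op H}

/-- `Δ^{-iz} T²`. -/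
noncomputable def fK (z : ℂ) (r : ℝ) : ℂ := exp (-(I * z * lg r)) * ((r * (2 - r) : ℝ) : ℂ)

theorem tom3_norm_fK {z : ℂ} (hz : |z.im| < 1) {r : ℝ} (hr : r ∈ Set.Icc (0 : ℝ) 2) :
    ‖fK z r‖ = r ^ (1 - z.im) * (2 - r) ^ (1 + z.im) := by
  rw [abs_lt] at hz
  rcases hr.1.eq_or_lt with h0 | h0
  · subst h0
    rw [Real.zero_rpow (by linarith)]; simp [fK]
  rcases hr.2.eq_or_lt with h2 | h2
  · subst h2
    rw [sub_self (2 : ℝ), Real.zero_rpow (by linarith)]; simp [fK]
  have h3 : 0 < 2 - r := by linarith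
  have e : (-(I * z * lg r)).re = z.im * (Real.log (2 - r) - Real.log r) := by
    rw [lg, Real.log_div h3.ne' h0.ne']; simp
  rw [fK, norm_mul, Complex.norm_exp, e, Complex.norm_real, Real.norm_of_nonneg (by positivity),
    Real.rpow_def_of_pos h0, Real.rpow_def_of_pos h3]
  conv_lhs => rw [← Real.exp_log h0, ← Real.exp_log (show 0 < 2 - Real.exp (Real.log r) by rwa [Real.exp_log h0])]
  simp only [Real.exp_log h0, Real.log_exp]
  rw [show r * Real.exp (Real.log (2 - r)) = Real.exp (Real.log r) * Real.exp (Real.log (2 - r)) by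
    rw [Real.exp_log h0], ← Real.exp_add, ← Real.exp_add, ← Real.exp_add]
  congr 1; ring

/-- `|fK z r| = r^(1 - Im z) (2 - r)^(1 + Im z)` for `0 < r < 2`. -/
theorem continuousOn_fK :
    ContinuousOn (fun p : ℂ × ℝ => fK p.1 p.2) ({z : ℂ | |z.im| < 1} ×ˢ Set.Icc 0 2) := by
  rintro ⟨z, r⟩ ⟨hz, hr⟩
  by_cases h : 0 < r ∧ r < 2
  · refine ContinuousAt.continuousWithinAt ?_
    have h3 : 0 < 2 - r := by linarith [h.2]
    have hl : ContinuousAt (fun p : ℂ × ℝ => lg p.2) (z, r) := by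
      unfold lg
      exact ContinuousAt.log (ContinuousAt.div (by fun_prop) (by fun_prop) h.1.ne') (div_pos h3 h.1).ne'
    have hl' : ContinuousAt (fun p : ℂ × ℝ => ((lg p.2 : ℝ) : ℂ)) (z, r) :=
      Complex.continuous_ofReal.continuousAt.comp hl
    unfold fK
    exact (((continuousAt_const.mul continuousAt_fst).mul hl').neg.cexp).mul (by fun_prop)
  · have hz' : |z.im| < 1 := hz
    have hz2 := abs_lt.1 hz'
    have hg : ContinuousAt (fun p : ℂ × ℝ => p.2 ^ (1 - p.1.im) * (2 - p.2) ^ (1 + p.1.im)) (z, r) :=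
      (ContinuousAt.rpow (by fun_prop) (by fun_prop) (Or.inr (by simp only; linarith))).mul
        (ContinuousAt.rpow (by fun_prop) (by fun_prop) (Or.inr (by simp only; linarith)))
    have h0 : fK z r = 0 := by
      have : r * (2 - r) = 0 := by
        rcases hr.1.eq_or_lt with h0 | h0
        · rw [show r = 0 from h0.symm, zero_mul]
        · rw [show r = 2 from le_antisymm hr.2 (not_lt.1 fun h2 => h ⟨h0, h2⟩), sub_self, mul_zero]
      rw [fK, this]; simp
    have h1 := (hg.continuousWithinAt (s := {z : ℂ | |z.im| < 1} ×ˢ Set.Icc 0 2)).tendsto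
    simp only at h1
    rw [← tom3_norm_fK hz' hr, h0, norm_zero] at h1
    unfold ContinuousWithinAt
    simp only
    rw [h0, tendsto_zero_iff_norm_tendsto_zero]
    refine h1.congr' ?_
    filter_upwards [self_mem_nhdsWithin] with p hp
    exact (tom3_norm_fK hp.1 hp.2).symm

theorem norm_fK_le {z : ℂ} (hz : |z.im| ≤ 1 / 2) {r : ℝ} (hr : r ∈ Set.Icc (0 : ℝ) 2) :
    ‖fK z r‖ ≤ 4 := by
  rw [tom3_norm_fK (by linarith) hr]
  rw [abs_le] at hz
  calc _ ≤ (2 : ℝ) ^ (1 - z.im) * (2 : ℝ) ^ (1 + z.im) :=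
        mul_le_mul (Real.rpow_le_rpow hr.1 hr.2 (by linarith))
          (Real.rpow_le_rpow (by linarith [hr.2]) (by linarith [hr.1]) (by linarith))
          (Real.rpow_nonneg (by linarith [hr.2]) _) (by positivity)
    _ = 4 := by rw [← Real.rpow_add (by norm_num)]; norm_num

theorem tom3_up {r : ℝ} (hr : r ∈ Set.Icc (0 : ℝ) 2) :
    Real.exp (lg r / 2) * (r * (2 - r)) = (2 - r) * √(r * (2 - r)) := by
  rcases hr.1.eq_or_lt with h0 | h0
  · subst h0; simp
  rcases hr.2.eq_or_lt with h2 | h2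
  · subst h2; simp
  have h3 : 0 < 2 - r := by linarith
  have e : √(r * (2 - r)) = Real.exp (lg r / 2) * r := by
    rw [Real.sqrt_eq_iff_mul_self_eq (by positivity) (by positivity)]
    have : Real.exp (lg r / 2) * Real.exp (lg r / 2) = (2 - r) / r := by
      rw [← Real.exp_add, add_halves, lg, Real.exp_log (div_pos h3 h0)]
    calc _ = Real.exp (lg r / 2) * Real.exp (lg r / 2) * (r * r) := by rw [this]; field_simp
      _ = _ := by ring
  rw [e]; ring

theorem tom3_down {r : ℝ} (hr : r ∈ Set.Icc (0 : ℝ) 2) :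
    Real.exp (-(lg r / 2)) * (r * (2 - r)) = r * √(r * (2 - r)) := by
  rcases hr.1.eq_or_lt with h0 | h0
  · subst h0; simp
  rcases hr.2.eq_or_lt with h2 | h2
  · subst h2; simp
  have h3 : 0 < 2 - r := by linarith
  have e : √(r * (2 - r)) = Real.exp (-(lg r / 2)) * (2 - r) := by
    rw [Real.sqrt_eq_iff_mul_self_eq (by positivity) (by positivity)]
    have : Real.exp (-(lg r / 2)) * Real.exp (-(lg r / 2)) = r / (2 - r) := by
      rw [← Real.exp_add, ← neg_add, add_halves, lg, Real.exp_neg, Real.exp_log (div_pos h3 h0), inv_div]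
    calc _ = Real.exp (-(lg r / 2)) * Real.exp (-(lg r / 2)) * ((2 - r) * (2 - r)) := by rw [this]; field_simp
      _ = _ := by ring
  rw [e]; ring

theorem tom3_fT (t : ℝ) : ContinuousOn (fT t) (Set.Icc 0 2) :=
  continuousOn_fT.comp (f := fun r : ℝ => (t, r)) (by fun_prop) fun _ hr => ⟨trivial, hr⟩

theorem tom3_TU (hU : d.Grp U) (s : ℝ) : d.T * U s = U s * d.T := by
  refine hU.U_comm s _ ?_
  rw [d.T_fc]
  exact (fc_comm d.R_sa rfl _).symm

/-- `fK (s + i/2) r = (2 - r) fT (-s) r` since `exp (lg r / 2) = √((2-r)/r)`. -/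
theorem fc_fK_up (hU : d.Grp U) (s : ℝ) :
    fc d.R (fK (s + I / 2)) = (2 - d.R) * d.T * U (-s) := by
  have e : ∀ r ∈ Set.Icc (0 : ℝ) 2, fK (s + I / 2) r = (2 - (r : ℂ)) * fT (-s) r := fun r hr => by
    have h1 : -(I * (s + I / 2) * lg r) = I * ((-s : ℝ) : ℂ) * lg r + ((lg r / 2 : ℝ) : ℂ) := by
      push_cast; linear_combination (-(lg r : ℂ) / 2) * I_mul_I
    have h2 := congrArg (fun x : ℝ => (x : ℂ)) (tom3_up hr)
    rw [fK, fT, h1, Complex.exp_add, ← Complex.ofReal_exp, mul_assoc, ← Complex.ofReal_mul, h2]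
    push_cast; ring
  rw [fc_congr d.R_sa d.spec e, fc_mul d.R_sa d.spec (by fun_prop) (tom3_fT _), fc_two_sub d.R_sa, ← hU.UT,
    ← d.tom3_TU hU, mul_assoc]

theorem fc_fK_down (hU : d.Grp U) (s : ℝ) :
    fc d.R (fK (s - I / 2)) = d.R * d.T * U (-s) := by
  have e : ∀ r ∈ Set.Icc (0 : ℝ) 2, fK (s - I / 2) r = (r : ℂ) * fT (-s) r := fun r hr => by
    have h1 : -(I * (s - I / 2) * lg r) = I * ((-s : ℝ) : ℂ) * lg r + ((-(lg r / 2) : ℝ) : ℂ) := by
      push_cast; linear_combination ((lg r : ℂ) / 2) * I_mul_I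
    have h2 := congrArg (fun x : ℝ => (x : ℂ)) (tom3_down hr)
    rw [fK, fT, h1, Complex.exp_add, ← Complex.ofReal_exp, mul_assoc, ← Complex.ofReal_mul, h2]
    push_cast; ring
  rw [fc_congr d.R_sa d.spec e, fc_mul d.R_sa d.spec (by fun_prop) (tom3_fT _), fc_id d.R_sa, ← hU.UT,
    ← d.tom3_TU hU, mul_assoc]

theorem tom3_fK_zero : fc d.R (fK 0) = d.T * d.T := by
  rw [d.T_fc, ← fc_mul d.R_sa d.spec (by fun_prop) (by fun_prop)]
  refine fc_congr d.R_sa d.spec fun r hr => ?_
  rw [← Complex.ofReal_mul, Real.mul_self_sqrt (mul_nonneg hr.1 (by linarith [hr.2]))]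
  simp [fK]

theorem tom3_SC_U (hU : d.Grp U) : SC U 1 := by
  have hu : ∀ s, U s ∈ unitary (Op H) := fun s =>
    ⟨by rw [hU.U_star, ← hU.U_add, neg_add_cancel, hU.U_zero],
      by rw [hU.U_star, ← hU.U_add, add_neg_cancel, hU.U_zero]⟩
  refine ⟨fun s => ContinuousLinearMap.opNorm_le_bound _ zero_le_one fun η => ?_, hU.U_cont, fun η => ?_⟩
  · rw [ContinuousLinearMap.norm_map_of_mem_unitary (hu s), one_mul]
  · simp only [hU.U_star]
    exact (hU.U_cont η).comp continuous_neg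

theorem tom3_SC (hU : d.Grp U) (t : Op H) : SC (fun s => U s * t * U (-s)) (1 * ‖t‖ * 1) :=
  ((d.tom3_SC_U hU).mul (SC.const t)).mul ((d.tom3_SC_U hU).comp continuous_neg)

theorem tom3_inner (a b : Op H) (ζ η : H) : ⟪a ζ, b η⟫_ℂ = ⟪ζ, (star a * b) η⟫_ℂ := by
  rw [mul_apply_eq_comp, ContinuousLinearMap.star_eq_adjoint, ContinuousLinearMap.adjoint_inner_right]

/-- Apply `residue_strip` to `f z = ⟪K (conj z) ζ, k K z η⟫`, `K z = fc R (fK z)`
(`differentiableOn_fc`, `differentiableOn_inner_conj`), with `l = exp (i φ / 2)`: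
`f (s + i/2) = ⟪ζ, U s T R k (2 - R) T U (-s) η⟫`, `f (s - i/2) = ⟪ζ, U s T (2 - R) k R T U (-s) η⟫`,
`f 0 = ⟪T T ζ, k T T η⟫`.  This gives the claim for vectors in the dense range of `T T`; both
sides are continuous in each vector (`sint`, `inner_sint`). -/
theorem inner_eq_integral (hU : d.Grp U) {t k : Op H} {φ : ℝ} (hφ : |φ| < Real.pi)
    (h : (2 : ℂ) • (d.T * t * d.T) = (starRingEnd ℂ) (exp (I * φ / 2)) • ((2 - d.R) * k * d.R) +
      exp (I * φ / 2) • (d.R * k * (2 - d.R))) (ζ η : H) :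
    ⟪ζ, k η⟫_ℂ = ∫ s : ℝ, ((Real.exp (φ * s) / Real.cosh (Real.pi * s) : ℝ) : ℂ) *
      ⟪ζ, (U s * t * U (-s)) η⟫_ℂ := by
  have hw := integrable_exp_div_cosh hφ
  have hS := d.tom3_SC hU t
  rw [← inner_sint hw hS]
  set X := sint (fun s : ℝ => ((Real.exp (φ * s) / Real.cosh (Real.pi * s) : ℝ) : ℂ))
    fun s => U s * t * U (-s) with hX
  have hV : IsOpen {z : ℂ | |z.im| < 1} := isOpen_lt (by fun_prop) continuous_const
  have hK : DifferentiableOn ℂ (fun z => fc d.R (fK z)) {z : ℂ | |z.im| < 1} :=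
    differentiableOn_fc d.R_sa d.spec hV continuousOn_fK fun r _ => by unfold fK; fun_prop
  have hKb : ∀ z : ℂ, |z.im| ≤ 1 / 2 → ‖fc d.R (fK z)‖ ≤ 4 := fun z hz =>
    norm_fc_le d.R_sa d.spec (by norm_num) fun r hr => norm_fK_le hz hr
  have hT := d.T_sa.star_eq
  have hR := d.R_sa.star_eq
  have hR2 : star (2 - d.R) = 2 - d.R := by rw [star_sub, hR, star_ofNat]
  have key : ∀ ζ η : H, ⟪(d.T * d.T) ζ, k ((d.T * d.T) η)⟫_ℂ = ⟪(d.T * d.T) ζ, X ((d.T * d.T) η)⟫_ℂ := by
    intro ζ η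
    have h1 := residue_strip (f := fun z => ⟪fc d.R (fK ((starRingEnd ℂ) z)) ζ, (k * fc d.R (fK z)) η⟫_ℂ)
      (differentiableOn_inner_conj hV (fun z hz => by simpa using hz)
        (v := fun z => (k * fc d.R (fK z)) η) (w := fun z => fc d.R (fK z) ζ)
        ((hK.const_mul k).clm_apply (differentiableOn_const η)) (hK.clm_apply (differentiableOn_const ζ)))
      (C := 4 * ‖ζ‖ * (‖k‖ * 4 * ‖η‖)) (fun z hz => by
        refine (norm_inner_le_norm _ _).trans (mul_le_mul ?_ ?_ (norm_nonneg _) (by positivity))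
        · exact (ContinuousLinearMap.le_opNorm _ _).trans
            (mul_le_mul_of_nonneg_right (hKb _ (by simpa using hz)) (norm_nonneg _))
        · exact (ContinuousLinearMap.le_opNorm _ _).trans (mul_le_mul_of_nonneg_right
            ((norm_mul_le _ _).trans (mul_le_mul_of_nonneg_left (hKb _ hz) (norm_nonneg _))) (norm_nonneg _)))
      hφ
    simp only [map_zero, d.tom3_fK_zero] at h1
    rw [hX, inner_sint hw hS]
    refine h1.trans (integral_congr_ae (Eventually.of_forall fun s => ?_))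
    have c1 : (starRingEnd ℂ) (s + I / 2) = s - I / 2 := by
      simp [Complex.conj_ofReal, map_ofNat]; ring
    have c2 : (starRingEnd ℂ) (s - I / 2) = s + I / 2 := by
      simp [Complex.conj_ofReal, map_ofNat]; ring
    have c3 : (starRingEnd ℂ) (exp (I * φ / 2)) = exp (-(I * φ / 2)) := by
      rw [← Complex.exp_conj]; congr 1
      simp [Complex.conj_ofReal, map_ofNat]; ring
    simp only
    congr 1
    rw [c1, c2, d.fc_fK_up hU, d.fc_fK_down hU, tom3_inner, tom3_inner, ← mul_apply_eq_comp, tom3_inner,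
      ← inner_smul_right, ← inner_smul_right, ← inner_add_right, ← smul_apply, ← smul_apply, ← add_apply,
      div_eq_iff two_ne_zero, mul_comm _ (2 : ℂ), ← inner_smul_right, ← smul_apply]
    congr 2
    rw [c3] at h
    simp only [star_mul, hT, hR, hR2, hU.U_star, neg_neg]
    have e1 := d.tom3_TU hU s
    have e2 := d.tom3_TU hU (-s)
    calc _ = U s * d.T * (exp (-(I * φ / 2)) • ((2 - d.R) * k * d.R) +
          exp (I * φ / 2) • (d.R * k * (2 - d.R))) * (d.T * U (-s)) := by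
          simp only [mul_add, add_mul, mul_smul_comm, smul_mul_assoc, mul_assoc]
          rw [add_comm]
      _ = (2 : ℂ) • (U s * d.T * d.T * t * (d.T * d.T * U (-s))) := by
          rw [← h]; simp only [mul_smul_comm, smul_mul_assoc, mul_assoc]
      _ = _ := by
          rw [← e1, mul_assoc d.T (U s), ← e1, mul_assoc d.T d.T (U (-s)), e2, ← mul_assoc d.T (U (-s)), e2]
          simp only [mul_assoc]
  have k2 : ∀ η : H, (k - X) (d.T (d.T η)) = 0 := fun η => by
    refine d.T_inj _ (d.T_inj _ (ext_inner_left ℂ fun ζ => ?_))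
    have h1 := tom3_inner (d.T * d.T) (k - X) ζ (d.T (d.T η))
    rw [star_mul, hT] at h1
    rw [inner_zero_right]
    refine h1.symm.trans ?_
    rw [sub_apply, inner_sub_right, sub_eq_zero]
    exact key ζ η
  have k3 : ∀ η : H, (k - X) (d.T η) = 0 := fun η =>
    d.T_dense.induction_on (p := fun η => (k - X) (d.T η) = 0) η (isClosed_eq (by fun_prop) continuous_const) k2
  have k4 : (k - X) η = 0 :=
    d.T_dense.induction_on (p := fun η => (k - X) η = 0) η (isClosed_eq (by fun_prop) continuous_const) k3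
  rw [sub_apply, sub_eq_zero] at k4
  rw [k4]

theorem tom3_sa (hU : d.Grp U) (s : ℝ) {t : Op H} (ht : t ∈ M.commutant) (hts : IsSelfAdjoint t) :
    U s * d.toConj.jj t * U (-s) ∈ M := by
  refine mem_of_comm fun y hy => ContinuousLinearMap.ext fun η => ext_inner_left ℂ fun ζ => ?_
  have hS := d.tom3_SC hU (d.toConj.jj t)
  set A := fun s => U s * d.toConj.jj t * U (-s) with hA
  have h0 := eq_zero_of_laplace (k := fun s => ⟪star y ζ, A s η⟫_ℂ - ⟪ζ, A s (y η)⟫_ℂ)
    ((continuous_const.inner (hS.cont η)).sub (continuous_const.inner (hS.cont (y η))))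
    (C := ‖star y ζ‖ * (1 * ‖d.toConj.jj t‖ * 1 * ‖η‖) + ‖ζ‖ * (1 * ‖d.toConj.jj t‖ * 1 * ‖y η‖))
    (fun s => (norm_sub_le _ _).trans (add_le_add
      ((norm_inner_le_norm _ _).trans (mul_le_mul_of_nonneg_left (hS.norm_apply_le s _) (norm_nonneg _)))
      ((norm_inner_le_norm _ _).trans (mul_le_mul_of_nonneg_left (hS.norm_apply_le s _) (norm_nonneg _)))))
    (fun φ hφ => by
      have hw := integrable_exp_div_cosh hφ
      have hl : 0 < (exp (I * φ / 2)).re := by
        rw [show I * φ / 2 = ((φ / 2 : ℝ) : ℂ) * I by push_cast; ring, Complex.exp_ofReal_mul_I_re]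
        rw [abs_lt] at hφ
        exact Real.cos_pos_of_mem_Ioo ⟨by linarith, by linarith⟩
      obtain ⟨k, hk, hkt⟩ := d.exists_sakai ht hts hl
      have hi : ∀ ζ η : H, Integrable fun s : ℝ =>
          ((Real.exp (φ * s) / Real.cosh (Real.pi * s) : ℝ) : ℂ) * ⟪ζ, A s η⟫_ℂ := fun ζ η => by
        simpa only [inner_smul_right] using (hS.integrable hw η).const_inner (𝕜 := ℂ) ζ
      simp only [mul_sub]
      rw [integral_sub (hi _ _) (hi _ _), ← d.inner_eq_integral hU hφ hkt, ← d.inner_eq_integral hU hφ hkt,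
        tom3_inner, star_star, ← comm_of_mem hk hy, sub_eq_zero]
      rfl)
  have h1 := congrFun h0 s
  simp only [Pi.zero_apply] at h1
  rw [sub_eq_zero, tom3_inner, star_star] at h1
  exact h1

/-- For self-adjoint `t` and `y ∈ M'` the bounded continuous function
`s ↦ ⟪ζ, [y, U s (J t J) U (-s)] η⟫` has vanishing Laplace transform (`exists_sakai` with
`l = exp (i φ / 2)`, `re l = cos (φ / 2) > 0`), `eq_zero_of_laplace`.  Then real and imaginary
parts. -/
theorem conj_jj_mem (hU : d.Grp U) (s : ℝ) {t : Op H} (ht : t ∈ M.commutant) :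
    U s * d.toConj.jj t * U (-s) ∈ M := by
  have hs := star_mem ht
  have ha := d.tom3_sa hU s (vn_smul_mem (1 / 2 : ℂ) (add_mem ht hs)) (by
    rw [IsSelfAdjoint, star_smul, star_add, star_star, add_comm]
    congr 1; simp)
  have hb := d.tom3_sa hU s (vn_smul_mem (I / 2 : ℂ) (sub_mem hs ht)) (by
    rw [IsSelfAdjoint, star_smul, star_sub, star_star, ← neg_sub (star t) t, smul_neg, ← neg_smul]
    congr 1; simp [neg_div])
  have e : t = (1 / 2 : ℂ) • (t + star t) + I • ((I / 2 : ℂ) • (star t - t)) := by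
    rw [smul_smul, show I * (I / 2) = -(1 / 2) by linear_combination (1 / 2 : ℂ) * I_mul_I]
    module
  rw [e, Conj.jj_add, Conj.jj_smul _ I, mul_add, add_mul, mul_smul_comm, smul_mul_assoc]
  exact add_mem ha (vn_smul_mem _ hb)

theorem jj_mem' {t : Op H} (ht : t ∈ M.commutant) : d.toConj.jj t ∈ M := by
  obtain ⟨U, hU⟩ := d.exists_grp
  have h := d.conj_jj_mem hU 0 ht
  rwa [neg_zero, hU.U_zero, one_mul, mul_one] at h

/-- `jj_mem'` for `exists_flip`. -/
theorem jj_mem {x : Op H} (hx : x ∈ M) : d.toConj.jj x ∈ M.commutant := by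
  obtain ⟨d', hd⟩ := d.exists_flip
  rw [← hd]
  exact d'.jj_mem' (by rwa [VonNeumannAlgebra.commutant_commutant])

/-- `x = J (J x J) J`. -/
theorem U_mem (hU : d.Grp U) (s : ℝ) {x : Op H} (hx : x ∈ M) : U s * x * U (-s) ∈ M := by
  have h := d.conj_jj_mem hU s (d.jj_mem hx)
  rwa [Conj.jj_jj] at h

end RvD

end Crest.Agent.R78
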