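import Crest.Agent.R78.Basic

/-! # R78: weak limits, means, conjugated algebras (task `WL`) -/

set_option autoImplicit false
set_option linter.unusedSectionVars false
open Filter Topology
open scoped InnerProductSpace

namespace Crest.Agent.R78

universe u
variable {H : Type u} [NormedAddCommGroup H] [InnerProductSpace ℂ H] [CompleteSpace H]

section WLim
variable {ι : Type*} {F : Filter ι} {x x' : ι → Op H} {y y' : Op H}

theorem WLim.unique [F.NeBot] (h : WLim F x y) (h' : WLim F x y') : y = y' :=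
  ContinuousLinearMap.ext fun ξ => ext_inner_left ℂ fun η => tendsto_nhds_unique (h ξ η) (h' ξ η)

theorem WLim.const (F : Filter ι) (y : Op H) : WLim F (fun _ => y) y := fun _ _ => tendsto_const_nhds

theorem WLim.congr' (h : WLim F x y) (e : ∀ᶠ i in F, x i = x' i) : WLim F x' y := fun ξ η =>
  (h ξ η).congr' (e.mono fun i hi => by simp only [hi])

theorem WLim.mono {F' : Filter ι} (h : WLim F x y) (hF : F' ≤ F) : WLim F' x y := fun ξ η => (h ξ η).mono_left hF

theorem WLim.add (h : WLim F x y) (h' : WLim F x' y') :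
    WLim F (fun i => x i + x' i) (y + y') := fun ξ η => by
  simpa only [_root_.add_apply, inner_add_right] using (h ξ η).add (h' ξ η)

theorem WLim.sub (h : WLim F x y) (h' : WLim F x' y') :
    WLim F (fun i => x i - x' i) (y - y') := fun ξ η => by
  simpa only [_root_.sub_apply, inner_sub_right] using (h ξ η).sub (h' ξ η)

theorem WLim.smul (t : ℂ) (h : WLim F x y) : WLim F (fun i => t • x i) (t • y) := fun ξ η => by
  simpa only [_root_.smul_apply, inner_smul_right] using (h ξ η).const_mul t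

theorem WLim.sum {κ : Type*} (s : Finset κ) {x : κ → ι → Op H} {y : κ → Op H}
    (h : ∀ k ∈ s, WLim F (x k) (y k)) : WLim F (fun i => ∑ k ∈ s, x k i) (∑ k ∈ s, y k) := fun ξ η => by
  simpa only [_root_.sum_apply, inner_sum] using tendsto_finsetSum s fun k hk => h k hk ξ η

theorem WLim.mul_left (a : Op H) (h : WLim F x y) : WLim F (fun i => a * x i) (a * y) := fun ξ η => by
  simpa only [ContinuousLinearMap.adjoint_inner_left, mul_apply_eq_comp] using
    h ξ (ContinuousLinearMap.adjoint a η)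

theorem WLim.mul_right (a : Op H) (h : WLim F x y) : WLim F (fun i => x i * a) (y * a) := fun ξ η => h (a ξ) η

theorem WLim.star (h : WLim F x y) : WLim F (fun i => star (x i)) (star y) := fun ξ η => by
  have := (Complex.continuous_conj.tendsto _).comp (h η ξ)
  simpa only [Function.comp_def, inner_conj_symm, ContinuousLinearMap.star_eq_adjoint,
    ContinuousLinearMap.adjoint_inner_right] using this

theorem WLim.of_tendsto (h : Tendsto x F (𝓝 y)) : WLim F x y := fun ξ η =>
  tendsto_const_nhds.inner (((ContinuousLinearMap.apply ℂ H ξ).continuous.tendsto y).comp h)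

theorem WLim.of_strong (h : ∀ η, Tendsto (fun i => x i η) F (𝓝 (y η))) : WLim F x y := fun ξ _ =>
  tendsto_const_nhds.inner (h ξ)

theorem WLim.norm_apply_le [F.NeBot] (h : WLim F x y) (ξ : H) {r : ℝ}
    (e : ∀ᶠ i in F, ‖x i ξ‖ ≤ r) : ‖y ξ‖ ≤ r := by
  have hr : 0 ≤ r := (norm_nonneg _).trans e.exists.choose_spec
  have h2 : ‖⟪y ξ, y ξ⟫_ℂ‖ ≤ ‖y ξ‖ * r :=
    le_of_tendsto (h ξ (y ξ)).norm (e.mono fun i hi =>
      (norm_inner_le_norm _ _).trans (mul_le_mul_of_nonneg_left hi (norm_nonneg _)))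
  rw [inner_self_eq_norm_sq_to_K] at h2
  simp only [Complex.coe_algebraMap, norm_pow, Complex.norm_real, norm_norm] at h2
  by_contra hc
  push Not at hc
  nlinarith [norm_nonneg (y ξ)]

theorem WLim.norm_sub_le [F.NeBot] (h : WLim F x y) (z : Op H) {r : ℝ}
    (e : ∀ᶠ i in F, ‖x i - z‖ ≤ r) : ‖y - z‖ ≤ r := by
  have hr : 0 ≤ r := (norm_nonneg _).trans e.exists.choose_spec
  refine ContinuousLinearMap.opNorm_le_bound _ hr fun ξ =>
    (h.sub (WLim.const F z)).norm_apply_le ξ (e.mono fun i hi => ?_)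
  exact ((x i - z).le_opNorm ξ).trans (mul_le_mul_of_nonneg_right hi (norm_nonneg _))

theorem WLim.norm_le [F.NeBot] (h : WLim F x y) {r : ℝ} (e : ∀ᶠ i in F, ‖x i‖ ≤ r) :
    ‖y‖ ≤ r := by
  simpa using h.norm_sub_le 0 (by simpa using e)

theorem WLim.comm [F.NeBot] (h : WLim F x y) {a b : Op H}
    (e : ∀ᶠ i in F, a * x i = x i * b) : a * y = y * b :=
  ((h.mul_left a).congr' e).unique (h.mul_right b)

theorem WLim.mem [F.NeBot] {M : VonNeumannAlgebra H} (h : WLim F x y)
    (e : ∀ᶠ i in F, x i ∈ M) : y ∈ M :=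
  mem_of_comm fun _ ha => h.comm (e.mono fun _ hi => (comm_of_mem hi ha).symm)

theorem WLim.le_re [F.NeBot] (h : WLim F x y) (ξ η : H) {c : ℝ}
    (e : ∀ᶠ i in F, c ≤ (⟪η, x i ξ⟫_ℂ).re) : c ≤ (⟪η, y ξ⟫_ℂ).re :=
  ge_of_tendsto ((Complex.continuous_re.tendsto _).comp (h ξ η)) e

/-- Use `R121.exists_WL` for `M = vn ∅` (or copy its proof). -/
theorem exists_WLim (U : Ultrafilter ι) (x : ι → Op H) (r : ℝ) (h : ∀ᶠ i in U, ‖x i‖ ≤ r) :
    ∃ y, WLim (U : Filter ι) x y := by
  obtain ⟨y, hy⟩ := R121.exists_WL (M := vn ∅) U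
    (fun i => ⟨x i, (mem_vn (S := ∅)).2 fun _ h => h.elim⟩) r h
  exact ⟨y, hy⟩

/-- Pointwise weak ultralimit of linear maps. -/
theorem exists_linLim {E : Type*} [AddCommGroup E] [Module ℂ E] (U : Ultrafilter ι)
    (Φ : ι → E →ₗ[ℂ] Op H) (h : ∀ t, ∃ r, ∀ᶠ i in U, ‖Φ i t‖ ≤ r) :
    ∃ Ψ : E →ₗ[ℂ] Op H, ∀ t, WLim (U : Filter ι) (fun i => Φ i t) (Ψ t) := by
  choose r hr using h
  choose Ψ hΨ using fun t => exists_WLim U (fun i => Φ i t) (r t) (hr t)
  exact ⟨⟨⟨Ψ, fun s t => (hΨ (s + t)).unique (by simpa using (hΨ s).add (hΨ t))⟩,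
    fun c t => (hΨ (c • t)).unique (by simpa using (hΨ t).smul c)⟩, hΨ⟩

end WLim

section Mean
variable {F : Filter ℕ} {f g : ℕ → Op H} {X Y : Op H}

theorem ces_const (X : Op H) (n : ℕ) : ces (fun _ => X) n = X := by
  have : (n : ℂ) + 1 ≠ 0 := Nat.cast_add_one_ne_zero n
  rw [ces, Finset.sum_const, Finset.card_range, ← Nat.cast_smul_eq_nsmul ℂ, smul_smul]
  push_cast
  rw [inv_mul_cancel₀ this, one_smul]

theorem ces_sub (f g : ℕ → Op H) (n : ℕ) : ces (fun k => f k - g k) n = ces f n - ces g n := by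
  simp only [ces, Finset.sum_sub_distrib, smul_sub]

theorem norm_inv_succ (n : ℕ) : ‖((n : ℂ) + 1)⁻¹‖ = ((n : ℝ) + 1)⁻¹ := by
  rw [norm_inv]
  norm_cast

theorem norm_ces_le {r : ℝ} (h : ∀ k, ‖f k‖ ≤ r) (n : ℕ) : ‖ces f n‖ ≤ r := by
  rw [ces, norm_smul, norm_inv_succ, inv_mul_le_iff₀ (by positivity)]
  refine (norm_sum_le _ _).trans ((Finset.sum_le_sum fun k _ => h k).trans ?_)
  simp

theorem exists_Mean (U : Ultrafilter ℕ) (f : ℕ → Op H) (r : ℝ) (h : ∀ k, ‖f k‖ ≤ r) :
    ∃ X, Mean (U : Filter ℕ) f X :=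
  exists_WLim U _ r (Eventually.of_forall (norm_ces_le h))

theorem Mean.unique [F.NeBot] (h : Mean F f X) (h' : Mean F f Y) : X = Y := WLim.unique h h' 

theorem Mean.const (F : Filter ℕ) (X : Op H) : Mean F (fun _ => X) X :=
  (WLim.const F X).congr' (Eventually.of_forall fun n => (ces_const X n).symm)

theorem Mean.add (h : Mean F f X) (h' : Mean F g Y) : Mean F (fun k => f k + g k) (X + Y) :=
  (WLim.add h h').congr' (Eventually.of_forall fun n => by
    simp only [ces, Finset.sum_add_distrib, smul_add])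

theorem Mean.sub (h : Mean F f X) (h' : Mean F g Y) : Mean F (fun k => f k - g k) (X - Y) :=
  (WLim.sub h h').congr' (Eventually.of_forall fun n => (ces_sub f g n).symm)

theorem Mean.smul (t : ℂ) (h : Mean F f X) : Mean F (fun k => t • f k) (t • X) :=
  (WLim.smul t h).congr' (Eventually.of_forall fun n => by
    simp only [ces, ← Finset.smul_sum, smul_comm t])

theorem Mean.mul_left (a : Op H) (h : Mean F f X) : Mean F (fun k => a * f k) (a * X) :=
  (WLim.mul_left a h).congr' (Eventually.of_forall fun n => by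
    simp only [ces, ← Finset.mul_sum, mul_smul_comm])

theorem Mean.mul_right (a : Op H) (h : Mean F f X) : Mean F (fun k => f k * a) (X * a) :=
  (WLim.mul_right a h).congr' (Eventually.of_forall fun n => by
    simp only [ces, ← Finset.sum_mul, smul_mul_assoc])

theorem Mean.star (h : Mean F f X) : Mean F (fun k => star (f k)) (star X) :=
  (WLim.star h).congr' (Eventually.of_forall fun n => by simp [ces, star_sum])

theorem Mean.norm_sub_le [F.NeBot] (h : Mean F f X) (z : Op H) {r : ℝ}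
    (e : ∀ k, ‖f k - z‖ ≤ r) : ‖X - z‖ ≤ r :=
  WLim.norm_sub_le h z (Eventually.of_forall fun n => by
    have := norm_ces_le e n
    rwa [ces_sub, ces_const] at this)

theorem Mean.norm_le [F.NeBot] (h : Mean F f X) {r : ℝ} (e : ∀ k, ‖f k‖ ≤ r) : ‖X‖ ≤ r :=
  WLim.norm_le h (Eventually.of_forall (norm_ces_le e))

theorem Mean.comm [F.NeBot] (h : Mean F f X) {a b : Op H} (e : ∀ k, a * f k = f k * b) :
    a * X = X * b :=
  (h.mul_left a).unique (by simpa only [e] using h.mul_right b)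

theorem Mean.mem [F.NeBot] {M : VonNeumannAlgebra H} (h : Mean F f X) (e : ∀ k, f k ∈ M) :
    X ∈ M :=
  mem_of_comm fun _ ha => h.comm fun k => (comm_of_mem (e k) ha).symm

/-- Shift invariance: `‖ces (f (· + m)) n - ces f n‖ ≤ 2 m r / (n + 1)`. -/
theorem Mean.shift (hF : F ≤ atTop) (h : Mean F f X) {r : ℝ} (hr : ∀ k, ‖f k‖ ≤ r) (m : ℕ) :
    Mean F (fun k => f (k + m)) X := by
  induction m with
  | zero => exact h
  | succ m ih =>
    have h1 : Tendsto (fun n => ces (fun k => f (k + (m + 1))) n - ces (fun k => f (k + m)) n) F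
        (𝓝 0) := by
      refine Tendsto.mono_left (squeeze_zero_norm (a := fun n : ℕ => 1 / ((n : ℝ) + 1) * (r + r))
        (fun n => ?_) ?_) hF
      · have e : ∀ k, f (k + (m + 1)) - f (k + m) = f (k + 1 + m) - f (k + m) := fun k => by
          rw [add_right_comm, add_assoc]
        rw [← ces_sub, ces, norm_smul, norm_inv_succ, one_div]
        simp only [e, Finset.sum_range_sub fun k => f (k + m)]
        gcongr
        exact (_root_.norm_sub_le _ _).trans (add_le_add (hr _) (hr _))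
      · simpa using tendsto_one_div_add_atTop_nhds_zero_nat.mul_const (r + r)
    have h2 := WLim.add ih (WLim.of_tendsto h1)
    simp only [add_sub_cancel, add_zero] at h2
    exact h2

theorem Mean.fixed [F.NeBot] (hF : F ≤ atTop) (h : Mean F f X) {r : ℝ} (hr : ∀ k, ‖f k‖ ≤ r)
    {a b : Op H} (e : ∀ k, a * f k * b = f (k + 1)) : a * X * b = X :=
  ((h.mul_left a).mul_right b).unique (by simpa only [e] using h.shift hF hr 1)

/-- The matrix coefficients of the Cesaro averages. -/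
theorem inner_ces (f : ℕ → Op H) (n : ℕ) (ξ η : H) :
    ⟪η, ces f n ξ⟫_ℂ = ((n : ℂ) + 1)⁻¹ * ∑ k ∈ Finset.range (n + 1), ⟪η, f k ξ⟫_ℂ := by
  simp only [ces, _root_.smul_apply, _root_.sum_apply, inner_smul_right, inner_sum]

end Mean

section cj
variable {u : Op H} {M N : VonNeumannAlgebra H}

theorem un_l (hu : u ∈ unitary (Op H)) (x : Op H) : star u * (u * x) = x := by
  rw [← mul_assoc, hu.1, one_mul]

theorem un_r (hu : u ∈ unitary (Op H)) (x : Op H) : u * (star u * x) = x := by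
  rw [← mul_assoc, hu.2, one_mul]

theorem conj_comm (hu : u ∈ unitary (Op H)) {x y : Op H} (h : x * y = y * x) :
    (u * x * star u) * (u * y * star u) = (u * y * star u) * (u * x * star u) := by
  simp only [mul_assoc, un_l hu]
  rw [← mul_assoc x, h, mul_assoc]

theorem conj_conj (hu : u ∈ unitary (Op H)) (x : Op H) : u * (star u * x * u) * star u = x := by
  simp only [mul_assoc, un_r hu, hu.2, mul_one]

theorem conj_conj' (hu : u ∈ unitary (Op H)) (x : Op H) : star u * (u * x * star u) * u = x := by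
  simp only [mul_assoc, un_l hu, hu.1, mul_one]

theorem conj_comm' (hu : u ∈ unitary (Op H)) {x y : Op H} (h : x * y = y * x) :
    (star u * x * u) * (star u * y * u) = (star u * y * u) * (star u * x * u) := by
  simpa only [star_star] using conj_comm (Unitary.star_mem hu) h

theorem norm_conj (hu : u ∈ unitary (Op H)) (x : Op H) : ‖star u * x * u‖ = ‖x‖ := by
  rw [CStarRing.norm_mul_mem_unitary _ hu, CStarRing.norm_mem_unitary_mul _ (Unitary.star_mem hu)]

theorem norm_star_sub_one (u : Op H) : ‖star u - 1‖ = ‖u - 1‖ := by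
  rw [← norm_star, star_sub, star_star, star_one]

theorem norm_sub_conj (hu : u ∈ unitary (Op H)) {ε : ℝ} (h : ‖u - 1‖ ≤ ε) (x : Op H) :
    ‖x - u * x * star u‖ ≤ 2 * ε * ‖x‖ := by
  have e : u * x * star u - x = (u - 1) * x + u * (x * (star u - 1)) := by noncomm_ring
  rw [norm_sub_rev, e]
  refine (norm_add_le _ _).trans ?_
  rw [CStarRing.norm_mem_unitary_mul _ hu]
  have h1 := (norm_mul_le (u - 1) x).trans (mul_le_mul_of_nonneg_right h (norm_nonneg x))
  have h2 := (norm_mul_le x (star u - 1)).trans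
    (mul_le_mul_of_nonneg_left ((norm_star_sub_one u).trans_le h) (norm_nonneg x))
  linarith

theorem norm_sub_conj' (hu : u ∈ unitary (Op H)) {ε : ℝ} (h : ‖u - 1‖ ≤ ε) (x : Op H) :
    ‖x - star u * x * u‖ ≤ 2 * ε * ‖x‖ := by
  simpa only [star_star] using norm_sub_conj (Unitary.star_mem hu) ((norm_star_sub_one u).trans_le h) x

theorem mem_cj (hu : u ∈ unitary (Op H)) {x : Op H} : x ∈ cj u N ↔ u * x * star u ∈ N := by
  rw [cj, mem_vn]
  refine ⟨fun h => mem_of_comm fun y hy => ?_, ?_⟩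
  · have := conj_comm hu (h _ ⟨y, hy, rfl⟩).1
    rwa [conj_conj hu] at this
  · rintro h _ ⟨y, hy, rfl⟩
    have h1 := conj_comm' hu (comm_of_mem h hy).symm
    have h2 := conj_comm' hu (comm_of_mem h (star_mem (show y ∈ N.commutant from hy))).symm
    rw [conj_conj' hu] at h1 h2
    exact ⟨h1, by simpa only [star_mul, star_star, mul_assoc] using h2⟩

theorem commutant_cj (hu : u ∈ unitary (Op H)) : (cj u N).commutant = cj u N.commutant := by
  ext x
  rw [mem_cj hu, VonNeumannAlgebra.mem_commutant_iff, VonNeumannAlgebra.mem_commutant_iff]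
  refine ⟨fun h n hn => ?_, fun h g hg => ?_⟩
  · have := conj_comm hu (h (star u * n * u) ((mem_cj hu).2 (by rwa [conj_conj hu])))
    rwa [conj_conj hu] at this
  · have := conj_comm' hu (h _ ((mem_cj hu).1 hg))
    rwa [conj_conj' hu, conj_conj' hu] at this

theorem close_cj (hu : u ∈ unitary (Op H)) {ε : ℝ} (h : ‖u - 1‖ ≤ ε) :
    Close (cj u N) N (2 * ε) :=
  ⟨fun x hx => ⟨_, (mem_cj hu).1 hx, norm_sub_conj hu h x⟩, fun x hx =>
    ⟨_, (mem_cj hu).2 (by rwa [conj_conj hu]), norm_sub_conj' hu h x⟩⟩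

theorem Near.trans {P : VonNeumannAlgebra H} {δ δ' : ℝ} (hδ : 0 ≤ δ) (hδ' : 0 ≤ δ')
    (h : Near M N δ) (h' : Near N P δ') : Near M P (δ + δ' * (1 + δ)) := by
  intro x hx
  obtain ⟨y, hy, h1⟩ := h x hx
  obtain ⟨z, hz, h2⟩ := h' y hy
  refine ⟨z, hz, (norm_sub_le_norm_sub_add_norm_sub x y z).trans ?_⟩
  have h3 : ‖y‖ ≤ ‖x‖ + ‖x - y‖ := norm_le_insert x y
  have h4 := mul_le_mul_of_nonneg_left (h3.trans (add_le_add le_rfl h1)) hδ'
  linarith

theorem Close.trans {P : VonNeumannAlgebra H} {δ δ' : ℝ} (hδ : 0 ≤ δ) (hδ' : 0 ≤ δ')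
    (h1 : δ ≤ 1) (h1' : δ' ≤ 1) (h : Close M N δ) (h' : Close N P δ') :
    Close M P (2 * (δ + δ')) :=
  ⟨(h.1.trans hδ hδ' h'.1).mono (by nlinarith), (h'.2.trans hδ' hδ h.2).mono (by nlinarith)⟩

/-- Transport of a lift along a small unitary conjugation: `Θ' y = Θ (u* y u)`. -/
theorem HasLift.of_cj (hu : u ∈ unitary (Op H)) {ε η : ℝ} (h : ‖u - 1‖ ≤ ε)
    (hl : HasLift M (cj u N) η) : HasLift M N (η + 2 * ε) := by
  obtain ⟨Θ, hΘ⟩ := hl
  refine ⟨Θ ∘ₗ LinearMap.mulLeftRight ℂ (star u, u), fun y hy => ?_⟩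
  obtain ⟨h1, h2⟩ := hΘ (star u * y * u) ((mem_cj hu).2 (by rwa [conj_conj hu]))
  rw [LinearMap.comp_apply, LinearMap.mulLeftRight_apply]
  refine ⟨h1, (norm_sub_le_norm_sub_add_norm_sub _ (star u * y * u) _).trans ?_⟩
  have h3 := norm_sub_conj' hu h y
  rw [norm_sub_rev] at h3
  rw [norm_conj hu] at h2
  linarith

/-- If `M ⊆ N` and `N` is `δ`-near `M` with `δ < 1` then `N ⊆ M` (geometric series in the closed
subspace `M`). -/
theorem subset_of_near {δ : ℝ} (hδ : δ < 1) (hMN : ∀ x ∈ M, x ∈ N) (h : Near N M δ) :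
    ∀ y ∈ N, y ∈ M := by
  intro y hy
  have h0 : 0 ≤ max δ 0 := le_max_right _ _
  have key : ∀ n : ℕ, ∃ m ∈ M, ‖y - m‖ ≤ max δ 0 ^ n * ‖y‖ := by
    intro n
    induction n with
    | zero => exact ⟨0, zero_mem _, by simp⟩
    | succ n ih =>
      obtain ⟨m, hm, h1⟩ := ih
      obtain ⟨m', hm', h2⟩ := h.mono (le_max_left δ 0) (y - m) (sub_mem hy (hMN m hm))
      refine ⟨m + m', add_mem hm hm', ?_⟩
      rw [← sub_sub, pow_succ', mul_assoc]
      exact h2.trans (mul_le_mul_of_nonneg_left h1 h0)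
  choose m hm h1 using key
  have h2 : Tendsto m atTop (𝓝 y) := by
    rw [tendsto_iff_norm_sub_tendsto_zero]
    refine squeeze_zero (fun _ => norm_nonneg _) (fun n => (norm_sub_rev _ _).trans_le (h1 n)) ?_
    simpa using (tendsto_pow_atTop_nhds_zero_of_lt_one h0 (max_lt hδ one_pos)).mul_const ‖y‖
  exact (WLim.of_tendsto h2).mem (Eventually.of_forall hm)

/-- A vector cyclic for the commutant is separating. -/
theorem Cyc.sep {ξ : H} (h : Cyc M.commutant ξ) {x : Op H} (hx : x ∈ M) (h0 : x ξ = 0) :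
    x = 0 := by
  refine ContinuousLinearMap.coeFn_injective (Continuous.ext_on h x.continuous
    (0 : Op H).continuous ?_)
  rintro _ ⟨t, ht, rfl⟩
  have := congrArg (· ξ) (comm_of_mem hx ht)
  simpa [h0] using this

/-- Operators agreeing on `M ξ` agree. -/
theorem Cyc.ext {ξ : H} (h : Cyc M ξ) {K : Type*} [NormedAddCommGroup K] [NormedSpace ℂ K]
    {X Y : H →L[ℂ] K} (e : ∀ x ∈ M, X (x ξ) = Y (x ξ)) : X = Y := by
  refine ContinuousLinearMap.coeFn_injective (Continuous.ext_on h X.continuous Y.continuous ?_)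
  rintro _ ⟨t, ht, rfl⟩
  exact e t ht

end cj

end Crest.Agent.R78
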